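import Vale.Agent.P202.APAux

/-! Artin's induction: a polynomial system with a power series solution in characteristic zero
has a power series solution in some prime characteristic. -/

namespace Vale.Agent.P202

open IsLocalRing MvPowerSeries

universe u

/-- Newton's lemma in one variable. -/
theorem newton {A : Type u} [CommRing A] (I : Ideal A) [IsAdicComplete I A] (f : Polynomial A)
    (a w : A) (hw : w ∈ I) (h : f.eval a = (f.derivative.eval a) ^ 2 * w) :
    ∃ w' ∈ I, f.eval (a + f.derivative.eval a * w') = 0 := by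
  simpa using ap_newton I f a 1 w hw (by simpa using h)

/-- A change of variables making a nonzero series regular in the variable `0`. -/
theorem exists_regular {k : Type u} [Field k] {n : ℕ} (Δ : PS (Fin (n + 1)) k) (h : Δ ≠ 0) :
    ∃ (e : Fin n → ℕ) (τ : PS (Fin (n + 1)) k →+* PS (Fin (n + 1)) k), (∀ i, 1 ≤ e i) ∧
      τ (X 0) = X 0 ∧ (∀ i, τ (X i.succ) = X i.succ + X 0 ^ e i) ∧
      PowerSeries.map (residue (PS (Fin n) k)) (finSuccEquiv k n (τ Δ)) ≠ 0 := by
  classical
  have hS : {β : Fin (n + 1) → ℕ | coeff (Finsupp.equivFunOnFinite.symm β) Δ ≠ 0}.Nonempty := by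
    by_contra hne
    apply h
    ext d
    by_contra hd
    exact hne ⟨d, by simpa using hd⟩
  obtain ⟨e, he0, he, α, hα, hmin⟩ := ap_weights n _ hS
  let a : Fin (n + 1) → PS (Fin (n + 1)) k :=
    Fin.cases (X 0) fun i => X i.succ + X 0 ^ e i.succ
  have ha : HasSubst a := by
    refine hasSubst_of_constantCoeff_zero fun i => ?_
    refine Fin.cases ?_ (fun j => ?_) i
    · simp [a]
    · have := he j.succ
      simp [a, zero_pow (show e j.succ ≠ 0 by omega)]
  refine ⟨fun i => e i.succ, (substAlgHom (R := k) ha).toRingHom, fun i => he _, ?_, fun i => ?_, ?_⟩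
  · exact substAlgHom_X ha 0
  · exact substAlgHom_X ha i.succ
  · let π : PS (Fin (n + 1)) k →+* PowerSeries k :=
      (PowerSeries.map (constantCoeff : PS (Fin n) k →+* k)).comp (finSuccEquiv k n).toRingHom
    have hπ : ∀ (F : PS (Fin (n + 1)) k) (N : ℕ),
        PowerSeries.coeff N (π F) = coeff (Finsupp.cons N 0) F := by
      intro F N
      rw [← coeff_coeff_finSuccEquiv]
      rfl
    have hπa : ∀ i, π (a i) = PowerSeries.X ^ e i := by
      intro i
      refine Fin.cases ?_ (fun j => ?_) i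
      · simp [π, a, he0]
      · simp [π, a]
    set N := ∑ i, e i * α i with hN
    have h1 : coeff (Finsupp.cons N 0) (subst a Δ) = coeff (Finsupp.equivFunOnFinite.symm α) Δ := by
      have h2 : ∀ d : Fin (n + 1) →₀ ℕ, coeff (Finsupp.cons N 0) (d.prod fun s m => a s ^ m) =
          if N = ∑ i, e i * d i then 1 else 0 := by
        intro d
        rw [← hπ, Finsupp.prod_fintype _ _ (by simp), map_prod]
        simp only [map_pow, hπa, ← pow_mul]
        rw [Finset.prod_pow_eq_pow_sum, PowerSeries.coeff_X_pow]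
      rw [coeff_subst ha, finsum_eq_single _ (Finsupp.equivFunOnFinite.symm α)]
      · rw [h2, if_pos (by simp [hN]), smul_eq_mul, mul_one]
      · intro d hd
        rw [h2]
        split_ifs with h3
        · by_contra h4
          have h5 : coeff d Δ ≠ 0 := by simpa using h4
          have h6 := hmin d (by simpa using h5) (fun h7 => hd (by rw [← h7]; simp))
          omega
        · simp
    intro h0
    have h2 := congrArg (PowerSeries.coeff N) h0
    rw [PowerSeries.coeff_map, map_zero, residue_eq_zero_iff, mem_maximalIdeal,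
      mem_nonunits_iff, isUnit_iff_constantCoeff] at h2
    apply h2
    change IsUnit (coeff 0 (PowerSeries.coeff N (finSuccEquiv k n (substAlgHom ha Δ))))
    rw [coeff_coeff_finSuccEquiv, substAlgHom_apply, h1]
    exact isUnit_iff_ne_zero.2 hα

/-- Generic presentation of a finitely generated domain of characteristic zero over a subring
generated by `ξ`: away from `g` it is a hypersurface with separable equation.
The variables `Sum.inl` are the `ξ`, the variables `Sum.inr` are a transcendence basis. -/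
theorem exists_presentation {C : Type u} [CommRing C] [IsDomain C] [CharZero C]
    [Algebra.FiniteType ℤ C] {n : ℕ} (ξ : Fin n → C) (hξ : AlgebraicIndependent ℤ ξ) :
    ∃ (r N : ℕ) (t : Fin r → C) (θ : C) (η : Fin N → C)
      (f : Polynomial (MvPolynomial (Fin n ⊕ Fin r) ℤ)) (g : MvPolynomial (Fin n ⊕ Fin r) ℤ)
      (P : Fin N → Polynomial (MvPolynomial (Fin n ⊕ Fin r) ℤ)),
      f.eval₂ (MvPolynomial.aeval (Sum.elim ξ t)).toRingHom θ = 0 ∧
      f.derivative.eval₂ (MvPolynomial.aeval (Sum.elim ξ t)).toRingHom θ ≠ 0 ∧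
      MvPolynomial.aeval (Sum.elim ξ t) g ≠ 0 ∧
      (∀ i, MvPolynomial.aeval (Sum.elim ξ t) g * η i =
        (P i).eval₂ (MvPolynomial.aeval (Sum.elim ξ t)).toRingHom θ) ∧
      ∀ (B : Type u) [CommRing B] [IsDomain B] (ξ' : Fin n → B) (t' : Fin r → B) (θ' : B)
        (η' : Fin N → B), f.eval₂ (MvPolynomial.aeval (Sum.elim ξ' t')).toRingHom θ' = 0 →
        MvPolynomial.aeval (Sum.elim ξ' t') g ≠ 0 →
        (∀ i, MvPolynomial.aeval (Sum.elim ξ' t') g * η' i =
          (P i).eval₂ (MvPolynomial.aeval (Sum.elim ξ' t')).toRingHom θ') →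
        ∃ ψ : C →+* B, ∀ i, ψ (ξ i) = ξ' i := by
  classical
  obtain ⟨N, F, hF⟩ := Algebra.FiniteType.iff_quotient_mvPolynomial''.1 ‹Algebra.FiniteType ℤ C›
  let η : Fin N → C := fun i => F (MvPolynomial.X i)
  have hFη : F = MvPolynomial.aeval η := MvPolynomial.algHom_ext fun i => by simp [η]
  have htop : Algebra.adjoin ℤ (Set.range ξ ∪ Set.range η) = ⊤ := by
    rw [eq_top_iff]
    refine le_trans ?_ (Algebra.adjoin_mono Set.subset_union_right)
    rw [Algebra.adjoin_range_eq_range_aeval, ← hFη]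
    intro c _
    exact hF c
  have halg : Algebra.IsAlgebraic (Algebra.adjoin ℤ (Set.range ξ ∪ Set.range η)) C := by
    constructor
    intro c
    exact isAlgebraic_algebraMap (⟨c, by rw [htop]; trivial⟩ :
      Algebra.adjoin ℤ (Set.range ξ ∪ Set.range η))
  obtain ⟨U, hU1, hU2, hU⟩ := exists_isTranscendenceBasis_between (R := ℤ) (Set.range ξ)
    (Set.range ξ ∪ Set.range η) Set.subset_union_left hξ.to_subtype_range
  have hfin : (U \ Set.range ξ).Finite :=
    (((Set.finite_range ξ).union (Set.finite_range η)).subset hU2).subset Set.sdiff_subset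
  obtain ⟨r, t, ht⟩ := hfin.fin_embedding
  have hinj : Function.Injective (Sum.elim ξ t) := by
    refine hξ.injective.sumElim t.injective ?_
    intro i j h
    have h1 : t j ∈ U \ Set.range ξ := ht ▸ Set.mem_range_self j
    exact h1.2 ⟨i, h⟩
  have hrange : Set.range (Sum.elim ξ t) = U := by
    rw [Set.Sum.elim_range, ht, Set.union_sdiff_cancel hU1]
  have hind : AlgebraicIndependent ℤ (Sum.elim ξ t) := by
    rw [← algebraicIndependent_subtype_range hinj, hrange]
    exact hU.1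
  have halg2 : Algebra.IsAlgebraic (Algebra.adjoin ℤ (Set.range (Sum.elim ξ t))) C := by
    have := hU.isAlgebraic
    rwa [Subtype.range_coe, ← hrange] at this
  let ρ : MvPolynomial (Fin n ⊕ Fin r) ℤ →+* C := (MvPolynomial.aeval (Sum.elim ξ t)).toRingHom
  let _ : Algebra (MvPolynomial (Fin n ⊕ Fin r) ℤ) C := ρ.toAlgebra
  have : FaithfulSMul (MvPolynomial (Fin n ⊕ Fin r) ℤ) C :=
    (faithfulSMul_iff_algebraMap_injective _ _).2 hind
  have : Algebra.IsAlgebraic (MvPolynomial (Fin n ⊕ Fin r) ℤ) C := by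
    constructor
    intro c
    obtain ⟨p, hp0, hp⟩ := halg2.isAlgebraic c
    refine ⟨p.map hind.aevalEquiv.symm.toAlgHom.toRingHom,
      (Polynomial.map_ne_zero_iff hind.aevalEquiv.symm.injective).2 hp0, ?_⟩
    rw [Polynomial.aeval_def, Polynomial.eval₂_map, ← hp, Polynomial.aeval_def]
    congr 1
    refine RingHom.ext fun z => ?_
    obtain ⟨q, rfl⟩ := hind.aevalEquiv.surjective z
    change ρ (hind.aevalEquiv.symm (hind.aevalEquiv q)) = _
    rw [AlgEquiv.symm_apply_apply]
    rfl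
  obtain ⟨θ, f, g, P, h1, h2, h3, h4, h5⟩ := ap_pres (R0 := MvPolynomial (Fin n ⊕ Fin r) ℤ) η
  refine ⟨r, N, t, θ, η, f, g, P, h1, h2, (map_ne_zero_iff _ hind).2 h3, h4, ?_⟩
  intro B _ _ ξ' t' θ' η' hf' hg' hP'
  have hsurj : Function.Surjective (MvPolynomial.eval₂Hom ρ η) := by
    intro c
    obtain ⟨G, rfl⟩ := hF c
    refine ⟨MvPolynomial.map (Int.castRingHom _) G, ?_⟩
    rw [MvPolynomial.eval₂Hom_map_hom, hFη, MvPolynomial.aeval_def, MvPolynomial.coe_eval₂Hom]
    congr 1
    exact RingHom.ext_int _ _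
  obtain ⟨ψ, hψ⟩ := ap_univ ρ η θ f g P hsurj h4 h5
    (MvPolynomial.aeval (Sum.elim ξ' t')).toRingHom η' θ' hf' hg' hP'
  refine ⟨ψ, fun i => ?_⟩
  simpa [ρ] using hψ (MvPolynomial.X (Sum.inl i))

theorem ap_indep {k : Type u} [Field k] [CharZero k] {σ : Type} {C : Type u} [CommRing C]
    (φ : C →+* PS σ k) (ξ : σ → C) (hξ : ∀ i, φ (ξ i) = X i) : AlgebraicIndependent ℤ ξ := by
  have h : φ.comp (MvPolynomial.aeval (R := ℤ) ξ).toRingHom =
      (MvPolynomial.coeToMvPowerSeries.ringHom).comp (MvPolynomial.map (Int.castRingHom k)) := by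
    refine MvPolynomial.ringHom_ext (fun z => by simp) fun i => ?_
    simp [hξ]
  change Function.Injective (MvPolynomial.aeval (R := ℤ) ξ).toRingHom
  refine Function.Injective.of_comp (f := φ) ?_
  rw [← RingHom.coe_comp, h, RingHom.coe_comp]
  exact (MvPolynomial.coe_injective σ k).comp
    (MvPolynomial.map_injective _ (Int.castRingHom k).injective_int)

theorem ap_isDomain (σ : Type) (k : Type u) [Field k] : IsDomain (PS σ k) :=
  NoZeroDivisors.to_isDomain _

theorem ap_step {k : Type u} [Field k] [CharZero k] (n : ℕ)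
    (ih : ∀ (C : Type u) [CommRing C] [Algebra.FiniteType ℤ C] (φ : C →+* PS (Fin n) k)
      (ξ : Fin n → C), (∀ i, φ (ξ i) = X i) →
      ∃ (κ : Type u) (_ : Field κ) (p : ℕ) (ψ : C →+* PS (Fin n) κ), p.Prime ∧ (p : κ) = 0 ∧
        ∀ i, ψ (ξ i) = X i)
    (C : Type u) [CommRing C] [IsDomain C] [CharZero C] [Algebra.FiniteType ℤ C]
    (φ : C →+* PS (Fin (n + 1)) k) (hφ : Function.Injective φ) (ξ : Fin (n + 1) → C)
    (hξ : ∀ i, φ (ξ i) = X i) :
    ∃ (κ : Type u) (_ : Field κ) (p : ℕ) (ψ : C →+* PS (Fin (n + 1)) κ), p.Prime ∧ (p : κ) = 0 ∧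
      ∀ i, ψ (ξ i) = X i := by
  obtain ⟨r, N, t, θ, η, f, g, P, h1, h2, h3, h4, huniv⟩ :=
    exists_presentation ξ (ap_indep φ ξ hξ)
  simp only [aeval_eq_zev, aeval_eq_zev'] at h1 h2 h3 h4 huniv
  have := ap_isDomain (Fin n) k
  obtain ⟨e, τ, he, hτ0, hτ, hreg⟩ :=
    exists_regular _ ((map_ne_zero_iff φ hφ).2 (mul_ne_zero h3 h2))
  have := ps_isAdicComplete (σ := Fin n) k
  let Φ : C →+* PowerSeries (PS (Fin n) k) := (finSuccEquiv k n).toRingHom.comp (τ.comp φ)
  let ξ' : Fin (n + 1) → Polynomial (PS (Fin n) k) :=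
    Fin.cases Polynomial.X fun i => Polynomial.C (X i) + Polynomial.X ^ e i
  obtain ⟨t', θ', a, u, w, η', v, c, ha, hc, e1, e2, e3⟩ :=
    ap_poly Φ ξ t θ η f g P ξ' (fun i => by
      refine Fin.cases ?_ (fun j => ?_) i
      · simp [ξ', Φ, hξ, hτ0]
      · simp [ξ', Φ, hξ, hτ]) h1 h4 hreg
  obtain ⟨C', _, hft, j0, hval, hP, hQ⟩ := ap_spread
    (Set.range t' ∪ Set.range η' ∪ Set.range v ∪ {θ', a, u, w})
    ((((Set.finite_range _).union (Set.finite_range _)).union (Set.finite_range _)).union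
      (Set.toFinite _))
    (Set.range (X : Fin n → PS (Fin n) k) ∪ {c}) ((Set.finite_range _).union (Set.toFinite _))
  choose t1 ht1 using fun j => hP (t' j) (by simp)
  choose η1 hη1 using fun j => hP (η' j) (by simp)
  choose v1 hv1 using fun j => hP (v j) (by simp)
  obtain ⟨θ1, hθ1⟩ := hP θ' (by simp)
  obtain ⟨a1, ha1⟩ := hP a (by simp)
  obtain ⟨u1, hu1⟩ := hP u (by simp)
  obtain ⟨w1, hw1⟩ := hP w (by simp)
  choose x1 hx1 using fun i => hQ (X i) (by simp)
  obtain ⟨c1, hc1⟩ := hQ c (by simp)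
  obtain ⟨κ, _, p, ψ', hp, hpκ, hψ'⟩ := ih C' j0 x1 hx1
  have := ap_isDomain (Fin n) κ
  let ξ1 : Fin (n + 1) → Polynomial C' :=
    Fin.cases Polynomial.X fun i => Polynomial.C (x1 i) + Polynomial.X ^ e i
  let ι : Polynomial C' →+* Polynomial (PS (Fin n) k) := Polynomial.mapRingHom j0
  have hι : Function.Injective ι := Polynomial.map_injective _ hval
  set ρ1 := zev (Sum.elim ξ1 t1) with hρ1
  have hιρ : ι.comp ρ1 = (zev (Sum.elim ξ' t')) := by
    refine MvPolynomial.ringHom_ext (fun z => by simp) ?_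
    rintro (i | j)
    · refine Fin.cases ?_ (fun j => ?_) i
      · simp [hρ1, ι, ξ1, ξ']
      · simp [hρ1, ι, ξ1, ξ', hx1]
    · simpa [hρ1, ι] using ht1 j
  have hev : ∀ q : Polynomial (MvPolynomial (Fin (n + 1) ⊕ Fin r) ℤ), ι (q.eval₂ ρ1 θ1) =
      q.eval₂ (zev (Sum.elim ξ' t')) θ' := by
    intro q
    rw [Polynomial.hom_eval₂, hιρ, ← hθ1]
    rfl
  have hιg : ι (ρ1 g) = (zev (Sum.elim ξ' t')) g :=
    RingHom.congr_fun hιρ g
  have hιX : ι Polynomial.X = Polynomial.X := Polynomial.map_X _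
  have d1 : f.eval₂ ρ1 θ1 = a1 * Polynomial.X * w1 := by
    apply hι
    rw [hev, e1, map_mul, map_mul, hιX, ← ha1, ← hw1]
    rfl
  have d2 : ∀ i, ρ1 g * η1 i - (P i).eval₂ ρ1 θ1 = a1 * Polynomial.X * v1 i := by
    intro i
    apply hι
    rw [map_sub, map_mul, hev, hιg, show ι (η1 i) = η' i from hη1 i, e2, map_mul, map_mul, hιX,
      ← ha1, ← hv1]
    rfl
  have d3 : (ρ1 g * f.derivative.eval₂ ρ1 θ1) ^ 2 = a1 * u1 := by
    apply hι
    rw [map_pow, map_mul, hev, hιg, e3, map_mul, ← ha1, ← hu1]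
    rfl
  have d4 : a1.Monic := Polynomial.monic_of_injective hval (ha1 ▸ ha)
  have d5 : u1.coeff 0 * c1 = 1 := by
    apply hval
    rw [map_mul, map_one, ← Polynomial.coeff_map, hu1, hc1]
    exact hc
  let Ψ : Polynomial C' →+* PowerSeries (PS (Fin n) κ) :=
    Polynomial.coeToPowerSeries.ringHom.comp (Polynomial.mapRingHom ψ')
  have hΨ : ∀ q, Ψ q = (q.map ψ' : Polynomial (PS (Fin n) κ)) := fun q => rfl
  have hΨX : Ψ Polynomial.X = PowerSeries.X := by rw [hΨ, Polynomial.map_X, Polynomial.coe_X]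
  obtain ⟨θ2, η2, s1, s2, s3⟩ := ap_solve (Ideal.span {(PowerSeries.X : PowerSeries (PS (Fin n) κ))})
    (Ψ.comp ρ1) f g P (Ψ θ1) (Ψ a1) (Ψ u1) PowerSeries.X (Ψ w1) (fun i => Ψ (η1 i))
    (fun i => Ψ (v1 i))
    (by rw [hΨ, ne_eq, Polynomial.coe_eq_zero_iff]; exact (d4.map ψ').ne_zero)
    (by
      rw [PowerSeries.isUnit_iff_constantCoeff, hΨ, Polynomial.constantCoeff_coe,
        Polynomial.coeff_map]
      exact (IsUnit.of_mul_eq_one _ d5).map ψ')
    (Ideal.mem_span_singleton_self _)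
    (by rw [← Polynomial.hom_eval₂, d1, map_mul, map_mul, hΨX])
    (fun i => by
      rw [← Polynomial.hom_eval₂, RingHom.comp_apply, ← map_mul, ← map_sub, d2, map_mul, map_mul,
        hΨX])
    (by rw [← Polynomial.hom_eval₂, RingHom.comp_apply, ← map_mul, ← map_pow, d3, map_mul])
  have hΨρ : Ψ.comp ρ1 = zev (Sum.elim (fun i => Ψ (ξ1 i)) fun j => Ψ (t1 j)) := by
    refine MvPolynomial.ringHom_ext (fun z => by simp) ?_
    rintro (i | j) <;> simp [hρ1]
  rw [hΨρ] at s1 s2 s3
  obtain ⟨ψ0, hψ0⟩ := huniv (PowerSeries (PS (Fin n) κ)) _ _ θ2 η2 s1 s2 s3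
  let b : Fin (n + 1) → PS (Fin (n + 1)) κ := Fin.cases (X 0) fun i => X i.succ - X 0 ^ e i
  have hb : HasSubst b := by
    refine hasSubst_of_constantCoeff_zero fun i => ?_
    refine Fin.cases ?_ (fun j => ?_) i
    · simp [b]
    · have := he j
      simp [b, zero_pow (show e j ≠ 0 by omega)]
  have k0 : (finSuccEquiv κ n).symm PowerSeries.X = X 0 := by
    rw [AlgEquiv.symm_apply_eq, finSuccEquiv_X_zero]
  have k1 : ∀ j, (finSuccEquiv κ n).symm (PowerSeries.C (X j)) = X j.succ := fun j => by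
    rw [AlgEquiv.symm_apply_eq, finSuccEquiv_X_succ]
  refine ⟨κ, inferInstance, p, (substAlgHom (R := κ) hb).toRingHom.comp
    ((finSuccEquiv κ n).symm.toRingHom.comp ψ0), hp, hpκ, fun i => ?_⟩
  change substAlgHom (R := κ) hb ((finSuccEquiv κ n).symm (ψ0 (ξ i))) = X i
  rw [hψ0]
  refine Fin.cases ?_ (fun j => ?_) i
  · change substAlgHom (R := κ) hb ((finSuccEquiv κ n).symm (Ψ Polynomial.X)) = _
    rw [hΨX, k0, substAlgHom_X]
    rfl
  · change substAlgHom (R := κ) hb ((finSuccEquiv κ n).symm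
      (Ψ (Polynomial.C (x1 j) + Polynomial.X ^ e j))) = _
    rw [map_add, map_pow, hΨX, hΨ, Polynomial.map_C, Polynomial.coe_C, hψ', map_add, map_pow, k0,
      k1, map_add, map_pow, substAlgHom_X, substAlgHom_X]
    exact sub_add_cancel _ _

theorem artin_transfer {k : Type u} [Field k] [CharZero k] (n : ℕ) (C : Type u) [CommRing C]
    [Algebra.FiniteType ℤ C] (φ : C →+* PS (Fin n) k) (ξ : Fin n → C)
    (hξ : ∀ i, φ (ξ i) = X i) :
    ∃ (κ : Type u) (_ : Field κ) (p : ℕ) (ψ : C →+* PS (Fin n) κ), p.Prime ∧ (p : κ) = 0 ∧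
      ∀ i, ψ (ξ i) = X i := by
  induction n generalizing C with
  | zero =>
    have := φ.domain_nontrivial
    obtain ⟨κ, _, p, ψ, hp, hpκ⟩ := ap_base C
    exact ⟨κ, inferInstance, p, MvPowerSeries.C.comp ψ, hp, hpκ, fun i => i.elim0⟩
  | succ n ih =>
    have : CharZero (PS (Fin (n + 1)) k) := algebraRat.charZero _
    have := ap_isDomain (Fin (n + 1)) k
    have : Algebra.FiniteType ℤ φ.range :=
      Algebra.FiniteType.of_surjective φ.rangeRestrict.toIntAlgHom φ.rangeRestrict_surjective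
    obtain ⟨κ, _, p, ψ, hp, hpκ, hψ⟩ := ap_step n (fun C _ _ φ ξ h => ih C φ ξ h) φ.range
      φ.range.subtype Subtype.val_injective (fun i => φ.rangeRestrict (ξ i)) hξ
    exact ⟨κ, inferInstance, p, ψ.comp φ.rangeRestrict, hp, hpκ, hψ⟩

end Vale.Agent.P202
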