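import Vale.Agent.P202.PS

/-! Auxiliary lemmas for Artin's induction. -/

namespace Vale.Agent.P202

open IsLocalRing Polynomial

universe u

section newton

variable {A : Type u} [CommRing A]

theorem ap_fixed (I : Ideal A) [IsAdicComplete I A] (h : A[X]) (w : A) (hw : w ∈ I) :
    ∃ y ∈ I, w + y + y ^ 2 * h.eval y = 0 := by
  let c : ℕ → A := fun n => Nat.recOn n 0 fun _ b => -w - b ^ 2 * h.eval b
  have hc : ∀ n, c (n + 1) = -w - c n ^ 2 * h.eval (c n) := fun n => rfl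
  have hcI : ∀ n, c n ∈ I := by
    intro n
    induction n with
    | zero => exact I.zero_mem
    | succ n ih =>
      rw [hc]
      exact I.sub_mem (I.neg_mem hw) (I.mul_mem_right _ (I.pow_mem_of_mem ih 2 two_pos))
  have hG : ∀ (n : ℕ) (x y : A), x ∈ I → y ∈ I → x - y ∈ I ^ n →
      x ^ 2 * h.eval x - y ^ 2 * h.eval y ∈ I ^ (n + 1) := by
    intro n x y hx hy hxy
    obtain ⟨z, hz⟩ := Polynomial.sub_dvd_eval_sub x y h
    have : x ^ 2 * h.eval x - y ^ 2 * h.eval y =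
        (x - y) * ((x + y) * h.eval x + y * (y * z)) := by
      linear_combination y ^ 2 * hz
    rw [this, pow_succ]
    exact Ideal.mul_mem_mul hxy (I.add_mem (I.mul_mem_right _ (I.add_mem hx hy))
      (I.mul_mem_right _ hy))
  have hstep : ∀ n, c (n + 1) - c n ∈ I ^ (n + 1) := by
    intro n
    induction n with
    | zero =>
      have : c (0 + 1) - c 0 = -w := by simp [c]
      rw [this, zero_add, pow_one]
      exact I.neg_mem hw
    | succ n ih =>
      have : c (n + 1 + 1) - c (n + 1) =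
          -(c (n + 1) ^ 2 * h.eval (c (n + 1)) - c n ^ 2 * h.eval (c n)) := by
        linear_combination hc (n + 1) - hc n
      rw [this]
      exact (I ^ _).neg_mem (hG (n + 1) _ _ (hcI (n + 1)) (hcI n) ih)
  have aux : ∀ m n, m ≤ n → c m ≡ c n [SMOD (I ^ m • ⊤ : Ideal A)] := by
    intro m n hmn
    rw [Ideal.smul_eq_mul, Ideal.mul_top, SModEq.sub_mem]
    obtain ⟨k, rfl⟩ := Nat.exists_eq_add_of_le hmn
    induction k with
    | zero => simp
    | succ k ih =>
      have : c m - c (m + (k + 1)) = (c m - c (m + k)) - (c (m + k + 1) - c (m + k)) := by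
        rw [← add_assoc]; ring
      rw [this]
      exact (I ^ m).sub_mem (ih (by omega)) (Ideal.pow_le_pow_right (by omega) (hstep _))
  obtain ⟨y, hy⟩ := IsPrecomplete.prec' c (aux _ _)
  have hy' : ∀ n, y - c n ∈ I ^ n := by
    intro n
    have := (hy n).symm
    rwa [Ideal.smul_eq_mul, Ideal.mul_top, SModEq.sub_mem] at this
  have hyI : y ∈ I := by
    have h1 := hy' 1
    rw [pow_one] at h1
    simpa using I.add_mem h1 (hcI 1)
  refine ⟨y, hyI, IsHausdorff.haus' (I := I) _ fun n => ?_⟩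
  rw [Ideal.smul_eq_mul, Ideal.mul_top, SModEq.zero]
  have : w + y + y ^ 2 * h.eval y =
      (y - c (n + 1)) + (y ^ 2 * h.eval y - c n ^ 2 * h.eval (c n)) := by
    rw [hc]; ring
  rw [this]
  exact Ideal.pow_le_pow_right (Nat.le_succ n)
    ((I ^ _).add_mem (hy' _) (hG _ _ _ hyI (hcI _) (hy' n)))

theorem ap_newton (I : Ideal A) [IsAdicComplete I A] (f : A[X]) (a c w : A) (hw : w ∈ I)
    (h : f.eval a = (f.derivative.eval a) ^ 2 * (c * w)) :
    ∃ w' ∈ I, f.eval (a + f.derivative.eval a * (c * w')) = 0 := by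
  set D := f.derivative.eval a with hD
  set q := (taylor a f).divX.divX with hq
  have hb : ∀ b, f.eval (a + b) = f.eval a + D * b + b ^ 2 * q.eval b := by
    intro b
    have h1 := congrArg (eval b) (X_mul_divX_add (taylor a f))
    have h2 := congrArg (eval b) (X_mul_divX_add (taylor a f).divX)
    rw [eval_add, eval_mul, eval_X, eval_C] at h1 h2
    rw [taylor_eval, taylor_coeff_zero, add_comm b a] at h1
    rw [coeff_divX, zero_add, taylor_coeff_one] at h2
    rw [← h1, ← h2]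
    ring
  obtain ⟨y, hy, hy'⟩ := ap_fixed I (C c * q.comp (C (D * c) * X)) w hw
  refine ⟨y, hy, ?_⟩
  rw [eval_mul, eval_C, eval_comp, eval_mul, eval_C, eval_X] at hy'
  rw [hb, h, ← mul_assoc D c y]
  linear_combination D ^ 2 * c * hy'

end newton

theorem ap_weights (n : ℕ) : ∀ (S : Set (Fin (n + 1) → ℕ)), S.Nonempty →
    ∃ e : Fin (n + 1) → ℕ, e 0 = 1 ∧ (∀ i, 1 ≤ e i) ∧ ∃ α ∈ S, ∀ β ∈ S, β ≠ α →
      ∑ i, e i * α i < ∑ i, e i * β i := by
  induction n with
  | zero =>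
    intro S hS
    obtain ⟨α, hα, hmin⟩ := (measure fun β : Fin 1 → ℕ => β 0).wf.has_min S hS
    refine ⟨fun _ => 1, rfl, fun _ => le_rfl, α, hα, fun β hβ hne => ?_⟩
    have h1 : ¬ β 0 < α 0 := hmin β hβ
    have h2 : β 0 ≠ α 0 := fun h => hne (funext fun i => by rw [Fin.fin_one_eq_zero i, h])
    simp only [Nat.reduceAdd, Fin.sum_univ_one, one_mul]
    omega
  | succ n ih =>
    intro S hS
    obtain ⟨γ, hγ, hmin⟩ := (measure fun β : Fin (n + 2) → ℕ => β (Fin.last _)).wf.has_min S hS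
    obtain ⟨e, he0, he, α', ⟨α, ⟨hα, hαl⟩, rfl⟩, hα'⟩ :=
      ih (Fin.init '' {β | β ∈ S ∧ β (Fin.last _) = γ (Fin.last _)}) ⟨_, γ, ⟨hγ, rfl⟩, rfl⟩
    refine ⟨Fin.snoc e (∑ i, e i * Fin.init α i + 1), ?_, ?_, α, hα, fun β hβ hne => ?_⟩
    · rw [← Fin.castSucc_zero, Fin.snoc_castSucc, he0]
    · intro i
      refine Fin.lastCases ?_ (fun j => ?_) i
      · simp
      · simpa using he j
    · rw [Fin.sum_univ_castSucc, Fin.sum_univ_castSucc (n := n + 1)]
      simp only [Fin.snoc_castSucc, Fin.snoc_last]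
      change ∑ i, e i * Fin.init α i + _ < ∑ i, e i * Fin.init β i + _
      by_cases hb : β (Fin.last _) = γ (Fin.last _)
      · have h1 : Fin.init β ≠ Fin.init α := by
          intro h
          apply hne
          rw [← Fin.snoc_init_self β, ← Fin.snoc_init_self α, h, hb, hαl]
        have h2 := hα' _ ⟨β, ⟨hβ, hb⟩, rfl⟩ h1
        rw [hb, hαl]
        omega
      · have h1 : ¬ β (Fin.last _) < γ (Fin.last _) := hmin β hβ
        have h2 : α (Fin.last _) + 1 ≤ β (Fin.last _) := by omega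
        have h3 := Nat.mul_le_mul_left (∑ i, e i * Fin.init α i + 1) h2
        rw [mul_add, mul_one] at h3
        omega

section pres

attribute [local instance] FractionRing.liftAlgebra

theorem ap_pres {R0 : Type} {C : Type u} [CommRing R0] [IsDomain R0] [IsIntegrallyClosed R0]
    [CharZero R0] [CommRing C] [IsDomain C] [Algebra R0 C] [FaithfulSMul R0 C]
    [Algebra.IsAlgebraic R0 C] {N : ℕ} (η : Fin N → C) :
    ∃ (θ : C) (f : R0[X]) (g : R0) (P : Fin N → R0[X]), aeval θ f = 0 ∧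
      aeval θ f.derivative ≠ 0 ∧ g ≠ 0 ∧ (∀ i, algebraMap R0 C g * η i = aeval θ (P i)) ∧
      ∀ H : R0[X], aeval θ H = 0 → f ∣ H := by
  classical
  let K := FractionRing R0
  let L := FractionRing C
  have hinj : Function.Injective (algebraMap C L) := IsFractionRing.injective C L
  have halg : ∀ c : C, IsIntegral K (algebraMap C L c) := fun c =>
    (((Algebra.IsAlgebraic.isAlgebraic (R := R0) c).algebraMap (A := L)).extendScalars
      (IsFractionRing.injective R0 K)).isIntegral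
  let L' := IntermediateField.adjoin K (Set.range fun i => algebraMap C L (η i))
  have hfin : FiniteDimensional K L' :=
    IntermediateField.finiteDimensional_adjoin (by rintro _ ⟨i, rfl⟩; exact halg _)
  obtain ⟨α0, hα0⟩ := Field.exists_primitive_element K L'
  have hmem : ∀ i, algebraMap C L (η i) ∈ Algebra.adjoin K {(α0 : L)} := by
    intro i
    have h1 : (⟨algebraMap C L (η i), IntermediateField.subset_adjoin _ _ ⟨i, rfl⟩⟩ : L') ∈
        (IntermediateField.adjoin K {α0}).toSubalgebra := by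
      rw [hα0]; trivial
    rw [IntermediateField.adjoin_simple_toSubalgebra_of_isAlgebraic
      (Algebra.IsAlgebraic.isAlgebraic α0), Algebra.adjoin_singleton_eq_range_aeval] at h1
    obtain ⟨p, hp⟩ := h1
    rw [Algebra.adjoin_singleton_eq_range_aeval]
    refine ⟨p, ?_⟩
    have h2 := congrArg L'.val hp
    change L'.val (aeval α0 p) = _ at h2
    rw [← aeval_algHom_apply] at h2
    exact h2
  obtain ⟨⟨c, _, d, hd, rfl⟩, hcd⟩ :=
    IsLocalization.surj (Algebra.algebraMapSubmonoid C (nonZeroDivisors R0)) (α0 : L)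
  obtain ⟨y, hy, hθ⟩ := (Algebra.IsAlgebraic.isAlgebraic (R := R0) c).exists_integral_multiple
  set θ := y • c with hθdef
  have hd0 : d ≠ 0 := nonZeroDivisors.ne_zero hd
  have hα : (α0 : L) ∈ Algebra.adjoin K {algebraMap C L θ} := by
    have h1 : (α0 : L) = (algebraMap R0 K (y * d))⁻¹ • algebraMap C L θ := by
      have h2 : algebraMap R0 K (y * d) ≠ 0 := by
        rw [ne_eq, map_eq_zero_iff _ (IsFractionRing.injective R0 K)]
        exact mul_ne_zero hy hd0
      rw [eq_inv_smul_iff₀ h2, hθdef, Algebra.smul_def, Algebra.smul_def, map_mul (algebraMap C L),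
        ← hcd, ← IsScalarTower.algebraMap_apply, ← IsScalarTower.algebraMap_apply,
        ← IsScalarTower.algebraMap_apply, map_mul]
      ring
    rw [h1]
    exact Subalgebra.smul_mem _ (Algebra.self_mem_adjoin_singleton K _) _
  have hP : ∀ i, ∃ (b : R0) (P : R0[X]), b ≠ 0 ∧ algebraMap R0 C b * η i = aeval θ P := by
    intro i
    have h1 : algebraMap C L (η i) ∈ Algebra.adjoin K {algebraMap C L θ} :=
      Algebra.adjoin_le (Set.singleton_subset_iff.2 hα) (hmem i)
    obtain ⟨b, hb⟩ := multiple_mem_adjoin_of_mem_localization_adjoin (nonZeroDivisors R0) K _ _ h1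
    rw [Algebra.adjoin_singleton_eq_range_aeval] at hb
    obtain ⟨P, hP⟩ := hb
    refine ⟨b, P, nonZeroDivisors.ne_zero b.2, hinj ?_⟩
    change aeval (algebraMap C L θ) P = _ at hP
    rw [← aeval_algebraMap_apply, hP, Submonoid.smul_def, Algebra.smul_def, map_mul,
      ← IsScalarTower.algebraMap_apply]
  choose b P hb hP using hP
  refine ⟨θ, minpoly R0 θ, ∏ i, b i, fun i => Polynomial.C (∏ j ∈ Finset.univ.erase i, b j) * P i,
    minpoly.aeval R0 θ, ?_, Finset.prod_ne_zero_iff.2 fun i _ => hb i, fun i => ?_,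
    fun H hH => minpoly.isIntegrallyClosed_dvd hθ hH⟩
  · intro h
    have h1 := minpoly.isIntegrallyClosed_dvd hθ h
    have h2 := minpoly.natDegree_pos hθ
    have h3 : derivative (minpoly R0 θ) ≠ 0 := fun h4 =>
      h2.ne' (derivative_eq_zero.1 h4)
    exact absurd (natDegree_le_of_dvd h1 h3) (not_le.2 (natDegree_derivative_lt h2.ne'))
  · rw [map_mul, aeval_C, ← hP, ← mul_assoc, ← map_mul,
      Finset.prod_erase_mul _ _ (Finset.mem_univ i)]

end pres

theorem ap_univ {R0 : Type} {C B : Type u} [CommRing R0] [CommRing C] [CommRing B] [IsDomain B]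
    {N : ℕ} (ρ : R0 →+* C) (η : Fin N → C) (θ : C) (f : R0[X]) (g : R0) (P : Fin N → R0[X])
    (hsurj : Function.Surjective (MvPolynomial.eval₂Hom ρ η))
    (hP : ∀ i, ρ g * η i = (P i).eval₂ ρ θ) (hf : ∀ H : R0[X], H.eval₂ ρ θ = 0 → f ∣ H)
    (ρ' : R0 →+* B) (η' : Fin N → B) (θ' : B) (hf' : f.eval₂ ρ' θ' = 0) (hg' : ρ' g ≠ 0)
    (hP' : ∀ i, ρ' g * η' i = (P i).eval₂ ρ' θ') :
    ∃ ψ : C →+* B, ∀ r, ψ (ρ r) = ρ' r := by
  have key : ∀ F : MvPolynomial (Fin N) R0, ∃ (D : ℕ) (H : R0[X]),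
      ρ g ^ D * MvPolynomial.eval₂Hom ρ η F = H.eval₂ ρ θ ∧
      ρ' g ^ D * MvPolynomial.eval₂Hom ρ' η' F = H.eval₂ ρ' θ' := by
    intro F
    induction F using MvPolynomial.induction_on with
    | C a => exact ⟨0, Polynomial.C a, by simp, by simp⟩
    | add p q hp hq =>
      obtain ⟨D1, H1, h1, h1'⟩ := hp
      obtain ⟨D2, H2, h2, h2'⟩ := hq
      refine ⟨D1 + D2, Polynomial.C (g ^ D2) * H1 + Polynomial.C (g ^ D1) * H2, ?_, ?_⟩
      · rw [eval₂_add, eval₂_mul, eval₂_mul, eval₂_C, eval₂_C, ← h1, ← h2, map_add, map_pow,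
          map_pow]
        ring
      · rw [eval₂_add, eval₂_mul, eval₂_mul, eval₂_C, eval₂_C, ← h1', ← h2', map_add, map_pow,
          map_pow]
        ring
    | mul_X p i hp =>
      obtain ⟨D, H, h1, h1'⟩ := hp
      refine ⟨D + 1, H * P i, ?_, ?_⟩
      · rw [eval₂_mul, ← h1, ← hP, map_mul, MvPolynomial.eval₂Hom_X']
        ring
      · rw [eval₂_mul, ← h1', ← hP', map_mul, MvPolynomial.eval₂Hom_X']
        ring
  have hker : RingHom.ker (MvPolynomial.eval₂Hom ρ η) ≤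
      RingHom.ker (MvPolynomial.eval₂Hom ρ' η') := by
    intro F hF
    rw [RingHom.mem_ker] at hF ⊢
    obtain ⟨D, H, h1, h2⟩ := key F
    rw [hF, mul_zero] at h1
    obtain ⟨Q, rfl⟩ := hf H h1.symm
    rw [eval₂_mul, hf', zero_mul] at h2
    exact (mul_eq_zero.1 h2).resolve_left (pow_ne_zero _ hg')
  refine ⟨RingHom.liftOfSurjective _ hsurj ⟨_, hker⟩, fun r => ?_⟩
  have h1 := RingHom.liftOfSurjective_comp_apply _ hsurj ⟨_, hker⟩ (MvPolynomial.C r)
  rw [MvPolynomial.eval₂Hom_C] at h1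
  rw [h1]
  exact MvPolynomial.eval₂Hom_C _ _ _

theorem ap_spread {A : Type u} [CommRing A] (P : Set A[X]) (hP : P.Finite) (Q : Set A)
    (hQ : Q.Finite) : ∃ (C' : Type u) (_ : CommRing C') (_ : Algebra.FiniteType ℤ C')
      (j : C' →+* A), Function.Injective j ∧
      (∀ p ∈ P, ∃ p' : C'[X], p'.map j = p) ∧ ∀ q ∈ Q, ∃ q', j q' = q := by
  classical
  have hS : ((⋃ p ∈ P, (p.coeffs : Set A)) ∪ Q).Finite :=
    (hP.biUnion fun p _ => p.coeffs.finite_toSet).union hQ
  refine ⟨Algebra.adjoin ℤ ((⋃ p ∈ P, (p.coeffs : Set A)) ∪ Q), inferInstance, ?_,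
    (Subalgebra.val _).toRingHom, Subtype.val_injective, fun p hp => ?_,
    fun q hq => ⟨⟨q, Algebra.subset_adjoin (Or.inr hq)⟩, rfl⟩⟩
  · have h := (Subalgebra.fg_iff_finiteType
      (Algebra.adjoin ℤ ((⋃ p ∈ P, (p.coeffs : Set A)) ∪ Q))).1
      ⟨hS.toFinset, by rw [hS.coe_toFinset]⟩
    convert h
  · rw [← mem_lifts, lifts_iff_coeff_lifts]
    intro n
    by_cases h : p.coeff n = 0
    · exact ⟨0, by rw [h, map_zero]⟩
    · exact ⟨⟨p.coeff n, Algebra.subset_adjoin (Or.inl (Set.mem_biUnion hp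
        (coeff_mem_coeffs h)))⟩, rfl⟩

theorem ap_jacobson_int : IsJacobsonRing ℤ := by
  rw [isJacobsonRing_iff_prime_eq]
  intro P hP
  by_cases h : P = ⊥
  · subst h
    rw [eq_bot_iff]
    intro x hx
    have h1 := Int.isUnit_iff.1 (Ideal.mem_jacobson_bot.1 hx x)
    rw [Ideal.mem_bot]
    rcases h1 with h1 | h1 <;> nlinarith [mul_self_nonneg x]
  · have := hP.isMaximal h
    exact Ideal.jacobson_eq_self_of_isMaximal

theorem ap_base (C : Type u) [CommRing C] [Nontrivial C] [Algebra.FiniteType ℤ C] :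
    ∃ (κ : Type u) (_ : Field κ) (p : ℕ) (_ : C →+* κ), p.Prime ∧ (p : κ) = 0 := by
  obtain ⟨m, hm⟩ := Ideal.exists_maximal C
  let _ : Field (C ⧸ m) := Ideal.Quotient.field m
  have := ap_jacobson_int
  have hft : Algebra.FiniteType ℤ (C ⧸ m) :=
    Algebra.FiniteType.of_surjective (Ideal.Quotient.mk m).toIntAlgHom Ideal.Quotient.mk_surjective
  have hfin : Module.Finite ℤ (C ⧸ m) := finite_of_finite_type_of_isJacobsonRing ℤ (C ⧸ m)
  obtain ⟨p, hp⟩ := CharP.exists (C ⧸ m)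
  refine ⟨C ⧸ m, inferInstance, p, Ideal.Quotient.mk m, ?_, CharP.cast_eq_zero _ p⟩
  rcases CharP.char_is_prime_or_zero (C ⧸ m) p with h | rfl
  · exact h
  · exfalso
    have := CharP.charP_to_charZero (C ⧸ m)
    exact Int.not_isField (isField_of_isIntegral_of_isField
      (R := ℤ) (S := C ⧸ m) (algebraMap ℤ (C ⧸ m)).injective_int (Field.toIsField _))

theorem ap_weier {A : Type u} [CommRing A] {I : Ideal A} [IsAdicComplete I A] {b : A[X]}
    (hb : b.IsDistinguishedAt I) :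
    (∀ F : PowerSeries A, ∃ r : A[X], Ideal.Quotient.mk (Ideal.span {(b : PowerSeries A)})
      (r : PowerSeries A) = Ideal.Quotient.mk _ F) ∧
    ∀ r : A[X], Ideal.Quotient.mk (Ideal.span {(b : PowerSeries A)}) (r : PowerSeries A) = 0 →
      b ∣ r := by
  have h0 : ∀ r : A[X], hb.algEquivQuotient (Ideal.Quotient.mk _ r) =
      Ideal.Quotient.mk (Ideal.span {(b : PowerSeries A)}) (r : PowerSeries A) := by
    intro r
    simp
  constructor
  · intro F
    obtain ⟨z, hz⟩ := hb.algEquivQuotient.surjective (Ideal.Quotient.mk _ F)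
    obtain ⟨r, rfl⟩ := Ideal.Quotient.mk_surjective z
    exact ⟨r, (h0 r).symm.trans hz⟩
  · intro r hr
    rw [← h0, map_eq_zero_iff _ hb.algEquivQuotient.injective, Ideal.Quotient.eq_zero_iff_mem,
      Ideal.mem_span_singleton] at hr
    exact hr

theorem ap_dist_X {A : Type u} [CommRing A] [Nontrivial A] (I : Ideal A) :
    (X : A[X]).IsDistinguishedAt I := by
  refine ⟨⟨fun {n} hn => ?_⟩, monic_X⟩
  rw [natDegree_X] at hn
  rw [show n = 0 by omega, coeff_X_zero]
  exact I.zero_mem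

theorem ap_solve {R0 : Type} {B : Type u} [CommRing R0] [CommRing B] [IsDomain B] (I : Ideal B)
    [IsAdicComplete I B] {N : ℕ} (ρ : R0 →+* B) (f : R0[X]) (g : R0) (P : Fin N → R0[X])
    (θ a u x w : B) (η v : Fin N → B) (ha : a ≠ 0) (hu : IsUnit u) (hx : x ∈ I)
    (h1 : f.eval₂ ρ θ = a * x * w) (h2 : ∀ i, ρ g * η i - (P i).eval₂ ρ θ = a * x * v i)
    (h3 : (ρ g * f.derivative.eval₂ ρ θ) ^ 2 = a * u) :
    ∃ (θ' : B) (η' : Fin N → B), f.eval₂ ρ θ' = 0 ∧ ρ g ≠ 0 ∧
      ∀ i, ρ g * η' i = (P i).eval₂ ρ θ' := by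
  obtain ⟨u', hu'⟩ := hu.exists_right_inv
  set D := f.derivative.eval₂ ρ θ with hD
  have ha' : a = (ρ g * D) ^ 2 * u' := by rw [h3, mul_assoc, hu', mul_one]
  have hD' : (f.map ρ).derivative.eval θ = D := by rw [derivative_map, eval_map]
  obtain ⟨w', -, hw'⟩ := ap_newton I (f.map ρ) θ (ρ g) (x * (ρ g * u' * w))
    (I.mul_mem_right _ hx) (by rw [eval_map, h1, hD', ha']; ring)
  rw [eval_map, hD'] at hw'
  have hdvd : ∀ i, ∃ z, ρ g * z = (P i).eval₂ ρ (θ + D * (ρ g * w')) := by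
    intro i
    obtain ⟨z, hz⟩ := Polynomial.sub_dvd_eval_sub (θ + D * (ρ g * w')) θ ((P i).map ρ)
    rw [eval_map, eval_map] at hz
    refine ⟨η i - ρ g * D ^ 2 * u' * x * v i + D * w' * z, ?_⟩
    have h4 := h2 i
    rw [ha'] at h4
    linear_combination h4 - hz
  choose η' hη' using hdvd
  refine ⟨_, η', hw', fun h0 => ha ?_, hη'⟩
  rw [ha', h0]
  ring

/-- Evaluation of integer polynomials. -/
noncomputable abbrev zev {σ : Type} {B : Type u} [CommRing B] (x : σ → B) :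
    MvPolynomial σ ℤ →+* B := MvPolynomial.eval₂Hom (Int.castRingHom B) x

theorem aeval_eq_zev {σ : Type} {B : Type u} [CommRing B] [Algebra ℤ B] (x : σ → B) :
    (MvPolynomial.aeval (R := ℤ) x).toRingHom = zev x :=
  MvPolynomial.ringHom_ext (fun z => by simp) fun i => by simp

theorem aeval_eq_zev' {σ : Type} {B : Type u} [CommRing B] [Algebra ℤ B] (x : σ → B)
    (g : MvPolynomial σ ℤ) : MvPolynomial.aeval (R := ℤ) x g = zev x g :=
  RingHom.congr_fun (aeval_eq_zev x) g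

theorem ap_poly {A C : Type u} [CommRing A] [IsLocalRing A] [IsDomain A]
    [IsAdicComplete (maximalIdeal A) A] [CommRing C] {ι κ : Type} {N : ℕ}
    (Φ : C →+* PowerSeries A) (ξ : ι → C) (t : κ → C) (θ : C) (η : Fin N → C)
    (f : (MvPolynomial (ι ⊕ κ) ℤ)[X]) (g : MvPolynomial (ι ⊕ κ) ℤ)
    (P : Fin N → (MvPolynomial (ι ⊕ κ) ℤ)[X]) (ξ' : ι → A[X])
    (hξ' : ∀ i, (ξ' i : PowerSeries A) = Φ (ξ i))
    (h1 : f.eval₂ (zev (Sum.elim ξ t)) θ = 0)
    (h2 : ∀ i, zev (Sum.elim ξ t) g * η i =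
      (P i).eval₂ (zev (Sum.elim ξ t)) θ)
    (h3 : PowerSeries.map (residue A) (Φ (zev (Sum.elim ξ t) g *
      f.derivative.eval₂ (zev (Sum.elim ξ t)) θ)) ≠ 0) :
    ∃ (t' : κ → A[X]) (θ' a u w : A[X]) (η' v : Fin N → A[X]) (c : A), a.Monic ∧
      u.coeff 0 * c = 1 ∧
      f.eval₂ (zev (Sum.elim ξ' t')) θ' = a * X * w ∧
      (∀ i, (zev (Sum.elim ξ' t')) g * η' i -
        (P i).eval₂ (zev (Sum.elim ξ' t')) θ' = a * X * v i) ∧
      ((zev (Sum.elim ξ' t')) g *
        f.derivative.eval₂ (zev (Sum.elim ξ' t')) θ') ^ 2 = a * u := by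
  set ρ := zev (Sum.elim ξ t) with hρ
  set δ := ρ g * f.derivative.eval₂ ρ θ with hδ
  obtain ⟨a, u, hau⟩ := PowerSeries.exists_isWeierstrassFactorization (g := Φ δ ^ 2)
    (by rw [map_pow]; exact pow_ne_zero _ h3)
  have hb := hau.isDistinguishedAt.mul (ap_dist_X (maximalIdeal A))
  obtain ⟨hs, hi⟩ := ap_weier hb
  obtain ⟨-, hi'⟩ := ap_weier hau.isDistinguishedAt
  choose rm hrm using hs
  set π := Ideal.Quotient.mk (Ideal.span {((a * X : A[X]) : PowerSeries A)}) with hπ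
  let cc : A[X] →+* PowerSeries A := Polynomial.coeToPowerSeries.ringHom
  set ρ' := zev (Sum.elim ξ' fun j => rm (Φ (t j))) with hρ'
  have hcomp : (π.comp cc).comp ρ' = (π.comp Φ).comp ρ := by
    refine MvPolynomial.ringHom_ext (fun z => by simp) ?_
    rintro (i | j)
    · simp [hρ, hρ', cc, hξ']
    · simp [hρ, hρ', cc, hrm]
  have hev : ∀ p : (MvPolynomial (ι ⊕ κ) ℤ)[X],
      π (cc (p.eval₂ ρ' (rm (Φ θ)))) = π (Φ (p.eval₂ ρ θ)) := by
    intro p
    have e1 := hom_eval₂ p ρ' (π.comp cc) (rm (Φ θ))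
    have e2 := hom_eval₂ p ρ (π.comp Φ) θ
    rw [hcomp] at e1
    rw [RingHom.comp_apply] at e1 e2
    rw [e1, e2]
    congr 1
    exact hrm _
  have hg : π (cc (ρ' g)) = π (Φ (ρ g)) := RingHom.congr_fun hcomp g
  obtain ⟨w, hw⟩ := hi (f.eval₂ ρ' (rm (Φ θ))) (by
    have := hev f
    rw [h1, map_zero, map_zero] at this
    exact this)
  have hv : ∀ i, a * X ∣ ρ' g * rm (Φ (η i)) - (P i).eval₂ ρ' (rm (Φ θ)) := by
    intro i
    apply hi
    change π (cc (ρ' g * rm (Φ (η i)) - (P i).eval₂ ρ' (rm (Φ θ)))) = 0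
    rw [map_sub, map_mul, map_sub, map_mul, hg, hev, ← h2, map_mul, map_mul]
    rw [show π (cc (rm (Φ (η i)))) = π (Φ (η i)) from hrm _, sub_self]
  choose v hv using hv
  have h4 : π (cc ((ρ' g * f.derivative.eval₂ ρ' (rm (Φ θ))) ^ 2)) = π (a * u) := by
    rw [← hau.eq_mul, hδ]
    simp only [map_pow, map_mul, hg, hev]
  rw [hπ, Ideal.Quotient.mk_eq_mk_iff_sub_mem, Ideal.mem_span_singleton] at h4
  obtain ⟨z, hz⟩ := h4
  have h5 : cc ((ρ' g * f.derivative.eval₂ ρ' (rm (Φ θ))) ^ 2) =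
      (a : PowerSeries A) * (u + PowerSeries.X * z) := by
    rw [Polynomial.coe_mul, Polynomial.coe_X] at hz
    linear_combination hz
  obtain ⟨u', hu'⟩ := hi' ((ρ' g * f.derivative.eval₂ ρ' (rm (Φ θ))) ^ 2) (by
    rw [Ideal.Quotient.eq_zero_iff_mem, Ideal.mem_span_singleton]
    exact ⟨_, h5⟩)
  have ha0 : (a : PowerSeries A) ≠ 0 := by
    rw [ne_eq, Polynomial.coe_eq_zero_iff]
    exact hau.isDistinguishedAt.monic.ne_zero
  have h6 : (u' : PowerSeries A) = u + PowerSeries.X * z := by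
    apply mul_left_cancel₀ ha0
    rw [← h5, hu', ← Polynomial.coe_mul]
    rfl
  have h7 : IsUnit (u'.coeff 0) := by
    have h8 := congrArg PowerSeries.constantCoeff h6
    rw [Polynomial.constantCoeff_coe, map_add, map_mul, PowerSeries.constantCoeff_X, zero_mul,
      add_zero] at h8
    rw [h8]
    exact PowerSeries.isUnit_iff_constantCoeff.1 hau.isUnit
  obtain ⟨c, hc⟩ := h7.exists_right_inv
  exact ⟨_, rm (Φ θ), a, u', w, fun i => rm (Φ (η i)), v, c, hau.isDistinguishedAt.monic, hc,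
    hw, hv, hu'⟩

end Vale.Agent.P202
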