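import Vale.Agent.P202.Cx

/-! Double complexes: filtration by rows and the staircase argument. -/

namespace Vale.Agent.P202

universe u

variable {S : Type u} [CommRing S] {E : Type u} [AddCommGroup E] [Module S E] (μ : LenFun S)
  {d0 d1 : E →ₗ[S] E} {P : ℤ → E →ₗ[S] E} {X X' : ℤ → ℤ → Submodule S E}

theorem Tot_swap (X : ℤ → ℤ → Submodule S E) : Tot (fun i j => X j i) = Tot X := by
  funext n
  unfold Tot
  apply le_antisymm
  · exact iSup_le fun i => le_iSup_of_le (n - i) (by rw [sub_sub_cancel])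
  · exact iSup_le fun i => le_iSup_of_le (n - i) (by rw [sub_sub_cancel])

theorem Tot_mono (h : X' ≤ X) : Tot X' ≤ Tot X := by
  exact fun n => iSup_mono fun i => h i _

theorem Tot_bot : Tot (⊥ : ℤ → ℤ → Submodule S E) = ⊥ := by
  funext n
  simp [Tot]

theorem Bi.bot : Bi d0 d1 P (⊥ : ℤ → ℤ → Submodule S E) := by
  constructor <;> simp

theorem Bi.isCx_tot (h : Bi d0 d1 P X) : IsCx (d0 + d1) (Tot X) := by
  intro n
  unfold Tot
  rw [Submodule.map_iSup]
  refine iSup_le fun i => ?_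
  rintro _ ⟨x, hx, rfl⟩
  rw [LinearMap.add_apply]
  refine add_mem (Submodule.mem_iSup_of_mem i ?_) (Submodule.mem_iSup_of_mem (i - 1) ?_)
  · rw [show n - 1 - i = n - i - 1 by ring]
    exact h.map0 _ _ ⟨x, hx, rfl⟩
  · rw [show n - 1 - (i - 1) = n - i by ring]
    exact h.map1 _ _ ⟨x, hx, rfl⟩

theorem Bi.P_mem (h : Bi d0 d1 P X) (k : ℤ) {n : ℤ} {x : E} (hx : x ∈ Tot X n) :
    P k x ∈ X k (n - k) := by
  refine Submodule.iSup_induction (fun i => X i (n - i)) (motive := fun x => P k x ∈ X k (n - k))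
    hx (fun i x hx => ?_) (by simp) (fun x y a b => by rw [map_add]; exact add_mem a b)
  by_cases hik : k = i
  · subst hik; rw [h.fix _ _ x hx]; exact hx
  · rw [h.kill _ _ _ hik x hx]; exact zero_mem _

/-- `X` in the columns below `k` and `X'` from `k` on. -/
def mixX (X' X : ℤ → ℤ → Submodule S E) (k : ℤ) (i j : ℤ) : Submodule S E :=
  if i < k then X i j else X' i j

theorem mixX_le (hle : X' ≤ X) (k i j : ℤ) : mixX X' X k i j ≤ X i j := by
  unfold mixX
  split_ifs
  · exact le_rfl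
  · exact hle i j

theorem le_mixX (hle : X' ≤ X) (k i j : ℤ) : X' i j ≤ mixX X' X k i j := by
  unfold mixX
  split_ifs
  · exact hle i j
  · exact le_rfl

theorem mixX_mono (hle : X' ≤ X) {k k' : ℤ} (hk : k ≤ k') : mixX X' X k ≤ mixX X' X k' := by
  intro i j
  by_cases h1 : i < k
  · simp [mixX, h1, show i < k' by omega]
  · rw [show mixX X' X k i j = X' i j by simp [mixX, h1]]
    exact le_mixX hle _ _ _

theorem mixX_bi (h' : Bi d0 d1 P X') (h : Bi d0 d1 P X) (hle : X' ≤ X) (k : ℤ) :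
    Bi d0 d1 P (mixX X' X k) where
  map0 i j := by
    unfold mixX
    split_ifs
    · exact h.map0 i j
    · exact h'.map0 i j
  map1 i j := by
    by_cases h1 : i < k
    · simp only [mixX, h1, show i - 1 < k by omega, if_true]
      exact h.map1 i j
    · rw [show mixX X' X k i j = X' i j by simp [mixX, h1]]
      exact (h'.map1 i j).trans (le_mixX hle _ _ _)
  fix i j x hx := h.fix i j x (mixX_le hle _ _ _ hx)
  kill i i' j hi x hx := h.kill i i' j hi x (mixX_le hle _ _ _ hx)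

theorem mixX_lo (hle : X' ≤ X) {lo hi : ℤ} (hs : ∀ i ∉ Finset.Icc lo hi, ∀ j, X i j ≤ X' i j) :
    mixX X' X lo = X' := by
  funext i j
  unfold mixX
  split_ifs with h1
  · exact le_antisymm (hs i (by rw [Finset.mem_Icc]; omega) j) (hle i j)
  · rfl

theorem mixX_hi (hle : X' ≤ X) {lo hi : ℤ} (hs : ∀ i ∉ Finset.Icc lo hi, ∀ j, X i j ≤ X' i j) :
    mixX X' X (lo + ((hi + 1 - lo).toNat : ℤ)) = X := by
  funext i j
  unfold mixX
  split_ifs with h1
  · rfl
  · exact le_antisymm (hle i j) (hs i (by rw [Finset.mem_Icc]; omega) j)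

theorem mixX_comm (h' : Bi d0 d1 P X') (h : Bi d0 d1 P X) (hle : X' ≤ X) (k n : ℤ) :
    ∀ x ∈ Tot (mixX X' X (k + 1)) n, P k ((d0 + d1) x) - d0 (P k x) ∈ X' k (n - 1 + -k) := by
  intro x hx
  refine Submodule.iSup_induction (fun i => mixX X' X (k + 1) i (n - i))
    (motive := fun x => P k ((d0 + d1) x) - d0 (P k x) ∈ X' k (n - 1 + -k))
    hx (fun i x hx => ?_) (by simp) (fun x y a b => ?_)
  · have hx' := mixX_le hle _ _ _ hx
    have h0 := h.map0 _ _ ⟨x, hx', rfl⟩
    have h1 := h.map1 _ _ ⟨x, hx', rfl⟩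
    rw [LinearMap.add_apply, map_add]
    by_cases hik : k = i
    · subst hik
      rw [h.fix _ _ _ hx', h.fix _ _ _ h0, h.kill _ _ _ (by omega) _ h1]
      simp
    · rw [h.kill _ _ _ hik _ hx', h.kill _ _ _ hik _ h0, map_zero, zero_add, sub_zero]
      by_cases hik' : k = i - 1
      · subst hik'
        rw [h.fix _ _ _ h1, show n - 1 + -(i - 1) = n - i by ring]
        refine h'.map1 _ _ ⟨x, ?_, rfl⟩
        simpa [mixX] using hx
      · rw [h.kill _ _ _ hik' _ h1]
        exact zero_mem _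
  · have := add_mem a b
    simp only [map_add] at this ⊢
    convert this using 1
    abel

theorem mixX_sub (h : Bi d0 d1 P X) (hle : X' ≤ X) (k n : ℤ) :
    ∀ x ∈ Tot (mixX X' X (k + 1)) n, x - P k x ∈ Tot (mixX X' X k) n := by
  intro x hx
  refine Submodule.iSup_induction (fun i => mixX X' X (k + 1) i (n - i))
    (motive := fun x => x - P k x ∈ Tot (mixX X' X k) n)
    hx (fun i x hx => ?_) (by simp) (fun x y a b => ?_)
  · have hx' := mixX_le hle _ _ _ hx
    by_cases hik : k = i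
    · subst hik
      rw [h.fix _ _ _ hx']
      simp
    · rw [h.kill _ _ _ hik _ hx', sub_zero]
      refine Submodule.mem_iSup_of_mem i ?_
      have : (i < k + 1) ↔ (i < k) := by omega
      simpa only [mixX, this] using hx
  · have := add_mem a b
    simp only [map_add] at this ⊢
    convert this using 1
    abel

theorem hh_step (h' : Bi d0 d1 P X') (h : Bi d0 d1 P X) (hle : X' ≤ X) (k n : ℤ) :
    hh μ (d0 + d1) (Tot (mixX X' X k)) (Tot (mixX X' X (k + 1))) n =
      hh μ d0 (X' k) (X k) (n + -k) := by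
  refine hh_transfer μ (P k) (-k) 1 (mixX_bi h' h hle _).isCx_tot (fun n => h'.map0 k n)
    (fun n x hx => by simpa using mixX_comm h' h hle k n x hx) (fun n => ?_) (fun n => ?_) n
  · apply le_antisymm
    · refine sup_le ?_ (hle _ _)
      rintro _ ⟨x, hx, rfl⟩
      exact h.P_mem k (Tot_mono (fun i j => mixX_le hle _ i j) n hx)
    · intro x hx
      refine Submodule.mem_sup_left ⟨x, Submodule.mem_iSup_of_mem k ?_, h.fix _ _ _ hx⟩
      simpa [mixX, sub_eq_add_neg] using hx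
  · apply le_antisymm
    · rintro x ⟨hx, hP⟩
      have h1 := mixX_sub h hle k n x hx
      have h2 : P k x ∈ Tot (mixX X' X k) n :=
        Submodule.mem_iSup_of_mem k (le_mixX hle _ _ _ hP)
      simpa using add_mem h1 h2
    · intro x hx
      refine ⟨Tot_mono (mixX_mono hle (by omega)) n hx, ?_⟩
      have := (mixX_bi h' h hle k).P_mem k hx
      simpa [mixX, sub_eq_add_neg] using this

theorem rows_le (hd : (d0 + d1) ∘ₗ (d0 + d1) = 0) (h' : Bi d0 d1 P X') (h : Bi d0 d1 P X)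
    (hle : X' ≤ X) (lo hi : ℤ) (hs : ∀ i ∉ Finset.Icc lo hi, ∀ j, X i j ≤ X' i j) (n : ℤ) :
    hh μ (d0 + d1) (Tot X') (Tot X) n ≤
      ∑ i ∈ Finset.Icc lo hi, hh μ d0 (X' i) (X i) (n - i) := by
  have key := hh_chain_le μ hd (fun r => Tot (mixX X' X (lo + r))) (hi + 1 - lo).toNat
    (fun i _ => (mixX_bi h' h hle _).isCx_tot)
    (fun i _ => Tot_mono (mixX_mono hle (by push_cast; omega))) n
  simp only [Nat.cast_zero, add_zero] at key
  rw [mixX_lo hle hs, mixX_hi hle hs] at key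
  refine key.trans (le_of_eq ?_)
  rw [Int.Icc_eq_finset_map, Finset.sum_map]
  refine Finset.sum_congr rfl fun i _ => ?_
  rw [Nat.cast_succ, ← add_assoc, hh_step μ h' h hle]
  rfl

theorem rows_chi (hd : (d0 + d1) ∘ₗ (d0 + d1) = 0) (h' : Bi d0 d1 P X') (h : Bi d0 d1 P X)
    (hle : X' ≤ X) (lo hi : ℤ) (hs : ∀ i ∉ Finset.Icc lo hi, ∀ j, X i j ≤ X' i j)
    (hg : ∀ i ∈ Finset.Icc lo hi, Good d0 (X' i) (X i)) :
    Good (d0 + d1) (Tot X') (Tot X) ∧ chi (d0 + d1) (Tot X') (Tot X) =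
      ∑ i ∈ Finset.Icc lo hi, ((i.negOnePow : ℤˣ) : ℤ) * chi d0 (X' i) (X i) := by
  have step := fun k : ℤ => good_chi_of_hh_shift (d := d0 + d1) (F' := Tot (mixX X' X k))
    (F'' := Tot (mixX X' X (k + 1))) (d' := d0) (G' := X' k) (G'' := X k) (-k)
    (fun n => hh_step (lenF S) h' h hle k n)
  have key := good_chi_chain hd (fun r => Tot (mixX X' X (lo + r))) (hi + 1 - lo).toNat
    (fun i _ => (mixX_bi h' h hle _).isCx_tot)
    (fun i _ => Tot_mono (mixX_mono hle (by push_cast; omega)))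
    (fun i hi' => by
      rw [Nat.cast_succ, ← add_assoc]
      exact (step _).1.2 (hg _ (Finset.mem_Icc.2 ⟨by omega, by omega⟩)))
  simp only [Nat.cast_zero, add_zero] at key
  rw [mixX_lo hle hs, mixX_hi hle hs] at key
  refine ⟨key.1, key.2.trans ?_⟩
  rw [Int.Icc_eq_finset_map, Finset.sum_map]
  refine Finset.sum_congr rfl fun i _ => ?_
  rw [Nat.cast_succ, ← add_assoc, (step _).2.1, Int.negOnePow_neg]
  rfl

theorem rows_exa (hd : (d0 + d1) ∘ₗ (d0 + d1) = 0) (h' : Bi d0 d1 P X') (h : Bi d0 d1 P X)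
    (hle : X' ≤ X) (lo hi : ℤ) (hs : ∀ i ∉ Finset.Icc lo hi, ∀ j, X i j ≤ X' i j)
    (he : ∀ i ∈ Finset.Icc lo hi, Exa d0 (X' i) (X i)) :
    Exa (d0 + d1) (Tot X') (Tot X) := by
  refine exa_iff_hh.2 fun n => ?_
  have := rows_le (lenF S) hd h' h hle lo hi hs n
  rw [Finset.sum_eq_zero fun i hi => hh_eq_zero_of_exa _ (he i hi) _] at this
  simpa using this

/-- If each inclusion `Y (a+1) ≤ Y a` is zero on the homology of the rows, then a long enough
composite is zero on the homology of the total complexes. -/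
theorem stair (hd : (d0 + d1) ∘ₗ (d0 + d1) = 0) (Y : ℕ → ℤ → ℤ → Submodule S E)
    (hY : ∀ a, Bi d0 d1 P (Y a)) (hle : ∀ a, Y (a + 1) ≤ Y a) (lo hi : ℤ)
    (hs : ∀ a, ∀ i ∉ Finset.Icc lo hi, ∀ j, Y a i j = ⊥)
    (hz : ∀ a i j, ∀ x ∈ Y (a + 1) i j, d0 x = 0 → x ∈ (Y a i (j + 1)).map d0)
    (r : ℕ) (hr : hi - lo + 1 ≤ r) (n : ℤ) :
    Zc (d0 + d1) ⊥ (Tot (Y r)) n ≤ Bc (d0 + d1) ⊥ (Tot (Y 0)) n := by
  have hdd : ∀ x, (d0 + d1) ((d0 + d1) x) = 0 := fun x => LinearMap.congr_fun hd x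
  have hanti : ∀ a, Y a ≤ Y 0 := by
    intro a
    induction a with
    | zero => exact le_rfl
    | succ a ih => exact (hle a).trans ih
  have key : ∀ r : ℕ, ∀ ξ ∈ Tot (mixX ⊥ (Y r) (lo + r)) n, (d0 + d1) ξ = 0 →
      ξ ∈ (Tot (Y 0) (n + 1)).map (d0 + d1) := by
    intro r
    induction r with
    | zero =>
      intro ξ hξ _
      rw [Nat.cast_zero, add_zero, mixX_lo (hi := hi) bot_le (fun i hi j => (hs 0 i hi j).le),
        Tot_bot] at hξ
      rw [show ξ = 0 from hξ]
      exact zero_mem _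
    | succ r ih =>
      intro ξ hξ h0
      rw [Nat.cast_succ, ← add_assoc] at hξ
      set k : ℤ := lo + r with hk
      have hb := mixX_bi Bi.bot (hY (r + 1)) bot_le (k + 1)
      have hx : P k ξ ∈ Y (r + 1) k (n - k) := by
        have := hb.P_mem k hξ
        simpa [mixX] using this
      have hc := mixX_comm Bi.bot (hY (r + 1)) bot_le k n ξ hξ
      rw [h0] at hc
      have hd0 : d0 (P k ξ) = 0 := by simpa using hc
      obtain ⟨η, hη, hηx⟩ := hz r k _ _ hx hd0
      have h1 : ξ - P k ξ ∈ Tot (mixX ⊥ (Y r) k) n := by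
        refine Tot_mono (X' := mixX ⊥ (Y (r + 1)) k) (fun i j => ?_) n
          (mixX_sub (hY (r + 1)) bot_le k n ξ hξ)
        unfold mixX
        split_ifs
        · exact hle r i j
        · exact le_rfl
      have h2 : d1 η ∈ Tot (mixX ⊥ (Y r) k) n := by
        refine Submodule.mem_iSup_of_mem (k - 1) ?_
        have := (hY r).map1 _ _ ⟨η, hη, rfl⟩
        rw [show n - (k - 1) = n - k + 1 by ring]
        simpa [mixX] using this
      have e : ξ - (d0 + d1) η = (ξ - P k ξ) - d1 η := by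
        rw [LinearMap.add_apply, hηx]; abel
      have h3 := ih (ξ - (d0 + d1) η) (by rw [e]; exact sub_mem h1 h2)
        (by rw [map_sub, h0, hdd, sub_zero])
      have h4 : (d0 + d1) η ∈ (Tot (Y 0) (n + 1)).map (d0 + d1) := by
        refine ⟨η, Submodule.mem_iSup_of_mem k ?_, rfl⟩
        rw [show n + 1 - k = n - k + 1 by ring]
        exact hanti r k _ hη
      simpa using add_mem h3 h4
  rintro ξ ⟨hξ, h0⟩
  refine Submodule.mem_sup_right (key r ξ ?_ (by simpa using h0))
  have : mixX ⊥ (Y r) (lo + r) = Y r := by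
    funext i j
    unfold mixX
    split_ifs with hi'
    · rfl
    · rw [hs r i (by rw [Finset.mem_Icc]; omega)]; rfl
  rw [this]
  exact hξ

end Vale.Agent.P202
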