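import Vale.Agent.P202.Cx

/-! The Cech complex of `(P^1)^m`: basic identities. -/

namespace Vale.Agent.P202

universe u

variable {R : Type u} [CommRing R] {m : ℕ} {M : Type u} [AddCommGroup M] [Module R M]
  {M' : Type u} [AddCommGroup M'] [Module R M']

theorem mem_cech {D : (Fin m → Ch) → Submodule R M} {n : ℤ} {ξ : (Fin m → Ch) → M} :
    ξ ∈ Cech D n ↔ (∀ J, (cdeg J : ℤ) = -n → ξ J ∈ D J) ∧ ∀ J, (cdeg J : ℤ) ≠ -n → ξ J = 0 := by
  unfold Cech
  rw [Submodule.mem_pi]
  constructor
  · intro h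
    refine ⟨fun J hJ => ?_, fun J hJ => ?_⟩
    · simpa [hJ] using h J trivial
    · simpa [hJ] using h J trivial
  · rintro ⟨h1, h2⟩ J -
    by_cases hJ : (cdeg J : ℤ) = -n
    · simpa [hJ] using h1 J hJ
    · simpa [hJ] using h2 J hJ

theorem cd_apply (ξ : (Fin m → Ch) → M) (J : Fin m → Ch) :
    cd R m M ξ J = ∑ j ∈ Finset.univ.filter (fun j => J j = Ch.W), ((csgn J j : ℤ) : R) •
      (ξ (Function.update J j Ch.U) - ξ (Function.update J j Ch.V)) := by
  simp [cd, LinearMap.sum_apply]

theorem csgn_mul_self (J : Fin m → Ch) (j : Fin m) : csgn J j * csgn J j = 1 := by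
  unfold csgn
  rw [← mul_pow]
  simp

theorem csgn_update_of_le (J : Fin m → Ch) {i j : Fin m} (h : j ≤ i) (L : Ch) :
    csgn (Function.update J i L) j = csgn J j := by
  unfold csgn
  congr 2
  refine Finset.filter_congr fun l _ => and_congr_right fun hl => ?_
  rw [Function.update_of_ne (hl.trans_le h).ne]

theorem csgn_update_of_lt (J : Fin m → Ch) {i j : Fin m} (h : i < j) (hi : J i = Ch.W) {L : Ch}
    (hL : L ≠ Ch.W) : csgn (Function.update J i L) j = -csgn J j := by
  unfold csgn
  have : (Finset.univ.filter fun l => l < j ∧ J l = Ch.W) =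
      insert i (Finset.univ.filter fun l => l < j ∧ Function.update J i L l = Ch.W) := by
    ext l
    by_cases hl : l = i
    · subst hl
      simp [h, hi]
    · simp [hl]
  rw [this, Finset.card_insert_of_notMem (by simp [hL]), pow_succ]
  ring

theorem csgn_update_W_of_lt (J : Fin m → Ch) {i j : Fin m} (h : i < j) (hi : J i ≠ Ch.W) :
    csgn (Function.update J i Ch.W) j = -csgn J j := by
  have := csgn_update_of_lt (Function.update J i Ch.W) h (by simp) hi
  rw [Function.update_idem, Function.update_eq_self] at this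
  rw [this, neg_neg]

theorem cdeg_update (J : Fin m → Ch) {i : Fin m} (hi : J i = Ch.W) {L : Ch}
    (hL : L ≠ Ch.W) : cdeg (Function.update J i L) + 1 = cdeg J := by
  unfold cdeg
  have : (Finset.univ.filter fun l => J l = Ch.W) =
      insert i (Finset.univ.filter fun l => Function.update J i L l = Ch.W) := by
    ext l
    by_cases hl : l = i
    · subst hl
      simp [hi]
    · simp [hl]
  rw [this, Finset.card_insert_of_notMem (by simp [hL])]

theorem cdeg_update_W (J : Fin m → Ch) {i : Fin m} (hi : J i ≠ Ch.W) :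
    cdeg (Function.update J i Ch.W) = cdeg J + 1 := by
  have := cdeg_update (Function.update J i Ch.W) (i := i) (by simp) hi
  rw [Function.update_idem, Function.update_eq_self] at this
  rw [this]

theorem cdeg_congr {J J' : Fin m → Ch} (h : ∀ j, J j = Ch.W ↔ J' j = Ch.W) : cdeg J = cdeg J' := by
  unfold cdeg
  congr 1
  exact Finset.filter_congr fun l _ => h l

theorem cdeg_le (J : Fin m → Ch) : cdeg J ≤ m := by
  unfold cdeg
  simpa using Finset.card_filter_le (Finset.univ : Finset (Fin m)) fun j => J j = Ch.W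

/-- One summand of the Cech differential. -/
def cd1 (R : Type u) [CommRing R] (j : Fin m) (ξ : (Fin m → Ch) → M) [Module R M]
    (J : Fin m → Ch) : M :=
  if J j = Ch.W then ((csgn J j : ℤ) : R) •
    (ξ (Function.update J j Ch.U) - ξ (Function.update J j Ch.V)) else 0

theorem cd_eq_sum (ξ : (Fin m → Ch) → M) (J : Fin m → Ch) :
    cd R m M ξ J = ∑ j, cd1 R j ξ J := by
  rw [cd_apply, Finset.sum_filter]
  rfl

theorem cd1_sum {ι : Type} (s : Finset ι) (j : Fin m) (ξ : ι → (Fin m → Ch) → M)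
    (J : Fin m → Ch) : cd1 R j (fun K => ∑ i ∈ s, ξ i K) J = ∑ i ∈ s, cd1 R j (ξ i) J := by
  unfold cd1
  split_ifs
  · rw [← Finset.sum_sub_distrib, Finset.smul_sum]
  · simp

theorem cd1_self (j : Fin m) (ξ : (Fin m → Ch) → M) (J : Fin m → Ch) :
    cd1 R j (cd1 R j ξ) J = 0 := by
  simp [cd1]

theorem cd1_anti {i j : Fin m} (h : i < j) (ξ : (Fin m → Ch) → M) (J : Fin m → Ch) :
    cd1 R i (cd1 R j ξ) J + cd1 R j (cd1 R i ξ) J = 0 := by
  by_cases hi : J i = Ch.W
  · by_cases hj : J j = Ch.W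
    · simp only [cd1, hi, hj, Function.update_of_ne h.ne, Function.update_of_ne h.ne', if_true,
        csgn_update_of_le J h.le, csgn_update_of_lt J h hi (L := Ch.U) (by decide),
        csgn_update_of_lt J h hi (L := Ch.V) (by decide), Function.update_comm h.ne']
      push_cast
      module
    · simp [cd1, hj, Function.update_of_ne h.ne']
  · simp [cd1, hi, Function.update_of_ne h.ne]

theorem cd_comp_cd : cd R m M ∘ₗ cd R m M = 0 := by
  refine LinearMap.ext fun ξ => funext fun J => ?_
  have e : cd R m M ξ = fun K => ∑ j, cd1 R j ξ K := funext fun K => cd_eq_sum ξ K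
  rw [LinearMap.comp_apply, cd_eq_sum, e]
  simp only [cd1_sum]
  rw [← Finset.sum_product']
  refine Finset.sum_involution (fun p _ => p.swap) ?_ ?_ (by simp) (by simp)
  · rintro ⟨i, j⟩ -
    rcases lt_trichotomy i j with h | rfl | h
    · exact cd1_anti h ξ J
    · simp [cd1_self]
    · rw [add_comm]
      exact cd1_anti h ξ J
  · rintro ⟨i, j⟩ - h h'
    obtain rfl : i = j := (Prod.mk.inj h').2
    exact h (cd1_self _ _ _)

theorem cd_cd (ξ : (Fin m → Ch) → M) : cd R m M (cd R m M ξ) = 0 :=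
  LinearMap.congr_fun cd_comp_cd ξ

theorem cech_isCx {D : (Fin m → Ch) → Submodule R M} (h : CMono D) :
    IsCx (cd R m M) (Cech D) := by
  rintro n _ ⟨ξ, hξ, rfl⟩
  obtain ⟨h1, h2⟩ := mem_cech.1 hξ
  refine mem_cech.2 ⟨fun J hJ => ?_, fun J hJ => ?_⟩
  · rw [cd_apply]
    refine Submodule.sum_mem _ fun j hj => Submodule.smul_mem _ _ ?_
    have hj := (Finset.mem_filter.1 hj).2
    have e1 := cdeg_update J hj (L := Ch.U) (by decide)
    have e2 := cdeg_update J hj (L := Ch.V) (by decide)
    exact sub_mem ((h J j hj).1 (h1 _ (by omega))) ((h J j hj).2 (h1 _ (by omega)))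
  · rw [cd_apply]
    refine Finset.sum_eq_zero fun j hj => ?_
    have hj := (Finset.mem_filter.1 hj).2
    have e1 := cdeg_update J hj (L := Ch.U) (by decide)
    have e2 := cdeg_update J hj (L := Ch.V) (by decide)
    rw [h2 _ (by omega), h2 _ (by omega), sub_zero, smul_zero]

theorem cech_mono {D D' : (Fin m → Ch) → Submodule R M} (h : D ≤ D') : Cech D ≤ Cech D' := by
  intro n ξ hξ
  obtain ⟨h1, h2⟩ := mem_cech.1 hξ
  exact mem_cech.2 ⟨fun J hJ => h J (h1 J hJ), h2⟩

theorem cech_bot : Cech (⊥ : (Fin m → Ch) → Submodule R M) = ⊥ := by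
  funext n
  refine le_bot_iff.1 fun ξ hξ => ?_
  obtain ⟨h1, h2⟩ := mem_cech.1 hξ
  refine funext fun J => ?_
  by_cases hJ : (cdeg J : ℤ) = -n
  · exact h1 J hJ
  · exact h2 J hJ

theorem cech_eq_bot (D : (Fin m → Ch) → Submodule R M) (n : ℤ) (h : n < -(m : ℤ) ∨ 0 < n) :
    Cech D n = ⊥ := by
  refine le_bot_iff.1 fun ξ hξ => ?_
  refine funext fun J => (mem_cech.1 hξ).2 J ?_
  have := cdeg_le J
  omega

theorem cech_smul (I : Ideal R) (D : (Fin m → Ch) → Submodule R M) (n : ℤ) :
    Cech (fun J => I • D J) n = I • Cech D n := by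
  apply le_antisymm
  · intro ξ hξ
    obtain ⟨h1, h2⟩ := mem_cech.1 hξ
    rw [← Finset.univ_sum_single ξ]
    refine Submodule.sum_mem _ fun J _ => ?_
    by_cases hJ : (cdeg J : ℤ) = -n
    · have : (I • D J).map (LinearMap.single R (fun _ : Fin m → Ch => M) J) ≤ I • Cech D n := by
        rw [Submodule.map_smul'']
        refine Submodule.smul_mono le_rfl ?_
        rintro _ ⟨v, hv, rfl⟩
        refine mem_cech.2 ⟨fun K _ => ?_, fun K hK => ?_⟩
        · by_cases e : K = J
          · subst e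
            simpa using hv
          · simp [e]
        · have e : K ≠ J := fun e => hK (e ▸ hJ)
          simp [e]
      exact this ⟨ξ J, h1 J hJ, rfl⟩
    · simp [h2 J hJ]
  · refine Submodule.smul_le.2 fun r hr ξ hξ => ?_
    obtain ⟨h1, h2⟩ := mem_cech.1 hξ
    exact mem_cech.2 ⟨fun J hJ => Submodule.smul_mem_smul hr (h1 J hJ),
      fun J hJ => by simp [h2 J hJ]⟩

theorem cP_fix {D : (Fin m → Ch) → Submodule R M} {n : ℤ} {ξ : (Fin m → Ch) → M}
    (h : ξ ∈ Cech D n) : cP R m M n ξ = ξ := by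
  funext J
  by_cases hJ : (cdeg J : ℤ) = -n
  · simp [cP, hJ]
  · simp [cP, hJ, (mem_cech.1 h).2 J hJ]

theorem cP_kill {D : (Fin m → Ch) → Submodule R M} {n n' : ℤ} (hn : n' ≠ n)
    {ξ : (Fin m → Ch) → M} (h : ξ ∈ Cech D n) : cP R m M n' ξ = 0 := by
  funext J
  by_cases hJ : (cdeg J : ℤ) = -n'
  · simp [cP, hJ, (mem_cech.1 h).2 J (by omega)]
  · simp [cP, hJ]

theorem CMono.smul {D : (Fin m → Ch) → Submodule R M} (h : CMono D) (I : Ideal R) :
    CMono fun J => I • D J := by
  intro J j hj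
  exact ⟨Submodule.smul_mono le_rfl (h J j hj).1, Submodule.smul_mono le_rfl (h J j hj).2⟩

theorem CMono.map {D : (Fin m → Ch) → Submodule R M} (h : CMono D) (φ : M →ₗ[R] M') :
    CMono fun J => (D J).map φ := by
  intro J j hj
  exact ⟨Submodule.map_mono (h J j hj).1, Submodule.map_mono (h J j hj).2⟩

/-- The contraction moving the `W` component in slot `j` to the chart `L`. -/
noncomputable def chm (R : Type u) [CommRing R] (M : Type u) [AddCommGroup M] [Module R M]
    (j : Fin m) (L : Ch) : ((Fin m → Ch) → M) →ₗ[R] ((Fin m → Ch) → M) :=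
  LinearMap.pi fun J => if J j = L then ((csgn J j : ℤ) : R) •
    (LinearMap.proj (Function.update J j Ch.W) : ((Fin m → Ch) → M) →ₗ[R] M) else 0

theorem chm_apply (j : Fin m) (L : Ch) (ξ : (Fin m → Ch) → M) (J : Fin m → Ch) :
    chm R M j L ξ J =
      if J j = L then ((csgn J j : ℤ) : R) • ξ (Function.update J j Ch.W) else 0 := by
  by_cases h : J j = L <;> simp [chm, h]

theorem cd1_chm {i j : Fin m} (h : i ≠ j) {L : Ch} (hL : L ≠ Ch.W) (ξ : (Fin m → Ch) → M)
    (J : Fin m → Ch) : cd1 R i (chm R M j L ξ) J + chm R M j L (cd1 R i ξ) J = 0 := by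
  by_cases hi : J i = Ch.W
  · by_cases hj : J j = L
    · have hj' : J j ≠ Ch.W := hj ▸ hL
      rcases lt_or_gt_of_ne h with h' | h'
      · simp only [cd1, chm_apply, hi, hj, Function.update_of_ne h, Function.update_of_ne h.symm,
          if_true, csgn_update_of_le J h'.le, csgn_update_of_lt J h' hi (L := Ch.U) (by decide),
          csgn_update_of_lt J h' hi (L := Ch.V) (by decide), Function.update_comm h]
        push_cast
        module
      · simp only [cd1, chm_apply, hi, hj, Function.update_of_ne h, Function.update_of_ne h.symm,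
          if_true, csgn_update_of_le J h'.le, csgn_update_W_of_lt J h' hj',
          Function.update_comm h]
        push_cast
        module
    · simp [cd1, chm_apply, hj, Function.update_of_ne h.symm]
  · simp [cd1, chm_apply, hi, Function.update_of_ne h]

theorem cd_chm (j : Fin m) {L : Ch} (hL : L ≠ Ch.W) (ξ : (Fin m → Ch) → M) (J : Fin m → Ch) :
    (cd R m M (chm R M j L ξ) + chm R M j L (cd R m M ξ)) J =
      cd1 R j (chm R M j L ξ) J + chm R M j L (cd1 R j ξ) J := by
  have e : cd R m M ξ = ∑ i, cd1 R i ξ := funext fun K => by rw [cd_eq_sum, Finset.sum_apply]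
  rw [Pi.add_apply, cd_eq_sum, e, map_sum, Finset.sum_apply, ← Finset.sum_add_distrib]
  exact Finset.sum_eq_single j (fun i _ hi => cd1_chm hi hL ξ J) (by simp)

theorem csgn_smul_smul (J : Fin m → Ch) (j : Fin m) (v : M) :
    ((csgn J j : ℤ) : R) • ((csgn J j : ℤ) : R) • v = v := by
  rw [smul_smul, ← Int.cast_mul, csgn_mul_self, Int.cast_one, one_smul]

theorem cd_chm_U (j : Fin m) (ξ : (Fin m → Ch) → M) (J : Fin m → Ch) :
    (cd R m M (chm R M j Ch.U ξ) + chm R M j Ch.U (cd R m M ξ)) J =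
      ξ J - if J j = Ch.W then 0 else ξ (Function.update J j Ch.V) := by
  rw [cd_chm j (by decide)]
  have hs := fun L => csgn_update_of_le J (le_refl j) L
  have hJ := Function.update_eq_self j J
  rcases h : J j with _ | _ | _ <;> rw [h] at hJ <;>
    simp [cd1, chm_apply, h, hs, csgn_smul_smul, hJ]

theorem cd_chm_V (j : Fin m) (ξ : (Fin m → Ch) → M) (J : Fin m → Ch) :
    (cd R m M (chm R M j Ch.V ξ) + chm R M j Ch.V (cd R m M ξ)) J =
      -(ξ J - if J j = Ch.W then 0 else ξ (Function.update J j Ch.U)) := by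
  rw [cd_chm j (by decide)]
  have hs := fun L => csgn_update_of_le J (le_refl j) L
  have hJ := Function.update_eq_self j J
  rcases h : J j with _ | _ | _ <;> rw [h] at hJ <;>
    simp [cd1, chm_apply, h, hs, csgn_smul_smul, hJ]

/-- Homotopy of a cocycle to the chart `V` in the coordinates of `s`. -/
theorem exists_homotopy (s : Finset (Fin m)) (ξ : (Fin m → Ch) → M) (h0 : cd R m M ξ = 0) :
    ∃ η : (Fin m → Ch) → M,
      (∀ J, ξ J - cd R m M η J =
        if ∀ j ∈ s, J j ≠ Ch.W then ξ (fun l => if l ∈ s then Ch.V else J l) else 0) ∧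
      ∀ J, η J ≠ 0 → ∃ j ∈ s, J j = Ch.U ∧ ∃ J', ξ J' ≠ 0 ∧ cdeg J' = cdeg J + 1 ∧
        ∀ l ∉ s, J' l = J l := by
  induction s using Finset.induction_on with
  | empty => exact ⟨0, fun J => by simp, fun J hJ => (hJ rfl).elim⟩
  | insert i s hi IH =>
    obtain ⟨η, h1, h2⟩ := IH
    have hz : cd R m M (ξ - cd R m M η) = 0 := by rw [map_sub, h0, cd_cd, sub_zero]
    refine ⟨η + chm R M i Ch.U (ξ - cd R m M η), fun J => ?_, fun J hJ => ?_⟩
    · have e := cd_chm_U (R := R) i (ξ - cd R m M η) J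
      rw [hz, map_zero, add_zero] at e
      rw [map_add, Pi.add_apply, e, Pi.sub_apply, Pi.sub_apply, h1 (Function.update J i Ch.V)]
      have e1 : ∀ j ∈ s, Function.update J i Ch.V j = J j := fun j hj =>
        Function.update_of_ne (fun e : j = i => hi (e ▸ hj)) _ _
      have e2 : (fun l => if l ∈ s then Ch.V else Function.update J i Ch.V l) =
          fun l => if l ∈ insert i s then Ch.V else J l := by
        funext l
        by_cases hl : l = i
        · subst hl
          simp
        · simp [hl]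
      have e3 : (∀ j ∈ s, Function.update J i Ch.V j ≠ Ch.W) ↔ ∀ j ∈ s, J j ≠ Ch.W :=
        forall₂_congr fun j hj => by rw [e1 j hj]
      rw [e2]
      simp only [e3, Finset.forall_mem_insert]
      by_cases hW : J i = Ch.W
      · simp [hW]
      · simp only [hW, if_false, ne_eq, not_false_eq_true, true_and]
        abel
    · by_cases hη : η J = 0
      · rw [Pi.add_apply, hη, zero_add, chm_apply] at hJ
        have hU : J i = Ch.U := by
          by_contra hc
          exact hJ (if_neg hc)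
        rw [if_pos hU, Pi.sub_apply, h1] at hJ
        refine ⟨i, Finset.mem_insert_self _ _, hU, fun l => if l ∈ s then Ch.V else
          Function.update J i Ch.W l, ?_, ?_, fun l hl => ?_⟩
        · intro hc
          exact hJ (by rw [hc]; simp)
        · have hs : ∀ j ∈ s, Function.update J i Ch.W j ≠ Ch.W := by
            by_contra hc
            exact hJ (by rw [if_neg hc, smul_zero])
          rw [← cdeg_update_W J (i := i) (by simp [hU])]
          refine cdeg_congr fun l => ?_
          by_cases hl : l ∈ s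
          · simp [hl, hs l hl]
          · simp [hl]
        · rw [Finset.mem_insert, not_or] at hl
          simp [hl.1, hl.2]
      · obtain ⟨j, hj, hU, J', a, b, c⟩ := h2 J hη
        exact ⟨j, Finset.mem_insert_of_mem hj, hU, J', a, b,
          fun l hl => c l fun h => hl (Finset.mem_insert_of_mem h)⟩

theorem cdeg_V : cdeg (fun _ : Fin m => Ch.V) = 0 := by
  simp [cdeg]

/-- The full Cech complex is acyclic in positive Cech degree. -/
theorem cech_top_acyclic (n : ℤ) (hn : n < 0) (ξ : (Fin m → Ch) → M)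
    (h : ξ ∈ Cech (⊤ : (Fin m → Ch) → Submodule R M) n) (h0 : cd R m M ξ = 0) :
    ∃ η ∈ Cech (⊤ : (Fin m → Ch) → Submodule R M) (n + 1), cd R m M η = ξ := by
  obtain ⟨η, h1, h2⟩ := exists_homotopy (R := R) Finset.univ ξ h0
  have h3 := (mem_cech.1 h).2
  refine ⟨η, mem_cech.2 ⟨fun _ _ => trivial, fun J hJ => ?_⟩, funext fun J => ?_⟩
  · by_contra hc
    obtain ⟨j, -, -, J', a, b, -⟩ := h2 J hc
    exact a (h3 J' (by omega))
  · have := h1 J
    simp only [Finset.mem_univ, if_true, h3 (fun _ => Ch.V) (by rw [cdeg_V]; omega),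
      ite_self] at this
    exact (sub_eq_zero.1 this).symm

/-- A cocycle of degree zero is determined by one of its components. -/
theorem cech_zero_eq_zero (ξ : (Fin m → Ch) → M)
    (h : ξ ∈ Cech (⊤ : (Fin m → Ch) → Submodule R M) 0) (h0 : cd R m M ξ = 0)
    (hU : ξ (fun _ => Ch.U) = 0) : ξ = 0 := by
  obtain ⟨η, h1, h2⟩ := exists_homotopy (R := R) Finset.univ ξ h0
  have h3 := (mem_cech.1 h).2
  have hη : η = 0 := funext fun J => by
    by_contra hc
    obtain ⟨j, -, -, J', a, b, -⟩ := h2 J hc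
    exact a (h3 J' (by omega))
  subst hη
  simp only [map_zero, Pi.zero_apply, sub_zero, Finset.mem_univ, if_true] at h1
  have hV : ξ (fun _ => Ch.V) = 0 := by
    rw [← hU, h1 (fun _ => Ch.U)]
    simp
  funext J
  rw [h1 J, hV]
  simp

theorem cd_comp (φ : M →ₗ[R] M') (ξ : (Fin m → Ch) → M) (J : Fin m → Ch) :
    cd R m M' (fun K => φ (ξ K)) J = φ (cd R m M ξ J) := by
  simp [cd_apply]

/-- Transfer along a map of coefficient modules. -/
theorem hh_cech_transfer (μ : LenFun R) (φ : M →ₗ[R] M')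
    {D' D'' : (Fin m → Ch) → Submodule R M} {G' G'' : (Fin m → Ch) → Submodule R M'}
    (hD : CMono D'') (hG : CMono G') (hsurj : ∀ J, (D'' J).map φ ⊔ G' J = G'' J)
    (hinj : ∀ J, D'' J ⊓ (G' J).comap φ = D' J) (n : ℤ) :
    hh μ (cd R m M) (Cech D') (Cech D'') n = hh μ (cd R m M') (Cech G') (Cech G'') n := by
  have := hh_transfer μ (d := cd R m M) (d' := cd R m M') (F' := Cech D') (F'' := Cech D'')
    (G' := Cech G') (G'' := Cech G'') (φ.compLeft (Fin m → Ch)) 0 1 (cech_isCx hD) (cech_isCx hG)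
    (fun n x _ => by
      have : (φ.compLeft (Fin m → Ch)) (cd R m M x) = cd R m M' (φ.compLeft (Fin m → Ch) x) :=
        funext fun J => (cd_comp φ x J).symm
      simp [this])
    (fun n => by
      rw [add_zero]
      apply le_antisymm
      · refine sup_le ?_ (cech_mono (fun J => (hsurj J) ▸ le_sup_right) n)
        rintro _ ⟨ξ, hξ, rfl⟩
        obtain ⟨h1, h2⟩ := mem_cech.1 hξ
        refine mem_cech.2 ⟨fun J hJ => ?_, fun J hJ => by simp [h2 J hJ]⟩
        rw [← hsurj J]
        exact Submodule.mem_sup_left ⟨ξ J, h1 J hJ, rfl⟩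
      · intro ξ hξ
        obtain ⟨h1, h2⟩ := mem_cech.1 hξ
        have : ∀ J, ∃ a b, φ a + b = ξ J ∧ ((cdeg J : ℤ) = -n → a ∈ D'' J ∧ b ∈ G' J) ∧
            ((cdeg J : ℤ) ≠ -n → a = 0 ∧ b = 0) := by
          intro J
          by_cases hJ : (cdeg J : ℤ) = -n
          · have := h1 J hJ
            rw [← hsurj J] at this
            obtain ⟨_, ⟨a, ha, rfl⟩, b, hb, e⟩ := Submodule.mem_sup.1 this
            exact ⟨a, b, e, fun _ => ⟨ha, hb⟩, fun h => (h hJ).elim⟩
          · exact ⟨0, 0, by simp [h2 J hJ], fun h => (hJ h).elim, fun _ => ⟨rfl, rfl⟩⟩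
        choose a b e1 e2 e3 using this
        refine Submodule.mem_sup.2 ⟨_, ⟨a, mem_cech.2 ⟨fun J hJ => (e2 J hJ).1,
          fun J hJ => (e3 J hJ).1⟩, rfl⟩, b, mem_cech.2 ⟨fun J hJ => (e2 J hJ).2,
          fun J hJ => (e3 J hJ).2⟩, funext e1⟩)
    (fun n => by
      rw [add_zero]
      ext ξ
      rw [Submodule.mem_inf, Submodule.mem_comap, mem_cech, mem_cech, mem_cech]
      constructor
      · rintro ⟨⟨h1, h2⟩, h3, -⟩
        exact ⟨fun J hJ => (hinj J) ▸ ⟨h1 J hJ, h3 J hJ⟩, h2⟩
      · rintro ⟨h1, h2⟩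
        have h3 : ∀ J, (cdeg J : ℤ) = -n → ξ J ∈ D'' J ⊓ (G' J).comap φ := fun J hJ =>
          (hinj J).symm ▸ h1 J hJ
        exact ⟨⟨fun J hJ => (h3 J hJ).1, h2⟩, fun J hJ => (h3 J hJ).2,
          fun J hJ => by simp [h2 J hJ]⟩) n
  rwa [add_zero] at this

section restrict

variable (R0 : Type u) [CommRing R0] [Algebra R0 R] [Module R0 M] [IsScalarTower R0 R M]

theorem cd_restrictScalars : (cd R m M).restrictScalars R0 = cd R0 m M := by
  refine LinearMap.ext fun ξ => funext fun J => ?_
  rw [LinearMap.restrictScalars_apply, cd_apply, cd_apply]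
  simp only [Int.cast_smul_eq_zsmul]

theorem cech_restrictScalars (D : (Fin m → Ch) → Submodule R M) (n : ℤ) :
    (Cech D n).restrictScalars R0 = Cech (fun J => (D J).restrictScalars R0) n := by
  ext ξ
  rw [Submodule.restrictScalars_mem, mem_cech, mem_cech]
  rfl

end restrict

end Vale.Agent.P202
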