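import Vale.Agent.P202.Defs2

/-! Coefficient fields: lifting field homomorphisms into complete rings. -/

namespace Vale.Agent.P202

open IsLocalRing

universe u

open Polynomial in
/-- Geddes' argument: a square-zero extension of a field in characteristic `p` splits. -/
theorem exists_section_charP {T L : Type*} [CommRing T] [Field L] {p : ℕ} (hp : p.Prime)
    [CharP T p] [CharP L p] (π : T →+* L) (hπ : Function.Surjective π)
    (hsq : ∀ t, π t = 0 → t * t = 0) : ∃ g : L →+* T, π.comp g = RingHom.id L := by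
  have : Fact p.Prime := ⟨hp⟩
  have hunit : ∀ t, π t ≠ 0 → ∃ s, t * s = 1 := by
    intro t ht
    obtain ⟨s, hs⟩ := hπ (π t)⁻¹
    have h1 : π (1 - t * s) = 0 := by
      rw [map_sub, map_one, map_mul, hs, mul_inv_cancel₀ ht, sub_self]
    refine ⟨s * (1 + (1 - t * s)), ?_⟩
    linear_combination -hsq _ h1
  let G : Set (Subring T) := {F | (∀ t : T, t ^ p ∈ F) ∧ ∀ t ∈ F, π t = 0 → t = 0}
  have h0 : (frobenius T p).range ∈ G := by
    refine ⟨fun t => ⟨t, rfl⟩, ?_⟩
    rintro _ ⟨t, rfl⟩ ht
    rw [frobenius_def] at ht ⊢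
    rw [map_pow] at ht
    obtain ⟨n, hn⟩ : ∃ n, p = n + 2 := ⟨p - 2, by have := hp.two_le; omega⟩
    rw [hn, pow_add, pow_two, hsq t (pow_eq_zero_iff hp.ne_zero |>.1 ht), mul_zero]
  obtain ⟨F, -, hF⟩ := zorn_le_nonempty₀ G (fun c hc hch F0 hF0 => by
    refine ⟨sSup c, ⟨fun t => le_sSup hF0 ((hc hF0).1 t), fun t ht => ?_⟩,
      fun z hz => le_sSup hz⟩
    obtain ⟨F1, hF1, ht⟩ := (Subring.mem_sSup_of_directedOn ⟨F0, hF0⟩ hch.directedOn).1 ht
    exact (hc hF1).2 t ht) _ h0
  obtain ⟨hF1, hF2⟩ := hF.prop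
  have : Nontrivial T := π.domain_nontrivial
  have hfield : IsField F := by
    refine ⟨⟨0, 1, zero_ne_one⟩, mul_comm, ?_⟩
    intro a ha
    obtain ⟨s, hs⟩ := hunit a (fun h => ha (Subtype.ext (hF2 a a.2 h)))
    obtain ⟨n, hn⟩ : ∃ n, p = n + 1 := ⟨p - 1, by have := hp.two_le; omega⟩
    refine ⟨⟨(a : T) ^ n * s ^ p, F.mul_mem (F.pow_mem a.2 n) (hF1 s)⟩, Subtype.ext ?_⟩
    change (a : T) * ((a : T) ^ n * s ^ p) = 1
    rw [← mul_assoc, ← pow_succ', ← hn, ← mul_pow, hs, one_pow]
  have hsurj : Function.Surjective (π.comp F.subtype) := by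
    intro b
    by_contra hb
    obtain ⟨a, rfl⟩ := hπ b
    let : Field F := hfield.toField
    let : Algebra F L := (π.comp F.subtype).toAlgebra
    let π' : T →ₐ[F] L := { π with commutes' := fun _ => rfl }
    let c : F := ⟨a ^ p, hF1 a⟩
    have hirr : Irreducible (X ^ p - C c : F[X]) := by
      refine X_pow_sub_C_irreducible_of_prime hp fun e he => hb ⟨e, ?_⟩
      have h1 : (e : T) ^ p = a ^ p := congrArg Subtype.val he
      have h2 : (π e - π a) ^ p = 0 := by
        rw [sub_pow_char, ← map_pow, ← map_pow, h1, sub_self]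
      exact sub_eq_zero.1 (pow_eq_zero_iff hp.ne_zero |>.1 h2)
    have ha : aeval a (X ^ p - C c : F[X]) = 0 := by
      rw [map_sub, map_pow, aeval_X, aeval_C]
      exact sub_self _
    have hb' : aeval (π' a) (X ^ p - C c : F[X]) = 0 := by
      rw [aeval_algHom_apply, ha, map_zero]
    have hmin := minpoly.eq_of_irreducible_of_monic hirr hb' (monic_X_pow_sub_C c hp.ne_zero)
    have hle : F ≤ (aeval a : F[X] →ₐ[F] T).range.toSubring := fun t ht =>
      ⟨C ⟨t, ht⟩, aeval_C _ _⟩
    have hG : (aeval a : F[X] →ₐ[F] T).range.toSubring ∈ G := by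
      refine ⟨fun t => hle (hF1 t), ?_⟩
      rintro _ ⟨P, rfl⟩ hP
      have h1 : aeval (π' a) P = 0 := by
        rw [aeval_algHom_apply]; exact hP
      have h2 := minpoly.dvd F _ h1
      rw [← hmin] at h2
      obtain ⟨Q, rfl⟩ := h2
      change aeval a _ = 0
      rw [map_mul, ha, zero_mul]
    have h3 : a ∈ F := hF.le_of_ge hG hle ⟨X, aeval_X _⟩
    exact hb ⟨⟨a, h3⟩, rfl⟩
  have hinj : Function.Injective (π.comp F.subtype) := by
    rw [injective_iff_map_eq_zero]
    intro a ha
    exact Subtype.ext (hF2 a a.2 ha)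
  let e := RingEquiv.ofBijective _ ⟨hinj, hsurj⟩
  exact ⟨F.subtype.comp e.symm.toRingHom, RingHom.ext fun x => e.apply_symm_apply x⟩

theorem formallySmooth_zmod (k : Type u) [Field k] (p : ℕ) [Fact p.Prime] [Algebra (ZMod p) k] :
    Algebra.FormallySmooth (ZMod p) k := by
  let f : MvPolynomial k (ZMod p) →ₐ[ZMod p] k := MvPolynomial.aeval id
  have hf : Function.Surjective f := fun x => ⟨MvPolynomial.X x, by simp [f]⟩
  rw [Algebra.FormallySmooth.iff_split_surjection f hf]
  have surj : Function.Surjective f.kerSquareLift :=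
    Ideal.Quotient.lift_surjective_of_surjective _ _ hf
  have sqz : RingHom.ker f.kerSquareLift.toRingHom ^ 2 = ⊥ := by
    rw [AlgHom.ker_kerSquareLift, Ideal.cotangentIdeal_square]
  have : CharP k p := (Algebra.charP_iff (ZMod p) k p).1 inferInstance
  have := f.kerSquareLift.toRingHom.domain_nontrivial
  have : CharP (MvPolynomial k (ZMod p) ⧸ RingHom.ker f.toRingHom ^ 2) p :=
    (Algebra.charP_iff (ZMod p) _ p).1 inferInstance
  obtain ⟨g, hg⟩ := exists_section_charP (Fact.out : p.Prime) f.kerSquareLift.toRingHom surj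
    (fun t ht => by
      refine Ideal.mem_bot.1 (sqz.le ?_)
      rw [pow_two (RingHom.ker f.kerSquareLift.toRingHom)]
      exact Ideal.mul_mem_mul ht ht)
  refine ⟨{ g with commutes' := fun r => ?_ }, AlgHom.ext fun x => RingHom.congr_fun hg x⟩
  exact RingHom.congr_fun (RingHom.ext_zmod (g.comp (algebraMap (ZMod p) k)) (algebraMap _ _)) r

/-- A field of characteristic `p` is formally smooth over the prime field (Geddes' argument). -/
theorem exists_lift_charP {k B : Type u} [Field k] [CommRing B] (I : Ideal B) [IsAdicComplete I B]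
    {p : ℕ} (hp : p.Prime) (hB : (p : B) = 0) (f : k →+* B ⧸ I) :
    ∃ g : k →+* B, (Ideal.Quotient.mk I).comp g = f := by
  have : Fact p.Prime := ⟨hp⟩
  rcases subsingleton_or_nontrivial (B ⧸ I) with h | h
  · have hI : I = ⊤ := Ideal.Quotient.subsingleton_iff.1 h
    subst hI
    have : Subsingleton B := IsHausdorff.subsingleton (R := B) inferInstance
    exact ⟨⟨⟨⟨fun _ => 0, Subsingleton.elim _ _⟩, fun _ _ => Subsingleton.elim _ _⟩,
      Subsingleton.elim _ _, fun _ _ => Subsingleton.elim _ _⟩,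
      RingHom.ext fun _ => Subsingleton.elim _ _⟩
  · have : Nontrivial B := (Ideal.Quotient.mk I).domain_nontrivial
    have : CharP B p := (CharP.charP_iff_prime_eq_zero hp).2 hB
    have hk : (p : k) = 0 := by
      apply f.injective
      rw [map_natCast, map_zero, ← map_natCast (Ideal.Quotient.mk I), hB, map_zero]
    have : CharP k p := (CharP.charP_iff_prime_eq_zero hp).2 hk
    let : Algebra (ZMod p) B := ZMod.algebra B p
    let : Algebra (ZMod p) k := ZMod.algebra k p
    have := formallySmooth_zmod k p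
    obtain ⟨g, hg⟩ := Algebra.FormallySmooth.exists_mkₐ_comp_eq_of_isAdicComplete
      (R := ZMod p) (I := I) ⟨f, fun r => RingHom.congr_fun
        (RingHom.ext_zmod (f.comp (algebraMap (ZMod p) k)) (algebraMap _ _)) r⟩
    exact ⟨g.toRingHom, RingHom.ext fun x => AlgHom.congr_fun hg x⟩

/-- In characteristic zero every field extension is formally smooth. -/
theorem exists_lift_charZero {k0 : Type*} {k B : Type u} [Field k0] [CharZero k0] [Field k]
    [CommRing B] (I : Ideal B) [IsAdicComplete I B] (σ : k0 →+* k) (g0 : k0 →+* B)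
    (f : k →+* B ⧸ I) (h : f.comp σ = (Ideal.Quotient.mk I).comp g0) :
    ∃ g : k →+* B, (Ideal.Quotient.mk I).comp g = f ∧ g.comp σ = g0 := by
  let : Algebra k0 k := σ.toAlgebra
  let : Algebra k0 B := g0.toAlgebra
  obtain ⟨s, hs⟩ := exists_isTranscendenceBasis k0 k
  have := hs.isAlgebraic_field
  have : Algebra.FormallySmooth k0 k :=
    Algebra.FormallySmooth.of_algebraicIndependent_of_isSeparable hs.1
  obtain ⟨g, hg⟩ := Algebra.FormallySmooth.exists_mkₐ_comp_eq_of_isAdicComplete
    (R := k0) (I := I) { f with commutes' := fun r => RingHom.congr_fun h r }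
  exact ⟨g.toRingHom, RingHom.ext fun x => AlgHom.congr_fun hg x,
    RingHom.ext fun x => g.commutes x⟩

theorem exists_coefField {B : Type u} [CommRing B] [IsLocalRing B]
    [IsAdicComplete (maximalIdeal B) B] (h : EqChar B) :
    ∃ g : ResidueField B →+* B, (residue B).comp g = RingHom.id _ := by
  rcases h with ⟨⟨g0⟩⟩ | ⟨p, hp, hB⟩
  · obtain ⟨g, hg, -⟩ := exists_lift_charZero (k := ResidueField B) (maximalIdeal B)
      ((residue B).comp g0) g0 (RingHom.id (ResidueField B)) rfl
    exact ⟨g, hg⟩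
  · exact exists_lift_charP (k := ResidueField B) (maximalIdeal B) hp hB
      (RingHom.id (ResidueField B))

theorem EqChar.map {A B : Type u} [CommRing A] [CommRing B] (h : EqChar A) (f : A →+* B) :
    EqChar B := by
  rcases h with ⟨⟨g⟩⟩ | ⟨p, hp, hA⟩
  · exact Or.inl ⟨f.comp g⟩
  · exact Or.inr ⟨p, hp, by rw [← map_natCast f, hA, map_zero]⟩

theorem eqChar_of_field (K : Type*) [Field K] {A : Type u} [CommRing A] (f : K →+* A) :
    EqChar A := by
  obtain ⟨p, hp⟩ := CharP.exists K
  rcases CharP.char_is_prime_or_zero K p with h | rfl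
  · exact Or.inr ⟨p, h, by rw [← map_natCast f, CharP.cast_eq_zero, map_zero]⟩
  · have := CharP.charP_to_charZero K
    exact Or.inl ⟨f.comp (Rat.castHom K)⟩

end Vale.Agent.P202
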