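import Vale.Agent.P202.Mono

/-! Extension of homogeneous ideals to the charts commutes with colon ideals. -/

namespace Vale.Agent.P202

open MvPolynomial

universe u

/-- `θ` is flat away from `x`, as far as colon ideals are concerned. -/
def FA {A B : Type u} [CommRing A] [CommRing B] (θ : A →+* B) (x : B) : Prop :=
  ∀ (c : Ideal A) (h : A) (b : B), θ h * b ∈ c.map θ → ∃ n : ℕ, x ^ n * b ∈ (c.colon {h}).map θ

variable {A : Type u} [CommRing A] {m : ℕ}

/-- The linear form of a chart: `1 + z T` or `z + T`. -/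
noncomputable def linf (τ : Bool) {B : Type u} [CommRing B] (z : B) : Polynomial B :=
  if τ then 1 + Polynomial.C z * Polynomial.X else Polynomial.C z + Polynomial.X

/-- The cone over a chart of `(P^1)^m` mapping to `A^(m+1)`; the outer variable is `ω`. -/
noncomputable def PsiCone (A : Type u) [CommRing A] (m : ℕ) (τ : Fin m → Bool) :
    MvPolynomial (Fin (m + 1)) A →ₐ[A] Polynomial (MvPolynomial (Fin m) A) :=
  aeval fun i : Fin (m + 1) =>
    Polynomial.C ((∏ j : Fin m, linf (τ j) (X j : MvPolynomial (Fin m) A)).coeff i) * Polynomial.X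

section ColonAux

/-- Saturation of an ideal with respect to an element. -/
def satI {B : Type u} [CommRing B] (x : B) (I : Ideal B) : Ideal B where
  carrier := {b | ∃ n : ℕ, x ^ n * b ∈ I}
  add_mem' := by
    rintro a b ⟨n, hn⟩ ⟨k, hk⟩
    refine ⟨n + k, ?_⟩
    have : x ^ (n + k) * (a + b) = x ^ k * (x ^ n * a) + x ^ n * (x ^ k * b) := by ring
    rw [this]
    exact I.add_mem (I.mul_mem_left _ hn) (I.mul_mem_left _ hk)
  zero_mem' := ⟨0, by simp⟩
  smul_mem' := by
    rintro c b ⟨n, hn⟩
    refine ⟨n, ?_⟩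
    have : x ^ n * (c • b) = c * (x ^ n * b) := by rw [smul_eq_mul]; ring
    rw [this]
    exact I.mul_mem_left _ hn

theorem mem_satI {B : Type u} [CommRing B] {x b : B} {I : Ideal B} :
    b ∈ satI x I ↔ ∃ n : ℕ, x ^ n * b ∈ I := Iff.rfl

theorem le_satI {B : Type u} [CommRing B] (x : B) (I : Ideal B) : I ≤ satI x I :=
  fun b hb => ⟨0, by simpa using hb⟩

theorem map_satI_le {B B' : Type u} [CommRing B] [CommRing B'] (f : B →+* B') (x : B)
    (I : Ideal B) : (satI x I).map f ≤ satI (f x) (I.map f) := by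
  rw [Ideal.map_le_iff_le_comap]
  rintro b ⟨n, hn⟩
  refine ⟨n, ?_⟩
  rw [← map_pow, ← map_mul]
  exact Ideal.mem_map_of_mem _ hn

variable {R B B' : Type u} [CommRing R] [CommRing B] [CommRing B']

theorem FA.comp {θ : R →+* B} {θ' : B →+* B'} {x : B} {x' : B'} (h1 : FA θ x) (h2 : FA θ' x') :
    FA (θ'.comp θ) (θ' x * x') := by
  intro c h b hb
  rw [← Ideal.map_map, RingHom.comp_apply] at hb
  obtain ⟨n, hn⟩ := h2 _ _ _ hb
  have hle : (c.map θ).colon {θ h} ≤ satI x ((c.colon {h}).map θ) := by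
    intro y hy
    rw [Submodule.mem_colon_singleton, smul_eq_mul, mul_comm] at hy
    exact h1 c h y hy
  obtain ⟨k, hk⟩ := map_satI_le θ' x _ (Ideal.map_mono hle hn)
  rw [Ideal.map_map] at hk
  refine ⟨n + k, ?_⟩
  have : (θ' x * x') ^ (n + k) * b = (θ' x ^ n * x' ^ k) * (θ' x ^ k * (x' ^ n * b)) := by ring
  rw [this]
  exact Ideal.mul_mem_left _ _ hk

theorem fa_of_mem_radical {θ : R →+* B} {S : Set B} (hS : ∀ y ∈ S, FA θ y) {x : B}
    (hx : x ∈ (Ideal.span S).radical) : FA θ x := by
  intro c h b hb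
  have hle : Ideal.span S ≤ (((c.colon {h}).map θ).colon {b}).radical := by
    rw [Ideal.span_le]
    intro y hy
    obtain ⟨n, hn⟩ := hS y hy c h b hb
    exact ⟨n, by rwa [Submodule.mem_colon_singleton, smul_eq_mul]⟩
  have hx' := Ideal.radical_mono hle hx
  rw [Ideal.radical_idem] at hx'
  obtain ⟨n, hn⟩ := hx'
  exact ⟨n, by rwa [Submodule.mem_colon_singleton, smul_eq_mul] at hn⟩

theorem fa_of_bijective {θ : R →+* B} (hθ : Function.Bijective θ) (x : B) : FA θ x := by
  intro c h b hb
  obtain ⟨b', rfl⟩ := hθ.2 b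
  rw [← map_mul, Ideal.mem_map_iff_of_surjective θ hθ.2] at hb
  obtain ⟨y, hy, hy'⟩ := hb
  have : y = h * b' := hθ.1 hy'
  refine ⟨0, ?_⟩
  rw [pow_zero, one_mul]
  apply Ideal.mem_map_of_mem
  rw [Submodule.mem_colon_singleton, smul_eq_mul, mul_comm, ← this]
  exact hy

/-- McCoy's theorem in saturated form. -/
theorem mccoy_sat (J : Ideal R) (φ v : Polynomial R) (j : ℕ)
    (hv : φ * v ∈ J.map (Polynomial.C : R →+* Polynomial R)) :
    v ∈ satI (Polynomial.C (φ.coeff j)) (J.map (Polynomial.C : R →+* Polynomial R)) := by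
  apply map_satI_le
  set K := satI (φ.coeff j) J with hK
  have hker : RingHom.ker (Polynomial.mapRingHom (Ideal.Quotient.mk K)) =
      K.map (Polynomial.C : R →+* Polynomial R) := by
    rw [Polynomial.ker_mapRingHom, Ideal.mk_ker]
  rw [← hker, RingHom.mem_ker]
  have h1 : φ * v ∈ K.map (Polynomial.C : R →+* Polynomial R) :=
    Ideal.map_mono (le_satI _ _) hv
  rw [← hker, RingHom.mem_ker, map_mul] at h1
  have h2 : Polynomial.mapRingHom (Ideal.Quotient.mk K) φ ∈
      nonZeroDivisors (Polynomial (R ⧸ K)) := by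
    apply Polynomial.mem_nonzeroDivisors_of_coeff_mem j
    rw [mem_nonZeroDivisors_iff_right]
    intro s hs
    obtain ⟨s, rfl⟩ := Ideal.Quotient.mk_surjective s
    rw [Polynomial.coe_mapRingHom, Polynomial.coeff_map, ← map_mul,
      Ideal.Quotient.eq_zero_iff_mem] at hs
    rw [Ideal.Quotient.eq_zero_iff_mem]
    obtain ⟨n, hn⟩ := hs
    refine ⟨n + 1, ?_⟩
    have : φ.coeff j ^ (n + 1) * s = φ.coeff j ^ n * (s * φ.coeff j) := by ring
    rwa [this]
  exact (mem_nonZeroDivisors_iff_left.1 h2) _ h1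

theorem fa_adjoinRoot (φ : Polynomial R) (j : ℕ) :
    FA (AdjoinRoot.of φ) (AdjoinRoot.of φ (φ.coeff j)) := by
  intro c h b hb
  obtain ⟨b', rfl⟩ := AdjoinRoot.mk_surjective b
  have hof : AdjoinRoot.of φ = (AdjoinRoot.mk φ).comp Polynomial.C := rfl
  rw [hof, ← Ideal.map_map, Ideal.mem_map_iff_of_surjective _ AdjoinRoot.mk_surjective] at hb
  obtain ⟨u, hu, hu'⟩ := hb
  rw [RingHom.comp_apply, ← map_mul, AdjoinRoot.mk_eq_mk] at hu'
  obtain ⟨v, hv⟩ := hu'
  have h1 : φ * v ∈ (c ⊔ Ideal.span {h}).map (Polynomial.C : R →+* Polynomial R) := by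
    rw [← hv]
    apply Ideal.sub_mem
    · exact Ideal.map_mono le_sup_left hu
    · exact Ideal.mul_mem_right _ _ (Ideal.mem_map_of_mem _
        (Ideal.mem_sup_right (Ideal.mem_span_singleton_self h)))
  obtain ⟨n, hn⟩ := mccoy_sat _ φ v j h1
  rw [Ideal.map_sup, Ideal.map_span, Set.image_singleton, Submodule.mem_sup] at hn
  obtain ⟨u', hu', w', hw', hsum⟩ := hn
  obtain ⟨w, rfl⟩ := Ideal.mem_span_singleton'.1 hw'
  have h2 : Polynomial.C h * (Polynomial.C (φ.coeff j) ^ n * b' + φ * w) ∈
      c.map (Polynomial.C : R →+* Polynomial R) := by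
    have : Polynomial.C h * (Polynomial.C (φ.coeff j) ^ n * b' + φ * w) =
        Polynomial.C (φ.coeff j) ^ n * u - φ * u' := by
      linear_combination (-(Polynomial.C (φ.coeff j) ^ n)) * hv + φ * hsum
    rw [this]
    exact Ideal.sub_mem _ (Ideal.mul_mem_left _ _ hu) (Ideal.mul_mem_left _ _ hu')
  have h3 : Polynomial.C (φ.coeff j) ^ n * b' + φ * w ∈
      (c.colon {h}).map (Polynomial.C : R →+* Polynomial R) := by
    rw [Ideal.mem_map_C_iff] at h2 ⊢
    intro k
    have := h2 k
    rw [Polynomial.coeff_C_mul] at this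
    rwa [Submodule.mem_colon_singleton, smul_eq_mul, mul_comm]
  refine ⟨n, ?_⟩
  have h4 := Ideal.mem_map_of_mem (AdjoinRoot.mk φ) h3
  rw [Ideal.map_map, map_add, map_mul, map_mul, AdjoinRoot.mk_self, zero_mul, add_zero,
    map_pow] at h4
  exact h4

theorem natDegree_linf_le (τ : Bool) (z : B) : (linf τ z).natDegree ≤ 1 := by
  unfold linf
  split_ifs
  · compute_degree
  · compute_degree

theorem map_linf (τ : Bool) (f : B →+* B') (z : B) : (linf τ z).map f = linf τ (f z) := by
  unfold linf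
  split_ifs <;> simp

theorem linf_mem_nonZeroDivisors (τ : Bool) (z : B) :
    linf τ z ∈ nonZeroDivisors (Polynomial B) := by
  unfold linf
  split_ifs
  · apply Polynomial.mem_nonzeroDivisors_of_coeff_mem 0
    simp [one_mem]
  · apply Polynomial.mem_nonzeroDivisors_of_coeff_mem 1
    simp [one_mem]

theorem natDegree_prod_linf_le (τ : Fin m → Bool) (z : Fin m → B) :
    (∏ j : Fin m, linf (τ j) (z j)).natDegree ≤ m := by
  refine (Polynomial.natDegree_prod_le _ _).trans ?_
  refine (Finset.sum_le_sum fun j _ => natDegree_linf_le (τ j) (z j)).trans ?_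
  simp

theorem reflect_linf (τ : Bool) (z : B) : (linf τ z).reflect 1 = linf (!τ) z := by
  cases τ
  · simp [linf, add_comm]
  · simp [linf, add_comm]

theorem exists_split_false (F : Polynomial R) (hF : F.natDegree ≤ m + 1) :
    ∃ φ : Polynomial R, (∀ i, ∃ j, ∃ e : R, F.coeff i = e * φ.coeff j) ∧
      ∀ (S : Type u) [CommRing S] (g : R →+* S) (z : S), φ.eval₂ g z = 0 ↔
        ∃ Q : Polynomial S, Q.natDegree ≤ m ∧ F.map g = linf false z * Q := by
  refine ⟨F.comp (Polynomial.C (-1) * Polynomial.X), fun i => ⟨i, (-1) ^ i, ?_⟩, ?_⟩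
  · rw [Polynomial.comp_C_mul_X_coeff, mul_comm, mul_assoc, ← mul_pow]
    simp
  · intro S _ g z
    have h1 : (F.comp (Polynomial.C (-1) * Polynomial.X)).eval₂ g z = (F.map g).eval (-z) := by
      rw [Polynomial.eval₂_comp, Polynomial.eval_map]
      simp
    have h2 : linf false z = Polynomial.X - Polynomial.C (-z) := by
      simp [linf, add_comm]
    rw [h1, h2]
    constructor
    · intro h
      obtain ⟨Q, hQ⟩ := Polynomial.dvd_iff_isRoot.2 h
      refine ⟨Q, ?_, hQ⟩
      by_cases hQ0 : Q = 0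
      · simp [hQ0]
      · have : Nontrivial S := Polynomial.Nontrivial.of_polynomial_ne hQ0
        have h3 := (Polynomial.monic_X_sub_C (-z)).natDegree_mul' hQ0
        rw [← hQ, Polynomial.natDegree_X_sub_C] at h3
        have h4 := Polynomial.natDegree_map_le (f := g) (p := F)
        omega
    · rintro ⟨Q, -, hQ⟩
      rw [hQ]
      simp

theorem exists_split (τ : Bool) (F : Polynomial R) (hF : F.natDegree ≤ m + 1) :
    ∃ φ : Polynomial R, (∀ i, ∃ j, ∃ e : R, F.coeff i = e * φ.coeff j) ∧
      ∀ (S : Type u) [CommRing S] (g : R →+* S) (z : S), φ.eval₂ g z = 0 ↔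
        ∃ Q : Polynomial S, Q.natDegree ≤ m ∧ F.map g = linf τ z * Q := by
  cases τ
  · exact exists_split_false F hF
  · obtain ⟨φ, h1, h2⟩ := exists_split_false (m := m) (F.reflect (m + 1))
      (Polynomial.natDegree_reflect_le.trans (max_le le_rfl hF))
    refine ⟨φ, fun i => ?_, fun S _ g z => ?_⟩
    · obtain ⟨j, e, he⟩ := h1 (Polynomial.revAt (m + 1) i)
      refine ⟨j, e, ?_⟩
      rw [← he, Polynomial.coeff_reflect, Polynomial.revAt_invol]
    · rw [h2 S g z, ← Polynomial.reflect_map]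
      constructor
      · rintro ⟨Q, hQ, hQ'⟩
        refine ⟨Q.reflect m, Polynomial.natDegree_reflect_le.trans (max_le le_rfl hQ), ?_⟩
        have := congrArg (Polynomial.reflect (m + 1)) hQ'
        rw [Polynomial.reflect_reflect, add_comm m 1,
          Polynomial.reflect_mul _ _ (natDegree_linf_le false z) hQ, reflect_linf] at this
        exact this
      · rintro ⟨Q, hQ, hQ'⟩
        refine ⟨Q.reflect m, Polynomial.natDegree_reflect_le.trans (max_le le_rfl hQ), ?_⟩
        rw [hQ', add_comm m 1, Polynomial.reflect_mul _ _ (natDegree_linf_le true z) hQ,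
          reflect_linf]
        rfl

end ColonAux

/-- The coefficients of a product of chart forms generate the unit ideal. -/
theorem span_coeff_linf (B : Type u) [CommRing B] (τ : Fin m → Bool) (z : Fin m → B) :
    Ideal.span (Set.range fun i : Fin (m + 1) => (∏ j : Fin m, linf (τ j) (z j)).coeff i) = ⊤ := by
  by_contra hne
  obtain ⟨p, hp, hle⟩ := Ideal.exists_le_maximal _ hne
  have h0 : (∏ j : Fin m, linf (τ j) (z j)).map (Ideal.Quotient.mk p) = 0 := by
    ext k
    rw [Polynomial.coeff_map, Polynomial.coeff_zero]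
    by_cases hk : k < m + 1
    · rw [Ideal.Quotient.eq_zero_iff_mem]
      exact hle (Ideal.subset_span ⟨⟨k, hk⟩, rfl⟩)
    · rw [Polynomial.coeff_eq_zero_of_natDegree_lt, map_zero]
      have := natDegree_prod_linf_le τ z
      omega
  rw [Polynomial.map_prod] at h0
  simp only [map_linf] at h0
  have h1 : (∏ j : Fin m, linf (τ j) (Ideal.Quotient.mk p (z j))) ∈
      nonZeroDivisors (Polynomial (B ⧸ p)) :=
    prod_mem fun j _ => linf_mem_nonZeroDivisors _ _
  rw [h0] at h1
  have : Nontrivial (B ⧸ p) := Ideal.Quotient.nontrivial_iff.2 hp.ne_top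
  exact zero_notMem_nonZeroDivisors h1

/-- The universal factorisation of a polynomial of degree at most `m` into chart forms. -/
theorem fa_univ (m : ℕ) : ∀ (R B : Type u) [CommRing R] [CommRing B] (θ : R →+* B)
    (F : Polynomial R) (τ : Fin m → Bool) (z : Fin m → B) (ω : B), F.natDegree ≤ m →
    F.map θ = Polynomial.C ω * ∏ j, linf (τ j) (z j) →
    (∀ (S : Type u) [CommRing S] (g : R →+* S) (z' : Fin m → S) (ω' : S),
      F.map g = Polynomial.C ω' * ∏ j, linf (τ j) (z' j) →
      ∃ ρ : B →+* S, ρ.comp θ = g ∧ (∀ j, ρ (z j) = z' j) ∧ ρ ω = ω') →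
    (∀ ρ : B →+* B, ρ.comp θ = θ → (∀ j, ρ (z j) = z j) → ρ ω = ω → ρ = RingHom.id B) →
    FA θ ω := by
  induction m with
  | zero =>
    intro R B _ _ θ F τ z ω hF hθ hex huniq
    obtain ⟨ρ, h1, -, h3⟩ := hex R (RingHom.id R) Fin.elim0 (F.coeff 0) (by
      rw [Polynomial.map_id, Finset.univ_eq_empty, Finset.prod_empty, mul_one]
      exact Polynomial.eq_C_of_natDegree_le_zero hF)
    have h4 : θ (F.coeff 0) = ω := by
      have := congrArg (fun p => Polynomial.coeff p 0) hθ
      simpa using this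
    have h5 := huniq (θ.comp ρ) (by rw [RingHom.comp_assoc, h1, RingHom.comp_id])
      (fun j => j.elim0) (by rw [RingHom.comp_apply, h3, h4])
    apply fa_of_bijective
    constructor
    · exact Function.LeftInverse.injective (g := ρ) fun x => RingHom.congr_fun h1 x
    · exact Function.RightInverse.surjective (g := ρ) fun x => RingHom.congr_fun h5 x
  | succ m ih =>
    intro R B _ _ θ F τ z ω hF hθ hex huniq
    obtain ⟨φ, hc, hφ⟩ := exists_split (m := m) (τ 0) F hF
    have hθ' : F.map θ = linf (τ 0) (z 0) *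
        (Polynomial.C ω * ∏ j : Fin m, linf (τ j.succ) (z j.succ)) := by
      rw [hθ, Fin.prod_univ_succ]; ring
    have hz : φ.eval₂ θ (z 0) = 0 := by
      rw [hφ]
      refine ⟨_, ?_, hθ'⟩
      exact (Polynomial.natDegree_C_mul_le _ _).trans
        (natDegree_prod_linf_le (fun j => τ j.succ) fun j => z j.succ)
    obtain ⟨Q, hQ, hQ'⟩ := (hφ (AdjoinRoot φ) (AdjoinRoot.of φ) (AdjoinRoot.root φ)).1
      (AdjoinRoot.eval₂_root φ)
    have hcomp : (AdjoinRoot.lift θ (z 0) hz).comp (AdjoinRoot.of φ) = θ :=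
      AdjoinRoot.lift_comp_of hz
    have hroot : AdjoinRoot.lift θ (z 0) hz (AdjoinRoot.root φ) = z 0 := AdjoinRoot.lift_root hz
    generalize AdjoinRoot.lift θ (z 0) hz = θ' at hcomp hroot
    have h1 : FA θ' ω := by
      refine ih (AdjoinRoot φ) B θ' Q (fun j => τ j.succ) (fun j => z j.succ) ω hQ ?_ ?_ ?_
      · have := congrArg (Polynomial.map θ') hQ'
        rw [Polynomial.map_map, hcomp, Polynomial.map_mul, map_linf, hroot, hθ'] at this
        exact ((mul_cancel_left_mem_nonZeroDivisors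
          (linf_mem_nonZeroDivisors (τ 0) (z 0))).1 this).symm
      · intro S _ g z' ω' hg
        obtain ⟨ρ, h1, h2, h3⟩ := hex S (g.comp (AdjoinRoot.of φ))
          (Fin.cons (g (AdjoinRoot.root φ)) z') ω' (by
            rw [← Polynomial.map_map, hQ', Polynomial.map_mul, map_linf, hg, Fin.prod_univ_succ]
            simp only [Fin.cons_zero, Fin.cons_succ]
            ring)
        refine ⟨ρ, ?_, fun j => by simpa using h2 j.succ, h3⟩
        apply AdjoinRoot.ringHom_ext
        · rw [RingHom.comp_assoc, hcomp, h1]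
        · rw [RingHom.comp_apply, hroot, h2, Fin.cons_zero]
      · intro ρ h1 h2 h3
        refine huniq ρ ?_ (fun j => ?_) h3
        · rw [← hcomp, ← RingHom.comp_assoc, h1]
        · refine Fin.cases ?_ h2 j
          rw [← hroot]
          exact RingHom.congr_fun h1 _
    have h2 : ∀ j, FA θ (θ (φ.coeff j) * ω) := fun j => by
      have := (fa_adjoinRoot φ j).comp h1
      rw [hcomp, ← RingHom.comp_apply, hcomp] at this
      exact this
    refine fa_of_mem_radical (S := Set.range fun j => θ (φ.coeff j) * ω) ?_ ⟨2, ?_⟩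
    · rintro _ ⟨j, rfl⟩
      exact h2 j
    · have h3 : (1 : B) ∈ Ideal.span (Set.range fun i : Fin (m + 1 + 1) =>
          (∏ j : Fin (m + 1), linf (τ j) (z j)).coeff i) := by
        rw [span_coeff_linf]; trivial
      obtain ⟨a, ha⟩ := Ideal.mem_span_range_iff_exists_fun.1 h3
      have h4 : ω ^ 2 = ∑ i : Fin (m + 1 + 1), a i * (θ (F.coeff i) * ω) := by
        have : ∀ i : ℕ, θ (F.coeff i) = ω * (∏ j : Fin (m + 1), linf (τ j) (z j)).coeff i :=
          fun i => by rw [← Polynomial.coeff_map, hθ, Polynomial.coeff_C_mul]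
        simp only [this]
        rw [← mul_one (ω ^ 2), ← ha, Finset.mul_sum]
        exact Finset.sum_congr rfl fun i _ => by ring
      rw [h4]
      refine Ideal.sum_mem _ fun i _ => Ideal.mul_mem_left _ _ ?_
      obtain ⟨j, e, he⟩ := hc i
      rw [he, map_mul, mul_assoc]
      exact Ideal.mul_mem_left _ _ (Ideal.subset_span ⟨j, rfl⟩)

/-- Flatness of `(P^1)^m → P^m`, in elementary form. -/
theorem fa_psiCone (A : Type u) [CommRing A] (m : ℕ) (τ : Fin m → Bool) :
    FA (PsiCone A m τ).toRingHom Polynomial.X := by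
  have hcoeff : ∀ i : Fin (m + 1), (∑ k : Fin (m + 1), Polynomial.monomial (k : ℕ)
      (X k : MvPolynomial (Fin (m + 1)) A)).coeff i = X i := fun i => by
    rw [Polynomial.finsetSum_coeff, Finset.sum_eq_single i]
    · simp
    · intro k _ hk
      rw [Polynomial.coeff_monomial, if_neg (fun h => hk (Fin.ext h))]
    · simp
  have hdeg : (∑ k : Fin (m + 1), Polynomial.monomial (k : ℕ)
      (X k : MvPolynomial (Fin (m + 1)) A)).natDegree ≤ m :=
    Polynomial.natDegree_sum_le_of_forall_le _ _ fun k _ =>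
      (Polynomial.natDegree_monomial_le _).trans (Nat.lt_succ_iff.1 k.2)
  generalize (∑ k : Fin (m + 1), Polynomial.monomial (k : ℕ)
      (X k : MvPolynomial (Fin (m + 1)) A)) = F at hcoeff hdeg
  have hmap : ∀ {S : Type u} [CommRing S] (ρ : MvPolynomial (Fin m) A →+* S) (i : ℕ),
      ρ ((∏ j : Fin m, linf (τ j) (X j : MvPolynomial (Fin m) A)).coeff i) =
        (∏ j : Fin m, linf (τ j) (ρ (X j))).coeff i := fun ρ i => by
    rw [← Polynomial.coeff_map, Polynomial.map_prod]
    simp only [map_linf]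
  refine fa_univ m _ _ _ F τ (fun j => Polynomial.C (X j)) Polynomial.X hdeg ?_ ?_ ?_
  · ext1 k
    rw [Polynomial.coeff_map, Polynomial.coeff_C_mul]
    by_cases hk : k < m + 1
    · have := hcoeff ⟨k, hk⟩
      rw [this]
      simp only [PsiCone, AlgHom.toRingHom_eq_coe, RingHom.coe_coe, aeval_X]
      rw [hmap Polynomial.C k, mul_comm]
    · rw [Polynomial.coeff_eq_zero_of_natDegree_lt (by omega), map_zero,
        Polynomial.coeff_eq_zero_of_natDegree_lt, mul_zero]
      have := natDegree_prod_linf_le τ fun j =>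
        (Polynomial.C (X j) : Polynomial (MvPolynomial (Fin m) A))
      omega
  · intro S _ g z' ω' hg
    refine ⟨Polynomial.eval₂RingHom (eval₂Hom (g.comp C) z') ω', ?_, fun j => by simp, by simp⟩
    apply MvPolynomial.ringHom_ext
    · intro a
      simp [PsiCone]
    · intro i
      have h1 : g (X i) = ω' * (∏ j, linf (τ j) (z' j)).coeff i := by
        rw [← hcoeff i, ← Polynomial.coeff_map, hg, Polynomial.coeff_C_mul]
      rw [h1]
      simp only [PsiCone, AlgHom.toRingHom_eq_coe, RingHom.coe_coe, aeval_X, RingHom.comp_apply,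
        map_mul, Polynomial.coe_eval₂RingHom, Polynomial.eval₂_C, Polynomial.eval₂_X]
      rw [hmap, mul_comm]
      simp
  · intro ρ h1 h2 h3
    apply Polynomial.ringHom_ext'
    · apply MvPolynomial.ringHom_ext
      · intro a
        have := RingHom.congr_fun h1 (C a)
        simpa [PsiCone] using this
      · intro j
        simpa using h2 j
    · simpa using h3

end Vale.Agent.P202
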