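import Vale.Agent.P202.Defs

/-! Calculus of relative lengths `rl μ A B = μ ((A ⊔ B) / A)`. -/

namespace Vale.Agent.P202

open IsLocalRing

universe u

variable {S : Type u} [CommRing S] {E : Type u} [AddCommGroup E] [Module S E]
  {E' : Type u} [AddCommGroup E'] [Module S E'] (μ : LenFun S)

theorem LenFun.equiv (e : E ≃ₗ[S] E') : μ.len E = μ.len E' := by
  have h := μ.add_of_exact (e : E →ₗ[S] E') (0 : E' →ₗ[S] PUnit.{u + 1}) e.injective
    (fun x => ⟨0, Subsingleton.elim _ _⟩)
    (fun y => ⟨fun _ => e.surjective y, fun _ => rfl⟩)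
  rw [h, μ.zero PUnit.{u + 1}, add_zero]

theorem LenFun.le_of_injective (f : E →ₗ[S] E') (hf : Function.Injective f) :
    μ.len E ≤ μ.len E' := by
  have h := μ.add_of_exact f (LinearMap.range f).mkQ hf (Submodule.mkQ_surjective _)
    (LinearMap.exact_map_mkQ_range f)
  rw [h]
  exact le_self_add

theorem LenFun.le_of_surjective (f : E →ₗ[S] E') (hf : Function.Surjective f) :
    μ.len E' ≤ μ.len E := by
  have h := μ.add_of_exact (LinearMap.ker f).subtype f (Submodule.subtype_injective _) hf
    (LinearMap.exact_subtype_ker_map f)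
  rw [h]
  exact le_add_self

theorem map_mkQ_eq_bot_iff (A B : Submodule S E) : B.map A.mkQ = ⊥ ↔ B ≤ A := by
  rw [← le_bot_iff, Submodule.map_le_iff_le_comap, Submodule.comap_bot, Submodule.ker_mkQ]

/-- The subquotient computed through any map with the right kernel. -/
noncomputable def rlEquiv (φ : E →ₗ[S] E') (A B : Submodule S E) (h : LinearMap.ker φ = A) :
    B.map A.mkQ ≃ₗ[S] B.map φ :=
  (Submodule.equivMapOfInjective (A.liftQ φ h.ge)
    (LinearMap.ker_eq_bot.1 (Submodule.ker_liftQ_eq_bot A φ h.ge h.le)) (B.map A.mkQ)).trans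
    (LinearEquiv.ofEq _ _ (by rw [← Submodule.map_comp, Submodule.liftQ_mkQ]))

theorem rl_eq_len_map (φ : E →ₗ[S] E') (A B : Submodule S E) (h : LinearMap.ker φ = A) :
    rl μ A B = μ.len (B.map φ) :=
  μ.equiv (rlEquiv φ A B h)

theorem rl_eq_zero_of_le {A B : Submodule S E} (h : B ≤ A) : rl μ A B = 0 := by
  have h1 : B.map A.mkQ = ⊥ := (map_mkQ_eq_bot_iff A B).2 h
  unfold rl
  rw [h1]
  exact μ.zero _

theorem rl_lenF_eq_zero_iff {A B : Submodule S E} : rl (lenF S) A B = 0 ↔ B ≤ A := by
  rw [← map_mkQ_eq_bot_iff]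
  change Module.length S (B.map A.mkQ) = 0 ↔ _
  rw [Module.length_eq_zero_iff, Submodule.subsingleton_iff_eq_bot]

theorem rl_fgF_eq_zero_iff [IsNoetherianRing S] {A B : Submodule S E} :
    rl (fgF S) A B = 0 ↔ (B.map A.mkQ).FG := by
  rw [← Module.Finite.iff_fg]
  unfold rl fgF
  by_cases h : Module.Finite S (B.map A.mkQ) <;> simp [h]

theorem rl_sup (A B : Submodule S E) : rl μ A (A ⊔ B) = rl μ A B := by
  unfold rl
  rw [Submodule.map_sup, Submodule.mkQ_map_self, bot_sup_eq]

theorem rl_inf (A B : Submodule S E) : rl μ (A ⊓ B) B = rl μ A B := by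
  have key : ∀ C : Submodule S E, rl μ C B = rl μ (C.comap B.subtype) ⊤ := by
    intro C
    rw [rl_eq_len_map μ (C.mkQ ∘ₗ B.subtype) (C.comap B.subtype) ⊤
      (by rw [LinearMap.ker_comp, Submodule.ker_mkQ]), Submodule.map_comp, Submodule.map_top,
      Submodule.range_subtype]
    rfl
  rw [key, key A, Submodule.comap_inf, Submodule.comap_subtype_self, inf_top_eq]

theorem rl_add {A B C : Submodule S E} (hAB : A ≤ B) (hBC : B ≤ C) :
    rl μ A C = rl μ A B + rl μ B C := by
  have hf : B.map A.mkQ ≤ C.map A.mkQ := Submodule.map_mono hBC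
  have hg : ∀ x ∈ C.map A.mkQ, Submodule.factor hAB x ∈ C.map B.mkQ := by
    rintro _ ⟨c, hc, rfl⟩
    exact ⟨c, hc, rfl⟩
  refine μ.add_of_exact (Submodule.inclusion hf) ((Submodule.factor hAB).restrict hg)
    (Submodule.inclusion_injective hf) ?_ ?_
  · rintro ⟨_, c, hc, rfl⟩
    exact ⟨⟨A.mkQ c, c, hc, rfl⟩, rfl⟩
  · rintro ⟨_, c, hc, rfl⟩
    constructor
    · intro h
      have h1 : B.mkQ c = 0 := congrArg Subtype.val h
      have h2 : c ∈ B := by simpa using h1
      exact ⟨⟨A.mkQ c, c, h2, rfl⟩, rfl⟩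
    · rintro ⟨⟨_, b, hb, rfl⟩, h⟩
      have h1 : A.mkQ b = A.mkQ c := congrArg Subtype.val h
      apply Subtype.ext
      change Submodule.factor hAB (A.mkQ c) = 0
      rw [← h1, Submodule.factor_mk]
      simpa using hb

theorem rl_anti_left {A A' : Submodule S E} (hA : A' ≤ A) (B : Submodule S E) :
    rl μ A B ≤ rl μ A' B := by
  have hg : ∀ x ∈ B.map A'.mkQ, Submodule.factor hA x ∈ B.map A.mkQ := by
    rintro _ ⟨c, hc, rfl⟩
    exact ⟨c, hc, rfl⟩
  refine μ.le_of_surjective ((Submodule.factor hA).restrict hg) ?_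
  rintro ⟨_, c, hc, rfl⟩
  exact ⟨⟨A'.mkQ c, c, hc, rfl⟩, rfl⟩

theorem rl_triangle (A B C : Submodule S E) : rl μ A C ≤ rl μ A B + rl μ B C := by
  have h1 : rl μ A C ≤ rl μ A (A ⊔ B ⊔ C) :=
    μ.le_of_injective (Submodule.inclusion (Submodule.map_mono le_sup_right))
      (Submodule.inclusion_injective _)
  have h2 := rl_add μ (le_sup_left : A ≤ A ⊔ B) (le_sup_left : A ⊔ B ≤ A ⊔ B ⊔ C)
  rw [rl_sup, rl_sup] at h2
  have h3 : rl μ (A ⊔ B) C ≤ rl μ B C := rl_anti_left μ le_sup_right C
  rw [h2] at h1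
  exact h1.trans (add_le_add le_rfl h3)

theorem rl_mono {A A' B B' : Submodule S E} (hA : A' ≤ A) (hB : B ≤ B') :
    rl μ A B ≤ rl μ A' B' := by
  have h1 : rl μ A' B ≤ rl μ A' B' :=
    μ.le_of_injective (Submodule.inclusion (Submodule.map_mono hB))
      (Submodule.inclusion_injective _)
  exact (rl_anti_left μ hA B).trans h1

/-- The key isomorphism `B / (B ⊓ φ⁻¹ A') ≃ (φ B ⊔ A') / A'`. -/
theorem rl_map (φ : E →ₗ[S] E') (A' : Submodule S E') (B : Submodule S E) :
    rl μ (A'.comap φ) B = rl μ A' (B.map φ) := by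
  rw [rl_eq_len_map μ (A'.mkQ ∘ₗ φ) (A'.comap φ) B
    (by rw [LinearMap.ker_comp, Submodule.ker_mkQ]), Submodule.map_comp]
  rfl

theorem rl_map_le (φ : E →ₗ[S] E') (A B : Submodule S E) :
    rl μ (A.map φ) (B.map φ) ≤ rl μ A B := by
  rw [← rl_map]
  exact rl_mono μ (Submodule.le_comap_map _ _) le_rfl

theorem rl_top (A : Submodule S E) : rl μ A ⊤ = μ.len (E ⧸ A) := by
  unfold rl
  rw [Submodule.map_top, Submodule.range_mkQ]
  exact μ.equiv Submodule.topEquiv

theorem rl_bot (B : Submodule S E) : rl μ ⊥ B = μ.len B := by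
  rw [rl_eq_len_map μ LinearMap.id ⊥ B LinearMap.ker_id, Submodule.map_id]

theorem rl_chain (F : ℕ → Submodule S E) (r : ℕ) (h : ∀ i < r, F i ≤ F (i + 1)) :
    rl μ (F 0) (F r) = ∑ i ∈ Finset.range r, rl μ (F i) (F (i + 1)) := by
  have key : ∀ k ≤ r, F 0 ≤ F k ∧
      rl μ (F 0) (F k) = ∑ i ∈ Finset.range k, rl μ (F i) (F (i + 1)) := by
    intro k
    induction k with
    | zero => intro _; exact ⟨le_rfl, by simpa using rl_eq_zero_of_le μ le_rfl⟩
    | succ k ih =>
      intro hk
      obtain ⟨h1, h2⟩ := ih (by omega)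
      have h3 := h k (by omega)
      exact ⟨h1.trans h3, by rw [Finset.sum_range_succ, ← h2, rl_add μ h1 h3]⟩
  exact (key r le_rfl).2

theorem rl_sup_le (A B C : Submodule S E) : rl μ A (B ⊔ C) ≤ rl μ A B + rl μ A C := by
  have h1 := rl_triangle μ A (A ⊔ B) (B ⊔ C)
  rw [rl_sup] at h1
  have h2 : rl μ (A ⊔ B) (B ⊔ C) ≤ rl μ A C := by
    rw [← rl_sup μ (A ⊔ B) (B ⊔ C), show A ⊔ B ⊔ (B ⊔ C) = A ⊔ B ⊔ C by
      rw [← sup_assoc, sup_assoc A B B, sup_idem], rl_sup]
    exact rl_mono μ le_sup_left le_rfl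
  exact h1.trans (add_le_add le_rfl h2)

theorem LenFun.len_prod : μ.len (E × E') = μ.len E + μ.len E' :=
  μ.add_of_exact _ _ LinearMap.inl_injective LinearMap.snd_surjective .inl_snd

theorem LenFun.len_pi : ∀ {ι : Type} [Fintype ι]
    (M : ι → Type u) [∀ i, AddCommGroup (M i)] [∀ i, Module S (M i)],
    μ.len (Π i, M i) = ∑ i, μ.len (M i) := by
  apply Fintype.induction_empty_option
  · intro α β _ e IH M _ _
    let _ : Fintype α := .ofEquiv β e.symm
    rw [← μ.equiv (LinearEquiv.piCongrLeft S M e), IH, e.sum_comp (μ.len <| M ·)]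
  · intro M _ _
    simp [μ.zero]
  · intro ι _ IH M _ _
    rw [μ.equiv (LinearEquiv.piOptionEquivProd _), μ.len_prod, IH, add_comm,
      Fintype.sum_option, add_comm]

theorem rl_pi {ι : Type} [Fintype ι] (A B : ι → Submodule S E) :
    rl μ (Submodule.pi Set.univ A) (Submodule.pi Set.univ B) = ∑ i, rl μ (A i) (B i) := by
  let φ : (ι → E) →ₗ[S] (Π i, E ⧸ A i) :=
    LinearMap.pi fun i => (A i).mkQ ∘ₗ LinearMap.proj i
  have hker : LinearMap.ker φ = Submodule.pi Set.univ A := by
    ext x
    simp [φ, Submodule.mem_pi, funext_iff]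
  rw [rl_eq_len_map μ φ _ _ hker]
  have hψ : ∀ i, ∀ x : (Submodule.pi Set.univ B).map φ, x.1 i ∈ (B i).map (A i).mkQ := by
    rintro i ⟨_, x, hx, rfl⟩
    exact ⟨x i, hx i trivial, rfl⟩
  let ψ : (Submodule.pi Set.univ B).map φ →ₗ[S] (Π i, (B i).map (A i).mkQ) :=
    LinearMap.pi fun i => LinearMap.codRestrict _
      ((LinearMap.proj i : (Π i, E ⧸ A i) →ₗ[S] E ⧸ A i) ∘ₗ Submodule.subtype _) (hψ i)
  have hbij : Function.Bijective ψ := by
    constructor
    · intro x y hxy
      apply Subtype.ext
      funext i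
      exact congrArg Subtype.val (congrFun hxy i)
    · intro z
      choose w hw hw' using fun i => (z i).2
      refine ⟨⟨φ w, w, fun i _ => hw i, rfl⟩, ?_⟩
      funext i
      exact Subtype.ext (hw' i)
  rw [μ.equiv (LinearEquiv.ofBijective ψ hbij), μ.len_pi]
  rfl

theorem rl_coord {ι : Type} [Fintype ι] (p : ι → Prop) [DecidablePred p] (A B : Submodule S E) :
    rl μ (Coord p A) (Coord p B) = ((Finset.univ.filter p).card : ℕ∞) * rl μ A B := by
  unfold Coord
  rw [rl_pi]
  have h : ∀ i, rl μ (if p i then A else ⊥) (if p i then B else ⊥) =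
      if p i then rl μ A B else 0 := by
    intro i
    by_cases hi : p i
    · simp [hi]
    · simp [hi, rl_eq_zero_of_le μ (le_refl (⊥ : Submodule S E))]
  simp only [h]
  rw [← Finset.sum_filter, Finset.sum_const, nsmul_eq_mul]

theorem length_ne_top_of_killed [IsLocalRing S] (N : Type u) [AddCommGroup N] [Module S N]
    [Module.Finite S N] (h : ∀ z ∈ maximalIdeal S, ∀ x : N, z • x = 0) :
    Module.length S N ≠ ⊤ := by
  have ht : Module.IsTorsionBySet S N (maximalIdeal S) := fun x z => h z.1 z.2 x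
  let := ht.module
  have : IsScalarTower S (S ⧸ maximalIdeal S) N := ht.isScalarTower
  rw [Module.length_eq_of_surjective (R := S ⧸ maximalIdeal S) Ideal.Quotient.mk_surjective]
  let : Field (S ⧸ maximalIdeal S) := Ideal.Quotient.field _
  have : Module.Finite (S ⧸ maximalIdeal S) N := Module.Finite.of_restrictScalars_finite S _ _
  exact Module.length_ne_top

/-- A finitely generated subquotient killed by a power of the maximal ideal has finite length. -/
theorem rl_ne_top_of_fg [IsNoetherianRing S] [IsLocalRing S] {A B : Submodule S E}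
    (hfg : (B.map A.mkQ).FG) (t : ℕ) (ht : maximalIdeal S ^ t • B ≤ A) :
    rl (lenF S) A B ≠ ⊤ := by
  induction t generalizing B with
  | zero =>
    have h : B ≤ A := by simpa using ht
    rw [rl_eq_zero_of_le _ h]
    exact ENat.zero_ne_top
  | succ t ih =>
    have hN : Module.Finite S (B.map A.mkQ) := Module.Finite.iff_fg.2 hfg
    have h1 : rl (lenF S) A (maximalIdeal S • B) ≠ ⊤ := by
      apply ih
      · have hle : (maximalIdeal S • B).map A.mkQ ≤ B.map A.mkQ :=
          Submodule.map_mono Submodule.smul_le_right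
        exact Module.Finite.iff_fg.1 (Module.Finite.of_injective (Submodule.inclusion hle)
          (Submodule.inclusion_injective _))
      · rwa [← Submodule.smul_assoc, smul_eq_mul, ← pow_succ]
    have h2 : rl (lenF S) (A ⊔ maximalIdeal S • B) B ≠ ⊤ := by
      have hfin : Module.Finite S (B.map (A ⊔ maximalIdeal S • B).mkQ) := by
        rw [Module.Finite.iff_fg, ← Submodule.factor_comp_mk (le_sup_left :
          A ≤ A ⊔ maximalIdeal S • B), Submodule.map_comp]
        exact hfg.map _
      apply length_ne_top_of_killed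
      rintro z hz ⟨_, b, hb, rfl⟩
      apply Subtype.ext
      change z • (A ⊔ maximalIdeal S • B).mkQ b = 0
      rw [← map_smul, Submodule.mkQ_apply, Submodule.Quotient.mk_eq_zero]
      exact Submodule.mem_sup_right (Submodule.smul_mem_smul hz hb)
    have h3 := rl_triangle (lenF S) A (A ⊔ maximalIdeal S • B) B
    rw [rl_sup] at h3
    exact ne_top_of_le_ne_top (WithTop.add_ne_top.2 ⟨h1, h2⟩) h3

/-- One step of a composition series: every proper inclusion of finite colength can be refined. -/
theorem exists_simple_step [IsLocalRing S] {A B : Submodule S E} (hAB : A < B)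
    (hfin : rl (lenF S) A B ≠ ⊤) :
    ∃ v ∈ B, v ∉ A ∧ (∀ z ∈ maximalIdeal S, z • v ∈ A) ∧
      rl (lenF S) A (A ⊔ Submodule.span S {v}) = 1 := by
  have hfl : IsFiniteLength S (B.map A.mkQ) := Module.length_ne_top_iff.1 hfin
  have : IsArtinian S (B.map A.mkQ) := (isFiniteLength_iff_isNoetherian_isArtinian.1 hfl).2
  have hne : B.map A.mkQ ≠ ⊥ := fun h => hAB.not_ge ((map_mkQ_eq_bot_iff A B).1 h)
  have : Nontrivial (B.map A.mkQ) := Submodule.nontrivial_iff_ne_bot.2 hne
  obtain ⟨p, hp, -⟩ := (eq_bot_or_exists_atom_le (⊤ : Submodule S (B.map A.mkQ))).resolve_left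
    top_ne_bot
  have : IsSimpleModule S p := isSimpleModule_iff_isAtom.2 hp
  have hs : IsSimpleModule S (p.map (B.map A.mkQ).subtype) :=
    IsSimpleModule.congr (N := p)
      (Submodule.equivMapOfInjective _ (Submodule.subtype_injective _) p).symm
  have hat := isSimpleModule_iff_isAtom.1 hs
  obtain ⟨w, hw, hw0⟩ := Submodule.exists_mem_ne_zero_of_ne_bot hat.1
  obtain ⟨v, hv, rfl⟩ : w ∈ B.map A.mkQ := Submodule.map_subtype_le _ _ hw
  have hspan : Submodule.span S {A.mkQ v} = p.map (B.map A.mkQ).subtype := by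
    rcases hat.le_iff.1 ((Submodule.span_singleton_le_iff_mem _ _).2 hw) with h | h
    · exact absurd (Submodule.span_singleton_eq_bot.1 h) hw0
    · exact h
  refine ⟨v, hv, fun h => hw0 (by simpa using h), ?_, ?_⟩
  · intro z hz
    have hann := eq_maximalIdeal
      (IsSimpleModule.annihilator_isMaximal (R := S) (M := p.map (B.map A.mkQ).subtype))
    rw [← hann] at hz
    have h1 := congrArg Subtype.val (Module.mem_annihilator.1 hz ⟨_, hw⟩)
    have h2 : A.mkQ (z • v) = 0 := by rw [map_smul]; exact h1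
    exact (Submodule.Quotient.mk_eq_zero A).1 h2
  · rw [rl_sup]
    change Module.length S ((Submodule.span S {v}).map A.mkQ) = 1
    rw [Submodule.map_span, Set.image_singleton, hspan]
    exact Module.length_eq_one_iff.2 hs

section restrict

variable {R0 : Type u} [CommRing R0] [Algebra R0 S] [Module R0 E] [IsScalarTower R0 S E]

/-- Restricting scalars commutes with forming the subquotient. -/
noncomputable def rlRestrict (A B : Submodule S E) :
    (B.restrictScalars R0).map (A.restrictScalars R0).mkQ ≃ₗ[R0] B.map A.mkQ :=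
  (rlEquiv (A.mkQ.restrictScalars R0) (A.restrictScalars R0) (B.restrictScalars R0)
    (by ext x; simp)).trans
    (((B.map A.mkQ).restrictScalarsEquiv R0).restrictScalars R0)

theorem rl_restrictScalars_aux (A B : Submodule S E) :
    rl (lenF R0) (A.restrictScalars R0) (B.restrictScalars R0) =
      Module.length R0 (B.map A.mkQ) :=
  (rlRestrict A B).length_eq

theorem rl_restrictScalars [IsLocalRing R0] [IsLocalRing S] [IsLocalHom (algebraMap R0 S)]
    (A B : Submodule S E) :
    rl (lenF R0) (A.restrictScalars R0) (B.restrictScalars R0) =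
      rl (lenF S) A B * Module.length (ResidueField R0) (ResidueField S) := by
  rw [rl_restrictScalars_aux]
  exact IsLocalRing.length_restrictScalars R0 S _

theorem rl_restrictScalars_of_surjective (h : Function.Surjective (algebraMap R0 S))
    (A B : Submodule S E) :
    rl (lenF R0) (A.restrictScalars R0) (B.restrictScalars R0) = rl (lenF S) A B := by
  rw [rl_restrictScalars_aux]
  exact Module.length_eq_of_surjective h

theorem fg_restrictScalars_of_finite [Module.Finite R0 S] (A B : Submodule S E)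
    (h : (B.map A.mkQ).FG) :
    ((B.restrictScalars R0).map (A.restrictScalars R0).mkQ).FG := by
  have : Module.Finite S (B.map A.mkQ) := Module.Finite.iff_fg.2 h
  have : Module.Finite R0 (B.map A.mkQ) := Module.Finite.trans S _
  exact Module.Finite.iff_fg.1 (Module.Finite.equiv (rlRestrict A B).symm)

end restrict

section baseChange

open TensorProduct

variable {R0 : Type u} [CommRing R0] [Algebra R0 S] {M : Type u} [AddCommGroup M] [Module R0 M]
  {M' : Type u} [AddCommGroup M'] [Module R0 M']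

theorem baseChange_sup (A B : Submodule R0 M) :
    (A ⊔ B).baseChange S = A.baseChange S ⊔ B.baseChange S := by
  simp only [Submodule.baseChange_eq_span]
  rw [Submodule.map_sup, ← Submodule.span_union]
  apply le_antisymm
  · rw [Submodule.span_le]
    intro x hx
    obtain ⟨a, ha, b, hb, rfl⟩ := Submodule.mem_sup.1 hx
    exact Submodule.add_mem _ (Submodule.subset_span (Or.inl ha))
      (Submodule.subset_span (Or.inr hb))
  · apply Submodule.span_mono
    rintro x (hx | hx)
    · exact Submodule.mem_sup_left hx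
    · exact Submodule.mem_sup_right hx

theorem baseChange_map (f : M →ₗ[R0] M') (A : Submodule R0 M) :
    (A.map f).baseChange S = (A.baseChange S).map (f.baseChange S) := by
  simp only [Submodule.baseChange_eq_span]
  rw [Submodule.map_span]
  congr 1
  ext x
  constructor
  · rintro ⟨_, ⟨a, ha, rfl⟩, rfl⟩
    exact ⟨1 ⊗ₜ a, ⟨a, ha, rfl⟩, rfl⟩
  · rintro ⟨_, ⟨a, ha, rfl⟩, rfl⟩
    exact ⟨f a, ⟨a, ha, rfl⟩, rfl⟩

theorem ker_baseChange_mkQ (A : Submodule R0 M) :
    LinearMap.ker (A.mkQ.baseChange S) = A.baseChange S := by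
  ext x
  have h := lTensor_mkQ S A
  have h1 : x ∈ LinearMap.ker (LinearMap.lTensor S A.mkQ) ↔
      x ∈ LinearMap.range (LinearMap.lTensor S A.subtype) := by rw [h]
  exact h1

theorem baseChange_ker [Module.Flat R0 S] (f : M →ₗ[R0] M') :
    (LinearMap.ker f).baseChange S = LinearMap.ker (f.baseChange S) := by
  ext x
  have h := Module.Flat.lTensor_exact S (LinearMap.exact_subtype_ker_map f)
  exact (h x).symm

theorem baseChange_comap_aux [Module.Flat R0 S] (f : M →ₗ[R0] M') (A : Submodule R0 M') :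
    (A.comap f).baseChange S = (A.baseChange S).comap (f.baseChange S) := by
  have h : A.comap f = LinearMap.ker (A.mkQ ∘ₗ f) := by
    rw [LinearMap.ker_comp, Submodule.ker_mkQ]
  rw [h, baseChange_ker, LinearMap.baseChange_comp, LinearMap.ker_comp, ker_baseChange_mkQ]

theorem baseChange_inf [Module.Flat R0 S] (A B : Submodule R0 M) :
    (A ⊓ B).baseChange S = A.baseChange S ⊓ B.baseChange S := by
  have h : A ⊓ B = (A.comap B.subtype).map B.subtype := by
    rw [Submodule.map_comap_subtype, inf_comm]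
  rw [h, baseChange_map, baseChange_comap_aux, Submodule.map_comap_eq, inf_comm]
  rfl

theorem baseChange_comap [Module.Flat R0 S] (f : M →ₗ[R0] M') (A : Submodule R0 M') :
    (A.comap f).baseChange S = (A.baseChange S).comap (f.baseChange S) := by
  exact baseChange_comap_aux f A

theorem baseChange_smul (I : Ideal R0) (A : Submodule R0 M) :
    (I • A).baseChange S = I.map (algebraMap R0 S) • A.baseChange S := by
  apply le_antisymm
  · rw [Submodule.baseChange_eq_span, Submodule.span_le]
    rintro _ ⟨x, hx, rfl⟩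
    change (1 : S) ⊗ₜ[R0] x ∈ I.map (algebraMap R0 S) • A.baseChange S
    refine Submodule.smul_induction_on hx ?_ ?_
    · intro r hr a ha
      rw [TensorProduct.tmul_smul, ← algebraMap_smul S r]
      exact Submodule.smul_mem_smul (Ideal.mem_map_of_mem _ hr)
        (Submodule.tmul_mem_baseChange_of_mem _ ha)
    · intro a b ha hb
      rw [TensorProduct.tmul_add]
      exact Submodule.add_mem _ ha hb
  · rw [Submodule.baseChange_eq_span S A, Ideal.map, Submodule.span_smul_span,
      Submodule.span_le]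
    rintro _ ⟨_, ⟨r, hr, rfl⟩, _, ⟨a, ha, rfl⟩, rfl⟩
    change algebraMap R0 S r • ((1 : S) ⊗ₜ[R0] a) ∈ (I • A).baseChange S
    rw [algebraMap_smul, ← TensorProduct.tmul_smul]
    exact Submodule.tmul_mem_baseChange_of_mem _ (Submodule.smul_mem_smul hr ha)

/-- Base change commutes with forming the subquotient. -/
noncomputable def rlBaseChange (A B : Submodule R0 M) :
    (B.baseChange S).map (A.baseChange S).mkQ ≃ₗ[S] (B.map A.mkQ).baseChange S :=
  (rlEquiv (A.mkQ.baseChange S) (A.baseChange S) (B.baseChange S) (ker_baseChange_mkQ A)).trans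
    (LinearEquiv.ofEq _ _ (baseChange_map A.mkQ B).symm)

theorem fg_baseChange (A B : Submodule R0 M) (h : (B.map A.mkQ).FG) :
    ((B.baseChange S).map (A.baseChange S).mkQ).FG := by
  have : Module.Finite R0 (B.map A.mkQ) := Module.Finite.iff_fg.2 h
  have : Module.Finite S ((B.map A.mkQ).baseChange S) :=
    Module.Finite.of_surjective _ (Submodule.toBaseChange_surjective S (B.map A.mkQ))
  exact Module.Finite.iff_fg.1 (Module.Finite.equiv (rlBaseChange A B).symm)

theorem rl_baseChange [IsLocalRing R0] [IsLocalRing S] [IsLocalHom (algebraMap R0 S)]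
    [Module.Flat R0 S] (A B : Submodule R0 M) :
    rl (lenF S) (A.baseChange S) (B.baseChange S) =
      rl (lenF R0) A B * Module.length S (S ⧸ mS R0 S) := by
  change Module.length S ((B.baseChange S).map (A.baseChange S).mkQ) = _
  have h1 : Module.length S ((B.baseChange S).map (A.baseChange S).mkQ) =
      Module.length S ((B.map A.mkQ).baseChange S) :=
    LinearEquiv.length_eq (N := (B.map A.mkQ).baseChange S) (rlBaseChange A B)
  have h2 : Module.length S (S ⊗[R0] (B.map A.mkQ)) =
      Module.length S ((B.map A.mkQ).baseChange S) :=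
    LinearEquiv.length_eq (N := (B.map A.mkQ).baseChange S)
      (Submodule.toBaseChange.toLinearEquiv S (B.map A.mkQ))
  rw [h1, ← h2]
  exact IsLocalRing.length_baseChange R0 S _

end baseChange

end Vale.Agent.P202
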