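import Vale.Agent.P202.Defs2
import Vale.Agent.P202.Len

/-! The local criterion of flatness and unramified extensions. -/

namespace Vale.Agent.P202

open IsLocalRing TensorProduct

universe u

theorem LC.simple {R S : Type u} [CommRing R] [IsLocalRing R] [CommRing S] [Algebra R S]
    (h : Function.Injective ((maximalIdeal R).subtype.rTensor S)) {N₁ N₂ M : Type u}
    [AddCommGroup N₁] [Module R N₁] [AddCommGroup N₂] [Module R N₂] [AddCommGroup M] [Module R M]
    [IsSimpleModule R M] (g₁ : N₁ →ₗ[R] N₂) (g₂ : N₂ →ₗ[R] M) (h1 : Function.Injective g₁)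
    (h2 : Function.Exact g₁ g₂) (h3 : Function.Surjective g₂) :
    Function.Injective (g₁.lTensor S) := by
  obtain ⟨m, hm, ⟨e⟩⟩ := isSimpleModule_iff_quot_maximal.mp (inferInstance : IsSimpleModule R M)
  obtain rfl := eq_maximalIdeal hm
  obtain ⟨F, _, _, _, π, hπ⟩ : ∃ (F : Type u) (_ : AddCommGroup F) (_ : Module R F)
      (_ : Module.Flat R F) (π : F →ₗ[R] S), Function.Surjective π :=
    ⟨S →₀ R, inferInstance, inferInstance, inferInstance, _,
      Finsupp.linearCombination_id_surjective R S⟩
  have k0 : Function.Injective ((LinearMap.ker π).subtype.lTensor R) :=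
    Module.Flat.lTensor_preserves_injective_linearMap _ (Submodule.injective_subtype _)
  have k2 : Function.Exact (maximalIdeal R).subtype
      (e.symm.toLinearMap ∘ₗ (maximalIdeal R).mkQ) := LinearMap.exact_iff.2 (by simp)
  have k3 : Function.Surjective (e.symm.toLinearMap ∘ₗ (maximalIdeal R).mkQ) :=
    e.symm.surjective.comp (Submodule.mkQ_surjective _)
  have k1 : Function.Injective ((LinearMap.ker π).subtype.lTensor M) :=
    lTensor_injective_of_exact_of_exact_of_rTensor_injective k2 k3 π.exact_subtype_ker_map hπ h k0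
  have k4 : Function.Injective ((LinearMap.ker π).subtype.rTensor M) :=
    (LinearMap.lTensor_inj_iff_rTensor_inj M (LinearMap.ker π).subtype).1 k1
  have k5 : Function.Injective (g₁.lTensor F) :=
    Module.Flat.lTensor_preserves_injective_linearMap _ h1
  exact lTensor_injective_of_exact_of_exact_of_rTensor_injective π.exact_subtype_ker_map hπ h2 h3
    k4 k5

theorem LC.finLen {R S : Type u} [CommRing R] [IsLocalRing R] [CommRing S] [Algebra R S]
    (h : Function.Injective ((maximalIdeal R).subtype.rTensor S)) {M : Type u} [AddCommGroup M]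
    [Module R M] (hM : IsFiniteLength R M) : ∀ (N₁ N₂ : Type u) [AddCommGroup N₁] [Module R N₁]
      [AddCommGroup N₂] [Module R N₂] (g₁ : N₁ →ₗ[R] N₂) (g₂ : N₂ →ₗ[R] M),
      Function.Injective g₁ → Function.Exact g₁ g₂ → Function.Surjective g₂ →
      Function.Injective (g₁.lTensor S) := by
  induction hM with
  | of_subsingleton =>
    intro N₁ N₂ _ _ _ _ g₁ g₂ h1 h2 _
    have h4 : Function.Surjective g₁ := fun y => (h2 y).1 (Subsingleton.elim _ _)
    exact (LinearEquiv.lTensor S (LinearEquiv.ofBijective g₁ ⟨h1, h4⟩)).injective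
  | @of_simple_quotient M _ _ N _ _ ih =>
    intro N₁ N₂ _ _ _ _ g₁ g₂ h1 h2 h3
    have h4 : ∀ x, g₁ x ∈ N.comap g₂ := fun x => by
      rw [Submodule.mem_comap, h2.apply_apply_eq_zero]
      exact N.zero_mem
    have k1 := LC.simple h (N.comap g₂).subtype (N.mkQ ∘ₗ g₂) (Submodule.injective_subtype _)
      (LinearMap.exact_iff.2 (by simp [LinearMap.ker_comp])) ((Submodule.mkQ_surjective _).comp h3)
    have k2 := ih N₁ (N.comap g₂) (g₁.codRestrict _ h4) (g₂.restrict fun _ hx => hx)
      (fun a b hab => h1 (congrArg Subtype.val hab)) (by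
        intro y
        rw [Subtype.ext_iff]
        refine (h2 y.1).trans ⟨?_, ?_⟩
        · rintro ⟨x, hx⟩
          exact ⟨x, Subtype.ext hx⟩
        · rintro ⟨x, hx⟩
          exact ⟨x, congrArg Subtype.val hx⟩) (by
        intro y
        obtain ⟨x, hx⟩ := h3 y.1
        exact ⟨⟨x, by rw [Submodule.mem_comap, hx]; exact y.2⟩, Subtype.ext hx⟩)
    have e : g₁ = (N.comap g₂).subtype ∘ₗ g₁.codRestrict _ h4 := rfl
    rw [e, LinearMap.lTensor_comp]
    exact k1.comp k2

theorem LC.length_quot_pow (R : Type u) [CommRing R] [IsNoetherianRing R] [IsLocalRing R] (n : ℕ) :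
    Module.length R (R ⧸ maximalIdeal R ^ n) ≠ ⊤ := by
  have := rl_ne_top_of_fg (A := maximalIdeal R ^ n) (B := ⊤) (IsNoetherian.noetherian _) n
    (by simp)
  rwa [rl_top] at this

/-- Local criterion of flatness. -/
theorem flat_of_rTensor_injective {R S : Type u} [CommRing R] [IsNoetherianRing R] [IsLocalRing R]
    [CommRing S] [IsNoetherianRing S] [IsLocalRing S] [Algebra R S] [IsLocalHom (algebraMap R S)]
    (h : Function.Injective ((maximalIdeal R).subtype.rTensor S)) : Module.Flat R S := by
  rw [Module.Flat.iff_lTensor_injective']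
  intro I
  rw [injective_iff_map_eq_zero]
  intro x hx
  obtain ⟨k, hk⟩ := (maximalIdeal R).exists_pow_inf_eq_pow_smul (M := R) I
  rw [← Submodule.mem_bot S, ← (maximalIdeal S).iInf_pow_smul_eq_bot_of_isLocalRing
    (M := S ⊗[R] I) (maximalIdeal.isMaximal S).ne_top, Submodule.mem_iInf]
  intro j
  let φ : I →ₗ[R] R ⧸ maximalIdeal R ^ (j + k) := (maximalIdeal R ^ (j + k)).mkQ ∘ₗ I.subtype
  have h1 : IsFiniteLength R ((R ⧸ maximalIdeal R ^ (j + k)) ⧸ LinearMap.range φ) :=
    (Module.length_ne_top_iff.1 (LC.length_quot_pow R (j + k))).of_surjective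
      (Submodule.mkQ_surjective _)
  have h2 := LC.finLen h h1 _ _ (LinearMap.range φ).subtype (LinearMap.range φ).mkQ
    (Submodule.injective_subtype _) (LinearMap.exact_subtype_mkQ _) (Submodule.mkQ_surjective _)
  have h3 : φ.rangeRestrict.lTensor S x = 0 := by
    apply h2
    rw [← LinearMap.comp_apply, ← LinearMap.lTensor_comp, map_zero]
    change φ.lTensor S x = 0
    rw [LinearMap.lTensor_comp, LinearMap.comp_apply, hx, map_zero]
  obtain ⟨y, rfl⟩ := (lTensor_exact S φ.rangeRestrict.exact_subtype_ker_map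
    φ.surjective_rangeRestrict x).1 h3
  clear hx h3
  have key : ∀ z ∈ (maximalIdeal R ^ j • ⊤ : Submodule R I), ∀ s : S,
      s ⊗ₜ[R] z ∈ (maximalIdeal S ^ j • ⊤ : Submodule S (S ⊗[R] I)) := by
    intro z hz s
    refine Submodule.smul_induction_on hz (fun r hr w _ => ?_) fun a b ha hb => ?_
    · rw [tmul_smul, ← algebraMap_smul S r]
      refine Submodule.smul_mem_smul ?_ Submodule.mem_top
      have := Ideal.mem_map_of_mem (algebraMap R S) hr
      rw [Ideal.map_pow] at this
      exact Ideal.pow_right_mono (map_maximalIdeal_le _) j this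
    · rw [tmul_add]
      exact Submodule.add_mem _ ha hb
  induction y using TensorProduct.induction_on with
  | zero => rw [map_zero]; exact Submodule.zero_mem _
  | add a b ha hb => rw [map_add]; exact Submodule.add_mem _ ha hb
  | tmul s z =>
    rw [LinearMap.lTensor_tmul]
    refine key _ ?_ s
    have h4 : ((z : I) : R) ∈ maximalIdeal R ^ (j + k) := by
      have h5 : φ z.1 = 0 := congrArg Subtype.val (LinearMap.mem_ker.1 z.2)
      exact (Submodule.Quotient.mk_eq_zero _).1 h5
    have h6 : ((z : I) : R) ∈ (maximalIdeal R ^ j • ⊤ : Submodule R I).map I.subtype := by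
      rw [Submodule.map_smul'', Submodule.map_top, Submodule.range_subtype]
      have h7 := hk (j + k) (Nat.le_add_left _ _)
      rw [Nat.add_sub_cancel] at h7
      refine Submodule.smul_mono le_rfl inf_le_right (h7.le ⟨?_, (z : I).2⟩)
      simpa using h4
    obtain ⟨w, hw, hw'⟩ := h6
    rwa [Submodule.subtype_apply, ← Subtype.ext hw']

/-- If `R` and `S` are flat over `R0` and the maximal ideal of `R` is extended from `R0` then
`S` is flat over `R`. -/
theorem flat_of_map_eq {R0 R S : Type u} [CommRing R0] [CommRing R] [IsNoetherianRing R]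
    [IsLocalRing R] [CommRing S] [IsNoetherianRing S] [IsLocalRing S] [Algebra R0 R] [Algebra R S]
    [Algebra R0 S] [IsScalarTower R0 R S] [IsLocalHom (algebraMap R S)] [Module.Flat R0 R]
    [Module.Flat R0 S] (I : Ideal R0) (hI : I.map (algebraMap R0 R) = maximalIdeal R) :
    Module.Flat R S := by
  refine flat_of_rTensor_injective ((LinearMap.lTensor_inj_iff_rTensor_inj _ _).1 ?_)
  have hm : ∀ a : I, algebraMap R0 R a ∈ maximalIdeal R := fun a =>
    hI ▸ Ideal.mem_map_of_mem _ a.2
  let ψ : S ⊗[R0] I →ₗ[R0] S ⊗[R] maximalIdeal R := TensorProduct.lift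
    (LinearMap.mk₂ R0 (fun s a => s ⊗ₜ[R] (⟨_, hm a⟩ : maximalIdeal R))
      (fun _ _ _ => add_tmul _ _ _) (fun _ _ _ => (smul_tmul' _ _ _).symm)
      (fun s a b => by rw [← tmul_add]; congr 1; exact Subtype.ext (map_add _ _ _))
      (fun c s a => by
        rw [smul_tmul', ← algebraMap_smul R c s, smul_tmul]
        congr 1
        exact Subtype.ext (map_mul _ _ _)))
  have hψ : ∀ s a, ψ (s ⊗ₜ a) = s ⊗ₜ[R] (⟨_, hm a⟩ : maximalIdeal R) := fun _ _ => rfl
  have hsurj : Function.Surjective ψ := by
    rw [← LinearMap.range_eq_top, eq_top_iff]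
    rintro x -
    induction x using TensorProduct.induction_on with
    | zero => exact Submodule.zero_mem _
    | add a b ha hb => exact Submodule.add_mem _ ha hb
    | tmul s z =>
      obtain ⟨z, hz⟩ := z
      have hz' : z ∈ Submodule.span R (algebraMap R0 R '' I) := by rw [← hI] at hz; exact hz
      have key : ∀ (hz : z ∈ maximalIdeal R) (s : S),
          s ⊗ₜ[R] (⟨z, hz⟩ : maximalIdeal R) ∈ LinearMap.range ψ := by
        clear hz
        have hle : Submodule.span R (algebraMap R0 R '' I) ≤ maximalIdeal R := hI.le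
        induction hz' using Submodule.span_induction with
        | mem z h =>
          obtain ⟨a, ha, rfl⟩ := h
          exact fun _ s => ⟨s ⊗ₜ ⟨a, ha⟩, rfl⟩
        | zero =>
          intro _ s
          change s ⊗ₜ[R] (0 : maximalIdeal R) ∈ _
          rw [tmul_zero]
          exact Submodule.zero_mem _
        | add a b ha hb iha ihb =>
          intro _ s
          change s ⊗ₜ[R] ((⟨a, hle ha⟩ : maximalIdeal R) + ⟨b, hle hb⟩) ∈ _
          rw [tmul_add]
          exact Submodule.add_mem _ (iha _ s) (ihb _ s)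
        | smul r a ha iha =>
          intro _ s
          change s ⊗ₜ[R] (r • (⟨a, hle ha⟩ : maximalIdeal R)) ∈ _
          rw [← smul_tmul]
          exact iha _ _
      exact key hz s
  have hc : ∀ x, TensorProduct.rid R S ((maximalIdeal R).subtype.lTensor S (ψ x)) =
      TensorProduct.rid R0 S (I.subtype.lTensor S x) := by
    intro x
    induction x using TensorProduct.induction_on with
    | zero => simp
    | add a b ha hb => simp only [map_add, ha, hb]
    | tmul s z => simp [hψ]
  rw [injective_iff_map_eq_zero]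
  intro x hx
  obtain ⟨y, rfl⟩ := hsurj x
  have h1 := hc y
  rw [hx, map_zero, eq_comm, LinearEquiv.map_eq_zero_iff] at h1
  rw [(injective_iff_map_eq_zero _).1
    (Module.Flat.lTensor_preserves_injective_linearMap _ I.injective_subtype) y h1, map_zero]

variable {R R' : Type u} [CommRing R] [IsLocalRing R] [CommRing R'] [IsLocalRing R'] [Algebra R R']

theorem LC.isRed_map (h : (maximalIdeal R).map (algebraMap R R') = maximalIdeal R') {ι : Type}
    {x : ι → R} (hx : IsRed x) : IsRed fun i => algebraMap R R' (x i) := by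
  obtain ⟨h1, n0, h2⟩ := hx
  refine ⟨fun i => h ▸ Ideal.mem_map_of_mem _ (h1 i), n0, ?_⟩
  have h3 := Ideal.map_mono (f := algebraMap R R') h2
  rwa [Ideal.map_mul, Ideal.map_pow, Ideal.map_pow, h, Ideal.map_span, ← Set.range_comp] at h3

theorem LC.exists_pow_le {J : Ideal R} (h : Module.length R (R ⧸ J) ≠ ⊤) :
    ∃ t : ℕ, maximalIdeal R ^ t ≤ J := by
  obtain ⟨h1, h2⟩ := isFiniteLength_iff_isNoetherian_isArtinian.1 (Module.length_ne_top_iff.1 h)
  obtain ⟨t, ht⟩ := IsArtinian.monotone_stabilizes (R := R) (M := R ⧸ J)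
    ⟨fun n => OrderDual.toDual (maximalIdeal R ^ n • ⊤), fun a b hab =>
      Submodule.smul_mono_left (Ideal.pow_le_pow_right hab)⟩
  have h3 : (maximalIdeal R ^ t • ⊤ : Submodule R (R ⧸ J)) = maximalIdeal R ^ (t + 1) • ⊤ :=
    ht (t + 1) (Nat.le_succ t)
  have h4 := Submodule.eq_bot_of_le_smul_of_le_jacobson_bot (maximalIdeal R)
    (maximalIdeal R ^ t • ⊤ : Submodule R (R ⧸ J)) (IsNoetherian.noetherian _)
    (by rw [← Submodule.mul_smul, ← pow_succ', ← h3]) (maximalIdeal_le_jacobson _)
  refine ⟨t, fun z hz => ?_⟩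
  have h5 : z • (1 : R ⧸ J) ∈ (maximalIdeal R ^ t • ⊤ : Submodule R (R ⧸ J)) :=
    Submodule.smul_mem_smul hz Submodule.mem_top
  rw [h4, Submodule.mem_bot, Algebra.smul_def, mul_one] at h5
  exact Ideal.Quotient.eq_zero_iff_mem.1 h5

theorem LC.exists_dim (R : Type u) [CommRing R] [IsLocalRing R] [IsNoetherianRing R] :
    ∃ d : ℕ, ringKrullDim R = d := by
  obtain ⟨d, hd⟩ := ENat.ne_top_iff_exists.1
    (Ideal.height_ne_top (maximalIdeal.isMaximal R).ne_top)
  exact ⟨d, by rw [← maximalIdeal_height_eq_ringKrullDim, ← hd]; rfl⟩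

theorem Unr.isLocalHom (h : Unr R R') : IsLocalHom (algebraMap R R') := by
  exact ((local_hom_TFAE (algebraMap R R')).out 0 2).2 h.map_eq.le

theorem Unr.refl : Unr R R := by
  exact ⟨inferInstance, by simp⟩

theorem Unr.trans {R'' : Type u} [CommRing R''] [IsLocalRing R''] [Algebra R' R''] [Algebra R R'']
    [IsScalarTower R R' R''] (h : Unr R R') (h' : Unr R' R'') : Unr R R'' := by
  have := h.flat
  have := h'.flat
  refine ⟨Module.Flat.trans R R' R'', ?_⟩
  rw [IsScalarTower.algebraMap_eq R R' R'', ← Ideal.map_map, h.map_eq, h'.map_eq]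

theorem length_quot_map [IsLocalHom (algebraMap R R')] [Module.Flat R R'] (J : Ideal R) :
    Module.length R' (R' ⧸ J.map (algebraMap R R')) =
      Module.length R (R ⧸ J) * Module.length R' (R' ⧸ mS R R') := by
  rw [(Algebra.TensorProduct.quotIdealMapEquivTensorQuot R' J).toLinearEquiv.length_eq,
    IsLocalRing.length_baseChange]

theorem Unr.length_fibre (h : Unr R R') : Module.length R' (R' ⧸ mS R R') = 1 := by
  rw [mS, h.map_eq, Module.length_eq_one_iff]
  exact isSimpleModule_iff_quot_maximal.2 ⟨_, maximalIdeal.isMaximal R', ⟨LinearEquiv.refl _ _⟩⟩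

theorem Unr.HS_map (h : Unr R R') (J : Ideal R) (d : ℕ) :
    HS R' (J.map (algebraMap R R')) d = HS R J d := by
  have := h.flat
  have := h.isLocalHom
  funext n
  rw [HS, HS, ← Ideal.map_pow, length_quot_map, h.length_fibre, mul_one]

theorem Unr.HS_eq (h : Unr R R') (d : ℕ) :
    HS R' (maximalIdeal R') d = HS R (maximalIdeal R) d := by
  rw [← h.HS_map, h.map_eq]

theorem Unr.isRed (h : Unr R R') {ι : Type} {x : ι → R} (hx : IsRed x) :
    IsRed fun i => algebraMap R R' (x i) := by
  exact LC.isRed_map h.map_eq hx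

theorem IsRed.isSop {ι : Type} {x : ι → R} (hx : IsRed x) : IsSop x := by
  obtain ⟨h1, n0, h2⟩ := hx
  exact ⟨h1, n0 + 1, h2.trans Ideal.mul_le_left⟩

theorem IsRed.map_of_surjective (h : Function.Surjective (algebraMap R R')) {ι : Type}
    {x : ι → R} (hx : IsRed x) : IsRed fun i => algebraMap R R' (x i) := by
  exact LC.isRed_map (map_maximalIdeal_of_surjective _ h) hx

theorem IsSop.map [IsNoetherianRing R'] [IsLocalHom (algebraMap R R')]
    (hl : Module.length R' (R' ⧸ mS R R') ≠ ⊤) {ι : Type} {x : ι → R} (hx : IsSop x) :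
    IsSop fun i => algebraMap R R' (x i) := by
  obtain ⟨h1, t, h2⟩ := hx
  obtain ⟨s, hs⟩ := LC.exists_pow_le hl
  refine ⟨fun i => map_nonunit _ _ (h1 i), s * t, ?_⟩
  have h3 := Ideal.map_mono (f := algebraMap R R') h2
  rw [Ideal.map_pow, Ideal.map_span, ← Set.range_comp] at h3
  rw [pow_mul]
  exact (Ideal.pow_right_mono hs t).trans h3

/-- An ideal of finite colength contains a power of the maximal ideal. -/
theorem exists_pow_le_of_length_ne_top {J : Ideal R} (h : Module.length R (R ⧸ J) ≠ ⊤) :
    ∃ t : ℕ, maximalIdeal R ^ t ≤ J := by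
  exact LC.exists_pow_le h

variable [IsNoetherianRing R] [IsNoetherianRing R']

/-- The dimension formula for a flat local map. -/
theorem dim_eq_add [IsLocalHom (algebraMap R R')] [Module.Flat R R'] :
    ringKrullDim R' = ringKrullDim R + ringKrullDim (R' ⧸ mS R R') := by
  have hne : mS R R' ≠ ⊤ := (map_maximalIdeal_lt_top (algebraMap R R')).ne
  have : Nontrivial (R' ⧸ mS R R') := Ideal.Quotient.nontrivial_iff.2 hne
  have : IsLocalRing (R' ⧸ mS R R') :=
    IsLocalRing.of_surjective' (Ideal.Quotient.mk _) Ideal.Quotient.mk_surjective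
  rw [← maximalIdeal_height_eq_ringKrullDim, ← maximalIdeal_height_eq_ringKrullDim,
    ← maximalIdeal_height_eq_ringKrullDim,
    Ideal.height_eq_height_add_of_liesOver_of_hasGoingDown (maximalIdeal R) (maximalIdeal R'),
    map_maximalIdeal_of_surjective _ Ideal.Quotient.mk_surjective, WithBot.coe_add]

theorem Unr.dim_eq (h : Unr R R') : ringKrullDim R' = ringKrullDim R := by
  have := h.flat
  have := h.isLocalHom
  rw [dim_eq_add (R := R), mS, h.map_eq]
  have : ringKrullDim (R' ⧸ maximalIdeal R') = 0 :=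
    ringKrullDim_eq_zero_of_isField
      ((Ideal.Quotient.maximal_ideal_iff_isField_quotient _).1 (maximalIdeal.isMaximal R'))
  rw [this, add_zero]

theorem length_fibre_ne_top_of_dim [IsLocalHom (algebraMap R R')] [Module.Flat R R']
    (h : ringKrullDim R' = ringKrullDim R) : Module.length R' (R' ⧸ mS R R') ≠ ⊤ := by
  have hne : mS R R' ≠ ⊤ := (map_maximalIdeal_lt_top (algebraMap R R')).ne
  have : Nontrivial (R' ⧸ mS R R') := Ideal.Quotient.nontrivial_iff.2 hne
  have : IsLocalRing (R' ⧸ mS R R') :=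
    IsLocalRing.of_surjective' (Ideal.Quotient.mk _) Ideal.Quotient.mk_surjective
  obtain ⟨d, hd⟩ := LC.exists_dim R
  obtain ⟨f, hf⟩ := LC.exists_dim (R' ⧸ mS R R')
  have h1 := dim_eq_add (R := R) (R' := R')
  rw [h, hd, hf] at h1
  have h2 : d = d + f := by exact_mod_cast h1
  obtain rfl : f = 0 := by omega
  have : IsArtinianRing (R' ⧸ mS R R') := isArtinianRing_iff_krullDimLE_zero.2
    (ringKrullDimZero_iff_ringKrullDim_eq_zero.2 hf)
  rw [Module.length_eq_of_surjective (S := R') (R := R' ⧸ mS R R') Ideal.Quotient.mk_surjective]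
  exact Module.length_ne_top

theorem exists_dim_eq_nat : ∃ d : ℕ, ringKrullDim R = d := by
  exact LC.exists_dim R

/-- A square of local rings whose vertical maps are unramified. -/
theorem flat_of_unr_square {S S' : Type u} [CommRing S] [IsLocalRing S] [CommRing S']
    [IsLocalRing S'] [IsNoetherianRing S'] [Algebra R S] [Algebra S S'] [Algebra R' S']
    [IsLocalHom (algebraMap R S)] [Module.Flat R S] [IsLocalHom (algebraMap S S')]
    [Module.Flat S S'] (hR : Unr R R')
    (hc : ∀ a, algebraMap R' S' (algebraMap R R' a) = algebraMap S S' (algebraMap R S a)) :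
    IsLocalHom (algebraMap R' S') ∧ Module.Flat R' S' ∧
      mS R' S' = (mS R S).map (algebraMap S S') := by
  have := hR.flat
  let : Algebra R S' := ((algebraMap S S').comp (algebraMap R S)).toAlgebra
  have : IsScalarTower R S S' := IsScalarTower.of_algebraMap_eq fun _ => rfl
  have : IsScalarTower R R' S' := IsScalarTower.of_algebraMap_eq fun a => (hc a).symm
  have : Module.Flat R S' := Module.Flat.trans R S S'
  have h1 : mS R' S' = (mS R S).map (algebraMap S S') := by
    rw [mS, mS, ← hR.map_eq, Ideal.map_map, Ideal.map_map, ← IsScalarTower.algebraMap_eq,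
      ← IsScalarTower.algebraMap_eq]
  have h2 : IsLocalHom (algebraMap R' S') := ((local_hom_TFAE (algebraMap R' S')).out 0 2).2
    (h1.le.trans ((Ideal.map_mono (map_maximalIdeal_le _)).trans (map_maximalIdeal_le _)))
  exact ⟨h2, flat_of_map_eq (maximalIdeal R) hR.map_eq, h1⟩

omit [IsNoetherianRing R] [IsNoetherianRing R'] in
theorem LechIneq.of_unr {S S' : Type u} [CommRing S] [IsLocalRing S] [CommRing S']
    [IsLocalRing S'] [Algebra S S'] [IsNoetherianRing R] [IsNoetherianRing R']
    [IsNoetherianRing S] [IsNoetherianRing S'] (hR : Unr R R') (hS : Unr S S')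
    (h : LechIneq R' S') : LechIneq R S := by
  intro d D eR eS h1 h2 h3 h4
  refine h d D eR eS (hR.dim_eq.trans h1) (hS.dim_eq.trans h2) ?_ ?_
  · rwa [IsMult, hR.HS_eq]
  · rwa [IsMult, hS.HS_eq]

end Vale.Agent.P202
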