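import Vale.Agent.P202.PS
import Vale.Agent.P202.LC

/-! Constructions of auxiliary extensions. -/

namespace Vale.Agent.P202

open IsLocalRing MvPowerSeries TensorProduct

universe u

section single

variable (R : Type u) [CommRing R] [IsLocalRing R]

/-- The extension of the maximal ideal to the polynomial ring. -/
noncomputable abbrev extP : Ideal (Polynomial R) := (maximalIdeal R).map (Polynomial.C : R →+* Polynomial R)

/-- The ring `R(t)`. -/
abbrev extT : Type u := Localization.AtPrime (extP R)

theorem extT_unr : Unr R (extT R) := by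
  refine ⟨inferInstance, ?_⟩
  rw [← Localization.AtPrime.map_eq_maximalIdeal, Ideal.map_map]
  rfl

theorem extT_infinite : Infinite (ResidueField (extT R)) := by
  refine Infinite.of_injective
    (fun n : ℕ => residue (extT R) (algebraMap (Polynomial R) (extT R) (Polynomial.X ^ n))) ?_
  intro m n h
  have h1 : algebraMap (Polynomial R) (extT R) (Polynomial.X ^ m - Polynomial.X ^ n) ∈
      maximalIdeal (extT R) := by
    rw [map_sub, ← residue_eq_zero_iff, map_sub, sub_eq_zero]
    exact h
  rw [IsLocalization.AtPrime.to_map_mem_maximal_iff (extT R) (extP R), Ideal.mem_map_C_iff] at h1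
  by_contra hmn
  have h2 := h1 m
  rw [Polynomial.coeff_sub, Polynomial.coeff_X_pow, Polynomial.coeff_X_pow, if_pos rfl,
    if_neg hmn, sub_zero] at h2
  exact (maximalIdeal.isMaximal R).ne_top ((Ideal.eq_top_iff_one _).2 h2)

end single

section square

variable (R S : Type u) [CommRing R] [IsLocalRing R] [IsNoetherianRing R] [CommRing S]
  [IsLocalRing S] [IsNoetherianRing S] [Algebra R S] [IsLocalHom (algebraMap R S)]

omit [IsNoetherianRing R] [IsNoetherianRing S] in
theorem extP_comap : extP R = (extP S).comap (Polynomial.mapRingHom (algebraMap R S)) := by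
  ext f
  simp only [Ideal.mem_comap, Ideal.mem_map_C_iff, Polynomial.coe_mapRingHom,
    Polynomial.coeff_map, mem_maximalIdeal, mem_nonunits_iff, isUnit_map_iff]

/-- `R(t) → S(t)`. -/
theorem exists_square_infinite :
    ∃ (R' S' : Type u) (_ : CommRing R') (_ : IsLocalRing R') (_ : IsNoetherianRing R')
      (_ : CommRing S') (_ : IsLocalRing S') (_ : IsNoetherianRing S') (_ : Algebra R R')
      (_ : Algebra S S') (_ : Algebra R' S'), Unr R R' ∧ Unr S S' ∧
      (∀ a, algebraMap R' S' (algebraMap R R' a) = algebraMap S S' (algebraMap R S a)) ∧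
      Infinite (ResidueField R') ∧ Infinite (ResidueField S') := by
  refine ⟨extT R, extT S, inferInstance, inferInstance, inferInstance, inferInstance,
    inferInstance, inferInstance, inferInstance, inferInstance,
    (Localization.localRingHom _ _ _ (extP_comap R S)).toAlgebra, extT_unr R, extT_unr S, ?_,
    extT_infinite R, extT_infinite S⟩
  intro a
  rw [RingHom.algebraMap_toAlgebra, IsScalarTower.algebraMap_apply R (Polynomial R) (extT R),
    Localization.localRingHom_to_map, IsScalarTower.algebraMap_apply S (Polynomial S) (extT S)]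
  simp

/-- The map from the completion to the truncations of `S`. -/
noncomputable def extQ (n : ℕ) :
    AdicCompletion (maximalIdeal R) R →+* S ⧸ maximalIdeal S ^ n :=
  (Ideal.quotientMap (maximalIdeal S ^ n) (algebraMap R S)
      (by
        rw [← Ideal.map_le_iff_le_comap, Ideal.map_pow]
        exact Ideal.pow_right_mono (map_maximalIdeal_le _) n)).comp
      (AdicCompletion.evalₐ (maximalIdeal R) n).toRingHom

omit [IsNoetherianRing R] [IsNoetherianRing S] in
theorem extQ_compat {m n : ℕ} (h : m ≤ n) :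
    (Ideal.Quotient.factorPow (maximalIdeal S) h).comp (extQ R S n) = extQ R S m := by
  refine RingHom.ext fun x => ?_
  obtain ⟨r, rfl⟩ := AdicCompletion.mk_surjective _ _ x
  simp only [extQ, RingHom.comp_apply, AlgHom.toRingHom_eq_coe, RingHom.coe_coe,
    AdicCompletion.evalₐ_mk]
  rw [← AdicCompletion.Ideal.mk_eq_mk _ h r]
  simp only [Ideal.quotientMap_mk, Ideal.Quotient.factor_mk]

/-- The ring map between the completions. -/
noncomputable def extComplMap :
    AdicCompletion (maximalIdeal R) R →+* AdicCompletion (maximalIdeal S) S :=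
  AdicCompletion.liftRingHom (maximalIdeal S) (extQ R S) (extQ_compat R S)

/-- The map of completions. -/
theorem exists_square_complete :
    ∃ (R' S' : Type u) (_ : CommRing R') (_ : IsLocalRing R') (_ : IsNoetherianRing R')
      (_ : CommRing S') (_ : IsLocalRing S') (_ : IsNoetherianRing S') (_ : Algebra R R')
      (_ : Algebra S S') (_ : Algebra R' S'), Unr R R' ∧ Unr S S' ∧
      (∀ a, algebraMap R' S' (algebraMap R R' a) = algebraMap S S' (algebraMap R S a)) ∧
      IsAdicComplete (maximalIdeal R') R' ∧ IsAdicComplete (maximalIdeal S') S' := by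
  refine ⟨AdicCompletion (maximalIdeal R) R, AdicCompletion (maximalIdeal S) S, inferInstance,
    inferInstance, isNoetherianRing_completion R, inferInstance, inferInstance,
    isNoetherianRing_completion S, inferInstance, inferInstance, (extComplMap R S).toAlgebra,
    ⟨inferInstance, AdicCompletion.maximalIdeal_eq_map.symm⟩,
    ⟨inferInstance, AdicCompletion.maximalIdeal_eq_map.symm⟩, ?_, inferInstance, inferInstance⟩
  intro a
  rw [RingHom.algebraMap_toAlgebra]
  refine AdicCompletion.ext_evalₐ fun n => ?_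
  refine (AdicCompletion.evalₐ_liftRingHom _ (extQ R S) (extQ_compat R S) n _).trans ?_
  simp [extQ, AdicCompletion.algebraMap_apply]

end square

variable {σ : Type} [Finite σ]

theorem ext_flat_of_map_eq {R0 R S : Type u} [CommRing R0] [CommRing R] [IsNoetherianRing R]
    [IsLocalRing R] [CommRing S] [IsNoetherianRing S] [IsLocalRing S] (f : R0 →+* R)
    (g : R →+* S) [IsLocalHom g] (hf : f.Flat) (hgf : (g.comp f).Flat) (I : Ideal R0)
    (hI : I.map f = maximalIdeal R) : g.Flat := by
  algebraize [f, g, g.comp f]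
  have : IsLocalHom (algebraMap R S) := ‹IsLocalHom g›
  exact flat_of_map_eq (R0 := R0) I hI

theorem ext_coe_flat (k : Type u) [Field k] :
    (MvPolynomial.coeToMvPowerSeries.ringHom : MvPolynomial σ k →+* PS σ k).Flat := by
  have h : Module.Flat (MvPolynomial σ k) (PS σ k) :=
    Module.Flat.of_linearEquiv (toAdicCompletionAlgEquiv σ k).toLinearEquiv
  have h2 : (algebraMap (MvPolynomial σ k) (PS σ k)).Flat := RingHom.flat_algebraMap_iff.2 h
  convert h2 using 1
  refine RingHom.ext fun a => ?_
  rw [MvPowerSeries.algebraMap_apply']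
  simp

attribute [local instance] MvPolynomial.algebraMvPolynomial in
omit [Finite σ] in
theorem ext_poly_map_flat {k k' : Type u} [Field k] [Field k'] (f : k →+* k') :
    (MvPolynomial.map (σ := σ) f).Flat := by
  algebraize [f]
  have h : (algebraMap k k').Flat := RingHom.Flat.of_isField (Field.toIsField k) _
  have h2 : (algebraMap (MvPolynomial σ k) (MvPolynomial σ k')).Flat :=
    RingHom.Flat.isStableUnderBaseChange k k' (MvPolynomial σ k) (MvPolynomial σ k') h
  exact h2

theorem ps_map_flat {k k' : Type u} [Field k] [Field k'] (f : k →+* k') :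
    (MvPowerSeries.map (σ := σ) f).Flat := by
  have hloc : IsLocalHom (MvPowerSeries.map (σ := σ) f) := by
    apply psHom_isLocalHom
    intro i
    rw [map_X, ps_maximalIdeal]
    exact Ideal.subset_span ⟨i, rfl⟩
  refine ext_flat_of_map_eq MvPolynomial.coeToMvPowerSeries.ringHom _ (ext_coe_flat k) ?_
    (MvPolynomial.idealOfVars σ k) ?_
  · have : (MvPowerSeries.map (σ := σ) f).comp MvPolynomial.coeToMvPowerSeries.ringHom =
        MvPolynomial.coeToMvPowerSeries.ringHom.comp (MvPolynomial.map f) := by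
      refine MvPolynomial.ringHom_ext (fun a => ?_) (fun i => ?_)
      · simp
      · simp
    rw [this]
    exact (ext_poly_map_flat f).comp (ext_coe_flat k')
  · rw [ps_maximalIdeal, MvPolynomial.idealOfVars, Ideal.map_span, ← Set.range_comp]
    congr 2
    ext1 i
    simp

theorem ext_flat_of_basis {A B : Type u} [CommRing A] [CommRing B] {ι : Type} [Fintype ι]
    (g : A →+* B) (b : ι → B)
    (h : Function.Bijective fun c : ι → A => ∑ i, g (c i) * b i) : g.Flat := by
  algebraize [g]
  have h' : Function.Bijective (Fintype.linearCombination A b) := by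
    convert h using 2 with c
    simp only [Fintype.linearCombination_apply, Algebra.smul_def]
    rfl
  exact Module.Flat.of_linearEquiv (LinearEquiv.ofBijective _ h').symm

/-- The exponent attached to a residue vector. -/
noncomputable def extExp {q : ℕ} (r : σ → Fin q) : σ →₀ ℕ :=
  Finsupp.equivFunOnFinite.symm fun i => (r i : ℕ)

theorem extExp_apply {q : ℕ} (r : σ → Fin q) (i : σ) : extExp r i = r i := rfl

theorem ext_coeff_sum {k : Type u} [CommRing k] {q : ℕ} (hq : q ≠ 0) [Fintype (σ → Fin q)]
    (c : (σ → Fin q) → PS σ k) (a : σ →₀ ℕ) (r0 : σ → Fin q) :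
    coeff (q • a + extExp r0) (∑ r, expand q hq (c r) * monomial (extExp r) (1 : k)) =
      coeff a (c r0) := by
  classical
  rw [map_sum, Finset.sum_eq_single r0]
  · rw [coeff_mul_monomial, if_pos le_add_self, add_tsub_cancel_right, coeff_expand_smul, mul_one]
  · intro r _ hr
    rw [coeff_mul_monomial]
    split_ifs with hle
    · obtain ⟨i, hi⟩ := Function.ne_iff.1 hr
      rw [coeff_expand_of_not_dvd q hq (i := i), zero_mul]
      have h1 := hle i
      simp only [Finsupp.coe_add, Finsupp.coe_smul, Pi.add_apply, Pi.smul_apply, smul_eq_mul,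
        extExp_apply, Finsupp.coe_tsub, Pi.sub_apply] at h1 ⊢
      intro hd
      apply hi
      apply Fin.ext
      have h2 : (r i : ℕ) ≡ q * a i + r0 i [MOD q] := (Nat.modEq_iff_dvd' h1).2 hd
      have h3 : q * a i + r0 i ≡ r0 i [MOD q] := by simp [Nat.ModEq]
      exact Nat.ModEq.eq_of_lt_of_lt (h2.trans h3) (r i).2 (r0 i).2
    · rfl
  · simp

theorem ext_exp_decomp {q : ℕ} (hq : q ≠ 0) (m : σ →₀ ℕ) :
    ∃ (a : σ →₀ ℕ) (r : σ → Fin q), m = q • a + extExp r := by
  refine ⟨Finsupp.equivFunOnFinite.symm fun i => m i / q,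
    fun i => ⟨m i % q, Nat.mod_lt _ (Nat.pos_of_ne_zero hq)⟩, ?_⟩
  ext i
  simp [extExp_apply, Nat.div_add_mod]

theorem ext_expand_flat (k : Type u) [CommRing k] {q : ℕ} (hq : q ≠ 0) :
    ((expand q hq : PS σ k →ₐ[k] PS σ k) : PS σ k →+* PS σ k).Flat := by
  classical
  have := Fintype.ofFinite σ
  refine ext_flat_of_basis (ι := σ → Fin q) _ (fun r => monomial (extExp r) (1 : k)) ⟨?_, ?_⟩
  · intro c c' h
    funext r
    ext a
    have := congrArg (coeff (q • a + extExp r)) h
    simp only [RingHom.coe_coe] at this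
    rwa [ext_coeff_sum, ext_coeff_sum] at this
  · intro F
    refine ⟨fun r => fun a => coeff (q • a + extExp r) F, ?_⟩
    ext m
    obtain ⟨a, r, rfl⟩ := ext_exp_decomp hq m
    exact ext_coeff_sum hq (fun r => fun a => coeff (q • a + extExp r) F) a r

/-- Frobenius is flat on a power series ring. -/
theorem ps_frob_flat (k : Type u) [Field k] (p : ℕ) [Fact p.Prime] [CharP (PS σ k) p] (e : ℕ) :
    (iterateFrobenius (PS σ k) p e).Flat := by
  have hp : p ≠ 0 := (Fact.out : p.Prime).ne_zero
  have : CharP k p := (RingHom.charP_iff (C : k →+* PS σ k) (RingHom.injective _) p).2 ‹_›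
  have h : iterateFrobenius (PS σ k) p e = (MvPowerSeries.map (iterateFrobenius k p e)).comp
      ((expand (p ^ e) (pow_ne_zero e hp) : PS σ k →ₐ[k] PS σ k) : PS σ k →+* PS σ k) := by
    refine RingHom.ext fun a => ?_
    rw [iterateFrobenius_def, ← map_iterateFrobenius_expand p hp a e]
    rfl
  rw [h]
  exact (ext_expand_flat k _).comp (ps_map_flat _)

section bc

attribute [local instance] Algebra.TensorProduct.rightAlgebra

variable {A A' R : Type u} [CommRing A] [CommRing A'] [CommRing R] [Algebra A A'] [Algebra A R]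

theorem ext_includeRight_finite [Module.Finite A R] : (algebraMap A' (R ⊗[A] A')).Finite :=
  RingHom.finite_isStableUnderBaseChange A R A' (R ⊗[A] A') (RingHom.finite_algebraMap.2 ‹_›)

theorem ext_bc_congr (I : Ideal R) (hres : ∀ r : R, ∃ a : A, r - algebraMap A R a ∈ I)
    (x : R ⊗[A] A') :
    ∃ a' : A', x - algebraMap A' (R ⊗[A] A') a' ∈ I.map (algebraMap R (R ⊗[A] A')) := by
  induction x using TensorProduct.induction_on with
  | zero => exact ⟨0, by simp⟩
  | add x y hx hy =>
    obtain ⟨a, ha⟩ := hx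
    obtain ⟨b, hb⟩ := hy
    refine ⟨a + b, ?_⟩
    have := add_mem ha hb
    rwa [map_add, ← add_sub_add_comm] at *
  | tmul r b =>
    obtain ⟨a, ha⟩ := hres r
    refine ⟨algebraMap A A' a * b, ?_⟩
    have h : r ⊗ₜ[A] b - algebraMap A' (R ⊗[A] A') (algebraMap A A' a * b) =
        algebraMap R (R ⊗[A] A') (r - algebraMap A R a) * algebraMap A' (R ⊗[A] A') b := by
      rw [map_mul, map_sub, sub_mul, ← IsScalarTower.algebraMap_apply,
        ← IsScalarTower.algebraMap_apply]
      congr 1
      change _ = (r ⊗ₜ[A] (1 : A')) * ((1 : R) ⊗ₜ[A] b)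
      simp
    rw [h]
    exact Ideal.mul_mem_right _ _ (Ideal.mem_map_of_mem _ ha)

variable [IsLocalRing A] [IsLocalRing A'] [IsLocalRing R]

theorem ext_bc_isMaximal [IsLocalHom (algebraMap A R)] (hU : Unr A A')
    (hres : ∀ r : R, ∃ a : A, r - algebraMap A R a ∈ maximalIdeal R) :
    ((maximalIdeal R).map (algebraMap R (R ⊗[A] A'))).IsMaximal := by
  have := hU.flat
  have := hU.isLocalHom
  have : Module.FaithfullyFlat A A' := Module.FaithfullyFlat.of_flat_of_isLocalHom
  have hne : (maximalIdeal R).map (algebraMap R (R ⊗[A] A')) ≠ ⊤ := by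
    intro h
    apply Module.FaithfullyFlat.submodule_ne_top (M := R ⊗[A] A') (maximalIdeal.isMaximal R)
    rw [Ideal.smul_top_eq_map, h]
    rfl
  rw [Ideal.isMaximal_iff]
  refine ⟨fun h => hne ((Ideal.eq_top_iff_one _).2 h), fun K x hK hx hxK => ?_⟩
  obtain ⟨a', ha'⟩ := ext_bc_congr (A' := A') _ hres x
  have h1 : algebraMap A' (R ⊗[A] A') a' ∈ K := by
    have := sub_mem hxK (hK ha')
    rwa [sub_sub_cancel] at this
  have h2 : IsUnit a' := by
    by_contra h
    apply hx
    have h3 : (maximalIdeal A').map (algebraMap A' (R ⊗[A] A')) ≤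
        (maximalIdeal R).map (algebraMap R (R ⊗[A] A')) := by
      rw [← hU.map_eq, Ideal.map_map, ← IsScalarTower.algebraMap_eq,
        IsScalarTower.algebraMap_eq A R, ← Ideal.map_map]
      exact Ideal.map_mono (map_maximalIdeal_le _)
    have := add_mem ha' (h3 (Ideal.mem_map_of_mem _ (show a' ∈ maximalIdeal A' from h)))
    rwa [sub_add_cancel] at this
  exact (Ideal.eq_top_iff_one _).1 (Ideal.eq_top_of_isUnit_mem _ h1 (h2.map _))

theorem ext_bc_le [Module.Finite A R] (hU : Unr A A') (K : Ideal (R ⊗[A] A')) [K.IsMaximal] :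
    (maximalIdeal R).map (algebraMap R (R ⊗[A] A')) ≤ K := by
  have := hU.isLocalHom
  have : Module.Finite A' (R ⊗[A] A') := RingHom.finite_algebraMap.1 ext_includeRight_finite
  have h1 : (K.comap (algebraMap A' (R ⊗[A] A'))).IsMaximal :=
    Ideal.isMaximal_comap_of_isIntegral_of_isMaximal K
  have h2 : ((K.comap (algebraMap R (R ⊗[A] A'))).comap (algebraMap A R)).IsMaximal := by
    rw [Ideal.comap_comap, ← IsScalarTower.algebraMap_eq, IsScalarTower.algebraMap_eq A A',
      ← Ideal.comap_comap, eq_maximalIdeal h1, maximalIdeal_comap]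
    infer_instance
  have h3 : (K.comap (algebraMap R (R ⊗[A] A'))).IsMaximal :=
    Ideal.isMaximal_of_isIntegral_of_isMaximal_comap _ h2
  rw [Ideal.map_le_iff_le_comap, eq_maximalIdeal h3]

theorem ext_bc_aux [IsLocalHom (algebraMap A R)] [Module.Finite A R] [IsNoetherianRing A']
    (hU : Unr A A') (hres : ∀ r : R, ∃ a : A, r - algebraMap A R a ∈ maximalIdeal R) :
    ∃ (R' : Type u) (_ : CommRing R') (_ : IsLocalRing R') (_ : IsNoetherianRing R')
      (_ : Algebra R R') (φ' : A' →+* R'), Unr R R' ∧ φ'.Finite ∧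
      φ'.comp (algebraMap A A') = (algebraMap R R').comp (algebraMap A R) ∧
      (∀ x : R', ∃ a', x - φ' a' ∈ maximalIdeal R') ∧
      (∀ a' ∈ maximalIdeal A', φ' a' ∈ maximalIdeal R') ∧
      (∀ (B : Type u) [CommRing B] (α : A' →+* B) (β : R →+* B),
        α.comp (algebraMap A A') = β.comp (algebraMap A R) →
        ∃ γ : R' →+* B, γ.comp φ' = α ∧ γ.comp (algebraMap R R') = β) ∧
      (∀ (B : Type u) [CommRing B] (γ γ' : R' →+* B), γ.comp φ' = γ'.comp φ' →
        γ.comp (algebraMap R R') = γ'.comp (algebraMap R R') → γ = γ') := by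
  have hmax := ext_bc_isMaximal hU hres
  have hloc : IsLocalRing (R ⊗[A] A') := by
    refine IsLocalRing.of_unique_max_ideal ⟨_, hmax, fun K hK => ?_⟩
    exact (hmax.eq_of_le hK.ne_top (ext_bc_le hU K)).symm
  have hfin : Module.Finite A' (R ⊗[A] A') := RingHom.finite_algebraMap.1 ext_includeRight_finite
  have hm := eq_maximalIdeal hmax
  have := hU.flat
  refine ⟨R ⊗[A] A', inferInstance, hloc, IsNoetherianRing.of_finite A' _, inferInstance,
    algebraMap A' (R ⊗[A] A'), ⟨inferInstance, hm⟩, ext_includeRight_finite, ?_, ?_, ?_, ?_, ?_⟩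
  · rw [← IsScalarTower.algebraMap_eq, ← IsScalarTower.algebraMap_eq]
  · intro x
    rw [← hm]
    exact ext_bc_congr _ hres x
  · intro a' ha'
    have h3 : (maximalIdeal A').map (algebraMap A' (R ⊗[A] A')) ≤
        (maximalIdeal R).map (algebraMap R (R ⊗[A] A')) := by
      rw [← hU.map_eq, Ideal.map_map, ← IsScalarTower.algebraMap_eq,
        IsScalarTower.algebraMap_eq A R, ← Ideal.map_map]
      exact Ideal.map_mono (map_maximalIdeal_le _)
    rw [← hm]
    exact h3 (Ideal.mem_map_of_mem _ ha')
  · intro B _ α β h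
    let _ : Algebra A B := (β.comp (algebraMap A R)).toAlgebra
    let β' : R →ₐ[A] B := { β with commutes' := fun a => rfl }
    let α' : A' →ₐ[A] B := { α with commutes' := fun a => RingHom.congr_fun h a }
    refine ⟨(Algebra.TensorProduct.productMap β' α').toRingHom, ?_, ?_⟩
    · refine RingHom.ext fun a => ?_
      exact Algebra.TensorProduct.productMap_right_apply β' α' a
    · refine RingHom.ext fun a => ?_
      exact Algebra.TensorProduct.productMap_left_apply β' α' a
  · intro B _ γ γ' h1 h2
    exact Algebra.TensorProduct.ringHom_ext h2 h1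

end bc

/-- Extension of the coefficient field: `R' = k'[[X]] ⊗_{k[[X]]} R`. -/
theorem exists_baseChange {k k' R : Type u} [Field k] [Field k'] (f : k →+* k') [CommRing R]
    [IsLocalRing R] (φ : PS σ k →+* R) (hfin : φ.Finite) (hX : ∀ i, φ (X i) ∈ maximalIdeal R)
    (hres : Function.Surjective ((residue R).comp (φ.comp C))) :
    ∃ (R' : Type u) (_ : CommRing R') (_ : IsLocalRing R') (_ : IsNoetherianRing R')
      (_ : Algebra R R') (φ' : PS σ k' →+* R'), Unr R R' ∧ φ'.Finite ∧
      φ'.comp (MvPowerSeries.map f) = (algebraMap R R').comp φ ∧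
      Function.Surjective ((residue R').comp (φ'.comp C)) ∧
      (∀ (B : Type u) [CommRing B] (α : PS σ k' →+* B) (β : R →+* B),
        α.comp (MvPowerSeries.map f) = β.comp φ →
        ∃ γ : R' →+* B, γ.comp φ' = α ∧ γ.comp (algebraMap R R') = β) ∧
      (∀ (B : Type u) [CommRing B] (γ γ' : R' →+* B), γ.comp φ' = γ'.comp φ' →
        γ.comp (algebraMap R R') = γ'.comp (algebraMap R R') → γ = γ') := by
  let _ : Algebra (PS σ k) R := φ.toAlgebra
  have hφ : IsLocalHom φ := psHom_isLocalHom φ hX
  have key := @ext_bc_aux (PS σ k) (PS σ k') R _ _ _ (MvPowerSeries.map f).toAlgebra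
    φ.toAlgebra _ _ _ hφ hfin _ (@Unr.mk _ _ _ _ _ _ (MvPowerSeries.map f).toAlgebra
      (ps_map_flat f) (by
        rw [RingHom.algebraMap_toAlgebra, ps_maximalIdeal, ps_maximalIdeal, Ideal.map_span,
          ← Set.range_comp]
        congr 2
        ext1 i
        simp)) (by
      intro r
      obtain ⟨c, hc⟩ := hres (residue R r)
      refine ⟨C c, ?_⟩
      rw [← residue_eq_zero_iff, map_sub, sub_eq_zero]
      exact hc.symm)
  obtain ⟨R', i1, i2, i3, i4, φ', h1, h2, h3, h4, h5, h6, h7⟩ := key
  refine ⟨R', i1, i2, i3, i4, φ', h1, h2, h3, ?_, h6, h7⟩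
  intro y
  obtain ⟨x, rfl⟩ := residue_surjective y
  obtain ⟨a', ha'⟩ := h4 x
  obtain ⟨c, hc⟩ := ps_residue_surjective (σ := σ) k' (residue _ a')
  refine ⟨c, ?_⟩
  have h8 : a' - C c ∈ maximalIdeal (PS σ k') := by
    rw [← residue_eq_zero_iff, map_sub, sub_eq_zero]
    exact hc.symm
  have h9 := add_mem ha' (h5 _ h8)
  rw [map_sub, sub_add_sub_cancel, ← residue_eq_zero_iff, map_sub, sub_eq_zero] at h9
  exact h9.symm

section fe

attribute [local instance] Algebra.TensorProduct.rightAlgebra

theorem ext_frob_aux {A A' S : Type u} [CommRing A] [CommRing A'] [CommRing S] [IsLocalRing A]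
    [IsLocalRing A'] [IsLocalRing S] [IsNoetherianRing A'] [Algebra A A'] [Algebra A S]
    [Module.Flat A A'] [IsLocalHom (algebraMap A A')]
    (hψ : Function.Surjective (algebraMap A S)) {t : ℕ}
    (ht : maximalIdeal A' ^ t ≤ (maximalIdeal A).map (algebraMap A A')) :
    ∃ (S' : Type u) (_ : CommRing S') (_ : IsLocalRing S') (_ : IsNoetherianRing S')
      (_ : Algebra S S') (π : A' →+* S'), IsLocalHom (algebraMap S S') ∧ Module.Flat S S' ∧
      Module.length S' (S' ⧸ mS S S') ≠ ⊤ ∧ IsLocalHom π ∧
      ∀ a, algebraMap S S' (algebraMap A S a) = π (algebraMap A A' a) := by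
  have : Module.FaithfullyFlat A A' := Module.FaithfullyFlat.of_flat_of_isLocalHom
  have hπ : Function.Surjective (algebraMap A' (S ⊗[A] A')) :=
    RingHom.surjective_isStableUnderBaseChange A S A' (S ⊗[A] A') hψ
  have hloc : IsLocalRing (S ⊗[A] A') := IsLocalRing.of_surjective' _ hπ
  have hN : IsNoetherianRing (S ⊗[A] A') := isNoetherianRing_of_surjective _ _ _ hπ
  have hπl : IsLocalHom (algebraMap A' (S ⊗[A] A')) := IsLocalHom.of_surjective _ hπ
  have hψl : IsLocalHom (algebraMap A S) := IsLocalHom.of_surjective _ hψ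
  have hc : ∀ a, algebraMap S (S ⊗[A] A') (algebraMap A S a) =
      algebraMap A' (S ⊗[A] A') (algebraMap A A' a) := fun a => by
    rw [← IsScalarTower.algebraMap_apply, ← IsScalarTower.algebraMap_apply]
  refine ⟨S ⊗[A] A', inferInstance, hloc, hN, inferInstance, algebraMap A' (S ⊗[A] A'), ?_,
    inferInstance, ?_, hπl, hc⟩
  · refine ⟨fun s hs => ?_⟩
    obtain ⟨a, rfl⟩ := hψ s
    rw [hc, isUnit_map_iff, isUnit_map_iff] at hs
    exact hs.map _
  · have h1 : maximalIdeal (S ⊗[A] A') ^ t ≤ mS S (S ⊗[A] A') := by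
      rw [← map_maximalIdeal_of_surjective _ hπ, ← Ideal.map_pow]
      refine (Ideal.map_mono ht).trans ?_
      rw [Ideal.map_map, ← IsScalarTower.algebraMap_eq, IsScalarTower.algebraMap_eq A S,
        ← Ideal.map_map]
      exact Ideal.map_mono (map_maximalIdeal_le _)
    have h2 := length_quot_pow_ne_top h1 1
    rwa [pow_one] at h2

end fe

/-- `S' = U / J^[q]` for `S = U / J`, as an `S`-algebra through Frobenius. -/
theorem exists_frobExt {l S : Type u} [Field l] [CommRing S] [IsLocalRing S] {p : ℕ}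
    (hp : p.Prime) (hl : (p : l) = 0) (ψ : PS σ l →+* S) (hψ : Function.Surjective ψ) (e : ℕ) :
    ∃ (S' : Type u) (_ : CommRing S') (_ : IsLocalRing S') (_ : IsNoetherianRing S')
      (_ : Algebra S S') (π : PS σ l →+* S'), IsLocalHom (algebraMap S S') ∧ Module.Flat S S' ∧
      Module.length S' (S' ⧸ mS S S') ≠ ⊤ ∧ IsLocalHom π ∧
      ∀ a, algebraMap S S' (ψ a) = π a ^ p ^ e := by
  have : Fact p.Prime := ⟨hp⟩
  have : CharP l p := (CharP.charP_iff_prime_eq_zero hp).2 hl
  have : CharP (PS σ l) p := charP_of_injective_ringHom (C : l →+* PS σ l).injective p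
  have hF : IsLocalHom (iterateFrobenius (PS σ l) p e) :=
    ⟨fun a ha => by
      rw [iterateFrobenius_def] at ha
      exact (isUnit_pow_iff (pow_ne_zero e hp.ne_zero)).1 ha⟩
  obtain ⟨t, ht⟩ : ∃ t : ℕ, maximalIdeal (PS σ l) ^ t ≤
      (maximalIdeal (PS σ l)).map (iterateFrobenius (PS σ l) p e) := by
    refine Ideal.exists_pow_le_of_le_radical_of_fg (fun a ha => ⟨p ^ e, ?_⟩)
      (IsNoetherian.noetherian _)
    rw [← iterateFrobenius_def]
    exact Ideal.mem_map_of_mem _ ha
  obtain ⟨S', i1, i2, i3, i4, π, h1, h2, h3, h4, h5⟩ :=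
    @ext_frob_aux (PS σ l) (PS σ l) S _ _ _ _ _ _ _ (iterateFrobenius (PS σ l) p e).toAlgebra
      ψ.toAlgebra (ps_frob_flat l p e) hF hψ t ht
  refine ⟨S', i1, i2, i3, i4, π, h1, h2, h3, h4, fun a => ?_⟩
  rw [← map_pow, ← iterateFrobenius_def]
  exact h5 a

end Vale.Agent.P202
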