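import Vale.Agent.P202.EpsAux

/-! The multiplicity symbol `eps` (Koszul Euler characteristic). -/

namespace Vale.Agent.P202

open IsLocalRing

universe u

variable {S : Type u} [CommRing S] [IsNoetherianRing S] [IsLocalRing S] {d : ℕ}
  {M : Type u} [AddCommGroup M] [Module S M] {M' : Type u} [AddCommGroup M'] [Module S M']
  {y : Fin d → S} {T : Finset (Fin d)}

theorem KHyp.sub {N' N'' A B : Submodule S M} (h : KHyp y T N' N'') (h1 : N' ≤ A) (h2 : A ≤ B)
    (h3 : B ≤ N'') : KHyp y T A B := by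
  obtain ⟨-, hfg, t, ht⟩ := h
  refine ⟨h2, ?_, t, ht.trans (sup_le_sup_left (Submodule.colon_mono h1 h3) _)⟩
  rw [← rl_fgF_eq_zero_iff] at hfg ⊢
  exact le_zero_iff.1 ((rl_mono _ h1 h3).trans hfg.le)

theorem KHyp.good {N' N'' : Submodule S M} (h : KHyp y T N' N'') :
    Good (kd y M) (Kos T N') (Kos T N'') := by
  obtain ⟨-, hfg, t, ht⟩ := h
  refine good_of_bounded (Finset.Icc 0 d) (fun n hn => hh_eq_zero_of_le _ n ?_) fun n _ => ?_
  · rw [kos_eq_bot T N'' n (by simp only [Finset.mem_Icc] at hn; omega)]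
    exact bot_le
  refine rl_ne_top_of_fg ?_ t ((Submodule.smul_mono_left ht).trans ?_)
  · rw [← rl_fgF_eq_zero_iff] at hfg ⊢
    refine le_zero_iff.1 ((rl_mono _ (A' := Kos T N' n) (B' := Kos T N'' n) le_sup_left
      inf_le_left).trans ?_)
    rw [Kos, Kos, rl_coord, hfg, mul_zero]
  · rw [Submodule.sup_smul]
    refine sup_le (Submodule.smul_le.2 fun z hz ξ hξ => smul_mem_map_kd y T N' N'' n z hz hξ)
      (Submodule.smul_le.2 fun z hz ξ hξ => Submodule.mem_sup_left ?_)
    refine mem_kos.2 ⟨fun A _ => Submodule.mem_colon.1 hz _ (apply_mem_of_mem_kos hξ.1 A),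
      fun A hA => ?_⟩
    rw [Pi.smul_apply, (mem_kos.1 hξ.1).2 A hA, smul_zero]

theorem eps_add {N1 N2 N3 : Submodule S M} (h : KHyp y T N1 N3) (h12 : N1 ≤ N2) (h23 : N2 ≤ N3) :
    eps y T N1 N3 = eps y T N1 N2 + eps y T N2 N3 := by
  exact chi_add (kd_comp_kd y) (kos_isCx _ _ _) (kos_isCx _ _ _) (kos_isCx _ _ _)
    (kos_mono _ h12) (kos_mono _ h23) (h.sub le_rfl h12 h23).good (h.sub h12 h23 le_rfl).good

theorem eps_self (N : Submodule S M) : eps y T N N = 0 := by
  exact Exa.chi fun n => inf_le_left.trans le_sup_left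

theorem eps_empty (N' N'' : Submodule S M) :
    eps y ∅ N' N'' = ((rl (lenF S) N' N'').toNat : ℤ) := by
  have h0 : ∀ (N : Submodule S M) (n : ℤ), n ≠ 0 → Kos (∅ : Finset (Fin d)) N n = ⊥ := by
    intro N n hn
    rw [eq_bot_iff]
    intro ξ hξ
    funext A
    refine (mem_kos.1 hξ).2 A ?_
    rintro ⟨h1, h2⟩
    rw [Finset.subset_empty.1 h1] at h2
    exact hn (by simpa using h2.symm)
  have h1 : ∀ n, (Kos (∅ : Finset (Fin d)) N'' n).map (kd y M) ≤ Kos ∅ N' (n - 1) := by
    intro n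
    by_cases hn : n = 0
    · refine (kos_isCx y ∅ N'' n).trans ?_
      rw [h0 N'' _ (by omega)]; exact bot_le
    · rw [h0 N'' n hn, Submodule.map_bot]; exact bot_le
  rw [eps, chi_eq_sum {0} fun n hn => hh_eq_zero_of_le _ n (by
    rw [h0 N'' n (by simpa using hn)]; exact bot_le), Finset.sum_singleton, hh_of_zero_diff _ h1,
    Kos, Kos, rl_coord]
  have : (Finset.univ.filter fun A : Finset (Fin d) => A ⊆ ∅ ∧ (A.card : ℤ) = 0) = {∅} := by
    ext A; simp
  rw [this]
  simp

theorem eps_congr {y' : Fin d → S} (h : ∀ i ∈ T, y i = y' i) (N' N'' : Submodule S M) :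
    eps y T N' N'' = eps y' T N' N'' := by
  have h1 : ∀ n, Zc (kd y M) (Kos T N') (Kos T N'') n = Zc (kd y' M) (Kos T N') (Kos T N'') n := by
    intro n
    ext ξ
    refine and_congr_right fun hξ => ?_
    simp only [SetLike.mem_coe, Submodule.mem_comap]
    rw [kd_congr h hξ]
  have h2 : ∀ n, Bc (kd y M) (Kos T N') (Kos T N'') n = Bc (kd y' M) (Kos T N') (Kos T N'') n := by
    intro n
    unfold Bc
    congr 1
    ext ξ
    refine exists_congr fun η => and_congr_right fun hη => ?_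
    rw [kd_congr h hη]
  simp only [eps, chi, hh, h1, h2]

/-- Transfer along a linear map inducing an isomorphism of subquotients. -/
theorem eps_map (φ : M →ₗ[S] M') {N' N'' : Submodule S M} {L' L'' : Submodule S M'}
    (hsurj : N''.map φ ⊔ L' = L'') (hinj : N'' ⊓ L'.comap φ = N') :
    eps y T N' N'' = eps y T L' L'' := by
  have := (good_chi_of_hh_shift 0 (hh_transfer (lenF S) (d := kd y M) (d' := kd y M')
    (F' := Kos T N') (F'' := Kos T N'') (G' := Kos T L') (G'' := Kos T L'') (φ.compLeft _) 0 1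
    (kos_isCx _ _ _) (kos_isCx _ _ _) (fun n ξ _ => by rw [kd_compLeft]; simp)
    (fun n => by rw [add_zero, kos_map, ← hsurj, Kos, Kos, Kos, coord_sup]) (fun n => ?_))).2.1
  · simpa [eps] using this
  rw [add_zero, ← hinj]
  ext ξ
  rw [Submodule.mem_inf, Submodule.mem_comap]
  constructor
  · rintro ⟨h1, h2⟩
    exact mem_kos.2 ⟨fun A _ => ⟨apply_mem_of_mem_kos h1 A, apply_mem_of_mem_kos h2 A⟩,
      (mem_kos.1 h1).2⟩
  · intro h1
    refine ⟨kos_mono T (inf_le_left : N'' ⊓ L'.comap φ ≤ N'') n h1,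
      mem_kos.2 ⟨fun A _ => ?_, fun A hA => ?_⟩⟩
    · exact (Submodule.mem_inf.1 (apply_mem_of_mem_kos h1 A)).2
    change φ (ξ A) = 0
    rw [(mem_kos.1 h1).2 A hA, map_zero]

theorem KHyp.erase_of_mem {N' N'' : Submodule S M} (h : KHyp y T N' N'') {i : Fin d}
    (hy : ∀ m ∈ N'', y i • m ∈ N') : KHyp y (T.erase i) N' N'' := by
  obtain ⟨hle, hfg, t, ht⟩ := h
  refine ⟨hle, hfg, t, ht.trans (sup_le (Ideal.span_le.2 ?_) le_sup_right)⟩
  rintro _ ⟨j, hj, rfl⟩
  by_cases e : j = i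
  · exact Submodule.mem_sup_right (Submodule.mem_colon.2 (e ▸ hy))
  · exact Submodule.mem_sup_left (Ideal.subset_span ⟨j, Finset.mem_erase.2 ⟨e, hj⟩, rfl⟩)

omit [IsNoetherianRing S] [IsLocalRing S] in
theorem map_lsmul_le (N : Submodule S M) (z : S) : N.map (LinearMap.lsmul S M z) ≤ N := by
  rintro _ ⟨m, hm, rfl⟩
  exact N.smul_mem z hm

omit [IsNoetherianRing S] [IsLocalRing S] in
theorem le_comap_lsmul (N : Submodule S M) (z : S) : N ≤ N.comap (LinearMap.lsmul S M z) :=
  fun _ hm => N.smul_mem z hm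

theorem KHyp.erase_quot {N' N'' : Submodule S M} (h : KHyp y T N' N'') {i : Fin d} (hi : i ∈ T) :
    KHyp y (T.erase i) (N' ⊔ N''.map (LinearMap.lsmul S M (y i))) N'' := by
  have _ := hi
  exact (h.sub le_sup_left (sup_le h.1 (map_lsmul_le _ _)) le_rfl).erase_of_mem
    fun m hm => Submodule.mem_sup_right ⟨m, hm, rfl⟩

theorem KHyp.erase_ker {N' N'' : Submodule S M} (h : KHyp y T N' N'') {i : Fin d} (hi : i ∈ T) :
    KHyp y (T.erase i) N' (N'' ⊓ N'.comap (LinearMap.lsmul S M (y i))) := by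
  have _ := hi
  exact (h.sub le_rfl (le_inf h.1 (le_comap_lsmul _ _)) inf_le_left).erase_of_mem fun m hm => hm.2

theorem cn_left (i : Fin d) {A A' B : Submodule S M} (hK : KHyp y (T.erase i) A A')
    (h : ∀ m ∈ B, y i • m ∈ A) : Good (kd y M) (Cn T i A B) (Cn T i A' B) ∧
      chi (kd y M) (Cn T i A B) (Cn T i A' B) = eps y (T.erase i) A A' := by
  obtain ⟨h1, h2, -⟩ := good_chi_of_hh_shift 0 (hh_Cn_left (T := T) (lenF S) i hK.1 h)
  exact ⟨h1.1 hK.good, by simpa [eps] using h2.symm⟩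

theorem cn_right {i : Fin d} (hi : i ∈ T) {A B B' : Submodule S M} (hK : KHyp y (T.erase i) B B')
    (h : ∀ m ∈ B', y i • m ∈ A) : Good (kd y M) (Cn T i A B) (Cn T i A B') ∧
      chi (kd y M) (Cn T i A B) (Cn T i A B') = -eps y (T.erase i) B B' := by
  obtain ⟨h1, h2, -⟩ := good_chi_of_hh_shift 1 (hh_Cn_right (lenF S) hi hK.1 h)
  refine ⟨h1.1 hK.good, ?_⟩
  rw [eps, h2]; simp

/-- The recursion of the multiplicity symbol. -/
theorem eps_erase {N' N'' : Submodule S M} (h : KHyp y T N' N'') {i : Fin d} (hi : i ∈ T) :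
    eps y T N' N'' = eps y (T.erase i) (N' ⊔ N''.map (LinearMap.lsmul S M (y i))) N'' -
      eps y (T.erase i) N' (N'' ⊓ N'.comap (LinearMap.lsmul S M (y i))) := by
  have hq := h.erase_quot hi
  have hk := h.erase_ker hi
  obtain ⟨g1, c1⟩ := cn_right hi (A := N') hk fun m hm => hm.2
  have e2 := exa_Cn (y := y) hi N' N''
  obtain ⟨g3, c3⟩ := cn_left (T := T) i (B := N'') hq fun m hm => Submodule.mem_sup_right ⟨m, hm, rfl⟩
  have x1 : IsCx (kd y M) (Cn T i N' N') := Cn_isCx i fun m hm => N'.smul_mem _ hm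
  have x2 : IsCx (kd y M) (Cn T i N' (N'' ⊓ N'.comap (LinearMap.lsmul S M (y i)))) :=
    Cn_isCx i fun m hm => hm.2
  have x3 : IsCx (kd y M) (Cn T i (N' ⊔ N''.map (LinearMap.lsmul S M (y i))) N'') :=
    Cn_isCx i fun m hm => Submodule.mem_sup_right ⟨m, hm, rfl⟩
  have x4 : IsCx (kd y M) (Cn T i N'' N'') := Cn_isCx i fun m hm => N''.smul_mem _ hm
  have l1 := Cn_mono (T := T) i (le_refl N') hk.1
  have l2 := Cn_mono (T := T) i (le_sup_left : N' ≤ N' ⊔ N''.map (LinearMap.lsmul S M (y i)))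
    (inf_le_left : N'' ⊓ N'.comap (LinearMap.lsmul S M (y i)) ≤ N'')
  have l3 := Cn_mono (T := T) i hq.1 (le_refl N'')
  rw [eps, ← Cn_self i, ← Cn_self i,
    chi_add (kd_comp_kd y) x1 x3 x4 (l1.trans l2) l3
      (Good.trans (kd_comp_kd y) x1 x2 x3 l1 l2 g1 e2.good) g3,
    chi_add (kd_comp_kd y) x1 x2 x3 l1 l2 g1 e2.good, c1, c3, e2.chi]
  ring

theorem eps_eq_zero_of_erase {N' N'' : Submodule S M} {i : Fin d} (hi : i ∈ T)
    (h : KHyp y (T.erase i) N' N'') : eps y T N' N'' = 0 := by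
  obtain ⟨g1, c1⟩ := cn_left (T := T) i (B := N') h fun m hm => N'.smul_mem _ hm
  obtain ⟨g2, c2⟩ := cn_right hi (A := N'') h fun m hm => N''.smul_mem _ hm
  rw [eps, ← Cn_self i, ← Cn_self i,
    chi_add (kd_comp_kd y) (Cn_isCx i fun m hm => N'.smul_mem _ hm)
      (Cn_isCx i fun m hm => h.1 (N'.smul_mem _ hm)) (Cn_isCx i fun m hm => N''.smul_mem _ hm)
      (Cn_mono i h.1 le_rfl) (Cn_mono i le_rfl h.1) g1 g2, c1, c2, add_neg_cancel]

theorem eps_nonneg {N' N'' : Submodule S M} (h : KHyp y T N' N'') : 0 ≤ eps y T N' N'' := by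
  induction T using Finset.induction_on generalizing N' N'' with
  | empty => rw [eps_empty]; exact Int.natCast_nonneg _
  | insert i T hi ih =>
    have hi' := Finset.mem_insert_self i T
    refine noeth_ind h.1 h.2.1 (fun A => 0 ≤ eps y (insert i T) A N'') fun A h1 h2 h3 => ?_
    have hA := h.sub h1 h2 le_rfl
    have hk := hA.erase_ker hi'
    rcases hk.1.eq_or_lt with e | e
    · have hq := hA.erase_quot hi'
      rw [eps_erase hA hi', ← e, eps_self, sub_zero]
      rw [Finset.erase_insert hi] at hq ⊢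
      exact ih hq
    · rw [eps_add hA hk.1 inf_le_left, eps_eq_zero_of_erase hi' hk, zero_add]
      exact h3 _ e inf_le_left

theorem KHyp.rl_ne_top {N' N'' : Submodule S M} (h : KHyp y T N' N'') :
    rl (lenF S) (N' ⊔ Ideal.span (y '' T) • N'') N'' ≠ ⊤ := by
  have h1 := h.sub (le_sup_left : N' ≤ N' ⊔ Ideal.span (y '' T) • N'')
    (sup_le h.1 Submodule.smul_le_right) le_rfl
  obtain ⟨-, -, t, ht⟩ := h
  refine rl_ne_top_of_fg h1.2.1 t ((Submodule.smul_mono_left ht).trans ?_)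
  rw [Submodule.sup_smul]
  exact sup_le le_sup_right (Submodule.smul_le.2 fun z hz m hm =>
    Submodule.mem_sup_left (Submodule.mem_colon.1 hz m hm))

theorem eps_le {N' N'' : Submodule S M} (h : KHyp y T N' N'') :
    eps y T N' N'' ≤ ((rl (lenF S) (N' ⊔ Ideal.span (y '' T) • N'') N'').toNat : ℤ) := by
  induction T using Finset.induction_on generalizing N' N'' with
  | empty => rw [eps_empty]; simp
  | insert i T hi ih =>
    have hi' := Finset.mem_insert_self i T
    have hq := h.erase_quot hi'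
    have hk := eps_nonneg (h.erase_ker hi')
    rw [eps_erase h hi']
    rw [Finset.erase_insert hi] at hq hk ⊢
    have h1 := ih hq
    have h2 : N' ⊔ Ideal.span (y '' (insert i T : Finset (Fin d))) • N''
        = N' ⊔ N''.map (LinearMap.lsmul S M (y i)) ⊔ Ideal.span (y '' T) • N'' := by
      rw [Finset.coe_insert, Set.image_insert_eq, Ideal.span_insert, Submodule.sup_smul, sup_assoc,
        Submodule.ideal_span_singleton_smul]
      rfl
    rw [h2]
    linarith

theorem KHyp.of_pow {N' N'' : Submodule S M} (h : KHyp y T N' N'') {y' : Fin d → S}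
    (hy : ∀ i ∈ T, ∃ k : ℕ, y' i = y i ^ k) : KHyp y' T N' N'' := by
  obtain ⟨hle, hfg, t, ht⟩ := h
  refine ⟨hle, hfg, Ideal.exists_pow_le_of_le_radical_of_fg ?_ (IsNoetherian.noetherian _)⟩
  have h1 : Ideal.span (y '' T) ⊔ N'.colon N'' ≤ (Ideal.span (y' '' T) ⊔ N'.colon N'').radical := by
    refine sup_le (Ideal.span_le.2 ?_) (le_sup_right.trans Ideal.le_radical)
    rintro _ ⟨i, hi, rfl⟩
    obtain ⟨k, hk⟩ := hy i hi
    exact ⟨k, Submodule.mem_sup_left (Ideal.subset_span ⟨i, hi, hk⟩)⟩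
  intro z hz
  exact Ideal.mem_radical_of_pow_mem (h1 (ht (Ideal.pow_mem_pow hz t)))

theorem KHyp.pow {N' N'' : Submodule S M} (h : KHyp y T N' N'') (n : ℕ) :
    KHyp (fun i => y i ^ n) T N' N'' := by
  exact h.of_pow fun i _ => ⟨n, rfl⟩

theorem eps_quot_pow {A N'' : Submodule S M} (z : S)
    (hK : ∀ n, KHyp y T (A ⊔ N''.map (LinearMap.lsmul S M (z ^ n))) N'')
    (hinj : ∀ m ∈ N'', z • m ∈ A → m ∈ A) (n : ℕ) :
    eps y T (A ⊔ N''.map (LinearMap.lsmul S M (z ^ n))) N''
      = n * eps y T (A ⊔ N''.map (LinearMap.lsmul S M z)) N'' := by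
  have hA : A ≤ N'' := le_sup_left.trans (hK 0).1
  have hinj' : ∀ n, ∀ m ∈ N'', z ^ n • m ∈ A → m ∈ A := by
    intro n
    induction n with
    | zero => simp
    | succ n ih =>
      intro m hm h
      rw [pow_succ, mul_smul] at h
      exact hinj m hm (ih _ (N''.smul_mem _ hm) h)
  induction n with
  | zero =>
    have : A ⊔ N''.map (LinearMap.lsmul S M (z ^ 0)) = N'' :=
      le_antisymm (hK 0).1 fun m hm => Submodule.mem_sup_right ⟨m, hm, by simp⟩
    rw [this, eps_self]; simp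
  | succ n ih =>
    have l1 : A ⊔ N''.map (LinearMap.lsmul S M (z ^ (n + 1)))
        ≤ A ⊔ N''.map (LinearMap.lsmul S M (z ^ n)) := by
      refine sup_le_sup_left ?_ _
      rintro _ ⟨m, hm, rfl⟩
      exact ⟨z • m, N''.smul_mem _ hm, by simp only [LinearMap.lsmul_apply, pow_succ, mul_smul]⟩
    rw [eps_add (hK (n + 1)) l1 (hK n).1, ih,
      ← eps_map (LinearMap.lsmul S M (z ^ n)) (N' := A ⊔ N''.map (LinearMap.lsmul S M z))
        (N'' := N'') ?_ ?_]
    · push_cast; ring
    · exact le_antisymm (sup_le le_sup_right l1)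
        (sup_le (le_sup_left.trans le_sup_right) le_sup_left)
    · refine le_antisymm ?_ (le_inf (sup_le hA (map_lsmul_le _ _)) (sup_le ?_ ?_))
      · rintro m ⟨hm, h⟩
        obtain ⟨a, ha, _, ⟨m', hm', rfl⟩, e⟩ := Submodule.mem_sup.1 h
        have h1 : m - z • m' ∈ A := by
          refine hinj' n _ (sub_mem hm (N''.smul_mem _ hm')) ?_
          simp only [LinearMap.lsmul_apply] at e
          rw [smul_sub, ← e, smul_smul, ← pow_succ, add_sub_cancel_right]
          exact ha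
        exact Submodule.mem_sup.2 ⟨_, h1, _, ⟨m', hm', rfl⟩, by simp⟩
      · exact fun a ha => Submodule.mem_sup_left (A.smul_mem _ ha)
      · rintro _ ⟨m, hm, rfl⟩
        exact Submodule.mem_sup_right ⟨m, hm, by simp only [LinearMap.lsmul_apply, pow_succ, mul_smul]⟩

theorem eps_update_pow {N' N'' : Submodule S M} (h : KHyp y T N' N'') {i : Fin d} (hi : i ∈ T)
    (n : ℕ) : eps (Function.update y i (y i ^ n)) T N' N'' = n * eps y T N' N'' := by
  have hc : ∀ n, ∀ j ∈ T.erase i, Function.update y i (y i ^ n) j = y j :=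
    fun n j hj => Function.update_of_ne (Finset.ne_of_mem_erase hj) _ _
  have hp : ∀ n (U : Finset (Fin d)), ∀ j ∈ U, ∃ k : ℕ,
      Function.update y i (y i ^ n) j = y j ^ k := by
    intro n U j _
    by_cases e : j = i
    · exact ⟨n, by rw [e, Function.update_self]⟩
    · exact ⟨1, by rw [Function.update_of_ne e, pow_one]⟩
  refine noeth_ind h.1 h.2.1 (fun A => eps (Function.update y i (y i ^ n)) T A N''
    = n * eps y T A N'') fun A h1 h2 h3 => ?_
  have hA := h.sub h1 h2 le_rfl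
  have hk := hA.erase_ker hi
  rcases hk.1.eq_or_lt with e | e
  · have hinj : ∀ m ∈ N'', y i • m ∈ A → m ∈ A := fun m hm h' => e.ge ⟨hm, h'⟩
    have hinj' : ∀ n, ∀ m ∈ N'', y i ^ n • m ∈ A → m ∈ A := by
      intro n
      induction n with
      | zero => simp
      | succ n ih =>
        intro m hm h
        rw [pow_succ, mul_smul] at h
        exact hinj m hm (ih _ (N''.smul_mem _ hm) h)
    have e' : N'' ⊓ A.comap (LinearMap.lsmul S M (y i ^ n)) = A :=
      le_antisymm (fun m hm => hinj' n m hm.1 hm.2) (le_inf h2 (le_comap_lsmul _ _))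
    rw [eps_erase hA hi, eps_erase (hA.of_pow (hp n T)) hi, ← e, Function.update_self, e',
      eps_self, eps_self, sub_zero, sub_zero, eps_congr (hc n)]
    refine eps_quot_pow (y i) (fun k => ?_) hinj n
    have := (hA.of_pow (hp k T)).erase_quot hi
    rw [Function.update_self] at this
    exact this.of_pow fun j hj => ⟨1, by rw [hc k j hj, pow_one]⟩
  · rw [eps_add hA hk.1 inf_le_left, eps_add (hA.of_pow (hp n T)) hk.1 inf_le_left,
      eps_eq_zero_of_erase hi hk, eps_eq_zero_of_erase hi (hk.of_pow (hp n _)), zero_add, zero_add]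
    exact h3 _ e inf_le_left

theorem eps_pow {N' N'' : Submodule S M} (h : KHyp y T N' N'') (n : ℕ) :
    eps (fun i => y i ^ n) T N' N'' = (n : ℤ) ^ T.card * eps y T N' N'' := by
  have key : ∀ U : Finset (Fin d), U ⊆ T → eps (fun i => if i ∈ U then y i ^ n else y i) T N' N''
      = (n : ℤ) ^ U.card * eps y T N' N'' := by
    intro U
    induction U using Finset.induction_on with
    | empty => simp
    | insert j U hj ih =>
      intro hU
      have h1 : KHyp (fun i => if i ∈ U then y i ^ n else y i) T N' N'' := h.of_pow fun i _ => by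
        split_ifs
        · exact ⟨n, rfl⟩
        · exact ⟨1, (pow_one _).symm⟩
      have h2 := eps_update_pow h1 (hU (Finset.mem_insert_self _ _)) n
      rw [ih ((Finset.subset_insert _ _).trans hU)] at h2
      rw [Finset.card_insert_of_notMem hj, pow_succ', mul_assoc, ← h2]
      refine eps_congr (fun i _ => ?_) _ _
      by_cases e : i = j
      · subst e; simp [hj]
      · simp [e]
  rw [← key T Finset.Subset.rfl]
  exact eps_congr (fun i hi => (if_pos hi).symm) _ _

/-- If the lengths modulo `y_i ^ n` are at most `a n^d + C n^(d-1)` then `eps ≤ a`. -/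
theorem eps_le_of_growth {N' N'' : Submodule S M} (h : KHyp y Finset.univ N' N'') (a C : ℕ)
    (hC : ∀ n : ℕ, rl (lenF S) (N' ⊔ Ideal.span (Set.range fun i => y i ^ n) • N'') N'' * n ≤
      a * (n : ℕ∞) ^ (d + 1) + C * (n : ℕ∞) ^ d) :
    eps y Finset.univ N' N'' ≤ a := by
  have h1 := eps_le (h.pow (C + 1))
  have h2 := (h.pow (C + 1)).rl_ne_top
  have h3 := hC (C + 1)
  rw [eps_pow h, Finset.card_univ, Fintype.card_fin] at h1
  rw [Finset.coe_univ, Set.image_univ] at h1 h2
  obtain ⟨l, hl⟩ := ENat.ne_top_iff_exists.1 h2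
  rw [← hl] at h1 h3
  have h4 : l * (C + 1) ≤ a * (C + 1) ^ (d + 1) + C * (C + 1) ^ d := by exact_mod_cast h3
  have h5 : (l : ℤ) * (C + 1) ≤ a * (C + 1) ^ (d + 1) + C * (C + 1) ^ d := by exact_mod_cast h4
  simp only [ENat.toNat_natCast] at h1
  push_cast at h1
  by_contra h6
  have h7 : (a : ℤ) + 1 ≤ eps y Finset.univ N' N'' := by omega
  have h8 : (0 : ℤ) < (C + 1) ^ d := by positivity
  have h9 : (0 : ℤ) ≤ C := Int.natCast_nonneg _
  rw [pow_succ] at h5
  generalize ((C : ℤ) + 1) ^ d = X at h1 h5 h8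
  have h10 : X * (a + 1) ≤ l := (mul_le_mul_of_nonneg_left h7 h8.le).trans h1
  nlinarith

/-- Invariance under passing to a quotient ring. -/
theorem eps_quotient (J : Ideal S) [IsLocalRing (S ⧸ J)] :
    eps y T (J : Submodule S S) ⊤ =
      eps (fun i => Ideal.Quotient.mk J (y i)) T (⊥ : Submodule (S ⧸ J) (S ⧸ J)) ⊤ := by
  rw [eps_map (Submodule.mkQ J) (L' := ⊥) (L'' := ⊤) (by simp) (by simp)]
  have h1 : kd y (S ⧸ J) = (kd (fun i => Ideal.Quotient.mk J (y i)) (S ⧸ J)).restrictScalars S := by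
    refine LinearMap.ext fun ξ => funext fun A => ?_
    rw [LinearMap.restrictScalars_apply, kd_apply, kd_apply]
    refine Finset.sum_congr rfl fun i _ => ?_
    rw [← map_intCast (Ideal.Quotient.mk J), ← map_mul]
    rfl
  have h2 : ∀ N : Submodule (S ⧸ J) (S ⧸ J), Kos T (N.restrictScalars S)
      = fun n => (Kos T N n).restrictScalars S := by
    intro N
    funext n
    ext ξ
    rw [Submodule.restrictScalars_mem, mem_kos, mem_kos]
    rfl
  have h3 := hh_restrictScalars_of_surjective (R0 := S)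
    (d := kd (fun i => Ideal.Quotient.mk J (y i)) (S ⧸ J))
    (F' := Kos T (⊥ : Submodule (S ⧸ J) (S ⧸ J))) (F'' := Kos T ⊤) Ideal.Quotient.mk_surjective
  simp only [← h1, ← h2, Submodule.restrictScalars_bot, Submodule.restrictScalars_top] at h3
  simp only [eps, chi]
  exact finsum_congr fun n => by rw [← h3 n]

end Vale.Agent.P202
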