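import Vale.Agent.P202.HSAux

/-! Hilbert-Samuel asymptotics from a composition chain. -/

namespace Vale.Agent.P202

open MvPolynomial IsLocalRing Filter Topology

universe u

variable {R : Type u} [CommRing R] [IsNoetherianRing R] [IsLocalRing R] {d : ℕ}

theorem length_quot_pow_ne_top {I : Ideal R} {t : ℕ} (ht : maximalIdeal R ^ t ≤ I) (n : ℕ) :
    Module.length R (R ⧸ I ^ n) ≠ ⊤ := by
  have h := rl_ne_top_of_fg (S := R) (E := R) (A := (I ^ n : Ideal R)) (B := ⊤)
    (IsNoetherian.noetherian _) (t * n) (by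
      rw [Ideal.smul_eq_mul, Ideal.mul_top, pow_mul]
      exact Ideal.pow_right_mono ht n)
  rwa [rl_top] at h

theorem exists_chain (x : Fin d → R) {t : ℕ} (ht : maximalIdeal R ^ t ≤ Ideal.span (Set.range x)) :
    ∃ (r : ℕ) (a : ℕ → Ideal R) (f : ℕ → R), IsChain x r a f := by
  have key : ∀ (k : ℕ) (A : Ideal R), rl (lenF R) A ⊤ = k →
      ∃ (r : ℕ) (a : ℕ → Ideal R) (f : ℕ → R), a 0 = A ∧ a r = ⊤ ∧
        (∀ i < r, a (i + 1) = a i ⊔ Ideal.span {f i}) ∧
        ∀ i < r, ∀ z ∈ maximalIdeal R, z * f i ∈ a i := by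
    intro k
    induction k with
    | zero =>
      intro A hA
      have h1 : (⊤ : Ideal R) ≤ A := rl_lenF_eq_zero_iff.1 (by simpa using hA)
      exact ⟨0, fun _ => A, fun _ => 0, rfl, top_le_iff.1 h1, by simp, by simp⟩
    | succ k ih =>
      intro A hA
      have hne : A < ⊤ := by
        rw [lt_top_iff_ne_top]
        rintro rfl
        rw [rl_eq_zero_of_le _ le_rfl] at hA
        exact absurd hA.symm (by simp)
      obtain ⟨v, -, -, hv, hv1⟩ := exists_simple_step hne (by rw [hA]; exact ENat.natCast_ne_top _)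
      have h2 := rl_add (lenF R) (le_sup_left : A ≤ A ⊔ Submodule.span R {v}) le_top
      rw [hv1, hA, Nat.cast_succ, add_comm (1 : ℕ∞)] at h2
      obtain ⟨r, a, f, h0, hr, hs, hk⟩ := ih (A ⊔ Submodule.span R {v})
        ((ENat.add_left_injective_of_ne_top ENat.one_ne_top h2).symm)
      refine ⟨r + 1, fun i => Nat.casesOn i A a, fun i => Nat.casesOn i v f, rfl, hr, ?_, ?_⟩
      · intro i hi
        cases i with
        | zero => exact h0
        | succ i => exact hs i (by omega)
      · intro i hi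
        cases i with
        | zero => exact hv
        | succ i => exact hk i (by omega)
  have hne := length_quot_pow_ne_top ht 1
  rw [pow_one] at hne
  obtain ⟨k, hk⟩ := ENat.ne_top_iff_exists.1 hne
  obtain ⟨r, a, f, h0, hr, hs, hk⟩ := key k (Ideal.span (Set.range x))
    (by rw [rl_top]; exact hk.symm)
  exact ⟨r, a, f, h0, hr, hs, hk⟩

/-- Length of a free step. -/
theorem rl_step_free (x : Fin (d + 1) → R) (a : Ideal R) (f : R)
    (hk : ∀ z ∈ maximalIdeal R, z * f ∈ a)
    (hfree : StepI x a f ≤ (maximalIdeal R).map (C : R →+* MvPolynomial (Fin (d + 1)) R)) (s : ℕ) :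
    rl (lenF R) (a * Ideal.span (Set.range x) ^ s : Ideal R)
      ((a ⊔ Ideal.span {f}) * Ideal.span (Set.range x) ^ s : Ideal R) = (s + d).choose d := by
  rw [hs_step, le_antisymm hfree (map_C_le_StepI hk), hs_rl_max]

/-- Length of a torsion step. -/
theorem rl_step_tors (x : Fin (d + 1) → R) (a : Ideal R) (f : R)
    (hk : ∀ z ∈ maximalIdeal R, z * f ∈ a)
    (hfree : ¬ StepI x a f ≤ (maximalIdeal R).map (C : R →+* MvPolynomial (Fin (d + 1)) R)) :
    ∃ C : ℕ, ∀ s : ℕ, rl (lenF R) (a * Ideal.span (Set.range x) ^ s : Ideal R)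
      ((a ⊔ Ideal.span {f}) * Ideal.span (Set.range x) ^ s : Ideal R) * (s + 1) ≤
        C * ((s : ℕ∞) + 1) ^ d := by
  obtain ⟨γ, w, hw, h1, h2⟩ := hs_step_tors x a f hk hfree
  obtain ⟨C, hC⟩ := hs_tors_pointwise d γ w h1 h2
  refine ⟨C, fun s => ?_⟩
  rw [hw]
  exact_mod_cast hC s

theorem tendsto_HS {x : Fin (d + 1) → R} {r : ℕ} {a : ℕ → Ideal R} {f : ℕ → R}
    (h : IsChain x r a f) :
    Tendsto (HS R (Ideal.span (Set.range x)) (d + 1)) atTop (𝓝 (eChain x r a f : ℝ)) := by
  classical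
  set I := Ideal.span (Set.range x) with hI
  have key : ∀ i, ∃ w : ℕ → ℕ, i < r →
      (∀ s, rl (lenF R) (a i * I ^ s : Ideal R) (a (i + 1) * I ^ s : Ideal R) = w s) ∧
      Tendsto (fun n : ℕ => ((d + 1).factorial : ℝ) * ((∑ s ∈ Finset.range n, w s : ℕ) : ℝ) /
        (n : ℝ) ^ (d + 1)) atTop (𝓝 (if StepI x (a i) (f i) ≤
          (maximalIdeal R).map (C : R →+* MvPolynomial (Fin (d + 1)) R) then 1 else 0)) := by
    intro i
    by_cases hi : i < r
    swap
    · exact ⟨0, fun h' => absurd h' hi⟩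
    by_cases hfree : StepI x (a i) (f i) ≤
        (maximalIdeal R).map (C : R →+* MvPolynomial (Fin (d + 1)) R)
    · refine ⟨fun s => (s + d).choose d, fun _ => ⟨fun s => ?_, ?_⟩⟩
      · rw [h.step i hi]
        exact rl_step_free x _ _ (h.kill i hi) hfree s
      · rw [if_pos hfree]
        simp only [hs_sum_choose]
        exact hs_tendsto_main d
    · obtain ⟨γ, w, hw, h1, h2⟩ := hs_step_tors x (a i) (f i) (h.kill i hi) hfree
      refine ⟨w, fun _ => ⟨fun s => ?_, ?_⟩⟩
      · rw [h.step i hi]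
        exact hw s
      · rw [if_neg hfree]
        have h3 := (hs_tendsto_err d).const_mul (((d + 1).factorial : ℝ) * γ)
        rw [mul_zero] at h3
        refine tendsto_of_tendsto_of_tendsto_of_le_of_le tendsto_const_nhds h3
          (fun n => by positivity) fun n => ?_
        have h4 := hs_tors_sum d γ w h1 h2 n
        simp only
        rw [← mul_div_assoc, mul_assoc]
        refine div_le_div_of_nonneg_right ?_ (by positivity)
        refine mul_le_mul_of_nonneg_left ?_ (by positivity)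
        exact_mod_cast h4
  choose w hw using key
  have hlen : ∀ n : ℕ, Module.length R (R ⧸ I ^ n) =
      ((∑ i ∈ Finset.range r, ∑ s ∈ Finset.range n, w i s : ℕ) : ℕ∞) := by
    intro n
    have h1 := hs_rl_down (lenF R) (fun s => (I ^ s : Ideal R))
      (fun s => Ideal.pow_le_pow_right (Nat.le_succ s)) n
    simp only [pow_zero, Ideal.one_eq_top] at h1
    rw [rl_top] at h1
    change Module.length R (R ⧸ I ^ n) = _ at h1
    rw [h1, Finset.sum_comm]
    push_cast
    refine Finset.sum_congr rfl fun s _ => ?_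
    have h2 := rl_chain (lenF R) (fun i => (a i * I ^ s : Ideal R)) r (fun i hi => by
      rw [h.step i hi]
      exact Ideal.mul_mono_left le_sup_left)
    simp only [h.zero, h.last, Ideal.top_mul] at h2
    rw [pow_succ', h2]
    exact Finset.sum_congr rfl fun i hi => (hw i (Finset.mem_range.1 hi)).1 s
  have h5 := tendsto_finsetSum (Finset.range r) fun i hi => (hw i (Finset.mem_range.1 hi)).2
  have h6 : (eChain x r a f : ℝ) = ∑ i ∈ Finset.range r, if StepI x (a i) (f i) ≤
      (maximalIdeal R).map (C : R →+* MvPolynomial (Fin (d + 1)) R) then (1 : ℝ) else 0 := by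
    unfold eChain
    rw [Finset.card_filter]
    push_cast
    rfl
  rw [h6]
  refine h5.congr fun n => ?_
  unfold HS
  rw [hlen, ENat.toNat_natCast, ← Finset.sum_div, ← Finset.mul_sum, Nat.cast_sum (Finset.range r)]

/-- Lech's bound for the ideals generated by powers of the generators. -/
theorem length_frob_le {x : Fin (d + 1) → R} {r : ℕ} {a : ℕ → Ideal R} {f : ℕ → R}
    (h : IsChain x r a f) :
    ∃ C : ℕ, ∀ n : ℕ, Module.length R (R ⧸ Ideal.span (Set.range fun i => x i ^ n)) * n ≤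
      eChain x r a f * (n : ℕ∞) ^ (d + 2) + C * (n : ℕ∞) ^ (d + 1) := by
  classical
  set I := Ideal.span (Set.range x) with hI
  have key : ∀ i, ∃ C : ℕ, i < r → ∀ n : ℕ, 0 < n →
      ∑ s ∈ Finset.range ((d + 1) * n),
        rl (lenF R) (Ideal.span (Set.range fun j => x j ^ n) ⊔ a i * I ^ s : Ideal R)
          (Ideal.span (Set.range fun j => x j ^ n) ⊔ a (i + 1) * I ^ s : Ideal R) ≤
        (((if StepI x (a i) (f i) ≤
          (maximalIdeal R).map (MvPolynomial.C : R →+* MvPolynomial (Fin (d + 1)) R)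
            then 1 else 0) * n ^ (d + 1) + C * n ^ d : ℕ) : ℕ∞) := by
    intro i
    by_cases hi : i < r
    swap
    · exact ⟨0, fun h' => absurd h' hi⟩
    by_cases hfree : StepI x (a i) (f i) ≤
        (maximalIdeal R).map (C : R →+* MvPolynomial (Fin (d + 1)) R)
    · refine ⟨0, fun _ n _ => ?_⟩
      rw [if_pos hfree, h.step i hi]
      refine (Finset.sum_le_sum fun s _ => hs_frob_step x (a i) (f i) (h.kill i hi) n s).trans ?_
      have h1 := hs_frob_sum (d + 1) n ((d + 1) * n)
      rw [one_mul, zero_mul, add_zero]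
      exact_mod_cast h1
    · obtain ⟨γ, w, hw, h1, h2⟩ := hs_step_tors x (a i) (f i) (h.kill i hi) hfree
      refine ⟨γ * ((d + 1) ^ d * (d + 2) ^ d), fun _ n hn => ?_⟩
      rw [if_neg hfree, h.step i hi, zero_mul, zero_add]
      have h3 : ∀ s, rl (lenF R)
          (Ideal.span (Set.range fun j => x j ^ n) ⊔ a i * I ^ s : Ideal R)
          (Ideal.span (Set.range fun j => x j ^ n) ⊔ (a i ⊔ Ideal.span {f i}) * I ^ s : Ideal R) ≤
          w s := by
        intro s
        rw [← hw s]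
        refine (rl_sup_le _ _ _ _).trans ?_
        rw [rl_eq_zero_of_le _ le_sup_left, zero_add]
        exact rl_anti_left _ le_sup_right _
      refine (Finset.sum_le_sum fun s _ => h3 s).trans ?_
      have h4 := hs_tors_sum d γ w h1 h2 ((d + 1) * n)
      have h5 := hs_choose_le d ((d + 1) * n)
      have h6 : ((d + 1) * n + 1) ^ d ≤ (d + 2) ^ d * n ^ d := by
        rw [← mul_pow]
        exact Nat.pow_le_pow_left (by nlinarith) d
      have h7 : ∑ s ∈ Finset.range ((d + 1) * n), w s ≤ γ * ((d + 1) ^ d * (d + 2) ^ d) * n ^ d := by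
        refine h4.trans ?_
        rw [mul_assoc, mul_assoc]
        exact Nat.mul_le_mul_left _ (h5.trans (Nat.mul_le_mul_left _ h6))
      exact_mod_cast h7
  choose C hC using key
  refine ⟨∑ i ∈ Finset.range r, C i, fun n => ?_⟩
  rcases Nat.eq_zero_or_pos n with rfl | hn
  · simp
  set J := Ideal.span (Set.range fun j => x j ^ n) with hJ
  have h1 := hs_rl_down_le (lenF R) (fun s => (J ⊔ I ^ s : Ideal R)) ((d + 1) * n)
  simp only [pow_zero, Ideal.one_eq_top, sup_top_eq] at h1
  rw [sup_eq_left.2 (hs_pow_le_frob x n), rl_top] at h1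
  change Module.length R (R ⧸ J) ≤ _ at h1
  have h2 : ∀ s, rl (lenF R) (J ⊔ I ^ (s + 1) : Ideal R) (J ⊔ I ^ s : Ideal R) ≤
      ∑ i ∈ Finset.range r, rl (lenF R) (J ⊔ a i * I ^ s : Ideal R)
        (J ⊔ a (i + 1) * I ^ s : Ideal R) := by
    intro s
    have h3 := hs_rl_up_le (lenF R) (fun i => (J ⊔ a i * I ^ s : Ideal R)) r
    simp only [h.zero, h.last, Ideal.top_mul] at h3
    rw [pow_succ']
    exact h3
  have h4 := h1.trans (Finset.sum_le_sum fun s _ => h2 s)
  rw [Finset.sum_comm] at h4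
  have h5 := h4.trans (Finset.sum_le_sum fun i hi => hC i (Finset.mem_range.1 hi) n hn)
  rw [← Nat.cast_sum, Finset.sum_add_distrib, ← Finset.sum_mul, ← Finset.sum_mul,
    ← Finset.card_filter] at h5
  refine (mul_le_mul_left h5 _).trans (le_of_eq ?_)
  unfold eChain
  push_cast
  ring

theorem x_ne_zero_of_eChain_pos {x : Fin d → R} {r : ℕ} {a : ℕ → Ideal R} {f : ℕ → R}
    (h : IsChain x r a f) (he : 0 < eChain x r a f) (i : Fin d) : x i ≠ 0 := by
  classical
  intro hx
  obtain ⟨j, hj⟩ := Finset.card_pos.1 he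
  have h1 := (Finset.mem_filter.1 hj).2
  have h2 : (X i : MvPolynomial (Fin d) R) ∈ StepI x (a j) (f j) := by
    rw [mem_StepI (isHomogeneous_X R i), eval_X, hx, mul_zero]
    exact Submodule.zero_mem _
  have h3 := mem_map_C_iff.1 (h1 h2) (Finsupp.single i 1)
  rw [coeff_X, if_pos rfl] at h3
  exact (maximalIdeal.isMaximal R).ne_top ((Ideal.eq_top_iff_one _).2 h3)

theorem length_pow_succ_le (x : Fin (d + 1) → R) (s : ℕ) :
    rl (lenF R) (Ideal.span (Set.range x) ^ (s + 1) : Ideal R)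
        (Ideal.span (Set.range x) ^ s : Ideal R) ≤
      Module.length R (R ⧸ Ideal.span (Set.range x)) * (s + d).choose d := by
  have h := hs_step x (Ideal.span (Set.range x)) 1 s
  rw [Ideal.span_singleton_one, sup_top_eq, Ideal.top_mul, ← pow_succ'] at h
  rw [h, mul_comm, ← hs_rl_homog]
  refine rl_anti_left _ ?_ _
  intro v hv
  rw [Submodule.restrictScalars_mem] at hv ⊢
  unfold StepI
  rw [Submodule.mem_colon_singleton, map_one, smul_eq_mul, mul_one]
  exact Submodule.mem_sup_right hv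

theorem grow_of_isDomain [IsDomain R] (x : Fin (d + 1) → R) (hx : ∀ i, x i ∈ maximalIdeal R)
    {t : ℕ} (ht : maximalIdeal R ^ t ≤ Ideal.span (Set.range x)) : Grow R (d + 1) := by
  intro c hc
  set I := Ideal.span (Set.range x) with hI
  have hIm : I ≤ maximalIdeal R := Ideal.span_le.2 (by rintro _ ⟨i, rfl⟩; exact hx i)
  obtain ⟨k, hk⟩ := Ideal.exists_pow_inf_eq_pow_smul I (Ideal.span {c} : Ideal R)
  have hne := length_quot_pow_ne_top ht 1
  rw [pow_one] at hne
  obtain ⟨l, hl⟩ := ENat.ne_top_iff_exists.1 hne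
  refine ⟨k * (l * ((d + 1) ^ d * 2 ^ d)), fun j => ?_⟩
  rcases Nat.eq_zero_or_pos j with rfl | hj
  · simp
  have h1 : Submodule.comap (LinearMap.mulLeft R c) (I ^ j : Ideal R) ≤ (I ^ (j - k) : Ideal R) := by
    intro z hz
    rcases lt_or_ge j k with hjk | hjk
    · rw [show j - k = 0 by omega, pow_zero, Ideal.one_eq_top]
      trivial
    · have h2 : c * z ∈ (I ^ j • ⊤ ⊓ Ideal.span {c} : Ideal R) := by
        refine ⟨?_, Ideal.mul_mem_right _ _ (Ideal.mem_span_singleton_self c)⟩
        rw [Ideal.smul_eq_mul, Ideal.mul_top]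
        exact hz
      rw [hk j hjk] at h2
      have h3 : c * z ∈ (Ideal.span {c} * I ^ (j - k) : Ideal R) := by
        rw [mul_comm (Ideal.span {c})]
        exact Submodule.smul_mono le_rfl inf_le_right h2
      obtain ⟨w, hw, hw'⟩ := Ideal.mem_span_singleton_mul.1 h3
      rw [← mul_left_cancel₀ hc hw']
      exact hw
  have h2 : (⊤ : Submodule R R).map (LinearMap.mulLeft R c) = (Ideal.span {c} : Ideal R) := by
    ext z
    rw [Submodule.mem_map]
    change _ ↔ z ∈ (Ideal.span {c} : Ideal R)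
    rw [Ideal.mem_span_singleton]
    constructor
    · rintro ⟨w, -, rfl⟩; exact ⟨w, rfl⟩
    · rintro ⟨w, rfl⟩; exact ⟨w, trivial, rfl⟩
  have h3 : rl (lenF R) (I ^ (j - k) : Ideal R) ⊤ ≤
      rl (lenF R) (I ^ j : Ideal R) (I ^ j ⊔ Ideal.span {c} : Ideal R) := by
    rw [rl_sup, ← h2, ← rl_map]
    exact rl_anti_left _ h1 _
  have h4 := rl_add (lenF R) (le_sup_left : (I ^ j : Ideal R) ≤ I ^ j ⊔ Ideal.span {c}) le_top
  have h5 := rl_add (lenF R) (Ideal.pow_le_pow_right (Nat.sub_le j k) : (I ^ j : Ideal R) ≤ _) le_top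
  have h6 : rl (lenF R) (I ^ (j - k) : Ideal R) ⊤ ≠ ⊤ := by
    rw [rl_top]; exact length_quot_pow_ne_top ht _
  have h7 : rl (lenF R) (I ^ j ⊔ Ideal.span {c} : Ideal R) ⊤ ≤
      rl (lenF R) (I ^ j : Ideal R) (I ^ (j - k) : Ideal R) := by
    rw [← ENat.add_le_add_iff_right h6, ← h5, h4, add_comm]
    exact add_le_add h3 le_rfl
  have h8 := hs_rl_down_le (lenF R) (fun s => (I ^ (j - k + s) : Ideal R)) (j - (j - k))
  simp only [add_zero] at h8
  rw [show j - k + (j - (j - k)) = j by omega] at h8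
  have h9 : ∀ s ∈ Finset.range (j - (j - k)),
      rl (lenF R) (I ^ (j - k + (s + 1)) : Ideal R) (I ^ (j - k + s) : Ideal R) ≤
      ((l * ((d + 1) ^ d * 2 ^ d) * j ^ d : ℕ) : ℕ∞) := by
    intro s hs
    refine (length_pow_succ_le x (j - k + s)).trans ?_
    rw [← hl]
    have hs' := Finset.mem_range.1 hs
    have h10 := (hs_choose_mono d (show j - k + s ≤ j by omega)).trans (hs_choose_le d j)
    have h11 : (j + 1) ^ d ≤ 2 ^ d * j ^ d := by
      rw [← mul_pow]
      exact Nat.pow_le_pow_left (by omega) d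
    have h12 : l * (j - k + s + d).choose d ≤ l * ((d + 1) ^ d * 2 ^ d) * j ^ d := by
      rw [mul_assoc, mul_assoc]
      exact Nat.mul_le_mul_left _ (h10.trans (Nat.mul_le_mul_left _ h11))
    exact_mod_cast h12
  have h13 := (h7.trans h8).trans (Finset.sum_le_card_nsmul _ _ _ h9)
  rw [Finset.card_range] at h13
  have h14 : Module.length R (R ⧸ (Ideal.span {c} ⊔ maximalIdeal R ^ j)) ≤
      ((k * (l * ((d + 1) ^ d * 2 ^ d) * j ^ d) : ℕ) : ℕ∞) := by
    have h15 := rl_top (lenF R) (Ideal.span {c} ⊔ maximalIdeal R ^ j : Ideal R)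
    change _ = Module.length R (R ⧸ (Ideal.span {c} ⊔ maximalIdeal R ^ j)) at h15
    rw [← h15]
    refine (rl_anti_left _ ?_ _).trans (h13.trans ?_)
    · rw [sup_comm]
      exact sup_le_sup_left (Ideal.pow_right_mono hIm j) _
    · rw [nsmul_eq_mul, ← Nat.cast_mul]
      exact_mod_cast Nat.mul_le_mul_right _ (by omega)
  refine (mul_le_mul_left h14 _).trans (le_of_eq ?_)
  push_cast
  ring

/-- A reduction has the same multiplicity. -/
theorem tendsto_HS_of_reduction {I J : Ideal R} (hIJ : I ≤ J) {n0 : ℕ}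
    (hred : J ^ (n0 + 1) ≤ I * J ^ n0) {t : ℕ} (ht : maximalIdeal R ^ t ≤ I) {e : ℝ}
    (h : Tendsto (HS R I d) atTop (𝓝 e)) : Tendsto (HS R J d) atTop (𝓝 e) := by
  have h1 : ∀ n, J ^ (n0 + n) ≤ I ^ n * J ^ n0 := by
    intro n
    induction n with
    | zero => simp
    | succ n ih =>
      calc J ^ (n0 + (n + 1)) = J ^ (n0 + n) * J := by rw [← add_assoc, pow_succ]
        _ ≤ I ^ n * J ^ n0 * J := Ideal.mul_mono_left ih
        _ = I ^ n * J ^ (n0 + 1) := by rw [mul_assoc, ← pow_succ]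
        _ ≤ I ^ n * (I * J ^ n0) := Ideal.mul_mono_right hred
        _ = I ^ (n + 1) * J ^ n0 := by rw [← mul_assoc, ← pow_succ]
  have hle : ∀ {A B : Ideal R}, A ≤ B → Module.length R (R ⧸ A) ≠ ⊤ →
      ((Module.length R (R ⧸ B)).toNat : ℝ) ≤ (Module.length R (R ⧸ A)).toNat := by
    intro A B hAB hA
    have h2 := rl_anti_left (lenF R) hAB ⊤
    rw [rl_top, rl_top] at h2
    exact_mod_cast ENat.toNat_le_toNat h2 hA
  have h3 : Tendsto (fun n : ℕ => HS R I d (n - n0) * (((n : ℝ) + -n0) / n) ^ d) atTop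
      (𝓝 (e * 1)) :=
    (h.comp (tendsto_sub_atTop_nat n0)).mul (hs_tendsto_ratio (-n0) d)
  rw [mul_one] at h3
  refine tendsto_of_tendsto_of_tendsto_of_le_of_le' h3 h ?_ (Eventually.of_forall fun n => ?_)
  · filter_upwards [eventually_gt_atTop n0] with n hn
    obtain ⟨m, rfl⟩ := Nat.exists_eq_add_of_le hn.le
    have hm : 0 < m := by omega
    unfold HS
    rw [Nat.add_sub_cancel_left, show ((n0 + m : ℕ) : ℝ) + -n0 = m by push_cast; ring, div_pow,
      div_mul_div_cancel₀ (by positivity)]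
    refine div_le_div_of_nonneg_right ?_ (by positivity)
    refine mul_le_mul_of_nonneg_left ?_ (by positivity)
    exact hle ((h1 m).trans Ideal.mul_le_left) (length_quot_pow_ne_top (ht.trans hIJ) _)
  · unfold HS
    refine div_le_div_of_nonneg_right ?_ (by positivity)
    refine mul_le_mul_of_nonneg_left ?_ (by positivity)
    exact hle (Ideal.pow_right_mono hIJ n) (length_quot_pow_ne_top ht _)

end Vale.Agent.P202
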