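import Vale.Agent.P202.LC
import Vale.Agent.P202.HS
import Vale.Agent.P202.Eps

/-! Reduction to prime quotients; base change of the multiplicity symbol. -/

namespace Vale.Agent.P202

open IsLocalRing Filter Topology

universe u

variable {R S : Type u} [CommRing R] [IsLocalRing R] [IsNoetherianRing R] [CommRing S]
  [IsLocalRing S] [IsNoetherianRing S] [Algebra R S] [IsLocalHom (algebraMap R S)]
  [Module.Flat R S]

theorem IsSop.kHyp {d : ℕ} {y : Fin d → S} (hy : IsSop y) (J : Ideal S) :
    KHyp y Finset.univ (J : Submodule S S) ⊤ := by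
  obtain ⟨-, t, ht⟩ := hy
  refine ⟨le_top, IsNoetherian.noetherian _, t, ht.trans ?_⟩
  rw [Finset.coe_univ, Set.image_univ]
  exact le_sup_left

theorem epsR_nonneg {d : ℕ} {y : Fin d → S} (hy : IsSop y) : 0 ≤ epsR y :=
  eps_nonneg (hy.kHyp ⊥)

theorem IsSop.exists_isMult {m : ℕ} {x : Fin (m + 1) → R} (hx : IsSop x) :
    ∃ e : ℝ, 0 ≤ e ∧ IsMult R (Ideal.span (Set.range x)) (m + 1) e := by
  obtain ⟨-, t, ht⟩ := hx
  obtain ⟨r, a, f, h⟩ := exists_chain x ht
  exact ⟨_, Nat.cast_nonneg _, tendsto_HS h⟩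

section aux

open TensorProduct

theorem pr_baseChange_eq {A B : Type u} [CommRing A] [CommRing B] [Algebra A B] (J : Ideal A) :
    Submodule.baseChange B J = Submodule.comap (AlgebraTensorModule.rid A B B).toLinearMap
      (J.map (algebraMap A B)) := by
  apply le_antisymm
  · rw [Submodule.baseChange_eq_span, Submodule.span_le]
    rintro _ ⟨a, ha, rfl⟩
    change (AlgebraTensorModule.rid A B B) ((1 : B) ⊗ₜ[A] a) ∈ J.map (algebraMap A B)
    rw [AlgebraTensorModule.rid_tmul, ← Algebra.algebraMap_eq_smul_one]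
    exact Ideal.mem_map_of_mem _ ha
  · rw [Submodule.comap_equiv_eq_map_symm, Submodule.map_le_iff_le_comap, Ideal.map,
      ← Ideal.submodule_span_eq, Submodule.span_le]
    rintro _ ⟨a, ha, rfl⟩
    change (AlgebraTensorModule.rid A B B).symm (algebraMap A B a) ∈ Submodule.baseChange B J
    have h1 : (AlgebraTensorModule.rid A B B).symm (algebraMap A B a) = (1 : B) ⊗ₜ[A] a := by
      rw [LinearEquiv.symm_apply_eq, AlgebraTensorModule.rid_tmul, Algebra.algebraMap_eq_smul_one]
    rw [h1]
    exact Submodule.tmul_mem_baseChange_of_mem _ ha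

theorem pr_map_inf {A B : Type u} [CommRing A] [CommRing B] [Algebra A B] [Module.Flat A B]
    (J J' : Ideal A) :
    (J ⊓ J').map (algebraMap A B) = J.map (algebraMap A B) ⊓ J'.map (algebraMap A B) := by
  apply Submodule.comap_injective_of_surjective
    (f := (AlgebraTensorModule.rid A B B).toLinearMap) (AlgebraTensorModule.rid A B B).surjective
  rw [Submodule.comap_inf, ← pr_baseChange_eq, ← pr_baseChange_eq, ← pr_baseChange_eq,
    baseChange_inf]

theorem pr_map_comap {A B : Type u} [CommRing A] [CommRing B] [Algebra A B] [Module.Flat A B]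
    (J : Ideal A) (f : A) :
    Ideal.map (algebraMap A B) (Submodule.comap (LinearMap.lsmul A A f) J) =
      Submodule.comap (LinearMap.lsmul B B (algebraMap A B f)) (J.map (algebraMap A B)) := by
  apply Submodule.comap_injective_of_surjective
    (f := (AlgebraTensorModule.rid A B B).toLinearMap) (AlgebraTensorModule.rid A B B).surjective
  rw [← pr_baseChange_eq, baseChange_comap, pr_baseChange_eq, ← Submodule.comap_comp,
    ← Submodule.comap_comp]
  congr 1
  ext
  simp [Algebra.smul_def]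

theorem pr_map_lsmul {A : Type u} [CommRing A] (J : Ideal A) (f : A) :
    Submodule.map (LinearMap.lsmul A A f) J = Ideal.span {f} * J := by
  ext z
  rw [Submodule.mem_map]
  exact (Ideal.mem_span_singleton_mul (I := J)).symm

theorem pr_eps_baseChange {d : ℕ} (x : Fin d → R) (T : Finset (Fin d)) (J' J'' : Ideal R)
    (h : KHyp x T J' J'')
    (h' : KHyp (fun i => algebraMap R S (x i)) T (J'.map (algebraMap R S))
      (J''.map (algebraMap R S))) :
    eps (fun i => algebraMap R S (x i)) T (J'.map (algebraMap R S)) (J''.map (algebraMap R S)) =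
      ((Module.length S (S ⧸ mS R S)).toNat : ℤ) * eps x T J' J'' := by
  induction T using Finset.induction_on generalizing J' J'' with
  | empty =>
    have h1 := rl_baseChange (S := S) J' J''
    have h2 : (Submodule.baseChange S J'').map (AlgebraTensorModule.rid R S S).toLinearMap =
        J''.map (algebraMap R S) := by
      rw [pr_baseChange_eq, Submodule.map_comap_eq_of_surjective
        (AlgebraTensorModule.rid R S S).surjective]
    rw [pr_baseChange_eq J', rl_map, h2] at h1
    rw [eps_empty, eps_empty, h1, ENat.toNat_mul]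
    push_cast
    ring
  | insert i T hi ih =>
    have hi' := Finset.mem_insert_self i T
    have e1 : Ideal.map (algebraMap R S) (J' ⊔ Submodule.map (LinearMap.lsmul R R (x i)) J'') =
        J'.map (algebraMap R S) ⊔ Submodule.map (LinearMap.lsmul S S (algebraMap R S (x i)))
          (J''.map (algebraMap R S)) := by
      rw [Ideal.map_sup, pr_map_lsmul, pr_map_lsmul, Ideal.map_mul, Ideal.map_span,
        Set.image_singleton]
    have e2 : Ideal.map (algebraMap R S) (J'' ⊓ Submodule.comap (LinearMap.lsmul R R (x i)) J') =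
        J''.map (algebraMap R S) ⊓ Submodule.comap (LinearMap.lsmul S S (algebraMap R S (x i)))
          (J'.map (algebraMap R S)) := by
      rw [pr_map_inf, pr_map_comap]
    have k1 := h.erase_quot hi'
    have k2 := h.erase_ker hi'
    have k3 := h'.erase_quot hi'
    have k4 := h'.erase_ker hi'
    rw [eps_erase h hi', eps_erase h' hi']
    rw [Finset.erase_insert hi] at k1 k2 k3 k4 ⊢
    rw [← e1] at k3
    rw [← e2] at k4
    rw [← e1, ← e2, ih _ _ k1 k3, ih _ _ k2 k4, mul_sub]

theorem pr_length_quot {A B : Type u} [CommRing A] [CommRing B] [Algebra A B]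
    (h : Function.Surjective (algebraMap A B)) (J : Ideal A) :
    Module.length B (B ⧸ J.map (algebraMap A B)) =
      rl (lenF A) (J ⊔ RingHom.ker (algebraMap A B) : Ideal A) ⊤ := by
  have h1 := rl_restrictScalars_of_surjective (E := B) h (J.map (algebraMap A B)) ⊤
  have h2 := rl_map (lenF A) (Algebra.linearMap A B)
    (Submodule.restrictScalars A (J.map (algebraMap A B))) ⊤
  have h3 : Submodule.comap (Algebra.linearMap A B)
      (Submodule.restrictScalars A (J.map (algebraMap A B))) =
      (J ⊔ RingHom.ker (algebraMap A B) : Ideal A) := by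
    rw [RingHom.ker_eq_comap_bot, ← Ideal.comap_map_of_surjective _ h]
    rfl
  rw [h3, Submodule.map_top, LinearMap.range_eq_top.2 h, ← Submodule.restrictScalars_top A B B,
    h1, rl_top (lenF B)] at h2
  exact h2.symm

theorem pr_span_map {A B : Type u} [CommRing A] [CommRing B] [Algebra A B] {ι : Type}
    (x : ι → A) : (Ideal.span (Set.range x)).map (algebraMap A B) =
      Ideal.span (Set.range fun i => algebraMap A B (x i)) := by
  rw [Ideal.map_span, ← Set.range_comp]
  rfl

/-- The Hilbert-Samuel function of a quotient. -/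
noncomputable def HSq {A : Type u} [CommRing A] (I J : Ideal A) (d n : ℕ) : ℝ :=
  (d.factorial : ℝ) * ((rl (lenF A) (I ^ n ⊔ J : Ideal A) ⊤).toNat : ℝ) / (n : ℝ) ^ d

theorem pr_HS_eq {A B : Type u} [CommRing A] [CommRing B] [Algebra A B]
    (h : Function.Surjective (algebraMap A B)) (I : Ideal A) (d : ℕ) :
    HS B (I.map (algebraMap A B)) d = HSq I (RingHom.ker (algebraMap A B)) d := by
  funext n
  rw [HS, HSq, ← Ideal.map_pow, pr_length_quot h]

end aux

/-- Flat base change of the multiplicity symbol. -/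
theorem epsR_baseChange {d : ℕ} {x : Fin d → R} (hx : IsSop x)
    (hl : Module.length S (S ⧸ mS R S) ≠ ⊤) :
    epsR (fun i => algebraMap R S (x i)) =
      ((Module.length S (S ⧸ mS R S)).toNat : ℤ) * epsR x := by
  have h := pr_eps_baseChange (S := S) x Finset.univ ⊥ ⊤ (hx.kHyp ⊥) (by
    rw [Ideal.map_top]
    exact (hx.map hl).kHyp _)
  rwa [Ideal.map_top, Ideal.map_bot] at h

/-- The multiplicity symbol is bounded by the multiplicity. -/
theorem epsR_le_mult {m : ℕ} {y : Fin (m + 1) → S} (hy : IsSop y) {e : ℝ}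
    (he : IsMult S (Ideal.span (Set.range y)) (m + 1) e) : (epsR y : ℝ) ≤ e := by
  obtain ⟨t, ht⟩ := hy.2
  obtain ⟨r, a, f, h⟩ := exists_chain y ht
  obtain ⟨C, hC⟩ := length_frob_le h
  rw [tendsto_nhds_unique he (tendsto_HS h)]
  have := eps_le_of_growth (hy.kHyp ⊥) (eChain y r a f) C fun n => by
    rw [bot_sup_eq, Ideal.smul_eq_mul, Ideal.mul_top, rl_top]
    exact hC n
  exact_mod_cast this

omit [IsNoetherianRing R] [IsNoetherianRing S] in
theorem pr_quotSq (Q : Ideal R) (hQ : Q ≠ ⊤) :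
    ∃ (_ : IsLocalRing (R ⧸ Q)) (_ : IsLocalRing (S ⧸ Q.map (algebraMap R S))),
      IsLocalHom (algebraMap (R ⧸ Q) (S ⧸ Q.map (algebraMap R S))) ∧
      Module.Flat (R ⧸ Q) (S ⧸ Q.map (algebraMap R S)) ∧
      QuotSq R S (R ⧸ Q) (S ⧸ Q.map (algebraMap R S)) := by
  have hQ' : Q.map (algebraMap R S) ≠ ⊤ := by
    refine ne_top_of_le_ne_top (maximalIdeal.isMaximal S).ne_top ?_
    exact (Ideal.map_mono (le_maximalIdeal hQ)).trans (map_maximalIdeal_le _)
  have := Ideal.Quotient.nontrivial_iff.2 hQ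
  have := Ideal.Quotient.nontrivial_iff.2 hQ'
  have h1 : IsLocalRing (R ⧸ Q) := .of_surjective' _ Ideal.Quotient.mk_surjective
  have h2 : IsLocalRing (S ⧸ Q.map (algebraMap R S)) :=
    .of_surjective' _ Ideal.Quotient.mk_surjective
  refine ⟨h1, h2, ⟨fun a ha => ?_⟩, ?_, Ideal.Quotient.mk_surjective,
    Ideal.Quotient.mk_surjective, fun a => rfl, ?_⟩
  · obtain ⟨a, rfl⟩ := Ideal.Quotient.mk_surjective a
    have := IsLocalHom.of_surjective (Ideal.Quotient.mk (Q.map (algebraMap R S)))
      Ideal.Quotient.mk_surjective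
    have h3 : IsUnit (Ideal.Quotient.mk (Q.map (algebraMap R S)) (algebraMap R S a)) := ha
    exact (isUnit_of_map_unit _ _ (isUnit_of_map_unit _ _ h3)).map _
  · exact Module.Flat.of_linearEquiv
      (Algebra.TensorProduct.quotIdealMapEquivQuotTensor S Q).toLinearEquiv
  · rw [Ideal.Quotient.algebraMap_eq, Ideal.Quotient.algebraMap_eq, Ideal.mk_ker, Ideal.mk_ker]

/-- The quotient pair attached to an ideal. -/
theorem exists_quotSq (Q : Ideal R) (hQ : Q ≠ ⊤) :
    ∃ (S1 : Type u) (_ : IsLocalRing (R ⧸ Q)) (_ : CommRing S1) (_ : IsLocalRing S1)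
      (_ : IsNoetherianRing S1) (_ : Algebra S S1) (_ : Algebra (R ⧸ Q) S1),
      IsLocalHom (algebraMap (R ⧸ Q) S1) ∧ Module.Flat (R ⧸ Q) S1 ∧ QuotSq R S (R ⧸ Q) S1 := by
  obtain ⟨h1, h2, h3⟩ := pr_quotSq (S := S) Q hQ
  exact ⟨S ⧸ Q.map (algebraMap R S), h1, inferInstance, h2, inferInstance, inferInstance,
    inferInstance, h3⟩

section quot

variable {R1 S1 : Type u} [CommRing R1] [IsLocalRing R1] [CommRing S1] [IsLocalRing S1]
  [Algebra R R1] [Algebra S S1] [Algebra R1 S1]

omit [IsNoetherianRing R] [IsNoetherianRing S] [Module.Flat R S] [IsLocalHom (algebraMap R S)] in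
theorem QuotSq.length_quot (h : QuotSq R S R1 S1) (J : Ideal S) (hJ : mS R S ≤ J) :
    Module.length S1 (S1 ⧸ J.map (algebraMap S S1)) = Module.length S (S ⧸ J) := by
  rw [pr_length_quot h.surjS, sup_eq_left.2, rl_top]
  · rfl
  · rw [h.ker_eq]
    exact (Ideal.map_mono (le_maximalIdeal (RingHom.ker_ne_top _))).trans hJ

omit [IsNoetherianRing R] [IsNoetherianRing S] [Module.Flat R S] [IsLocalHom (algebraMap R S)]
  [IsLocalRing S] [IsLocalRing S1] in
theorem QuotSq.mS_eq (h : QuotSq R S R1 S1) : mS R1 S1 = (mS R S).map (algebraMap S S1) := by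
  rw [mS, mS, ← map_maximalIdeal_of_surjective _ h.surjR, Ideal.map_map, Ideal.map_map]
  congr 1
  exact RingHom.ext h.comm

omit [IsNoetherianRing R] in
theorem IsSop.map_of_surjective (h : Function.Surjective (algebraMap R R1)) {ι : Type}
    {x : ι → R} (hx : IsSop x) : IsSop fun i => algebraMap R R1 (x i) := by
  obtain ⟨h1, t, ht⟩ := hx
  refine ⟨fun i => ?_, t, ?_⟩
  · rw [← map_maximalIdeal_of_surjective _ h]
    exact Ideal.mem_map_of_mem _ (h1 i)
  · rw [← map_maximalIdeal_of_surjective _ h, ← Ideal.map_pow, ← pr_span_map]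
    exact Ideal.map_mono ht

end quot

/-- Prime filtration: Hilbert-Samuel functions are subadditive and `eps` is additive. -/
theorem le_epsR_of_primes {m : ℕ} {x : Fin (m + 1) → R} {y : Fin (m + 1) → S} (hx : IsSop x)
    (hy : IsSop y) {α e : ℝ} (hα : 0 ≤ α)
    (he : IsMult R (Ideal.span (Set.range x)) (m + 1) e)
    (H : ∀ (R1 S1 : Type u) [CommRing R1] [IsLocalRing R1] [IsNoetherianRing R1] [IsDomain R1]
      [CommRing S1] [IsLocalRing S1] [IsNoetherianRing S1] [Algebra R R1] [Algebra S S1]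
      [Algebra R1 S1] [IsLocalHom (algebraMap R1 S1)] [Module.Flat R1 S1], QuotSq R S R1 S1 →
      ∀ e1 : ℝ, IsMult R1 (Ideal.span (Set.range fun i => algebraMap R R1 (x i))) (m + 1) e1 →
        α * e1 ≤ (epsR fun i => algebraMap S S1 (y i) : ℤ)) :
    α * e ≤ (epsR y : ℤ) := by
  set I := Ideal.span (Set.range x) with hI
  have htop : HSq I ⊤ (m + 1) = fun _ => 0 := by
    funext n
    rw [HSq, rl_eq_zero_of_le _ le_sup_right]
    simp
  have hq : ∀ J : Ideal R, HS (R ⧸ J) (Ideal.span (Set.range fun i => algebraMap R (R ⧸ J) (x i)))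
      (m + 1) = HSq I J (m + 1) := by
    intro J
    rw [← pr_span_map, pr_HS_eq Ideal.Quotient.mk_surjective, Ideal.Quotient.algebraMap_eq,
      Ideal.mk_ker]
  have hlim : ∀ J : Ideal R, ∃ e, Tendsto (HSq I J (m + 1)) atTop (𝓝 e) := by
    intro J
    by_cases hJ : J = ⊤
    · exact ⟨0, by rw [hJ, htop]; exact tendsto_const_nhds⟩
    obtain ⟨_, -⟩ := pr_quotSq (S := S) J hJ
    obtain ⟨e, -, he⟩ := (hx.map_of_surjective (R1 := R ⧸ J)
      Ideal.Quotient.mk_surjective).exists_isMult
    exact ⟨e, hq J ▸ he⟩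
  have hfin : ∀ (J : Ideal R) (n : ℕ), rl (lenF R) (I ^ n ⊔ J : Ideal R) ⊤ ≠ ⊤ := by
    intro J n
    obtain ⟨t, ht⟩ := hx.2
    refine ne_top_of_le_ne_top (length_quot_pow_ne_top ht n) ?_
    exact (rl_anti_left _ le_sup_left _).trans (rl_top _ _).le
  have key : ∀ J : Ideal R, ∀ e, Tendsto (HSq I J (m + 1)) atTop (𝓝 e) →
      α * e ≤ (eps y Finset.univ (J.map (algebraMap R S)) ⊤ : ℤ) := by
    intro J
    induction J using (wellFounded_gt (α := Ideal R)).induction with
    | _ J ih =>
    intro e he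
    by_cases hJ : J = ⊤
    · rw [hJ, htop] at he
      rw [tendsto_nhds_unique he tendsto_const_nhds, hJ, Ideal.map_top, eps_self]
      simp
    have := Ideal.Quotient.nontrivial_iff.2 hJ
    obtain ⟨p, hp⟩ := associatedPrimes.nonempty R (R ⧸ J)
    rw [AssociatedPrimes.mem_iff, isAssociatedPrime_iff] at hp
    obtain ⟨hp, f, hf⟩ := hp
    obtain ⟨f, rfl⟩ := Ideal.Quotient.mk_surjective f
    have hpf : p = Submodule.comap (LinearMap.lsmul R R f) J := by
      rw [hf]
      ext z
      rw [Submodule.mem_colon_singleton, Submodule.mem_bot, Submodule.mem_comap,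
        ← Ideal.Quotient.eq_zero_iff_mem, LinearMap.lsmul_apply, smul_eq_mul, mul_comm f, map_mul]
      rfl
    have hfJ : f ∉ J := fun h => hp.ne_top (by
      rw [hpf, eq_top_iff]
      exact fun z _ => J.mul_mem_right z h)
    have hlt : J < J ⊔ Ideal.span {f} := by
      refine lt_of_le_of_ne le_sup_left fun h => hfJ ?_
      rw [h]
      exact Ideal.mem_sup_right (Ideal.mem_span_singleton_self f)
    obtain ⟨e1, he1⟩ := hlim (J ⊔ Ideal.span {f})
    obtain ⟨e2, he2⟩ := hlim p
    have k1 := ih _ hlt e1 he1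
    have k2 : α * e2 ≤ (eps y Finset.univ (p.map (algebraMap R S)) ⊤ : ℤ) := by
      obtain ⟨_, _, _, _, h5⟩ := pr_quotSq (S := S) p hp.ne_top
      rw [eps_quotient]
      exact H (R ⧸ p) (S ⧸ p.map (algebraMap R S)) h5 e2 (by rwa [IsMult, hq p])
    have k3 : e ≤ e1 + e2 := by
      refine le_of_tendsto_of_tendsto' he (he1.add he2) fun n => ?_
      have h1 := rl_add (lenF R) (le_sup_left : (I ^ n ⊔ J : Ideal R) ≤ I ^ n ⊔ J ⊔ Ideal.span {f})
        le_top
      have h2 : rl (lenF R) (I ^ n ⊔ J : Ideal R) (I ^ n ⊔ J ⊔ Ideal.span {f} : Ideal R) ≤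
          rl (lenF R) (I ^ n ⊔ p : Ideal R) ⊤ := by
        rw [rl_sup, ← Ideal.mul_top (Ideal.span {f}), ← pr_map_lsmul, ← rl_map]
        refine rl_anti_left _ (sup_le ?_ ?_) _
        · exact fun z hz => Ideal.mem_sup_left (Ideal.mul_mem_left _ f hz)
        · rw [hpf]
          exact Submodule.comap_mono le_sup_right
      have h3 := h1.le.trans (add_le_add h2 le_rfl)
      rw [sup_assoc] at h3
      have h4 := ENat.toNat_le_toNat h3 (WithTop.add_ne_top.2 ⟨hfin _ _, hfin _ _⟩)
      rw [ENat.toNat_add (hfin _ _) (hfin _ _)] at h4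
      have h5 : ((rl (lenF R) (I ^ n ⊔ J : Ideal R) ⊤).toNat : ℝ) ≤
          (rl (lenF R) (I ^ n ⊔ (J ⊔ Ideal.span {f}) : Ideal R) ⊤).toNat +
            (rl (lenF R) (I ^ n ⊔ p : Ideal R) ⊤).toNat := by
        rw [add_comm]
        exact_mod_cast h4
      simp only [HSq]
      rw [← add_div, ← mul_add]
      gcongr
    have k4 : eps y Finset.univ (p.map (algebraMap R S)) ⊤ =
        eps y Finset.univ (J.map (algebraMap R S)) ((J ⊔ Ideal.span {f}).map (algebraMap R S)) := by
      refine eps_map (LinearMap.lsmul S S (algebraMap R S f)) ?_ ?_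
      · rw [pr_map_lsmul, Ideal.mul_top, Ideal.map_sup, Ideal.map_span, Set.image_singleton,
          sup_comm]
      · rw [top_inf_eq, hpf, pr_map_comap]
    rw [eps_add (hy.kHyp (J.map (algebraMap R S))) (Ideal.map_mono hlt.le) le_top, ← k4]
    push_cast
    nlinarith
  have h0 := key ⊥ e (by
    have : HSq I ⊥ (m + 1) = HS R I (m + 1) := by
      funext n
      rw [HSq, HS, sup_bot_eq, rl_top]
      rfl
    rwa [this])
  rwa [Ideal.map_bot] at h0

/-- A proper quotient of a domain has multiplicity zero. -/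
theorem isMult_eq_zero {R1 : Type u} [CommRing R1] [Algebra R R1]
    (h : Function.Surjective (algebraMap R R1)) (P : Ideal R) [P.IsPrime]
    (hP : P < RingHom.ker (algebraMap R R1)) {m : ℕ} {x : Fin (m + 1) → R} (hx : IsSop x) {e : ℝ}
    (he : IsMult R1 (Ideal.span (Set.range fun i => algebraMap R R1 (x i))) (m + 1) e) :
    e = 0 := by
  obtain ⟨c, hc, hcP⟩ := SetLike.exists_of_lt hP
  obtain ⟨_, -⟩ := pr_quotSq (S := R) P Ideal.IsPrime.ne_top'
  have hx' := hx.map_of_surjective (R1 := R ⧸ P) Ideal.Quotient.mk_surjective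
  obtain ⟨t', ht'⟩ := hx'.2
  obtain ⟨C, hC⟩ := grow_of_isDomain _ hx'.1 ht' (algebraMap R (R ⧸ P) c)
    fun h0 => hcP (Ideal.Quotient.eq_zero_iff_mem.1 h0)
  obtain ⟨t, ht⟩ := hx.2
  rw [IsMult, ← pr_span_map, pr_HS_eq h] at he
  set I := Ideal.span (Set.range x) with hI
  have hb : ∀ n : ℕ, 0 < n → (rl (lenF R) (I ^ n ⊔ RingHom.ker (algebraMap R R1) : Ideal R) ⊤).toNat
      ≤ C * ((t + 1) * n) ^ m := by
    intro n hn
    have h1 := hC ((t + 1) * n)
    rw [← map_maximalIdeal_of_surjective (algebraMap R (R ⧸ P)) Ideal.Quotient.mk_surjective,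
      ← Ideal.map_pow, ← Set.image_singleton, ← Ideal.map_span, ← Ideal.map_sup,
      pr_length_quot Ideal.Quotient.mk_surjective, Ideal.Quotient.algebraMap_eq,
      Ideal.mk_ker] at h1
    have h2 : (Ideal.span {c} ⊔ maximalIdeal R ^ ((t + 1) * n) ⊔ P : Ideal R) ≤
        I ^ n ⊔ RingHom.ker (algebraMap R R1) := by
      refine sup_le (sup_le ?_ ?_) (hP.le.trans le_sup_right)
      · exact le_sup_of_le_right ((Ideal.span_singleton_le_iff_mem _).2 hc)
      · rw [pow_mul]
        exact le_sup_of_le_left (Ideal.pow_right_mono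
          ((Ideal.pow_le_pow_right (Nat.le_succ t)).trans ht) n)
    have h3 := (mul_le_mul_left (rl_anti_left (lenF R) h2 ⊤) _).trans h1
    have h4 : rl (lenF R) (I ^ n ⊔ RingHom.ker (algebraMap R R1) : Ideal R) ⊤ ≠ ⊤ :=
      ne_top_of_le_ne_top (length_quot_pow_ne_top ht n)
        ((rl_anti_left _ le_sup_left _).trans (rl_top _ _).le)
    obtain ⟨l, hl⟩ := ENat.ne_top_iff_exists.1 h4
    rw [← hl] at h3 ⊢
    have h5 : l * ((t + 1) * n) ≤ C * ((t + 1) * n) ^ (m + 1) := by exact_mod_cast h3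
    rw [pow_succ, ← mul_assoc C] at h5
    rw [ENat.toNat_natCast]
    exact Nat.le_of_mul_le_mul_right h5 (by positivity)
  refine tendsto_nhds_unique he ?_
  refine squeeze_zero' (Eventually.of_forall fun n => by unfold HSq; positivity) ?_
    (tendsto_const_div_atTop_nhds_zero_nat (((m + 1).factorial : ℝ) * (C * (t + 1) ^ m)))
  filter_upwards [eventually_gt_atTop 0] with n hn
  have h6 : ((rl (lenF R) (I ^ n ⊔ RingHom.ker (algebraMap R R1) : Ideal R) ⊤).toNat : ℝ) ≤
      C * ((t + 1) * n) ^ m := by exact_mod_cast hb n hn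
  have hn' : (0 : ℝ) < n := by exact_mod_cast hn
  rw [HSq]
  calc _ ≤ ((m + 1).factorial : ℝ) * (C * ((t + 1) * n) ^ m) / (n : ℝ) ^ (m + 1) := by gcongr
    _ = _ := by
      rw [mul_pow, pow_succ]
      field_simp

omit [IsNoetherianRing R] [IsNoetherianRing S] [IsLocalHom (algebraMap R S)] [Module.Flat R S] in
theorem pr_fibre {R' S' : Type u} [CommRing R'] [IsLocalRing R'] [CommRing S'] [IsLocalRing S']
    [Algebra R R'] [Algebra S S'] [Algebra R' S'] (hR : Unr R R') (hS : Unr S S')
    (hc : ∀ a, algebraMap R' S' (algebraMap R R' a) = algebraMap S S' (algebraMap R S a))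
    (hl : Module.length S (S ⧸ mS R S) ≠ ⊤) : Module.length S' (S' ⧸ mS R' S') ≠ ⊤ := by
  have := hS.isLocalHom
  have := hS.flat
  have h1 : mS R' S' = (mS R S).map (algebraMap S S') := by
    rw [mS, mS, ← hR.map_eq, Ideal.map_map, Ideal.map_map]
    congr 1
    exact RingHom.ext hc
  rwa [h1, length_quot_map, hS.length_fibre, mul_one]

/-- The key inequality descends along squares. -/
theorem LechEps.of_unr {R' S' : Type u} [CommRing R'] [IsLocalRing R'] [IsNoetherianRing R']
    [CommRing S'] [IsLocalRing S'] [IsNoetherianRing S'] [Algebra R R'] [Algebra S S']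
    [Algebra R' S'] (hR : Unr R R') (hS : Unr S S')
    (hc : ∀ a, algebraMap R' S' (algebraMap R R' a) = algebraMap S S' (algebraMap R S a))
    (h : LechEps R' S') : LechEps R S := by
  intro m x y e hx hy hl he
  have := hS.isLocalHom
  have := hS.flat
  have h1 : Module.length S' (S' ⧸ mS S S') ≠ ⊤ := by
    rw [hS.length_fibre]
    exact ENat.one_ne_top
  have h2 := h m _ _ e (hR.isRed hx) (hy.map h1) (pr_fibre hR hS hc hl) (by
    rwa [IsMult, ← pr_span_map, hR.HS_map])
  rw [epsR_baseChange hy h1, hS.length_fibre] at h2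
  simpa using h2

theorem LechMult.of_unr {R' S' : Type u} [CommRing R'] [IsLocalRing R'] [IsNoetherianRing R']
    [CommRing S'] [IsLocalRing S'] [IsNoetherianRing S'] [Algebra R R'] [Algebra S S']
    [Algebra R' S'] (hR : Unr R R') (hS : Unr S S')
    (hc : ∀ a, algebraMap R' S' (algebraMap R R' a) = algebraMap S S' (algebraMap R S a))
    (h : LechMult R' S') : LechMult R S := by
  intro m x y e e' hx hy hl he he'
  have := hS.isLocalHom
  have h1 : Module.length S' (S' ⧸ mS S S') ≠ ⊤ := by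
    rw [hS.length_fibre]
    exact ENat.one_ne_top
  exact h m _ _ e e' (hR.isRed hx) (hy.map h1) (pr_fibre hR hS hc hl)
    (by rwa [IsMult, ← pr_span_map, hR.HS_map]) (by rwa [IsMult, ← pr_span_map, hS.HS_map])

omit [IsNoetherianRing R] [IsLocalHom (algebraMap R S)] [Module.Flat R S] in
theorem LechEps.lechMult (h : LechEps R S) : LechMult R S :=
  fun m x y e _ hx hy hl he he' => (h m x y e hx hy hl he).trans (epsR_le_mult hy he')

end Vale.Agent.P202
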