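import Vale.Agent.P202.Step
import Vale.Agent.P202.Primes
import Vale.Agent.P202.Ext
import Vale.Agent.P202.Coef

/-! The key inequality in prime characteristic. -/

namespace Vale.Agent.P202

open IsLocalRing MvPowerSeries Filter Topology

universe u

theorem charP_of_eq_zero {A : Type u} [CommRing A] [Nontrivial A] {p : ℕ} (hp : p.Prime)
    (h : (p : A) = 0) : CharP A p := by
  have : Fact p.Prime := ⟨hp⟩
  exact (CharP.charP_iff_prime_eq_zero hp).2 h

theorem red_pow_le {R : Type u} [CommRing R] {I J : Ideal R} {n0 : ℕ}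
    (h : J ^ (n0 + 1) ≤ I * J ^ n0) (j : ℕ) : J ^ (n0 + j) ≤ I ^ j * J ^ n0 := by
  induction j with
  | zero => simp
  | succ j ih =>
    calc J ^ (n0 + (j + 1)) = J ^ (n0 + j) * J := by ring
      _ ≤ I ^ j * J ^ n0 * J := Ideal.mul_mono_left ih
      _ = I ^ j * J ^ (n0 + 1) := by ring
      _ ≤ I ^ j * (I * J ^ n0) := Ideal.mul_mono_right h
      _ = I ^ (j + 1) * J ^ n0 := by ring

theorem IsSop.pow {R : Type u} [CommRing R] [IsLocalRing R] {d : ℕ} {x : Fin d → R} (hx : IsSop x)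
    {q : ℕ} (hq : 0 < q) : IsSop fun i => x i ^ q := by
  obtain ⟨h1, t, ht⟩ := hx
  refine ⟨fun i => Ideal.pow_mem_of_mem _ (h1 i) _ hq, t * (q * (1 + d)), ?_⟩
  have := rank_pigeon x hq 1
  rw [pow_one] at this
  rw [pow_mul]
  exact (Ideal.pow_right_mono ht _).trans this

theorem tendsto_aux (n0 m : ℕ) (c : ℝ) {p : ℕ} (hp : 1 < p) :
    Tendsto (fun k : ℕ => ((((p ^ k - n0 : ℕ) : ℝ)) ^ (m + 1) - c * ((p ^ k - n0 : ℕ) : ℝ) ^ m) /
      ((p ^ k : ℕ) : ℝ) ^ (m + 1)) atTop (𝓝 1) := by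
  have h0 : Tendsto (fun k : ℕ => p ^ k) atTop atTop := tendsto_pow_atTop_atTop_of_one_lt hp
  have h1 : Tendsto (fun q : ℕ => ((q : ℝ))⁻¹) atTop (𝓝 0) := tendsto_inv_atTop_nhds_zero_nat
  have h2 : Tendsto (fun q : ℕ => (1 - n0 * (q : ℝ)⁻¹) ^ (m + 1) -
      c * (1 - n0 * (q : ℝ)⁻¹) ^ m * (q : ℝ)⁻¹) atTop
      (𝓝 ((1 - n0 * 0) ^ (m + 1) - c * (1 - n0 * 0) ^ m * 0)) :=
    (((h1.const_mul _).const_sub 1).pow _).sub
      (((((h1.const_mul _).const_sub 1).pow _).const_mul c).mul h1)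
  simp only [mul_zero, sub_zero, one_pow] at h2
  refine Tendsto.comp (g := fun q : ℕ => ((((q - n0 : ℕ) : ℝ)) ^ (m + 1) -
    c * ((q - n0 : ℕ) : ℝ) ^ m) / (q : ℝ) ^ (m + 1)) (h2.congr' ?_) h0
  filter_upwards [eventually_ge_atTop (n0 + 1)] with q hq
  have hq0 : (q : ℝ) ≠ 0 := by exact_mod_cast (by omega : q ≠ 0)
  rw [Nat.cast_sub (by omega), show (1 - n0 * (q : ℝ)⁻¹) = (q - n0) / q by field_simp, div_pow,
    div_pow]
  field_simp
  ring

variable {R S : Type u} [CommRing R] [IsLocalRing R] [IsNoetherianRing R] [CommRing S]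
  [IsLocalRing S] [IsNoetherianRing S] [Algebra R S] [IsLocalHom (algebraMap R S)]
  [Module.Flat R S]

omit [IsNoetherianRing S] [Module.Flat R S] in
/-- The rings at level `q`. -/
theorem exists_level {p : ℕ} (hp : p.Prime) (hR : (p : R) = 0) {m : ℕ}
    {k l : Type u} [Field k] [Field l] (φ : PS (Fin (m + 1)) k →+* R)
    (hres : Function.Surjective ((residue R).comp (φ.comp C))) {g : ℕ} (ψ : PS (Fin g) l →+* S)
    (hψ : Function.Surjective ψ) (hx : IsSop fun i => φ (X i)) (ε : ℕ) :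
    ∃ (R' S' : Type u) (_ : CommRing R') (_ : IsLocalRing R') (_ : IsNoetherianRing R')
      (_ : CommRing S') (_ : IsLocalRing S') (_ : IsNoetherianRing S') (_ : Algebra R R')
      (_ : Algebra S S') (_ : Algebra R' S') (γ : R' →+* R), Unr R R' ∧
      IsLocalHom (algebraMap S S') ∧ Module.Flat S S' ∧ Module.length S' (S' ⧸ mS S S') ≠ ⊤ ∧
      (∀ a, algebraMap R' S' (algebraMap R R' a) = algebraMap S S' (algebraMap R S a)) ∧
      γ.Finite ∧ Function.Surjective ((residue R).comp γ) ∧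
      (∀ a, γ (algebraMap R R' a) = a ^ p ^ ε) ∧ ∀ ρ, γ ρ = 0 → ρ ^ p ^ ε = 0 := by
  have : Fact p.Prime := ⟨hp⟩
  have hq : 0 < p ^ ε := pow_pos hp.pos ε
  have hk : (p : k) = 0 := (φ.comp C).injective (by simp [hR])
  have hS : (p : S) = 0 := by rw [← map_natCast (algebraMap R S), hR, map_zero]
  have hl : (p : l) = 0 := (ψ.comp C).injective (by simp [hS])
  have := charP_of_eq_zero hp hk
  have := charP_of_eq_zero hp hR
  obtain ⟨R', _, _, _, _, φ', hR', -, hcomp, -, huniv, hext⟩ :=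
    exists_baseChange (iterateFrobenius k p ε) φ (psHom_finite φ hx hres) hx.1 hres
  obtain ⟨S', _, _, _, _, π, hloc, hflat, hlen, hπ, hπq⟩ := exists_frobExt hp hl ψ hψ ε
  have := ps_isAdicComplete (σ := Fin g) l
  have := ps_isAdicComplete (σ := Fin (m + 1)) k
  have := isAdicComplete_of_le (RingHom.ker ψ) (RingHom.ker_ne_top ψ)
  obtain ⟨φt, hφt⟩ := exists_lift_charP (RingHom.ker ψ) hp
    (by rw [← map_natCast (C : l →+* PS (Fin g) l), hl, map_zero])
    ((RingHom.quotientKerEquivOfSurjective hψ).symm.toRingHom.comp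
      ((algebraMap R S).comp (φ.comp C)))
  have hφt' : ∀ a, ψ (φt a) = algebraMap R S (φ (C a)) := fun a => by
    have h1 := congrArg (RingHom.quotientKerEquivOfSurjective hψ) (RingHom.congr_fun hφt a)
    simpa using h1
  choose xt hxt using fun i => hψ (algebraMap R S (φ (X i)))
  have hxtm : ∀ i, xt i ∈ maximalIdeal (PS (Fin g) l) := fun i hu => by
    have h1 := hu.map ψ
    rw [hxt] at h1
    exact hx.1 i (isUnit_of_map_unit _ _ h1)
  obtain ⟨αt, hα1, hα2⟩ := exists_psHom (maximalIdeal (PS (Fin g) l)) φt (fun i => xt i ^ p ^ ε)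
    fun i => Ideal.pow_mem_of_mem _ (hxtm i) _ hq
  obtain ⟨γS, hγ1, hγ2⟩ := huniv S' (π.comp αt) ((algebraMap S S').comp (algebraMap R S))
    (psHom_ext (maximalIdeal S') _ _
      (fun a => by simp [hα1, iterateFrobenius_def, ← hφt', hπq])
      (fun i => by simp [hα2, ← hxt, hπq])
      (fun i => by
        simp only [RingHom.comp_apply, MvPowerSeries.map_X, hα2]
        exact map_nonunit π _ (Ideal.pow_mem_of_mem _ (hxtm i) _ hq)))
  obtain ⟨τ, hτ1, hτ2⟩ := exists_psHom (maximalIdeal (PS (Fin (m + 1)) k)) C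
    (fun i => X i ^ p ^ ε) fun i => Ideal.pow_mem_of_mem _
      (by rw [ps_maximalIdeal]; exact Ideal.subset_span ⟨i, rfl⟩) _ hq
  obtain ⟨γ, hγ3, hγ4⟩ := huniv R (φ.comp τ) (iterateFrobenius R p ε)
    (psHom_ext (maximalIdeal R) _ _
      (fun a => by simp [hτ1, iterateFrobenius_def])
      (fun i => by simp [hτ2, iterateFrobenius_def])
      (fun i => by
        simp only [RingHom.comp_apply, MvPowerSeries.map_X, hτ2, map_pow]
        exact Ideal.pow_mem_of_mem _ (hx.1 i) _ hq))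
  have hres' : Function.Surjective ((residue R).comp ((φ.comp τ).comp C)) := by
    have : (φ.comp τ).comp C = φ.comp C := RingHom.ext fun a => by simp [hτ1]
    rwa [this]
  have hfin : (φ.comp τ).Finite := psHom_finite _ (by simpa [hτ2] using hx.pow hq) hres'
  let _ : Algebra R' S' := γS.toAlgebra
  have := charP_of_eq_zero (A := R') hp (by rw [← map_natCast (algebraMap R R'), hR, map_zero])
  have hφ' : ∀ f, algebraMap R R' (φ f) = φ' (MvPowerSeries.map (iterateFrobenius k p ε) f) :=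
    fun f => (RingHom.congr_fun hcomp f).symm
  have hγ3' : ∀ f, γ (φ' f) = φ (τ f) := fun f => RingHom.congr_fun hγ3 f
  have hγ4' : ∀ a, γ (algebraMap R R' a) = a ^ p ^ ε := fun a => RingHom.congr_fun hγ4 a
  have hnil : iterateFrobenius R' p ε = (algebraMap R R').comp γ := by
    refine hext R' _ _ (psHom_ext (maximalIdeal R') _ _ (fun a => ?_) (fun i => ?_) fun i => ?_) ?_
    · simp [hγ3', hτ1, hφ', iterateFrobenius_def]
    · simp [hγ3', hτ2, hφ', iterateFrobenius_def]
    · have h1 := hφ' (X i)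
      rw [MvPowerSeries.map_X] at h1
      have := hR'.isLocalHom
      simp only [RingHom.comp_apply, iterateFrobenius_def, ← h1]
      exact Ideal.pow_mem_of_mem _ (map_nonunit _ _ (hx.1 i)) _ hq
    · ext a
      simp [hγ4', iterateFrobenius_def]
  refine ⟨R', S', inferInstance, inferInstance, inferInstance, inferInstance, inferInstance,
    inferInstance, inferInstance, inferInstance, inferInstance, γ, hR', hloc, hflat, hlen,
    fun a => RingHom.congr_fun hγ2 a, ?_, ?_, hγ4', fun ρ hρ => ?_⟩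
  · rw [← hγ3] at hfin
    exact hfin.of_comp_finite
  · rw [← hγ3] at hres'
    exact Function.Surjective.of_comp (g := φ'.comp C) hres'
  · have h1 := RingHom.congr_fun hnil ρ
    rwa [RingHom.comp_apply, hρ, map_zero, iterateFrobenius_def] at h1

theorem core_domain [IsDomain R] {p : ℕ} (hp : p.Prime) (hR : (p : R) = 0) {m : ℕ}
    {k l : Type u} [Field k] [Field l] (φ : PS (Fin (m + 1)) k →+* R)
    (hres : Function.Surjective ((residue R).comp (φ.comp C))) {g : ℕ} (ψ : PS (Fin g) l →+* S)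
    (hψ : Function.Surjective ψ) (hx : IsRed fun i => φ (X i)) {y : Fin (m + 1) → S}
    (hy : IsSop y) (hl : Module.length S (S ⧸ mS R S) ≠ ⊤) {e : ℝ}
    (he : IsMult R (Ideal.span (Set.range fun i => φ (X i))) (m + 1) e) :
    e ≤ (epsR y : ℤ) := by
  have heps : (0 : ℝ) ≤ (epsR y : ℤ) := by exact_mod_cast epsR_nonneg hy
  rcases le_or_gt e 0 with he0 | he0
  · exact he0.trans heps
  have hxs := hx.isSop
  set x : Fin (m + 1) → R := fun i => φ (X i) with hxdef
  obtain ⟨hxm, n0, hred⟩ := id hx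
  obtain ⟨t, ht⟩ := hy.2
  obtain ⟨C0, hC⟩ := core_step hxs he0 he t
  obtain ⟨lam, hlam⟩ := ENat.ne_top_iff_exists.1 hl
  have lim := (tendsto_aux n0 m (lam * C0) hp.one_lt).mul_const e
  rw [one_mul] at lim
  refine le_of_tendsto lim ?_
  filter_upwards [(tendsto_pow_atTop_atTop_of_one_lt hp.one_lt).eventually_ge_atTop (2 * n0 + 1)]
    with ε hε
  obtain ⟨R', S', _, _, _, _, _, _, _, _, _, γ, hR', hloc, hflat, hlen, hc, hfin, hres', hγ, hnil⟩ :=
    exists_level hp hR φ hres ψ hψ hxs ε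
  generalize p ^ ε = q at *
  set N := q - n0 with hN
  set a : ℝ := ((N : ℝ) ^ (m + 1) - lam * C0 * (N : ℝ) ^ m) / (q : ℝ) ^ (m + 1) with ha
  rcases le_or_gt a 0 with ha0 | ha0
  · exact (mul_nonpos_of_nonpos_of_nonneg ha0 he0.le).trans heps
  obtain ⟨hloc', hflat', hmS⟩ := flat_of_unr_square (S := S) (S' := S') hR' hc
  obtain ⟨lf, hlf⟩ := ENat.ne_top_iff_exists.1 hlen
  have hlf0 : 0 < lf := by
    have : Nontrivial (S' ⧸ mS S S') := Ideal.Quotient.nontrivial_iff.2
      (ne_top_of_le_ne_top (maximalIdeal.isMaximal S').ne_top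
        (((local_hom_TFAE (algebraMap S S')).out 0 2).1 hloc))
    have h1 : 0 < Module.length S' (S' ⧸ mS S S') := Module.length_pos
    rw [← hlf] at h1
    exact_mod_cast h1
  have hx' := (hR'.isRed hx).isSop
  have hy' := IsSop.map hlen hy
  have he' : IsMult R' (Ideal.span (Set.range fun i => algebraMap R R' (x i))) (m + 1) e := by
    rw [← pr_span_map]
    unfold IsMult
    rwa [hR'.HS_map]
  have hmap : (maximalIdeal R').map γ ≤ Ideal.span (Set.range x) ^ N := by
    rw [← hR'.map_eq, Ideal.map_map, Ideal.map_le_iff_le_comap]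
    intro z hz
    rw [Ideal.mem_comap, RingHom.comp_apply, hγ]
    have h1 := red_pow_le hred N
    rw [show n0 + N = q by omega] at h1
    exact (h1.trans Ideal.mul_le_left) (Ideal.pow_mem_pow hz q)
  have key := le_epsR_of_primes (R := R') (S := S') hx' hy' (α := lf * a)
    (mul_nonneg (Nat.cast_nonneg _) ha0.le) he' ?_
  · rw [epsR_baseChange hy hlen, ← hlf, ENat.toNat_natCast] at key
    push_cast at key
    rw [mul_assoc] at key
    exact le_of_mul_le_mul_left key (by exact_mod_cast hlf0)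
  intro R1 S1 _ _ _ _ _ _ _ _ _ _ _ _ hsq e1 he1
  have hy1 := IsSop.map_of_surjective hsq.surjS hy'
  have hx1 := IsSop.map_of_surjective hsq.surjR hx'
  have hle : RingHom.ker γ ≤ RingHom.ker (algebraMap R' R1) := fun ρ hρ => by
    have h1 := congrArg (algebraMap R' R1) (hnil ρ hρ)
    rw [map_pow, map_zero] at h1
    exact pow_eq_zero_iff (by omega) |>.1 h1
  rcases hle.lt_or_eq with hlt | heq
  · have := RingHom.ker_isPrime γ
    rw [isMult_eq_zero hsq.surjR _ hlt hx' he1, mul_zero]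
    exact_mod_cast epsR_nonneg hy1
  let γ1 : R1 →+* R := (algebraMap R' R1).liftOfSurjective hsq.surjR ⟨γ, heq.ge⟩
  have hγ1 : γ1.comp (algebraMap R' R1) = γ := RingHom.liftOfSurjective_comp _ _ _
  have hγ1' : ∀ z, γ1 (algebraMap R' R1 z) = γ z := fun z => RingHom.congr_fun hγ1 z
  let _ : Algebra R1 R := γ1.toAlgebra
  have hmap1 : (maximalIdeal R1).map (algebraMap R1 R) ≤ Ideal.span (Set.range x) ^ N := by
    rw [← map_maximalIdeal_of_surjective _ hsq.surjR, Ideal.map_map]
    change Ideal.map (γ1.comp _) _ ≤ _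
    rwa [hγ1]
  have hIm : Ideal.span (Set.range x) ≤ maximalIdeal R :=
    Ideal.span_le.2 (Set.range_subset_iff.2 hxm)
  have : IsLocalHom (algebraMap R1 R) := ((local_hom_TFAE (algebraMap R1 R)).out 0 2).2
    (hmap1.trans ((Ideal.pow_le_self (by omega)).trans hIm))
  have : Module.Finite R1 R := by
    rw [← hγ1] at hfin
    exact hfin.of_comp_finite
  have hmm : mS R' S' ≤ mS S S' := by
    rw [hmS]
    exact Ideal.map_mono (Ideal.map_le_iff_le_comap.2 fun z hz => map_nonunit _ _ hz)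
  have h1 := hC R1 S1 N q _ _ (lam * lf) lf e1
    (by
      rw [← hγ1] at hres'
      exact Function.Surjective.of_comp (g := algebraMap R' R1) hres')
    (by omega) (by omega) (fun i => (hγ1' _).trans (hγ _)) hx1 hmap1 hy1
    (by rw [hsq.mS_eq, hsq.length_quot _ le_rfl, hmS, length_quot_map, ← hlam, ← hlf, Nat.cast_mul])
    (by
      rw [hlf, ← hsq.length_quot _ hmm]
      have h2 : mS R1 S1 ⊔ Ideal.span (Set.range fun i =>
          algebraMap S' S1 (algebraMap S S' (y i))) ≤ (mS S S').map (algebraMap S' S1) := by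
        refine sup_le ?_ (Ideal.span_le.2 (Set.range_subset_iff.2 fun i =>
          Ideal.mem_map_of_mem _ (Ideal.mem_map_of_mem _ (hy.1 i))))
        rw [hsq.mS_eq]
        exact Ideal.map_mono hmm
      exact Module.length_le_of_surjective (Submodule.factor h2) (Submodule.factor_surjective _))
    (fun i => by
      rw [← map_pow, ← map_pow, hsq.comm, hc, ← pr_span_map, ← pr_span_map, map_pow]
      exact Ideal.mem_map_of_mem _ (Ideal.mem_map_of_mem _
        (ht (Ideal.pow_mem_pow (map_nonunit _ _ (hxm i)) t))))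
    he1
  have hq0 : (0 : ℝ) < (q : ℝ) ^ (m + 1) := pow_pos (by exact_mod_cast (by omega : 0 < q)) _
  rw [ha, ← mul_div_assoc, div_mul_eq_mul_div, div_le_iff₀' hq0]
  refine le_trans (le_of_eq ?_) h1
  push_cast
  ring

theorem lechEps_charP {p : ℕ} (hp : p.Prime) (hR : (p : R) = 0) : LechEps R S := by
  obtain ⟨R', S', _, _, _, _, _, _, _, _, _, hR', hS', hc, _, _⟩ := exists_square_complete R S
  refine LechEps.of_unr hR' hS' hc ?_
  have := hS'.isLocalHom
  have := hS'.flat
  obtain ⟨hloc, hflat, -⟩ := flat_of_unr_square (S := S) (S' := S') hR' hc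
  have hp' : (p : R') = 0 := by rw [← map_natCast (algebraMap R R'), hR, map_zero]
  have hE : EqChar R' := Or.inr ⟨p, hp, hp'⟩
  obtain ⟨g1, hg1⟩ := exists_coefField hE
  obtain ⟨g2, hg2⟩ := exists_coefField (hE.map (algebraMap R' S'))
  intro m x y e hx hy hl he
  obtain ⟨φ, hφ1, hφ2⟩ := exists_psHom (maximalIdeal R') g1 x hx.1
  obtain ⟨g, w, hw⟩ := Submodule.fg_iff_exists_fin_generating_family.1
    (IsNoetherian.noetherian (maximalIdeal S'))
  have hw' : Ideal.span (Set.range w) = maximalIdeal S' := hw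
  obtain ⟨ψ, hψ1, hψ2⟩ := exists_psHom (maximalIdeal S') g2 w fun i =>
    hw' ▸ Ideal.subset_span ⟨i, rfl⟩
  have hψ : Function.Surjective ψ := by
    have h1 : Ideal.span (Set.range fun i => ψ (X i)) = maximalIdeal S' := by
      simp only [hψ2]
      exact hw'
    have : IsHausdorff (Ideal.span (Set.range fun i => ψ (X i))) S' := by
      rw [h1]
      infer_instance
    refine psHom_surjective ψ fun z => ?_
    obtain ⟨z, rfl⟩ := Ideal.Quotient.mk_surjective z
    refine ⟨residue S' z, Ideal.Quotient.eq.2 ?_⟩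
    rw [h1, RingHom.comp_apply, hψ1, ← residue_eq_zero_iff, map_sub, sub_eq_zero]
    exact RingHom.congr_fun hg2 _
  have key := le_epsR_of_primes (R := R') (S := S') hx.isSop hy (α := 1) zero_le_one he ?_
  · rwa [one_mul] at key
  intro R1 S1 _ _ _ _ _ _ _ _ _ _ _ _ hsq e1 he1
  rw [one_mul]
  have hx1 : (fun i => ((algebraMap R' R1).comp φ) (X i)) = fun i => algebraMap R' R1 (x i) := by
    funext i
    simp [hφ2]
  refine core_domain hp (by rw [← map_natCast (algebraMap R' R1), hp', map_zero])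
    ((algebraMap R' R1).comp φ) (fun z => ?_) ((algebraMap S' S1).comp ψ) (hsq.surjS.comp hψ)
    (by rw [hx1]; exact hx.map_of_surjective hsq.surjR) (hy.map_of_surjective hsq.surjS)
    (by rw [hsq.mS_eq, hsq.length_quot _ le_rfl]; exact hl) (by rw [hx1]; exact he1)
  obtain ⟨z, rfl⟩ := residue_surjective z
  obtain ⟨z, rfl⟩ := hsq.surjR z
  refine ⟨residue R' z, ?_⟩
  simp only [RingHom.comp_apply, hφ1]
  rw [← sub_eq_zero, ← map_sub, ← map_sub, residue_eq_zero_iff,
    ← map_maximalIdeal_of_surjective _ hsq.surjR]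
  refine Ideal.mem_map_of_mem _ ?_
  rw [← residue_eq_zero_iff, map_sub, sub_eq_zero]
  exact RingHom.congr_fun hg1 _

end Vale.Agent.P202
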