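import Vale.Agent.P202.Len

/-! Homological algebra of subquotient complexes inside an ambient module. -/

namespace Vale.Agent.P202

open IsLocalRing

universe u

variable {S : Type u} [CommRing S] {E : Type u} [AddCommGroup E] [Module S E]
  {E' : Type u} [AddCommGroup E'] [Module S E'] (μ : LenFun S)
  {d : E →ₗ[S] E} {F1 F2 F3 F' F'' : ℤ → Submodule S E}

theorem isCx_bot : IsCx d (⊥ : ℤ → Submodule S E) := by
  intro n
  simp

theorem Bc_le_Zc (hd : d ∘ₗ d = 0) (h1 : IsCx d F') (h2 : IsCx d F'') (h : F' ≤ F'') (n : ℤ) :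
    Bc d F' F'' n ≤ Zc d F' F'' n := by
  have hdd : ∀ x, d (d x) = 0 := fun x => LinearMap.congr_fun hd x
  refine sup_le (le_inf (h n) (Submodule.map_le_iff_le_comap.1 (h1 n))) (le_inf ?_ ?_)
  · simpa using h2 (n + 1)
  · rintro _ ⟨x, -, rfl⟩
    simp [hdd]

/-- The long exact sequence, numerically. -/
theorem les (hd : d ∘ₗ d = 0) (h1 : IsCx d F1) (h2 : IsCx d F2) (h3 : IsCx d F3)
    (h12 : F1 ≤ F2) (h23 : F2 ≤ F3) :
    ∃ δ : ℤ → ℕ∞,
      (∀ n, hh μ d F1 F2 n = δ (n + 1) + rl μ (Bc d F1 F3 n) (Zc d F1 F2 n)) ∧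
      (∀ n, hh μ d F1 F3 n =
        rl μ (Bc d F1 F3 n) (Zc d F1 F2 n) + rl μ (Bc d F2 F3 n) (Zc d F1 F3 n)) ∧
      (∀ n, hh μ d F2 F3 n = rl μ (Bc d F2 F3 n) (Zc d F1 F3 n) + δ n) := by
  have hdd : ∀ x, d (d x) = 0 := fun x => LinearMap.congr_fun hd x
  have h13 : F1 ≤ F3 := h12.trans h23
  have b12 := Bc_le_Zc hd h1 h2 h12
  have b13 := Bc_le_Zc hd h1 h3 h13
  have b23 := Bc_le_Zc hd h2 h3 h23
  have bb : ∀ n, Bc d F1 F2 n ≤ Bc d F1 F3 n := fun n =>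
    sup_le_sup_left (Submodule.map_mono (h23 _)) _
  have bb' : ∀ n, Bc d F1 F3 n ≤ Bc d F2 F3 n := fun n => sup_le_sup_right (h12 n) _
  have zz : ∀ n, Zc d F1 F2 n ≤ Zc d F1 F3 n := fun n => inf_le_inf_right _ (h23 n)
  have zz' : ∀ n, Zc d F1 F3 n ≤ Zc d F2 F3 n := fun n =>
    inf_le_inf_left _ (Submodule.comap_mono (h12 _))
  refine ⟨fun n => rl μ (Bc d F1 F2 (n - 1)) (Bc d F1 F3 (n - 1) ⊓ Zc d F1 F2 (n - 1)),
    fun n => ?_, fun n => ?_, fun n => ?_⟩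
  · simp only [add_sub_cancel_right]
    unfold hh
    rw [rl_add μ (le_inf (bb n) (b12 n)) inf_le_right, rl_inf]
  · unfold hh
    have e : Bc d F1 F3 n ⊔ Zc d F1 F2 n = Bc d F2 F3 n ⊓ Zc d F1 F3 n := by
      apply le_antisymm
      · exact sup_le (le_inf (bb' n) (b13 n))
          (le_inf (inf_le_left.trans le_sup_left) (zz n))
      · rintro x ⟨hx, hx3, hx1⟩
        obtain ⟨a, ha, _, ⟨b, hb, rfl⟩, rfl⟩ := Submodule.mem_sup.1 hx
        rw [add_comm]
        refine Submodule.add_mem_sup (Submodule.mem_sup_right ⟨b, hb, rfl⟩) ⟨ha, ?_⟩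
        simpa [hdd] using hx1
    rw [rl_add μ (le_sup_left : _ ≤ Bc d F1 F3 n ⊔ Zc d F1 F2 n) (sup_le (b13 n) (zz n)),
      rl_sup, e, rl_inf]
  · unfold hh
    have e1 : Bc d F2 F3 n ⊔ Zc d F1 F3 n = (Bc d F1 F2 (n - 1)).comap d ⊓ Zc d F2 F3 n := by
      apply le_antisymm
      · refine sup_le (le_inf ?_ (b23 n)) (le_inf ?_ (zz' n))
        · refine sup_le (fun a ha => ?_) ?_
          · exact Submodule.mem_sup_right ⟨a, by simpa using ha, rfl⟩
          · rintro _ ⟨b, -, rfl⟩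
            simp [hdd]
        · exact fun a ha => Submodule.mem_sup_left ha.2
      · rintro x ⟨hx, hx3, -⟩
        obtain ⟨a, ha, _, ⟨b, hb, rfl⟩, hab⟩ := Submodule.mem_sup.1 hx
        have hb' : b ∈ F2 n := by simpa using hb
        have : x = b + (x - b) := by abel
        rw [this]
        refine Submodule.add_mem_sup (Submodule.mem_sup_left hb')
          ⟨sub_mem hx3 (h23 n hb'), ?_⟩
        have : d (x - b) = a := by rw [map_sub, ← hab]; abel
        simpa [this] using ha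
    have e2 : Bc d F1 F2 (n - 1) ⊔ (Zc d F2 F3 n).map d =
        Bc d F1 F3 (n - 1) ⊓ Zc d F1 F2 (n - 1) := by
      apply le_antisymm
      · refine sup_le (le_inf (bb _) (b12 _)) ?_
        rintro _ ⟨z, ⟨hz3, hz2⟩, rfl⟩
        exact ⟨Submodule.mem_sup_right ⟨z, by simpa using hz3, rfl⟩, hz2, by simp [hdd]⟩
      · rintro x ⟨hx, hx2, -⟩
        obtain ⟨a, ha, _, ⟨b, hb, rfl⟩, rfl⟩ := Submodule.mem_sup.1 hx
        refine Submodule.add_mem_sup (Submodule.mem_sup_left ha) ⟨b, ⟨by simpa using hb, ?_⟩, rfl⟩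
        have := sub_mem hx2 (h12 _ ha)
        simpa using this
    rw [rl_add μ (le_sup_left : _ ≤ Bc d F2 F3 n ⊔ Zc d F1 F3 n) (sup_le (b23 n) (zz' n)),
      rl_sup, e1, rl_inf, rl_map]
    beta_reduce
    rw [← e2, rl_sup]

theorem hh_le_add (hd : d ∘ₗ d = 0) (h1 : IsCx d F1) (h2 : IsCx d F2) (h3 : IsCx d F3)
    (h12 : F1 ≤ F2) (h23 : F2 ≤ F3) (n : ℤ) :
    hh μ d F1 F3 n ≤ hh μ d F1 F2 n + hh μ d F2 F3 n := by
  obtain ⟨δ, a, b, c⟩ := les μ hd h1 h2 h3 h12 h23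
  rw [a, b, c]
  exact add_le_add le_add_self le_self_add

theorem hh_sub_le (hd : d ∘ₗ d = 0) (h1 : IsCx d F1) (h2 : IsCx d F2) (h3 : IsCx d F3)
    (h12 : F1 ≤ F2) (h23 : F2 ≤ F3) (n : ℤ) :
    hh μ d F1 F2 n ≤ hh μ d F1 F3 n + hh μ d F2 F3 (n + 1) := by
  obtain ⟨δ, a, b, c⟩ := les μ hd h1 h2 h3 h12 h23
  rw [a, b, c, add_comm (δ (n + 1))]
  exact add_le_add le_self_add le_add_self

theorem hh_quot_le (hd : d ∘ₗ d = 0) (h1 : IsCx d F1) (h2 : IsCx d F2) (h3 : IsCx d F3)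
    (h12 : F1 ≤ F2) (h23 : F2 ≤ F3) (n : ℤ) :
    hh μ d F2 F3 n ≤ hh μ d F1 F3 n + hh μ d F1 F2 (n - 1) := by
  obtain ⟨δ, a, b, c⟩ := les μ hd h1 h2 h3 h12 h23
  rw [a, b, c, sub_add_cancel]
  exact add_le_add le_add_self le_self_add

/-- If `H_n(F2/F1) → H_n(F3/F1)` is zero then `H_n(F2/F1)` is a quotient of `H_{n+1}(F3/F2)`. -/
theorem hh_sub_le_of_zero (hd : d ∘ₗ d = 0) (h1 : IsCx d F1) (h2 : IsCx d F2) (h3 : IsCx d F3)
    (h12 : F1 ≤ F2) (h23 : F2 ≤ F3) (n : ℤ) (h0 : Zc d F1 F2 n ≤ Bc d F1 F3 n) :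
    hh μ d F1 F2 n ≤ hh μ d F2 F3 (n + 1) := by
  obtain ⟨δ, a, b, c⟩ := les μ hd h1 h2 h3 h12 h23
  rw [a, c, rl_eq_zero_of_le μ h0, add_zero]
  exact le_add_self

/-- If `H_n(F2/F1) → H_n(F3/F1)` is zero then `H_n(F3/F1)` embeds in `H_n(F3/F2)`. -/
theorem hh_le_quot_of_zero (hd : d ∘ₗ d = 0) (h1 : IsCx d F1) (h2 : IsCx d F2) (h3 : IsCx d F3)
    (h12 : F1 ≤ F2) (h23 : F2 ≤ F3) (n : ℤ) (h0 : Zc d F1 F2 n ≤ Bc d F1 F3 n) :
    hh μ d F1 F3 n ≤ hh μ d F2 F3 n := by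
  obtain ⟨δ, a, b, c⟩ := les μ hd h1 h2 h3 h12 h23
  rw [b, c, rl_eq_zero_of_le μ h0, zero_add]
  exact le_self_add

theorem hh_eq_zero_of_exa (h : Exa d F' F'') (n : ℤ) : hh μ d F' F'' n = 0 := by
  exact rl_eq_zero_of_le μ (h n)

theorem hh_eq_zero_of_le (n : ℤ) (h : F'' n ≤ F' n) : hh μ d F' F'' n = 0 := by
  exact rl_eq_zero_of_le μ (inf_le_left.trans (h.trans le_sup_left))

theorem exa_iff_hh : Exa d F' F'' ↔ ∀ n, hh (lenF S) d F' F'' n = 0 := by
  exact forall_congr' fun n => rl_lenF_eq_zero_iff.symm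

theorem Exa.good (h : Exa d F' F'') : Good d F' F'' := by
  have := exa_iff_hh.1 h
  exact ⟨fun n => by simp [this], by simp [this]⟩

theorem Exa.chi (h : Exa d F' F'') : chi d F' F'' = 0 := by
  have := exa_iff_hh.1 h
  simp [P202.chi, this]

theorem Exa.trans (hd : d ∘ₗ d = 0) (h1 : IsCx d F1) (h2 : IsCx d F2) (h3 : IsCx d F3)
    (h12 : F1 ≤ F2) (h23 : F2 ≤ F3) (e12 : Exa d F1 F2) (e23 : Exa d F2 F3) : Exa d F1 F3 := by
  refine exa_iff_hh.2 fun n => ?_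
  have := hh_le_add (lenF S) hd h1 h2 h3 h12 h23 n
  rw [hh_eq_zero_of_exa _ e12, hh_eq_zero_of_exa _ e23] at this
  simpa using this

theorem hh_eq_of_exa_left (hd : d ∘ₗ d = 0) (h1 : IsCx d F1) (h2 : IsCx d F2) (h3 : IsCx d F3)
    (h12 : F1 ≤ F2) (h23 : F2 ≤ F3) (e12 : Exa d F1 F2) (n : ℤ) :
    hh μ d F1 F3 n = hh μ d F2 F3 n := by
  apply le_antisymm
  · have := hh_le_add μ hd h1 h2 h3 h12 h23 n
    rwa [hh_eq_zero_of_exa _ e12, zero_add] at this
  · have := hh_quot_le μ hd h1 h2 h3 h12 h23 n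
    rwa [hh_eq_zero_of_exa _ e12, add_zero] at this

theorem hh_eq_of_exa_right (hd : d ∘ₗ d = 0) (h1 : IsCx d F1) (h2 : IsCx d F2) (h3 : IsCx d F3)
    (h12 : F1 ≤ F2) (h23 : F2 ≤ F3) (e23 : Exa d F2 F3) (n : ℤ) :
    hh μ d F1 F3 n = hh μ d F1 F2 n := by
  apply le_antisymm
  · have := hh_le_add μ hd h1 h2 h3 h12 h23 n
    rwa [hh_eq_zero_of_exa _ e23, add_zero] at this
  · have := hh_sub_le μ hd h1 h2 h3 h12 h23 n
    rwa [hh_eq_zero_of_exa _ e23, add_zero] at this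

theorem Good.trans (hd : d ∘ₗ d = 0) (h1 : IsCx d F1) (h2 : IsCx d F2) (h3 : IsCx d F3)
    (h12 : F1 ≤ F2) (h23 : F2 ≤ F3) (g12 : Good d F1 F2) (g23 : Good d F2 F3) :
    Good d F1 F3 := by
  refine ⟨fun n => ne_top_of_le_ne_top (WithTop.add_ne_top.2 ⟨g12.1 n, g23.1 n⟩)
    (hh_le_add _ hd h1 h2 h3 h12 h23 n), (g12.2.union g23.2).subset fun n hn => ?_⟩
  by_contra hc
  simp only [Set.mem_union, Set.mem_setOf_eq, not_or, not_not] at hc
  have := hh_le_add (lenF S) hd h1 h2 h3 h12 h23 n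
  rw [hc.1, hc.2] at this
  exact hn (by simpa using this)

theorem Good.left (hd : d ∘ₗ d = 0) (h1 : IsCx d F1) (h2 : IsCx d F2) (h3 : IsCx d F3)
    (h12 : F1 ≤ F2) (h23 : F2 ≤ F3) (g13 : Good d F1 F3) (g23 : Good d F2 F3) :
    Good d F1 F2 := by
  refine ⟨fun n => ne_top_of_le_ne_top (WithTop.add_ne_top.2 ⟨g13.1 n, g23.1 (n + 1)⟩)
    (hh_sub_le _ hd h1 h2 h3 h12 h23 n),
    (g13.2.union (g23.2.image (· - 1))).subset fun n hn => ?_⟩
  by_contra hc
  simp only [Set.mem_union, Set.mem_setOf_eq, not_or, not_not, Set.mem_image, not_exists,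
    not_and] at hc
  have := hh_sub_le (lenF S) hd h1 h2 h3 h12 h23 n
  have h0 : hh (lenF S) d F2 F3 (n + 1) = 0 := by
    by_contra h0
    exact hc.2 (n + 1) h0 (by simp)
  rw [hc.1, h0] at this
  exact hn (by simpa using this)

theorem Good.right (hd : d ∘ₗ d = 0) (h1 : IsCx d F1) (h2 : IsCx d F2) (h3 : IsCx d F3)
    (h12 : F1 ≤ F2) (h23 : F2 ≤ F3) (g12 : Good d F1 F2) (g13 : Good d F1 F3) :
    Good d F2 F3 := by
  refine ⟨fun n => ne_top_of_le_ne_top (WithTop.add_ne_top.2 ⟨g13.1 n, g12.1 (n - 1)⟩)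
    (hh_quot_le _ hd h1 h2 h3 h12 h23 n),
    (g13.2.union (g12.2.image (· + 1))).subset fun n hn => ?_⟩
  by_contra hc
  simp only [Set.mem_union, Set.mem_setOf_eq, not_or, not_not, Set.mem_image, not_exists,
    not_and] at hc
  have := hh_quot_le (lenF S) hd h1 h2 h3 h12 h23 n
  have h0 : hh (lenF S) d F1 F2 (n - 1) = 0 := by
    by_contra h0
    exact hc.2 (n - 1) h0 (by simp)
  rw [hc.1, h0] at this
  exact hn (by simpa using this)

theorem les_nat (hd : d ∘ₗ d = 0) (h1 : IsCx d F1) (h2 : IsCx d F2) (h3 : IsCx d F3)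
    (h12 : F1 ≤ F2) (h23 : F2 ≤ F3) (g12 : Good d F1 F2) (g23 : Good d F2 F3) :
    ∃ δ α β : ℤ → ℕ, (Function.support δ).Finite ∧ (Function.support α).Finite ∧
      (Function.support β).Finite ∧
      (∀ n, (hh (lenF S) d F1 F2 n).toNat = δ (n + 1) + α n) ∧
      (∀ n, (hh (lenF S) d F1 F3 n).toNat = α n + β n) ∧
      (∀ n, (hh (lenF S) d F2 F3 n).toNat = β n + δ n) ∧
      ∀ n, rl (lenF S) (Bc d F1 F3 n) (Zc d F1 F2 n) = α n := by
  obtain ⟨δ, a, b, c⟩ := les (lenF S) hd h1 h2 h3 h12 h23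
  have tα : ∀ n, rl (lenF S) (Bc d F1 F3 n) (Zc d F1 F2 n) ≠ ⊤ := fun n =>
    ne_top_of_le_ne_top (g12.1 n) (by rw [a]; exact le_add_self)
  have tβ : ∀ n, rl (lenF S) (Bc d F2 F3 n) (Zc d F1 F3 n) ≠ ⊤ := fun n =>
    ne_top_of_le_ne_top (g23.1 n) (by rw [c]; exact le_self_add)
  have tδ : ∀ n, δ n ≠ ⊤ := fun n =>
    ne_top_of_le_ne_top (g23.1 n) (by rw [c]; exact le_add_self)
  refine ⟨fun n => (δ n).toNat, fun n => (rl (lenF S) (Bc d F1 F3 n) (Zc d F1 F2 n)).toNat,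
    fun n => (rl (lenF S) (Bc d F2 F3 n) (Zc d F1 F3 n)).toNat,
    g23.2.subset fun n hn h0 => ?_, g12.2.subset fun n hn h0 => ?_,
    g23.2.subset fun n hn h0 => ?_, fun n => ?_, fun n => ?_, fun n => ?_, fun n => ?_⟩
  · rw [c, add_eq_zero] at h0
    exact hn (by simp [h0.2])
  · rw [a, add_eq_zero] at h0
    exact hn (by simp [h0.2])
  · rw [c, add_eq_zero] at h0
    exact hn (by simp [h0.1])
  · rw [a, ENat.toNat_add (tδ _) (tα _)]
  · rw [b, ENat.toNat_add (tα _) (tβ _)]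
  · rw [c, ENat.toNat_add (tβ _) (tδ _)]
  · exact (ENat.coe_toNat (tα n)).symm

theorem chi_eq_sum' (T : Finset ℤ) (h0 : ∀ n ∉ T, hh (lenF S) d F' F'' n = 0) :
    chi d F' F'' =
      ∑ n ∈ T, ((n.negOnePow : ℤˣ) : ℤ) * ((hh (lenF S) d F' F'' n).toNat : ℤ) := by
  refine finsum_eq_sum_of_support_subset _ fun n hn => ?_
  by_contra hc
  exact hn (by simp [h0 n hc])

theorem tot_eq_sum' (T : Finset ℤ) (h0 : ∀ n ∉ T, hh (lenF S) d F' F'' n = 0) :
    tot d F' F'' = ∑ n ∈ T, (hh (lenF S) d F' F'' n).toNat := by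
  refine finsum_eq_sum_of_support_subset _ fun n hn => ?_
  by_contra hc
  exact hn (by simp [h0 n hc])

theorem chi_add (hd : d ∘ₗ d = 0) (h1 : IsCx d F1) (h2 : IsCx d F2) (h3 : IsCx d F3)
    (h12 : F1 ≤ F2) (h23 : F2 ≤ F3) (g12 : Good d F1 F2) (g23 : Good d F2 F3) :
    chi d F1 F3 = chi d F1 F2 + chi d F2 F3 := by
  obtain ⟨δ, α, β, fδ, fα, fβ, a, b, c, -⟩ := les_nat hd h1 h2 h3 h12 h23 g12 g23
  have fin : ∀ {f : ℤ → ℕ}, (Function.support f).Finite →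
      (Function.support fun n : ℤ => ((n.negOnePow : ℤˣ) : ℤ) * (f n : ℤ)).Finite := by
    intro f hf
    refine hf.subset fun n hn => ?_
    intro h0
    exact hn (by simp [h0])
  have fδ' : (Function.support fun n => δ (n + 1)).Finite :=
    (fδ.image (· - 1)).subset fun n hn => ⟨n + 1, hn, by simp⟩
  have shift : ∑ᶠ n : ℤ, ((n.negOnePow : ℤˣ) : ℤ) * (δ (n + 1) : ℤ) =
      -∑ᶠ n : ℤ, ((n.negOnePow : ℤˣ) : ℤ) * (δ n : ℤ) := by
    rw [← finsum_neg_distrib, ← finsum_comp_equiv (Equiv.addRight (1 : ℤ))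
      (f := fun n : ℤ => -(((n.negOnePow : ℤˣ) : ℤ) * (δ n : ℤ)))]
    refine finsum_congr fun n => ?_
    simp [Int.negOnePow_succ]
  unfold chi
  simp only [a, b, c, Nat.cast_add, mul_add]
  rw [finsum_add_distrib (fin fα) (fin fβ), finsum_add_distrib (fin fδ') (fin fα),
    finsum_add_distrib (fin fβ) (fin fδ), shift]
  ring

theorem tot_quot_add_le (hd : d ∘ₗ d = 0) (h1 : IsCx d F1) (h2 : IsCx d F2) (h3 : IsCx d F3)
    (h12 : F1 ≤ F2) (h23 : F2 ≤ F3) (g12 : Good d F1 F2) (g13 : Good d F1 F3) (n0 : ℤ) (g : ℕ)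
    (hg : (g : ℕ∞) ≤ rl (lenF S) (Bc d F1 F3 n0) (Zc d F1 F2 n0)) :
    tot d F2 F3 + 2 * g ≤ tot d F1 F2 + tot d F1 F3 := by
  have g23 := Good.right hd h1 h2 h3 h12 h23 g12 g13
  obtain ⟨δ, α, β, fδ, fα, fβ, a, b, c, hα⟩ := les_nat hd h1 h2 h3 h12 h23 g12 g23
  have fδ' : (Function.support fun n => δ (n + 1)).Finite :=
    (fδ.image (· - 1)).subset fun n hn => ⟨n + 1, hn, by simp⟩
  have shift : ∑ᶠ n : ℤ, δ (n + 1) = ∑ᶠ n : ℤ, δ n :=
    finsum_comp_equiv (Equiv.addRight (1 : ℤ)) (f := δ)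
  have hle : g ≤ ∑ᶠ n, α n := by
    rw [hα] at hg
    exact (Nat.cast_le.1 hg).trans (single_le_finsum n0 fα fun _ => Nat.zero_le _)
  unfold tot
  simp only [a, b, c]
  rw [finsum_add_distrib fα fβ, finsum_add_distrib fδ' fα, finsum_add_distrib fβ fδ, shift]
  omega

theorem hh_le_tot (g : Good d F' F'') (n : ℤ) : hh (lenF S) d F' F'' n ≤ tot d F' F'' := by
  rw [← ENat.coe_toNat (g.1 n)]
  refine Nat.cast_le.2 (single_le_finsum (f := fun n => (hh (lenF S) d F' F'' n).toNat) n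
    (g.2.subset fun n hn h0 => hn (by simp [h0])) fun _ => Nat.zero_le _)

theorem abs_chi_le_tot (g : Good d F' F'') : |chi d F' F''| ≤ tot d F' F'' := by
  have h0 : ∀ n ∉ g.2.toFinset, hh (lenF S) d F' F'' n = 0 := by
    intro n hn
    simpa using hn
  rw [chi_eq_sum' _ h0, tot_eq_sum' _ h0]
  refine (Finset.abs_sum_le_sum_abs _ _).trans ?_
  rw [Nat.cast_sum]
  refine Finset.sum_le_sum fun n _ => ?_
  rw [abs_mul, Int.abs_negOnePow]
  simp

theorem good_of_bounded (T : Finset ℤ) (h0 : ∀ n ∉ T, hh (lenF S) d F' F'' n = 0)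
    (h1 : ∀ n ∈ T, hh (lenF S) d F' F'' n ≠ ⊤) : Good d F' F'' := by
  refine ⟨fun n => ?_, T.finite_toSet.subset fun n hn => ?_⟩
  · by_cases hn : n ∈ T
    · exact h1 n hn
    · simp [h0 n hn]
  · by_contra hc
    exact hn (h0 n hc)

theorem chi_eq_sum (T : Finset ℤ) (h0 : ∀ n ∉ T, hh (lenF S) d F' F'' n = 0) :
    chi d F' F'' =
      ∑ n ∈ T, ((n.negOnePow : ℤˣ) : ℤ) * ((hh (lenF S) d F' F'' n).toNat : ℤ) := by
  exact chi_eq_sum' T h0

theorem tot_eq_sum (T : Finset ℤ) (h0 : ∀ n ∉ T, hh (lenF S) d F' F'' n = 0) :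
    tot d F' F'' = ∑ n ∈ T, (hh (lenF S) d F' F'' n).toNat := by
  exact tot_eq_sum' T h0

theorem neg_le_chi (T : Finset ℤ) (η : ℕ) (h0 : ∀ n ∉ T, hh (lenF S) d F' F'' n = 0)
    (h1 : ∀ n ∈ T, n ≠ 0 → hh (lenF S) d F' F'' n ≤ η) :
    -((T.card : ℤ) * η) ≤ chi d F' F'' := by
  rw [chi_eq_sum T h0]
  have : -((T.card : ℤ) * η) = ∑ _n ∈ T, -(η : ℤ) := by simp
  rw [this]
  refine Finset.sum_le_sum fun n hn => ?_
  by_cases hn0 : n = 0
  · subst hn0
    simp only [Int.negOnePow_zero, Units.val_one, one_mul]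
    omega
  · have h2 : (hh (lenF S) d F' F'' n).toNat ≤ η := ENat.toNat_le_of_le_coe (h1 n hn hn0)
    rcases Int.units_eq_one_or n.negOnePow with h | h <;> rw [h] <;> simp <;> omega

/-- Complexes with zero induced differential. -/
theorem hh_of_zero_diff (h : ∀ n, (F'' n).map d ≤ F' (n - 1)) (n : ℤ) :
    hh μ d F' F'' n = rl μ (F' n) (F'' n) := by
  unfold hh Bc Zc
  have e1 : F' n ⊔ (F'' (n + 1)).map d = F' n := sup_eq_left.2 (by simpa using h (n + 1))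
  have e2 : F'' n ⊓ (F' (n - 1)).comap d = F'' n :=
    inf_eq_left.2 (Submodule.map_le_iff_le_comap.1 (h n))
  rw [e1, e2]

/-- Transfer along a map inducing an isomorphism of subquotient complexes, up to a shift `σ`
of degrees and a unit `c` in the differential. -/
theorem hh_transfer {d' : E' →ₗ[S] E'} {G' G'' : ℤ → Submodule S E'} (φ : E →ₗ[S] E') (σ : ℤ)
    (c : Sˣ) (hF'' : IsCx d F'') (hG' : IsCx d' G')
    (hcomm : ∀ n, ∀ x ∈ F'' n, φ (d x) - (c : S) • d' (φ x) ∈ G' (n - 1 + σ))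
    (hsurj : ∀ n, (F'' n).map φ ⊔ G' (n + σ) = G'' (n + σ))
    (hinj : ∀ n, F'' n ⊓ (G' (n + σ)).comap φ = F' n) (n : ℤ) :
    hh μ d F' F'' n = hh μ d' G' G'' (n + σ) := by
  have hi : ∀ n, ∀ x ∈ F'' n, (φ x ∈ G' (n + σ) ↔ x ∈ F' n) := by
    intro n x hx
    rw [← hinj n]
    exact ⟨fun h => ⟨hx, h⟩, fun h => h.2⟩
  have hF : ∀ n, F' n ≤ F'' n := fun n => by rw [← hinj n]; exact inf_le_left
  have hdF : ∀ n, ∀ x ∈ F'' n, d x ∈ F'' (n - 1) := fun n x hx => hF'' n ⟨x, hx, rfl⟩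
  have hdG : ∀ n, ∀ x ∈ G' n, d' x ∈ G' (n - 1) := fun n x hx => hG' n ⟨x, hx, rfl⟩
  have hunit : ∀ (N : Submodule S E') (y : E'), (c : S) • y ∈ N ↔ y ∈ N := fun N y =>
    N.smul_mem_iff_of_isUnit c.isUnit
  have e1 : (Bc d' G' G'' (n + σ)).comap φ ⊓ Zc d F' F'' n = Bc d F' F'' n ⊓ Zc d F' F'' n := by
    apply le_antisymm
    · rintro x ⟨hx, hxz⟩
      refine ⟨?_, hxz⟩
      obtain ⟨a, ha, _, ⟨b, hb, rfl⟩, hab⟩ := Submodule.mem_sup.1 hx
      rw [show n + σ + 1 = n + 1 + σ by ring, ← hsurj] at hb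
      obtain ⟨_, ⟨y, hy, rfl⟩, g, hg, rfl⟩ := Submodule.mem_sup.1 hb
      have hc := hcomm (n + 1) y hy
      rw [add_sub_cancel_right] at hc
      have hg' : d' g ∈ G' (n + σ) := by
        have := hdG _ g hg
        rwa [show n + 1 + σ - 1 = n + σ by ring] at this
      have hdy : d y ∈ F'' n := by simpa using hdF _ y hy
      have key : x - ((c⁻¹ : Sˣ) : S) • d y ∈ F' n := by
        rw [← hi n _ (sub_mem hxz.1 (Submodule.smul_mem _ _ hdy)), ← hunit]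
        have : (c : S) • φ (x - ((c⁻¹ : Sˣ) : S) • d y) =
            (c : S) • a + (c : S) • d' g - (φ (d y) - (c : S) • d' (φ y)) := by
          rw [map_sub, map_smul, ← hab, map_add, smul_sub, smul_smul, Units.mul_inv, one_smul,
            smul_add, smul_add]
          abel
        rw [this]
        exact sub_mem (add_mem (Submodule.smul_mem _ _ ha) (Submodule.smul_mem _ _ hg')) hc
      have : x = (x - ((c⁻¹ : Sˣ) : S) • d y) + d (((c⁻¹ : Sˣ) : S) • y) := by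
        rw [map_smul]; abel
      rw [this]
      exact Submodule.add_mem_sup key ⟨_, Submodule.smul_mem _ _ hy, rfl⟩
    · rintro x ⟨hx, hxz⟩
      refine ⟨?_, hxz⟩
      obtain ⟨a, ha, _, ⟨y, hy, rfl⟩, rfl⟩ := Submodule.mem_sup.1 hx
      have hc := hcomm (n + 1) y hy
      rw [add_sub_cancel_right] at hc
      have hy' : φ y ∈ G'' (n + σ + 1) := by
        rw [show n + σ + 1 = n + 1 + σ by ring, ← hsurj]
        exact Submodule.mem_sup_left ⟨y, hy, rfl⟩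
      have : φ (a + d y) = (φ a + (φ (d y) - (c : S) • d' (φ y))) + d' ((c : S) • φ y) := by
        rw [map_add, map_smul]; abel
      change φ (a + d y) ∈ Bc d' G' G'' (n + σ)
      rw [this]
      exact Submodule.add_mem_sup (add_mem ((hi n a (hF n ha)).2 ha) hc)
        ⟨_, Submodule.smul_mem _ _ hy', rfl⟩
  have e2 : Bc d' G' G'' (n + σ) ⊔ (Zc d F' F'' n).map φ =
      Bc d' G' G'' (n + σ) ⊔ Zc d' G' G'' (n + σ) := by
    apply le_antisymm
    · refine sup_le_sup_left ?_ _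
      rintro _ ⟨x, ⟨hx, hx'⟩, rfl⟩
      refine ⟨by rw [← hsurj]; exact Submodule.mem_sup_left ⟨x, hx, rfl⟩, ?_⟩
      change d' (φ x) ∈ G' (n + σ - 1)
      rw [show n + σ - 1 = n - 1 + σ by ring, ← hunit]
      have h1 := (hi _ _ (hdF n x hx)).2 hx'
      have := sub_mem h1 (hcomm n x hx)
      simpa using this
    · refine sup_le le_sup_left ?_
      rintro z ⟨hz, hz'⟩
      rw [← hsurj] at hz
      obtain ⟨_, ⟨x, hx, rfl⟩, g, hg, rfl⟩ := Submodule.mem_sup.1 hz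
      rw [add_comm (φ x)]
      refine Submodule.add_mem_sup (Submodule.mem_sup_left hg) ⟨x, ⟨hx, ?_⟩, rfl⟩
      change d x ∈ F' (n - 1)
      rw [← hi _ _ (hdF n x hx)]
      have h1 : d' (φ x) ∈ G' (n - 1 + σ) := by
        have h2 : d' (φ x + g) ∈ G' (n + σ - 1) := hz'
        have := sub_mem h2 (hdG _ g hg)
        rw [show n + σ - 1 = n - 1 + σ by ring] at this
        simpa using this
      have := add_mem (hcomm n x hx) (Submodule.smul_mem _ (c : S) h1)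
      simpa using this
  unfold hh
  rw [← rl_inf, ← e1, rl_inf, rl_map, ← rl_sup, e2, rl_sup]

theorem good_chi_of_hh_shift {d' : E' →ₗ[S] E'} {G' G'' : ℤ → Submodule S E'} (σ : ℤ)
    (h : ∀ n, hh (lenF S) d F' F'' n = hh (lenF S) d' G' G'' (n + σ)) :
    (Good d F' F'' ↔ Good d' G' G'') ∧
      chi d F' F'' = ((σ.negOnePow : ℤˣ) : ℤ) * chi d' G' G'' ∧
      tot d F' F'' = tot d' G' G'' := by
  refine ⟨⟨fun g => ⟨fun n => ?_, (g.2.image (· + σ)).subset fun n hn => ?_⟩,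
    fun g => ⟨fun n => ?_, (g.2.image (· - σ)).subset fun n hn => ?_⟩⟩, ?_, ?_⟩
  · have := g.1 (n - σ)
    rwa [h, sub_add_cancel] at this
  · exact ⟨n - σ, by simpa [h] using hn, by simp⟩
  · rw [h]; exact g.1 _
  · exact ⟨n + σ, by simpa [h] using hn, by simp⟩
  · unfold chi
    rw [mul_finsum, ← finsum_comp_equiv (Equiv.addRight σ) (f := fun n : ℤ =>
      ((σ.negOnePow : ℤˣ) : ℤ) * (((n.negOnePow : ℤˣ) : ℤ) * ((hh (lenF S) d' G' G'' n).toNat : ℤ)))]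
    refine finsum_congr fun n => ?_
    simp only [Equiv.coe_addRight, h, Int.negOnePow_add, Units.val_mul]
    rcases Int.units_eq_one_or σ.negOnePow with h | h <;> simp [h]
  · unfold tot
    simp only [h]
    exact finsum_comp_equiv (Equiv.addRight σ) (f := fun n => (hh (lenF S) d' G' G'' n).toNat)

theorem hh_chain_le (hd : d ∘ₗ d = 0) (F : ℕ → ℤ → Submodule S E) (r : ℕ)
    (hF : ∀ i ≤ r, IsCx d (F i)) (h : ∀ i < r, F i ≤ F (i + 1)) (n : ℤ) :
    hh μ d (F 0) (F r) n ≤ ∑ i ∈ Finset.range r, hh μ d (F i) (F (i + 1)) n := by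
  have key : ∀ k ≤ r, F 0 ≤ F k ∧
      hh μ d (F 0) (F k) n ≤ ∑ i ∈ Finset.range k, hh μ d (F i) (F (i + 1)) n := by
    intro k
    induction k with
    | zero => intro _; exact ⟨le_rfl, by rw [hh_eq_zero_of_le μ n le_rfl]; exact zero_le⟩
    | succ k ih =>
      intro hk
      obtain ⟨a, b⟩ := ih (by omega)
      refine ⟨a.trans (h k (by omega)), ?_⟩
      rw [Finset.sum_range_succ]
      exact (hh_le_add μ hd (hF 0 (by omega)) (hF k (by omega)) (hF _ hk) a (h k (by omega))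
        n).trans (add_le_add b le_rfl)
  exact (key r le_rfl).2

theorem good_chi_chain (hd : d ∘ₗ d = 0) (F : ℕ → ℤ → Submodule S E) (r : ℕ)
    (hF : ∀ i ≤ r, IsCx d (F i)) (h : ∀ i < r, F i ≤ F (i + 1))
    (hg : ∀ i < r, Good d (F i) (F (i + 1))) :
    Good d (F 0) (F r) ∧
      chi d (F 0) (F r) = ∑ i ∈ Finset.range r, chi d (F i) (F (i + 1)) := by
  have key : ∀ k ≤ r, F 0 ≤ F k ∧ Good d (F 0) (F k) ∧
      chi d (F 0) (F k) = ∑ i ∈ Finset.range k, chi d (F i) (F (i + 1)) := by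
    intro k
    induction k with
    | zero =>
      intro _
      have e : Exa d (F 0) (F 0) := exa_iff_hh.2 fun n => hh_eq_zero_of_le _ n le_rfl
      exact ⟨le_rfl, e.good, by simpa using e.chi⟩
    | succ k ih =>
      intro hk
      obtain ⟨a, b, c⟩ := ih (by omega)
      refine ⟨a.trans (h k (by omega)), Good.trans hd (hF 0 (by omega)) (hF k (by omega))
        (hF _ hk) a (h k (by omega)) b (hg k (by omega)), ?_⟩
      rw [Finset.sum_range_succ, ← c]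
      exact chi_add hd (hF 0 (by omega)) (hF k (by omega)) (hF _ hk) a (h k (by omega)) b
        (hg k (by omega))
  exact (key r le_rfl).2

section restrict

variable {R0 : Type u} [CommRing R0] [Algebra R0 S] [Module R0 E] [IsScalarTower R0 S E]

theorem hh_restrict_aux (ν : LenFun R0) (n : ℤ) :
    hh ν (d.restrictScalars R0) (fun n => (F' n).restrictScalars R0)
        (fun n => (F'' n).restrictScalars R0) n =
      rl ν ((Bc d F' F'' n).restrictScalars R0) ((Zc d F' F'' n).restrictScalars R0) := by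
  unfold hh
  congr 1
  unfold Bc
  rw [Submodule.restrictScalars_sup]
  rfl

theorem hh_restrictScalars [IsLocalRing R0] [IsLocalRing S] [IsLocalHom (algebraMap R0 S)]
    (n : ℤ) :
    hh (lenF R0) (d.restrictScalars R0) (fun n => (F' n).restrictScalars R0)
        (fun n => (F'' n).restrictScalars R0) n =
      hh (lenF S) d F' F'' n * Module.length (ResidueField R0) (ResidueField S) := by
  rw [hh_restrict_aux]
  exact rl_restrictScalars _ _

theorem hh_restrictScalars_of_surjective (h : Function.Surjective (algebraMap R0 S)) (n : ℤ) :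
    hh (lenF R0) (d.restrictScalars R0) (fun n => (F' n).restrictScalars R0)
        (fun n => (F'' n).restrictScalars R0) n = hh (lenF S) d F' F'' n := by
  rw [hh_restrict_aux]
  exact rl_restrictScalars_of_surjective h _ _

/-- If all homology lengths are multiplied by a finite constant, so is the Euler characteristic. -/
theorem good_chi_of_hh_mul {S' : Type u} [CommRing S'] {E' : Type u} [AddCommGroup E']
    [Module S' E'] {d' : E' →ₗ[S'] E'} {G' G'' : ℤ → Submodule S' E'} (κ : ℕ)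
    (h : ∀ n, hh (lenF S') d' G' G'' n = hh (lenF S) d F' F'' n * κ) (g : Good d F' F'') :
    Good d' G' G'' ∧ chi d' G' G'' = κ * chi d F' F'' := by
  refine ⟨⟨fun n => ?_, g.2.subset fun n hn h0 => hn (by rw [h, h0, zero_mul])⟩, ?_⟩
  · rw [h]
    exact WithTop.mul_ne_top (g.1 n) (ENat.coe_ne_top κ)
  · unfold chi
    rw [mul_finsum]
    refine finsum_congr fun n => ?_
    rw [h, ENat.toNat_mul]
    simp only [ENat.toNat_coe, Nat.cast_mul]
    ring

end restrict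

end Vale.Agent.P202
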