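import Vale.Agent.P202.Defs

/-! Definitions for the outer reductions. -/

namespace Vale.Agent.P202

open IsLocalRing Filter Topology

universe u

/-- Power series in the variables `σ`. -/
abbrev PS (σ : Type) (k : Type u) [CommRing k] : Type u := MvPowerSeries σ k

/-- Equal characteristic. -/
def EqChar (R : Type u) [CommRing R] : Prop :=
  Nonempty (ℚ →+* R) ∨ ∃ p : ℕ, p.Prime ∧ (p : R) = 0

/-- A flat extension of local rings with trivial closed fibre. -/
structure Unr (R R' : Type u) [CommRing R] [IsLocalRing R] [CommRing R'] [IsLocalRing R']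
    [Algebra R R'] : Prop where
  flat : Module.Flat R R'
  map_eq : (maximalIdeal R).map (algebraMap R R') = maximalIdeal R'

/-- `R1 → S1` is the reduction of `R → S` modulo an ideal of `R`. -/
structure QuotSq (R S R1 S1 : Type u) [CommRing R] [CommRing S] [CommRing R1] [CommRing S1]
    [Algebra R S] [Algebra R R1] [Algebra S S1] [Algebra R1 S1] : Prop where
  surjR : Function.Surjective (algebraMap R R1)
  surjS : Function.Surjective (algebraMap S S1)
  comm : ∀ a, algebraMap R1 S1 (algebraMap R R1 a) = algebraMap S S1 (algebraMap R S a)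
  ker_eq : RingHom.ker (algebraMap S S1) = (RingHom.ker (algebraMap R R1)).map (algebraMap R S)

/-- `x` generates a reduction of the maximal ideal. -/
def IsRed {R : Type u} [CommRing R] [IsLocalRing R] {ι : Type} (x : ι → R) : Prop :=
  (∀ i, x i ∈ maximalIdeal R) ∧
    ∃ n0 : ℕ, maximalIdeal R ^ (n0 + 1) ≤ Ideal.span (Set.range x) * maximalIdeal R ^ n0

/-- `y` generates an ideal primary to the maximal ideal. -/
def IsSop {S : Type u} [CommRing S] [IsLocalRing S] {ι : Type} (y : ι → S) : Prop :=
  (∀ i, y i ∈ maximalIdeal S) ∧ ∃ t : ℕ, maximalIdeal S ^ t ≤ Ideal.span (Set.range y)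

/-- The multiplicity symbol of the ring itself. -/
noncomputable abbrev epsR {S : Type u} [CommRing S] {d : ℕ} (y : Fin d → S) : ℤ :=
  eps y Finset.univ (⊥ : Submodule S S) ⊤

/-- `e` is the multiplicity of `I` in dimension `d`. -/
abbrev IsMult (A : Type u) [CommRing A] (I : Ideal A) (d : ℕ) (e : ℝ) : Prop :=
  Tendsto (HS A I d) atTop (𝓝 e)

/-- The key inequality `e(x; R) ≤ eps(y; S)` for the pair `R → S`. -/
def LechEps (R S : Type u) [CommRing R] [IsLocalRing R] [CommRing S] [IsLocalRing S]
    [Algebra R S] : Prop :=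
  ∀ (m : ℕ) (x : Fin (m + 1) → R) (y : Fin (m + 1) → S) (e : ℝ), IsRed x → IsSop y →
    Module.length S (S ⧸ mS R S) ≠ ⊤ → IsMult R (Ideal.span (Set.range x)) (m + 1) e →
    e ≤ (epsR y : ℝ)

/-- The inequality `e(x; R) ≤ e(y; S)` for the pair `R → S`. -/
def LechMult (R S : Type u) [CommRing R] [IsLocalRing R] [CommRing S] [IsLocalRing S]
    [Algebra R S] : Prop :=
  ∀ (m : ℕ) (x : Fin (m + 1) → R) (y : Fin (m + 1) → S) (e e' : ℝ), IsRed x → IsSop y →
    Module.length S (S ⧸ mS R S) ≠ ⊤ → IsMult R (Ideal.span (Set.range x)) (m + 1) e →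
    IsMult S (Ideal.span (Set.range y)) (m + 1) e' → e ≤ e'

/-- Lech's inequality for the pair `R → S`. -/
def LechIneq (R S : Type u) [CommRing R] [IsLocalRing R] [CommRing S] [IsLocalRing S] : Prop :=
  ∀ (d D : ℕ) (eR eS : ℝ), ringKrullDim R = d → ringKrullDim S = D →
    IsMult R (maximalIdeal R) d eR → IsMult S (maximalIdeal S) D eS → eR ≤ eS

end Vale.Agent.P202
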