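import Vale.Agent.P202.Sig

/-! Auxiliary lemmas for `HS`. -/

namespace Vale.Agent.P202

open MvPolynomial IsLocalRing Filter Topology

universe u

section general

variable {S : Type u} [CommRing S] {E : Type u} [AddCommGroup E] [Module S E]

theorem hs_rl_congr (μ : LenFun S) {A A' B : Submodule S E}
    (h : ∀ v ∈ B, v ∈ A ↔ v ∈ A') : rl μ A B = rl μ A' B := by
  rw [← rl_inf μ A B, ← rl_inf μ A' B]
  congr 1
  ext v
  simp only [Submodule.mem_inf]
  constructor
  · rintro ⟨h1, h2⟩; exact ⟨(h v h2).1 h1, h2⟩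
  · rintro ⟨h1, h2⟩; exact ⟨(h v h2).2 h1, h2⟩

theorem hs_rl_le (μ : LenFun S) {A A' B : Submodule S E}
    (h : ∀ v ∈ B, v ∈ A' → v ∈ A) : rl μ A B ≤ rl μ A' B := by
  rw [← rl_inf μ A' B]
  refine rl_anti_left μ ?_ B
  rintro v ⟨h1, h2⟩
  exact h v h2 h1

theorem hs_rl_up_le (μ : LenFun S) (F : ℕ → Submodule S E) (r : ℕ) :
    rl μ (F 0) (F r) ≤ ∑ i ∈ Finset.range r, rl μ (F i) (F (i + 1)) := by
  induction r with
  | zero => simpa using (rl_eq_zero_of_le μ (le_refl (F 0)))
  | succ r ih =>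
    rw [Finset.sum_range_succ]
    exact (rl_triangle μ _ (F r) _).trans (add_le_add ih le_rfl)

theorem hs_rl_down_le (μ : LenFun S) (F : ℕ → Submodule S E) (r : ℕ) :
    rl μ (F r) (F 0) ≤ ∑ i ∈ Finset.range r, rl μ (F (i + 1)) (F i) := by
  induction r with
  | zero => simpa using (rl_eq_zero_of_le μ (le_refl (F 0)))
  | succ r ih =>
    rw [Finset.sum_range_succ]
    exact (rl_triangle μ _ (F r) _).trans ((add_comm _ _).le.trans (add_le_add ih le_rfl))

theorem hs_rl_down (μ : LenFun S) (F : ℕ → Submodule S E) (h : ∀ i, F (i + 1) ≤ F i) (r : ℕ) :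
    rl μ (F r) (F 0) = ∑ i ∈ Finset.range r, rl μ (F (i + 1)) (F i) := by
  have hm : Antitone F := antitone_nat_of_succ_le h
  induction r with
  | zero => simpa using (rl_eq_zero_of_le μ (le_refl (F 0)))
  | succ r ih =>
    rw [Finset.sum_range_succ, ← ih]
    exact (rl_add μ (h r) (hm (Nat.zero_le r))).trans (add_comm _ _)

end general

section poly

variable {R : Type u} [CommRing R] {n : ℕ}

/-- Polynomials supported on a finite set of exponents. -/
def hsSup (R : Type u) [CommRing R] {n : ℕ} (T : Finset (Fin n →₀ ℕ)) :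
    Submodule R (MvPolynomial (Fin n) R) where
  carrier := {g | ∀ β, β ∉ T → coeff β g = 0}
  add_mem' := by
    intro a b ha hb β hβ
    rw [coeff_add, ha β hβ, hb β hβ, add_zero]
  zero_mem' := fun β _ => coeff_zero β
  smul_mem' := by
    intro c a ha β hβ
    rw [coeff_smul, ha β hβ, smul_zero]

theorem hs_rl_sup (J : Ideal R) (T : Finset (Fin n →₀ ℕ)) :
    rl (lenF R) ((J.map (C : R →+* MvPolynomial (Fin n) R)).restrictScalars R) (hsSup R T) =
      T.card * Module.length R (R ⧸ J) := by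
  classical
  let c : MvPolynomial (Fin n) R →ₗ[R] (T → R ⧸ J) :=
    LinearMap.pi fun β => J.mkQ ∘ₗ lcoeff R β.1
  have h1 : rl (lenF R) ((J.map (C : R →+* MvPolynomial (Fin n) R)).restrictScalars R)
      (hsSup R T) = rl (lenF R) (LinearMap.ker c) (hsSup R T) := by
    apply hs_rl_congr
    intro v hv
    rw [Submodule.restrictScalars_mem, mem_map_C_iff, LinearMap.mem_ker, funext_iff]
    constructor
    · intro h β
      exact (Submodule.Quotient.mk_eq_zero J).2 (h β.1)
    · intro h β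
      by_cases hβ : β ∈ T
      · exact (Submodule.Quotient.mk_eq_zero J).1 (h ⟨β, hβ⟩)
      · rw [hv β hβ]; exact J.zero_mem
  have h2 : (hsSup R T).map c = ⊤ := by
    rw [eq_top_iff]
    intro w _
    choose w' hw' using fun β : T => J.mkQ_surjective (w β)
    refine ⟨∑ β : T, monomial β.1 (w' β), ?_, ?_⟩
    · intro γ hγ
      rw [coeff_sum]
      refine Finset.sum_eq_zero fun β _ => ?_
      rw [coeff_monomial, if_neg]
      rintro rfl
      exact hγ β.2
    · funext γ
      change J.mkQ (coeff γ.1 (∑ β : T, monomial β.1 (w' β))) = w γ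
      rw [coeff_sum, Finset.sum_eq_single γ]
      · rw [coeff_monomial, if_pos rfl, hw']
      · intro β _ hβ
        rw [coeff_monomial, if_neg]
        exact fun h => hβ (Subtype.ext h)
      · simp
  rw [h1, rl_eq_len_map (lenF R) c _ _ rfl, h2]
  change Module.length R (⊤ : Submodule R (T → R ⧸ J)) = _
  rw [Module.length_top, Module.length_pi_of_fintype]
  simp

theorem hs_homog_eq (s : ℕ) :
    homogeneousSubmodule (Fin n) R s = hsSup R (Finset.univ.finsuppAntidiag s) := by
  ext g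
  rw [mem_homogeneousSubmodule]
  constructor
  · intro h β hβ
    refine h.coeff_eq_zero ?_
    intro hd
    apply hβ
    rw [Finset.mem_finsuppAntidiag]
    exact ⟨by rw [← hd, Finsupp.degree_eq_sum], Finset.subset_univ _⟩
  · intro h β hβ
    by_contra hne
    apply hβ
    apply h
    rw [Finset.mem_finsuppAntidiag]
    rintro ⟨h1, -⟩
    apply hne
    rw [← h1, ← Finsupp.degree_eq_sum, Finsupp.degree_eq_weight_one]
    rfl

theorem hs_card_antidiag (d s : ℕ) :
    ((Finset.univ : Finset (Fin (d + 1))).finsuppAntidiag s).card = (s + d).choose d := by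
  rw [Finset.card_finsuppAntidiag_nat_eq_choose, Finset.card_univ, Fintype.card_fin,
    show d + 1 + s - 1 = s + d by omega, Nat.choose_symm_add]

theorem hs_rl_homog {d : ℕ} (J : Ideal R) (s : ℕ) :
    rl (lenF R) ((J.map (C : R →+* MvPolynomial (Fin (d + 1)) R)).restrictScalars R)
      (homogeneousSubmodule (Fin (d + 1)) R s) =
      ((s + d).choose d : ℕ) * Module.length R (R ⧸ J) := by
  rw [hs_homog_eq, hs_rl_sup, hs_card_antidiag]

/-- The map `g ↦ f * g(x)`. -/
noncomputable def hsEv (x : Fin n → R) (f : R) : MvPolynomial (Fin n) R →ₗ[R] R :=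
  LinearMap.mulLeft R f ∘ₗ (aeval x : MvPolynomial (Fin n) R →ₐ[R] R).toLinearMap

theorem hsEv_apply (x : Fin n → R) (f : R) (g : MvPolynomial (Fin n) R) :
    hsEv x f g = f * eval x g := rfl

theorem hs_map_ev (x : Fin n → R) (f : R) (s : ℕ) :
    (homogeneousSubmodule (Fin n) R s).map (hsEv x f) =
      (Ideal.span {f} * Ideal.span (Set.range x) ^ s : Ideal R) := by
  ext z
  rw [Submodule.mem_map]
  change _ ↔ z ∈ (Ideal.span {f} * Ideal.span (Set.range x) ^ s : Ideal R)
  rw [Ideal.mem_span_singleton_mul]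
  constructor
  · rintro ⟨g, hg, rfl⟩
    exact ⟨eval x g, (mem_pow_iff x s _).2 ⟨g, hg, rfl⟩, rfl⟩
  · rintro ⟨w, hw, rfl⟩
    obtain ⟨g, hg, rfl⟩ := (mem_pow_iff x s _).1 hw
    exact ⟨g, hg, rfl⟩

theorem hs_step_gen (x : Fin n → R) (b a : Ideal R) (f : R) (s : ℕ) :
    rl (lenF R) (b ⊔ a * Ideal.span (Set.range x) ^ s : Ideal R)
      (b ⊔ (a ⊔ Ideal.span {f}) * Ideal.span (Set.range x) ^ s : Ideal R) =
    rl (lenF R) (Submodule.comap (hsEv x f) (b ⊔ a * Ideal.span (Set.range x) ^ s : Ideal R))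
      (homogeneousSubmodule (Fin n) R s) := by
  rw [rl_map, hs_map_ev, Ideal.sup_mul, ← sup_assoc]
  exact rl_sup _ _ _

theorem hs_step (x : Fin n → R) (a : Ideal R) (f : R) (s : ℕ) :
    rl (lenF R) (a * Ideal.span (Set.range x) ^ s : Ideal R)
      ((a ⊔ Ideal.span {f}) * Ideal.span (Set.range x) ^ s : Ideal R) =
    rl (lenF R) ((StepI x a f).restrictScalars R) (homogeneousSubmodule (Fin n) R s) := by
  have h := hs_step_gen x ⊥ a f s
  rw [bot_sup_eq, bot_sup_eq] at h
  rw [h]
  apply hs_rl_congr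
  intro g hg
  rw [Submodule.restrictScalars_mem, mem_StepI hg, Submodule.mem_comap, hsEv_apply]

end poly

section local_ring

variable {R : Type u} [CommRing R] [IsLocalRing R] {d : ℕ}

theorem hs_len_residue : Module.length R (R ⧸ maximalIdeal R) = 1 := by
  have : IsSimpleModule R (R ⧸ maximalIdeal R) :=
    (isSimpleModule_iff_isCoatom).2 (Ideal.isMaximal_def.1 (maximalIdeal.isMaximal R))
  exact Module.length_eq_one R _

theorem hs_prime {σ : Type} :
    ((maximalIdeal R).map (C : R →+* MvPolynomial σ R)).IsPrime := by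
  rw [← ker_residue, ← MvPolynomial.ker_map]
  exact RingHom.ker_isPrime _

theorem hs_rl_max (s : ℕ) :
    rl (lenF R) (((maximalIdeal R).map
      (C : R →+* MvPolynomial (Fin (d + 1)) R)).restrictScalars R)
      (homogeneousSubmodule (Fin (d + 1)) R s) = ((s + d).choose d : ℕ) := by
  rw [hs_rl_homog, hs_len_residue, mul_one]

theorem hs_tors_ideal (c : Ideal (MvPolynomial (Fin (d + 1)) R)) (hc : IsHom c)
    (hle : (maximalIdeal R).map (C : R →+* MvPolynomial (Fin (d + 1)) R) ≤ c)
    (hn : ¬ c ≤ (maximalIdeal R).map (C : R →+* MvPolynomial (Fin (d + 1)) R)) :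
    ∃ γ : ℕ, ∀ t : ℕ, rl (lenF R) (c.restrictScalars R)
      (homogeneousSubmodule (Fin (d + 1)) R (γ + t)) + ((t + d).choose d : ℕ) ≤
        ((γ + t + d).choose d : ℕ) := by
  set mP := (maximalIdeal R).map (C : R →+* MvPolynomial (Fin (d + 1)) R) with hmP
  obtain ⟨g0, hg0, hg0'⟩ := Set.not_subset.1 hn
  have : ∃ γ, homogeneousComponent γ g0 ∉ mP := by
    by_contra h
    push Not at h
    apply hg0'
    rw [← sum_homogeneousComponent g0]
    exact Submodule.sum_mem _ fun γ _ => h γ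
  obtain ⟨γ, hγ⟩ := this
  set g := homogeneousComponent γ g0 with hg
  have hgc : g ∈ c := hc g0 hg0 γ
  have hgh : g.IsHomogeneous γ := homogeneousComponent_isHomogeneous γ g0
  refine ⟨γ, fun t => ?_⟩
  let φ : MvPolynomial (Fin (d + 1)) R →ₗ[R] MvPolynomial (Fin (d + 1)) R := LinearMap.mulLeft R g
  let A := mP.restrictScalars R
  let B := (homogeneousSubmodule (Fin (d + 1)) R t).map φ
  let H := homogeneousSubmodule (Fin (d + 1)) R (γ + t)
  have hBH : B ≤ H := by
    rintro _ ⟨v, hv, rfl⟩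
    exact hgh.mul hv
  have h1 : rl (lenF R) A B = ((t + d).choose d : ℕ) := by
    rw [← rl_map, ← hs_rl_max (R := R) t]
    congr 1
    ext v
    rw [Submodule.mem_comap, Submodule.restrictScalars_mem, Submodule.restrictScalars_mem]
    change g * v ∈ mP ↔ v ∈ mP
    constructor
    · intro h
      exact ((hs_prime (R := R)).mem_or_mem h).resolve_left hγ
    · exact mP.mul_mem_left g
  have h2 : rl (lenF R) A (A ⊔ H) = rl (lenF R) A (A ⊔ B) + rl (lenF R) (A ⊔ B) (A ⊔ H) :=
    rl_add _ le_sup_left (sup_le_sup_left hBH A)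
  rw [rl_sup, rl_sup, h1, hs_rl_max] at h2
  rw [h2, add_comm]
  refine add_le_add le_rfl (rl_mono _ ?_ le_sup_right)
  refine sup_le (fun v hv => hle hv) ?_
  rintro _ ⟨v, -, rfl⟩
  exact c.mul_mem_right v hgc

theorem hs_step_le (x : Fin (d + 1) → R) (a : Ideal R) (f : R)
    (hk : ∀ z ∈ maximalIdeal R, z * f ∈ a) (s : ℕ) :
    rl (lenF R) (a * Ideal.span (Set.range x) ^ s : Ideal R)
      ((a ⊔ Ideal.span {f}) * Ideal.span (Set.range x) ^ s : Ideal R) ≤
        ((s + d).choose d : ℕ) := by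
  rw [hs_step, ← hs_rl_max (R := R) s]
  refine rl_anti_left _ ?_ _
  intro v hv
  exact map_C_le_StepI hk hv

theorem hs_step_tors (x : Fin (d + 1) → R) (a : Ideal R) (f : R)
    (hk : ∀ z ∈ maximalIdeal R, z * f ∈ a)
    (hfree : ¬ StepI x a f ≤ (maximalIdeal R).map (C : R →+* MvPolynomial (Fin (d + 1)) R)) :
    ∃ (γ : ℕ) (w : ℕ → ℕ), (∀ s, rl (lenF R) (a * Ideal.span (Set.range x) ^ s : Ideal R)
      ((a ⊔ Ideal.span {f}) * Ideal.span (Set.range x) ^ s : Ideal R) = w s) ∧
      (∀ s, w s ≤ (s + d).choose d) ∧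
      ∀ t, w (γ + t) + (t + d).choose d ≤ (γ + t + d).choose d := by
  obtain ⟨γ, hγ⟩ := hs_tors_ideal (StepI x a f) (isHom_StepI x a f) (map_C_le_StepI hk) hfree
  have hne : ∀ s, rl (lenF R) (a * Ideal.span (Set.range x) ^ s : Ideal R)
      ((a ⊔ Ideal.span {f}) * Ideal.span (Set.range x) ^ s : Ideal R) ≠ ⊤ := fun s =>
    ne_top_of_le_ne_top (ENat.natCast_ne_top _) (hs_step_le x a f hk s)
  choose w hw using fun s => ENat.ne_top_iff_exists.1 (hne s)
  refine ⟨γ, w, fun s => (hw s).symm, fun s => ?_, fun t => ?_⟩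
  · have := hs_step_le x a f hk s
    rw [← hw] at this
    exact_mod_cast this
  · have := hγ t
    rw [← hs_step, ← hw] at this
    exact_mod_cast this

/-- Exponent vectors with all entries below `n`. -/
noncomputable def hsBox (d n : ℕ) : Finset (Fin d →₀ ℕ) :=
  (Fintype.piFinset fun _ : Fin d => Finset.range n).map Finsupp.equivFunOnFinite.symm.toEmbedding

theorem hs_mem_box {d n : ℕ} {β : Fin d →₀ ℕ} : β ∈ hsBox d n ↔ ∀ i, β i < n := by
  unfold hsBox
  rw [Finset.mem_map_equiv]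
  simp [Fintype.mem_piFinset]

theorem hs_card_box (d n : ℕ) : (hsBox d n).card = n ^ d := by
  unfold hsBox
  rw [Finset.card_map, Fintype.card_piFinset]
  simp

omit [IsLocalRing R] in
theorem hs_eval_monomial_mem {d : ℕ} (x : Fin d → R) (n : ℕ) (β : Fin d →₀ ℕ) (c : R)
    (h : β ∉ hsBox d n) :
    eval x (monomial β c) ∈ Ideal.span (Set.range fun i => x i ^ n) := by
  rw [hs_mem_box] at h
  push Not at h
  obtain ⟨i, hi⟩ := h
  rw [eval_monomial, Finsupp.prod_fintype _ _ (by simp)]
  refine Ideal.mul_mem_left _ _ ?_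
  have h1 : x i ^ n ∣ ∏ j, x j ^ β j :=
    (pow_dvd_pow _ hi).trans (Finset.dvd_prod_of_mem (fun j => x j ^ β j) (Finset.mem_univ i))
  obtain ⟨w, hw⟩ := h1
  rw [hw]
  exact Ideal.mul_mem_right _ _ (Ideal.subset_span ⟨i, rfl⟩)

omit [IsLocalRing R] in
theorem hs_pow_le_frob (x : Fin (d + 1) → R) (n : ℕ) :
    Ideal.span (Set.range x) ^ ((d + 1) * n) ≤ Ideal.span (Set.range fun i => x i ^ n) := by
  intro z hz
  obtain ⟨g, hg, rfl⟩ := (mem_pow_iff x _ z).1 hz
  rw [as_sum g, map_sum]
  refine Submodule.sum_mem _ fun β hβ => hs_eval_monomial_mem x n β _ ?_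
  rw [hs_mem_box]
  intro h
  have h1 : β.degree = (d + 1) * n := by
    by_contra h2
    exact (mem_support_iff.1 hβ) (hg.coeff_eq_zero h2)
  rw [Finsupp.degree_eq_sum] at h1
  have h2 : ∑ i, β i < ∑ _i : Fin (d + 1), n :=
    Finset.sum_lt_sum_of_nonempty Finset.univ_nonempty fun i _ => h i
  simp at h2
  omega

theorem hs_frob_step {d : ℕ} (x : Fin d → R) (a : Ideal R) (f : R)
    (hk : ∀ z ∈ maximalIdeal R, z * f ∈ a) (n s : ℕ) :
    rl (lenF R) (Ideal.span (Set.range fun i => x i ^ n) ⊔ a * Ideal.span (Set.range x) ^ s :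
        Ideal R)
      (Ideal.span (Set.range fun i => x i ^ n) ⊔
        (a ⊔ Ideal.span {f}) * Ideal.span (Set.range x) ^ s : Ideal R) ≤
      (((hsBox d n).filter fun β => β.degree = s).card : ℕ) := by
  classical
  rw [hs_step_gen]
  set A := Submodule.comap (hsEv x f) (Ideal.span (Set.range fun i => x i ^ n) ⊔
    a * Ideal.span (Set.range x) ^ s : Ideal R) with hA
  set T := (hsBox d n).filter fun β => β.degree = s with hT
  have h1 : homogeneousSubmodule (Fin d) R s ≤ A ⊔ hsSup R T := by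
    intro g hg
    rw [as_sum g]
    refine Submodule.sum_mem _ fun β hβ => ?_
    by_cases hb : β ∈ hsBox d n
    · refine Submodule.mem_sup_right fun γ hγ => ?_
      rw [coeff_monomial, if_neg]
      rintro rfl
      apply hγ
      rw [hT, Finset.mem_filter]
      refine ⟨hb, ?_⟩
      by_contra h2
      exact (mem_support_iff.1 hβ) (IsHomogeneous.coeff_eq_zero hg h2)
    · refine Submodule.mem_sup_left ?_
      rw [hA, Submodule.mem_comap, hsEv_apply]
      exact Submodule.mem_sup_left (Ideal.mul_mem_left _ _ (hs_eval_monomial_mem x n β _ hb))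
  have h2 := hs_rl_sup (maximalIdeal R) T
  rw [hs_len_residue, mul_one] at h2
  rw [← h2]
  refine (rl_mono _ le_rfl h1).trans ?_
  rw [rl_sup]
  refine hs_rl_le _ fun v hv hv' => ?_
  have hvh : v.IsHomogeneous s := by
    intro β hβ
    by_contra h3
    apply hβ
    apply hv
    rw [hT, Finset.mem_filter]
    rintro ⟨-, h4⟩
    apply h3
    rw [← h4, Finsupp.degree_eq_weight_one]
    rfl
  rw [hA, Submodule.mem_comap, hsEv_apply]
  exact Submodule.mem_sup_right ((mem_StepI hvh).1 (map_C_le_StepI hk hv'))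

theorem hs_frob_sum (d n M : ℕ) :
    ∑ s ∈ Finset.range M, ((hsBox d n).filter fun β => β.degree = s).card ≤ n ^ d := by
  rw [Finset.sum_card_fiberwise_eq_card_filter, ← hs_card_box d n]
  exact Finset.card_filter_le _ _

end local_ring

section numeric

theorem hs_choose_mono (d : ℕ) {s t : ℕ} (h : s ≤ t) : (s + d).choose d ≤ (t + d).choose d :=
  Nat.choose_le_choose d (by omega)

theorem hs_choose_le (d s : ℕ) : (s + d).choose d ≤ (d + 1) ^ d * (s + 1) ^ d := by
  rw [← mul_pow]
  refine (Nat.choose_le_pow _ _).trans (Nat.pow_le_pow_left ?_ _)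
  nlinarith

theorem hs_choose_shift (d γ : ℕ) : ∃ C : ℕ, ∀ t : ℕ,
    (γ + t + 1) * (γ + t + d).choose d ≤ (γ + t + 1) * (t + d).choose d +
      C * (γ + t + d).choose d := by
  induction γ with
  | zero => exact ⟨0, fun t => by simp⟩
  | succ γ ih =>
    obtain ⟨C, hC⟩ := ih
    refine ⟨C + d + 1, fun t => ?_⟩
    have h1 := hC t
    have h2 := Nat.choose_mul_succ_eq (γ + t + d) d
    rw [show γ + t + d + 1 - d = γ + t + 1 by omega] at h2
    have h3 : (γ + t + d).choose d ≤ (γ + t + d + 1).choose d := Nat.choose_le_choose d (by omega)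
    rw [show γ + 1 + t + d = γ + t + d + 1 by omega]
    have h4 : (C + d) * (γ + t + d).choose d ≤ (C + d) * (γ + t + d + 1).choose d :=
      Nat.mul_le_mul_left _ h3
    nlinarith

theorem hs_tors_pointwise (d γ : ℕ) (w : ℕ → ℕ) (h1 : ∀ s, w s ≤ (s + d).choose d)
    (h2 : ∀ t, w (γ + t) + (t + d).choose d ≤ (γ + t + d).choose d) :
    ∃ C : ℕ, ∀ s, w s * (s + 1) ≤ C * (s + 1) ^ d := by
  obtain ⟨C, hC⟩ := hs_choose_shift d γ
  refine ⟨(C + γ) * (d + 1) ^ d, fun s => ?_⟩
  have h3 : w s * (s + 1) ≤ (C + γ) * (s + d).choose d := by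
    rcases lt_or_ge s γ with hs | hs
    · calc w s * (s + 1) ≤ (s + d).choose d * (C + γ) := Nat.mul_le_mul (h1 s) (by omega)
        _ = _ := mul_comm _ _
    · obtain ⟨t, rfl⟩ := Nat.exists_eq_add_of_le hs
      have h4 := hC t
      have h5 := Nat.mul_le_mul_left (γ + t + 1) (h2 t)
      nlinarith [Nat.zero_le (γ * (γ + t + d).choose d)]
  rw [mul_assoc]
  exact h3.trans (Nat.mul_le_mul_left _ (hs_choose_le d s))

theorem hs_tors_sum (d γ : ℕ) (w : ℕ → ℕ) (h1 : ∀ s, w s ≤ (s + d).choose d)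
    (h2 : ∀ t, w (γ + t) + (t + d).choose d ≤ (γ + t + d).choose d) (n : ℕ) :
    ∑ s ∈ Finset.range n, w s ≤ γ * (n + d).choose d := by
  rcases le_or_gt n γ with hn | hn
  · calc ∑ s ∈ Finset.range n, w s ≤ ∑ s ∈ Finset.range n, (n + d).choose d :=
          Finset.sum_le_sum fun s hs =>
            (h1 s).trans (hs_choose_mono d (Finset.mem_range.1 hs).le)
      _ = n * (n + d).choose d := by simp
      _ ≤ _ := Nat.mul_le_mul_right _ hn
  · obtain ⟨t, rfl⟩ := Nat.exists_eq_add_of_le hn.le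
    have h3 : ∑ s ∈ Finset.range (γ + t), w s + ∑ s ∈ Finset.range t, (s + d).choose d ≤
        ∑ s ∈ Finset.range (γ + t), (s + d).choose d := by
      rw [Finset.sum_range_add, Finset.sum_range_add, add_assoc, ← Finset.sum_add_distrib]
      exact add_le_add (Finset.sum_le_sum fun s _ => h1 s) (Finset.sum_le_sum fun s _ => h2 s)
    have h4 : ∑ s ∈ Finset.range (γ + t), (s + d).choose d ≤
        ∑ s ∈ Finset.range t, (s + d).choose d + γ * (γ + t + d).choose d := by
      rw [add_comm γ t, Finset.sum_range_add]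
      refine add_le_add le_rfl ?_
      calc ∑ s ∈ Finset.range γ, (t + s + d).choose d
          ≤ ∑ s ∈ Finset.range γ, (t + γ + d).choose d :=
            Finset.sum_le_sum fun s hs =>
              hs_choose_mono d (by have := Finset.mem_range.1 hs; omega)
        _ = _ := by simp
    omega

theorem hs_sum_choose (d n : ℕ) :
    ∑ s ∈ Finset.range n, (s + d).choose d = (n + d).choose (d + 1) := by
  cases n with
  | zero => simp
  | succ n => rw [Nat.sum_range_add_choose]; congr 1; omega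

theorem hs_tendsto_ratio (k : ℝ) (d : ℕ) :
    Tendsto (fun n : ℕ => (((n : ℝ) + k) / n) ^ d) atTop (𝓝 1) := by
  have h1 : Tendsto (fun n : ℕ => ((n : ℝ) + k) / n) atTop (𝓝 1) := by
    have h2 : Tendsto (fun n : ℕ => 1 + k / (n : ℝ)) atTop (𝓝 (1 + 0)) :=
      tendsto_const_nhds.add (tendsto_const_div_atTop_nhds_zero_nat k)
    rw [add_zero] at h2
    refine h2.congr' ?_
    filter_upwards [eventually_gt_atTop 0] with n hn
    have : (n : ℝ) ≠ 0 := by positivity
    field_simp
  simpa using h1.pow d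

theorem hs_tendsto_main (d : ℕ) :
    Tendsto (fun n : ℕ => ((d + 1).factorial : ℝ) * ((n + d).choose (d + 1) : ℕ) / (n : ℝ) ^ (d + 1))
      atTop (𝓝 1) := by
  refine tendsto_of_tendsto_of_tendsto_of_le_of_le' tendsto_const_nhds
    (hs_tendsto_ratio d (d + 1)) ?_ ?_
  · filter_upwards [eventually_gt_atTop 0] with n hn
    have h := Nat.pow_succ_le_ascFactorial n (d + 1)
    rw [Nat.ascFactorial_eq_factorial_mul_choose', show n + (d + 1) - 1 = n + d by omega] at h
    rw [le_div_iff₀ (by positivity), one_mul]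
    exact_mod_cast h
  · filter_upwards [eventually_gt_atTop 0] with n hn
    obtain ⟨m, rfl⟩ : ∃ m, n = m + 1 := ⟨n - 1, by omega⟩
    have h := Nat.ascFactorial_le_pow_add m (d + 1)
    rw [Nat.ascFactorial_eq_factorial_mul_choose, show m + (d + 1) = m + 1 + d by omega] at h
    rw [div_pow]
    refine div_le_div_of_nonneg_right ?_ (by positivity)
    exact_mod_cast h

theorem hs_tendsto_err (d : ℕ) :
    Tendsto (fun n : ℕ => (((n + d).choose d : ℕ) : ℝ) / (n : ℝ) ^ (d + 1)) atTop (𝓝 0) := by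
  have h1 : Tendsto (fun n : ℕ => (((n : ℝ) + d) / n) ^ d * (1 / (n : ℝ))) atTop (𝓝 (1 * 0)) :=
    (hs_tendsto_ratio d d).mul (tendsto_const_div_atTop_nhds_zero_nat 1)
  rw [mul_zero] at h1
  refine tendsto_of_tendsto_of_tendsto_of_le_of_le' tendsto_const_nhds h1 ?_ ?_
  · exact Eventually.of_forall fun n => by positivity
  · filter_upwards [eventually_gt_atTop 0] with n hn
    have h := Nat.choose_le_pow (n + d) d
    rw [div_pow, div_mul_div_comm, mul_one, ← pow_succ]
    refine div_le_div_of_nonneg_right ?_ (by positivity)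
    exact_mod_cast h

end numeric

end Vale.Agent.P202
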