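import Vale.Agent.P202.RankA
import Vale.Agent.P202.HSAux

/-! Spreading out: properties of finitely generated subrings, and base change. -/

namespace Vale.Agent.P202

open IsLocalRing TensorProduct

universe u

/-- A property of subrings that holds as soon as the subring contains a suitable finite set. -/
def Ev (B : Type u) [CommRing B] (Φ : ∀ (D : Type u) [CommRing D], (D →+* B) → Prop) : Prop :=
  ∃ G : Set B, G.Finite ∧ ∀ (D : Type u) [CommRing D] (ι : D →+* B), Function.Injective ι →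
    G ⊆ Set.range ι → Φ D ι

section ev

variable {B : Type u} [CommRing B] {Φ Ψ : ∀ (D : Type u) [CommRing D], (D →+* B) → Prop}

theorem Ev.mono (h : Ev B Φ)
    (H : ∀ (D : Type u) [CommRing D] (ι : D →+* B), Function.Injective ι → Φ D ι → Ψ D ι) :
    Ev B Ψ := by
  obtain ⟨G, hG, h⟩ := h
  exact ⟨G, hG, fun D _ ι hι hs => H D ι hι (h D ι hι hs)⟩

theorem Ev.and (h : Ev B Φ) (h' : Ev B Ψ) : Ev B fun D _ ι => Φ D ι ∧ Ψ D ι := by
  obtain ⟨G, hG, h⟩ := h
  obtain ⟨G', hG', h'⟩ := h'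
  exact ⟨G ∪ G', hG.union hG', fun D _ ι hι hs =>
    ⟨h D ι hι (Set.subset_union_left.trans hs), h' D ι hι (Set.subset_union_right.trans hs)⟩⟩

theorem Ev.ball {α : Type*} {s : Set α} (hs : s.Finite)
    {Φ : α → ∀ (D : Type u) [CommRing D], (D →+* B) → Prop} (h : ∀ a ∈ s, Ev B (Φ a)) :
    Ev B fun D _ ι => ∀ a ∈ s, Φ a D ι := by
  choose G hG h using h
  refine ⟨⋃ a, ⋃ (ha : a ∈ s), G a ha, hs.biUnion' hG, fun D _ ι hι hsub a ha => ?_⟩
  exact h a ha D ι hι ((Set.subset_iUnion₂ (s := fun a (ha : a ∈ s) => G a ha) a ha).trans hsub)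

theorem ev_lift {τ : Type} [Finite τ] (f : τ → B) :
    Ev B fun D _ ι => ∃ f' : τ → D, ∀ i, ι (f' i) = f i := by
  refine ⟨Set.range f, Set.finite_range f, fun D _ ι _ hs => ?_⟩
  choose f' hf' using fun i => hs ⟨i, rfl⟩
  exact ⟨f', hf'⟩

theorem Ev.exists_fg (h : Ev B Φ) : ∃ (C : Type u) (_ : CommRing C) (ι : C →+* B),
    Function.Injective ι ∧ Algebra.FiniteType ℤ C ∧ Φ C ι := by
  obtain ⟨G, hG, h⟩ := h
  have h1 : Algebra.FiniteType ℤ (Algebra.adjoin ℤ G) := .adjoin_of_finite hG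
  refine ⟨Algebra.adjoin ℤ G, inferInstance, (Algebra.adjoin ℤ G).val.toRingHom,
    Subtype.val_injective, ?_, h _ _ Subtype.val_injective
      fun x hx => ⟨⟨x, Algebra.subset_adjoin hx⟩, rfl⟩⟩
  convert h1

theorem ev_span {s : Set B} {u : B} (hu : u ∈ Ideal.span s) :
    Ev B fun D _ ι => ∀ uD : D, ι uD = u → ∀ I : Ideal D, s ⊆ ι '' I → uD ∈ I := by
  obtain ⟨n, f, g, hfg⟩ := Submodule.mem_span_set'.1 hu
  refine (ev_lift f).mono fun D _ ι hι ⟨f', hf'⟩ uD huD I hI => ?_
  choose g' hg' hg'' using fun i => hI (g i).2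
  have : uD = ∑ i, f' i * g' i := by
    apply hι
    rw [huD, ← hfg, map_sum]
    exact Finset.sum_congr rfl fun i _ => by rw [map_mul, hf', hg'', smul_eq_mul]
  rw [this]
  exact I.sum_mem fun i _ => I.mul_mem_left _ (hg' i)

theorem ev_span_set {s s' : Set B} (hs' : s'.Finite) (h : s' ⊆ Ideal.span s) :
    Ev B fun D _ ι => ∀ uD : D, ι uD ∈ s' → ∀ I : Ideal D, s ⊆ ι '' I → uD ∈ I :=
  (Ev.ball hs' fun _ ha => ev_span (h ha)).mono fun _ _ _ _ H uD hu => H _ hu uD rfl

theorem Ev.step {B' : Type u} [CommRing B'] [Algebra B B'] {N : ℕ} (g : Fin N → B')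
    (hg : Submodule.span B (Set.range g) = ⊤)
    {Φ : ∀ (D : Type u) [CommRing D], (D →+* B') → Prop} (h : Ev B' Φ) :
    Ev B fun D _ ι => ∃ (D' : Type u) (_ : CommRing D') (_ : Algebra D D') (ι' : D' →+* B')
      (g' : Fin N → D'), Function.Injective ι' ∧
      (∀ a, ι' (algebraMap D D' a) = algebraMap B B' (ι a)) ∧ (∀ i, ι' (g' i) = g i) ∧
      Submodule.span D (Set.range g') = ⊤ ∧ Φ D' ι' := by
  obtain ⟨G, hG, h⟩ := h
  have h1 : ∀ w : B', Ev B fun D _ ι => ∃ c : Fin N → D, ∑ i, ι (c i) • g i = w := by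
    intro w
    obtain ⟨c, hc⟩ := (Submodule.mem_span_range_iff_exists_fun B).1
      (hg.symm ▸ Submodule.mem_top : w ∈ Submodule.span B (Set.range g))
    refine (ev_lift c).mono fun D _ ι _ ⟨c', hc'⟩ => ⟨c', ?_⟩
    simp only [hc', hc]
  have hfin : (G ∪ (insert 1 (Set.range fun ij : Fin N × Fin N => g ij.1 * g ij.2))).Finite :=
    hG.union ((Set.finite_range _).insert _)
  refine (Ev.ball hfin fun w _ => h1 w).mono fun D _ ι _ H => ?_
  letI : Algebra D B' := ((algebraMap B B').comp ι).toAlgebra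
  have hsm : ∀ (c : D) (w : B'), c • w = ι c • w := fun c w => by
    rw [Algebra.smul_def, Algebra.smul_def]; rfl
  have hmem : ∀ w ∈ G ∪ (insert 1 (Set.range fun ij : Fin N × Fin N => g ij.1 * g ij.2)),
      w ∈ Submodule.span D (Set.range g) := by
    intro w hw
    obtain ⟨c, hc⟩ := H w hw
    exact (Submodule.mem_span_range_iff_exists_fun D).2 ⟨c, by simp only [hsm, hc]⟩
  have hmul : ∀ x y, x ∈ Submodule.span D (Set.range g) → y ∈ Submodule.span D (Set.range g) →
      x * y ∈ Submodule.span D (Set.range g) := by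
    intro x y hx hy
    have h2 := Submodule.mul_mem_mul hx hy
    rw [Submodule.span_mul_span] at h2
    refine Submodule.span_le.2 ?_ h2
    rintro _ ⟨_, ⟨i, rfl⟩, _, ⟨j, rfl⟩, rfl⟩
    exact hmem _ (Or.inr (Or.inr ⟨(i, j), rfl⟩))
  let D' : Subalgebra D B' := (Submodule.span D (Set.range g)).toSubalgebra
    (hmem _ (Or.inr (Or.inl rfl))) hmul
  refine ⟨D', inferInstance, inferInstance, D'.val.toRingHom,
    fun i => ⟨g i, Submodule.subset_span ⟨i, rfl⟩⟩, Subtype.val_injective, fun a => rfl,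
    fun i => rfl, ?_, h _ _ Subtype.val_injective fun w hw => ⟨⟨w, hmem w (Or.inl hw)⟩, rfl⟩⟩
  refine eq_top_iff.2 fun x _ => ?_
  obtain ⟨c, hc⟩ := (Submodule.mem_span_range_iff_exists_fun D).1
    (show x.1 ∈ Submodule.span D (Set.range g) from x.2)
  refine (Submodule.mem_span_range_iff_exists_fun D).2 ⟨c, Subtype.ext ?_⟩
  rw [← hc]
  simp

theorem ev_length [IsLocalRing B] {q : Set B} (hq : q.Finite) (hqm : q ⊆ maximalIdeal B)
    (lam : ℕ) : ∀ s : Set B, Module.length B (B ⧸ Ideal.span s) ≤ lam →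
    Ev B fun D _ ι => ∀ (B0 : Type u) [CommRing B0] [IsLocalRing B0] (γ : D →+* B0)
      (qD : Set D), ι '' qD ⊆ q → maximalIdeal B0 ≤ Ideal.span (γ '' qD) →
      ∀ J : Ideal D, s ⊆ ι '' J → Module.length B0 (B0 ⧸ J.map γ) ≤ lam := by
  have htop : ∀ (lam : ℕ) (s : Set B), Ideal.span s = ⊤ →
      Ev B fun D _ ι => ∀ (B0 : Type u) [CommRing B0] [IsLocalRing B0] (γ : D →+* B0)
      (qD : Set D), ι '' qD ⊆ q → maximalIdeal B0 ≤ Ideal.span (γ '' qD) →
      ∀ J : Ideal D, s ⊆ ι '' J → Module.length B0 (B0 ⧸ J.map γ) ≤ lam := by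
    intro lam s hs
    refine (ev_span (hs.symm ▸ Submodule.mem_top : (1 : B) ∈ Ideal.span s)).mono
      fun D _ ι _ H B0 _ _ γ qD _ _ J hJ => ?_
    have h1 : J = ⊤ := (Ideal.eq_top_iff_one J).2 (H 1 (map_one ι) J hJ)
    have : Subsingleton (B0 ⧸ J.map γ) := by
      rw [h1, Ideal.map_top]; infer_instance
    rw [Module.length_eq_zero]
    exact zero_le
  induction lam with
  | zero =>
    intro s hs
    refine htop 0 s ?_
    have h1 : rl (lenF B) (Ideal.span s) ⊤ = 0 := by
      rw [rl_top]; exact le_antisymm (hs.trans Nat.cast_zero.le) zero_le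
    exact eq_top_iff.2 (rl_lenF_eq_zero_iff.1 h1)
  | succ lam ih =>
    intro s hs
    by_cases h : Ideal.span s = ⊤
    · exact htop _ s h
    have hs' : rl (lenF B) (Ideal.span s) ⊤ ≤ ((lam + 1 : ℕ) : ℕ∞) := by rw [rl_top]; exact hs
    obtain ⟨v, -, -, hv, h1⟩ := exists_simple_step (S := B) (A := Ideal.span s) (B := ⊤)
      (lt_top_iff_ne_top.2 h) (ne_top_of_le_ne_top (ENat.coe_ne_top _) hs')
    have h2 : Module.length B (B ⧸ Ideal.span (insert v s)) ≤ lam := by
      have h3 : Ideal.span (insert v s) = Ideal.span s ⊔ Submodule.span B {v} := by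
        rw [Ideal.span_insert, sup_comm]
      have h4 := rl_add (lenF B) (A := Ideal.span s) (B := Ideal.span s ⊔ Submodule.span B {v})
        (C := ⊤) le_sup_left le_top
      rw [h1, ← h3, rl_top (lenF B) (Ideal.span (insert v s))] at h4
      rw [h4, add_comm, Nat.cast_add, Nat.cast_one] at hs'
      exact (ENat.add_le_add_iff_right ENat.one_ne_top).1 hs'
    have h5 : (fun z => z * v) '' q ⊆ Ideal.span s := by
      rintro _ ⟨z, hz, rfl⟩
      exact hv z (hqm hz)
    refine (((ih _ h2).and (ev_span_set (hq.image _) h5)).and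
      (ev_lift fun _ : Unit => v)).mono ?_
    rintro D _ ι - ⟨⟨H1, H2⟩, v', hv'⟩ B0 _ _ γ qD hqD hm J hJ
    have h6 := H1 B0 γ qD hqD hm (J ⊔ Ideal.span {v' ()}) (by
      rintro w (rfl | hw)
      · exact ⟨v' (), Ideal.mem_sup_right (Ideal.mem_span_singleton_self _), hv' ()⟩
      · obtain ⟨w', hw', rfl⟩ := hJ hw
        exact ⟨w', Ideal.mem_sup_left hw', rfl⟩)
    have h7 : ∀ z ∈ maximalIdeal B0, z • γ (v' ()) ∈ J.map γ := by
      intro z hz
      have h8 : Ideal.span (γ '' qD) ≤ (J.map γ).colon {γ (v' ())} := by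
        refine Ideal.span_le.2 ?_
        rintro _ ⟨z, hz, rfl⟩
        rw [SetLike.mem_coe, Submodule.mem_colon_singleton, smul_eq_mul, ← map_mul]
        exact Ideal.mem_map_of_mem _ (H2 _ ⟨ι z, hqD ⟨z, hz, rfl⟩, by
          rw [map_mul, hv']⟩ J hJ)
      exact Submodule.mem_colon_singleton.1 (h8 (hm hz))
    have h9 := ra_span_le (A := B0) (J.map γ) (maximalIdeal B0) {γ (v' ())} (by
      intro a ha z hz
      rw [Finset.mem_singleton.1 ha]
      exact h7 z hz)
    rw [hs_len_residue, Finset.card_singleton, Finset.coe_singleton, ← rl_sup] at h9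
    have h10 : (J ⊔ Ideal.span {v' ()}).map γ = J.map γ ⊔ Submodule.span B0 {γ (v' ())} := by
      rw [Ideal.map_sup, Ideal.map_span, Set.image_singleton]
    have h11 := rl_add (lenF B0) (A := J.map γ) (B := J.map γ ⊔ Submodule.span B0 {γ (v' ())})
      (C := ⊤) le_sup_left le_top
    rw [rl_top, rl_top, ← h10] at h11
    rw [← h10] at h9
    refine h11.le.trans ?_
    rw [add_comm, Nat.cast_add, Nat.cast_one]
    exact add_le_add h6 (by simpa using h9)

end ev

section loc

variable {B B' : Type u} [CommRing B] [IsLocalRing B] [CommRing B'] [Algebra B B']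

theorem desc_uniq [Module.Finite B B'] {τ : Type} (g : τ → B')
    (hg : Submodule.span B (Set.range g) = ⊤) (a : τ → B)
    (h : ∀ i, g i - algebraMap B B' (a i) ∈ (mS B B').radical) (M : Ideal B')
    (hM : M.IsMaximal) :
    M = mS B B' ⊔ Ideal.span (Set.range fun i => g i - algebraMap B B' (a i)) ∧
      M.comap (algebraMap B B') = maximalIdeal B ∧
      ∀ w : B', ∃ r : B, w - algebraMap B B' r ∈ M := by
  have h1 : M.comap (algebraMap B B') = maximalIdeal B :=
    eq_maximalIdeal (Ideal.isMaximal_comap_of_isIntegral_of_isMaximal M)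
  have h2 : mS B B' ≤ M := Ideal.map_le_iff_le_comap.2 h1.ge
  have h3 : mS B B' ⊔ Ideal.span (Set.range fun i => g i - algebraMap B B' (a i)) ≤ M := by
    refine sup_le h2 (Ideal.span_le.2 ?_)
    rintro _ ⟨i, rfl⟩
    exact (hM.isPrime.radical_le_iff.2 h2) (h i)
  have h4 : ∀ w : B', ∃ r : B, w - algebraMap B B' r ∈
      mS B B' ⊔ Ideal.span (Set.range fun i => g i - algebraMap B B' (a i)) := by
    intro w
    have hw : w ∈ Submodule.span B (Set.range g) := hg.symm ▸ Submodule.mem_top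
    induction hw using Submodule.span_induction with
    | mem x hx =>
      obtain ⟨i, rfl⟩ := hx
      exact ⟨a i, Ideal.mem_sup_right (Ideal.subset_span ⟨i, rfl⟩)⟩
    | zero => exact ⟨0, by simp⟩
    | add x y _ _ hx hy =>
      obtain ⟨r, hr⟩ := hx
      obtain ⟨r', hr'⟩ := hy
      refine ⟨r + r', ?_⟩
      have := Ideal.add_mem _ hr hr'
      rwa [sub_add_sub_comm, ← map_add] at this
    | smul c x _ hx =>
      obtain ⟨r, hr⟩ := hx
      refine ⟨c * r, ?_⟩
      have := Ideal.mul_mem_left _ (algebraMap B B' c) hr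
      rwa [mul_sub, ← map_mul, ← Algebra.smul_def] at this
  refine ⟨le_antisymm (fun w hw => ?_) h3, h1, fun w => (h4 w).imp fun r hr => h3 hr⟩
  obtain ⟨r, hr⟩ := h4 w
  have h5 : r ∈ maximalIdeal B := by
    rw [← h1, Ideal.mem_comap]
    have := M.sub_mem hw (h3 hr)
    rwa [sub_sub_cancel] at this
  have := Ideal.add_mem _ hr (Ideal.mem_sup_left (Ideal.mem_map_of_mem (algebraMap B B') h5))
  rwa [sub_add_cancel] at this

theorem desc_isLocalRing [Module.Finite B B'] [Nontrivial B'] {τ : Type} (g : τ → B')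
    (hg : Submodule.span B (Set.range g) = ⊤) (a : τ → B)
    (h : ∀ i, g i - algebraMap B B' (a i) ∈ (mS B B').radical) : IsLocalRing B' := by
  obtain ⟨M, hM⟩ := Ideal.exists_maximal B'
  exact IsLocalRing.of_unique_max_ideal ⟨M, hM, fun M' hM' =>
    (desc_uniq g hg a h M' hM').1.trans (desc_uniq g hg a h M hM).1.symm⟩

theorem desc_local [Module.Finite B B'] [IsLocalRing B'] {τ : Type} (g : τ → B')
    (hg : Submodule.span B (Set.range g) = ⊤) (a : τ → B)
    (h : ∀ i, g i - algebraMap B B' (a i) ∈ (mS B B').radical) :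
    maximalIdeal B' = mS B B' ⊔ Ideal.span (Set.range fun i => g i - algebraMap B B' (a i)) ∧
      IsLocalHom (algebraMap B B') ∧
      Function.Surjective ((residue B').comp (algebraMap B B')) := by
  obtain ⟨h1, h2, h3⟩ := desc_uniq g hg a h (maximalIdeal B') inferInstance
  refine ⟨h1, ((local_hom_TFAE (algebraMap B B')).out 0 4).2 h2, fun w => ?_⟩
  obtain ⟨w, rfl⟩ := residue_surjective w
  obtain ⟨r, hr⟩ := h3 w
  exact ⟨r, (Ideal.Quotient.eq.2 hr).symm⟩

theorem desc_rl [IsLocalRing B'] [IsLocalHom (algebraMap B B')]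
    (hres : Function.Surjective ((residue B').comp (algebraMap B B'))) (I : Ideal B) :
    rl (lenF B) (I • (⊤ : Submodule B B')) ⊤ =
      Module.length B' (B' ⧸ I.map (algebraMap B B')) := by
  have h1 : Module.length (ResidueField B) (ResidueField B') = 1 := by
    have h2 : Function.Bijective (Algebra.linearMap (ResidueField B) (ResidueField B')) := by
      refine ⟨(algebraMap (ResidueField B) (ResidueField B')).injective, fun w => ?_⟩
      obtain ⟨r, rfl⟩ := hres w
      exact ⟨residue B r, rfl⟩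
    rw [← (LinearEquiv.ofBijective _ h2).length_eq, Module.length_eq_one]
  have h3 := rl_restrictScalars (R0 := B) (S := B') (E := B') (I.map (algebraMap B B')) ⊤
  rw [h1, mul_one, rl_top, Submodule.restrictScalars_top] at h3
  rw [Ideal.smul_top_eq_map]
  exact h3

end loc

theorem desc_generic {A E : Type u} [CommRing A] [IsDomain A] [AddCommGroup E] [Module A E]
    {N : ℕ} (g : Fin N → E) (hg : Submodule.span A (Set.range g) = ⊤) :
    ∃ (r : ℕ) (f : Fin r → Fin N) (c : A), LinearIndependent A (fun i => g (f i)) ∧ c ≠ 0 ∧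
      ∀ w : E, c • w ∈ Submodule.span A (Set.range fun i => g (f i)) := by
  classical
  obtain ⟨s, hs, hmax⟩ := exists_maximal_linearIndepOn A g
  have h1 : ∀ i, ∃ a : A, a ≠ 0 ∧ a • g i ∈ Submodule.span A (g '' s) := by
    intro i
    by_cases hi : i ∈ s
    · exact ⟨1, one_ne_zero, by rw [one_smul]; exact Submodule.subset_span ⟨i, hi, rfl⟩⟩
    · exact hmax i hi
  choose a ha ha' using h1
  let e := (Finite.equivFin s).symm
  have h2 : Set.range (fun i => g (e i)) = g '' s := by
    ext x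
    constructor
    · rintro ⟨i, rfl⟩; exact ⟨_, (e i).2, rfl⟩
    · rintro ⟨i, hi, rfl⟩; exact ⟨e.symm ⟨i, hi⟩, by simp only [Equiv.apply_symm_apply]⟩
  refine ⟨_, fun i => e i, ∏ i, a i,
    (LinearIndependent.comp hs e e.injective), Finset.prod_ne_zero_iff.2 fun i _ => ha i, ?_⟩
  rw [h2]
  intro w
  refine (Submodule.span_le.2 ?_ : _ ≤ (Submodule.span A (g '' s)).comap
    (LinearMap.lsmul A E (∏ i, a i))) (hg.symm ▸ Submodule.mem_top : w ∈ Submodule.span A _)
  rintro _ ⟨i, rfl⟩
  rw [SetLike.mem_coe, Submodule.mem_comap, LinearMap.lsmul_apply,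
    ← Finset.prod_erase_mul _ _ (Finset.mem_univ i), mul_smul]
  exact Submodule.smul_mem _ _ (ha' i)

theorem desc_tors {C A0 Q : Type u} [CommRing C] [CommRing A0] [IsDomain A0] [Algebra C A0]
    [AddCommGroup Q] [Module C Q] [Module.Finite C Q] {c : A0} (hc : c ≠ 0)
    (h : ∀ q : Q, c • ((1 : A0) ⊗ₜ[C] q) = 0) :
    ∃ s : C, algebraMap C A0 s ≠ 0 ∧ ∀ q : Q, s • q = 0 := by
  by_contra hcon
  let K := FractionRing A0
  have hinj : Function.Injective (algebraMap A0 K) := IsFractionRing.injective A0 K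
  let p : PrimeSpectrum C := ⟨RingHom.ker (algebraMap C K), RingHom.ker_isPrime _⟩
  haveI : p.asIdeal.IsPrime := p.isPrime
  have h1 : Module.annihilator C Q ≤ p.asIdeal := by
    intro s hs
    by_contra hs'
    refine hcon ⟨s, fun h0 => hs' ?_, Module.mem_annihilator.1 hs⟩
    change algebraMap C K s = 0
    rw [IsScalarTower.algebraMap_apply C A0 K, h0, map_zero]
  have h2 := (Module.mem_support_iff_nontrivial_residueField_tensorProduct p).1
    (Module.mem_support_iff_of_finite.2 h1)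
  letI : Algebra p.asIdeal.ResidueField K :=
    (Ideal.ResidueField.lift p.asIdeal (algebraMap C K) le_rfl
      fun x hx => (isUnit_iff_ne_zero.2 hx : IsUnit (algebraMap C K x))).toAlgebra
  haveI : IsScalarTower C p.asIdeal.ResidueField K :=
    IsScalarTower.of_algebraMap_eq fun x =>
      (Ideal.ResidueField.lift_algebraMap p.asIdeal (algebraMap C K) le_rfl _ x).symm
  have h3 : Nontrivial (K ⊗[p.asIdeal.ResidueField] (p.asIdeal.ResidueField ⊗[C] Q)) :=
    inferInstance
  have h4 : Nontrivial (K ⊗[C] Q) :=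
    (AlgebraTensorModule.cancelBaseChange C p.asIdeal.ResidueField K K Q).symm.toEquiv.nontrivial
  have h5 : ∀ q : Q, (1 : K) ⊗ₜ[C] q = 0 := by
    intro q
    have h6 := congrArg (AlgebraTensorModule.map (Algebra.linearMap A0 K)
      (LinearMap.id : Q →ₗ[C] Q)) (h q)
    rw [map_smul, map_zero, AlgebraTensorModule.map_tmul, Algebra.linearMap_apply, map_one,
      LinearMap.id_apply, ← algebraMap_smul K c] at h6
    exact (smul_eq_zero.1 h6).resolve_left fun h0 => hc (hinj (h0.trans (map_zero _).symm))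
  have h7 : ∀ w : K ⊗[C] Q, w = 0 := by
    intro w
    induction w using TensorProduct.induction_on with
    | zero => rfl
    | tmul x q =>
      have : x ⊗ₜ[C] q = x • ((1 : K) ⊗ₜ[C] q) := by rw [smul_tmul', smul_eq_mul, mul_one]
      rw [this, h5, smul_zero]
    | add x y hx hy => rw [hx, hy, add_zero]
  obtain ⟨w, hw⟩ := exists_ne (0 : K ⊗[C] Q)
  exact hw (h7 w)

/-- The base change `A0 ⊗[C] D`. -/
theorem exists_push {C A0 : Type u} (D : Type u) [CommRing C] [CommRing A0] [CommRing D]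
    [Algebra C D] (ψ : C →+* A0) {N : ℕ} (g : Fin N → D)
    (hg : Submodule.span C (Set.range g) = ⊤) :
    ∃ (R0 : Type u) (_ : CommRing R0) (_ : Algebra A0 R0) (β : D →+* R0),
      (∀ c, β (algebraMap C D c) = algebraMap A0 R0 (ψ c)) ∧
      Submodule.span A0 (Set.range fun i => β (g i)) = ⊤ ∧
      (LinearIndependent C g → LinearIndependent A0 fun i => β (g i)) ∧
      (IsDomain A0 → ∀ (r : ℕ) (v : Fin r → D) (c : A0), c ≠ 0 →
        (∀ w : R0, c • w ∈ Submodule.span A0 (Set.range fun i => β (v i))) →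
        ∃ s : C, ψ s ≠ 0 ∧ ∀ w : D, s • w ∈ Submodule.span C (Set.range v)) := by
  letI : Algebra C A0 := ψ.toAlgebra
  haveI : Module.Finite C D := ⟨hg ▸ Submodule.fg_span (Set.finite_range g)⟩
  refine ⟨A0 ⊗[C] D, inferInstance, inferInstance,
    (Algebra.TensorProduct.includeRight : D →ₐ[C] A0 ⊗[C] D).toRingHom, fun c => ?_, ?_, ?_, ?_⟩
  · change (1 : A0) ⊗ₜ[C] (algebraMap C D c) = (algebraMap C A0 c) ⊗ₜ[C] (1 : D)
    rw [Algebra.algebraMap_eq_smul_one, Algebra.algebraMap_eq_smul_one, smul_tmul]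
  · have h1 := Submodule.baseChange_span (A := A0) (R := C) (Set.range g)
    rw [hg, Submodule.baseChange_top, ← Set.range_comp] at h1
    exact h1.symm
  · intro hli
    have h1 := ((Module.Basis.mk hli hg.ge).baseChange A0).linearIndependent
    have h2 : ⇑((Module.Basis.mk hli hg.ge).baseChange A0) = fun i => (1 : A0) ⊗ₜ[C] g i := by
      funext i
      rw [Module.Basis.baseChange_apply, Module.Basis.mk_apply]
    rw [h2] at h1
    exact h1
  · intro _ r v c hc h
    obtain ⟨s, hs, hs'⟩ := desc_tors (C := C) (A0 := A0)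
      (Q := D ⧸ Submodule.span C (Set.range v)) hc (by
        intro q
        obtain ⟨w, rfl⟩ := Submodule.mkQ_surjective _ q
        have h1 : Submodule.span A0 (Set.range fun i => (1 : A0) ⊗ₜ[C] v i) ≤
            LinearMap.ker ((Submodule.span C (Set.range v)).mkQ.baseChange A0) := by
          refine Submodule.span_le.2 ?_
          rintro _ ⟨i, rfl⟩
          have h2 : (Submodule.span C (Set.range v)).mkQ (v i) = 0 :=
            (Submodule.Quotient.mk_eq_zero _).2 (Submodule.subset_span ⟨i, rfl⟩)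
          rw [SetLike.mem_coe, LinearMap.mem_ker, LinearMap.baseChange_tmul, h2, tmul_zero]
        have h3 := h1 (h ((1 : A0) ⊗ₜ[C] w))
        rwa [LinearMap.mem_ker, map_smul, LinearMap.baseChange_tmul] at h3)
    exact ⟨s, hs, fun w => (Submodule.Quotient.mk_eq_zero _).1 (hs' (Submodule.Quotient.mk w))⟩

end Vale.Agent.P202
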