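import Vale.Agent.P202.Core
import Vale.Agent.P202.DescAux

/-! The prime characteristic side of the spreading out argument. -/

namespace Vale.Agent.P202

open IsLocalRing MvPowerSeries Filter Topology

universe u

theorem desc_mS {σ : Type} [Finite σ] {k R : Type u} [Field k] [CommRing R]
    [Algebra (PS σ k) R] :
    mS (PS σ k) R = Ideal.span (Set.range fun i => algebraMap (PS σ k) R (X i)) := by
  rw [mS, ps_maximalIdeal, ps_map_span]

theorem desc_up {m : ℕ} {k R : Type u} [Field k] [CommRing R] [IsLocalRing R]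
    [Algebra (PS (Fin (m + 1)) k) R] [Module.Finite (PS (Fin (m + 1)) k) R]
    [IsLocalHom (algebraMap (PS (Fin (m + 1)) k) R)]
    (hres : Function.Surjective ((residue R).comp (algebraMap (PS (Fin (m + 1)) k) R))) {e : ℝ}
    (he : IsMult R (Ideal.span (Set.range fun i => algebraMap (PS (Fin (m + 1)) k) R (X i)))
      (m + 1) e) {r : ℕ} (v : Fin r → R) {s : PS (Fin (m + 1)) k} (hs : s ≠ 0)
    (h : ∀ w : R, s • w ∈ Submodule.span (PS (Fin (m + 1)) k) (Set.range v)) : e ≤ r := by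
  classical
  have h1 := le_of_rank_up (grow_ps (σ := Fin (m + 1)) k (m + 1) (by simp)) (t := 1)
    (I := maximalIdeal _) (by simp) (isMult_ps (σ := Fin (m + 1)) k (m + 1) (by simp))
    (W := (⊤ : Submodule (PS (Fin (m + 1)) k) R)) Module.Finite.fg_top (Finset.univ.image v)
    (Set.subset_univ _) hs (fun w _ => by simpa using h w)
    (fun n => Module.length R (R ⧸ Ideal.span (Set.range fun i =>
      algebraMap (PS (Fin (m + 1)) k) R (X i)) ^ n))
    (fun n => by rw [desc_rl hres, Ideal.map_pow, ← desc_mS]) he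
  have h2 : (Finset.univ.image v).card ≤ r := Finset.card_image_le.trans (by simp)
  rw [mul_one] at h1
  exact h1.trans (Nat.cast_le.2 h2)

theorem desc_final {m : ℕ} {k R S : Type u} [Field k] [CommRing R] [IsLocalRing R]
    [IsNoetherianRing R] [CommRing S] [IsLocalRing S] [IsNoetherianRing S] [Algebra R S]
    [IsLocalHom (algebraMap R S)] [Module.Flat R S] {p : ℕ} (hp : p.Prime) (hk : (p : k) = 0)
    [Algebra (PS (Fin (m + 1)) k) R] [IsLocalHom (algebraMap (PS (Fin (m + 1)) k) R)]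
    (hres : Function.Surjective ((residue R).comp (algebraMap (PS (Fin (m + 1)) k) R)))
    (hx : IsRed fun i => algebraMap (PS (Fin (m + 1)) k) R (X i)) {y : Fin (m + 1) → S}
    (hy : ∀ i, y i ∈ maximalIdeal S) (hl : Module.length S (S ⧸ mS R S) ≠ ⊤) {n lam : ℕ}
    (hn1 : 1 ≤ n)
    (hn : Module.length S (S ⧸ Ideal.span (Set.range fun i => y i ^ n)) ≤ lam)
    {r : ℕ} (v : Fin r → R) (hv : LinearIndependent (PS (Fin (m + 1)) k) v)
    {c : PS (Fin (m + 1)) k} (hc : c ≠ 0)
    (h : ∀ w : R, c • w ∈ Submodule.span (PS (Fin (m + 1)) k) (Set.range v)) :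
    (r : ℝ) * (n : ℝ) ^ (m + 1) ≤ lam := by
  have hR : (p : R) = 0 := by
    rw [← map_natCast ((algebraMap (PS (Fin (m + 1)) k) R).comp C) p, hk, map_zero]
  have hsop : IsSop y := by
    obtain ⟨t, ht⟩ := exists_pow_le_of_length_ne_top
      (ne_top_of_le_ne_top (ENat.natCast_ne_top _) hn)
    refine ⟨hy, t, ht.trans (Ideal.span_le.2 ?_)⟩
    rintro _ ⟨i, rfl⟩
    exact Ideal.pow_mem_of_mem _ (Ideal.subset_span (Set.mem_range_self i)) _ hn1
  obtain ⟨e0, -, he0⟩ := hx.isSop.exists_isMult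
  obtain ⟨t, ht⟩ := hx.isSop.2
  have h1 := le_of_rank_low (grow_ps (σ := Fin (m + 1)) k (m + 1) (by simp)) (t := 1)
    (I := maximalIdeal _) (by simp) (isMult_ps (σ := Fin (m + 1)) k (m + 1) (by simp))
    (W := (⊤ : Submodule (PS (Fin (m + 1)) k) R)) v (fun _ => Submodule.mem_top) hv hc
    (fun w _ => h w)
    (fun n => Module.length R (R ⧸ Ideal.span (Set.range fun i =>
      algebraMap (PS (Fin (m + 1)) k) R (X i)) ^ n))
    (fun n => length_quot_pow_ne_top ht n)
    (fun n => by rw [desc_rl hres, Ideal.map_pow, ← desc_mS]) he0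
  have h2 := lechEps_charP (S := S) hp hR m _ y e0 hx hsop hl he0
  have h3 := eps_pow (hsop.kHyp ⊥) n
  have h4 := eps_le ((hsop.kHyp ⊥).pow n)
  rw [h3, Finset.coe_univ, Set.image_univ, Finset.card_univ, Fintype.card_fin, bot_sup_eq,
    Ideal.smul_eq_mul, Ideal.mul_top, rl_top] at h4
  have h5 : (Module.length S (S ⧸ Ideal.span (Set.range fun i => y i ^ n))).toNat ≤ lam :=
    ENat.toNat_le_of_le_natCast hn
  have h6 : (n : ℤ) ^ (m + 1) * epsR y ≤ lam := h4.trans (Int.ofNat_le.2 h5)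
  have h7 : (n : ℝ) ^ (m + 1) * (epsR y : ℝ) ≤ lam := by exact_mod_cast h6
  rw [mul_one] at h1
  refine le_trans ?_ h7
  rw [mul_comm]
  exact mul_le_mul_of_nonneg_left (h1.trans h2) (by positivity)

theorem desc_push {m N M n0 n lam p : ℕ} {C RC SC κ : Type u} [CommRing C] [CommRing RC]
    [CommRing SC] [Field κ] [Algebra C RC] [Algebra RC SC] (ξ : Fin (m + 1) → C)
    (g : Fin N → RC) (hg : Submodule.span C (Set.range g) = ⊤) (a : Fin N → C)
    (b : Fin M → SC) (hb : Submodule.span RC (Set.range b) = ⊤) (hb' : LinearIndependent RC b)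
    (hM : 0 < M) (a' : Fin M → RC) (y : Fin (m + 1) → SC) (q : Set RC)
    (hq : q = Set.range (fun i => algebraMap C RC (ξ i)) ∪
      Set.range fun j => g j - algebraMap C RC (a j)) (q' : Set SC)
    (hq' : q' = algebraMap RC SC '' q ∪ Set.range fun j => b j - algebraMap RC SC (a' j))
    (hR1 : ∀ j, g j - algebraMap C RC (a j) ∈
      (Ideal.span (Set.range fun i => algebraMap C RC (ξ i))).radical)
    (hR2 : Ideal.span q ^ (n0 + 1) ≤
      Ideal.span (Set.range fun i => algebraMap C RC (ξ i)) * Ideal.span q ^ n0)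
    (hS1 : ∀ j, b j - algebraMap RC SC (a' j) ∈ (Ideal.span (algebraMap RC SC '' q)).radical)
    (hS2 : ∀ i, y i ∈ Ideal.span q')
    (hS3 : ∀ (B0 : Type u) [CommRing B0] [IsLocalRing B0] (γ : SC →+* B0),
      maximalIdeal B0 ≤ Ideal.span (γ '' q') →
      Module.length B0 (B0 ⧸ (Ideal.span (Set.range fun i => y i ^ n)).map γ) ≤ lam)
    (ψ : C →+* PS (Fin (m + 1)) κ) (hψ : ∀ i, ψ (ξ i) = X i) (hp : p.Prime) (hκ : (p : κ) = 0)
    (hn1 : 1 ≤ n) :
    ∃ (r : ℕ) (f : Fin r → Fin N) (s : C), s ≠ 0 ∧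
      (∀ w : RC, s • w ∈ Submodule.span C (Set.range fun i => g (f i))) ∧
      (r : ℝ) * (n : ℝ) ^ (m + 1) ≤ lam := by
  haveI : IsDomain (PS (Fin (m + 1)) κ) := NoZeroDivisors.to_isDomain _
  obtain ⟨R0, _, _, β, hβ, hspan0, -, hrank⟩ := exists_push RC ψ g hg
  obtain ⟨S0, _, _, γ, hγ, hspanS, hli0, -⟩ := exists_push SC β b hb
  obtain ⟨r, f, c, hli, hc, hcw⟩ := desc_generic (fun i => β (g i)) hspan0
  obtain ⟨s, hs, hs'⟩ := hrank inferInstance r (fun i => g (f i)) c hc hcw
  refine ⟨r, f, s, fun h0 => hs (by rw [h0, map_zero]), hs', ?_⟩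
  rcases Nat.eq_zero_or_pos r with rfl | hr
  · simp
  haveI : Nontrivial R0 := nontrivial_of_ne _ _ (hli.ne_zero ⟨0, hr⟩)
  haveI : Nontrivial S0 := nontrivial_of_ne _ _ ((hli0 hb').ne_zero ⟨0, hM⟩)
  haveI : Module.Finite (PS (Fin (m + 1)) κ) R0 :=
    ⟨hspan0 ▸ Submodule.fg_span (Set.finite_range _)⟩
  haveI : Module.Finite R0 S0 := ⟨hspanS ▸ Submodule.fg_span (Set.finite_range _)⟩
  haveI : IsNoetherianRing R0 := IsNoetherianRing.of_finite (PS (Fin (m + 1)) κ) R0
  haveI : IsNoetherianRing S0 := IsNoetherianRing.of_finite R0 S0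
  haveI : Module.Free R0 S0 := Module.Free.of_basis (Module.Basis.mk (hli0 hb') hspanS.ge)
  have hx0 : (Ideal.span (Set.range fun i => algebraMap C RC (ξ i))).map β =
      Ideal.span (Set.range fun i => algebraMap (PS (Fin (m + 1)) κ) R0 (X i)) := by
    rw [Ideal.map_span, ← Set.range_comp]
    congr 2
    funext i
    rw [Function.comp_apply, hβ, hψ]
  have hw0 : ∀ j, β (g j) - algebraMap (PS (Fin (m + 1)) κ) R0 (ψ (a j)) ∈
      (mS (PS (Fin (m + 1)) κ) R0).radical := by
    intro j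
    rw [desc_mS, ← hx0, ← hβ, ← map_sub]
    exact Ideal.map_radical_le β (Ideal.mem_map_of_mem β (hR1 j))
  haveI : IsLocalRing R0 := desc_isLocalRing _ hspan0 _ hw0
  obtain ⟨hm0, hloc0, hres0⟩ := desc_local _ hspan0 _ hw0
  have hm0' : maximalIdeal R0 = (Ideal.span q).map β := by
    rw [hm0, hq, Ideal.span_union, Ideal.map_sup, hx0, desc_mS, Ideal.map_span, ← Set.range_comp]
    congr 3
    funext j
    rw [Function.comp_apply, map_sub, hβ]
  have hmS : mS R0 S0 = (Ideal.span (algebraMap RC SC '' q)).map γ := by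
    rw [mS, hm0', Ideal.map_map, ← Ideal.map_span, Ideal.map_map]
    congr 1
    ext1 x
    exact (hγ x).symm
  have hs0 : ∀ j, γ (b j) - algebraMap R0 S0 (β (a' j)) ∈ (mS R0 S0).radical := by
    intro j
    rw [hmS, ← hγ, ← map_sub]
    exact Ideal.map_radical_le γ (Ideal.mem_map_of_mem γ (hS1 j))
  haveI : IsLocalRing S0 := desc_isLocalRing _ hspanS _ hs0
  obtain ⟨hn0, hlocS, -⟩ := desc_local _ hspanS _ hs0
  have hn0' : maximalIdeal S0 = (Ideal.span q').map γ := by
    rw [hn0, hq', Ideal.span_union, Ideal.map_sup, hmS, Ideal.map_span γ (Set.range _),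
      ← Set.range_comp]
    congr 3
    funext j
    rw [Function.comp_apply, map_sub, hγ]
  have hred : IsRed fun i => algebraMap (PS (Fin (m + 1)) κ) R0 (X i) := by
    refine ⟨fun i => ?_, n0, ?_⟩
    · rw [hm0, desc_mS]
      exact Ideal.mem_sup_left (Ideal.subset_span ⟨i, rfl⟩)
    · rw [hm0', ← hx0, ← Ideal.map_pow, ← Ideal.map_pow, ← Ideal.map_mul]
      exact Ideal.map_mono hR2
  have hl : Module.length S0 (S0 ⧸ mS R0 S0) ≠ ⊤ := by
    obtain ⟨t, ht⟩ := Ideal.exists_pow_le_of_le_radical_of_fg (I := maximalIdeal S0)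
      (J := mS R0 S0) (by
        rw [hn0]
        refine sup_le Ideal.le_radical (Ideal.span_le.2 ?_)
        rintro _ ⟨j, rfl⟩
        exact hs0 j) (IsNoetherian.noetherian _)
    exact ra_ne_top ht
  refine desc_final (S := S0) hp hκ hres0 hred (y := fun i => γ (y i)) (fun i => ?_) hl hn1 ?_
    _ hli hc hcw
  · rw [hn0']
    exact Ideal.mem_map_of_mem γ (hS2 i)
  · have h1 := hS3 S0 γ (by rw [hn0', Ideal.map_span])
    have h2 : (Ideal.span (Set.range fun i => y i ^ n)).map γ =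
        Ideal.span (Set.range fun i => γ (y i) ^ n) := by
      rw [Ideal.map_span, ← Set.range_comp]
      congr 2
      funext i
      rw [Function.comp_apply, map_pow]
    rwa [h2] at h1

end Vale.Agent.P202
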