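import Vale.Agent.P202.Defs2
import Vale.Agent.P202.Len

/-! Generic rank and Hilbert-Samuel asymptotics of modules. -/

namespace Vale.Agent.P202

open IsLocalRing Filter Topology

universe u

variable {A : Type u} [CommRing A] {E : Type u} [AddCommGroup E] [Module A E]

theorem ra_span_le (N : Submodule A E) (J : Ideal A) (T : Finset E)
    (h : ∀ a ∈ T, ∀ z ∈ J, z • a ∈ N) :
    rl (lenF A) N (Submodule.span A (T : Set E)) ≤ T.card * Module.length A (A ⧸ J) := by
  classical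
  induction T using Finset.induction_on with
  | empty => simp [rl_eq_zero_of_le]
  | insert a T ha ih =>
    rw [Finset.coe_insert, Submodule.span_insert, Finset.card_insert_of_notMem ha, Nat.cast_succ,
      add_mul, one_mul, add_comm]
    refine (rl_sup_le _ _ _ _).trans (add_le_add ?_
      (ih fun b hb => h b (Finset.mem_insert_of_mem hb)))
    rw [LinearMap.span_singleton_eq_range, ← Submodule.map_top, ← rl_map]
    refine le_trans (rl_mono (lenF A) (A' := J) ?_ le_rfl) (le_of_eq (rl_top _ _))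
    intro z hz
    exact h a (Finset.mem_insert_self _ _) z hz

theorem ra_pi (r : ℕ) (J : Ideal A) :
    rl (lenF A) (Submodule.pi Set.univ fun _ : Fin r => (J : Submodule A A)) ⊤ =
      r * Module.length A (A ⧸ J) := by
  rw [← Submodule.pi_top Set.univ, rl_pi, Finset.sum_const, Finset.card_univ, Fintype.card_fin,
    nsmul_eq_mul, rl_top]
  rfl

theorem rank_up {W : Submodule A E} (hW : W.FG) (T : Finset E) (hT : (T : Set E) ⊆ W) {c : A}
    (hcT : ∀ w ∈ W, c • w ∈ Submodule.span A (T : Set E)) :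
    ∃ ν : ℕ, ∀ I : Ideal A, rl (lenF A) (I • W) W ≤
      T.card * Module.length A (A ⧸ I) + ν * Module.length A (A ⧸ (Ideal.span {c} ⊔ I)) := by
  obtain ⟨G, hG⟩ := hW
  refine ⟨G.card, fun I => ?_⟩
  refine (rl_triangle (lenF A) (I • W) (I • W ⊔ Submodule.span A (T : Set E)) W).trans
    (add_le_add ?_ ?_)
  · rw [rl_sup]
    exact ra_span_le _ I T fun a ha z hz => Submodule.smul_mem_smul hz (hT ha)
  · have h := ra_span_le (I • W ⊔ Submodule.span A (T : Set E)) (Ideal.span {c} ⊔ I) G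
      fun a ha z hz => by
        have haW : a ∈ W := hG ▸ Submodule.subset_span ha
        obtain ⟨y, hy, i, hi, rfl⟩ := Submodule.mem_sup.1 hz
        obtain ⟨s, rfl⟩ := Ideal.mem_span_singleton'.1 hy
        rw [add_smul, mul_smul]
        exact Submodule.add_mem _
          (Submodule.mem_sup_right (Submodule.smul_mem _ _ (hcT a haW)))
          (Submodule.mem_sup_left (Submodule.smul_mem_smul hi haW))
    rwa [hG] at h

theorem rank_low {W : Submodule A E} {r : ℕ} (v : Fin r → E) (hv : ∀ i, v i ∈ W)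
    (hli : LinearIndependent A v) {c : A}
    (hcv : ∀ w ∈ W, c • w ∈ Submodule.span A (Set.range v)) (I : Ideal A) :
    r * Module.length A (A ⧸ I) ≤
      rl (lenF A) (I • W) W + r * Module.length A (A ⧸ (Ideal.span {c} ⊔ I)) := by
  let ψ : (Fin r → A) →ₗ[A] E := Fintype.linearCombination A v
  have hψ : Function.Injective ψ :=
    linearIndependent_iff_injective_fintypeLinearCombination.1 hli
  have hrange : LinearMap.range ψ = Submodule.span A (Set.range v) :=
    Fintype.range_linearCombination A v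
  have hψW : ∀ a, ψ a ∈ W := fun a => by
    have h1 : ψ a ∈ Submodule.span A (Set.range v) := hrange ▸ LinearMap.mem_range_self ψ a
    refine (Submodule.span_le.2 ?_) h1
    rintro _ ⟨i, rfl⟩
    exact hv i
  let IF : Submodule A (Fin r → A) := Submodule.pi Set.univ fun _ => (I : Submodule A A)
  let μc : E →ₗ[A] E := c • LinearMap.id
  let U : Submodule A (Fin r → A) := (W.map μc).comap ψ
  rw [← ra_pi, ← ra_pi]
  refine (rl_triangle (lenF A) IF (IF ⊔ U) ⊤).trans (add_le_add ?_ (rl_mono _ ?_ le_rfl))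
  · rw [rl_sup]
    calc rl (lenF A) IF U = rl (lenF A) ((IF.map ψ).comap ψ) U := by
          rw [Submodule.comap_map_eq_of_injective hψ]
      _ = rl (lenF A) (IF.map ψ) (U.map ψ) := rl_map _ _ _ _
      _ ≤ rl (lenF A) (IF.map ψ) (W.map μc) := rl_mono _ le_rfl (Submodule.map_comap_le _ _)
      _ = rl (lenF A) ((IF.map ψ).comap μc) W := (rl_map _ _ _ _).symm
      _ ≤ rl (lenF A) (I • W) W := by
          refine rl_mono _ (Submodule.smul_le.2 fun i hi w hw => ?_) le_rfl
          obtain ⟨a, ha⟩ : c • w ∈ LinearMap.range ψ := hrange ▸ hcv w hw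
          refine ⟨i • a, fun j _ => I.mul_mem_right _ hi, ?_⟩
          rw [map_smul, ha, smul_comm]
          rfl
  · intro a ha
    have h1 : ∀ j, ∃ s : A, ∃ i ∈ I, s * c + i = a j := fun j => by
      obtain ⟨y, hy, i, hi, e⟩ := Submodule.mem_sup.1 (ha j (Set.mem_univ _))
      obtain ⟨s, rfl⟩ := Ideal.mem_span_singleton'.1 hy
      exact ⟨s, i, hi, e⟩
    choose s i hi e using h1
    have e2 : a = i + c • s := by
      funext j
      rw [← e j, Pi.add_apply, Pi.smul_apply, smul_eq_mul]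
      ring
    rw [e2]
    refine Submodule.add_mem _ (Submodule.mem_sup_left fun j _ => hi j)
      (Submodule.mem_sup_right ⟨ψ s, hψW s, ?_⟩)
    rw [map_smul]
    rfl

variable [IsLocalRing A] [IsNoetherianRing A]

omit [IsLocalRing A] [IsNoetherianRing A] in
theorem ra_len_anti {I J : Ideal A} (h : I ≤ J) :
    Module.length A (A ⧸ J) ≤ Module.length A (A ⧸ I) := by
  have := rl_mono (lenF A) h (le_rfl (a := ⊤))
  rwa [rl_top, rl_top] at this

theorem ra_ne_top {I : Ideal A} {t : ℕ} (ht : maximalIdeal A ^ t ≤ I) :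
    Module.length A (A ⧸ I) ≠ ⊤ := by
  have h := rl_ne_top_of_fg (A := I) (B := ⊤) (IsNoetherian.noetherian _) t (by simpa using ht)
  rwa [rl_top] at h

omit [IsNoetherianRing A] in
theorem ra_pow_le {I : Ideal A} {t : ℕ} (ht : maximalIdeal A ^ t ≤ I) (n : ℕ) :
    maximalIdeal A ^ (t * n) ≤ I ^ n := by
  rw [pow_mul]
  exact Ideal.pow_right_mono ht n

theorem ra_toNat {a x y : ℕ∞} {p q : ℕ} (hx : x ≠ ⊤) (hy : y ≠ ⊤) (h : a ≤ p * x + q * y) :
    (a.toNat : ℝ) ≤ p * (x.toNat : ℝ) + q * (y.toNat : ℝ) := by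
  lift x to ℕ using hx
  lift y to ℕ using hy
  have h1 : a ≤ ((p * x + q * y : ℕ) : ℕ∞) := by exact_mod_cast h
  have h2 := ENat.toNat_le_of_le_natCast h1
  simp only [ENat.toNat_natCast]
  exact_mod_cast h2

/-- The error terms are negligible. -/
theorem tendsto_err {d : ℕ} (hg : Grow A d) {I : Ideal A} {t : ℕ} (ht : maximalIdeal A ^ t ≤ I)
    {c : A} (hc : c ≠ 0) :
    Tendsto (fun n : ℕ => (d.factorial : ℝ) *
      ((Module.length A (A ⧸ (Ideal.span {c} ⊔ I ^ n))).toNat : ℝ) / (n : ℝ) ^ d) atTop (𝓝 0) := by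
  obtain ⟨C, hC⟩ := hg c hc
  refine squeeze_zero' (Eventually.of_forall fun n => by positivity) ?_
    (tendsto_const_div_atTop_nhds_zero_nat ((d.factorial : ℝ) * (C * ((t : ℝ) + 1) ^ d)))
  filter_upwards [eventually_gt_atTop 0] with n hn
  have hle : maximalIdeal A ^ ((t + 1) * n) ≤ I ^ n := by
    rw [pow_mul]
    exact Ideal.pow_right_mono ((Ideal.pow_le_pow_right (Nat.le_succ t)).trans ht) n
  have h1 := ra_len_anti (sup_le_sup_left hle (Ideal.span {c}))
  have hfin : Module.length A (A ⧸ (Ideal.span {c} ⊔ I ^ n)) ≠ ⊤ :=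
    ra_ne_top (le_sup_of_le_right hle)
  obtain ⟨L, hL⟩ := ENat.ne_top_iff_exists.1 hfin
  have h2 : (L : ℕ∞) * (((t + 1) * n : ℕ) : ℕ∞) ≤ C * (((t + 1) * n : ℕ) : ℕ∞) ^ d := by
    refine le_trans ?_ (hC ((t + 1) * n))
    rw [hL]
    gcongr
  have h3 : L * ((t + 1) * n) ≤ C * ((t + 1) * n) ^ d := by exact_mod_cast h2
  have h4 : L * n ≤ C * (t + 1) ^ d * n ^ d := by
    calc L * n ≤ L * ((t + 1) * n) := Nat.mul_le_mul_left _ (Nat.le_mul_of_pos_left _ t.succ_pos)
      _ ≤ _ := h3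
      _ = _ := by rw [mul_pow]; ring
  have h5 : (L : ℝ) * n ≤ C * ((t : ℝ) + 1) ^ d * (n : ℝ) ^ d := by exact_mod_cast h4
  have hn' : (0 : ℝ) < n := by exact_mod_cast hn
  rw [← hL, ENat.toNat_natCast, div_le_div_iff₀ (by positivity) hn', mul_assoc, mul_assoc]
  exact mul_le_mul_of_nonneg_left h5 (by positivity)

theorem le_of_rank_up {d : ℕ} (hg : Grow A d) {I : Ideal A} {t : ℕ} (ht : maximalIdeal A ^ t ≤ I)
    {e0 : ℝ} (he0 : IsMult A I d e0) {W : Submodule A E} (hW : W.FG) (T : Finset E)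
    (hT : (T : Set E) ⊆ W) {c : A} (hc : c ≠ 0)
    (hcT : ∀ w ∈ W, c • w ∈ Submodule.span A (T : Set E)) (a : ℕ → ℕ∞)
    (ha : ∀ n, a n ≤ rl (lenF A) (I ^ n • W) W) {e : ℝ}
    (he : Tendsto (fun n : ℕ => (d.factorial : ℝ) * ((a n).toNat : ℝ) / (n : ℝ) ^ d) atTop
      (𝓝 e)) : e ≤ T.card * e0 := by
  obtain ⟨ν, hν⟩ := rank_up hW T hT hcT
  have hlim := (he0.const_mul (T.card : ℝ)).add ((tendsto_err hg ht hc).const_mul (ν : ℝ))
  rw [mul_zero, add_zero] at hlim
  refine le_of_tendsto_of_tendsto' he hlim fun n => ?_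
  have h1 := ra_toNat (ra_ne_top (ra_pow_le ht n)) (ra_ne_top (le_sup_of_le_right (ra_pow_le ht n)))
    ((ha n).trans (hν (I ^ n)))
  have h2 := div_le_div_of_nonneg_right
    (mul_le_mul_of_nonneg_left h1 (show (0 : ℝ) ≤ d.factorial by positivity))
    (show (0 : ℝ) ≤ (n : ℝ) ^ d by positivity)
  refine h2.trans (le_of_eq ?_)
  simp only [HS]
  ring

theorem le_of_rank_low {d : ℕ} (hg : Grow A d) {I : Ideal A} {t : ℕ} (ht : maximalIdeal A ^ t ≤ I)
    {e0 : ℝ} (he0 : IsMult A I d e0) {W : Submodule A E} {r : ℕ} (v : Fin r → E)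
    (hv : ∀ i, v i ∈ W) (hli : LinearIndependent A v) {c : A} (hc : c ≠ 0)
    (hcv : ∀ w ∈ W, c • w ∈ Submodule.span A (Set.range v)) (a : ℕ → ℕ∞) (ha' : ∀ n, a n ≠ ⊤)
    (ha : ∀ n, rl (lenF A) (I ^ n • W) W ≤ a n) {e : ℝ}
    (he : Tendsto (fun n : ℕ => (d.factorial : ℝ) * ((a n).toNat : ℝ) / (n : ℝ) ^ d) atTop
      (𝓝 e)) : r * e0 ≤ e := by
  have hlim := he.add ((tendsto_err hg ht hc).const_mul (r : ℝ))
  rw [mul_zero, add_zero] at hlim
  refine le_of_tendsto_of_tendsto' (he0.const_mul (r : ℝ)) hlim fun n => ?_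
  have h0 : (r : ℕ∞) * Module.length A (A ⧸ I ^ n) ≤ ((1 : ℕ) : ℕ∞) * a n +
      r * Module.length A (A ⧸ (Ideal.span {c} ⊔ I ^ n)) := by
    rw [Nat.cast_one, one_mul]
    exact (rank_low v hv hli hcv (I ^ n)).trans (add_le_add (ha n) le_rfl)
  have h1 := ra_toNat (ha' n) (ra_ne_top (le_sup_of_le_right (ra_pow_le ht n))) h0
  rw [ENat.toNat_mul, ENat.toNat_natCast, Nat.cast_mul] at h1
  have h2 := div_le_div_of_nonneg_right
    (mul_le_mul_of_nonneg_left h1 (show (0 : ℝ) ≤ d.factorial by positivity))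
    (show (0 : ℝ) ≤ (n : ℝ) ^ d by positivity)
  refine le_trans (le_of_eq ?_) (h2.trans (le_of_eq ?_))
  · simp only [HS]
    ring
  · push_cast
    ring

end Vale.Agent.P202
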