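import Vale.Agent.P202.Core
import Vale.Agent.P202.AP
import Vale.Agent.P202.RankA
import Vale.Agent.P202.DescAux2

/-! Reduction from characteristic zero to prime characteristic. -/

namespace Vale.Agent.P202

open IsLocalRing MvPowerSeries Filter Topology Pointwise

universe u

variable {R S : Type u} [CommRing R] [IsLocalRing R] [IsNoetherianRing R] [CommRing S]
  [IsLocalRing S] [IsNoetherianRing S] [Algebra R S] [IsLocalHom (algebraMap R S)]
  [Module.Flat R S]

theorem desc_finite_pow {B : Type u} [CommRing B] {q : Set B} (hq : q.Finite) (n : ℕ) :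
    (q ^ n).Finite := by
  induction n with
  | zero => rw [pow_zero]; exact Set.finite_one
  | succ n ih => rw [pow_succ]; exact ih.mul hq

theorem descent_alg {m : ℕ} {k : Type u} [Field k] [CharZero k]
    [Algebra (PS (Fin (m + 1)) k) R]
    (hres : Function.Surjective ((residue S).comp ((algebraMap R S).comp
      ((algebraMap (PS (Fin (m + 1)) k) R).comp C))))
    (hx : IsRed fun i => algebraMap (PS (Fin (m + 1)) k) R (X i)) {y : Fin (m + 1) → S}
    (hy : IsSop y) (hl : Module.length S (S ⧸ mS R S) ≠ ⊤) {e : ℝ}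
    (he : IsMult R (Ideal.span (Set.range fun i => algebraMap (PS (Fin (m + 1)) k) R (X i)))
      (m + 1) e) (n lam : ℕ)
    (hn : Module.length S (S ⧸ Ideal.span (Set.range fun i => y i ^ n)) = lam) :
    e * (n : ℝ) ^ (m + 1) ≤ lam := by
  rcases Nat.eq_zero_or_pos n with rfl | hn1
  · simp
  have hresR : Function.Surjective ((residue R).comp
      ((algebraMap (PS (Fin (m + 1)) k) R).comp C)) := by
    intro w
    obtain ⟨w, rfl⟩ := residue_surjective w
    obtain ⟨c, hc⟩ := hres (residue S (algebraMap R S w))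
    refine ⟨c, Ideal.Quotient.eq.2 ?_⟩
    have h1 : algebraMap R S (algebraMap (PS (Fin (m + 1)) k) R (C c) - w) ∈ maximalIdeal S := by
      rw [map_sub]
      exact Ideal.Quotient.eq.1 hc
    exact (mem_maximalIdeal _).2 fun hu => (mem_maximalIdeal _).1 h1 (hu.map _)
  haveI : Module.Finite (PS (Fin (m + 1)) k) R :=
    RingHom.finite_algebraMap.1 (psHom_finite _ hx.isSop hresR)
  haveI : Module.Finite R S := RingHom.finite_algebraMap.1 (RingHom.Finite.of_comp_finite
    (psHom_finite ((algebraMap R S).comp (algebraMap (PS (Fin (m + 1)) k) R))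
      (hx.isSop.map hl) hres))
  haveI : Module.Free R S := Module.free_of_flat_of_isLocalRing
  let b := Module.finBasis R S
  have hM : 0 < Module.finrank R S := Fin.pos_iff_nonempty.2 b.index_nonempty
  obtain ⟨N, g, hg⟩ := Module.Finite.exists_fin (R := PS (Fin (m + 1)) k) (M := R)
  have ha : ∀ w : R, ∃ a : PS (Fin (m + 1)) k,
      w - algebraMap (PS (Fin (m + 1)) k) R a ∈ maximalIdeal R := by
    intro w
    obtain ⟨c, hc⟩ := hresR (residue R w)
    exact ⟨C c, Ideal.Quotient.eq.1 hc.symm⟩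
  have ha' : ∀ w : S, ∃ a : R, w - algebraMap R S a ∈ maximalIdeal S := by
    intro w
    obtain ⟨c, hc⟩ := hres (residue S w)
    exact ⟨algebraMap (PS (Fin (m + 1)) k) R (C c), Ideal.Quotient.eq.1 hc.symm⟩
  choose a ha using fun j => ha (g j)
  choose a' ha' using fun j => ha' (b j)
  obtain ⟨t, ht⟩ := hx.isSop.2
  obtain ⟨t', ht'⟩ := exists_pow_le_of_length_ne_top hl
  obtain ⟨n0, hn0⟩ := hx.2
  obtain ⟨hmR, hlocR, hresR'⟩ := desc_local g hg a fun j =>
    ⟨t, by rw [desc_mS]; exact ht (Ideal.pow_mem_pow (ha j) t)⟩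
  obtain ⟨hmS, -, -⟩ := desc_local b b.span_eq a' fun j =>
    ⟨t', ht' (Ideal.pow_mem_pow (ha' j) t')⟩
  obtain ⟨q, hq⟩ : ∃ q : Set R,
      q = Set.range (fun i => algebraMap (PS (Fin (m + 1)) k) R (X i)) ∪
        Set.range fun j => g j - algebraMap (PS (Fin (m + 1)) k) R (a j) := ⟨_, rfl⟩
  obtain ⟨q', hq'⟩ : ∃ q' : Set S, q' = algebraMap R S '' q ∪
      Set.range fun j => b j - algebraMap R S (a' j) := ⟨_, rfl⟩
  have hqf : q.Finite := hq ▸ (Set.finite_range _).union (Set.finite_range _)
  have hqf' : q'.Finite := hq' ▸ (hqf.image _).union (Set.finite_range _)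
  have hmq : maximalIdeal R = Ideal.span q := by rw [hmR, hq, Ideal.span_union, desc_mS]
  have hmq0 : mS R S = Ideal.span (algebraMap R S '' q) := by rw [mS, hmq, Ideal.map_span]
  have hmq' : maximalIdeal S = Ideal.span q' := by rw [hmS, hq', Ideal.span_union, hmq0]
  have E1 := ev_span_set (s' := Set.range fun j => (b j - algebraMap R S (a' j)) ^ t')
    (s := algebraMap R S '' q) (Set.finite_range _) (by
      rintro _ ⟨j, rfl⟩
      rw [← hmq0]
      exact ht' (Ideal.pow_mem_pow (ha' j) t'))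
  have E2 := ev_span_set (s' := Set.range y) (s := q') (Set.finite_range _) (by
      rintro _ ⟨j, rfl⟩
      rw [← hmq']
      exact hy.1 j)
  have E4 := ev_length hqf' (by rw [hmq']; exact Ideal.subset_span) lam _ hn.le
  have ES := (((E1.and E2).and (ev_lift y)).and E4).step b b.span_eq
  have F1 := ev_span_set
    (s' := Set.range fun j => (g j - algebraMap (PS (Fin (m + 1)) k) R (a j)) ^ t)
    (s := Set.range fun i => algebraMap (PS (Fin (m + 1)) k) R (X i)) (Set.finite_range _) (by
      rintro _ ⟨j, rfl⟩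
      exact ht (Ideal.pow_mem_pow (ha j) t))
  have F2 := ev_span_set (s' := q ^ (n0 + 1))
    (s := (Set.range fun i => algebraMap (PS (Fin (m + 1)) k) R (X i)) * q ^ n0)
    (desc_finite_pow hqf _) (by
      rw [hmq, Ideal.span, Ideal.span, Submodule.span_pow, Submodule.span_pow,
        Submodule.span_mul_span] at hn0
      exact Submodule.subset_span.trans hn0)
  have ER := (((F1.and F2).and (ev_lift a')).and ES).step g hg
  obtain ⟨D, _, ιD, hιD, hft, ⟨⟨ξ, hξ⟩, aD, haD⟩, RC, _, _, ιR, gC, hιR, hcR, hgC, hspanR,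
    ⟨⟨F1, F2⟩, a'C, ha'C⟩, SC, _, _, ιS, bC, hιS, hcS, hbC, hspanS, ⟨⟨E1, E2⟩, yC, hyC⟩, E4⟩ :=
    (((ev_lift fun i => (X i : PS (Fin (m + 1)) k)).and (ev_lift a)).and ER).exists_fg
  obtain ⟨κ, _, p, ψ, hp, hκ, hψ⟩ := artin_transfer (m + 1) D ιD ξ hξ
  have hxC : ιR '' (Set.range fun i => algebraMap D RC (ξ i)) =
      Set.range fun i => algebraMap (PS (Fin (m + 1)) k) R (X i) := by
    rw [← Set.range_comp]
    congr 1
    funext i
    rw [Function.comp_apply, hcR, hξ]
  have hwC : ∀ j, ιR (gC j - algebraMap D RC (aD j)) =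
      g j - algebraMap (PS (Fin (m + 1)) k) R (a j) := fun j => by
    rw [map_sub, hgC, hcR, haD]
  have hsC : ∀ j, ιS (bC j - algebraMap RC SC (a'C j)) = b j - algebraMap R S (a' j) :=
    fun j => by rw [map_sub, hbC, hcS, ha'C]
  obtain ⟨qC, hqC⟩ : ∃ qC : Set RC, qC = Set.range (fun i => algebraMap D RC (ξ i)) ∪
      Set.range fun j => gC j - algebraMap D RC (aD j) := ⟨_, rfl⟩
  obtain ⟨qC', hqC'⟩ : ∃ qC' : Set SC, qC' = algebraMap RC SC '' qC ∪
      Set.range fun j => bC j - algebraMap RC SC (a'C j) := ⟨_, rfl⟩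
  have h1 : ιR '' qC = q := by
    rw [hqC, hq, Set.image_union, hxC, ← Set.range_comp]
    congr 2
    funext j
    exact hwC j
  have h2 : ιS '' (algebraMap RC SC '' qC) = algebraMap R S '' q := by
    rw [← h1, Set.image_image, Set.image_image]
    exact Set.image_congr fun x _ => hcS x
  have h3 : ιS '' qC' = q' := by
    rw [hqC', hq', Set.image_union, h2, ← Set.range_comp]
    congr 2
    funext j
    exact hsC j
  have hli : LinearIndependent RC bC := by
    rw [Fintype.linearIndependent_iff]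
    intro c hc i
    apply hιR
    rw [map_zero]
    refine Fintype.linearIndependent_iff.1 b.linearIndependent (fun i => ιR (c i)) ?_ i
    have h4 := congrArg ιS hc
    rw [map_sum, map_zero] at h4
    rw [← h4]
    refine Finset.sum_congr rfl fun j _ => ?_
    rw [Algebra.smul_def, Algebra.smul_def, map_mul, hcS, hbC]
  obtain ⟨r, f, s, hs, hs', hr⟩ := desc_push (n0 := n0) (n := n) (lam := lam) ξ gC hspanR aD bC
    hspanS hli hM a'C yC qC hqC qC' hqC'
    (fun j => ⟨t, F1 _ ⟨j, by rw [map_pow, hwC]⟩ _ (by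
      rw [← hxC]
      exact Set.image_mono Ideal.subset_span)⟩)
    (by
      rw [Ideal.span, Submodule.span_pow]
      refine Submodule.span_le.2 fun z hz => F2 z ?_ _ ?_
      · rw [← h1, ← Set.image_pow]
        exact Set.mem_image_of_mem _ hz
      · rw [← h1, ← hxC, ← Set.image_pow, ← Set.image_mul, Submodule.span_pow, Ideal.span,
          Submodule.span_mul_span]
        exact Set.image_mono Submodule.subset_span)
    (fun j => ⟨t', E1 _ ⟨j, by rw [map_pow, hsC]⟩ _ (by
      rw [← h2]
      exact Set.image_mono Ideal.subset_span)⟩)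
    (fun i => E2 _ ⟨i, (hyC i).symm⟩ _ (by
      rw [← h3]
      exact Set.image_mono Ideal.subset_span))
    (fun B0 _ _ γ hγ => E4 B0 γ qC' h3.le hγ _ (by
      rintro _ ⟨i, rfl⟩
      exact ⟨yC i ^ n, Ideal.subset_span ⟨i, rfl⟩, by rw [map_pow, hyC]⟩))
    ψ hψ hp hκ hn1
  refine le_trans (mul_le_mul_of_nonneg_right ?_ (by positivity)) hr
  refine desc_up hresR' he (fun i => g (f i)) (s := ιD s)
    (fun h0 => hs (hιD (h0.trans (map_zero _).symm))) fun w => ?_
  refine (Submodule.span_le.2 ?_ : _ ≤ (Submodule.span (PS (Fin (m + 1)) k)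
    (Set.range fun i => g (f i))).comap (LinearMap.lsmul _ R (ιD s)))
    (hg.symm ▸ Submodule.mem_top : w ∈ Submodule.span (PS (Fin (m + 1)) k) (Set.range g))
  rintro _ ⟨j, rfl⟩
  obtain ⟨c, hc⟩ := (Submodule.mem_span_range_iff_exists_fun D).1 (hs' (gC j))
  rw [SetLike.mem_coe, Submodule.mem_comap, LinearMap.lsmul_apply]
  refine (Submodule.mem_span_range_iff_exists_fun _).2 ⟨fun i => ιD (c i), ?_⟩
  have h4 := congrArg ιR hc
  rw [map_sum, Algebra.smul_def, map_mul, hcR, hgC] at h4
  rw [Algebra.smul_def, ← h4]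
  refine Finset.sum_congr rfl fun i _ => ?_
  rw [Algebra.smul_def, Algebra.smul_def, map_mul, hcR, hgC]

/-- Spreading out, for `S` finite free over `R` finite over `k[[X]]`. -/
theorem descent {m : ℕ} {k : Type u} [Field k] [CharZero k] (φ : PS (Fin (m + 1)) k →+* R)
    (hres : Function.Surjective ((residue S).comp ((algebraMap R S).comp (φ.comp C))))
    (hx : IsRed fun i => φ (X i)) {y : Fin (m + 1) → S}
    (hy : IsSop y) (hl : Module.length S (S ⧸ mS R S) ≠ ⊤) {e : ℝ}
    (he : IsMult R (Ideal.span (Set.range fun i => φ (X i))) (m + 1) e) (n lam : ℕ)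
    (hn : Module.length S (S ⧸ Ideal.span (Set.range fun i => y i ^ n)) = lam) :
    e * (n : ℝ) ^ (m + 1) ≤ lam := by
  letI : Algebra (PS (Fin (m + 1)) k) R := φ.toAlgebra
  exact descent_alg (k := k) (R := R) (S := S) (m := m) hres hx hy hl he n lam hn

theorem desc_limit {m : ℕ} {y : Fin (m + 1) → S} (hy : IsSop y) {e e' : ℝ}
    (he' : IsMult S (Ideal.span (Set.range y)) (m + 1) e')
    (h : ∀ n lam : ℕ, Module.length S (S ⧸ Ideal.span (Set.range fun i => y i ^ n)) = lam →
      e * (n : ℝ) ^ (m + 1) ≤ lam) : e ≤ e' := by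
  obtain ⟨t, ht⟩ := hy.2
  obtain ⟨r, a, f, hch⟩ := exists_chain y ht
  obtain rfl := tendsto_nhds_unique he' (tendsto_HS hch)
  obtain ⟨K, hK⟩ := length_frob_le hch
  have h1 : ∀ n : ℕ, 1 ≤ n → e ≤ eChain y r a f + (K : ℝ) / n := by
    intro n hn
    have h2 : Module.length S (S ⧸ Ideal.span (Set.range fun i => y i ^ n)) ≠ ⊤ :=
      ra_ne_top ((ra_pow_le ht _).trans (hs_pow_le_frob y n))
    obtain ⟨lam, hlam⟩ := ENat.ne_top_iff_exists.1 h2
    have h3 := h n lam hlam.symm
    have h4 := hK n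
    rw [← hlam] at h4
    have h5 : (lam : ℝ) * n ≤ eChain y r a f * (n : ℝ) ^ (m + 2) + K * (n : ℝ) ^ (m + 1) := by
      exact_mod_cast h4
    have h6 : (0 : ℝ) < n := Nat.cast_pos.2 hn
    have h7 : (0 : ℝ) < (n : ℝ) ^ (m + 2) := by positivity
    refine le_of_mul_le_mul_right ?_ h7
    have h8 : (eChain y r a f + (K : ℝ) / n) * (n : ℝ) ^ (m + 2) =
        eChain y r a f * (n : ℝ) ^ (m + 2) + K * (n : ℝ) ^ (m + 1) := by
      field_simp
      ring
    rw [h8]
    refine le_trans ?_ h5
    rw [pow_succ, ← mul_assoc]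
    exact mul_le_mul_of_nonneg_right h3 h6.le
  have h9 : Tendsto (fun n : ℕ => (eChain y r a f : ℝ) + (K : ℝ) / n) atTop
      (𝓝 ((eChain y r a f : ℝ) + 0)) :=
    tendsto_const_nhds.add (tendsto_const_div_atTop_nhds_zero_nat _)
  rw [add_zero] at h9
  exact ge_of_tendsto h9 (eventually_atTop.2 ⟨1, h1⟩)

theorem lechMult_complete [IsAdicComplete (maximalIdeal R) R]
    [IsAdicComplete (maximalIdeal S) S] (h : Nonempty (ℚ →+* R)) : LechMult R S := by
  intro m x y e e' hx hy hl he he'
  obtain ⟨g, hg⟩ := exists_coefField (B := R) (Or.inl h)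
  obtain ⟨f0⟩ := h
  haveI : CharZero (ResidueField R) :=
    charZero_of_injective_ringHom ((residue R).comp f0).injective
  haveI : CharZero (ResidueField S) :=
    charZero_of_injective_ringHom (ResidueField.map (algebraMap R S)).injective
  have hg' : ∀ c, residue R (g c) = c := fun c => RingHom.congr_fun hg c
  obtain ⟨gl, hgl, hgl'⟩ := exists_lift_charZero (maximalIdeal S)
    (ResidueField.map (algebraMap R S)) ((algebraMap R S).comp g)
    (RingHom.id (ResidueField S)) (by
      ext1 c
      change ResidueField.map (algebraMap R S) c = residue S (algebraMap R S (g c))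
      rw [← ResidueField.map_residue, hg'])
  obtain ⟨φ, hφC, hφX⟩ := exists_psHom (σ := Fin (m + 1)) (maximalIdeal R) g x hx.1
  have hres : Function.Surjective ((residue R).comp (φ.comp C)) := fun c =>
    ⟨c, by rw [RingHom.comp_apply, RingHom.comp_apply, hφC, hg']⟩
  have hxφ : (fun i => φ (X i)) = x := funext hφX
  obtain ⟨R', _, _, _, _, φ', hU, -, hφ', -, huniv, -⟩ :=
    exists_baseChange (ResidueField.map (algebraMap R S)) φ
      (psHom_finite φ (by rw [hxφ]; exact hx.isSop) hres) (fun i => by rw [hφX]; exact hx.1 i) hres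
  have hxS : ∀ i, algebraMap R S (x i) ∈ maximalIdeal S := fun i => map_nonunit _ _ (hx.1 i)
  obtain ⟨α, hαC, hαX⟩ := exists_psHom (σ := Fin (m + 1)) (maximalIdeal S) gl
    (fun i => algebraMap R S (x i)) hxS
  obtain ⟨γ, hγ, hγ'⟩ := huniv S α (algebraMap R S) (psHom_ext (maximalIdeal S) _ _
    (fun c => by
      rw [RingHom.comp_apply, RingHom.comp_apply, MvPowerSeries.map_C, hαC, hφC]
      exact RingHom.congr_fun hgl' c)
    (fun i => by rw [RingHom.comp_apply, RingHom.comp_apply, MvPowerSeries.map_X, hαX, hφX])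
    (fun i => by rw [RingHom.comp_apply, MvPowerSeries.map_X, hαX]; exact hxS i))
  letI : Algebra R' S := γ.toAlgebra
  haveI : IsLocalHom (algebraMap S S) := isLocalHom_id S
  obtain ⟨h1, h2, h3⟩ := flat_of_unr_square (S := S) (S' := S) hU
    (fun c => RingHom.congr_fun hγ' c)
  have hx' : (fun i => φ' (X i)) = fun i => algebraMap R R' (x i) := by
    funext i
    have h4 := RingHom.congr_fun hφ' (X i)
    rwa [RingHom.comp_apply, RingHom.comp_apply, MvPowerSeries.map_X, hφX] at h4
  refine desc_limit hy he' fun n lam hn => descent (R := R') φ' (fun c => ⟨c, ?_⟩) ?_ hy ?_ ?_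
    n lam hn
  · have h4 : γ (φ' (C c)) = gl c := (RingHom.congr_fun hγ (C c)).trans (hαC c)
    change residue S (γ (φ' (C c))) = c
    rw [h4]
    exact RingHom.congr_fun hgl c
  · rw [hx']
    exact hU.isRed hx
  · rw [h3, Algebra.algebraMap_self, Ideal.map_id]
    exact hl
  · rw [hx']
    have h4 : Ideal.span (Set.range fun i => algebraMap R R' (x i)) =
        (Ideal.span (Set.range x)).map (algebraMap R R') := by
      rw [Ideal.map_span, ← Set.range_comp]
      rfl
    rw [h4, IsMult, hU.HS_map]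
    exact he

theorem lechMult_charZero (h : Nonempty (ℚ →+* R)) : LechMult R S := by
  obtain ⟨R', S', _, _, _, _, _, _, _, _, _, hR, hS, hc, _, _⟩ := exists_square_complete R S
  haveI := hS.isLocalHom
  haveI := hS.flat
  obtain ⟨h1, h2, -⟩ := flat_of_unr_square hR hc
  exact LechMult.of_unr hR hS hc
    (lechMult_complete (h.map fun f => (algebraMap R R').comp f))

theorem lechMult_eqChar (h : EqChar R) : LechMult R S := by
  rcases h with h | ⟨p, hp, hR⟩
  · exact lechMult_charZero h
  · exact (lechEps_charP hp hR).lechMult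

end Vale.Agent.P202
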