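import Vale.Agent.P202.Ideals

/-! Devissage: finiteness of cohomology and the bound for torsion sheaves. -/

namespace Vale.Agent.P202

open MvPolynomial

universe u

variable {A : Type u} [CommRing A] {m : ℕ}

theorem hh_cech_out (μ : LenFun A) (D D' : (Fin m → Ch) → Submodule A (Lau A m)) (n : ℤ)
    (h : n < -(m : ℤ) ∨ 0 < n) : hh μ (cd A m (Lau A m)) (Cech D) (Cech D') n = 0 :=
  hh_eq_zero_of_le μ n (by rw [cech_eq_bot D' n h]; exact bot_le)

/-- Descending induction on the cohomological degree. -/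
theorem devissage [IsNoetherianRing A] (μ : LenFun A) (Pr : ((Fin m → ℤ) → ℕ∞) → Prop)
    (h0 : Pr fun _ => 0) (hle : ∀ f g, (∀ b, f b ≤ g b) → Pr g → Pr f)
    (hadd : ∀ f g, Pr f → Pr g → Pr fun b => f b + g b)
    (hsh : ∀ f (γ : ℕ), Pr f → Pr fun b => f (sh b (-γ)))
    (c0 : Ideal (MvPolynomial (Fin (m + 1)) A)) (hc0 : IsHom c0)
    (hbase : ∀ n, Pr fun b => hh μ (cd A m (Lau A m)) (Cech (CI c0 b)) (Cech (Cm A b)) n)
    (c : Ideal (MvPolynomial (Fin (m + 1)) A)) (hc : IsHom c) (hle0 : c0 ≤ c) (n : ℤ) :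
    Pr fun b => hh μ (cd A m (Lau A m)) (Cech (CI c b)) (Cech (Cm A b)) n := by
  have low : ∀ n : ℤ, n < -(m : ℤ) → ∀ c : Ideal (MvPolynomial (Fin (m + 1)) A),
      Pr fun b => hh μ (cd A m (Lau A m)) (Cech (CI c b)) (Cech (Cm A b)) n := fun n hn c =>
    hle _ _ (fun b => (hh_cech_out μ _ _ n (Or.inl hn)).le) h0
  have step : ∀ n : ℤ, (∀ c : Ideal (MvPolynomial (Fin (m + 1)) A), IsHom c → c0 ≤ c →
      Pr fun b => hh μ (cd A m (Lau A m)) (Cech (CI c b)) (Cech (Cm A b)) n) →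
      ∀ c : Ideal (MvPolynomial (Fin (m + 1)) A), IsHom c → c0 ≤ c →
      Pr fun b => hh μ (cd A m (Lau A m)) (Cech (CI c b)) (Cech (Cm A b)) (n + 1) := by
    intro n ih c hc hle0
    obtain ⟨c', ⟨h1, h2, h3, h4⟩, hmax⟩ := (set_has_maximal_iff_noetherian.2
      (inferInstance : IsNoetherian (MvPolynomial (Fin (m + 1)) A) (MvPolynomial (Fin (m + 1)) A)))
      {c' | IsHom c' ∧ c0 ≤ c' ∧ c' ≤ c ∧
        Pr fun b => hh μ (cd A m (Lau A m)) (Cech (CI c0 b)) (Cech (CI c' b)) n}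
      ⟨c0, hc0, le_rfl, hle0, hle _ _ (fun b => (hh_eq_zero_of_le μ n le_rfl).le) h0⟩
    have hcc : c ≤ c' := by
      by_contra hcon
      obtain ⟨γ, g, hg, hgc, hgc'⟩ := hc.exists_homogeneous hcon
      refine hmax (c' ⊔ Ideal.span {g}) ⟨h1.sup (isHom_span_singleton hg), h2.trans le_sup_left,
        sup_le h3 ((Ideal.span_singleton_le_iff_mem _).2 hgc), ?_⟩ ?_
      · have h5 := hsh _ γ (ih (c'.colon {g}) (h1.colon hg) (h2.trans Ideal.le_colon))
        refine hle _ _ (fun b => ?_) (hadd _ _ h4 h5)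
        rw [← piece_hh μ h1 hg]
        exact hh_le_add μ cd_comp_cd (cech_isCx (CI_cmono _ _)) (cech_isCx (CI_cmono _ _))
          (cech_isCx (CI_cmono _ _)) (cech_mono (CI_mono h2 b)) (cech_mono (CI_mono le_sup_left b)) n
      · refine lt_of_le_of_ne le_sup_left fun h => hgc' ?_
        rw [h]
        exact Ideal.mem_sup_right (Ideal.mem_span_singleton_self g)
    obtain rfl := le_antisymm hcc h3
    refine hle _ _ (fun b => ?_) (hadd _ _ (hbase (n + 1)) h4)
    have := hh_quot_le μ cd_comp_cd (cech_isCx (CI_cmono c0 b)) (cech_isCx (CI_cmono c b))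
      (cech_isCx (Cm_cmono b)) (cech_mono (CI_mono hle0 b)) (cech_mono (CI_le c b)) (n + 1)
    rwa [add_sub_cancel_right] at this
  by_cases hn : n < -(m : ℤ)
  · exact low n hn c
  · have key : ∀ n : ℤ, -(m : ℤ) - 1 ≤ n → ∀ c : Ideal (MvPolynomial (Fin (m + 1)) A), IsHom c →
        c0 ≤ c → Pr fun b => hh μ (cd A m (Lau A m)) (Cech (CI c b)) (Cech (Cm A b)) n := by
      intro n hn
      induction n, hn using Int.leInduction with
      | base => exact fun c _ _ => low _ (by omega) c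
      | succ n _ ih => exact step n ih
    exact key n (by omega) c hc hle0

theorem dev_fg [IsNoetherianRing A] (c : Ideal (MvPolynomial (Fin (m + 1)) A)) (hc : IsHom c)
    (b : Fin m → ℤ) (n : ℤ) :
    hh (fgF A) (cd A m (Lau A m)) (Cech (CI c b)) (Cech (Cm A b)) n = 0 := by
  refine devissage (fgF A) (fun f => ∀ b, f b = 0) (fun _ => rfl)
    (fun f g hfg hg b => nonpos_iff_eq_zero.1 ((hfg b).trans (hg b).le))
    (fun f g hf hg b => by simp only [hf b, hg b, add_zero]) (fun f γ hf b => hf _) ⊥ isHom_bot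
    (fun n b => ?_) c hc bot_le n b
  have hA : (fgF A).len A = 0 := by
    have : Module.Finite A A := inferInstance
    simp [fgF, this]
  simp only [CI_bot, cech_bot, mono_hh, hA, mul_zero, ite_self]

theorem prod_bound {ι : Type} (T : Finset ι) (x s : ι → ℕ) (γ M : ℕ)
    (h1 : ∀ j, s j ≤ x j) (h2 : ∀ j, x j ≤ s j + γ) (h3 : ∀ j, x j ≤ M) :
    (∏ j ∈ T, x j) * M ≤ (∏ j ∈ T, s j) * M + T.card * γ * M ^ T.card := by
  classical
  induction T using Finset.induction_on with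
  | empty => simp
  | insert a T ha ih =>
    rw [Finset.prod_insert ha, Finset.prod_insert ha, Finset.card_insert_of_notMem ha]
    have h4 : ∏ j ∈ T, x j ≤ M ^ T.card := Finset.prod_le_pow_card _ _ _ fun j _ => h3 j
    have h5 : s a ≤ M := (h1 a).trans (h3 a)
    calc x a * (∏ j ∈ T, x j) * M ≤ (s a + γ) * (∏ j ∈ T, x j) * M := by gcongr; exact h2 a
      _ = s a * ((∏ j ∈ T, x j) * M) + γ * (∏ j ∈ T, x j) * M := by ring
      _ ≤ s a * ((∏ j ∈ T, s j) * M + T.card * γ * M ^ T.card) + γ * M ^ T.card * M := by gcongr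
      _ = s a * (∏ j ∈ T, s j) * M + s a * (T.card * γ * M ^ T.card) + γ * M ^ T.card * M := by
          ring
      _ ≤ s a * (∏ j ∈ T, s j) * M + M * (T.card * γ * M ^ T.card) + γ * M ^ T.card * M := by
          gcongr
      _ = _ := by ring

theorem box_card_nat (b : Fin m → ℤ) : (Box b).card = ∏ j, (b j + 1).natAbs := by
  have := box_card b
  zify
  exact this

/-- The lexicographically leading exponent. -/
theorem exists_lead {k : Type u} [Field k] {f : Lau k m} (hf : f ≠ 0) :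
    ∃ l : Fin m → ℤ, f.coeff l ≠ 0 ∧ ∀ v : Lau k m, v ≠ 0 →
      ∃ β, v.coeff β ≠ 0 ∧ (f * v).coeff (l + β) ≠ 0 := by
  have ex : ∀ v : Lau k m, v ≠ 0 → ∃ β ∈ v.coeff.support, ∀ β' ∈ v.coeff.support,
      toLex β' ≤ toLex β := fun v hv =>
    Finset.exists_max_image _ (fun β => toLex β)
      (Finsupp.support_nonempty_iff.2 fun h => hv (AddMonoidAlgebra.coeff_eq_zero.1 h))
  obtain ⟨l, hl, hmax⟩ := ex f hf
  refine ⟨l, Finsupp.mem_support_iff.1 hl, fun v hv => ?_⟩
  obtain ⟨β, hβ, hmax'⟩ := ex v hv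
  refine ⟨β, Finsupp.mem_support_iff.1 hβ, ?_⟩
  rw [AddMonoidAlgebra.coeff_mul_add_of_uniqueAdd]
  · exact mul_ne_zero (Finsupp.mem_support_iff.1 hl) (Finsupp.mem_support_iff.1 hβ)
  · intro a b ha hb hab
    have h1 : toLex a + toLex b = toLex l + toLex β := congrArg toLex hab
    have h2 := (add_eq_add_iff_eq_and_eq (hmax a ha) (hmax' b hb)).1 h1
    exact ⟨toLex.injective h2.1, toLex.injective h2.2⟩

/-- Lower bound for the rank of multiplication by `psi g` on cohomology. -/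
theorem rank_ge (k : Type u) [Field k] {g : MvPolynomial (Fin (m + 1)) k} {γ : ℕ}
    (hg : g.IsHomogeneous γ) (b : Fin m → ℤ) (hJ : Jstar (sh b (-γ)) = Jstar b)
    (l : Fin m → ℤ) (hl : ∀ v : Lau k m, v ≠ 0 →
      ∃ β, v.coeff β ≠ 0 ∧ (psi k m g * v).coeff (l + β) ≠ 0)
    (T : Finset (Fin m → ℤ)) (hT : ∀ β ∈ T, β ∈ Box (sh b (-γ)) ∧ l + β ∈ Box b) :
    (T.card : ℕ∞) ≤ rl (lenF k)
      (Bc (cd k m (Lau k m)) ⊥ (Cech (Cm k b)) (-(cdeg (Jstar b) : ℤ)))
      (Zc (cd k m (Lau k m)) ⊥ (Cech (CI (Ideal.span {g}) b)) (-(cdeg (Jstar b) : ℤ))) := by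
  classical
  let Φ : Lau k m →ₗ[k] ((Fin m → Ch) → Lau k m) := LinearMap.pi fun J =>
    if ∀ j, (J j = Ch.W ↔ Jstar (sh b (-γ)) j = Ch.W) then LinearMap.mulLeft k (psi k m g) else 0
  have hΦ : ∀ v J, Φ v J = psi k m g * cocyc (sh b (-γ)) v J := by
    intro v J
    simp only [Φ, LinearMap.pi_apply, cocyc]
    split_ifs <;> simp
  let V : Submodule k (Lau k m) := AddMonoidAlgebra.supported k k (T : Set (Fin m → ℤ))
  have hV : V.map Φ ≤
      Zc (cd k m (Lau k m)) ⊥ (Cech (CI (Ideal.span {g}) b)) (-(cdeg (Jstar b) : ℤ)) := by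
    rintro _ ⟨v, hv, rfl⟩
    have h1 := cocyc_mem (sh b (-γ)) v fun β hβ =>
      AddMonoidAlgebra.mem_supported'.1 hv β fun h => hβ (hT β h).1
    rw [hJ] at h1
    obtain ⟨h2, h3⟩ := h1
    have h4 := mem_cech.1 h2
    refine ⟨mem_cech.2 ⟨fun J hJ' => ?_, fun J hJ' => ?_⟩, ?_⟩
    · rw [hΦ, CI_span_singleton hg]
      exact ⟨_, h4.1 J hJ', rfl⟩
    · rw [hΦ, h4.2 J hJ', mul_zero]
    · have h5 : cd k m (Lau k m) (cocyc (sh b (-γ)) v) = 0 := h3
      change cd k m (Lau k m) (Φ v) = 0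
      funext J
      have h6 := congrFun h5 J
      rw [cd_apply] at h6 ⊢
      simp only [hΦ, ← mul_sub, ← mul_smul_comm, ← Finset.mul_sum, h6, Pi.zero_apply, mul_zero]
  refine le_trans ?_ (rl_mono (lenF k) le_rfl hV)
  rw [← rl_map, ← rl_inf]
  have h7 : (Bc (cd k m (Lau k m)) ⊥ (Cech (Cm k b)) (-(cdeg (Jstar b) : ℤ))).comap Φ ⊓ V = ⊥ := by
    rw [eq_bot_iff]
    rintro v ⟨hv1, hv2⟩
    by_contra hv0
    obtain ⟨β, hβ1, hβ2⟩ := hl v hv0
    have hβT : β ∈ T := by
      by_contra h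
      exact hβ1 (AddMonoidAlgebra.mem_supported'.1 hv2 β h)
    have h8 : Φ v ∈ Cech (Cm' k b) (-(cdeg (Jstar b) : ℤ)) := by
      have h9 := cd_mem_Cm' (A := k) b (-(cdeg (Jstar b) : ℤ) + 1)
      rw [add_sub_cancel_right] at h9
      exact (sup_le bot_le h9) hv1
    have h10 := (mem_cech.1 h8).1 (Jstar b) (neg_neg _).symm
    rw [hΦ, cocyc, hJ, if_pos fun _ => Iff.rfl] at h10
    exact hβ2 (AddMonoidAlgebra.mem_supported'.1 h10 _ fun h => h.2 ⟨rfl, (hT β hβT).2⟩)
  rw [h7, rl_bot, (lenF k).equiv ((AddMonoidAlgebra.supportedEquivFinsupp _).trans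
    (Finsupp.linearEquivFunOnFinite k k _)), LenFun.len_pi]
  have h11 : (lenF k).len k = 1 := Module.length_eq_one k k
  simp [h11]

theorem tot_principal (k : Type u) [Field k] {g : MvPolynomial (Fin (m + 1)) k} {γ : ℕ}
    (hg : g.IsHomogeneous γ) (h0 : g ≠ 0) (b : Fin m → ℤ) (n0 : ℤ) (r : ℕ)
    (hr : (r : ℕ∞) ≤ rl (lenF k) (Bc (cd k m (Lau k m)) ⊥ (Cech (Cm k b)) n0)
      (Zc (cd k m (Lau k m)) ⊥ (Cech (CI (Ideal.span {g}) b)) n0)) :
    ∃ t : ℕ, t + 2 * r ≤ (Box (sh b (-γ))).card + (Box b).card ∧ ∀ n,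
      hh (lenF k) (cd k m (Lau k m)) (Cech (CI (Ideal.span {g}) b)) (Cech (Cm k b)) n ≤ t := by
  have hcol : (⊥ : Ideal (MvPolynomial (Fin (m + 1)) k)).colon {g} = ⊥ := by
    rw [eq_bot_iff]
    intro x hx
    have := Submodule.mem_colon_singleton.1 hx
    simpa [h0] using this
  have h1 : ∀ n, hh (lenF k) (cd k m (Lau k m)) ⊥ (Cech (CI (Ideal.span {g}) b)) n =
      hh (lenF k) (cd k m (Lau k m)) ⊥ (Cech (Cm k (sh b (-γ)))) (n + 0) := by
    intro n
    have := piece_hh (lenF k) isHom_bot hg b n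
    rw [hcol, bot_sup_eq, CI_bot, CI_bot, cech_bot] at this
    rwa [add_zero]
  obtain ⟨h2, -, h3⟩ := good_chi_of_hh_shift 0 h1
  obtain ⟨g1, -, t1⟩ := mono_good_chi k (sh b (-γ))
  obtain ⟨g2, -, t2⟩ := mono_good_chi k b
  have g3 := h2.2 g1
  have c2 : IsCx (cd k m (Lau k m)) (Cech (CI (Ideal.span {g}) b)) := cech_isCx (CI_cmono _ _)
  have c3 : IsCx (cd k m (Lau k m)) (Cech (Cm k b)) := cech_isCx (Cm_cmono _)
  have h23 := cech_mono (CI_le (Ideal.span {g}) b)
  have h4 := tot_quot_add_le cd_comp_cd isCx_bot c2 c3 bot_le h23 g3 g2 n0 r hr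
  rw [h3, t1, t2] at h4
  exact ⟨_, h4, hh_le_tot (Good.right cd_comp_cd isCx_bot c2 c3 bot_le h23 g3 g2)⟩

/-- The bound for a hypersurface. -/
theorem tors_principal (k : Type u) [Field k] {g : MvPolynomial (Fin (m + 1)) k} {γ : ℕ}
    (hg : g.IsHomogeneous γ) (h0 : g ≠ 0) :
    ∃ C : ℕ, ∀ (b : Fin m → ℤ) (L : ℕ), 1 ≤ L → (∀ j, |b j| < L) → ∀ n,
      hh (lenF k) (cd k m (Lau k m)) (Cech (CI (Ideal.span {g}) b)) (Cech (Cm k b)) n * L ≤
        C * (L : ℕ∞) ^ m := by
  classical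
  obtain ⟨l, hl0, hl⟩ := exists_lead (psi_ne_zero hg h0)
  have hlγ : ∀ j, 0 ≤ l j ∧ l j ≤ γ := by
    by_contra h
    exact hl0 (psi_coeff_eq_zero hg l h)
  refine ⟨2 * (m * γ) * (γ + 1) ^ m, fun b L hL hb n => ?_⟩
  have hx : ∀ j, (b j + 1).natAbs ≤ L + γ := fun j => by
    have := abs_lt.1 (hb j)
    omega
  have hx' : ∀ j, (sh b (-γ) j + 1).natAbs ≤ L + γ := fun j => by
    have := abs_lt.1 (hb j)
    simp only [sh]
    omega
  have key : ∃ r t : ℕ, t + 2 * r ≤ (Box (sh b (-γ))).card + (Box b).card ∧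
      hh (lenF k) (cd k m (Lau k m)) (Cech (CI (Ideal.span {g}) b)) (Cech (Cm k b)) n ≤ t ∧
      (Box b).card * (L + γ) ≤ r * (L + γ) + m * γ * (L + γ) ^ m ∧
      (Box (sh b (-γ))).card * (L + γ) ≤ r * (L + γ) + m * γ * (L + γ) ^ m := by
    by_cases hs : ∀ j, (0 ≤ b j ↔ 0 ≤ b j - γ)
    · have hJ : Jstar (sh b (-γ)) = Jstar b := by
        funext j
        simp only [Jstar, sh, ← sub_eq_add_neg, hs j]
      let T : Finset (Fin m → ℤ) := Fintype.piFinset fun j =>
        if 0 ≤ b j then Finset.Icc 0 (b j - γ) else Finset.Ioo (b j - l j) (-l j)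
      have hT : ∀ β ∈ T, β ∈ Box (sh b (-γ)) ∧ l + β ∈ Box b := by
        intro β hβ
        simp only [T, Box, Fintype.mem_piFinset] at hβ ⊢
        refine ⟨fun j => ?_, fun j => ?_⟩
        · have h1 := hβ j
          have h2 := hs j
          have h3 := hlγ j
          have h4 : sh b (-γ) j = b j - γ := (sub_eq_add_neg _ _).symm
          generalize sh b (-γ) j = z at h4 ⊢
          by_cases h : 0 ≤ b j
          · rw [if_pos h, Finset.mem_Icc] at h1
            rw [if_pos (by omega), Finset.mem_Icc]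
            omega
          · rw [if_neg h, Finset.mem_Ioo] at h1
            rw [if_neg (by omega), Finset.mem_Ioo]
            omega
        · have h1 := hβ j
          have h2 := hs j
          have h3 := hlγ j
          rw [Pi.add_apply]
          split_ifs at h1 ⊢ <;> simp only [Finset.mem_Icc, Finset.mem_Ioo] at h1 ⊢ <;> omega
      obtain ⟨t, ht1, ht2⟩ := tot_principal k hg h0 b _ _ (rank_ge k hg b hJ l hl T hT)
      let s : Fin m → ℕ := fun j =>
        (if 0 ≤ b j then Finset.Icc 0 (b j - γ) else Finset.Ioo (b j - l j) (-l j)).card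
      have hs1 : ∀ j, (s j : ℤ) = if 0 ≤ b j then b j - γ + 1 else -b j - 1 := by
        intro j
        have h2 := hs j
        simp only [s]
        split_ifs
        · rw [Int.card_Icc]; omega
        · rw [Int.card_Ioo]; omega
      have hTc : T.card = ∏ j, s j := Fintype.card_piFinset _
      refine ⟨T.card, t, ht1, ht2 n, ?_, ?_⟩
      · have := prod_bound Finset.univ (fun j => (b j + 1).natAbs) s γ (L + γ)
          (fun j => by have := hs1 j; split_ifs at this <;> omega)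
          (fun j => by have := hs1 j; split_ifs at this <;> omega) hx
        rwa [Finset.card_univ, Fintype.card_fin, ← hTc, ← box_card_nat] at this
      · have := prod_bound Finset.univ (fun j => (sh b (-γ) j + 1).natAbs) s γ (L + γ)
          (fun j => by
            have := hs1 j; have := hs j; simp only [sh]; split_ifs at * <;> omega)
          (fun j => by
            have := hs1 j; have := hs j; simp only [sh]; split_ifs at * <;> omega) hx'
        rwa [Finset.card_univ, Fintype.card_fin, ← hTc, ← box_card_nat] at this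
    · push Not at hs
      obtain ⟨j0, hj0⟩ := hs
      obtain ⟨t, ht1, ht2⟩ := tot_principal k hg h0 b 0 0 (by simp)
      have aux : ∀ x : Fin m → ℕ, (∀ j, x j ≤ L + γ) → x j0 ≤ γ →
          (∏ j, x j) * (L + γ) ≤ 0 * (L + γ) + m * γ * (L + γ) ^ m := by
        intro x h1 h2
        have := prod_bound Finset.univ x (Function.update x j0 0) γ (L + γ)
          (fun j => by
            by_cases h : j = j0
            · subst h; simp
            · rw [Function.update_of_ne h])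
          (fun j => by
            by_cases h : j = j0
            · subst h; simpa using h2
            · rw [Function.update_of_ne h]; omega) h1
        rwa [Finset.card_univ, Fintype.card_fin,
          Finset.prod_eq_zero (f := Function.update x j0 0) (Finset.mem_univ j0)
            (Function.update_self ..)] at this
      refine ⟨0, t, ht1, ht2 n, ?_, ?_⟩
      · rw [box_card_nat]
        exact aux _ hx (by omega)
      · rw [box_card_nat]
        exact aux _ hx' (by simp only [sh]; omega)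
  obtain ⟨r, t, h1, h2, h3, h4⟩ := key
  have h5 : t * L ≤ 2 * (m * γ) * (γ + 1) ^ m * L ^ m := by
    have h6 : (L + γ) ^ m ≤ (γ + 1) ^ m * L ^ m := by
      rw [← mul_pow]
      exact Nat.pow_le_pow_left (by nlinarith) m
    have h7 := Nat.mul_le_mul_right (L + γ) h1
    have h8 := Nat.mul_le_mul_left (m * γ) h6
    nlinarith [Nat.zero_le (t * γ)]
  calc _ ≤ (t : ℕ∞) * L := by gcongr
    _ ≤ _ := by exact_mod_cast h5

theorem tors_bound (k : Type u) [Field k] (c : Ideal (MvPolynomial (Fin (m + 1)) k))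
    (hc : IsHom c) (h0 : c ≠ ⊥) :
    ∃ C : ℕ, ∀ (b : Fin m → ℤ) (L : ℕ), 1 ≤ L → (∀ j, |b j| < L) → ∀ n,
      hh (lenF k) (cd k m (Lau k m)) (Cech (CI c b)) (Cech (Cm k b)) n * L ≤
        C * (L : ℕ∞) ^ m := by
  obtain ⟨γ, g, hg, hgc, hg0⟩ := hc.exists_homogeneous (c' := ⊥) (fun h => h0 (le_bot_iff.1 h))
  obtain ⟨C0, hC0⟩ := tors_principal k hg (by simpa using hg0)
  have key := devissage (lenF k) (fun f => ∃ C : ℕ, ∀ (b : Fin m → ℤ) (L : ℕ), 1 ≤ L →
      (∀ j, |b j| < L) → f b * L ≤ C * (L : ℕ∞) ^ m) ⟨0, fun _ _ _ _ => by simp⟩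
    (by
      rintro f f' hff ⟨C, hC⟩
      exact ⟨C, fun b L hL hb => le_trans (by gcongr; exact hff b) (hC b L hL hb)⟩)
    (by
      rintro f f' ⟨C, hC⟩ ⟨C', hC'⟩
      refine ⟨C + C', fun b L hL hb => ?_⟩
      rw [add_mul, Nat.cast_add, add_mul]
      exact add_le_add (hC b L hL hb) (hC' b L hL hb))
    (by
      rintro f δ ⟨C, hC⟩
      refine ⟨C * (δ + 1) ^ m, fun b L hL hb => ?_⟩
      have h1 := hC (sh b (-δ)) (L + δ) (by omega) fun j => by
        have := abs_lt.1 (hb j)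
        rw [abs_lt]
        simp only [sh]
        push_cast
        omega
      have h6 : (L + δ) ^ m ≤ (δ + 1) ^ m * L ^ m := by
        rw [← mul_pow]
        exact Nat.pow_le_pow_left (by nlinarith) m
      calc f (sh b (-δ)) * L ≤ f (sh b (-δ)) * (L + δ : ℕ) := by
            gcongr; exact Nat.le_add_right _ _
        _ ≤ C * ((L + δ : ℕ) : ℕ∞) ^ m := h1
        _ ≤ _ := by exact_mod_cast (mul_assoc C _ _ ▸ Nat.mul_le_mul_left C h6))
    (Ideal.span {g}) (isHom_span_singleton hg) (fun n => ⟨C0, fun b L hL hb => hC0 b L hL hb n⟩)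
    c hc ((Ideal.span_singleton_le_iff_mem _).2 hgc)
  choose C hC using key
  refine ⟨∑ n ∈ Finset.Icc (-(m : ℤ)) 0, C n, fun b L hL hb n => ?_⟩
  by_cases hn : n ∈ Finset.Icc (-(m : ℤ)) 0
  · refine (hC n b L hL hb).trans ?_
    gcongr
    exact Finset.single_le_sum (fun _ _ => Nat.zero_le _) hn
  · rw [hh_cech_out _ _ _ n (by rw [Finset.mem_Icc] at hn; omega), zero_mul]
    exact zero_le

end Vale.Agent.P202
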