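import Vale.Agent.P202.Kos

/-! Mapping cone description of the Koszul complex. -/

namespace Vale.Agent.P202

open IsLocalRing

universe u

variable {S : Type u} [CommRing S] {d : ℕ}
  {M : Type u} [AddCommGroup M] [Module S M] {M' : Type u} [AddCommGroup M'] [Module S M']
  {y : Fin d → S} {T : Finset (Fin d)}

/-- Koszul chains with coefficients in `N0` away from `i` and in `N1` along `i`. -/
def Cn (T : Finset (Fin d)) (i : Fin d) (N0 N1 : Submodule S M) (n : ℤ) :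
    Submodule S (Finset (Fin d) → M) where
  carrier := {ξ | (∀ A, i ∉ A → ξ A ∈ N0) ∧ (∀ A, i ∈ A → ξ A ∈ N1) ∧
    ∀ A, ¬ (A ⊆ T ∧ (A.card : ℤ) = n) → ξ A = 0}
  add_mem' := fun h h' => ⟨fun A hA => add_mem (h.1 A hA) (h'.1 A hA),
    fun A hA => add_mem (h.2.1 A hA) (h'.2.1 A hA),
    fun A hA => by rw [Pi.add_apply, h.2.2 A hA, h'.2.2 A hA, add_zero]⟩
  zero_mem' := ⟨fun _ _ => zero_mem _, fun _ _ => zero_mem _, fun _ _ => rfl⟩
  smul_mem' := fun c _ h => ⟨fun A hA => N0.smul_mem c (h.1 A hA),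
    fun A hA => N1.smul_mem c (h.2.1 A hA),
    fun A hA => by rw [Pi.smul_apply, h.2.2 A hA, smul_zero]⟩

theorem mem_Cn {i : Fin d} {N0 N1 : Submodule S M} {n : ℤ} {ξ : Finset (Fin d) → M} :
    ξ ∈ Cn T i N0 N1 n ↔ (∀ A, i ∉ A → ξ A ∈ N0) ∧ (∀ A, i ∈ A → ξ A ∈ N1) ∧
      ∀ A, ¬ (A ⊆ T ∧ (A.card : ℤ) = n) → ξ A = 0 := Iff.rfl

theorem Cn_self (i : Fin d) (N : Submodule S M) : Cn T i N N = Kos T N := by
  funext n
  ext ξ
  rw [mem_Cn]
  constructor
  · intro h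
    refine mem_kos.2 ⟨fun A _ => ?_, h.2.2⟩
    by_cases hA : i ∈ A
    · exact h.2.1 A hA
    · exact h.1 A hA
  · intro h
    exact ⟨fun A _ => apply_mem_of_mem_kos h A, fun A _ => apply_mem_of_mem_kos h A,
      (mem_kos.1 h).2⟩

theorem Cn_bot (i : Fin d) (N : Submodule S M) : Cn T i N ⊥ = Kos (T.erase i) N := by
  funext n
  ext ξ
  rw [mem_Cn]
  constructor
  · intro h
    refine mem_kos.2 ⟨fun A hA => h.1 A fun hi => ?_, fun A hA => ?_⟩
    · simpa using hA.1 hi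
    · by_cases hi : i ∈ A
      · exact h.2.1 A hi
      · exact h.2.2 A fun h' => hA ⟨Finset.subset_erase.2 ⟨h'.1, hi⟩, h'.2⟩
  · intro h
    refine ⟨fun A _ => apply_mem_of_mem_kos h A, fun A hi => (mem_kos.1 h).2 A fun h' => ?_,
      fun A hA => (mem_kos.1 h).2 A fun h' => hA ⟨h'.1.trans (Finset.erase_subset _ _), h'.2⟩⟩
    simpa using h'.1 hi

theorem Cn_mono (i : Fin d) {N0 N1 L0 L1 : Submodule S M} (h0 : N0 ≤ L0) (h1 : N1 ≤ L1) :
    Cn T i N0 N1 ≤ Cn T i L0 L1 :=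
  fun _ _ h => ⟨fun A hA => h0 (h.1 A hA), fun A hA => h1 (h.2.1 A hA), h.2.2⟩

theorem kd_split (ξ : Finset (Fin d) → M) {i : Fin d} {A : Finset (Fin d)} (hA : i ∉ A) :
    kd y M ξ A = (((ksgn A i : ℤ) : S) * y i) • ξ (insert i A) +
      ∑ j ∈ Aᶜ.erase i, (((ksgn A j : ℤ) : S) * y j) • ξ (insert j A) := by
  rw [kd_apply, ← Finset.add_sum_erase _ _ (Finset.mem_compl.2 hA)]

theorem Cn_isCx (i : Fin d) {N0 N1 : Submodule S M} (h : ∀ m ∈ N1, y i • m ∈ N0) :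
    IsCx (kd y M) (Cn T i N0 N1) := by
  rintro n _ ⟨ξ, hξ, rfl⟩
  refine ⟨fun A hA => ?_, fun A hA => ?_, fun A hA => ?_⟩
  · rw [kd_split ξ hA]
    refine add_mem ?_ (sum_mem fun j hj => N0.smul_mem _ (hξ.1 _ ?_))
    · rw [mul_smul]
      exact N0.smul_mem _ (h _ (hξ.2.1 _ (Finset.mem_insert_self _ _)))
    · simp only [Finset.mem_insert, not_or]
      exact ⟨(Finset.ne_of_mem_erase hj).symm, hA⟩
  · rw [kd_apply]
    exact sum_mem fun j _ => N1.smul_mem _ (hξ.2.1 _ (Finset.mem_insert_of_mem hA))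
  · have h1 : ξ ∈ Kos T (⊤ : Submodule S M) n := mem_kos.2 ⟨fun _ _ => trivial, hξ.2.2⟩
    exact (mem_kos.1 (kos_isCx y T ⊤ n ⟨ξ, h1, rfl⟩)).2 A hA

theorem sgn_smul_mem_iff (A : Finset (Fin d)) (i : Fin d) (N : Submodule S M) (m : M) :
    ((ksgn A i : ℤ) : S) • m ∈ N ↔ m ∈ N := by
  refine ⟨fun h => ?_, N.smul_mem _⟩
  have := N.smul_mem ((ksgn A i : ℤ) : S) h
  rwa [smul_smul, ← Int.cast_mul, ksgn_mul_self, Int.cast_one, one_smul] at this

theorem hh_Cn_left (μ : LenFun S) (i : Fin d) {A A' B : Submodule S M} (hA : A ≤ A')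
    (h : ∀ m ∈ B, y i • m ∈ A) (n : ℤ) :
    hh μ (kd y M) (Kos (T.erase i) A) (Kos (T.erase i) A') n =
      hh μ (kd y M) (Cn T i A B) (Cn T i A' B) (n + 0) := by
  refine hh_transfer μ LinearMap.id 0 1 (kos_isCx _ _ _) (Cn_isCx i h) (fun n ξ _ => by simp)
    (fun n => ?_) (fun n => ?_) n
  · rw [add_zero, Submodule.map_id, ← Cn_bot]
    refine le_antisymm (sup_le (Cn_mono i le_rfl bot_le n) (Cn_mono i hA le_rfl n)) fun ξ hξ => ?_
    refine Submodule.mem_sup.2 ⟨fun C => if i ∈ C then 0 else ξ C, ⟨fun C hC => ?_, fun C hC => ?_,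
      fun C hC => ?_⟩, fun C => if i ∈ C then ξ C else 0, ⟨fun C hC => ?_, fun C hC => ?_,
      fun C hC => ?_⟩, ?_⟩
    · simp only [if_neg hC]; exact hξ.1 C hC
    · simp only [if_pos hC]; exact zero_mem _
    · simp only [hξ.2.2 C hC, ite_self]
    · simp only [if_neg hC]; exact zero_mem _
    · simp only [if_pos hC]; exact hξ.2.1 C hC
    · simp only [hξ.2.2 C hC, ite_self]
    · funext C
      simp only [Pi.add_apply]
      split_ifs <;> simp
  · rw [add_zero, Submodule.comap_id, ← Cn_bot, ← Cn_bot]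
    exact le_antisymm (fun ξ hξ => ⟨hξ.2.1, hξ.1.2.1, hξ.1.2.2⟩)
      (le_inf (Cn_mono i hA le_rfl n) (Cn_mono i le_rfl bot_le n))

theorem kh_mem_Cn {i : Fin d} (hi : i ∈ T) (A : Submodule S M) {B : Submodule S M} {n : ℤ}
    {ξ : Finset (Fin d) → M} (h : ξ ∈ Kos (T.erase i) B n) : kh S i M ξ ∈ Cn T i A B (n + 1) := by
  have h1 : ξ ∈ Kos T B n := by
    rw [← Cn_bot] at h
    rw [← Cn_self i]
    exact Cn_mono i le_rfl bot_le n h
  have h2 := kh_mem_kos hi h1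
  refine ⟨fun C hC => ?_, fun C _ => apply_mem_of_mem_kos h2 C, (mem_kos.1 h2).2⟩
  rw [kh_apply, if_neg hC]; exact zero_mem _

theorem hh_Cn_right (μ : LenFun S) {i : Fin d} (hi : i ∈ T) {A B B' : Submodule S M} (hB : B ≤ B')
    (h : ∀ m ∈ B', y i • m ∈ A) (n : ℤ) :
    hh μ (kd y M) (Kos (T.erase i) B) (Kos (T.erase i) B') n =
      hh μ (kd y M) (Cn T i A B) (Cn T i A B') (n + 1) := by
  refine hh_transfer μ (kh S i M) 1 (-1) (kos_isCx _ _ _) (Cn_isCx i fun m hm => h m (hB hm))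
    (fun n ξ hξ => ?_) (fun n => ?_) (fun n => ?_) n
  · rw [Units.val_neg, Units.val_one, neg_smul, one_smul, sub_neg_eq_add, sub_add_cancel,
      add_comm, kd_kh]
    rw [← Cn_bot] at hξ
    refine ⟨fun C hC => h _ (hξ.1 C hC), fun C hC => ?_, fun C hC => ?_⟩
    · rw [Pi.smul_apply, (Submodule.mem_bot S).1 (hξ.2.1 C hC), smul_zero]; exact zero_mem _
    · rw [Pi.smul_apply, hξ.2.2 C hC, smul_zero]
  · refine le_antisymm (sup_le ?_ (Cn_mono i le_rfl hB _)) fun ξ hξ => ?_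
    · rintro _ ⟨ξ, hξ, rfl⟩
      exact kh_mem_Cn hi A hξ
    refine Submodule.mem_sup.2 ⟨_, ⟨fun C => if i ∈ C then 0 else
      ((ksgn C i : ℤ) : S) • ξ (insert i C), ?_, rfl⟩, fun C => if i ∈ C then 0 else ξ C,
      ⟨fun C hC => ?_, fun C hC => ?_, fun C hC => ?_⟩, ?_⟩
    · rw [← Cn_bot]
      refine ⟨fun C hC => ?_, fun C hC => ?_, fun C hC => ?_⟩
      · simp only [if_neg hC]
        exact B'.smul_mem _ (hξ.2.1 _ (Finset.mem_insert_self _ _))
      · simp only [if_pos hC]; exact zero_mem _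
      · simp only
        split_ifs with hC'
        · rfl
        · rw [hξ.2.2, smul_zero]
          rintro ⟨h1, h2⟩
          refine hC ⟨(Finset.subset_insert _ _).trans h1, ?_⟩
          rw [Finset.card_insert_of_notMem hC'] at h2
          push_cast at h2
          omega
    · simp only [if_neg hC]; exact hξ.1 C hC
    · simp only [if_pos hC]; exact zero_mem _
    · simp only [hξ.2.2 C hC, ite_self]
    · funext C
      rw [Pi.add_apply, kh_apply]
      split_ifs with hC h'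
      · simp at h'
      · rw [ksgn_erase_self, smul_smul, ← Int.cast_mul, ksgn_mul_self, Int.cast_one, one_smul,
          Finset.insert_erase hC, add_zero]
      · rw [zero_add]
  · refine le_antisymm (fun ξ hξ => ?_) (le_inf (kos_mono _ hB n) fun ξ hξ => kh_mem_Cn hi A hξ)
    obtain ⟨h1, h2⟩ := hξ
    rw [← Cn_bot] at h1 ⊢
    refine ⟨fun C hC => ?_, h1.2.1, h1.2.2⟩
    have := h2.2.1 (insert i C) (Finset.mem_insert_self _ _)
    rwa [kh_apply, if_pos (Finset.mem_insert_self _ _), sgn_smul_mem_iff,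
      Finset.erase_insert hC] at this

theorem exa_Cn {i : Fin d} (hi : i ∈ T) (N' N'' : Submodule S M) :
    Exa (kd y M) (Cn T i N' (N'' ⊓ N'.comap (LinearMap.lsmul S M (y i))))
      (Cn T i (N' ⊔ N''.map (LinearMap.lsmul S M (y i))) N'') := by
  rintro n ξ ⟨h1, h2⟩
  have h3 : ∀ A, ∃ m ∈ N'', (i ∉ A → ξ A - y i • m ∈ N') ∧
      (¬ (i ∉ A ∧ A ⊆ T ∧ (A.card : ℤ) = n) → m = 0) := by
    intro A
    by_cases hA : i ∉ A ∧ A ⊆ T ∧ (A.card : ℤ) = n
    · obtain ⟨a, ha, _, ⟨m, hm, rfl⟩, e⟩ := Submodule.mem_sup.1 (h1.1 A hA.1)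
      refine ⟨m, hm, fun _ => ?_, fun h => absurd hA h⟩
      rw [← e]; simpa using ha
    · refine ⟨0, zero_mem _, fun h => ?_, fun _ => rfl⟩
      rw [h1.2.2 A fun h' => hA ⟨h, h'⟩]; simp
  choose η e1 e2 e3 using h3
  have hη : η ∈ Kos (T.erase i) N'' n := by
    rw [← Cn_bot]
    exact ⟨fun A _ => e1 A, fun A hA => e3 A fun h => h.1 hA, fun A hA => e3 A fun h => hA h.2⟩
  have h4 := kh_mem_Cn hi (N' ⊔ N''.map (LinearMap.lsmul S M (y i))) hη
  have hcx : IsCx (kd y M) (Cn T i (N' ⊔ N''.map (LinearMap.lsmul S M (y i))) N'') :=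
    Cn_isCx i fun m hm => Submodule.mem_sup_right ⟨m, hm, rfl⟩
  have h5 : ξ - kd y M (kh S i M η) ∈ Cn T i (N' ⊔ N''.map (LinearMap.lsmul S M (y i))) N'' n :=
    sub_mem h1 (by simpa using hcx (n + 1) ⟨_, h4, rfl⟩)
  have h6 : ∀ A, i ∉ A → (ξ - kd y M (kh S i M η)) A ∈ N' := by
    intro A hA
    rw [eq_sub_of_add_eq (kd_kh y i η), Pi.sub_apply, Pi.sub_apply, kh_apply, if_neg hA, sub_zero]
    exact e2 A hA
  have h7 : kd y M (ξ - kd y M (kh S i M η)) = kd y M ξ := by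
    have : kd y M (kd y M (kh S i M η)) = 0 := LinearMap.congr_fun (kd_comp_kd y) _
    rw [map_sub, this, sub_zero]
  refine Submodule.mem_sup.2 ⟨ξ - kd y M (kh S i M η), ⟨h6, fun A hA => ⟨h5.2.1 A hA, ?_⟩, h5.2.2⟩,
    _, ⟨_, h4, rfl⟩, sub_add_cancel _ _⟩
  generalize ξ - kd y M (kh S i M η) = ζ at h6 h7
  have h8 : kd y M ζ (A.erase i) ∈ N' := by
    rw [h7]; exact h2.1 _ (Finset.notMem_erase _ _)
  rw [kd_split ζ (Finset.notMem_erase i A), Finset.insert_erase hA,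
    Submodule.add_mem_iff_left _ (sum_mem fun j hj => N'.smul_mem _ (h6 _ (by
      simp only [Finset.mem_insert, not_or]
      exact ⟨(Finset.ne_of_mem_erase hj).symm, Finset.notMem_erase _ _⟩))), mul_smul,
    sgn_smul_mem_iff] at h8
  exact h8

theorem kos_map (φ : M →ₗ[S] M') (N : Submodule S M) (n : ℤ) :
    (Kos T N n).map (φ.compLeft _) = Kos T (N.map φ) n := by
  apply le_antisymm
  · rintro _ ⟨ξ, hξ, rfl⟩
    refine mem_kos.2 ⟨fun A _ => ⟨_, apply_mem_of_mem_kos hξ A, rfl⟩, fun A hA => ?_⟩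
    change φ (ξ A) = 0
    rw [(mem_kos.1 hξ).2 A hA, map_zero]
  · intro ξ hξ
    have : ∀ A, ∃ m ∈ N, φ m = ξ A ∧ (¬ (A ⊆ T ∧ (A.card : ℤ) = n) → m = 0) := by
      intro A
      by_cases hA : A ⊆ T ∧ (A.card : ℤ) = n
      · obtain ⟨m, hm, e⟩ := apply_mem_of_mem_kos hξ A
        exact ⟨m, hm, e, fun h => absurd hA h⟩
      · exact ⟨0, zero_mem _, by rw [map_zero, (mem_kos.1 hξ).2 A hA], fun _ => rfl⟩
    choose η e1 e2 e3 using this
    exact ⟨η, mem_kos.2 ⟨fun A _ => e1 A, e3⟩, funext e2⟩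

theorem kd_congr {y' : Fin d → S} (h : ∀ i ∈ T, y i = y' i) {N : Submodule S M} {n : ℤ}
    {ξ : Finset (Fin d) → M} (hξ : ξ ∈ Kos T N n) : kd y M ξ = kd y' M ξ := by
  funext A
  rw [kd_apply, kd_apply]
  refine Finset.sum_congr rfl fun i _ => ?_
  by_cases hi : i ∈ T
  · rw [h i hi]
  · rw [(mem_kos.1 hξ).2 _ fun h' => hi (h'.1 (Finset.mem_insert_self _ _)), smul_zero, smul_zero]

theorem noeth_ind [IsNoetherianRing S] {N' N'' : Submodule S M} (hle : N' ≤ N'')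
    (hfg : (N''.map N'.mkQ).FG) (P : Submodule S M → Prop)
    (h : ∀ A, N' ≤ A → A ≤ N'' → (∀ B, A < B → B ≤ N'' → P B) → P A) : P N' := by
  have : Module.Finite S (N''.map N'.mkQ) := Module.Finite.iff_fg.2 hfg
  let f : Submodule S M → Submodule S (N''.map N'.mkQ) :=
    fun A => (A.map N'.mkQ).comap (N''.map N'.mkQ).subtype
  have key : ∀ A, N' ≤ A → A ≤ N'' → P A := by
    intro A
    induction A using (InvImage.wf f (wellFounded_gt (α := Submodule S (N''.map N'.mkQ)))).induction with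
    | _ A ih =>
      intro h1 h2
      refine h A h1 h2 fun B h3 h4 => ih B ?_ (h1.trans h3.le) h4
      refine lt_of_le_of_ne (Submodule.comap_mono (Submodule.map_mono h3.le)) fun e => ?_
      refine h3.not_ge fun b hb => ?_
      have h5 : (⟨N'.mkQ b, b, h4 hb, rfl⟩ : N''.map N'.mkQ) ∈ f B := ⟨b, hb, rfl⟩
      rw [← e] at h5
      obtain ⟨a, ha, e'⟩ := h5
      have h6 : a - b ∈ N' := (Submodule.Quotient.eq _).1 e'
      simpa using A.sub_mem ha (h1 h6)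
  exact key N' le_rfl hle

end Vale.Agent.P202
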