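import Vale.Agent.P202.Hom
import Vale.Agent.P202.Eps

/-! Computation of the Euler characteristic of `K(y) ⊗ D` through generic ranks. -/

namespace Vale.Agent.P202

open IsLocalRing TensorProduct Filter Topology

universe u

set_option linter.unusedSectionVars false
set_option linter.unusedVariables false

namespace Main2

section general

variable {S : Type u} [CommRing S] {M : Type u} [AddCommGroup M] [Module S M] {d : ℕ}

theorem span_pow_le (y : Fin d → S) (n : ℕ) (s : Finset (Fin d)) :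
    Ideal.span (y '' s) ^ (s.card * n + 1) ≤ Ideal.span (Set.range fun i => y i ^ n) := by
  induction s using Finset.induction_on with
  | empty => simp
  | insert i s hi ih =>
    rw [Finset.coe_insert, Set.image_insert_eq, Ideal.span_insert, Finset.card_insert_of_notMem hi,
      show (s.card + 1) * n + 1 = n + (s.card * n + 1) by ring]
    refine Ideal.sup_pow_add_le_pow_sup_pow.trans (sup_le ?_ ih)
    rw [Ideal.span_singleton_pow, Ideal.span_singleton_le_iff_mem]
    exact Ideal.subset_span ⟨i, rfl⟩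

theorem rl_le_of_fg {N' N'' : Submodule S M} (hfg : (N''.map N'.mkQ).FG) :
    ∃ ν : ℕ, ∀ (I : Ideal S) (A : Submodule S M), N' ≤ A → I • N'' ≤ A →
      rl (lenF S) A N'' ≤ ν * Module.length S (S ⧸ I) := by
  obtain ⟨ν, g, hg⟩ := Submodule.fg_iff_exists_fin_generating_family.1 hfg
  have h1 : ∀ i, ∃ w ∈ N'', N'.mkQ w = g i := fun i => by
    have : g i ∈ N''.map N'.mkQ := hg ▸ Submodule.subset_span ⟨i, rfl⟩
    exact this
  choose w hw hw' using h1
  refine ⟨ν, fun I A hA hI => ?_⟩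
  let φ : (Fin ν → S) →ₗ[S] M := Fintype.linearCombination S w
  have h2 : N'' ≤ A ⊔ (⊤ : Submodule S (Fin ν → S)).map φ := by
    have h3 : N''.map N'.mkQ ≤ ((⊤ : Submodule S (Fin ν → S)).map φ).map N'.mkQ := by
      rw [← hg, Submodule.span_le]
      rintro _ ⟨i, rfl⟩
      refine ⟨w i, ⟨Pi.single i 1, trivial, ?_⟩, hw' i⟩
      simp [φ]
    rw [Submodule.map_le_iff_le_comap, Submodule.comap_map_mkQ] at h3
    exact h3.trans (sup_le_sup_right hA _)
  have h4 : Submodule.pi Set.univ (fun _ : Fin ν => (I : Submodule S S)) ≤ A.comap φ := by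
    intro a ha
    rw [Submodule.mem_comap, Fintype.linearCombination_apply]
    exact A.sum_mem fun i _ => hI (Submodule.smul_mem_smul (ha i trivial) (hw i))
  calc rl (lenF S) A N'' ≤ rl (lenF S) A (A ⊔ (⊤ : Submodule S (Fin ν → S)).map φ) :=
        rl_mono _ le_rfl h2
    _ = rl (lenF S) (A.comap φ) ⊤ := by rw [rl_sup, rl_map]
    _ ≤ rl (lenF S) (Submodule.pi Set.univ (fun _ : Fin ν => (I : Submodule S S)))
        (Submodule.pi Set.univ fun _ : Fin ν => (⊤ : Submodule S S)) := by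
        rw [Submodule.pi_top]; exact rl_mono _ h4 le_rfl
    _ = ν * Module.length S (S ⧸ I) := by
        rw [rl_pi]
        simp only [rl_top, Finset.sum_const, Finset.card_univ, Fintype.card_fin, nsmul_eq_mul]
        rfl

variable [IsLocalRing S] {y : Fin d → S}

theorem khyp_of {t : ℕ} (ht : maximalIdeal S ^ t ≤ Ideal.span (Set.range y))
    {N' N'' : Submodule S M} (hle : N' ≤ N'') (hfg : (N''.map N'.mkQ).FG) :
    KHyp y Finset.univ N' N'' :=
  ⟨hle, hfg, t, by rw [Finset.coe_univ, Set.image_univ]; exact ht.trans le_sup_left⟩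

theorem eps_free [IsNoetherianRing S] {t : ℕ} (ht : maximalIdeal S ^ t ≤ Ideal.span (Set.range y))
    {r : ℕ} {u : Fin r → M} (hu : LinearIndependent S u) (s : Finset (Fin r)) :
    eps y Finset.univ (⊥ : Submodule S M) (Submodule.span S (u '' s)) =
      s.card * eps y Finset.univ (⊥ : Submodule S S) ⊤ := by
  induction s using Finset.induction_on with
  | empty => simp [eps_self]
  | insert i s hi ih =>
    have hle : Submodule.span S (u '' s) ≤ Submodule.span S (u '' (insert i s : Finset (Fin r))) :=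
      Submodule.span_mono (Set.image_mono (by simp))
    rw [eps_add (khyp_of ht bot_le (Submodule.FG.map _
      (Submodule.fg_span ((Finset.finite_toSet _).image u)))) bot_le hle, ih,
      Finset.card_insert_of_notMem hi,
      ← eps_map (LinearMap.toSpanSingleton S M (u i)) (N' := ⊥) (N'' := ⊤)]
    · push_cast; ring
    · rw [Submodule.map_top, ← LinearMap.span_singleton_eq_range, Finset.coe_insert,
        Set.image_insert_eq, Submodule.span_insert]
    · refine le_antisymm (fun a ha => ?_) bot_le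
      refine hu.eq_zero_of_smul_mem_span i a (Submodule.span_mono (Set.image_mono ?_) ha.2)
      intro j hj
      refine ⟨trivial, ?_⟩
      rintro rfl
      exact hi hj

end general

end Main2

variable {R0 : Type u} [CommRing R0] [IsLocalRing R0] [IsNoetherianRing R0] [IsDomain R0]
  {S : Type u} [CommRing S] [IsLocalRing S] [IsNoetherianRing S]
  [Algebra R0 S] [IsLocalHom (algebraMap R0 S)] [Module.Flat R0 S]
  {E : Type u} [AddCommGroup E] [Module R0 E] {d : ℕ} {y : Fin d → S}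

open Main2 in
omit [IsDomain R0] in
theorem eps_vanish (hy : ∀ i, y i ∈ maximalIdeal S) {t : ℕ}
    (ht : maximalIdeal S ^ t ≤ Ideal.span (Set.range y))
    (hl : Module.length S (S ⧸ mS R0 S) ≠ ⊤) (hg : Grow R0 d)
    {M : Type u} [AddCommGroup M] [Module S M] {N' N'' : Submodule S M} (hle : N' ≤ N'')
    (hfg : (N''.map N'.mkQ).FG) {c : R0} (hc : c ≠ 0)
    (hk : ∀ v ∈ N'', algebraMap R0 S c • v ∈ N') : eps y Finset.univ N' N'' = 0 := by
  have hK := khyp_of ht hle hfg
  refine le_antisymm ?_ (eps_nonneg hK)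
  obtain ⟨ν, hν⟩ := rl_le_of_fg hfg
  obtain ⟨C, hC⟩ := hg c hc
  obtain ⟨lam, hlam⟩ := ENat.ne_top_iff_exists.1 hl
  have := eps_le_of_growth hK 0 (ν * lam * C * ((t + 1) * (d + 1)) ^ d) fun n => ?_
  · simpa using this
  rcases Nat.eq_zero_or_pos n with rfl | hn
  · simp
  set j := (t + 1) * (d + 1) * n with hj
  have h1 : maximalIdeal S ^ j ≤ Ideal.span (Set.range fun i => y i ^ n) := by
    have h2 := span_pow_le y n Finset.univ
    rw [Finset.coe_univ, Set.image_univ, Finset.card_univ, Fintype.card_fin] at h2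
    refine le_trans ?_ ((Ideal.pow_right_mono ht _).trans h2)
    rw [← pow_mul]
    refine Ideal.pow_le_pow_right ?_
    rw [hj]
    nlinarith [Nat.zero_le (t * d * n), Nat.zero_le (d * n), Nat.mul_le_mul_left t hn]
  have h3 := hν ((Ideal.span {c} ⊔ maximalIdeal R0 ^ j).map (algebraMap R0 S))
    (N' ⊔ Ideal.span (Set.range fun i => y i ^ n) • N'') le_sup_left (by
      rw [Ideal.map_sup, Submodule.sup_smul, Ideal.map_span, Set.image_singleton, Ideal.map_pow]
      refine sup_le_sup ?_ (Submodule.smul_mono_left (le_trans ?_ h1))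
      · refine Submodule.smul_le.2 fun a ha v hv => ?_
        obtain ⟨b, rfl⟩ := Ideal.mem_span_singleton'.1 ha
        rw [mul_smul]
        exact N'.smul_mem b (hk v hv)
      · exact Ideal.pow_right_mono (map_maximalIdeal_le (algebraMap R0 S)) _)
  rw [(Algebra.TensorProduct.quotIdealMapEquivTensorQuot S
    (Ideal.span {c} ⊔ maximalIdeal R0 ^ j)).toLinearEquiv.length_eq,
    IsLocalRing.length_baseChange R0 S, ← hlam] at h3
  have h4 := hC j
  generalize Module.length R0 (R0 ⧸ (Ideal.span {c} ⊔ maximalIdeal R0 ^ j)) = L at h3 h4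
  have h5 : (n : ℕ∞) ≤ (j : ℕ∞) := by
    rw [Nat.cast_le, hj]
    exact Nat.le_mul_of_pos_left _ (by positivity)
  calc _ ≤ (ν * (L * lam)) * (n : ℕ∞) := by gcongr
    _ = ν * lam * (L * n) := by ring
    _ ≤ ν * lam * (L * j) := by gcongr
    _ ≤ ν * lam * (C * (j : ℕ∞) ^ d) := by gcongr
    _ = _ := by rw [hj]; push_cast; simp only [mul_pow]; ring

omit [IsLocalRing R0] [IsNoetherianRing R0] [IsDomain R0] [IsLocalRing S] [IsNoetherianRing S]
  [IsLocalHom (algebraMap R0 S)] [Module.Flat R0 S] in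
theorem Main2.smul_mem_baseChange {W V : Submodule R0 E} {c : R0} (h : ∀ w ∈ W, c • w ∈ V) :
    ∀ v ∈ W.baseChange S, algebraMap R0 S c • v ∈ V.baseChange S := by
  intro v hv
  have h1 : Ideal.span {c} • W ≤ V := by
    refine Submodule.smul_le.2 fun a ha w hw => ?_
    obtain ⟨b, rfl⟩ := Ideal.mem_span_singleton'.1 ha
    rw [mul_smul]
    exact V.smul_mem b (h w hw)
  refine Submodule.baseChange_mono S h1 ?_
  rw [baseChange_smul]
  exact Submodule.smul_mem_smul (Ideal.mem_map_of_mem _ (Ideal.mem_span_singleton_self c)) hv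

open Main2 in
theorem eps_rank (hy : ∀ i, y i ∈ maximalIdeal S) {t : ℕ}
    (ht : maximalIdeal S ^ t ≤ Ideal.span (Set.range y))
    (hl : Module.length S (S ⧸ mS R0 S) ≠ ⊤) (hg : Grow R0 d)
    {W : Submodule R0 E} (hW : W.FG) {r : ℕ} (v : Fin r → E) (hv : ∀ i, v i ∈ W)
    (hli : LinearIndependent R0 v) {c : R0} (hc : c ≠ 0)
    (hcW : ∀ w ∈ W, c • w ∈ Submodule.span R0 (Set.range v)) :
    eps y Finset.univ (⊥ : Submodule S (S ⊗[R0] E)) (W.baseChange S) =
      r * eps y Finset.univ (⊥ : Submodule S S) ⊤ := by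
  have hfg : (W.baseChange S).FG := by
    obtain ⟨s, rfl⟩ := hW
    rw [Submodule.baseChange_span]
    exact Submodule.fg_span ((Finset.finite_toSet s).image _)
  have hle : (Submodule.span R0 (Set.range v)).baseChange S ≤ W.baseChange S :=
    Submodule.baseChange_mono S (Submodule.span_le.2 (by rintro _ ⟨i, rfl⟩; exact hv i))
  rw [eps_add (khyp_of ht bot_le (hfg.map _)) bot_le hle,
    eps_vanish hy ht hl hg hle (hfg.map _) hc (smul_mem_baseChange hcW), add_zero,
    Submodule.baseChange_span, ← Set.range_comp]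
  have := eps_free ht (Module.Flat.linearIndependent_one_tmul (S := S) hli) Finset.univ
  rw [Finset.coe_univ, Set.image_univ, Finset.card_univ, Fintype.card_fin] at this
  exact this

omit [IsLocalRing R0] in
theorem exists_generic_basis {W : Submodule R0 E} (hW : W.FG) :
    ∃ (r : ℕ) (v : Fin r → E) (c : R0), (∀ i, v i ∈ W) ∧ LinearIndependent R0 v ∧ c ≠ 0 ∧
      ∀ w ∈ W, c • w ∈ Submodule.span R0 (Set.range v) := by
  classical
  obtain ⟨n, g, rfl⟩ := Submodule.fg_iff_exists_fin_generating_family.1 hW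
  obtain ⟨s, hs, hmax⟩ := exists_maximal_linearIndepOn R0 g
  have h1 : ∀ i, ∃ a : R0, a ≠ 0 ∧ a • g i ∈ Submodule.span R0 (g '' s) := by
    intro i
    by_cases hi : i ∈ s
    · exact ⟨1, one_ne_zero, by rw [one_smul]; exact Submodule.subset_span ⟨i, hi, rfl⟩⟩
    · exact hmax i hi
  choose a ha ha' using h1
  let e := (Finite.equivFin s).symm
  have h2 : Set.range (fun i => g (e i)) = g '' s := by
    ext x
    constructor
    · rintro ⟨i, rfl⟩; exact ⟨_, (e i).2, rfl⟩
    · rintro ⟨i, hi, rfl⟩; exact ⟨e.symm ⟨i, hi⟩, by simp only [Equiv.apply_symm_apply]⟩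
  refine ⟨_, fun i => g (e i), ∏ i, a i, fun i => Submodule.subset_span ⟨_, rfl⟩,
    (LinearIndependent.comp hs e e.injective), Finset.prod_ne_zero_iff.2 fun i _ => ha i, ?_⟩
  rw [h2]
  intro w hw
  refine (Submodule.span_le.2 ?_ : _ ≤ (Submodule.span R0 (g '' s)).comap
    (LinearMap.lsmul R0 E (∏ i, a i))) hw
  rintro _ ⟨i, rfl⟩
  rw [SetLike.mem_coe, Submodule.mem_comap, LinearMap.lsmul_apply,
    ← Finset.prod_erase_mul _ _ (Finset.mem_univ i), mul_smul]
  exact Submodule.smul_mem _ _ (ha' i)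

namespace Main2

section trunc

variable {R0 : Type u} [CommRing R0] {E : Type u} [AddCommGroup E] [Module R0 E]

/-- Truncation of a complex. -/
def trn (D : ℤ → Submodule R0 E) (j : ℤ) (W : Submodule R0 E) (n : ℤ) : Submodule R0 E :=
  if j < n then D n else if n = j then W else ⊥

variable {δ : E →ₗ[R0] E} {D : ℤ → Submodule R0 E} {j n : ℤ} {W : Submodule R0 E}

theorem trn_gt (h : j < n) : trn D j W n = D n := if_pos h

theorem trn_self : trn D j W j = W := by simp [trn]

theorem trn_lt (h : n < j) : trn D j W n = ⊥ := by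
  rw [trn, if_neg (by omega), if_neg (by omega)]

theorem trn_le (hW : W ≤ D j) : trn D j W ≤ D := by
  intro n
  rcases lt_trichotomy j n with h | rfl | h
  · rw [trn_gt h]
  · rwa [trn_self]
  · rw [trn_lt h]; exact bot_le

theorem trn_isCx (hcx : IsCx δ D) (h1 : Bc δ ⊥ D j ≤ W) (h2 : W ≤ Zc δ ⊥ D j) :
    IsCx δ (trn D j W) := by
  intro n
  rcases lt_trichotomy j n with h | rfl | h
  · rw [trn_gt h]
    rcases lt_trichotomy j (n - 1) with h' | h' | h'
    · rw [trn_gt h']; exact hcx n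
    · obtain rfl : n = j + 1 := by omega
      rw [← h', trn_self]
      exact le_sup_right.trans h1
    · omega
  · rw [trn_self, trn_lt (by omega), Submodule.map_le_iff_le_comap]
    exact h2.trans inf_le_right
  · rw [trn_lt h, Submodule.map_bot]; exact bot_le

theorem trn_mono {W' : Submodule R0 E} (h : W ≤ W') : trn D j W ≤ trn D j W' := by
  intro n
  rcases lt_trichotomy j n with h' | rfl | h'
  · rw [trn_gt h', trn_gt h']
  · rwa [trn_self, trn_self]
  · rw [trn_lt h']; exact bot_le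

theorem trn_le_pred {W' : Submodule R0 E} (hW : W ≤ D j) : trn D j W ≤ trn D (j - 1) W' := by
  intro n
  rcases lt_trichotomy j n with h' | rfl | h'
  · rw [trn_gt h', trn_gt (by omega)]
  · rwa [trn_self, trn_gt (by omega)]
  · rw [trn_lt h']; exact bot_le

theorem trn_exa : Exa δ (trn D j (Zc δ ⊥ D j)) (trn D (j - 1) (Bc δ ⊥ D (j - 1))) := by
  intro n
  unfold Zc Bc
  rcases lt_trichotomy j n with h' | rfl | h'
  · rw [trn_gt h', trn_gt (by omega : j - 1 < n)]
    exact inf_le_left.trans le_sup_left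
  · rw [trn_self, trn_gt (by omega : j - 1 < j), trn_lt (by omega : j - 1 < j)]
    exact le_sup_left
  · by_cases h : n = j - 1
    · subst h
      rw [trn_self, trn_gt (by omega : j - 1 < j - 1 + 1)]
      refine inf_le_left.trans (sup_le bot_le le_sup_right)
    · rw [trn_lt (by omega : n < j - 1)]
      exact inf_le_left.trans bot_le

end trunc

section fil

variable {R0 : Type u} [CommRing R0] {S : Type u} [CommRing S] [Algebra R0 S]
  {E : Type u} [AddCommGroup E] [Module R0 E] {d : ℕ}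

theorem m2_fil_mono {D D' : ℤ → Submodule R0 E} (h : D ≤ D') : Fil S d D ≤ Fil S d D' :=
  fun i n => kos_mono Finset.univ (Submodule.baseChange_mono S (h n)) i

theorem dtot_sq (y : Fin d → S) {δ : E →ₗ[R0] E} (hδ : δ ∘ₗ δ = 0) :
    dtot y δ ∘ₗ dtot y δ = 0 :=
  kd_add_sd_sq y _ (by rw [← LinearMap.baseChange_comp, hδ, LinearMap.baseChange_zero])

theorem fil_isCx (y : Fin d → S) {δ : E →ₗ[R0] E} {D : ℤ → Submodule R0 E} (h : IsCx δ D) :
    IsCx (dtot y δ) (Tot (Fil S d D)) := by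
  have := (bi_fil_rows y δ h).isCx_tot
  rwa [add_comm] at this

theorem fil_exa [Module.Flat R0 S] (y : Fin d → S) {δ : E →ₗ[R0] E} (hδ : δ ∘ₗ δ = 0)
    {D' D : ℤ → Submodule R0 E} (h' : IsCx δ D') (h : IsCx δ D) (hle : D' ≤ D)
    (he : Exa δ D' D) : Exa (dtot y δ) (Tot (Fil S d D')) (Tot (Fil S d D)) := by
  have h1 := dtot_sq y hδ
  rw [dtot, add_comm] at h1 ⊢
  refine rows_exa h1 (bi_fil_rows y δ h') (bi_fil_rows y δ h) (m2_fil_mono hle) 0 d ?_ ?_
  · intro i hi j
    rw [Finset.mem_Icc] at hi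
    rw [Fil, kos_eq_bot _ _ _ (by omega)]
    exact bot_le
  · intro i _
    refine exa_iff_hh.2 fun n => ?_
    rw [hh_sd _ _ i (Fil S d D' i) (Fil S d D i) (fun n => kos_mono Finset.univ le_top i)
      (m2_fil_mono hle i)]
    exact exa_iff_hh.1 (coord_baseChange_exa _ δ he) n

theorem fil_col (y : Fin d → S) {δ : E →ₗ[R0] E} (hδ : δ ∘ₗ δ = 0) (Q : ℤ → E →ₗ[R0] E)
    {D' D : ℤ → Submodule R0 E} (h' : IsCx δ D') (h : IsCx δ D) (hle : D' ≤ D)
    (hfix : ∀ n, ∀ v ∈ D n, Q n v = v) (hkill : ∀ n n', n' ≠ n → ∀ v ∈ D n, Q n' v = 0) (j : ℤ)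
    (hj : ∀ n, n ≠ j → D n ≤ D' n)
    (hg : Good (kd y (S ⊗[R0] E)) (Kos Finset.univ ((D' j).baseChange S))
      (Kos Finset.univ ((D j).baseChange S))) :
    Good (dtot y δ) (Tot (Fil S d D')) (Tot (Fil S d D)) ∧
      chi (dtot y δ) (Tot (Fil S d D')) (Tot (Fil S d D)) =
        ((j.negOnePow : ℤˣ) : ℤ) *
          eps y Finset.univ ((D' j).baseChange S) ((D j).baseChange S) := by
  have b1 := bi_fil_cols y δ Q h' (fun n v hv => hfix n v (hle n hv))
    fun n n' hn v hv => hkill n n' hn v (hle n hv)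
  have b2 := bi_fil_cols y δ Q h hfix hkill
  have hle' : (fun n i => Fil S d D' i n) ≤ (fun n i => Fil S d D i n) :=
    fun n i => m2_fil_mono hle i n
  have hsq : (kd y (S ⊗[R0] E) + sd d (δ.baseChange S)) ∘ₗ
      (kd y (S ⊗[R0] E) + sd d (δ.baseChange S)) = 0 := dtot_sq y hδ
  have := rows_chi hsq b1 b2 hle' j j ?_ ?_
  · rw [Tot_swap (Fil S d D'), Tot_swap (Fil S d D), Finset.Icc_self, Finset.sum_singleton] at this
    exact this
  · intro n hn i
    rw [Finset.Icc_self, Finset.mem_singleton] at hn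
    exact kos_mono Finset.univ (Submodule.baseChange_mono S (hj n hn)) i
  · intro n hn
    rw [Finset.Icc_self, Finset.mem_singleton] at hn
    subst hn
    exact hg

end fil

end Main2

open Main2 in
omit [IsDomain R0] in
theorem chi_tot_eq_eps (hy : ∀ i, y i ∈ maximalIdeal S) {t : ℕ}
    (ht : maximalIdeal S ^ t ≤ Ideal.span (Set.range y))
    (hl : Module.length S (S ⧸ mS R0 S) ≠ ⊤) (hg : Grow R0 d)
    (δ : E →ₗ[R0] E) (hδ : δ ∘ₗ δ = 0) (Q : ℤ → E →ₗ[R0] E) (D : ℤ → Submodule R0 E)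
    (hcx : IsCx δ D) (hfix : ∀ n, ∀ v ∈ D n, Q n v = v)
    (hkill : ∀ n n', n' ≠ n → ∀ v ∈ D n, Q n' v = 0) (m : ℕ)
    (hsupp : ∀ n, n < -(m : ℤ) ∨ 0 < n → D n = ⊥)
    (hfg : ∀ n, ((Zc δ ⊥ D n).map (Bc δ ⊥ D n).mkQ).FG)
    (htors : ∀ n < 0, ∃ c : R0, c ≠ 0 ∧ ∀ v ∈ Zc δ ⊥ D n, c • v ∈ Bc δ ⊥ D n) :
    chi (dtot y δ) ⊥ (Tot (Fil S d D)) =
      eps y Finset.univ (⊥ : Submodule S (S ⊗[R0] E)) ((Zc δ ⊥ D 0).baseChange S) := by
  have hBZ : ∀ j, Bc δ ⊥ D j ≤ Zc δ ⊥ D j := Bc_le_Zc hδ isCx_bot hcx bot_le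
  have hZD : ∀ j, Zc δ ⊥ D j ≤ D j := fun j => inf_le_left
  have hB : ∀ j, IsCx δ (trn D j (Bc δ ⊥ D j)) := fun j => trn_isCx hcx le_rfl (hBZ j)
  have hA : ∀ j, IsCx δ (trn D j (Zc δ ⊥ D j)) := fun j => trn_isCx hcx (hBZ j) le_rfl
  have hsq := dtot_sq y hδ
  have col : ∀ j, Good (dtot y δ) (Tot (Fil S d (trn D j (Bc δ ⊥ D j))))
      (Tot (Fil S d (trn D j (Zc δ ⊥ D j)))) ∧
      chi (dtot y δ) (Tot (Fil S d (trn D j (Bc δ ⊥ D j)))) (Tot (Fil S d (trn D j (Zc δ ⊥ D j)))) =
        ((j.negOnePow : ℤˣ) : ℤ) *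
          eps y Finset.univ ((Bc δ ⊥ D j).baseChange S) ((Zc δ ⊥ D j).baseChange S) := by
    intro j
    have := fil_col y hδ Q (hB j) (hA j) (trn_mono (hBZ j))
      (fun n v hv => hfix n v (trn_le (hZD j) n hv))
      (fun n n' hn v hv => hkill n n' hn v (trn_le (hZD j) n hv)) j ?_ ?_
    · rwa [trn_self, trn_self] at this
    · intro n hn
      rcases lt_or_gt_of_ne hn with h | h
      · rw [trn_lt h]; exact bot_le
      · rw [trn_gt h, trn_gt h]
    · rw [trn_self, trn_self]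
      exact (khyp_of ht (Submodule.baseChange_mono S (hBZ j)) (fg_baseChange _ _ (hfg j))).good
  have step : ∀ j, Good (dtot y δ) (Tot (Fil S d (trn D j (Bc δ ⊥ D j))))
      (Tot (Fil S d (trn D (j - 1) (Bc δ ⊥ D (j - 1))))) ∧
      chi (dtot y δ) (Tot (Fil S d (trn D j (Bc δ ⊥ D j))))
        (Tot (Fil S d (trn D (j - 1) (Bc δ ⊥ D (j - 1))))) =
        ((j.negOnePow : ℤˣ) : ℤ) *
          eps y Finset.univ ((Bc δ ⊥ D j).baseChange S) ((Zc δ ⊥ D j).baseChange S) := by
    intro j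
    have he := fil_exa y hδ (hA j) (hB (j - 1)) (trn_le_pred (hZD j)) trn_exa
    have h1 := Tot_mono (m2_fil_mono (S := S) (d := d) (trn_mono (D := D) (j := j) (hBZ j)))
    have h2 := Tot_mono (m2_fil_mono (S := S) (d := d)
      (trn_le_pred (W' := Bc δ ⊥ D (j - 1)) (hZD j)))
    refine ⟨Good.trans hsq (fil_isCx y (hB j)) (fil_isCx y (hA j)) (fil_isCx y (hB (j - 1)))
      h1 h2 (col j).1 he.good, ?_⟩
    rw [chi_add hsq (fil_isCx y (hB j)) (fil_isCx y (hA j)) (fil_isCx y (hB (j - 1)))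
      h1 h2 (col j).1 he.good, he.chi, add_zero, (col j).2]
  have e1 : ∀ k : ℕ, (-((k + 1 : ℕ) : ℤ)) = -(k : ℤ) - 1 := fun k => by push_cast; ring
  have hch := (good_chi_chain hsq
    (fun k : ℕ => Tot (Fil S d (trn D (-(k : ℤ)) (Bc δ ⊥ D (-(k : ℤ)))))) (m + 1)
    (fun k _ => fil_isCx y (hB _))
    (fun k _ => by
      simp only [e1]
      exact Tot_mono (m2_fil_mono (trn_le_pred ((hBZ _).trans (hZD _)))))
    (fun k _ => by simp only [e1]; exact (step _).1)).2
  have hB0 : Bc δ ⊥ D 0 = ⊥ := by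
    rw [Bc, hsupp (0 + 1) (Or.inr (by omega))]; simp
  have z0 : Tot (Fil S d (trn D (-((0 : ℕ) : ℤ)) (Bc δ ⊥ D (-((0 : ℕ) : ℤ))))) = ⊥ := by
    have : trn D 0 (Bc δ ⊥ D 0) = ⊥ := by
      funext n
      rcases lt_trichotomy 0 n with h | rfl | h
      · rw [trn_gt h, hsupp n (Or.inr h)]; rfl
      · rw [trn_self, hB0]; rfl
      · rw [trn_lt h]; rfl
    have h2 : Fil S d (⊥ : ℤ → Submodule R0 E) = ⊥ := by
      funext i n
      simp [Fil, kos_bot]
    rw [Nat.cast_zero, neg_zero, this, h2, Tot_bot]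
  have z1 : trn D (-((m + 1 : ℕ) : ℤ)) (Bc δ ⊥ D (-((m + 1 : ℕ) : ℤ))) = D := by
    refine le_antisymm (trn_le ((hBZ _).trans (hZD _))) fun n => ?_
    by_cases h : -((m + 1 : ℕ) : ℤ) < n
    · rw [trn_gt h]
    · rw [hsupp n (Or.inl (by push_cast at h; omega))]; exact bot_le
  simp only [z0, z1] at hch
  rw [hch, Finset.sum_range_succ', Finset.sum_eq_zero, zero_add]
  · have := (step 0).2
    simp only [e1, Nat.cast_zero, neg_zero]
    rw [this, hB0]
    simp
  · intro k _
    rw [e1 (k + 1), (step _).2]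
    obtain ⟨c, hc, hc'⟩ := htors (-((k + 1 : ℕ) : ℤ)) (by push_cast; omega)
    rw [eps_vanish hy ht hl hg (Submodule.baseChange_mono S (hBZ _)) (fg_baseChange _ _ (hfg _))
      hc (smul_mem_baseChange hc'), mul_zero]

end Vale.Agent.P202
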