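import Vale.Agent.P202.Defs2
import Vale.Agent.P202.HS

/-! Power series rings: universal property, finiteness, completions. -/

namespace Vale.Agent.P202

open IsLocalRing MvPowerSeries Filter Topology

universe u

variable {σ : Type} [Finite σ]

theorem ps_mem_pow_of_truncTotal {Λ : Type u} [CommRing Λ] {n : ℕ} {p : PS σ Λ}
    (h : truncTotal n p = 0) : p ∈ Ideal.span (Set.range (X : σ → PS σ Λ)) ^ n := by
  have h1 : toAdicCompletionAlgEquiv σ Λ p ∈ (MvPolynomial.idealOfVars σ Λ ^ n • ⊤ :
      Submodule (MvPolynomial σ Λ)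
        (AdicCompletion (MvPolynomial.idealOfVars σ Λ) (MvPolynomial σ Λ))) := by
    rw [AdicCompletion.pow_smul_top_eq_ker_eval (MvPolynomial.idealOfVars_fg σ Λ),
      LinearMap.mem_ker, AdicCompletion.eval_apply, toAdicCompletionAlgEquiv_apply,
      toAdicCompletion_apply_eq_mk_truncTotal, h]
    rfl
  have h2 := Submodule.mem_map_of_mem
    (f := (toAdicCompletionAlgEquiv σ Λ).symm.toLinearEquiv.toLinearMap) h1
  rw [Submodule.map_smul''] at h2
  have h3 : p ∈ (MvPolynomial.idealOfVars σ Λ ^ n • ⊤ : Submodule (MvPolynomial σ Λ) (PS σ Λ)) := by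
    have h4 := Submodule.smul_mono le_rfl le_top h2
    rwa [LinearEquiv.coe_coe, AlgEquiv.coe_toLinearEquiv, AlgEquiv.symm_apply_apply] at h4
  rw [Ideal.smul_top_eq_map, Submodule.restrictScalars_mem, Ideal.map_pow] at h3
  have h5 : (MvPolynomial.idealOfVars σ Λ).map (algebraMap (MvPolynomial σ Λ) (PS σ Λ)) =
      Ideal.span (Set.range (X : σ → PS σ Λ)) := by
    simp_rw [Ideal.map_span, ← Set.range_comp]
    congr 2
    funext i
    exact MvPolynomial.coe_X i
  rwa [h5] at h3

theorem ps_sub_trunc_mem {Λ : Type u} [CommRing Λ] (n : ℕ) (p : PS σ Λ) :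
    p - (truncTotal n p : MvPolynomial σ Λ) ∈ Ideal.span (Set.range (X : σ → PS σ Λ)) ^ n := by
  apply ps_mem_pow_of_truncTotal
  ext x
  rw [coeff_truncTotal_eq_ite]
  split_ifs with h
  · simp [coeff_truncTotal _ h]
  · simp

omit [Finite σ] in
theorem ps_map_coe {Λ B : Type u} [CommRing Λ] [CommRing B] (φ : PS σ Λ →+* B)
    (q : MvPolynomial σ Λ) :
    φ q = MvPolynomial.eval₂Hom (φ.comp C) (fun i => φ (X i)) q := by
  induction q using MvPolynomial.induction_on with
  | C a => simp
  | add p q hp hq => rw [MvPolynomial.coe_add, map_add, map_add, hp, hq]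
  | mul_X p i hp => rw [MvPolynomial.coe_mul, map_mul, map_mul, hp]; simp

theorem exists_psHom {Λ B : Type u} [CommRing Λ] [CommRing B] (I : Ideal B) [IsAdicComplete I B]
    (f : Λ →+* B) (w : σ → B) (hw : ∀ i, w i ∈ I) :
    ∃ φ : PS σ Λ →+* B, (∀ a, φ (C a) = f a) ∧ ∀ i, φ (X i) = w i := by
  let ev : MvPolynomial σ Λ →+* B := MvPolynomial.eval₂Hom f w
  have hev : ∀ n, ∀ q ∈ MvPolynomial.idealOfVars σ Λ ^ n, ev q ∈ I ^ n := by
    intro n q hq
    have h1 : (MvPolynomial.idealOfVars σ Λ).map ev ≤ I := by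
      rw [Ideal.map_span, Ideal.span_le]
      rintro _ ⟨_, ⟨i, rfl⟩, rfl⟩
      simpa [ev] using hw i
    have h2 := Ideal.mem_map_of_mem ev hq
    rw [Ideal.map_pow] at h2
    exact Ideal.pow_right_mono h1 n h2
  let F : (n : ℕ) → PS σ Λ →+* B ⧸ I ^ n := fun n =>
    (Ideal.quotientMap (I ^ n) ev (fun q hq => hev n q hq)).comp
      (truncTotalAlgHom σ Λ n).toRingHom
  have hF : ∀ n p, F n p = Ideal.Quotient.mk (I ^ n) (ev (truncTotal n p)) := fun n p => rfl
  have hc : ∀ {m n : ℕ} (hle : m ≤ n), (Ideal.Quotient.factorPow I hle).comp (F n) = F m := by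
    intro m n hle
    ext1 p
    rw [RingHom.comp_apply, hF, hF]
    change Ideal.Quotient.mk (I ^ m) (ev (truncTotal n p)) = _
    rw [Ideal.Quotient.eq, ← map_sub]
    exact hev m _ (truncTotal_sub_truncTotal_mem_pow_idealOfVars hle le_rfl p)
  have key : ∀ q : MvPolynomial σ Λ, IsAdicComplete.liftRingHom I F hc q = ev q := by
    intro q
    rw [IsHausdorff.eq_iff_smodEq (I := I)]
    intro n
    rw [SModEq.sub_mem, smul_eq_mul, Ideal.mul_top, ← Ideal.Quotient.eq,
      IsAdicComplete.mk_liftRingHom, hF, Ideal.Quotient.eq, ← map_sub]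
    refine hev n _ ((MvPolynomial.mem_pow_idealOfVars_iff' ..).2 fun x hx => ?_)
    simp [coeff_truncTotal _ hx]
  refine ⟨IsAdicComplete.liftRingHom I F hc, fun a => ?_, fun i => ?_⟩
  · rw [← MvPolynomial.coe_C, key]; simp [ev]
  · rw [← MvPolynomial.coe_X, key]; simp [ev]

omit [Finite σ] in
theorem ps_map_span {Λ B : Type u} [CommRing Λ] [CommRing B] (φ : PS σ Λ →+* B) :
    (Ideal.span (Set.range (X : σ → PS σ Λ))).map φ =
      Ideal.span (Set.range fun i => φ (X i)) := by
  rw [Ideal.map_span, ← Set.range_comp]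
  rfl

theorem psHom_ext {Λ B : Type u} [CommRing Λ] [CommRing B] (I : Ideal B) [IsHausdorff I B]
    (φ φ' : PS σ Λ →+* B) (hC : ∀ a, φ (C a) = φ' (C a)) (hX : ∀ i, φ (X i) = φ' (X i))
    (hI : ∀ i, φ (X i) ∈ I) : φ = φ' := by
  ext1 p
  rw [IsHausdorff.eq_iff_smodEq (I := I)]
  intro n
  rw [SModEq.sub_mem, smul_eq_mul, Ideal.mul_top]
  have key : ∀ ψ : PS σ Λ →+* B, (∀ i, ψ (X i) ∈ I) →
      ψ p - ψ (truncTotal n p : MvPolynomial σ Λ) ∈ I ^ n := by
    intro ψ hψ
    have h2 := Ideal.mem_map_of_mem ψ (ps_sub_trunc_mem n p)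
    rw [Ideal.map_pow, map_sub, ps_map_span] at h2
    refine Ideal.pow_right_mono (Ideal.span_le.2 ?_) n h2
    rintro _ ⟨i, rfl⟩
    exact hψ i
  have h1 : φ (truncTotal n p : MvPolynomial σ Λ) = φ' (truncTotal n p : MvPolynomial σ Λ) := by
    rw [ps_map_coe, ps_map_coe, show φ.comp C = φ'.comp C from RingHom.ext hC, funext hX]
  have h2 := Ideal.sub_mem _ (key φ hI) (key φ' fun i => hX i ▸ hI i)
  rw [h1] at h2
  simpa using h2

theorem ps_sub_C_mem {Λ : Type u} [CommRing Λ] (p : PS σ Λ) :
    p - C (constantCoeff p) ∈ Ideal.span (Set.range (X : σ → PS σ Λ)) := by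
  classical
  rw [← pow_one (Ideal.span _)]
  apply ps_mem_pow_of_truncTotal
  ext x
  rw [coeff_truncTotal_eq_ite]
  split_ifs with h
  · have : x = 0 := (Finsupp.degree_eq_zero_iff x).1 (by omega)
    subst this
    simp
  · simp

omit [Finite σ] in
theorem ps_mem_maximalIdeal {k : Type u} [Field k] {p : PS σ k} :
    p ∈ maximalIdeal (PS σ k) ↔ constantCoeff p = 0 := by
  rw [mem_maximalIdeal, mem_nonunits_iff, isUnit_iff_constantCoeff, isUnit_iff_ne_zero, not_not]

theorem ps_maximalIdeal (k : Type u) [Field k] :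
    maximalIdeal (PS σ k) = Ideal.span (Set.range (X : σ → PS σ k)) := by
  apply le_antisymm
  · intro p hp
    simpa [ps_mem_maximalIdeal.1 hp] using ps_sub_C_mem p
  · rw [Ideal.span_le]
    rintro _ ⟨i, rfl⟩
    exact ps_mem_maximalIdeal.2 (constantCoeff_X i)

theorem ps_isAdicComplete (k : Type u) [Field k] :
    IsAdicComplete (maximalIdeal (PS σ k)) (PS σ k) := by
  rw [ps_maximalIdeal]
  infer_instance

theorem ps_residue_surjective (k : Type u) [Field k] :
    Function.Surjective ((residue (PS σ k)).comp (C : k →+* PS σ k)) := by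
  intro z
  obtain ⟨p, rfl⟩ := residue_surjective z
  refine ⟨constantCoeff p, ?_⟩
  rw [RingHom.comp_apply, eq_comm, ← sub_eq_zero, ← map_sub, residue_eq_zero_iff,
    ps_mem_maximalIdeal]
  simp

/-- Completeness passes to smaller ideals. -/
theorem isAdicComplete_of_le {B : Type u} [CommRing B] [IsNoetherianRing B] [IsLocalRing B]
    [IsAdicComplete (maximalIdeal B) B] (J : Ideal B) (hJ : J ≠ ⊤) : IsAdicComplete J B := by
  have hle : J ≤ maximalIdeal B := le_maximalIdeal hJ
  have := IsHausdorff.of_isLocalRing J B hJ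
  refine { prec' := fun f hf => ?_ }
  have hm : ∀ n, (J ^ n • ⊤ : Submodule B B) ≤ maximalIdeal B ^ n • ⊤ := fun n =>
    Submodule.smul_mono (Ideal.pow_right_mono hle n) le_rfl
  obtain ⟨L, hL⟩ := IsPrecomplete.prec' (I := maximalIdeal B) f
    (fun {m n} h => (hf h).mono (hm m))
  refine ⟨L, fun n => ?_⟩
  rw [SModEq.sub_mem, ← Submodule.Quotient.mk_eq_zero]
  refine IsHausdorff.haus' (I := maximalIdeal B) _ fun k => ?_
  rw [SModEq.zero]
  have h1 := SModEq.sub_mem.1 (hf (le_max_left n k))
  have h2 := SModEq.sub_mem.1 ((hL (max n k)).mono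
    (Submodule.pow_smul_top_le (maximalIdeal B) B (le_max_right n k)))
  have h3 : (Submodule.Quotient.mk (f n - L) : B ⧸ (J ^ n • ⊤ : Submodule B B)) =
      Submodule.mkQ _ (f (max n k) - L) := by
    rw [Submodule.mkQ_apply, Submodule.Quotient.eq]
    simpa using h1
  rw [h3]
  have h4 := Submodule.mem_map_of_mem (f := (J ^ n • ⊤ : Submodule B B).mkQ) h2
  rw [Submodule.map_smul''] at h4
  exact Submodule.smul_mono le_rfl le_top h4

theorem mem_smul_top_pi {A ι : Type*} [CommRing A] [Fintype ι] {J : Ideal A} {v : ι → A} :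
    v ∈ (J • ⊤ : Submodule A (ι → A)) ↔ ∀ i, v i ∈ J := by
  classical
  constructor
  · intro h i
    refine Submodule.smul_induction_on h (fun r hr w _ => J.mul_mem_right _ hr)
      fun x y hx hy => J.add_mem hx hy
  · intro h
    rw [← Finset.univ_sum_single v]
    refine Submodule.sum_mem _ fun i _ => ?_
    have : (Pi.single i (v i) : ι → A) = v i • Pi.single i 1 := by
      rw [← Pi.single_smul, smul_eq_mul, mul_one]
    rw [this]
    exact Submodule.smul_mem_smul (h i) Submodule.mem_top

theorem isPrecomplete_pi {A : Type*} (ι : Type*) [CommRing A] [Fintype ι] (I : Ideal A)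
    [IsPrecomplete I A] : IsPrecomplete I (ι → A) := by
  refine ⟨fun f hf => ?_⟩
  have h : ∀ i, ∃ L : A, ∀ n, f n i ≡ L [SMOD (I ^ n • ⊤ : Submodule A A)] := by
    intro i
    refine IsPrecomplete.prec' (fun n => f n i) fun {m n} h => ?_
    rw [SModEq.sub_mem, smul_eq_mul, Ideal.mul_top]
    exact mem_smul_top_pi.1 (SModEq.sub_mem.1 (hf h)) i
  choose L hL using h
  refine ⟨L, fun n => SModEq.sub_mem.2 (mem_smul_top_pi.2 fun i => ?_)⟩
  have := SModEq.sub_mem.1 (hL i n)
  rwa [smul_eq_mul, Ideal.mul_top] at this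

/-- Complete Nakayama lemma. -/
theorem finite_of_finite_quot {A M : Type*} [CommRing A] [AddCommGroup M] [Module A M]
    (I : Ideal A) [IsPrecomplete I A] [IsHausdorff I M]
    [Module.Finite A (M ⧸ (I • ⊤ : Submodule A M))] : Module.Finite A M := by
  obtain ⟨n, g, hg⟩ := Module.Finite.exists_fin' A (M ⧸ (I • ⊤ : Submodule A M))
  obtain ⟨f, hf⟩ := Module.projective_lifting_property (I • ⊤ : Submodule A M).mkQ g
    (Submodule.mkQ_surjective _)
  have := isPrecomplete_pi (Fin n) I
  exact Module.Finite.of_surjective f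
    (surjective_of_mkQ_comp_surjective (I := I) (hf ▸ hg))

/-- Complete Nakayama for a power series ring. -/
theorem psHom_finite {k B : Type u} [Field k] [CommRing B] [IsNoetherianRing B] [IsLocalRing B]
    (φ : PS σ k →+* B) (hX : IsSop fun i => φ (X i))
    (hres : Function.Surjective ((residue B).comp (φ.comp C))) : φ.Finite := by
  obtain ⟨hX, t, ht⟩ := hX
  let := φ.toAlgebra
  set I := Ideal.span (Set.range (X : σ → PS σ k)) with hI
  set J := I.map (algebraMap (PS σ k) B) with hJ
  have hJ' : J = Ideal.span (Set.range fun i => φ (X i)) := ps_map_span φ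
  have hJm : J ≤ maximalIdeal B := by
    rw [hJ', Ideal.span_le]
    rintro _ ⟨i, rfl⟩
    exact hX i
  have : IsHausdorff I B := IsHausdorff.of_map hJm
  have : Module.Finite (PS σ k) (B ⧸ maximalIdeal B) := by
    refine Module.Finite.of_surjective (Algebra.linearMap _ _) fun z => ?_
    obtain ⟨a, ha⟩ := hres z
    exact ⟨C a, ha⟩
  have : Module.Finite (PS σ k) (B ⧸ J) := by
    refine Module.finite_of_surjective_of_ker_le_nilradical (Ideal.Quotient.factorₐ (PS σ k) hJm)
      (Ideal.Quotient.factor_surjective hJm) ?_ (IsNoetherian.noetherian _)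
    intro z hz
    obtain ⟨b, rfl⟩ := Ideal.Quotient.mk_surjective z
    have hb : b ∈ maximalIdeal B := Ideal.Quotient.eq_zero_iff_mem.1 hz
    refine mem_nilradical.2 ⟨t, ?_⟩
    rw [← map_pow, Ideal.Quotient.eq_zero_iff_mem, hJ']
    exact ht (Ideal.pow_mem_pow hb t)
  have : Module.Finite (PS σ k) (B ⧸ (I • ⊤ : Submodule (PS σ k) B)) := by
    rw [Ideal.smul_top_eq_map]
    exact Module.Finite.equiv (Submodule.Quotient.restrictScalarsEquiv (PS σ k) J).symm
  exact finite_of_finite_quot I

theorem psHom_surjective {Λ B : Type u} [CommRing Λ] [CommRing B] (φ : PS σ Λ →+* B)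
    [IsHausdorff (Ideal.span (Set.range fun i => φ (X i))) B]
    (hres : Function.Surjective
      ((Ideal.Quotient.mk (Ideal.span (Set.range fun i => φ (X i)))).comp (φ.comp C))) :
    Function.Surjective φ := by
  rename_i hH
  rw [← ps_map_span] at hH hres
  exact surjective_of_mk_map_comp_surjective φ (haus := hH) fun z => by
    obtain ⟨a, ha⟩ := hres z
    exact ⟨C a, ha⟩

theorem psHom_isLocalHom {k B : Type u} [Field k] [CommRing B] [IsLocalRing B]
    (φ : PS σ k →+* B) (hX : ∀ i, φ (X i) ∈ maximalIdeal B) : IsLocalHom φ := by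
  refine ⟨fun a ha => ?_⟩
  by_contra h
  have h1 : a ∈ maximalIdeal (PS σ k) := h
  rw [ps_maximalIdeal] at h1
  have h2 := Ideal.mem_map_of_mem φ h1
  rw [ps_map_span] at h2
  have h3 : Ideal.span (Set.range fun i => φ (X i)) ≤ maximalIdeal B := by
    rw [Ideal.span_le]
    rintro _ ⟨i, rfl⟩
    exact hX i
  exact h3 h2 ha

theorem isNoetherianRing_completion (R : Type u) [CommRing R] [IsNoetherianRing R]
    [IsLocalRing R] : IsNoetherianRing (AdicCompletion (maximalIdeal R) R) := by
  obtain ⟨n, g, hg⟩ := Submodule.fg_iff_exists_fin_generating_family.1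
    (maximalIdeal R).fg_of_isNoetherianRing
  set R' := AdicCompletion (maximalIdeal R) R
  have hm : maximalIdeal R' = Ideal.span (Set.range fun i => algebraMap R R' (g i)) := by
    refine AdicCompletion.maximalIdeal_eq_map.trans
      ((congrArg (Ideal.map (algebraMap R R')) hg.symm).trans ?_)
    rw [Ideal.submodule_span_eq, Ideal.map_span, ← Set.range_comp]
    rfl
  obtain ⟨φ, hC, hX⟩ := exists_psHom (σ := Fin n) (maximalIdeal R') (algebraMap R R')
    (fun i => algebraMap R R' (g i)) (fun i => hm ▸ Ideal.subset_span ⟨i, rfl⟩)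
  have hm' : Ideal.span (Set.range fun i => φ (X i)) = maximalIdeal R' := by
    rw [hm, funext hX]
  have : IsHausdorff (Ideal.span (Set.range fun i => φ (X i))) R' := by
    rw [hm']; infer_instance
  refine isNoetherianRing_of_surjective _ _ φ (psHom_surjective φ ?_)
  rw [hm']
  intro z
  obtain ⟨y, hy⟩ := (AdicCompletion.residueField_map_bijective R).2 z
  obtain ⟨a, rfl⟩ := residue_surjective y
  refine ⟨a, ?_⟩
  rw [RingHom.comp_apply, RingHom.comp_apply, hC]
  exact hy

omit [Finite σ] in
theorem ps_coeff_mem_of_eval {k : Type u} [Field k] {g : MvPolynomial σ (PS σ k)} {γ : ℕ}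
    (hg : g.IsHomogeneous γ) (h0 : MvPolynomial.eval X g = 0) (s : σ →₀ ℕ) :
    g.coeff s ∈ maximalIdeal (PS σ k) := by
  classical
  by_cases hs : s ∈ g.support
  swap
  · rw [MvPolynomial.notMem_support_iff.1 hs]
    exact Ideal.zero_mem _
  have hdeg : ∀ s' ∈ g.support, s'.degree = γ := fun s' hs' => by
    rw [Finsupp.degree_eq_weight_one]
    exact hg (MvPolynomial.mem_support_iff.1 hs')
  rw [ps_mem_maximalIdeal]
  have h1 := congrArg (coeff s) h0
  rw [MvPolynomial.eval_eq, map_sum, map_zero, Finset.sum_eq_single s] at h1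
  · rw [show (∏ i ∈ s.support, (X i : PS σ k) ^ s i) = monomial s 1 from
      (monomial_one_eq s).symm, coeff_mul_monomial] at h1
    simpa using h1
  · intro s' hs' hne
    rw [show (∏ i ∈ s'.support, (X i : PS σ k) ^ s' i) = monomial s' 1 from
      (monomial_one_eq s').symm, coeff_mul_monomial, if_neg]
    intro hle
    obtain ⟨c, rfl⟩ := exists_add_of_le hle
    have h2 := hdeg _ hs
    rw [map_add, hdeg _ hs'] at h2
    have h3 : c = 0 := (Finsupp.degree_eq_zero_iff c).1 (by omega)
    simp [h3] at hne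
  · intro h
    exact absurd hs h

theorem ps_exists_x (k : Type u) [Field k] (d : ℕ) (hd : Nat.card σ = d) :
    ∃ x : Fin d → PS σ k, Ideal.span (Set.range x) = maximalIdeal (PS σ k) ∧
      ReesI x ≤ (maximalIdeal (PS σ k)).map MvPolynomial.C := by
  let e : Fin d ≃ σ := (Finite.equivFinOfCardEq hd).symm
  refine ⟨X ∘ e, by rw [ps_maximalIdeal, e.surjective.range_comp], fun g hg => ?_⟩
  rw [MvPolynomial.mem_map_C_iff]
  intro s
  have h1 := mem_ReesI.1 hg s.degree
  rw [← MvPolynomial.eval_rename] at h1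
  have h2 := ps_coeff_mem_of_eval
    (MvPolynomial.homogeneousComponent_isHomogeneous s.degree g).rename_isHomogeneous h1
    (s.mapDomain e)
  rwa [MvPolynomial.coeff_rename_mapDomain _ e.injective, MvPolynomial.coeff_homogeneousComponent,
    if_pos rfl] at h2

/-- A power series ring has multiplicity one. -/
theorem isMult_ps (k : Type u) [Field k] (d : ℕ) (hd : Nat.card σ = d) :
    IsMult (PS σ k) (maximalIdeal (PS σ k)) d 1 := by
  classical
  obtain ⟨x, hx, hR⟩ := ps_exists_x k d hd
  cases d with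
  | zero =>
    have hm : maximalIdeal (PS σ k) = ⊥ := by
      rw [← hx, Set.range_eq_empty, Ideal.span_empty]
    refine tendsto_const_nhds.congr' ?_
    filter_upwards [eventually_ge_atTop 1] with n hn
    have h1 : maximalIdeal (PS σ k) ^ n = maximalIdeal (PS σ k) := by
      rw [hm, ← Ideal.zero_eq_bot, zero_pow (by omega)]
    have h2 : Module.length (PS σ k) (PS σ k ⧸ maximalIdeal (PS σ k)) = 1 := by
      rw [Module.length_eq_one_iff, isSimpleModule_iff_isCoatom]
      exact Ideal.isMaximal_def.1 inferInstance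
    unfold HS
    rw [h1, h2]
    simp
  | succ d =>
    have hch : IsChain x 1 (fun i => if i = 0 then maximalIdeal (PS σ k) else ⊤) (fun _ => 1) := by
      refine ⟨by simp [hx], by simp, fun i hi => by simp, fun i hi z hz => ?_⟩
      have : i = 0 := by omega
      simpa [this] using hz
    have h1 := tendsto_HS hch
    have h2 : eChain x 1 (fun i => if i = 0 then maximalIdeal (PS σ k) else ⊤) (fun _ => 1) = 1 := by
      unfold eChain
      rw [Finset.filter_true_of_mem, Finset.card_range]
      intro i hi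
      have : i = 0 := by simpa using hi
      subst this
      intro g hg
      unfold StepI at hg
      rw [Submodule.mem_colon_singleton, map_one, smul_eq_mul, mul_one] at hg
      exact sup_le hR le_rfl hg
    rw [h2, hx, Nat.cast_one] at h1
    exact h1

theorem grow_ps (k : Type u) [Field k] (d : ℕ) (hd : Nat.card σ = d) : Grow (PS σ k) d := by
  obtain ⟨x, hx, -⟩ := ps_exists_x k d hd
  cases d with
  | zero =>
    have hm : maximalIdeal (PS σ k) = ⊥ := by
      rw [← hx, Set.range_eq_empty, Ideal.span_empty]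
    intro c hc
    have hu : IsUnit c := by
      by_contra h
      have h1 : c ∈ maximalIdeal (PS σ k) := h
      rw [hm] at h1
      exact hc h1
    refine ⟨0, fun j => ?_⟩
    have : Subsingleton (PS σ k ⧸ (Ideal.span {c} ⊔ maximalIdeal (PS σ k) ^ j)) := by
      rw [Ideal.Quotient.subsingleton_iff, Ideal.span_singleton_eq_top.2 hu, top_sup_eq]
    rw [Module.length_eq_zero]
    simp
  | succ d =>
    have : IsDomain (PS σ k) := NoZeroDivisors.to_isDomain _
    exact grow_of_isDomain x (fun i => hx ▸ Ideal.subset_span ⟨i, rfl⟩) (t := 1)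
      (by rw [pow_one, hx])

end Vale.Agent.P202
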