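import Vale.Agent.P202.Red2
import Vale.Agent.P202.PS
import Vale.Agent.P202.Coef
import Vale.Agent.P202.LC
import Vale.Agent.P202.RankA
import Vale.Agent.P202.Main2

/-! The multiplicity does not increase under localisation (complete equicharacteristic case). -/

namespace Vale.Agent.P202

open IsLocalRing MvPowerSeries Filter Topology

universe u

theorem loc_dim_le {R S : Type*} [CommRing R] [CommRing S] [Algebra R S]
    [Algebra.IsIntegral R S] : ringKrullDim S ≤ ringKrullDim R :=
  Order.krullDim_le_of_strictMono (PrimeSpectrum.comap (algebraMap R S))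
    fun _ _ h => Ideal.IsIntegral.comap_lt_comap (R := R) h

theorem loc_dim_ge {R S : Type*} [CommRing R] [CommRing S] [Algebra R S]
    [Algebra.IsIntegral R S] (h : Function.Injective (algebraMap R S)) :
    ringKrullDim R ≤ ringKrullDim S := by
  refine iSup_le fun l => ?_
  obtain ⟨Q, -, hQ, hQ'⟩ := Ideal.exists_ideal_over_prime_of_isIntegral (S := S)
    (RelSeries.head l).asIdeal ⊥ (by
      intro x hx
      rw [Ideal.mem_comap, Ideal.mem_bot, map_eq_zero_iff _ h] at hx
      rw [hx]
      exact Ideal.zero_mem _)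
  have : Q.LiesOver (RelSeries.head l).asIdeal := ⟨hQ'.symm⟩
  obtain ⟨L, hL, -⟩ := Ideal.exists_ltSeries_of_hasGoingUp l Q
  rw [← hL]
  exact Order.LTSeries.length_le_krullDim L

/-- Approximation of ring elements by elements of a subgroup stable under generators. -/
theorem loc_approx {A : Type*} [CommRing A] {m : Ideal A} {G : Set A} (hG : Ideal.span G = m)
    (W : AddSubgroup A) (hW : ∀ g ∈ G, ∀ w ∈ W, g * w ∈ W)
    (h0 : ∀ a, ∃ w ∈ W, a - w ∈ m) (n : ℕ) (a : A) : ∃ w ∈ W, a - w ∈ m ^ n := by
  have key : ∀ n : ℕ, ∀ a ∈ m ^ n, ∃ w ∈ W, a - w ∈ m ^ (n + 1) := by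
    intro n
    induction n with
    | zero => intro a _; simpa using h0 a
    | succ n ih =>
      intro a ha
      rw [pow_succ'] at ha
      have h1 : ∀ b ∈ Ideal.span G, ∀ c ∈ m ^ n, ∃ w ∈ W, b * c - w ∈ m ^ (n + 1 + 1) := by
        intro b hb
        induction hb using Submodule.span_induction with
        | mem g hg =>
          intro c hc
          obtain ⟨w, hw, hw'⟩ := ih c hc
          refine ⟨g * w, hW g hg w hw, ?_⟩
          rw [← mul_sub, pow_succ' m (n + 1)]
          exact Ideal.mul_mem_mul (hG ▸ Ideal.subset_span hg) hw'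
        | zero => intro c _; exact ⟨0, W.zero_mem, by simp⟩
        | add x y _ _ hx hy =>
          intro c hc
          obtain ⟨w, hw, hw'⟩ := hx c hc
          obtain ⟨v, hv, hv'⟩ := hy c hc
          refine ⟨w + v, W.add_mem hw hv, ?_⟩
          have : (x + y) * c - (w + v) = (x * c - w) + (y * c - v) := by ring
          rw [this]
          exact Ideal.add_mem _ hw' hv'
        | smul s x _ hx =>
          intro c hc
          obtain ⟨w, hw, hw'⟩ := hx (s * c) (Ideal.mul_mem_left _ _ hc)
          refine ⟨w, hw, ?_⟩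
          have : s • x * c - w = x * (s * c) - w := by rw [smul_eq_mul]; ring
          rw [this]
          exact hw'
      refine Submodule.mul_induction_on ha (fun b hb c hc => h1 b (hG ▸ hb) c hc) ?_
      rintro x y ⟨w, hw, hw'⟩ ⟨v, hv, hv'⟩
      refine ⟨w + v, W.add_mem hw hv, ?_⟩
      have : x + y - (w + v) = (x - w) + (y - v) := by ring
      rw [this]
      exact Ideal.add_mem _ hw' hv'
  induction n with
  | zero => exact ⟨0, W.zero_mem, by simp⟩
  | succ n ih =>
    obtain ⟨w, hw, hw'⟩ := ih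
    obtain ⟨v, hv, hv'⟩ := key n _ hw'
    refine ⟨w + v, W.add_mem hw hv, ?_⟩
    rw [← sub_sub]
    exact hv'


theorem loc_pad {A : Type*} [CommRing A] {d : ℕ} (s : Finset A) (h : s.card ≤ d) :
    ∃ g : Fin d → A, Ideal.span (Set.range g) = Ideal.span (s : Set A) := by
  obtain ⟨e⟩ : Nonempty (s ↪ Fin d) := Function.Embedding.nonempty_of_card_le (by simpa using h)
  refine ⟨Function.extend e Subtype.val 0, le_antisymm ?_ ?_⟩
  · rw [Ideal.span_le]
    rintro _ ⟨i, rfl⟩
    by_cases hi : ∃ a, e a = i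
    · obtain ⟨a, rfl⟩ := hi
      rw [e.injective.extend_apply]
      exact Ideal.subset_span a.2
    · rw [Function.extend_apply' _ _ _ hi]
      exact Ideal.zero_mem _
  · refine Ideal.span_mono fun a ha => ⟨e ⟨a, ha⟩, ?_⟩
    rw [e.injective.extend_apply]

/-- A prime of a polynomial ring in `d` variables over a field is locally generated by `d`
elements. -/
theorem loc_poly_span {K : Type*} [Field K] {d : ℕ} (q : Ideal (MvPolynomial (Fin d) K))
    [q.IsPrime] : ∃ g : Fin d → Localization.AtPrime q,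
      Ideal.span (Set.range g) = maximalIdeal (Localization.AtPrime q) := by
  have hreg : IsRegularLocalRing (Localization.AtPrime q) := inferInstance
  obtain ⟨s, hs, hs'⟩ := (IsNoetherian.noetherian
    (maximalIdeal (Localization.AtPrime q))).exists_span_finset_card_eq_spanFinrank
  have h1 := hreg.spanFinrank_maximalIdeal
  rw [IsLocalization.AtPrime.ringKrullDim_eq_height q] at h1
  have h2 := Ideal.height_le_ringKrullDim_of_isPrime (I := q)
  rw [← h1, MvPolynomial.ringKrullDim_of_isNoetherianRing, ringKrullDim_eq_zero_of_field,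
    zero_add, Nat.card_eq_fintype_card, Fintype.card_fin, ← hs] at h2
  obtain ⟨g, hg⟩ := loc_pad s (d := d) (by exact_mod_cast h2)
  exact ⟨g, hg.trans hs'⟩

theorem loc_span_abs {A B : Type*} [CommRing A] [CommRing B] [IsDomain B] [Algebra B A] {d : ℕ}
    (Y : Fin d → A) (p : Ideal A) [p.IsPrime] (hp : p.comap (algebraMap B A) = ⊥)
    (hJ : p ≤ (p.comap (MvPolynomial.aeval (R := B) Y)).map (MvPolynomial.aeval (R := B) Y)) :
    ∃ g : Fin d → Localization.AtPrime p,
      Ideal.span (Set.range g) = maximalIdeal (Localization.AtPrime p) := by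
  have hu : ∀ y : nonZeroDivisors B,
      IsUnit (((algebraMap A (Localization.AtPrime p)).comp (algebraMap B A)) y) := by
    rintro ⟨y, hy⟩
    refine (IsLocalization.AtPrime.isUnit_to_map_iff (Localization.AtPrime p) p _).2 ?_
    intro h
    have h1 : y ∈ p.comap (algebraMap B A) := h
    rw [hp, Ideal.mem_bot] at h1
    exact nonZeroDivisors.ne_zero hy h1
  let κ : FractionRing B →+* Localization.AtPrime p := IsLocalization.lift hu
  let θ : MvPolynomial (Fin d) (FractionRing B) →+* Localization.AtPrime p :=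
    MvPolynomial.eval₂Hom κ fun i => algebraMap A _ (Y i)
  have hθ : ∀ F : MvPolynomial (Fin d) B, θ (MvPolynomial.map (algebraMap B _) F) =
      algebraMap A _ (MvPolynomial.aeval Y F) := by
    intro F
    have : θ.comp (MvPolynomial.map (algebraMap B (FractionRing B))) =
        (algebraMap A _).comp (MvPolynomial.aeval (R := B) Y).toRingHom := by
      refine MvPolynomial.ringHom_ext (fun b => ?_) fun i => ?_
      · simp [θ, κ]
      · simp [θ]
    exact congrArg (fun φ => φ F) this
  let q : Ideal (MvPolynomial (Fin d) (FractionRing B)) := (maximalIdeal _).comap θ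
  have hq : ∀ y : q.primeCompl, IsUnit (θ y) := by
    rintro ⟨y, hy⟩
    by_contra h
    exact hy h
  let θ' : Localization.AtPrime q →+* Localization.AtPrime p := IsLocalization.lift hq
  obtain ⟨g, hg⟩ := loc_poly_span q
  refine ⟨θ' ∘ g, ?_⟩
  rw [Set.range_comp, ← Ideal.map_span, hg, ← Localization.AtPrime.map_eq_maximalIdeal (I := q),
    Ideal.map_map]
  have h1 : θ'.comp (algebraMap _ _) = θ := IsLocalization.lift_comp hq
  rw [h1]
  refine le_antisymm Ideal.map_comap_le ?_
  rw [← Localization.AtPrime.map_eq_maximalIdeal (I := p)]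
  refine (Ideal.map_mono hJ).trans ?_
  rw [Ideal.map_le_iff_le_comap, Ideal.map_le_iff_le_comap]
  intro F hF
  change algebraMap A (Localization.AtPrime p) (MvPolynomial.aeval Y F) ∈ q.map θ
  rw [← hθ]
  refine Ideal.mem_map_of_mem _ ?_
  change θ _ ∈ maximalIdeal _
  rw [hθ]
  exact (IsLocalization.AtPrime.to_map_mem_maximal_iff (Localization.AtPrime p) p _).2 hF

theorem loc_nakayama {A B : Type*} [CommRing A] [CommRing B] [IsLocalRing B] [Algebra B A] {d : ℕ}
    (Y : Fin d → A) (J : Ideal A) [Module.Finite B (A ⧸ J)]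
    (h : ∀ a : A, ∃ F : MvPolynomial (Fin d) B, a - MvPolynomial.aeval Y F ∈
      J ⊔ (maximalIdeal B).map (algebraMap B A)) (a : A) :
    ∃ F : MvPolynomial (Fin d) B, a - MvPolynomial.aeval Y F ∈ J := by
  have h1 : (⊤ : Submodule B (A ⧸ J)) ≤ LinearMap.range
      ((Ideal.Quotient.mkₐ B J).comp (MvPolynomial.aeval Y)).toLinearMap := by
    refine Submodule.le_of_le_smul_of_le_jacobson_bot Module.Finite.fg_top
      (maximalIdeal_le_jacobson _) ?_
    intro x _
    obtain ⟨x, rfl⟩ := Ideal.Quotient.mk_surjective x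
    obtain ⟨F, hF⟩ := h x
    obtain ⟨j, hj, z, hz, hjz⟩ := Submodule.mem_sup.1 hF
    have h2 : Ideal.Quotient.mk J x = Ideal.Quotient.mk J (MvPolynomial.aeval Y F) +
        Ideal.Quotient.mk J z := by
      rw [← map_add, Ideal.Quotient.eq]
      have : x - (MvPolynomial.aeval Y F + z) = j := by linear_combination -hjz
      rw [this]
      exact hj
    rw [h2]
    refine Submodule.add_mem_sup ⟨F, rfl⟩ ?_
    rw [Ideal.smul_top_eq_map, Submodule.restrictScalars_mem,
      ← Ideal.Quotient.mk_comp_algebraMap, ← Ideal.map_map]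
    exact Ideal.mem_map_of_mem _ hz
  obtain ⟨F, hF⟩ := h1 (Submodule.mem_top (x := Ideal.Quotient.mk J a))
  exact ⟨F, Ideal.Quotient.eq.1 hF.symm⟩

theorem loc_finite {l : Type u} [Field l] {f d : ℕ}
    (ι : PS (Fin f) l →+* PS (Fin f ⊕ Fin d) l) (hC : ∀ a, ι (C a) = C a)
    (hX : ∀ i, ι (X i) = X (Sum.inl i)) (J : Ideal (PS (Fin f ⊕ Fin d) l)) (hJ : J ≠ ⊤) {t : ℕ}
    (ht : maximalIdeal (PS (Fin f ⊕ Fin d) l) ^ t ≤
      J ⊔ Ideal.span (Set.range fun i => X (Sum.inl i))) :
    ((Ideal.Quotient.mk J).comp ι).Finite := by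
  have : Nontrivial (PS (Fin f ⊕ Fin d) l ⧸ J) := Ideal.Quotient.nontrivial_iff.2 hJ
  have : IsLocalRing (PS (Fin f ⊕ Fin d) l ⧸ J) :=
    IsLocalRing.of_surjective' _ Ideal.Quotient.mk_surjective
  have hm := map_maximalIdeal_of_surjective (Ideal.Quotient.mk J) Ideal.Quotient.mk_surjective
  refine psHom_finite _ ⟨fun i => ?_, t, ?_⟩ ?_
  · change Ideal.Quotient.mk J (ι (X i)) ∈ _
    rw [← hm, hX]
    refine Ideal.mem_map_of_mem _ ?_
    rw [ps_maximalIdeal]
    exact Ideal.subset_span ⟨_, rfl⟩
  · rw [← hm, ← Ideal.map_pow]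
    refine (Ideal.map_mono ht).trans ?_
    rw [Ideal.map_sup, Ideal.map_quotient_self, bot_sup_eq, Ideal.map_span, ← Set.range_comp]
    refine le_of_eq (congrArg _ (congrArg _ (funext fun i => ?_)))
    simp [hX]
  · intro z
    obtain ⟨z, rfl⟩ := residue_surjective z
    obtain ⟨z, rfl⟩ := Ideal.Quotient.mk_surjective z
    obtain ⟨c, hc⟩ := ps_residue_surjective (σ := Fin f ⊕ Fin d) l (residue _ z)
    refine ⟨c, ?_⟩
    have h1 : C c - z ∈ maximalIdeal _ := Ideal.Quotient.eq.1 hc
    simp only [RingHom.comp_apply, hC]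
    refine Ideal.Quotient.eq.2 ?_
    rw [← map_sub, ← hm]
    exact Ideal.mem_map_of_mem _ h1


theorem loc_dim_ps (l : Type u) [Field l] (f : ℕ) : ringKrullDim (PS (Fin f) l) ≤ f := by
  refine (ringKrullDim_le_spanFinrank_maximalIdeal _).trans ?_
  rw [ps_maximalIdeal]
  have h1 := Submodule.spanFinrank_span_le_ncard_of_finite (R := PS (Fin f) l)
    (Set.finite_range (X : Fin f → PS (Fin f) l))
  have h2 : (Set.range (X : Fin f → PS (Fin f) l)).ncard ≤ f := by
    rw [← Set.image_univ]
    exact (Set.ncard_image_le Set.finite_univ).trans (by simp [Set.ncard_univ])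
  exact_mod_cast h1.trans h2

/-- A prime of a power series ring whose quotient is finite over the first `f` variables is
generated by `d` elements after localisation. -/
theorem ps_loc_span {l : Type u} [Field l] {f d : ℕ} (p : Ideal (PS (Fin f ⊕ Fin d) l))
    [p.IsPrime] (hf : ringKrullDim (PS (Fin f ⊕ Fin d) l ⧸ p) = f) {t : ℕ}
    (ht : maximalIdeal (PS (Fin f ⊕ Fin d) l) ^ t ≤
      p ⊔ Ideal.span (Set.range fun i => X (Sum.inl i))) :
    ∃ g : Fin d → Localization.AtPrime p,
      Ideal.span (Set.range g) = maximalIdeal (Localization.AtPrime p) := by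
  have hXm : ∀ i, (X i : PS (Fin f ⊕ Fin d) l) ∈ maximalIdeal _ := fun i => by
    rw [ps_maximalIdeal]
    exact Ideal.subset_span ⟨_, rfl⟩
  have := ps_isAdicComplete (σ := Fin f ⊕ Fin d) l
  obtain ⟨ι, hC, hX⟩ := exists_psHom (maximalIdeal (PS (Fin f ⊕ Fin d) l))
    (C : l →+* PS (Fin f ⊕ Fin d) l) (fun i : Fin f => X (Sum.inl i)) fun i => hXm _
  have hfin := loc_finite ι hC hX p Ideal.IsPrime.ne_top' ht
  let _ : Algebra (PS (Fin f) l) (PS (Fin f ⊕ Fin d) l) := ι.toAlgebra
  have hι : algebraMap (PS (Fin f) l) (PS (Fin f ⊕ Fin d) l) = ι := rfl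
  have hmap : (maximalIdeal (PS (Fin f) l)).map ι =
      Ideal.span (Set.range fun i => X (Sum.inl i)) := by
    rw [ps_maximalIdeal, Ideal.map_span, ← Set.range_comp]
    exact congrArg _ (congrArg _ (funext hX))
  let Y : Fin d → PS (Fin f ⊕ Fin d) l := fun j => X (Sum.inr j)
  let ψ := MvPolynomial.aeval (R := PS (Fin f) l) Y
  have : IsDomain (PS (Fin f) l) := NoZeroDivisors.to_isDomain _
  refine loc_span_abs (B := PS (Fin f) l) Y p ?_ ?_
  · rw [eq_bot_iff]
    intro b hb
    rw [Ideal.mem_bot]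
    by_contra hb0
    have h0 : ∀ a ∈ Ideal.span {b}, ((Ideal.Quotient.mk p).comp ι) a = 0 := by
      intro a ha
      obtain ⟨c, rfl⟩ := Ideal.mem_span_singleton'.1 ha
      rw [map_mul, RingHom.comp_apply _ _ b, 
        Ideal.Quotient.eq_zero_iff_mem.2 (show ι b ∈ p from hb), mul_zero]
    have h1 : (Ideal.Quotient.lift _ _ h0).Finite :=
      RingHom.Finite.of_comp_finite (f := Ideal.Quotient.mk _) hfin
    let _ := (Ideal.Quotient.lift _ _ h0).toAlgebra
    have : Module.Finite (PS (Fin f) l ⧸ Ideal.span {b}) (PS (Fin f ⊕ Fin d) l ⧸ p) := h1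
    have h2 : ringKrullDim (PS (Fin f ⊕ Fin d) l ⧸ p) ≤
      ringKrullDim (PS (Fin f) l ⧸ Ideal.span {b}) := loc_dim_le
    have h3 := ringKrullDim_quotient_succ_le_of_nonZeroDivisor
      (mem_nonZeroDivisors_of_ne_zero hb0)
    rw [hf] at h2
    have h4 : (f : WithBot ℕ∞) + 1 ≤ f :=
      (add_le_add h2 le_rfl).trans (h3.trans (loc_dim_ps l f))
    have h5 : f + 1 ≤ f := by exact_mod_cast h4
    omega
  · set J := (p.comap ψ).map ψ with hJ
    have hJp : J ≤ p := Ideal.map_comap_le
    have hrad : maximalIdeal (PS (Fin f ⊕ Fin d) l) ≤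
        (J ⊔ Ideal.span (Set.range fun i => X (Sum.inl i))).radical := by
      rw [Ideal.radical_eq_sInf, le_sInf_iff]
      rintro Q ⟨hQ, hQp⟩
      rw [ps_maximalIdeal, Ideal.span_le]
      rintro _ ⟨i, rfl⟩
      cases i with
      | inl i => exact hQ (Ideal.mem_sup_right (Ideal.subset_span ⟨i, rfl⟩))
      | inr j =>
        by_contra hj
        obtain ⟨h, hm, hh⟩ := hfin.to_isIntegral (Ideal.Quotient.mk p (Y j))
        rw [← Polynomial.hom_eval₂, Ideal.Quotient.eq_zero_iff_mem] at hh
        have h1 : h.eval₂ ι (Y j) = ψ (Polynomial.aeval (MvPolynomial.X j) h) := by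
          rw [← Polynomial.aeval_algHom_apply, MvPolynomial.aeval_X, Polynomial.aeval_def, hι]
        have h2 : h.eval₂ ι (Y j) ∈ J := by
          rw [h1] at hh ⊢
          exact Ideal.mem_map_of_mem _ hh
        have : Nontrivial (PS (Fin f) l ⧸ Q.comap ι) :=
          Ideal.Quotient.nontrivial_iff.2 Ideal.IsPrime.ne_top'
        have h3 := Ideal.comap_lt_comap_of_root_mem_sdiff (f := ι) (I := Q)
          (le_maximalIdeal hQp.ne_top) ⟨hXm (Sum.inr j), hj⟩ (Polynomial.map_monic_ne_zero hm)
          (hQ (Ideal.mem_sup_left h2))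
        have h4 : maximalIdeal (PS (Fin f) l) ≤ Q.comap ι := by
          rw [← Ideal.map_le_iff_le_comap, hmap]
          exact le_sup_right.trans hQ
        exact absurd ((maximalIdeal.isMaximal _).1.2 _ (h4.trans_lt h3)) Ideal.IsPrime.ne_top'
    obtain ⟨t', ht'⟩ := Ideal.exists_pow_le_of_le_radical_of_fg hrad (IsNoetherian.noetherian _)
    have hfinJ := loc_finite ι hC hX J (ne_top_of_le_ne_top Ideal.IsPrime.ne_top' hJp) ht'
    have : Module.Finite (PS (Fin f) l) (PS (Fin f ⊕ Fin d) l ⧸ J) :=
      RingHom.finite_algebraMap.1 hfinJ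
    have happ := loc_approx (ps_maximalIdeal (σ := Fin f ⊕ Fin d) l).symm
      ψ.range.toSubring.toAddSubgroup ?_ ?_ t'
    · intro a ha
      have h0 : ∀ a, ∃ F, a - ψ F ∈ J ⊔ (maximalIdeal (PS (Fin f) l)).map
          (algebraMap (PS (Fin f) l) (PS (Fin f ⊕ Fin d) l)) := by
        intro a
        obtain ⟨_, ⟨F, rfl⟩, hF⟩ := happ a
        refine ⟨F, ?_⟩
        rw [hι, hmap]
        exact ht' hF
      obtain ⟨F, hF⟩ := loc_nakayama (B := PS (Fin f) l) Y J h0 a
      have h1 : ψ F ∈ p := by
        have := p.sub_mem ha (hJp hF)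
        rwa [sub_sub_cancel] at this
      have h2 : ψ F ∈ J := Ideal.mem_map_of_mem _ h1
      have := J.add_mem hF h2
      rwa [sub_add_cancel] at this
    · rintro _ ⟨i, rfl⟩ w hw
      refine ψ.range.mul_mem ?_ hw
      cases i with
      | inl i => exact hX i ▸ ψ.range.algebraMap_mem (X i)
      | inr j => exact ⟨MvPolynomial.X j, MvPolynomial.aeval_X _ _⟩
    · intro a
      obtain ⟨c, hc⟩ := ps_residue_surjective (σ := Fin f ⊕ Fin d) l (residue _ a)
      exact ⟨C c, hC c ▸ ψ.range.algebraMap_mem (C c), Ideal.Quotient.eq.1 hc.symm⟩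

/-- A local domain whose maximal ideal has `d` generators has multiplicity at most one. -/
theorem exists_isMult_le_one {A : Type u} [CommRing A] [IsLocalRing A] [IsNoetherianRing A]
    [IsDomain A] {d : ℕ} (g : Fin d → A) (hg : Ideal.span (Set.range g) = maximalIdeal A) :
    Grow A d ∧ ∃ e0 : ℝ, e0 ≤ 1 ∧ IsMult A (maximalIdeal A) d e0 := by
  cases d with
  | zero =>
    have hm : maximalIdeal A = ⊥ := by
      rw [← hg, Set.range_eq_empty, Ideal.span_empty]
    refine ⟨fun c hc => ⟨0, fun j => ?_⟩, 1, le_rfl, ?_⟩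
    · have hu : IsUnit c := by
        by_contra h
        have h1 : c ∈ maximalIdeal A := h
        rw [hm] at h1
        exact hc h1
      have h2 : Ideal.span {c} ⊔ maximalIdeal A ^ j = ⊤ := by
        rw [Ideal.span_singleton_eq_top.2 hu, top_sup_eq]
      rw [h2]
      simp [Module.length_eq_zero]
    · refine tendsto_const_nhds.congr' ?_
      filter_upwards [eventually_ge_atTop 1] with n hn
      have h1 : maximalIdeal A ^ n = maximalIdeal A := by
        rw [hm, ← Ideal.zero_eq_bot, zero_pow (by omega)]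
      unfold HS
      rw [h1, hs_len_residue]
      simp
  | succ d =>
    have hx : ∀ i, g i ∈ maximalIdeal A := fun i => hg ▸ Ideal.subset_span ⟨i, rfl⟩
    refine ⟨grow_of_isDomain g hx (t := 1) (by rw [pow_one, hg]), ?_⟩
    have hch : IsChain g 1 (fun i => if i = 0 then Ideal.span (Set.range g) else ⊤)
        (fun _ => 1) := by
      refine ⟨by simp, by simp, ?_, ?_⟩
      · intro i hi
        simp
      · intro i hi z hz
        have : i = 0 := by omega
        simp [this, hg, hz]
    have h1 := tendsto_HS hch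
    have h2 : eChain g 1 (fun i => if i = 0 then Ideal.span (Set.range g) else ⊤)
        (fun _ => 1) ≤ 1 := by
      classical
      unfold eChain
      exact (Finset.card_filter_le _ _).trans (by simp)
    generalize eChain g 1 (fun i => if i = 0 then Ideal.span (Set.range g) else ⊤)
        (fun _ => 1) = e at h1 h2
    rw [hg] at h1
    exact ⟨e, by exact_mod_cast h2, h1⟩

theorem loc_up {A S A' S' : Type u} [CommRing A] [CommRing S] [CommRing A'] [CommRing S']
    [IsLocalRing A'] [IsNoetherianRing A'] [IsLocalRing S'] [Algebra A S] [Module.Finite A S]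
    [Algebra A A'] [Algebra S S'] [Algebra A' S'] [IsLocalHom (algebraMap A' S')]
    (hc : ∀ a, algebraMap A' S' (algebraMap A A' a) = algebraMap S S' (algebraMap A S a))
    (P : Ideal S) [P.IsPrime] [IsLocalization.AtPrime S' P]
    (hu : ∀ a, algebraMap A S a ∉ P → IsUnit (algebraMap A A' a)) {d : ℕ} (hg : Grow A' d)
    {e0 : ℝ} (he0 : IsMult A' (maximalIdeal A') d e0) {r : ℕ} (v : Fin r → S) {c : A}
    (hc0 : algebraMap A A' c ≠ 0) (hcv : ∀ w : S, c • w ∈ Submodule.span A (Set.range v)) {e : ℝ}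
    (he : IsMult S' (maximalIdeal S') d e) : ∃ k : ℕ, k ≤ r ∧ e ≤ k * e0 := by
  classical
  let W : Submodule A' S' := Submodule.span A' (Set.range (algebraMap S S'))
  have hsp : ∀ (T : Set S) (w : S), w ∈ Submodule.span A T →
      algebraMap S S' w ∈ Submodule.span A' (algebraMap S S' '' T) := by
    intro T w hw
    induction hw using Submodule.span_induction with
    | mem x hx => exact Submodule.subset_span ⟨x, hx, rfl⟩
    | zero => rw [map_zero]; exact Submodule.zero_mem _
    | add x y _ _ hx hy => rw [map_add]; exact Submodule.add_mem _ hx hy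
    | smul a x _ hx =>
      rw [Algebra.smul_def, map_mul, ← hc, ← Algebra.smul_def]
      exact Submodule.smul_mem _ _ hx
  have hW : W.FG := by
    obtain ⟨T, hT⟩ := Module.Finite.fg_top (R := A) (M := S)
    refine ⟨T.image (algebraMap S S'), le_antisymm (Submodule.span_mono ?_) ?_⟩
    · rw [Finset.coe_image]
      exact Set.image_subset_range _ _
    · rw [Submodule.span_le]
      rintro _ ⟨w, rfl⟩
      rw [Finset.coe_image]
      exact hsp _ w (hT ▸ Submodule.mem_top)
  have hmul : ∀ s : S, ∀ w ∈ W, algebraMap S S' s * w ∈ W := by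
    intro s w hw
    induction hw using Submodule.span_induction with
    | mem x hx =>
      obtain ⟨x, rfl⟩ := hx
      rw [← map_mul]
      exact Submodule.subset_span ⟨_, rfl⟩
    | zero => rw [mul_zero]; exact Submodule.zero_mem _
    | add x y _ _ hx hy => rw [mul_add]; exact Submodule.add_mem _ hx hy
    | smul a x _ hx =>
      rw [mul_smul_comm]
      exact Submodule.smul_mem _ _ hx
  have hm : Ideal.span (algebraMap S S' '' P) = maximalIdeal S' :=
    IsLocalization.AtPrime.map_eq_maximalIdeal P S'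
  have h0 : ∀ z : S', ∃ w ∈ W.toAddSubgroup, z - w ∈ maximalIdeal S' := by
    intro z
    obtain ⟨⟨x, s⟩, hz⟩ := IsLocalization.surj P.primeCompl z
    have h1 := Ideal.comap_lt_comap_of_integral_mem_sdiff (R := A) (I := P)
      (J := P ⊔ Ideal.span {(s : S)}) le_sup_left
      ⟨Ideal.mem_sup_right (Ideal.mem_span_singleton_self _), s.2⟩
      (Algebra.IsIntegral.isIntegral _)
    obtain ⟨a, ha, ha'⟩ := SetLike.exists_of_lt h1
    obtain ⟨π, hπ, y, hy, hπy⟩ := Submodule.mem_sup.1 (Ideal.mem_comap.1 ha)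
    obtain ⟨s', rfl⟩ := Ideal.mem_span_singleton'.1 hy
    obtain ⟨b, hb⟩ := (hu a ha').exists_left_inv
    refine ⟨b • algebraMap S S' (x * s'),
      Submodule.smul_mem W _ (Submodule.subset_span ⟨_, rfl⟩), ?_⟩
    have h2 : algebraMap A' S' b * (algebraMap S S' π + algebraMap S S' s' * algebraMap S S' s)
        = 1 := by
      rw [← map_mul, ← map_add, hπy, ← hc, ← map_mul, hb, map_one]
    have h3 : z - b • algebraMap S S' (x * s') =
        z * algebraMap A' S' b * algebraMap S S' π := by
      rw [Algebra.smul_def, map_mul]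
      simp only at hz
      rw [← hz]
      linear_combination (-z) * h2
    rw [h3, ← hm]
    exact Ideal.mul_mem_left _ _ (Ideal.subset_span ⟨π, hπ, rfl⟩)
  have happ := loc_approx hm W.toAddSubgroup (by
    rintro _ ⟨s, -, rfl⟩ w hw
    exact hmul s w hw) h0
  let T : Finset S' := Finset.univ.image fun i => algebraMap S S' (v i)
  have hT : (T : Set S') = algebraMap S S' '' Set.range v := by
    rw [← Set.range_comp]
    simp [T, Function.comp_def]
  refine ⟨T.card, Finset.card_image_le.trans (by simp), ?_⟩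
  refine le_of_rank_up hg (t := 1) (by rw [pow_one]) he0 hW T ?_ hc0 ?_
    (fun n => Module.length S' (S' ⧸ maximalIdeal S' ^ n)) (fun n => ?_) he
  · rw [hT]
    exact (Set.image_subset_range _ _).trans Submodule.subset_span
  · intro w hw
    rw [hT]
    induction hw using Submodule.span_induction with
    | mem x hx =>
      obtain ⟨x, rfl⟩ := hx
      rw [Algebra.smul_def, hc, ← map_mul, ← Algebra.smul_def]
      exact hsp _ _ (hcv x)
    | zero => rw [smul_zero]; exact Submodule.zero_mem _
    | add x y _ _ hx hy => rw [smul_add]; exact Submodule.add_mem _ hx hy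
    | smul a x _ hx =>
      rw [smul_comm]
      exact Submodule.smul_mem _ _ hx
  · have h1 : maximalIdeal A' ^ n • W ≤ (maximalIdeal S' ^ n).restrictScalars A' := by
      refine (Submodule.smul_mono le_rfl le_top).trans ?_
      rw [Ideal.smul_top_eq_map, Submodule.restrictScalars_le, Ideal.map_pow]
      exact Ideal.pow_right_mono (map_maximalIdeal_le _) n
    have h2 : (maximalIdeal S' ^ n).restrictScalars A' ⊔ W =
        (⊤ : Submodule S' S').restrictScalars A' := by
      rw [Submodule.restrictScalars_top, eq_top_iff]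
      intro z _
      obtain ⟨w, hw, hz⟩ := happ n z
      rw [← sub_add_cancel z w]
      exact Submodule.add_mem_sup hz hw
    refine le_trans ?_ (rl_anti_left _ h1 W)
    rw [← rl_sup, h2, rl_restrictScalars, rl_top]
    exact ENat.self_le_mul_right _ Module.length_pos.ne'

theorem loc_low {A S : Type u} [CommRing A] [CommRing S] [IsLocalRing A] [IsNoetherianRing A]
    [IsLocalRing S] [IsNoetherianRing S] [Algebra A S] [IsLocalHom (algebraMap A S)]
    (hres : Function.Surjective (algebraMap (ResidueField A) (ResidueField S))) {n0 : ℕ}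
    (hred : maximalIdeal S ^ (n0 + 1) ≤
      (maximalIdeal A).map (algebraMap A S) * maximalIdeal S ^ n0) {D : ℕ} (hg : Grow A D)
    {e0 : ℝ} (he0 : IsMult A (maximalIdeal A) D e0) {r : ℕ} (v : Fin r → S)
    (hli : LinearIndependent A v) {c : A} (hc : c ≠ 0)
    (hcv : ∀ w : S, c • w ∈ Submodule.span A (Set.range v)) {e : ℝ}
    (he : IsMult S (maximalIdeal S) D e) : r * e0 ≤ e := by
  have hpow : ∀ n : ℕ, maximalIdeal S ^ (n + n0) ≤
      (maximalIdeal A).map (algebraMap A S) ^ n * maximalIdeal S ^ n0 := by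
    intro n
    induction n with
    | zero => simp
    | succ n ih =>
      calc maximalIdeal S ^ (n + 1 + n0) = maximalIdeal S ^ (n + n0) * maximalIdeal S := by ring
        _ ≤ (maximalIdeal A).map (algebraMap A S) ^ n * maximalIdeal S ^ n0 * maximalIdeal S :=
          Ideal.mul_mono_left ih
        _ = (maximalIdeal A).map (algebraMap A S) ^ n * maximalIdeal S ^ (n0 + 1) := by ring
        _ ≤ (maximalIdeal A).map (algebraMap A S) ^ n *
            ((maximalIdeal A).map (algebraMap A S) * maximalIdeal S ^ n0) :=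
          Ideal.mul_mono_right hred
        _ = _ := by ring
  refine le_of_rank_low hg (t := 1) (by rw [pow_one]) he0 (W := ⊤) v (fun _ => trivial) hli hc
    (fun w _ => hcv w) (fun n => Module.length S (S ⧸ maximalIdeal S ^ (n + n0)))
    (fun n => length_quot_pow_ne_top (t := 1) (by rw [pow_one]) _) (fun n => ?_) ?_
  · have h1 : Module.length (ResidueField A) (ResidueField S) = 1 := by
      rw [Module.length_eq_of_surjective hres]
      exact Module.length_eq_one _ _
    rw [Ideal.smul_top_eq_map, ← Submodule.restrictScalars_top A S, rl_restrictScalars, h1,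
      mul_one, Ideal.map_pow]
    refine (rl_anti_left _ ((hpow n).trans Ideal.mul_le_left) ⊤).trans (le_of_eq ?_)
    exact rl_top _ _
  · have h1 := (he.comp (tendsto_add_atTop_nat n0)).mul (hs_tendsto_ratio (n0 : ℝ) D)
    rw [mul_one] at h1
    refine h1.congr' ?_
    filter_upwards [eventually_gt_atTop 0] with n hn
    have h2 : (n : ℝ) ≠ 0 := by positivity
    have h3 : (n : ℝ) + n0 ≠ 0 := by positivity
    simp only [Function.comp_apply, HS, Nat.cast_add, div_pow]
    field_simp

theorem mult_loc_le {S : Type u} [CommRing S] [IsLocalRing S] [IsNoetherianRing S]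
    [IsAdicComplete (maximalIdeal S) S] [Infinite (ResidueField S)] (hS : EqChar S)
    (P : Ideal S) [P.IsPrime] {f d : ℕ} (hf : ringKrullDim (S ⧸ P) = f)
    (hD : ringKrullDim S = (f + d : ℕ)) {eP eS : ℝ}
    (heP : IsMult (Localization.AtPrime P) (maximalIdeal (Localization.AtPrime P)) d eP)
    (heS : IsMult S (maximalIdeal S) (f + d) eS) : eP ≤ eS := by
  obtain ⟨g, hg⟩ := exists_coefField hS
  obtain ⟨y, hy, t, ht⟩ := exists_isRed_adapted P Ideal.IsPrime.ne_top' hf hD
  obtain ⟨φ, hC, hX⟩ := exists_psHom (maximalIdeal S) g y hy.1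
  have hyX : (fun i => φ (X i)) = y := funext hX
  have hres : Function.Surjective ((residue S).comp (φ.comp C)) := by
    intro z
    refine ⟨z, ?_⟩
    rw [RingHom.comp_apply, RingHom.comp_apply, hC]
    exact congrArg (fun ψ => ψ z) hg
  have hfin : φ.Finite := psHom_finite φ (hyX ▸ hy.isSop) hres
  have hloc : IsLocalHom φ := psHom_isLocalHom φ fun i => hX i ▸ hy.1 i
  let _ : Algebra (PS (Fin f ⊕ Fin d) (ResidueField S)) S := φ.toAlgebra
  have hφ : algebraMap (PS (Fin f ⊕ Fin d) (ResidueField S)) S = φ := rfl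
  have : Module.Finite (PS (Fin f ⊕ Fin d) (ResidueField S)) S := hfin
  have : IsLocalHom (algebraMap (PS (Fin f ⊕ Fin d) (ResidueField S)) S) := hloc
  have : IsDomain (PS (Fin f ⊕ Fin d) (ResidueField S)) := NoZeroDivisors.to_isDomain _
  have hcard : Nat.card (Fin f ⊕ Fin d) = f + d := by simp
  obtain ⟨r, v, c, -, hli, hc, hcv⟩ := exists_generic_basis
    (Module.Finite.fg_top (R := PS (Fin f ⊕ Fin d) (ResidueField S)) (M := S))
  have hlow : (r : ℝ) * 1 ≤ eS := by
    obtain ⟨n0, hn0⟩ := hy.2
    refine loc_low ?_ (n0 := n0) ?_ (grow_ps _ _ hcard) (isMult_ps _ _ hcard) v hli hc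
      (fun w => hcv w trivial) heS
    · intro z
      obtain ⟨a, rfl⟩ := hres z
      exact ⟨residue _ (C a), rfl⟩
    · rw [ps_maximalIdeal, Ideal.map_span, ← Set.range_comp]
      rw [← hyX] at hn0
      exact hn0
  let p := P.comap φ
  have hp : p.IsPrime := Ideal.comap_isPrime _ _
  have hlies : P.LiesOver p := ⟨rfl⟩
  have hdim : ringKrullDim (PS (Fin f ⊕ Fin d) (ResidueField S) ⧸ p) = f := by
    rw [← hf]
    exact le_antisymm (loc_dim_ge (FaithfulSMul.algebraMap_injective _ _)) loc_dim_le
  have hrad : maximalIdeal (PS (Fin f ⊕ Fin d) (ResidueField S)) ≤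
      (p ⊔ Ideal.span (Set.range fun i => X (Sum.inl i))).radical := by
    rw [Ideal.radical_eq_sInf, le_sInf_iff]
    rintro Q ⟨hQ, hQp⟩
    obtain ⟨Q', hPQ, hQ', rfl⟩ := Ideal.exists_ideal_over_prime_of_isIntegral Q P
      (le_sup_left.trans hQ)
    have h1 : P ⊔ Ideal.span (Set.range fun i => y (Sum.inl i)) ≤ Q' := by
      refine sup_le hPQ (Ideal.span_le.2 ?_)
      rintro _ ⟨i, rfl⟩
      have h2 : φ (X (Sum.inl i)) ∈ Q' := hQ (Ideal.mem_sup_right (Ideal.subset_span ⟨i, rfl⟩))
      rwa [hX] at h2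
    have h2 : maximalIdeal S ≤ Q' := hQ'.le_of_pow_le (ht.trans h1)
    rw [← Ideal.map_le_iff_le_comap]
    exact (map_maximalIdeal_le _).trans h2
  obtain ⟨t', ht'⟩ := Ideal.exists_pow_le_of_le_radical_of_fg hrad (IsNoetherian.noetherian _)
  obtain ⟨g', hg'⟩ := ps_loc_span p hdim ht'
  obtain ⟨hgr, e0, he0, he0'⟩ := exists_isMult_le_one g' hg'
  let _ := Localization.AtPrime.algebraOfLiesOver p P
  have : IsLocalHom (algebraMap (Localization.AtPrime p) (Localization.AtPrime P)) :=
    Localization.isLocalHom_localRingHom p P _ _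
  obtain ⟨k, hk, hk'⟩ := loc_up (A := PS (Fin f ⊕ Fin d) (ResidueField S))
    (A' := Localization.AtPrime p) (S' := Localization.AtPrime P)
    (fun a => Localization.localRingHom_to_map p P _ _ a) P
    (fun a ha => (IsLocalization.AtPrime.isUnit_to_map_iff (Localization.AtPrime p) p a).2 ha)
    hgr he0' v (c := c) (by
      rw [Ne, map_eq_zero_iff _
        (IsLocalization.injective _ p.primeCompl_le_nonZeroDivisors)]
      exact hc) (fun w => hcv w trivial) heP
  have h1 : (k : ℝ) ≤ r := by exact_mod_cast hk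
  have h2 : (k : ℝ) * e0 ≤ k * 1 := mul_le_mul_of_nonneg_left he0 (by positivity)
  linarith

end Vale.Agent.P202
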