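import Vale.Agent.P202.Desc
import Vale.Agent.P202.Loc

/-! Lech's conjecture in equal characteristic. -/

namespace Vale.Agent.P202

open IsLocalRing Filter Topology

universe u

theorem Fin0.isMult (R : Type u) [CommRing R] [IsLocalRing R] [IsNoetherianRing R]
    (hd : ringKrullDim R = 0) :
    Module.length R (R ⧸ (⊥ : Ideal R)) ≠ ⊤ ∧
      IsMult R (maximalIdeal R) 0 ((Module.length R (R ⧸ (⊥ : Ideal R))).toNat : ℝ) := by
  have : IsArtinianRing R := isArtinianRing_iff_krullDimLE_zero.2
    (ringKrullDimZero_iff_ringKrullDim_eq_zero.2 hd)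
  obtain ⟨t, ht⟩ := (isArtinianRing_iff_isNilpotent_maximalIdeal R).1 this
  refine ⟨Module.length_ne_top, tendsto_atTop_of_eventually_const (i₀ := t) fun n hn => ?_⟩
  have h1 : maximalIdeal R ^ n = ⊥ :=
    le_bot_iff.1 ((Ideal.pow_le_pow_right hn).trans ht.le)
  rw [HS, h1]
  simp

theorem exists_isMult (R : Type u) [CommRing R] [IsLocalRing R] [IsNoetherianRing R] {d : ℕ}
    (hd : ringKrullDim R = d) : ∃ e : ℝ, IsMult R (maximalIdeal R) d e := by
  cases d with
  | zero => exact ⟨_, (Fin0.isMult R hd).2⟩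
  | succ m =>
    have : IsLocalHom (algebraMap R R) := isLocalHom_id R
    obtain ⟨R', S', _, _, _, _, _, _, _, _, _, hR, -, -, hinf, -⟩ := exists_square_infinite R R
    obtain ⟨x, n0, hx, hn⟩ := exists_reduction (hR.dim_eq.trans hd)
    have hred : IsRed x := ⟨hx, n0, hn⟩
    obtain ⟨e, -, he⟩ := hred.isSop.exists_isMult
    obtain ⟨t, ht⟩ := hred.isSop.2
    refine ⟨e, ?_⟩
    rw [IsMult, ← hR.HS_eq]
    exact tendsto_HS_of_reduction (Ideal.span_le.2 (Set.range_subset_iff.2 hx)) hn ht he

variable {R S : Type u} [CommRing R] [IsLocalRing R] [IsNoetherianRing R] [CommRing S]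
  [IsLocalRing S] [IsNoetherianRing S] [Algebra R S] [IsLocalHom (algebraMap R S)]
  [Module.Flat R S]

/-- Dimension zero, any characteristic. -/
theorem lech_dim_zero (hR : ringKrullDim R = 0) (hS : ringKrullDim S = 0) : LechIneq R S := by
  intro d D eR eS hd hD heR heS
  obtain rfl : d = 0 := by
    rw [hR] at hd
    exact_mod_cast hd.symm
  obtain rfl : D = 0 := by
    rw [hS] at hD
    exact_mod_cast hD.symm
  obtain ⟨h1, h2⟩ := Fin0.isMult R hR
  obtain ⟨h3, h4⟩ := Fin0.isMult S hS
  rw [tendsto_nhds_unique heR h2, tendsto_nhds_unique heS h4]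
  have h5 := length_quot_map (R := R) (R' := S) ⊥
  rw [Ideal.map_bot] at h5
  have hne : mS R S ≠ ⊤ := (map_maximalIdeal_lt_top (algebraMap R S)).ne
  have : Nontrivial (S ⧸ mS R S) := Ideal.Quotient.nontrivial_iff.2 hne
  have h6 : 1 ≤ Module.length S (S ⧸ mS R S) := Order.one_le_iff_pos.2 Module.length_pos
  have h7 : Module.length R (R ⧸ (⊥ : Ideal R)) ≤ Module.length S (S ⧸ (⊥ : Ideal S)) := by
    rw [h5]
    exact le_mul_of_one_le_right' h6
  exact_mod_cast ENat.toNat_le_toNat h7 h3

/-- Equal dimensions, assuming the inequality for reductions after any unramified square. -/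
theorem lech_eqdim (h : EqChar R) (hd : ringKrullDim S = ringKrullDim R) : LechIneq R S := by
  obtain ⟨d0, hd0⟩ := LC.exists_dim R
  cases d0 with
  | zero => exact lech_dim_zero hd0 (hd.trans hd0)
  | succ m =>
    obtain ⟨R', S', _, _, _, _, _, _, _, _, _, hR, hS, hc, hinfR, hinfS⟩ :=
      exists_square_infinite R S
    have := hS.flat
    have := hS.isLocalHom
    obtain ⟨hloc, hflat, -⟩ := flat_of_unr_square hR hc
    refine LechIneq.of_unr hR hS ?_
    have hR' : ringKrullDim R' = (m + 1 : ℕ) := hR.dim_eq.trans hd0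
    have hS' : ringKrullDim S' = (m + 1 : ℕ) := hS.dim_eq.trans (hd.trans hd0)
    intro d D eR eS h1 h2 heR heS
    obtain rfl : d = m + 1 := by
      rw [hR'] at h1
      exact_mod_cast h1.symm
    obtain rfl : D = m + 1 := by
      rw [hS'] at h2
      exact_mod_cast h2.symm
    obtain ⟨x, n0, hx, hn⟩ := exists_reduction hR'
    obtain ⟨y, n1, hy, hn'⟩ := exists_reduction hS'
    have hxr : IsRed x := ⟨hx, n0, hn⟩
    have hyr : IsRed y := ⟨hy, n1, hn'⟩
    obtain ⟨e, -, he⟩ := hxr.isSop.exists_isMult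
    obtain ⟨e', -, he'⟩ := hyr.isSop.exists_isMult
    obtain ⟨t, ht⟩ := hxr.isSop.2
    obtain ⟨t', ht'⟩ := hyr.isSop.2
    rw [tendsto_nhds_unique heR
        (tendsto_HS_of_reduction (Ideal.span_le.2 (Set.range_subset_iff.2 hx)) hn ht he),
      tendsto_nhds_unique heS
        (tendsto_HS_of_reduction (Ideal.span_le.2 (Set.range_subset_iff.2 hy)) hn' ht' he')]
    exact lechMult_eqChar (h.map (algebraMap R R')) m x y e e' hxr hyr.isSop
      (length_fibre_ne_top_of_dim (hS'.trans hR'.symm)) he he'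

omit [IsLocalHom (algebraMap R S)] [Module.Flat R S] [IsNoetherianRing R] in
theorem exists_prime_fibre (hne : mS R S ≠ ⊤) :
    ∃ P ∈ (mS R S).minimalPrimes, ringKrullDim (S ⧸ P) = ringKrullDim (S ⧸ mS R S) := by
  have : Nontrivial (S ⧸ mS R S) := Ideal.Quotient.nontrivial_iff.2 hne
  have : IsLocalRing (S ⧸ mS R S) :=
    IsLocalRing.of_surjective' (Ideal.Quotient.mk _) Ideal.Quotient.mk_surjective
  obtain ⟨f, hf⟩ := LC.exists_dim (S ⧸ mS R S)
  have hf' := hf
  rw [ringKrullDim_quotient] at hf'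
  obtain ⟨l, hl⟩ := Order.le_krullDim_iff.1 hf'.ge
  obtain ⟨P, hP, hPl⟩ := Ideal.exists_minimalPrimes_le (I := mS R S) (J := l.head.1.asIdeal)
    l.head.2
  refine ⟨P, hP, le_antisymm ?_ ?_⟩
  · exact ringKrullDim_le_of_surjective (Ideal.Quotient.factor hP.1.2)
      (Ideal.Quotient.factor_surjective _)
  · rw [hf, ringKrullDim_quotient, Order.le_krullDim_iff]
    refine ⟨LTSeries.mk l.length (fun i => ⟨(l i).1, ?_⟩) fun i j hij => l.strictMono hij, hl⟩
    exact hPl.trans (l.head_le i)

/-- The case of a complete target with infinite residue field. -/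
theorem lech_complete [IsAdicComplete (maximalIdeal S) S] [Infinite (ResidueField S)]
    (h : EqChar R) : LechIneq R S := by
  intro d D eR eS hd hD heR heS
  have hne : mS R S ≠ ⊤ := (map_maximalIdeal_lt_top (algebraMap R S)).ne
  obtain ⟨P, hP, hdim⟩ := exists_prime_fibre hne
  have hPp : P.IsPrime := hP.1.1
  have : Nontrivial (S ⧸ mS R S) := Ideal.Quotient.nontrivial_iff.2 hne
  have : IsLocalRing (S ⧸ mS R S) :=
    IsLocalRing.of_surjective' (Ideal.Quotient.mk _) Ideal.Quotient.mk_surjective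
  obtain ⟨f, hf⟩ := LC.exists_dim (S ⧸ mS R S)
  have h1 := dim_eq_add (R := R) (R' := S)
  rw [hd, hD, hf] at h1
  obtain rfl : D = f + d := by
    have h2 : D = d + f := by exact_mod_cast h1
    omega
  have hlo : P.LiesOver (maximalIdeal R) := ⟨((maximalIdeal.isMaximal R).eq_of_le
    (Ideal.comap_ne_top _ hPp.ne_top) (Ideal.map_le_iff_le_comap.1 hP.1.2))⟩
  have hflat : Module.Flat R (Localization.AtPrime P) :=
    Module.Flat.trans R S (Localization.AtPrime P)
  have hloc : IsLocalHom (algebraMap R (Localization.AtPrime P)) := by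
    refine ((local_hom_TFAE (algebraMap R (Localization.AtPrime P))).out 0 2).2 ?_
    rw [IsScalarTower.algebraMap_eq R S (Localization.AtPrime P), ← Ideal.map_map,
      ← Localization.AtPrime.map_eq_maximalIdeal]
    exact Ideal.map_mono hP.1.2
  have hmin : P.map (Ideal.Quotient.mk (mS R S)) ∈ minimalPrimes (S ⧸ mS R S) := by
    have h3 := Ideal.minimalPrimes_map_of_surjective (f := Ideal.Quotient.mk (mS R S))
      Ideal.Quotient.mk_surjective ⊥
    rw [Ideal.map_bot, bot_sup_eq, Ideal.mk_ker] at h3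
    have h4 : P.map (Ideal.Quotient.mk (mS R S)) ∈ (⊥ : Ideal (S ⧸ mS R S)).minimalPrimes := by
      rw [h3]
      exact ⟨P, hP, rfl⟩
    exact h4
  have hdP : ringKrullDim (Localization.AtPrime P) = ringKrullDim R := by
    have := hmin.1.1
    rw [IsLocalization.AtPrime.ringKrullDim_eq_height P (Localization.AtPrime P),
      Ideal.height_eq_height_add_of_liesOver_of_hasGoingDown (maximalIdeal R) P,
      Ideal.height_eq_zero_iff.2 hmin, add_zero, maximalIdeal_height_eq_ringKrullDim]
  obtain ⟨eP, heP⟩ := exists_isMult (Localization.AtPrime P) (hdP.trans hd)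
  exact (lech_eqdim h hdP d d eR eP hd (hdP.trans hd) heR heP).trans
    (mult_loc_le (h.map (algebraMap R S)) P (hdim.trans hf) hD heP heS)

theorem lech (h : EqChar R) : LechIneq R S := by
  obtain ⟨R1, S1, _, _, _, _, _, _, _, _, _, hR, hS, hc, -, hinf⟩ := exists_square_infinite R S
  have := hS.flat
  have := hS.isLocalHom
  obtain ⟨hloc, hflat, -⟩ := flat_of_unr_square hR hc
  obtain ⟨R2, S2, _, _, _, _, _, _, _, _, _, hR', hS', hc', -, hcomp⟩ :=
    exists_square_complete R1 S1
  have := hS'.flat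
  have := hS'.isLocalHom
  obtain ⟨hloc', hflat', -⟩ := flat_of_unr_square hR' hc'
  have : Infinite (ResidueField S2) :=
    Infinite.of_injective _ (ResidueField.map (algebraMap S1 S2)).injective
  exact LechIneq.of_unr hR hS (LechIneq.of_unr hR' hS'
    (lech_complete ((h.map (algebraMap R R1)).map (algebraMap R1 R2))))

end Vale.Agent.P202
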