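import Vale.Agent.P202.Dev
import Vale.Agent.P202.HS

/-! Cohomology of the graded pieces of `DD`, and of `DD` itself. -/

namespace Vale.Agent.P202

open MvPolynomial IsLocalRing

universe u

theorem exists_uniform_smul {R : Type u} [CommRing R] [IsDomain R] {E : Type u} [AddCommGroup E]
    [Module R E] (Z B : Submodule R E) (hfg : (Z.map B.mkQ).FG)
    (h : ∀ v ∈ Z, ∃ c : R, c ≠ 0 ∧ c • v ∈ B) : ∃ c : R, c ≠ 0 ∧ ∀ v ∈ Z, c • v ∈ B := by
  have : Module.Finite R (Z.map B.mkQ) := Module.Finite.iff_fg.2 hfg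
  have ht : Module.IsTorsion R (Z.map B.mkQ) := by
    rintro ⟨_, v, hv, rfl⟩
    obtain ⟨c, hc, hcv⟩ := h v hv
    refine ⟨⟨c, mem_nonZeroDivisors_of_ne_zero hc⟩, Subtype.ext ?_⟩
    change c • B.mkQ v = 0
    rw [← map_smul]
    exact (Submodule.Quotient.mk_eq_zero B).2 hcv
  obtain ⟨c, hc1, hc2⟩ := Submodule.annihilator_top_inter_nonZeroDivisors ht
  refine ⟨c, nonZeroDivisors.ne_zero hc2, fun v hv => ?_⟩
  have h1 := congrArg Subtype.val
    (Submodule.mem_annihilator.1 hc1 ⟨B.mkQ v, v, hv, rfl⟩ Submodule.mem_top)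
  change c • B.mkQ v = 0 at h1
  rw [← map_smul] at h1
  exact (Submodule.Quotient.mk_eq_zero B).1 h1

theorem rank_aux {R : Type u} [CommRing R] [IsDomain R] {E E' : Type u} [AddCommGroup E]
    [Module R E] [AddCommGroup E'] [Module R E'] (Z : Submodule R E) (hZfg : Z.FG) (φ : E →ₗ[R] E')
    (hinj : ∀ v ∈ Z, φ v = 0 → v = 0) (T0 : Finset E')
    (hT1 : ∀ σ, ∃ c : R, c ≠ 0 ∧ c • σ ∈ Submodule.span R (T0 : Set E')) :
    ∃ (T : Finset E) (c : R), T.card ≤ T0.card ∧ c ≠ 0 ∧ (T : Set E) ⊆ Z ∧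
      ∀ v ∈ Z, c • v ∈ Submodule.span R (T : Set E) := by
  classical
  obtain ⟨I, hI1, hI2⟩ := exists_maximal_linearIndepOn R (Subtype.val : Z → _)
  choose c hc0 hc using hT1
  have hli : LinearIndependent R fun i : I => c (φ i.1.1) • φ i.1.1 := by
    rw [linearIndependent_iff']
    intro t g hg i hi
    have h1 : ∑ i ∈ t, (g i * c (φ i.1.1)) • i.1.1 = 0 := by
      refine hinj _ (Z.sum_mem fun i _ => Z.smul_mem _ i.1.2) ?_
      simpa only [map_sum, map_smul, mul_smul] using hg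
    have h2 := linearIndependent_iff'.1 hI1 t _ h1 i hi
    exact (mul_eq_zero.1 h2).resolve_right (hc0 _)
  have hcard := linearIndependent_le_span' _ hli (T0 : Set E') (by
    rintro _ ⟨i, rfl⟩
    exact hc _)
  have hfin : I.Finite := Cardinal.lt_aleph0_iff_set_finite.1
    (hcard.trans_lt (Cardinal.natCast_lt_aleph0))
  have hcard' : hfin.toFinset.card ≤ T0.card := by
    rw [← Set.ncard_eq_toFinset_card _ hfin, ← Nat.cast_le (α := Cardinal), Set.cast_ncard hfin]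
    simpa using hcard
  have hT : ((hfin.toFinset.image Subtype.val : Finset E) : Set _) = Subtype.val '' I := by simp
  obtain ⟨c', hc1, hc2⟩ := exists_uniform_smul Z (Submodule.span R (Subtype.val '' I))
    (hZfg.map _) fun v hv => by
      by_cases hvI : (⟨v, hv⟩ : Z) ∈ I
      · exact ⟨1, one_ne_zero, by
          rw [one_smul]; exact Submodule.subset_span ⟨_, hvI, rfl⟩⟩
      · exact hI2 _ hvI
  refine ⟨hfin.toFinset.image Subtype.val, c', Finset.card_image_le.trans hcard', hc1, ?_, ?_⟩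
  · rw [hT]
    rintro _ ⟨i, -, rfl⟩
    exact i.2
  · rw [hT]
    exact hc2

theorem tors_aux {R : Type u} [CommRing R] {E : Type u} [AddCommGroup E] [Module R E]
    {d : E →ₗ[R] E} {F G : ℤ → Submodule R E} {m K L : ℕ} (hL : 1 ≤ L)
    (h1 : ∀ n, hh (lenF R) d F G n * L ≤ K * (L : ℕ∞) ^ m)
    (h2 : ∀ n ∉ Finset.Icc (-(m : ℤ)) 0, hh (lenF R) d F G n = 0) :
    Good d F G ∧ (∀ n, hh (lenF R) d F G n * L ≤ ((m + 1) * K : ℕ) * (L : ℕ∞) ^ m) ∧
      |chi d F G| * L ≤ ((m + 1) * K : ℕ) * (L : ℤ) ^ m := by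
  have h3 : ∀ n, hh (lenF R) d F G n ≠ ⊤ := by
    intro n hn
    have h4 := h1 n
    rw [hn, ENat.top_mul (by exact_mod_cast (by omega : L ≠ 0)), top_le_iff] at h4
    exact ENat.natCast_ne_top (K * L ^ m) (by exact_mod_cast h4)
  have g := good_of_bounded _ h2 fun n _ => h3 n
  refine ⟨g, fun n => (h1 n).trans ?_, ?_⟩
  · gcongr
    exact Nat.le_mul_of_pos_left _ (Nat.succ_pos m)
  · have h5 := abs_chi_le_tot g
    rw [tot_eq_sum _ h2] at h5
    have h6 : ∀ n, (hh (lenF R) d F G n).toNat * L ≤ K * L ^ m := by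
      intro n
      have h4 := h1 n
      rw [← ENat.natCast_toNat (h3 n)] at h4
      exact_mod_cast h4
    have h7 := Finset.sum_le_card_nsmul (Finset.Icc (-(m : ℤ)) 0) _ _ fun n _ => h6 n
    rw [← Finset.sum_mul, Int.card_Icc, smul_eq_mul,
      show ((0 : ℤ) + 1 - -(m : ℤ)).toNat = m + 1 by omega, ← mul_assoc] at h7
    refine le_trans (mul_le_mul_of_nonneg_right h5 (Int.natCast_nonneg L)) ?_
    exact_mod_cast h7

variable {R : Type u} [CommRing R] [IsDomain R] [IsNoetherianRing R] [IsLocalRing R] {m : ℕ}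
  {x : Fin (m + 1) → R} (u : (Sig x)ˣ) (hu : (u : Sig x) = algebraMap R (Sig x) (x 0))
  (hx0 : x 0 ≠ 0) (hxl : x (Fin.last m) ≠ 0)

include hu hx0 hxl

omit [IsNoetherianRing R] in
open Classical in
theorem gr_step (I : Ideal R) (f : R) (hk : ∀ z ∈ maximalIdeal R, z * f ∈ I) :
    ∃ K : ℕ, ∀ (b : Fin m → ℤ) (s : ℤ) (L : ℕ), 1 ≤ L → (∀ j, |b j + s| < L) →
      Good (cd R m (Sig x)) (Cech fun J => I • DD x u b s J)
        (Cech fun J => (I ⊔ Ideal.span {f}) • DD x u b s J) ∧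
      (∀ n : ℤ, (n ≠ -(cdeg (Jstar (sh b s)) : ℤ) ∨ ∃ j, b j + s = -1) →
        hh (lenF R) (cd R m (Sig x)) (Cech fun J => I • DD x u b s J)
          (Cech fun J => (I ⊔ Ideal.span {f}) • DD x u b s J) n * L ≤ K * (L : ℕ∞) ^ m) ∧
      |chi (cd R m (Sig x)) (Cech fun J => I • DD x u b s J)
          (Cech fun J => (I ⊔ Ideal.span {f}) • DD x u b s J) -
        (if StepI x I f ≤ (maximalIdeal R).map (C : R →+* MvPolynomial (Fin (m + 1)) R)
          then 1 else 0) * ∏ j, (b j + s + 1)| * L ≤ K * (L : ℤ) ^ m := by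
  have hker : RingHom.ker (algebraMap R (ResidueField R)) = maximalIdeal R := ker_residue
  have hp : ∀ (b : Fin m → ℤ) (s n : ℤ), hh (lenF R) (cd R m (Sig x))
      (Cech fun J => I • DD x u b s J) (Cech fun J => (I ⊔ Ideal.span {f}) • DD x u b s J) n =
      hh (lenF (ResidueField R)) (cd (ResidueField R) m (Lau (ResidueField R) m))
        (Cech (CI ((StepI x I f).map (MvPolynomial.map (algebraMap R (ResidueField R)))) (sh b s)))
        (Cech (Cm (ResidueField R) (sh b s))) n := by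
    intro b s n
    rw [DD_piece x u hu (lenF R) hx0 hxl,
      hh_CI_map residue_surjective (isHom_StepI x I f) (by rw [hker]; exact map_C_le_StepI hk)]
  have hiff : (StepI x I f).map (MvPolynomial.map (algebraMap R (ResidueField R))) = ⊥ ↔
      StepI x I f ≤ (maximalIdeal R).map (C : R →+* MvPolynomial (Fin (m + 1)) R) := by
    rw [Ideal.map_eq_bot_iff_le_ker, MvPolynomial.ker_map, hker]
  by_cases hfree : StepI x I f ≤ (maximalIdeal R).map (C : R →+* MvPolynomial (Fin (m + 1)) R)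
  · refine ⟨0, fun b s L _ _ => ?_⟩
    simp only [hiff.2 hfree, CI_bot, cech_bot] at hp
    obtain ⟨g1, g2, -⟩ := mono_good_chi (ResidueField R) (sh b s)
    obtain ⟨g3, g4⟩ := good_chi_of_hh_mul 1 (fun n => by rw [hp b s n, Nat.cast_one, mul_one]) g1
    refine ⟨g3, fun n hn => ?_, ?_⟩
    · rw [hp, mono_hh]
      rcases hn with hn | ⟨j, hj⟩
      · simp [hn]
      · have : (Box (sh b s)).card = 0 := by
          rw [box_card_nat]
          exact Finset.prod_eq_zero (Finset.mem_univ j) (by simp only [sh, hj]; rfl)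
        simp [this]
    · rw [g4, g2, if_pos hfree]
      simp [sh]
  · obtain ⟨K, hK⟩ := tors_bound (ResidueField R) _ ((isHom_StepI x I f).map
      (algebraMap R (ResidueField R))) fun h => hfree (hiff.1 h)
    refine ⟨(m + 1) * K, fun b s L hL hb => ?_⟩
    obtain ⟨g1, g2, g3⟩ := tors_aux hL (fun n => by rw [hp b s n]; exact hK (sh b s) L hL hb n)
      fun n hn => by
        rw [hp]
        exact hh_cech_out _ _ _ n (by rw [Finset.mem_Icc] at hn; omega)
    refine ⟨g1, fun n _ => g2 n, ?_⟩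
    rwa [if_neg hfree, zero_mul, sub_zero]

theorem gr_bound {r : ℕ} {a : ℕ → Ideal R} {f : ℕ → R} (h : IsChain x r a f) :
    ∃ C : ℕ, ∀ (b : Fin m → ℤ) (s : ℤ) (L : ℕ), 1 ≤ L → (∀ j, |b j + s| < L) →
      Good (cd R m (Sig x)) (Cech (DD x u b (s + 1))) (Cech (DD x u b s)) ∧
      (∀ n : ℤ, (n ≠ -(cdeg (Jstar (sh b s)) : ℤ) ∨ ∃ j, b j + s = -1) →
        hh (lenF R) (cd R m (Sig x)) (Cech (DD x u b (s + 1))) (Cech (DD x u b s)) n * L ≤
          C * (L : ℕ∞) ^ m) ∧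
      |chi (cd R m (Sig x)) (Cech (DD x u b (s + 1))) (Cech (DD x u b s)) -
        (eChain x r a f : ℤ) * ∏ j, (b j + s + 1)| * L ≤ C * (L : ℤ) ^ m := by
  classical
  choose! K hK using fun i (hi : i < r) => gr_step u hu hx0 hxl (a i) (f i) (h.kill i hi)
  refine ⟨∑ i ∈ Finset.range r, K i, fun b s L hL hb => ?_⟩
  let F : ℕ → ℤ → Submodule R ((Fin m → Ch) → Sig x) := fun i => Cech fun J => a i • DD x u b s J
  have hF0 : Cech (DD x u b (s + 1)) = F 0 := by
    simp only [F, h.zero, ← DD_succ x u hu]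
  have hFr : Cech (DD x u b s) = F r := by
    simp only [F, h.last, Submodule.top_smul]
  have hc : ∀ i ≤ r, IsCx (cd R m (Sig x)) (F i) := fun i _ =>
    cech_isCx ((DD_cmono x u b s).smul _)
  have hle : ∀ i < r, F i ≤ F (i + 1) := fun i hi =>
    cech_mono fun J => Submodule.smul_mono_left (by rw [h.step i hi]; exact le_sup_left)
  have hS := fun i (hi : i < r) => (h.step i hi).symm ▸ hK i hi b s L hL hb
  obtain ⟨g1, g2⟩ := good_chi_chain cd_comp_cd F r hc hle fun i hi => (hS i hi).1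
  rw [hF0, hFr]
  refine ⟨g1, fun n hn => ?_, ?_⟩
  · refine le_trans (mul_le_mul_left (hh_chain_le (lenF R) cd_comp_cd F r hc hle n) _) ?_
    rw [Finset.sum_mul, Nat.cast_sum, Finset.sum_mul]
    exact Finset.sum_le_sum fun i hi => (hS i (Finset.mem_range.1 hi)).2.1 n hn
  · rw [g2, eChain, Finset.card_filter, Nat.cast_sum, Nat.cast_sum, Finset.sum_mul, Finset.sum_mul,
      ← Finset.sum_sub_distrib]
    refine le_trans (mul_le_mul_of_nonneg_right (Finset.abs_sum_le_sum_abs _ _)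
      (Int.natCast_nonneg L)) ?_
    rw [Finset.sum_mul]
    refine Finset.sum_le_sum fun i hi => ?_
    have := (hS i (Finset.mem_range.1 hi)).2.2
    simpa only [Nat.cast_ite, Nat.cast_one, Nat.cast_zero] using this

omit [IsLocalRing R] in
theorem DD_fg' (b : Fin m → ℤ) (s : ℤ) (n : ℤ) :
    ((Zc (cd R m (Sig x)) ⊥ (Cech (DD x u b s)) n).map
      (Bc (cd R m (Sig x)) ⊥ (Cech (DD x u b s)) n).mkQ).FG := by
  have h := DD_piece x u hu (fgF R) hx0 hxl b s ⊥ 1 n
  rw [dev_fg _ (isHom_StepI x ⊥ 1)] at h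
  simp only [Submodule.bot_smul, bot_sup_eq, Ideal.span_singleton_one, Submodule.top_smul] at h
  have h1 : (Cech fun _ : Fin m → Ch => (⊥ : Submodule R (Sig x))) = ⊥ := cech_bot
  rw [h1] at h
  exact rl_fgF_eq_zero_iff.1 h

theorem DD_fg (b : Fin m → ℤ) (s : ℤ) (n : ℤ) :
    ((Zc (cd R m (Sig x)) ⊥ (Cech (DD x u b s)) n).map
      (Bc (cd R m (Sig x)) ⊥ (Cech (DD x u b s)) n).mkQ).FG :=
  DD_fg' u hu hx0 hxl b s n

theorem DD_torsion (b : Fin m → ℤ) (s : ℤ) (n : ℤ) (hn : n < 0) :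
    ∃ c : R, c ≠ 0 ∧ ∀ v ∈ Zc (cd R m (Sig x)) ⊥ (Cech (DD x u b s)) n,
      c • v ∈ Bc (cd R m (Sig x)) ⊥ (Cech (DD x u b s)) n := by
  refine exists_uniform_smul _ _ (DD_fg u hu hx0 hxl b s n) fun v hv => ?_
  obtain ⟨η, h1, h2⟩ := cech_top_acyclic n hn v (cech_mono le_top n hv.1) hv.2
  choose c hc0 hc using fun J => DD_tors x u hu hx0 hxl b s J (η J)
  refine ⟨∏ J, c J, Finset.prod_ne_zero_iff.2 fun J _ => hc0 J,
    Submodule.mem_sup_right ⟨(∏ J, c J) • η, mem_cech.2 ⟨fun J _ => ?_, fun J hJ => ?_⟩, ?_⟩⟩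
  · rw [Pi.smul_apply, ← Finset.prod_erase_mul _ _ (Finset.mem_univ J), mul_smul]
    exact Submodule.smul_mem _ _ (hc J)
  · rw [Pi.smul_apply, (mem_cech.1 h1).2 J hJ, smul_zero]
  · rw [map_smul, h2]

/-- The global sections have rank at most `m!`. -/
theorem DD_rank (b : Fin m → ℤ) (s : ℤ) :
    ∃ (T : Finset ((Fin m → Ch) → Sig x)) (c : R), T.card ≤ m.factorial ∧ c ≠ 0 ∧
      (T : Set ((Fin m → Ch) → Sig x)) ⊆ Zc (cd R m (Sig x)) ⊥ (Cech (DD x u b s)) 0 ∧
      ∀ v ∈ Zc (cd R m (Sig x)) ⊥ (Cech (DD x u b s)) 0,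
        c • v ∈ Submodule.span R (T : Set ((Fin m → Ch) → Sig x)) := by
  have hfg := DD_fg u hu hx0 hxl b s 0
  have hB : Bc (cd R m (Sig x)) ⊥ (Cech (DD x u b s)) 0 = ⊥ := by
    rw [Bc, cech_eq_bot _ _ (Or.inr (by norm_num)), Submodule.map_bot, Pi.bot_apply, bot_sup_eq]
  have hZfg := Submodule.fg_of_fg_map_injective _
    (LinearMap.ker_eq_bot.1 ((Submodule.ker_mkQ _).trans hB)) hfg
  obtain ⟨T0, hT0, hT1⟩ := sig_span x hx0 hxl
  obtain ⟨T, c, h1, h2, h3, h4⟩ := rank_aux _ hZfg (LinearMap.proj fun _ => Ch.U)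
    (fun v hv h => cech_zero_eq_zero v (cech_mono le_top 0 hv.1) hv.2 h) T0 hT1
  exact ⟨T, c, h1.trans hT0, h2, h3, h4⟩

end Vale.Agent.P202
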