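import Vale.Agent.P202.HomAux

/-! The main homological inequality (decalage of the Koszul complex). -/

namespace Vale.Agent.P202

open IsLocalRing TensorProduct

universe u

variable {R0 : Type u} [CommRing R0] [IsLocalRing R0] {S : Type u} [CommRing S] [IsLocalRing S]
  [Algebra R0 S] [IsLocalHom (algebraMap R0 S)]
  {E : Type u} [AddCommGroup E] [Module R0 E]

omit [IsLocalRing S] [IsLocalHom (algebraMap R0 S)] in
theorem cc_one_eq {m : ℕ} (y : Fin (m + 1) → S) (hl : Module.length S (S ⧸ mS R0 S) ≠ ⊤) :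
    cc R0 y 1 =
      -((Module.length S (S ⧸ (mS R0 S ⊔ Ideal.span (Set.range y)))).toNat : ℤ) := by
  obtain ⟨lam, hlam⟩ := ENat.ne_top_iff_exists.1 hl
  have hsum : ∑ i ∈ Finset.Icc (1 + 1 : ℤ) ((m + 1 : ℕ) : ℤ), ((i.negOnePow : ℤˣ) : ℤ) *
      ((rl (lenF S) (mS R0 S • KT S (m + 1) i) (KT S (m + 1) i)).toNat : ℤ) = m * lam := by
    rw [← sum_negOnePow_choose m, Finset.sum_mul]
    refine Finset.sum_congr rfl fun i hi => ?_
    rw [Finset.mem_Icc] at hi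
    obtain ⟨j, rfl⟩ := Int.eq_ofNat_of_zero_le (show 0 ≤ i by omega)
    rw [rl_KT, ← hlam, ← Nat.cast_mul, ENat.toNat_natCast, Int.toNat_natCast]
    push_cast
    ring
  set Z := KT S (m + 1) 1 ⊓ (mS R0 S • KT S (m + 1) (1 - 1)).comap (kd y S) with hZ
  have hmZ : mS R0 S • KT S (m + 1) 1 ≤ Z := by
    refine le_inf Submodule.smul_le_right ?_
    rw [← Submodule.map_le_iff_le_comap, Submodule.map_smul'']
    exact smul_mono_right _ (kos_isCx y _ _ 1)
  have h1 := rl_add (lenF S) hmZ (inf_le_left : Z ≤ KT S (m + 1) 1)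
  have h1' := rl_KT (R0 := R0) (S := S) (m + 1) 1
  rw [Nat.cast_one, h1, ← hlam, Nat.choose_one_right] at h1'
  have h2 : rl (lenF S) Z (KT S (m + 1) 1) =
      rl (lenF S) (mS R0 S • KT S (m + 1) 0)
        (Kos Finset.univ (Ideal.span (Set.range y) : Submodule S S) 0) := by
    rw [hZ, inf_comm, rl_inf, rl_map, map_kd_KT_one, sub_self]
  have h3 := rl_add (lenF S) (le_sup_left : mS R0 S • KT S (m + 1) 0 ≤
      mS R0 S • KT S (m + 1) 0 ⊔ Kos Finset.univ (Ideal.span (Set.range y) : Submodule S S) 0)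
    (sup_le Submodule.smul_le_right (kos_mono _ le_top 0) : _ ≤ KT S (m + 1) 0)
  have h3' := rl_KT (R0 := R0) (S := S) (m + 1) 0
  rw [Nat.cast_zero, h3, ← hlam, Nat.choose_zero_right, rl_sup, ← h2] at h3'
  have h4 : rl (lenF S) (mS R0 S • KT S (m + 1) 0 ⊔
      Kos Finset.univ (Ideal.span (Set.range y) : Submodule S S) 0) (KT S (m + 1) 0) =
      Module.length S (S ⧸ (mS R0 S ⊔ Ideal.span (Set.range y))) := by
    unfold KT Kos
    rw [← coord_smul, ← coord_sup, rl_coord, rl_top]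
    have := card_filter_card_eq (d := m + 1) 0
    rw [Nat.cast_zero] at this
    rw [this, Nat.choose_zero_right, Nat.cast_one, one_mul,
      show mS R0 S • (⊤ : Submodule S S) = mS R0 S by simp]
    rfl
  rw [h4] at h3'
  unfold cc
  rw [hsum]
  change _ * ((rl (lenF S) (mS R0 S • KT S (m + 1) 1) Z).toNat : ℤ) + _ = _
  generalize rl (lenF S) (mS R0 S • KT S (m + 1) 1) Z = a at h1' ⊢
  generalize rl (lenF S) Z (KT S (m + 1) 1) = b at h1' h3'
  generalize Module.length S (S ⧸ (mS R0 S ⊔ Ideal.span (Set.range y))) = c at h3' ⊢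
  have ha : a ≠ ⊤ := by
    rintro rfl
    rw [top_add, ← Nat.cast_mul] at h1'
    exact ENat.natCast_ne_top _ h1'.symm
  have hb : b ≠ ⊤ := by
    rintro rfl
    rw [add_top, ← Nat.cast_mul] at h1'
    exact ENat.natCast_ne_top _ h1'.symm
  have hc : c ≠ ⊤ := by
    rintro rfl
    rw [add_top, ← Nat.cast_mul] at h3'
    exact ENat.natCast_ne_top _ h3'.symm
  lift a to ℕ using ha
  lift b to ℕ using hb
  lift c to ℕ using hc
  have e1 : a + b = (m + 1) * lam := by exact_mod_cast h1'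
  have e2 : b + c = 1 * lam := by exact_mod_cast h3'
  simp only [ENat.toNat_natCast, Int.negOnePow_one, Units.val_neg, Units.val_one]
  have e1' : (a : ℤ) + b = (m + 1) * lam := by exact_mod_cast e1
  have e2' : (b : ℤ) + c = 1 * lam := by exact_mod_cast e2
  linarith

omit [IsLocalRing S] [IsLocalHom (algebraMap R0 S)] in
theorem abs_cc_le {d : ℕ} (y : Fin d → S) (lam : ℕ) (hl : Module.length S (S ⧸ mS R0 S) = lam)
    (l : ℤ) (h1 : 0 ≤ l) : |cc R0 y l| ≤ (d + 2) * 2 ^ d * lam := by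
  have key : ∀ (i : ℤ) (a : ℕ∞), a ≤ ((2 ^ d * lam : ℕ) : ℕ∞) →
      |((i.negOnePow : ℤˣ) : ℤ) * (a.toNat : ℤ)| ≤ 2 ^ d * lam := by
    intro i a ha
    rw [abs_mul, Int.abs_negOnePow, one_mul, Nat.abs_cast]
    exact_mod_cast ENat.toNat_le_of_le_natCast ha
  unfold cc
  refine (abs_add_le _ _).trans ?_
  have k1 := key l _ (rl_sub_KT_le (R0 := R0) d l lam hl (inf_le_left :
    KT S d l ⊓ (mS R0 S • KT S d (l - 1)).comap (kd y S) ≤ _) le_rfl)
  have k2 := (Finset.abs_sum_le_sum_abs _ (Finset.Icc (l + 1) (d : ℤ))).trans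
    (Finset.sum_le_card_nsmul _ _ ((2 : ℤ) ^ d * lam)
      fun i _ => key i _ (rl_KT_le (R0 := R0) d i lam hl))
  have k3 : ((Finset.Icc (l + 1) (d : ℤ)).card : ℤ) ≤ d + 1 := by
    rw [Int.card_Icc]
    omega
  rw [nsmul_eq_mul] at k2
  have k4 : (0 : ℤ) ≤ 2 ^ d * lam := by positivity
  have k5 := mul_le_mul_of_nonneg_right k3 k4
  linarith

omit [IsLocalRing R0] [IsLocalRing S] [IsLocalHom (algebraMap R0 S)] in
/-- Rows: first index is the Koszul degree. -/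
theorem bi_fil_rows {d : ℕ} (y : Fin d → S) (δ : E →ₗ[R0] E) {D : ℤ → Submodule R0 E}
    (h : IsCx δ D) :
    Bi (sd d (δ.baseChange S)) (kd y (S ⊗[R0] E)) (kP S d (S ⊗[R0] E)) (Fil S d D) where
  map0 i j := by
    rintro _ ⟨ξ, hξ, rfl⟩
    exact sd_mem_kos δ (h j) hξ
  map1 i j := kos_isCx y _ _ i
  fix i j x hx := kP_fix hx
  kill i i' j hi x hx := kP_kill hi hx

omit [IsLocalRing R0] [IsLocalRing S] [IsLocalHom (algebraMap R0 S)] in
theorem baseChange_apply_congr (f g : E →ₗ[R0] E) (D : Submodule R0 E) (h : ∀ v ∈ D, f v = g v)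
    {η : S ⊗[R0] E} (hη : η ∈ D.baseChange S) : f.baseChange S η = g.baseChange S η := by
  have h1 : D.map (f - g) = ⊥ := by
    rw [eq_bot_iff]
    rintro _ ⟨v, hv, rfl⟩
    simp [h v hv]
  have h2 : (f - g).baseChange S η ∈ (D.map (f - g)).baseChange S := by
    rw [baseChange_map]
    exact ⟨η, hη, rfl⟩
  rw [h1, Submodule.baseChange_bot, Submodule.mem_bot, LinearMap.baseChange_sub,
    LinearMap.sub_apply, sub_eq_zero] at h2
  exact h2

omit [IsLocalRing R0] [IsLocalRing S] [IsLocalHom (algebraMap R0 S)] in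
/-- Columns: first index is the degree in `D`. -/
theorem bi_fil_cols {d : ℕ} (y : Fin d → S) (δ : E →ₗ[R0] E) (Q : ℤ → E →ₗ[R0] E)
    {D : ℤ → Submodule R0 E} (h : IsCx δ D) (hfix : ∀ n, ∀ v ∈ D n, Q n v = v)
    (hkill : ∀ n n', n' ≠ n → ∀ v ∈ D n, Q n' v = 0) :
    Bi (kd y (S ⊗[R0] E)) (sd d (δ.baseChange S))
      (fun n => ((Q n).baseChange S).compLeft (Finset (Fin d))) (fun n i => Fil S d D i n) where
  map0 n i := kos_isCx y _ _ i
  map1 n i := by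
    rintro _ ⟨ξ, hξ, rfl⟩
    exact sd_mem_kos δ (h n) hξ
  fix n i x hx := by
    funext A
    have := baseChange_apply_congr (S := S) (Q n) LinearMap.id (D n) (hfix n)
      (apply_mem_of_mem_kos hx A)
    simpa using this
  kill n n' i hn x hx := by
    funext A
    have := baseChange_apply_congr (S := S) (Q n') 0 (D n) (hkill n n' hn)
      (apply_mem_of_mem_kos hx A)
    simpa using this

/-- The decalage filtration. -/
def decT {d : ℕ} (y : Fin d → S) (D : ℤ → ℤ → Submodule R0 E) (l i n : ℤ) :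
    Submodule S (Finset (Fin d) → S ⊗[R0] E) :=
  Fil S d (D (l + i)) i n ⊓ (Fil S d (D (l + i - 1)) (i - 1) n).comap (kd y (S ⊗[R0] E))

/-- The intermediate step of the decalage filtration. -/
def decT' {d : ℕ} (y : Fin d → S) (D : ℤ → ℤ → Submodule R0 E) (l i n : ℤ) :
    Submodule S (Finset (Fin d) → S ⊗[R0] E) :=
  Fil S d (D (l + i - 1)) i n ⊔ (Fil S d (D (l + i)) (i + 1) n).map (kd y (S ⊗[R0] E))

/-- The hypotheses on the filtered complex. -/
structure FilHyp (m : ℕ) (δ : E →ₗ[R0] E) (Q : ℤ → E →ₗ[R0] E) (D : ℤ → ℤ → Submodule R0 E) :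
    Prop where
  sq : δ ∘ₗ δ = 0
  cx : ∀ l, IsCx δ (D l)
  mono : Monotone D
  hm : ∀ l n, maximalIdeal R0 • D l n ≤ D (l - 1) n
  fix : ∀ l n, ∀ v ∈ D l n, Q n v = v
  kill : ∀ l n n', n' ≠ n → ∀ v ∈ D l n, Q n' v = 0
  supp : ∀ l n, n < -(m : ℤ) ∨ 0 < n → D l n = ⊥
  good : ∀ l, Good δ (D (l - 1)) (D l)

section main

variable {m d : ℕ} {y : Fin d → S} {δ : E →ₗ[R0] E} {Q : ℤ → E →ₗ[R0] E}
  {D : ℤ → ℤ → Submodule R0 E}

omit [IsLocalRing S] [IsLocalHom (algebraMap R0 S)] in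
theorem FilHyp.fil_le (H : FilHyp m δ Q D) {l l' : ℤ} (h : l ≤ l') (i n : ℤ) :
    Fil S d (D l) i n ≤ Fil S d (D l') i n := fil_mono (H.mono h n) i

omit [IsLocalRing R0] [IsLocalRing S] [IsLocalHom (algebraMap R0 S)] in
theorem kd_kd (ξ : Finset (Fin d) → S ⊗[R0] E) : kd y _ (kd y _ ξ) = 0 :=
  LinearMap.congr_fun (kd_comp_kd y) ξ

omit [IsLocalRing R0] [IsLocalRing S] [IsLocalHom (algebraMap R0 S)] in
theorem kd_mem_fil {D : ℤ → Submodule R0 E} {i n : ℤ} {ξ : Finset (Fin d) → S ⊗[R0] E}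
    (h : ξ ∈ Fil S d D i n) : kd y _ ξ ∈ Fil S d D (i - 1) n :=
  kos_isCx y _ _ i ⟨ξ, h, rfl⟩

omit [IsLocalRing S] [IsLocalHom (algebraMap R0 S)] in
theorem FilHyp.bi_of_le (H : FilHyp m δ Q D) (X : ℤ → ℤ → Submodule S (Finset (Fin d) → S ⊗[R0] E))
    (L : ℤ → ℤ) (hX : ∀ i n, X i n ≤ Fil S d (D (L i)) i n)
    (h0 : ∀ i n, (X i n).map (sd d (δ.baseChange S)) ≤ X i (n - 1))
    (h1 : ∀ i n, (X i n).map (kd y (S ⊗[R0] E)) ≤ X (i - 1) n) :
    Bi (sd d (δ.baseChange S)) (kd y (S ⊗[R0] E)) (kP S d (S ⊗[R0] E)) X ∧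
      Bi (kd y (S ⊗[R0] E)) (sd d (δ.baseChange S))
        (fun n => ((Q n).baseChange S).compLeft (Finset (Fin d))) (fun n i => X i n) :=
  ⟨⟨h0, h1, fun i n x hx => kP_fix (hX i n hx), fun i _ n hi x hx => kP_kill hi (hX i n hx)⟩,
    ⟨fun n i => h1 i n, fun n i => h0 i n,
      fun n i x hx => (bi_fil_cols y δ Q (H.cx (L i)) (H.fix _) (H.kill _)).fix n i x (hX i n hx),
      fun n n' i hn x hx =>
        (bi_fil_cols y δ Q (H.cx (L i)) (H.fix _) (H.kill _)).kill n n' i hn x (hX i n hx)⟩⟩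

omit [IsLocalRing S] [IsLocalHom (algebraMap R0 S)] in
theorem FilHyp.bi_decT (H : FilHyp m δ Q D) (l : ℤ) :
    Bi (sd d (δ.baseChange S)) (kd y (S ⊗[R0] E)) (kP S d (S ⊗[R0] E)) (decT y D l) ∧
      Bi (kd y (S ⊗[R0] E)) (sd d (δ.baseChange S))
        (fun n => ((Q n).baseChange S).compLeft (Finset (Fin d))) (fun n i => decT y D l i n) := by
  refine H.bi_of_le _ (fun i => l + i) (fun i n => inf_le_left) ?_ ?_
  · rintro i n _ ⟨ξ, ⟨h1, h2⟩, rfl⟩
    refine ⟨sd_mem_kos δ (H.cx _ n) h1, Submodule.mem_comap.2 ?_⟩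
    rw [kd_sd]
    exact neg_mem (sd_mem_kos δ (H.cx _ n) h2)
  · rintro i n _ ⟨ξ, ⟨_, h2⟩, rfl⟩
    refine ⟨?_, Submodule.mem_comap.2 ?_⟩
    · rw [show l + (i - 1) = l + i - 1 by ring]
      exact h2
    · rw [kd_kd]
      exact zero_mem _

omit [IsLocalRing S] [IsLocalHom (algebraMap R0 S)] in
theorem FilHyp.decT'_le (H : FilHyp m δ Q D) (l : ℤ) : decT' y D l ≤ decT y D l := by
  intro i n
  refine sup_le (fun ξ hξ => ⟨H.fil_le (by omega) i n hξ, kd_mem_fil hξ⟩) ?_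
  rintro _ ⟨ξ, hξ, rfl⟩
  refine ⟨?_, Submodule.mem_comap.2 ?_⟩
  · have := kd_mem_fil (y := y) hξ
    rwa [add_sub_cancel_right] at this
  · rw [kd_kd]
    exact zero_mem _

omit [IsLocalRing R0] [IsLocalRing S] [IsLocalHom (algebraMap R0 S)] in
theorem decT_le_decT' (l : ℤ) : decT y D (l - 1) ≤ decT' y D l := by
  intro i n ξ hξ
  refine Submodule.mem_sup_left ?_
  rw [show l + i - 1 = l - 1 + i by ring]
  exact hξ.1

omit [IsLocalRing S] [IsLocalHom (algebraMap R0 S)] in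
theorem FilHyp.decT_mono (H : FilHyp m δ Q D) {l l' : ℤ} (h : l ≤ l') :
    decT y D l ≤ decT y D l' := fun i n =>
  inf_le_inf (H.fil_le (by omega) i n) (Submodule.comap_mono (H.fil_le (by omega) _ n))

omit [IsLocalRing S] [IsLocalHom (algebraMap R0 S)] in
theorem FilHyp.bi_decT' (H : FilHyp m δ Q D) (l : ℤ) :
    Bi (sd d (δ.baseChange S)) (kd y (S ⊗[R0] E)) (kP S d (S ⊗[R0] E)) (decT' y D l) ∧
      Bi (kd y (S ⊗[R0] E)) (sd d (δ.baseChange S))
        (fun n => ((Q n).baseChange S).compLeft (Finset (Fin d))) (fun n i => decT' y D l i n) := by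
  refine H.bi_of_le _ (fun i => l + i) (fun i n => (H.decT'_le l i n).trans inf_le_left) ?_ ?_
  · intro i n
    rw [decT', Submodule.map_sup]
    refine sup_le ?_ ?_
    · rintro _ ⟨ξ, hξ, rfl⟩
      exact Submodule.mem_sup_left (sd_mem_kos δ (H.cx _ n) hξ)
    · rintro _ ⟨_, ⟨ξ, hξ, rfl⟩, rfl⟩
      refine Submodule.mem_sup_right ⟨-sd d (δ.baseChange S) ξ,
        neg_mem (sd_mem_kos δ (H.cx _ n) hξ), ?_⟩
      rw [map_neg, kd_sd, neg_neg]
  · intro i n
    rw [decT', Submodule.map_sup]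
    refine sup_le ?_ ?_
    · rintro _ ⟨ξ, hξ, rfl⟩
      refine Submodule.mem_sup_right ⟨ξ, ?_, rfl⟩
      rw [show l + (i - 1) = l + i - 1 by ring, sub_add_cancel]
      exact hξ
    · rintro _ ⟨_, ⟨ξ, hξ, rfl⟩, rfl⟩
      rw [kd_kd]
      exact zero_mem _

omit [IsLocalRing S] [IsLocalHom (algebraMap R0 S)] in
theorem FilHyp.dsq (H : FilHyp m δ Q D) : dtot y δ ∘ₗ dtot y δ = 0 := by
  refine kd_add_sd_sq y _ ?_
  rw [← LinearMap.baseChange_comp, H.sq, LinearMap.baseChange_zero]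

omit [IsLocalRing R0] [IsLocalRing S] [IsLocalHom (algebraMap R0 S)] in
theorem dtot_eq : dtot y δ = sd d (δ.baseChange S) + kd y (S ⊗[R0] E) := add_comm _ _

omit [IsLocalRing S] [IsLocalHom (algebraMap R0 S)] in
theorem FilHyp.fil_eq_bot (H : FilHyp m δ Q D) (l i n : ℤ) (h : n < -(m : ℤ) ∨ 0 < n) :
    Fil S d (D l) i n = ⊥ := by
  rw [Fil, H.supp l n h, Submodule.baseChange_bot, kos_bot]
  rfl

omit [IsLocalRing S] [IsLocalHom (algebraMap R0 S)] in
theorem FilHyp.exa_decT' (H : FilHyp m δ Q D) (l : ℤ) :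
    Exa (dtot y δ) (Tot (decT y D (l - 1))) (Tot (decT' y D l)) := by
  rw [← Tot_swap (decT y D (l - 1)), ← Tot_swap (decT' y D l)]
  refine rows_exa H.dsq (H.bi_decT (l - 1)).2 (H.bi_decT' l).2
    (fun n i => decT_le_decT' l i n) (-(m : ℤ)) 0 ?_ ?_
  · intro n hn i
    rw [Finset.mem_Icc] at hn
    refine (H.decT'_le l i n).trans (inf_le_left.trans ?_)
    rw [H.fil_eq_bot _ _ _ (by omega)]
    exact bot_le
  · rintro n _ i ξ ⟨h1, h2⟩
    obtain ⟨a, ha, _, ⟨b, hb, rfl⟩, rfl⟩ := Submodule.mem_sup.1 h1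
    refine Submodule.add_mem_sup ⟨?_, Submodule.mem_comap.2 ?_⟩ ⟨b, Submodule.mem_sup_left ?_, rfl⟩
    · rw [show l - 1 + i = l + i - 1 by ring]
      exact ha
    · have h3 := (Submodule.mem_comap.1 h2).1
      rw [map_add, kd_kd, add_zero, show l - 1 + (i - 1) = l - 1 + i - 1 by ring] at h3
      exact h3
    · rw [show l + (i + 1) - 1 = l + i by ring]
      exact hb

variable [Module.Flat R0 S]

theorem FilHyp.row (H : FilHyp m δ Q D) (l i : ℤ) {N2 N1 : Submodule S (Finset (Fin d) → S)}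
    (h21 : N2 ≤ N1) (h1 : N1 ≤ KT S d i) (h2 : mS R0 S • KT S d i ≤ N2)
    {X' X : ℤ → Submodule S (Finset (Fin d) → S ⊗[R0] E)}
    (hX' : ∀ n, X' n = br N2 (D l n) ⊔ Fil S d (D (l - 1)) i n)
    (hX : ∀ n, X n = br N1 (D l n) ⊔ Fil S d (D (l - 1)) i n) (n : ℤ) :
    hh (lenF S) (sd d (δ.baseChange S)) X' X n =
      hh (lenF R0) δ (D (l - 1)) (D l) n * rl (lenF S) N2 N1 := by
  rw [hh_sd (lenF S) _ i X' X, mul_comm, funext hX', funext hX]
  · exact tens_hh _ δ H.sq (H.cx _) (H.cx _) (H.mono (by omega)) (H.hm l) h21 h1 h2 n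
      ((H.good l).1 n)
  · intro n
    rw [hX]
    exact sup_le ((TensAux.br_le_coord h1 _).trans (kos_mono _ le_top i)) (kos_mono _ le_top i)
  · intro n
    rw [hX, hX']
    exact sup_le_sup_right (br_mono h21 le_rfl) _

/-- Cycles of the Koszul complex modulo `m`. -/
abbrev ZK (R0 : Type u) [CommRing R0] [IsLocalRing R0] [Algebra R0 S] (y : Fin d → S) (i : ℤ) :
    Submodule S (Finset (Fin d) → S) :=
  KT S d i ⊓ (mS R0 S • KT S d (i - 1)).comap (kd y S)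

omit [IsLocalRing S] [IsLocalHom (algebraMap R0 S)] [Module.Flat R0 S] in
theorem smul_le_ZK (i : ℤ) : mS R0 S • KT S d i ≤ ZK R0 y i := by
  refine le_inf Submodule.smul_le_right ?_
  rw [← Submodule.map_le_iff_le_comap, Submodule.map_smul'']
  exact smul_mono_right _ (kos_isCx y _ _ i)

omit [IsLocalRing S] [IsLocalHom (algebraMap R0 S)] in
theorem FilHyp.decT_eq (H : FilHyp m δ Q D) (l i n : ℤ) :
    decT y D l i n = br (ZK R0 y i) (D (l + i) n) ⊔ Fil S d (D (l + i - 1)) i n :=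
  col _ _ (H.mono (by omega) n) (H.hm _ n) (kd y S) (kd y _) (kd_tmul y) (kos_isCx y _ _ i)

omit [IsLocalRing S] [IsLocalHom (algebraMap R0 S)] [Module.Flat R0 S] in
theorem FilHyp.fil_eq_low (H : FilHyp m δ Q D) (l i n : ℤ) :
    Fil S d (D (l - 1)) i n = br (mS R0 S • KT S d i) (D l n) ⊔ Fil S d (D (l - 1)) i n :=
  (sup_eq_right.2 (br_smul_le _ (H.hm l n))).symm

omit [IsLocalRing S] [IsLocalHom (algebraMap R0 S)] [Module.Flat R0 S] in
theorem FilHyp.fil_eq_high (H : FilHyp m δ Q D) (l i n : ℤ) :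
    Fil S d (D l) i n = br (KT S d i) (D l n) ⊔ Fil S d (D (l - 1)) i n := by
  rw [KT, Kos, br_coord]
  exact (sup_eq_left.2 (H.fil_le (by omega) i n)).symm

omit [IsLocalRing S] [IsLocalHom (algebraMap R0 S)] [Module.Flat R0 S] in
theorem FilHyp.decT'_eq (H : FilHyp m δ Q D) (l i n : ℤ) :
    decT' y D l i n = br (mS R0 S • KT S d i ⊔ (KT S d (i + 1)).map (kd y S)) (D (l + i) n) ⊔
      Fil S d (D (l + i - 1)) i n := by
  rw [br_sup_left, ← br_map_left _ _ (kd y S) (kd y _) (kd_tmul y), sup_right_comm,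
    ← H.fil_eq_low, KT, Kos, br_coord]
  rfl

theorem good_chi_of_mul {S' : Type u} [CommRing S'] {E' : Type u} [AddCommGroup E']
    [Module S' E'] {d' : E' →ₗ[S'] E'} {G' G'' : ℤ → Submodule S' E'}
    {F' F'' : ℤ → Submodule R0 E} {a : ℕ∞} (ha : a ≠ ⊤)
    (h : ∀ n, hh (lenF S') d' G' G'' n = hh (lenF R0) δ F' F'' n * a) (g : Good δ F' F'') :
    Good d' G' G'' ∧ chi d' G' G'' = (a.toNat : ℤ) * chi δ F' F'' := by
  lift a to ℕ using ha
  exact good_chi_of_hh_mul a h g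

variable {lam : ℕ}

omit [IsLocalRing R0] [IsLocalRing S] [IsLocalHom (algebraMap R0 S)] [Module.Flat R0 S] in
theorem decT_eq_bot (l i n : ℤ) (hi : i ∉ Finset.Icc (0 : ℤ) d) : decT y D l i n = ⊥ := by
  rw [Finset.mem_Icc] at hi
  rw [eq_bot_iff]
  refine inf_le_left.trans ?_
  rw [Fil, kos_eq_bot _ _ _ (by omega)]

/-- One step of the decalage filtration. -/
theorem FilHyp.step (H : FilHyp m δ Q D) (hl : Module.length S (S ⧸ mS R0 S) = lam) (l : ℤ) :
    Good (dtot y δ) (Tot (decT y D (l - 1))) (Tot (decT y D l)) ∧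
      ∀ n, hh (lenF S) (dtot y δ) (Tot (decT y D (l - 1))) (Tot (decT y D l)) n ≤
        ∑ i ∈ Finset.Icc (0 : ℤ) d,
          hh (lenF R0) δ (D (l + i - 1)) (D (l + i)) (n - i) * ((2 ^ d * lam : ℕ) : ℕ∞) := by
  have c1 : IsCx (dtot y δ) (Tot (decT y D (l - 1))) := by
    rw [dtot_eq]; exact (H.bi_decT _).1.isCx_tot
  have c2 : IsCx (dtot y δ) (Tot (decT' y D l)) := by
    rw [dtot_eq]; exact (H.bi_decT' _).1.isCx_tot
  have c3 : IsCx (dtot y δ) (Tot (decT y D l)) := by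
    rw [dtot_eq]; exact (H.bi_decT _).1.isCx_tot
  have l12 := Tot_mono (decT_le_decT' (y := y) (D := D) l)
  have l23 := Tot_mono (H.decT'_le (y := y) l)
  have hsq := H.dsq (y := y)
  have hs : ∀ i ∉ Finset.Icc (0 : ℤ) d, ∀ j, decT y D l i j ≤ decT' y D l i j := by
    intro i hi j
    rw [decT_eq_bot l i j hi]
    exact bot_le
  have hle : ∀ i, mS R0 S • KT S d i ⊔ (KT S d (i + 1)).map (kd y S) ≤ ZK R0 y i := by
    intro i
    refine sup_le (smul_le_ZK i) ?_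
    rintro _ ⟨ξ, hξ, rfl⟩
    refine ⟨?_, Submodule.mem_comap.2 ?_⟩
    · have := kos_isCx y _ _ (i + 1) ⟨ξ, hξ, rfl⟩
      rwa [add_sub_cancel_right] at this
    · rw [show kd y S (kd y S ξ) = 0 from LinearMap.congr_fun (kd_comp_kd y) ξ]
      exact zero_mem _
  have hrow := fun i => H.row (l + i) i (hle i) inf_le_left le_sup_left
    (X' := decT' y D l i) (X := decT y D l i) (H.decT'_eq l i) (H.decT_eq l i)
  have hb := fun i => rl_sub_KT_le (R0 := R0) d i lam hl (inf_le_left : ZK R0 y i ≤ _)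
    (le_sup_left : _ ≤ mS R0 S • KT S d i ⊔ (KT S d (i + 1)).map (kd y S))
  constructor
  · refine Good.trans hsq c1 c2 c3 l12 l23 (H.exa_decT' l).good ?_
    rw [dtot_eq] at hsq ⊢
    refine (rows_chi hsq (H.bi_decT' l).1 (H.bi_decT l).1 (H.decT'_le l) 0 d hs fun i _ => ?_).1
    exact (good_chi_of_mul (ne_top_of_le_ne_top (ENat.natCast_ne_top _) (hb i)) (hrow i)
      (H.good (l + i))).1
  · intro n
    rw [hh_eq_of_exa_left _ hsq c1 c2 c3 l12 l23 (H.exa_decT' l)]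
    rw [dtot_eq] at hsq ⊢
    refine (rows_le _ hsq (H.bi_decT' l).1 (H.bi_decT l).1 (H.decT'_le l) 0 d hs n).trans ?_
    refine Finset.sum_le_sum fun i _ => ?_
    rw [hrow]
    exact mul_le_mul_right (hb i) _

omit [IsLocalRing S] [IsLocalHom (algebraMap R0 S)] [Module.Flat R0 S] in
theorem FilHyp.cx_decT (H : FilHyp m δ Q D) (l : ℤ) : IsCx (dtot y δ) (Tot (decT y D l)) := by
  rw [dtot_eq]; exact (H.bi_decT _).1.isCx_tot

theorem FilHyp.steps (H : FilHyp m δ Q D) (hl : Module.length S (S ⧸ mS R0 S) = lam) (l : ℤ)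
    (M : ℕ) : Good (dtot y δ) (Tot (decT y D l)) (Tot (decT y D (l + M))) ∧
      ∀ (n : ℤ) (η : ℕ), (∀ a i : ℤ, 1 ≤ a → a ≤ M → 0 ≤ i → i ≤ d →
        hh (lenF R0) δ (D (l + a + i - 1)) (D (l + a + i)) (n - i) ≤ η) →
        hh (lenF S) (dtot y δ) (Tot (decT y D l)) (Tot (decT y D (l + M))) n ≤
          ((M * ((d + 1) * (η * (2 ^ d * lam))) : ℕ) : ℕ∞) := by
  have hmono : ∀ i < M, Tot (decT y D (l + (i : ℕ))) ≤ Tot (decT y D (l + ((i + 1 : ℕ) : ℤ))) :=
    fun i _ => Tot_mono (H.decT_mono (by push_cast; omega))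
  have e : ∀ i : ℕ, l + (i : ℤ) = l + ((i + 1 : ℕ) : ℤ) - 1 := fun i => by push_cast; ring
  constructor
  · have := (good_chi_chain H.dsq (fun a : ℕ => Tot (decT y D (l + a))) M
      (fun i _ => H.cx_decT _) hmono (fun i _ => by
        rw [e i]
        exact (H.step hl _).1)).1
    simpa using this
  · intro n η hη
    have := hh_chain_le (lenF S) H.dsq (fun a : ℕ => Tot (decT y D (l + a))) M
      (fun i _ => H.cx_decT _) hmono n
    simp only [Nat.cast_zero, add_zero] at this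
    refine this.trans ?_
    refine (Finset.sum_le_card_nsmul _ _ (((d + 1) * (η * (2 ^ d * lam)) : ℕ) : ℕ∞)
      fun a ha => ?_).trans (by simp)
    rw [Finset.mem_range] at ha
    have h1 := (H.step (y := y) hl (l + ((a + 1 : ℕ) : ℤ))).2 n
    rw [← e a] at h1
    refine h1.trans ?_
    refine (Finset.sum_le_card_nsmul _ _ ((η * (2 ^ d * lam) : ℕ) : ℕ∞) fun i hi => ?_).trans ?_
    · rw [Finset.mem_Icc] at hi
      rw [Nat.cast_mul η]
      exact mul_le_mul_left (hη _ i (by omega) (by omega) hi.1 hi.2) _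
    · rw [Int.card_Icc, show ((d : ℤ) + 1 - 0).toNat = d + 1 by omega]
      simp

omit [IsLocalRing S] [IsLocalHom (algebraMap R0 S)] [Module.Flat R0 S] in
/-- The staircase. -/
theorem FilHyp.stair (H : FilHyp m δ Q D) (M1 : ℕ) {r : ℕ} (z : Fin r → R0)
    (γ : Fin r → E →ₗ[R0] E) (hz : ∀ i, algebraMap R0 S (z i) ∈ Ideal.span (Set.range y))
    (hγ : ∀ v, ∑ i, z i • γ i v = v) (hγD : ∀ i l n, (D (l - M1) n).map (γ i) ≤ D l n) (l n : ℤ) :
    Zc (dtot y δ) ⊥ (Tot (decT y D l)) n ≤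
      Bc (dtot y δ) ⊥ (Tot (decT y D (l + ((m + 1) * M1 : ℕ)))) n := by
  have key := Vale.Agent.P202.stair (H.dsq (y := y))
    (fun a n i => decT y D (l + ((m + 1) * M1 : ℕ) - a * M1) i n)
    (fun a => (H.bi_decT _).2)
    (fun a n i => H.decT_mono (by push_cast; nlinarith [Int.natCast_nonneg M1]) i n)
    (-(m : ℤ)) 0 ?_ ?_ (m + 1) (by push_cast; omega) n
  · rw [Tot_swap (decT y D _), Tot_swap (decT y D _)] at key
    rw [show l + ((m + 1) * M1 : ℕ) - ((m + 1 : ℕ) : ℤ) * M1 = l by push_cast; ring,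
      show l + ((m + 1) * M1 : ℕ) - ((0 : ℕ) : ℤ) * M1 = l + ((m + 1) * M1 : ℕ) by simp] at key
    exact key
  · intro a n hn i
    rw [Finset.mem_Icc] at hn
    rw [eq_bot_iff]
    refine inf_le_left.trans ?_
    rw [H.fil_eq_bot _ _ _ (by omega)]
  · intro a n i ξ hξ h0
    set L := l + ((m + 1) * M1 : ℕ) - a * M1 with hL
    have hξ1 : ξ ∈ Fil S d (D (L + i - M1)) i n := by
      have := hξ.1
      rwa [show l + ((m + 1) * M1 : ℕ) - ((a + 1 : ℕ) : ℤ) * M1 + i = L + i - M1 by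
        rw [hL]; push_cast; ring] at this
    have hsum : ξ = ∑ j, algebraMap R0 S (z j) • ((γ j).baseChange S).compLeft _ ξ := by
      have h1 : (∑ j, z j • γ j) = LinearMap.id := by
        ext v
        simpa using hγ v
      have h2 : (∑ j, z j • γ j).baseChange S = ∑ j, z j • (γ j).baseChange S := by
        rw [← LinearMap.baseChangeHom_apply, map_sum]
        simp
      funext A
      have h3 := LinearMap.congr_fun h2 (ξ A)
      rw [h1, LinearMap.baseChange_id, LinearMap.id_apply] at h3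
      rw [h3]
      simp [Finset.sum_apply]
    have hB : ξ ∈ (Fil S d (D (L + i)) (i + 1) n).map (kd y (S ⊗[R0] E)) := by
      rw [hsum]
      refine Submodule.sum_mem _ fun j _ => ?_
      have h1 : ((γ j).baseChange S).compLeft _ ξ ∈ Zc (kd y (S ⊗[R0] E))
          (Kos Finset.univ ⊥) (Kos Finset.univ ((D (L + i) n).baseChange S)) i := by
        refine ⟨compLeft_mem_kos (γ j) (hγD j _ n) hξ1, Submodule.mem_comap.2 ?_⟩
        rw [← kd_compLeft, h0, map_zero]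
        exact zero_mem _
      have h2 := smul_mem_map_kd y Finset.univ ⊥ _ i (algebraMap R0 S (z j))
        (by simpa using hz j) h1
      rw [Bc, kos_bot, Pi.bot_apply, bot_sup_eq] at h2
      exact h2
    obtain ⟨b, hb, rfl⟩ := hB
    refine ⟨b, ⟨H.fil_le (by omega) _ n hb, Submodule.mem_comap.2 ?_⟩, rfl⟩
    have := kd_mem_fil (y := y) hb
    rwa [show L + (i + 1) - 1 = L + i by ring]

omit [IsLocalRing S] [IsLocalHom (algebraMap R0 S)] [Module.Flat R0 S] in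
theorem FilHyp.fil_le_decT (H : FilHyp m δ Q D) : Fil S d (D 0) ≤ decT y D 0 := by
  intro i n ξ hξ
  rcases lt_trichotomy i 0 with h | rfl | h
  · rw [Fil, kos_eq_bot _ _ _ (Or.inl h)] at hξ
    rw [(Submodule.mem_bot S).1 hξ]
    exact zero_mem _
  · refine ⟨by simpa using hξ, Submodule.mem_comap.2 ?_⟩
    have := kd_mem_fil (y := y) hξ
    rw [Fil, kos_eq_bot _ _ _ (Or.inl (by norm_num))] at this
    rw [(Submodule.mem_bot S).1 this]
    exact zero_mem _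
  · exact ⟨H.fil_le (by omega) i n hξ, H.fil_le (by omega) _ n (kd_mem_fil hξ)⟩

theorem FilHyp.row_chi (H : FilHyp m δ Q D) (hl : Module.length S (S ⧸ mS R0 S) = lam) (i : ℕ) :
    Good (sd d (δ.baseChange S)) (Fil S d (D 0) (i + 1 : ℕ)) (decT y D 0 (i + 1 : ℕ)) ∧
      chi (sd d (δ.baseChange S)) (Fil S d (D 0) (i + 1 : ℕ)) (decT y D 0 (i + 1 : ℕ)) =
        ∑ l ∈ Finset.range i, ((rl (lenF S) (mS R0 S • KT S d (i + 1 : ℕ))
          (KT S d (i + 1 : ℕ))).toNat : ℤ) * chi δ (D ((l + 1 : ℕ) - 1)) (D (l + 1 : ℕ)) +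
        ((rl (lenF S) (mS R0 S • KT S d (i + 1 : ℕ)) (ZK R0 y (i + 1 : ℕ))).toNat : ℤ) *
          chi δ (D ((i + 1 : ℕ) - 1)) (D (i + 1 : ℕ)) := by
  set j : ℤ := ((i + 1 : ℕ) : ℤ) with hj
  have hsq : sd d (δ.baseChange S) ∘ₗ sd d (δ.baseChange S) = 0 := by
    have := kd_add_sd_sq (d := d) (M := S ⊗[R0] E) (fun _ => (0 : S)) (δ.baseChange S)
      (by rw [← LinearMap.baseChange_comp, H.sq, LinearMap.baseChange_zero])
    have h0 : kd (fun _ : Fin d => (0 : S)) (S ⊗[R0] E) = 0 := by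
      refine LinearMap.ext fun ξ => funext fun A => ?_
      simp [kd_apply]
    rwa [h0, zero_add] at this
  have cx : ∀ l, IsCx (sd d (δ.baseChange S)) (Fil S d (D l) j) :=
    fun l n => (bi_fil_rows y δ (H.cx l)).map0 j n
  have h1 : ∀ l : ℕ, Good (sd d (δ.baseChange S)) (Fil S d (D l) j) (Fil S d (D (l + 1 : ℕ)) j) ∧
      chi (sd d (δ.baseChange S)) (Fil S d (D l) j) (Fil S d (D (l + 1 : ℕ)) j) =
        ((rl (lenF S) (mS R0 S • KT S d j) (KT S d j)).toNat : ℤ) *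
          chi δ (D ((l + 1 : ℕ) - 1)) (D (l + 1 : ℕ)) := by
    intro l
    refine good_chi_of_mul (ne_top_of_le_ne_top (ENat.natCast_ne_top _) (rl_KT_le d j lam hl))
      (H.row _ j Submodule.smul_le_right le_rfl le_rfl (fun n => ?_) (H.fil_eq_high _ j))
      (H.good _)
    rw [← H.fil_eq_low]
    simp
  have h2 := good_chi_chain hsq (fun l : ℕ => Fil S d (D l) j) i (fun l _ => cx l)
    (fun l _ n => H.fil_le (by omega) j n) (fun l _ => (h1 l).1)
  have h3 : Good (sd d (δ.baseChange S)) (Fil S d (D i) j) (decT y D 0 j) ∧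
      chi (sd d (δ.baseChange S)) (Fil S d (D i) j) (decT y D 0 j) =
        ((rl (lenF S) (mS R0 S • KT S d j) (ZK R0 y j)).toNat : ℤ) * chi δ (D (j - 1)) (D j) := by
    refine good_chi_of_mul (ne_top_of_le_ne_top (ENat.natCast_ne_top _)
      (rl_sub_KT_le d j lam hl inf_le_left le_rfl))
      (H.row _ j (smul_le_ZK j) inf_le_left le_rfl (fun n => ?_) (fun n => ?_)) (H.good _)
    · rw [← H.fil_eq_low, hj]
      simp
    · rw [H.decT_eq, zero_add]
  have c3 : IsCx (sd d (δ.baseChange S)) (decT y D 0 j) := fun n => (H.bi_decT 0).1.map0 j n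
  have l12 : Fil S d (D 0) j ≤ Fil S d (D i) j := fun n => H.fil_le (by omega) j n
  have l23 : Fil S d (D i) j ≤ decT y D 0 j := fun n ξ hξ =>
    ⟨H.fil_le (by omega) j n hξ, H.fil_le (by omega) _ n (kd_mem_fil hξ)⟩
  simp only [Nat.cast_zero] at h2
  refine ⟨Good.trans hsq (cx 0) (cx i) c3 l12 l23 h2.1 h3.1, ?_⟩
  rw [chi_add hsq (cx 0) (cx i) c3 l12 l23 h2.1 h3.1, h2.2, h3.2]
  congr 1
  exact Finset.sum_congr rfl fun l _ => (h1 l).2

theorem sum_Icc_one (d : ℕ) (f : ℤ → ℤ) :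
    ∑ i ∈ Finset.Icc (1 : ℤ) d, f i = ∑ i ∈ Finset.range d, f ((i + 1 : ℕ) : ℤ) := by
  symm
  refine Finset.sum_bij (fun k _ => ((k + 1 : ℕ) : ℤ)) ?_ ?_ ?_ ?_
  · intro k hk
    rw [Finset.mem_range] at hk
    rw [Finset.mem_Icc]
    omega
  · intro a _ b _ hab
    omega
  · intro b hb
    rw [Finset.mem_Icc] at hb
    exact ⟨(b - 1).toNat, by rw [Finset.mem_range]; omega, by omega⟩
  · intro k _
    rfl

theorem FilHyp.chi_fil_decT (H : FilHyp m δ Q D) (hl : Module.length S (S ⧸ mS R0 S) = lam) :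
    Good (dtot y δ) (Tot (Fil S d (D 0))) (Tot (decT y D 0)) ∧
      chi (dtot y δ) (Tot (Fil S d (D 0))) (Tot (decT y D 0)) =
        ∑ l ∈ Finset.Icc (1 : ℤ) d, cc R0 y l * chi δ (D (l - 1)) (D l) := by
  have hsq := H.dsq (y := y)
  rw [dtot_eq] at hsq ⊢
  have e0 : Exa (sd d (δ.baseChange S)) (Fil S d (D 0) 0) (decT y D 0 0) := by
    intro n ξ hξ
    exact Submodule.mem_sup_left (by simpa using hξ.1.1)
  have key := rows_chi hsq (bi_fil_rows y δ (H.cx 0)) (H.bi_decT 0).1 H.fil_le_decT 0 d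
    (fun i hi j => by rw [decT_eq_bot 0 i j hi]; exact bot_le) (fun i hi => by
      rw [Finset.mem_Icc] at hi
      rcases eq_or_lt_of_le hi.1 with rfl | h
      · exact e0.good
      · have := (H.row_chi (y := y) hl (i - 1).toNat).1
        rwa [show (((i - 1).toNat + 1 : ℕ) : ℤ) = i by omega] at this)
  refine ⟨key.1, ?_⟩
  rw [key.2, ← Finset.insert_Icc_add_one_left_eq_Icc (by omega), Finset.sum_insert (by simp),
    e0.chi, mul_zero, zero_add, zero_add]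
  have hrow : ∀ i ∈ Finset.Icc (1 : ℤ) d,
      ((i.negOnePow : ℤˣ) : ℤ) * chi (sd d (δ.baseChange S)) (Fil S d (D 0) i) (decT y D 0 i) =
      ∑ l ∈ Finset.Icc (1 : ℤ) (i - 1), ((i.negOnePow : ℤˣ) : ℤ) *
        ((rl (lenF S) (mS R0 S • KT S d i) (KT S d i)).toNat : ℤ) * chi δ (D (l - 1)) (D l) +
      ((i.negOnePow : ℤˣ) : ℤ) * ((rl (lenF S) (mS R0 S • KT S d i) (ZK R0 y i)).toNat : ℤ) *
        chi δ (D (i - 1)) (D i) := by
    intro i hi
    rw [Finset.mem_Icc] at hi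
    obtain ⟨j, rfl⟩ : ∃ j : ℕ, i = ((j + 1 : ℕ) : ℤ) := ⟨(i - 1).toNat, by omega⟩
    rw [(H.row_chi hl j).2, show ((j + 1 : ℕ) : ℤ) - 1 = (j : ℤ) by simp, sum_Icc_one, mul_add,
      Finset.mul_sum]
    simp only [mul_assoc]
  rw [Finset.sum_congr rfl hrow, Finset.sum_add_distrib,
    Finset.sum_comm' (t' := Finset.Icc (1 : ℤ) d) (s' := fun l => Finset.Icc (l + 1) (d : ℤ))
      (fun i l => by simp only [Finset.mem_Icc]; omega), ← Finset.sum_add_distrib]
  refine Finset.sum_congr rfl fun l _ => ?_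
  unfold cc
  rw [add_mul, Finset.sum_mul, add_comm]

end main

variable [Module.Flat R0 S]

theorem hom_main {m : ℕ} (y : Fin (m + 1) → S) (lam : ℕ)
    (hl : Module.length S (S ⧸ mS R0 S) = lam)
    (δ : E →ₗ[R0] E) (hδ : δ ∘ₗ δ = 0) (Q : ℤ → E →ₗ[R0] E) (D : ℤ → ℤ → Submodule R0 E)
    (hcx : ∀ l, IsCx δ (D l)) (hmono : Monotone D)
    (hm : ∀ l n, maximalIdeal R0 • D l n ≤ D (l - 1) n)
    (hfix : ∀ l n, ∀ v ∈ D l n, Q n v = v)
    (hkill : ∀ l n n', n' ≠ n → ∀ v ∈ D l n, Q n' v = 0)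
    (hsupp : ∀ l n, n < -(m : ℤ) ∨ 0 < n → D l n = ⊥)
    (M1 : ℕ) {r : ℕ} (z : Fin r → R0) (γ : Fin r → E →ₗ[R0] E)
    (hz : ∀ i, algebraMap R0 S (z i) ∈ Ideal.span (Set.range y))
    (hγ : ∀ v, ∑ i, z i • γ i v = v)
    (hγD : ∀ i l n, (D (l - M1) n).map (γ i) ≤ D l n)
    (hgood : ∀ l, Good δ (D (l - 1)) (D l)) (η : ℕ)
    (hη1 : ∀ l n : ℤ, -(((m + 1) * M1 : ℕ) : ℤ) < l → l ≤ (m + 1 : ℕ) → max l 0 < -n →
      hh (lenF R0) δ (D (l - 1)) (D l) n ≤ η)
    (hη2 : ∀ l n : ℤ, 0 < l → l ≤ ((m + 1) + (m + 1) * M1 : ℕ) →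
      -n ≤ min (l - 1) (m + 1 : ℕ) - 2 → hh (lenF R0) δ (D (l - 1)) (D l) n ≤ η) :
    Good (dtot y δ) ⊥ (Tot (Fil S (m + 1) (D 0))) ∧
      -(((2 * m + 3) * (m + 2) * (2 ^ (m + 1) * lam) * ((m + 1) * (M1 + 1) + 1) * η : ℕ) : ℤ) ≤
        chi (dtot y δ) ⊥ (Tot (Fil S (m + 1) (D 0))) +
          ∑ l ∈ Finset.Icc (1 : ℤ) (m + 1 : ℕ), cc R0 y l * chi δ (D (l - 1)) (D l) := by
  have H : FilHyp m δ Q D := ⟨hδ, hcx, hmono, hm, hfix, hkill, hsupp, hgood⟩
  set M : ℕ := (m + 1) * M1 with hM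
  have hsq := H.dsq (y := y)
  have st := H.stair (y := y) M1 z γ hz hγ hγD
  have low : ∀ n, hh (lenF S) (dtot y δ) ⊥ (Tot (decT y D 0)) n ≤
      hh (lenF S) (dtot y δ) (Tot (decT y D (-M))) (Tot (decT y D (-M + M))) n := by
    intro n
    have := hh_le_quot_of_zero (lenF S) hsq isCx_bot (H.cx_decT (-M)) (H.cx_decT (-M + M)) bot_le
      (Tot_mono (H.decT_mono (by omega))) n (st _ n)
    rwa [show Tot (decT y D 0) = Tot (decT y D (-M + M)) by simp]
  have high : ∀ n, hh (lenF S) (dtot y δ) ⊥ (Tot (decT y D 0)) n ≤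
      hh (lenF S) (dtot y δ) (Tot (decT y D 0)) (Tot (decT y D (0 + M))) (n + 1) := fun n =>
    hh_sub_le_of_zero (lenF S) hsq isCx_bot (H.cx_decT 0) (H.cx_decT (0 + M)) bot_le
      (Tot_mono (H.decT_mono (by omega))) n (st _ n)
  have h0 : ∀ n ∉ Finset.Icc (-(m : ℤ)) (m + 1),
      hh (lenF S) (dtot y δ) ⊥ (Tot (decT y D 0)) n = 0 := by
    intro n hn
    rw [Finset.mem_Icc] at hn
    refine hh_eq_zero_of_le _ n (iSup_le fun i => ?_)
    by_cases hi : i ∈ Finset.Icc (0 : ℤ) (m + 1 : ℕ)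
    · rw [Finset.mem_Icc] at hi
      refine inf_le_left.trans ?_
      rw [H.fil_eq_bot _ _ _ (by push_cast at hi; omega)]
      exact bot_le
    · rw [decT_eq_bot _ _ _ hi]
      exact bot_le
  have g0 : Good (dtot y δ) ⊥ (Tot (decT y D 0)) :=
    good_of_bounded _ h0 fun n _ => ne_top_of_le_ne_top ((H.steps hl (-M) M).1.1 n) (low n)
  have hb := neg_le_chi (Finset.Icc (-(m : ℤ)) (m + 1))
    (M * ((m + 1 + 1) * (η * (2 ^ (m + 1) * lam)))) h0 (fun n _ hn => by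
      rcases lt_or_gt_of_ne hn with h | h
      · refine (low n).trans ((H.steps hl (-M) M).2 n η fun a i h1 h2 h3 h4 => ?_)
        exact hη1 _ _ (by omega) (by omega) (by omega)
      · refine (high n).trans ((H.steps hl 0 M).2 (n + 1) η fun a i h1 h2 h3 h4 => ?_)
        exact hη2 _ _ (by omega) (by push_cast at h4 ⊢; omega) (by omega))
  have c2 : IsCx (dtot y δ) (Tot (Fil S (m + 1) (D 0))) := by
    rw [dtot_eq]; exact (bi_fil_rows y δ (hcx 0)).isCx_tot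
  have l23 := Tot_mono (H.fil_le_decT (y := y))
  obtain ⟨g23, e23⟩ := H.chi_fil_decT (y := y) hl
  have g12 := Good.left hsq isCx_bot c2 (H.cx_decT 0) bot_le l23 g0 g23
  refine ⟨g12, ?_⟩
  rw [← e23, ← chi_add hsq isCx_bot c2 (H.cx_decT 0) bot_le l23 g12 g23]
  refine le_trans ?_ hb
  rw [Int.card_Icc, show ((m : ℤ) + 1 + 1 - -(m : ℤ)).toNat = 2 * m + 2 by omega, neg_le_neg_iff,
    ← Nat.cast_mul, Nat.cast_le, hM]
  calc (2 * m + 2) * ((m + 1) * M1 * ((m + 1 + 1) * (η * (2 ^ (m + 1) * lam))))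
      = (2 * m + 2) * (m + 2) * (2 ^ (m + 1) * lam) * ((m + 1) * M1) * η := by ring
    _ ≤ _ := by gcongr <;> nlinarith

end Vale.Agent.P202
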