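import Vale.Agent.P202.Kos

/-! Tensor products `N ⊗ (D / D')` of residue field vector spaces. -/

namespace Vale.Agent.P202

open IsLocalRing TensorProduct

universe u

variable {R0 : Type u} [CommRing R0] [IsLocalRing R0] {S : Type u} [CommRing S] [Algebra R0 S]
  {E : Type u} [AddCommGroup E] [Module R0 E] {ι : Type} [Fintype ι]

namespace TensAux

/-- tensoring coordinatewise with a fixed vector -/
noncomputable def tv (R0 : Type u) [CommRing R0] (S : Type u) [CommRing S] [Algebra R0 S]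
    {E : Type u} [AddCommGroup E] [Module R0 E] (ι : Type) (v : E) :
    (ι → S) →ₗ[S] (ι → S ⊗[R0] E) where
  toFun ξ := fun A => ξ A ⊗ₜ[R0] v
  map_add' ξ ξ' := by funext A; simp [add_tmul]
  map_smul' c ξ := by funext A; simp [smul_tmul']

omit [IsLocalRing R0] [Fintype ι] in
theorem tv_apply (v : E) (ξ : ι → S) (A : ι) : tv R0 S ι v ξ A = ξ A ⊗ₜ[R0] v := rfl

omit [IsLocalRing R0] [Fintype ι] in
theorem tv_mem {N : Submodule S (ι → S)} {D : Submodule R0 E} {ξ : ι → S} {v : E} (h : ξ ∈ N)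
    (h' : v ∈ D) : tv R0 S ι v ξ ∈ br N D :=
  Submodule.subset_span ⟨ξ, h, v, h', rfl⟩

omit [IsLocalRing R0] [Fintype ι] in
theorem br_le {N : Submodule S (ι → S)} {D : Submodule R0 E} {G : Submodule S (ι → S ⊗[R0] E)}
    (h : ∀ ξ ∈ N, ∀ v ∈ D, tv R0 S ι v ξ ∈ G) : br N D ≤ G := by
  refine Submodule.span_le.2 ?_
  rintro _ ⟨ξ, h1, v, h2, rfl⟩
  exact h ξ h1 v h2

omit [IsLocalRing R0] [Fintype ι] in
theorem tv_add (v w : E) (ξ : ι → S) : tv R0 S ι (v + w) ξ = tv R0 S ι v ξ + tv R0 S ι w ξ := by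
  funext A; simp [tv_apply, tmul_add]

omit [IsLocalRing R0] [Fintype ι] in
theorem tv_smul (r : R0) (v : E) (ξ : ι → S) :
    tv R0 S ι (r • v) ξ = tv R0 S ι v (algebraMap R0 S r • ξ) := by
  funext A
  rw [tv_apply, tv_apply, Pi.smul_apply, smul_eq_mul, ← smul_tmul, Algebra.smul_def]

end TensAux

open TensAux

omit [IsLocalRing R0] [Fintype ι] in
theorem br_mono {N N' : Submodule S (ι → S)} {D D' : Submodule R0 E} (h : N ≤ N') (h' : D ≤ D') :
    br N D ≤ br N' D' := by
  exact br_le fun ξ h1 v h2 => tv_mem (h h1) (h' h2)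

omit [IsLocalRing R0] in
theorem br_coord (p : ι → Prop) [DecidablePred p] (D : Submodule R0 E) :
    br (Coord p (⊤ : Submodule S S)) D = Coord p (D.baseChange S) := by
  classical
  apply le_antisymm
  · refine br_le fun ξ h1 v h2 => mem_coord.2 ⟨fun A _ => ?_, fun A hA => ?_⟩
    · exact Submodule.tmul_mem_baseChange_of_mem _ h2
    · rw [tv_apply, (mem_coord.1 h1).2 A hA, zero_tmul]
  · intro η hη
    rw [mem_coord] at hη
    rw [← Finset.univ_sum_single η]
    refine Submodule.sum_mem _ fun A _ => ?_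
    by_cases hA : p A
    · have h1 := hη.1 A hA
      rw [Submodule.baseChange_eq_span] at h1
      have h2 : Submodule.span S (D.map (TensorProduct.mk R0 S E 1) : Set (S ⊗[R0] E)) ≤
          (br (Coord p (⊤ : Submodule S S)) D).comap (LinearMap.single S (fun _ => S ⊗[R0] E) A) := by
        refine Submodule.span_le.2 ?_
        rintro _ ⟨v, hv, rfl⟩
        have h3 : (Pi.single A (1 : S) : ι → S) ∈ Coord p (⊤ : Submodule S S) :=
          mem_coord.2 ⟨fun _ _ => trivial, fun B hB => Pi.single_eq_of_ne (fun e : B = A => hB (e ▸ hA)) _⟩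
        have h4 : LinearMap.single S (fun _ => S ⊗[R0] E) A (TensorProduct.mk R0 S E 1 v) =
            tv R0 S ι v (Pi.single A 1) := by
          funext B
          by_cases hB : B = A
          · subst hB; simp [tv_apply]
          · simp [tv_apply, Pi.single_eq_of_ne hB]
        rw [SetLike.mem_coe, Submodule.mem_comap, h4]
        exact tv_mem h3 hv
      exact h2 h1
    · rw [hη.2 A hA, Pi.single_zero]
      exact Submodule.zero_mem _

theorem br_smul_le (p : ι → Prop) [DecidablePred p] {D D' : Submodule R0 E}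
    (h : maximalIdeal R0 • D ≤ D') :
    br (mS R0 S • Coord p (⊤ : Submodule S S)) D ≤ Coord p (D'.baseChange S) := by
  refine br_le fun ξ h1 v h2 => ?_
  have h3 : tv R0 S ι v ξ ∈ (mS R0 S • Coord p (⊤ : Submodule S S)).map (tv R0 S ι v) :=
    Submodule.mem_map_of_mem h1
  rw [Submodule.map_smul''] at h3
  have h4 : (Coord p (⊤ : Submodule S S)).map (tv R0 S ι v) ≤ Coord p (D.baseChange S) := by
    rw [← br_coord]
    rintro _ ⟨ξ', h5, rfl⟩
    exact tv_mem h5 h2
  have h5 := Submodule.smul_mono le_rfl h4 h3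
  rw [← coord_smul, ← baseChange_smul] at h5
  exact coord_mono p (Submodule.baseChange_mono S h) h5

omit [IsLocalRing R0] [Fintype ι] in
theorem br_map_compLeft (N : Submodule S (ι → S)) (D : Submodule R0 E) (δ : E →ₗ[R0] E) :
    (br N D).map ((δ.baseChange S).compLeft ι) = br N (D.map δ) := by
  have h : ∀ ξ v, (δ.baseChange S).compLeft ι (tv R0 S ι v ξ) = tv R0 S ι (δ v) ξ :=
    fun ξ v => rfl
  apply le_antisymm
  · rw [Submodule.map_le_iff_le_comap]
    refine br_le fun ξ h1 v h2 => ?_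
    rw [Submodule.mem_comap, h]
    exact tv_mem h1 (Submodule.mem_map_of_mem h2)
  · refine br_le ?_
    rintro ξ h1 _ ⟨v, h2, rfl⟩
    exact ⟨_, tv_mem h1 h2, h ξ v⟩

omit [IsLocalRing R0] [Fintype ι] in
theorem br_map_left (N : Submodule S (ι → S)) (D : Submodule R0 E) (φ : (ι → S) →ₗ[S] (ι → S))
    (φ' : (ι → S ⊗[R0] E) →ₗ[S] (ι → S ⊗[R0] E))
    (hφ : ∀ ξ v, φ' (fun A => ξ A ⊗ₜ[R0] v) = fun A => φ ξ A ⊗ₜ[R0] v) :
    (br N D).map φ' = br (N.map φ) D := by
  have h : ∀ ξ v, φ' (tv R0 S ι v ξ) = tv R0 S ι v (φ ξ) := hφ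
  apply le_antisymm
  · rw [Submodule.map_le_iff_le_comap]
    refine br_le fun ξ h1 v h2 => ?_
    rw [Submodule.mem_comap, h]
    exact tv_mem (Submodule.mem_map_of_mem h1) h2
  · refine br_le ?_
    rintro _ ⟨ξ, h1, rfl⟩ v h2
    exact ⟨_, tv_mem h1 h2, h ξ v⟩

omit [IsLocalRing R0] [Fintype ι] in
theorem kd_tmul {d : ℕ} (y : Fin d → S) (ξ : Finset (Fin d) → S) (v : E) :
    kd y (S ⊗[R0] E) (fun A => ξ A ⊗ₜ[R0] v) = fun A => kd y S ξ A ⊗ₜ[R0] v := by
  funext A
  simp only [kd_apply, sum_tmul, smul_tmul']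

namespace TensAux

omit [IsLocalRing R0] [Fintype ι] in
theorem br_sup (N : Submodule S (ι → S)) (D D' : Submodule R0 E) :
    br N (D ⊔ D') = br N D ⊔ br N D' := by
  refine le_antisymm (br_le fun ξ h1 v h2 => ?_)
    (sup_le (br_mono le_rfl le_sup_left) (br_mono le_rfl le_sup_right))
  obtain ⟨a, ha, b, hb, rfl⟩ := Submodule.mem_sup.1 h2
  rw [tv_add]
  exact Submodule.add_mem_sup (tv_mem h1 ha) (tv_mem h1 hb)

omit [IsLocalRing R0] [Fintype ι] in
theorem br_single (N : Submodule S (ι → S)) (v : E) :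
    br N (Submodule.span R0 {v}) = N.map (tv R0 S ι v) := by
  apply le_antisymm
  · refine br_le fun ξ h1 w h2 => ?_
    obtain ⟨r, rfl⟩ := Submodule.mem_span_singleton.1 h2
    rw [tv_smul]
    exact Submodule.mem_map_of_mem (N.smul_mem _ h1)
  · rintro _ ⟨ξ, h1, rfl⟩
    exact tv_mem h1 (Submodule.mem_span_singleton_self v)

omit [IsLocalRing R0] [Fintype ι] in
theorem br_split {N : Submodule S (ι → S)} {W : Submodule R0 E} {v : E} {η : ι → S ⊗[R0] E}
    (h : η ∈ br N (W ⊔ Submodule.span R0 {v})) :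
    ∃ η0 ∈ br N W, ∃ ξ ∈ N, η = η0 + tv R0 S ι v ξ := by
  rw [br_sup, br_single] at h
  obtain ⟨a, ha, _, ⟨ξ, hξ, rfl⟩, rfl⟩ := Submodule.mem_sup.1 h
  exact ⟨a, ha, ξ, hξ, rfl⟩

omit [IsLocalRing R0] in
theorem br_le_coord {p : ι → Prop} [DecidablePred p] {N : Submodule S (ι → S)}
    (h : N ≤ Coord p ⊤) (D : Submodule R0 E) : br N D ≤ Coord p (D.baseChange S) := by
  rw [← br_coord]
  exact br_mono h le_rfl

omit [IsLocalRing R0] [Fintype ι] in
theorem br_ind {N : Submodule S (ι → S)} {D0 D : Submodule R0 E} (h0 : D0 ≤ D)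
    (Q : (ι → S ⊗[R0] E) → Prop) (base : ∀ η ∈ br N D0, Q η)
    (step : ∀ W v, D0 ≤ W → W ≤ D → v ∈ D → v ∉ W → (∀ η ∈ br N W, Q η) →
      ∀ η ∈ br N (W ⊔ Submodule.span R0 {v}), Q η) : ∀ η ∈ br N D, Q η := by
  classical
  have key : ∀ T : Finset E, (T : Set E) ⊆ D →
      ∀ η ∈ br N (D0 ⊔ Submodule.span R0 (T : Set E)), Q η := by
    intro T
    induction T using Finset.induction_on with
    | empty => intro _; simpa using base
    | insert v T _ ih =>
      intro hT
      rw [Finset.coe_insert, Set.insert_subset_iff] at hT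
      rw [Finset.coe_insert, Submodule.span_insert, sup_comm (Submodule.span R0 {v}), ← sup_assoc]
      by_cases hv : v ∈ D0 ⊔ Submodule.span R0 (T : Set E)
      · rw [sup_eq_left.2 ((Submodule.span_singleton_le_iff_mem _ _).2 hv)]
        exact ih hT.2
      · exact step _ v le_sup_left (sup_le h0 (Submodule.span_le.2 hT.2)) hT.1 hv (ih hT.2)
  intro η hη
  have : ∃ T : Finset E, (T : Set E) ⊆ D ∧ η ∈ br N (D0 ⊔ Submodule.span R0 (T : Set E)) := by
    induction hη using Submodule.span_induction with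
    | mem x hx =>
      obtain ⟨ξ, h1, v, h2, rfl⟩ := hx
      exact ⟨{v}, by simpa using h2, tv_mem h1 (Submodule.mem_sup_right
        (Submodule.subset_span (by simp)))⟩
    | zero => exact ⟨∅, by simp, Submodule.zero_mem _⟩
    | add x y _ _ hx hy =>
      obtain ⟨T, h1, h2⟩ := hx
      obtain ⟨T', h1', h2'⟩ := hy
      refine ⟨T ∪ T', by rw [Finset.coe_union]; exact Set.union_subset h1 h1',
        Submodule.add_mem _ (br_mono le_rfl (sup_le_sup_left (Submodule.span_mono ?_) _) h2)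
          (br_mono le_rfl (sup_le_sup_left (Submodule.span_mono ?_) _) h2')⟩
      · simp
      · simp
    | smul c x _ hx =>
      obtain ⟨T, h1, h2⟩ := hx
      exact ⟨T, h1, Submodule.smul_mem _ _ h2⟩
  obtain ⟨T, h1, h2⟩ := this
  exact key T h1 η h2

theorem exists_hyper {W D : Submodule R0 E} (hle : W ≤ D) (hm : maximalIdeal R0 • D ≤ W) {w : E}
    (hw : w ∉ W) : ∃ W', W ≤ W' ∧ w ∉ W' ∧ D ≤ W' ⊔ Submodule.span R0 {w} := by
  obtain ⟨W', h1, h2⟩ := zorn_le_nonempty₀ {X : Submodule R0 E | W ≤ X ∧ X ≤ D ∧ w ∉ X}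
    (fun c hc hchain y hy => ⟨sSup c, ⟨(hc hy).1.trans (le_sSup hy), sSup_le fun X hX => (hc hX).2.1,
      fun h => by
        obtain ⟨X, hX, h3⟩ := (Submodule.mem_sSup_of_directed ⟨y, hy⟩ hchain.directedOn).1 h
        exact (hc hX).2.2 h3⟩, fun _ hz => le_sSup hz⟩) W ⟨le_rfl, hle, hw⟩
  refine ⟨W', h1, h2.prop.2.2, fun u hu => ?_⟩
  by_cases hu' : w ∈ W' ⊔ Submodule.span R0 {u}
  · obtain ⟨a, ha, b, hb, e⟩ := Submodule.mem_sup.1 hu'
    obtain ⟨r, rfl⟩ := Submodule.mem_span_singleton.1 hb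
    have hr : IsUnit r := by
      by_contra hr
      exact h2.prop.2.2 (e ▸ W'.add_mem ha (h1 (hm (Submodule.smul_mem_smul hr hu))))
    obtain ⟨r', hr'⟩ := hr.exists_left_inv
    have : u = r' • (w - a) := by rw [← e, add_sub_cancel_left, smul_smul, hr', one_smul]
    rw [this]
    exact Submodule.smul_mem _ _ (Submodule.sub_mem _
      (Submodule.mem_sup_right (Submodule.mem_span_singleton_self w)) (Submodule.mem_sup_left ha))
  · have := h2.le_of_ge (y := W' ⊔ Submodule.span R0 {u}) ⟨h1.trans le_sup_left,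
      sup_le h2.prop.2.1 ((Submodule.span_singleton_le_iff_mem _ _).2 hu), hu'⟩ le_sup_left
    exact Submodule.mem_sup_left (this (Submodule.mem_sup_right
      (Submodule.mem_span_singleton_self u)))

variable [Module.Flat R0 S]

theorem sep1 {W : Submodule R0 E} {v : E} (hv : v ∉ W) {s : S}
    (h : s ⊗ₜ[R0] v ∈ W.baseChange S) : s ∈ mS R0 S := by
  have h1 : s ⊗ₜ[R0] (1 : R0) ∈ (W.comap (LinearMap.toSpanSingleton R0 E v)).baseChange S := by
    rw [baseChange_comap]
    simpa using h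
  have h2 : W.comap (LinearMap.toSpanSingleton R0 E v) ≤ maximalIdeal R0 := by
    intro r hr
    by_contra hr'
    obtain ⟨r', e⟩ := (notMem_maximalIdeal.1 hr').exists_left_inv
    have h3 := W.smul_mem r' (show r • v ∈ W from hr)
    rw [smul_smul, e, one_smul] at h3
    exact hv h3
  have h3 := Submodule.baseChange_mono S h2 h1
  rw [Submodule.baseChange_eq_span] at h3
  have h4 : Submodule.span S ((Submodule.map (TensorProduct.mk R0 S R0 1) (maximalIdeal R0) :
      Submodule R0 (S ⊗[R0] R0)) : Set (S ⊗[R0] R0)) ≤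
      Submodule.comap (AlgebraTensorModule.rid R0 S S).toLinearMap (mS R0 S) := by
    refine Submodule.span_le.2 ?_
    rintro _ ⟨r, hr, rfl⟩
    have := Ideal.mem_map_of_mem (algebraMap R0 S) hr
    simpa [Algebra.smul_def] using this
  simpa using h4 h3

theorem sep_coord {p : ι → Prop} [DecidablePred p] {W : Submodule R0 E} {v : E} (hv : v ∉ W)
    {ξ : ι → S} (hξ : ξ ∈ Coord p (⊤ : Submodule S S))
    (h : tv R0 S ι v ξ ∈ Coord p (W.baseChange S)) :
    ξ ∈ mS R0 S • Coord p (⊤ : Submodule S S) := by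
  rw [← coord_smul, mem_coord]
  refine ⟨fun A hA => ?_, (mem_coord.1 hξ).2⟩
  have := sep1 hv ((mem_coord.1 h).1 A hA)
  simpa using this

theorem sep2 {p : ι → Prop} [DecidablePred p] {W D : Submodule R0 E} (hle : W ≤ D)
    (hm : maximalIdeal R0 • D ≤ W) {w : E} (hw : w ∉ W) {N : Submodule S (ι → S)}
    (h1 : N ≤ Coord p ⊤) (h2 : mS R0 S • Coord p (⊤ : Submodule S S) ≤ N) {ξ : ι → S}
    (hξ : ξ ∈ Coord p (⊤ : Submodule S S))
    (h : tv R0 S ι w ξ ∈ br N D ⊔ Coord p (W.baseChange S)) : ξ ∈ N := by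
  obtain ⟨W', a1, a2, a3⟩ := exists_hyper hle hm hw
  obtain ⟨x, hx, c, hc, e⟩ := Submodule.mem_sup.1 h
  obtain ⟨η0, b1, ξ2, b2, rfl⟩ := br_split (br_mono le_rfl a3 hx)
  have h3 : tv R0 S ι w (ξ - ξ2) ∈ Coord p (W'.baseChange S) := by
    have : tv R0 S ι w (ξ - ξ2) = η0 + c := by rw [map_sub, ← e]; abel
    rw [this]
    exact Submodule.add_mem _ (br_le_coord h1 _ b1)
      (coord_mono p (Submodule.baseChange_mono S a1) hc)
  have h4 := h2 (sep_coord a2 (Submodule.sub_mem _ hξ (h1 b2)) h3)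
  simpa using N.add_mem h4 b2

theorem rl_br {p : ι → Prop} [DecidablePred p] {D' D Z : Submodule R0 E}
    (hm : maximalIdeal R0 • D ≤ D') (hZ : Z ≤ D) {N2 N1 : Submodule S (ι → S)} (h21 : N2 ≤ N1)
    (h1 : N1 ≤ Coord p ⊤) (h2 : mS R0 S • Coord p (⊤ : Submodule S S) ≤ N2) (k : ℕ) :
    ∀ B : Submodule R0 E, D' ≤ B → B ≤ Z → rl (lenF R0) B Z = k →
      rl (lenF S) (br N1 B ⊔ (br N2 D ⊔ Coord p (D'.baseChange S)))
        (br N1 Z ⊔ (br N2 D ⊔ Coord p (D'.baseChange S))) = rl (lenF S) N2 N1 * k := by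
  induction k with
  | zero =>
    intro B _ _ h
    rw [Nat.cast_zero, rl_lenF_eq_zero_iff] at h
    rw [Nat.cast_zero, mul_zero]
    exact rl_eq_zero_of_le _ (sup_le_sup_right (br_mono le_rfl h) _)
  | succ k ih =>
    intro B hB hBZ h
    have hlt : B < Z := by
      refine lt_of_le_of_ne hBZ fun e => ?_
      rw [rl_eq_zero_of_le _ e.ge] at h
      exact absurd h.symm (by simp)
    obtain ⟨v, hvZ, hvB, -, hv1⟩ := exists_simple_step hlt (by rw [h]; simp)
    have hB' : B ⊔ Submodule.span R0 {v} ≤ Z :=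
      sup_le hBZ ((Submodule.span_singleton_le_iff_mem _ _).2 hvZ)
    have h3 := rl_add (lenF R0) (le_sup_left : B ≤ B ⊔ Submodule.span R0 {v}) hB'
    rw [h, hv1, Nat.cast_succ, add_comm] at h3
    have h4 : rl (lenF R0) (B ⊔ Submodule.span R0 {v}) Z = k :=
      (WithTop.add_left_cancel WithTop.one_ne_top h3).symm
    have m1 : br N1 B ≤ br N1 (B ⊔ Submodule.span R0 {v}) := br_mono le_rfl le_sup_left
    have m2 : br N1 (B ⊔ Submodule.span R0 {v}) ≤ br N1 Z := br_mono le_rfl hB'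
    rw [rl_add (lenF S) (sup_le_sup_right m1 _) (sup_le_sup_right m2 _),
      ih _ (hB.trans le_sup_left) hB' h4, Nat.cast_succ, mul_add, mul_one, add_comm]
    congr 1
    rw [br_sup, br_single, sup_right_comm, rl_sup, ← rl_map, ← rl_inf]
    congr 1
    refine le_antisymm (fun ξ hξ => sep2 (hBZ.trans hZ) (hm.trans hB) hvB (h21.trans h1) h2
      (h1 hξ.2) ?_) (le_inf (fun ξ hξ => ?_) h21)
    · have h5 : br N1 B ⊔ (br N2 D ⊔ Coord p (D'.baseChange S)) ≤
          br N2 D ⊔ Coord p (B.baseChange S) :=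
        sup_le (le_sup_of_le_right (br_le_coord h1 B))
          (sup_le_sup_left (coord_mono p (Submodule.baseChange_mono S hB)) _)
      exact h5 (Submodule.mem_comap.1 hξ.1)
    · exact Submodule.mem_sup_right (Submodule.mem_sup_left (tv_mem hξ (hZ hvZ)))

omit [IsLocalRing R0] [Module.Flat R0 S] in
theorem coord_map (p : ι → Prop) [DecidablePred p] (δ : E →ₗ[R0] E) (D : Submodule R0 E) :
    (Coord p (D.baseChange S)).map ((δ.baseChange S).compLeft ι) =
      Coord p ((D.map δ).baseChange S) := by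
  rw [← br_coord, ← br_coord, br_map_compLeft]

end TensAux

variable [Module.Flat R0 S]

theorem col (p q : ι → Prop) [DecidablePred p] [DecidablePred q] {D D' : Submodule R0 E}
    (hle : D' ≤ D) (hm : maximalIdeal R0 • D ≤ D') (φ : (ι → S) →ₗ[S] (ι → S))
    (φ' : (ι → S ⊗[R0] E) →ₗ[S] (ι → S ⊗[R0] E))
    (hφ : ∀ ξ v, φ' (fun A => ξ A ⊗ₜ[R0] v) = fun A => φ ξ A ⊗ₜ[R0] v)
    (hpq : (Coord p (⊤ : Submodule S S)).map φ ≤ Coord q ⊤) :
    Coord p (D.baseChange S) ⊓ (Coord q (D'.baseChange S)).comap φ' =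
      br (Coord p ⊤ ⊓ (mS R0 S • Coord q (⊤ : Submodule S S)).comap φ) D ⊔
        Coord p (D'.baseChange S) := by
  have h : ∀ ξ v, φ' (tv R0 S ι v ξ) = tv R0 S ι v (φ ξ) := hφ
  have hmap : ∀ W : Submodule R0 E, ∀ η ∈ br (Coord p (⊤ : Submodule S S)) W,
      φ' η ∈ Coord q (W.baseChange S) := by
    intro W η hη
    have := Submodule.mem_map_of_mem (f := φ') hη
    rw [br_map_left _ _ φ φ' hφ] at this
    exact br_le_coord hpq W this
  apply le_antisymm
  · intro η hη
    have h1 : η ∈ br (Coord p (⊤ : Submodule S S)) D := by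
      rw [br_coord]; exact (Submodule.mem_inf.1 hη).1
    have h2 : φ' η ∈ Coord q (D'.baseChange S) := Submodule.mem_comap.1 (Submodule.mem_inf.1 hη).2
    revert h2
    refine br_ind (N := Coord p (⊤ : Submodule S S)) hle
      (fun η => φ' η ∈ Coord q (D'.baseChange S) → η ∈
      br (Coord p (⊤ : Submodule S S) ⊓ (mS R0 S • Coord q (⊤ : Submodule S S)).comap φ) D ⊔
        Coord p (D'.baseChange S)) ?_ ?_ η h1
    · intro η hη _
      rw [br_coord] at hη
      exact Submodule.mem_sup_right hη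
    · intro W v a1 _ a3 a4 ih η hη a5
      obtain ⟨η0, b1, ξ, b2, rfl⟩ := br_split hη
      rw [map_add, h] at a5
      have b3 : tv R0 S ι v (φ ξ) ∈ Coord q (W.baseChange S) := by
        have := Submodule.sub_mem _ (coord_mono q (Submodule.baseChange_mono S a1) a5)
          (hmap W η0 b1)
        rwa [add_sub_cancel_left] at this
      have b4 := sep_coord a4 (hpq (Submodule.mem_map_of_mem b2)) b3
      have b5 := br_smul_le q hm (tv_mem b4 a3)
      refine Submodule.add_mem _ (ih η0 b1 ?_) (Submodule.mem_sup_left (tv_mem ⟨b2, b4⟩ a3))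
      have := Submodule.sub_mem _ a5 b5
      rwa [add_sub_cancel_right] at this
  · refine sup_le (le_inf (br_le_coord inf_le_left D) (br_le fun ξ h1 v h2 => ?_))
      (le_inf (coord_mono p (Submodule.baseChange_mono S hle)) fun η hη => ?_)
    · rw [Submodule.mem_comap, h]
      exact br_smul_le q hm (tv_mem h1.2 h2)
    · rw [← br_coord] at hη
      exact hmap D' η hη

theorem tens_hh [IsLocalRing S] [IsLocalHom (algebraMap R0 S)] (p : ι → Prop) [DecidablePred p]
    (δ : E →ₗ[R0] E) (hδ : δ ∘ₗ δ = 0) {D' D : ℤ → Submodule R0 E} (h' : IsCx δ D')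
    (h : IsCx δ D) (hle : D' ≤ D) (hm : ∀ n, maximalIdeal R0 • D n ≤ D' n)
    {N2 N1 : Submodule S (ι → S)} (h21 : N2 ≤ N1) (h1 : N1 ≤ Coord p ⊤)
    (h2 : mS R0 S • Coord p (⊤ : Submodule S S) ≤ N2) (n : ℤ)
    (hfin : hh (lenF R0) δ D' D n ≠ ⊤) :
    hh (lenF S) ((δ.baseChange S).compLeft ι)
        (fun n => br N2 (D n) ⊔ Coord p ((D' n).baseChange S))
        (fun n => br N1 (D n) ⊔ Coord p ((D' n).baseChange S)) n =
      rl (lenF S) N2 N1 * hh (lenF R0) δ D' D n := by
  have hd : ∀ ξ v, (δ.baseChange S).compLeft ι (tv R0 S ι v ξ) = tv R0 S ι (δ v) ξ :=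
    fun ξ v => rfl
  have hn1 : (D' (n + 1)).map δ ≤ D' n := by simpa using h' (n + 1)
  have hn2 : (D (n + 1)).map δ ≤ D n := by simpa using h (n + 1)
  have hBZ : Bc δ D' D n ≤ Zc δ D' D n := by
    refine sup_le (le_inf (hle n) (Submodule.map_le_iff_le_comap.1 (h' n))) (le_inf hn2 ?_)
    rintro _ ⟨v, _, rfl⟩
    have : δ (δ v) = 0 := LinearMap.congr_fun hδ v
    rw [Submodule.mem_comap, this]
    exact Submodule.zero_mem _
  have hG : br N2 (D n) ⊔ Coord p ((D' n).baseChange S) ≤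
      (br N2 (D (n - 1)) ⊔ Coord p ((D' (n - 1)).baseChange S)).comap
        ((δ.baseChange S).compLeft ι) := by
    rw [← Submodule.map_le_iff_le_comap, Submodule.map_sup, br_map_compLeft, coord_map]
    exact sup_le_sup (br_mono le_rfl (h n)) (coord_mono p (Submodule.baseChange_mono S (h' n)))
  have hZ1 : br N1 (Zc δ D' D n) ≤
      (br N2 (D (n - 1)) ⊔ Coord p ((D' (n - 1)).baseChange S)).comap
        ((δ.baseChange S).compLeft ι) := by
    rw [← Submodule.map_le_iff_le_comap, br_map_compLeft]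
    exact le_sup_of_le_right ((br_le_coord h1 _).trans (coord_mono p
      (Submodule.baseChange_mono S (Submodule.map_le_iff_le_comap.2 inf_le_right))))
  have eB : Bc ((δ.baseChange S).compLeft ι)
      (fun n => br N2 (D n) ⊔ Coord p ((D' n).baseChange S))
      (fun n => br N1 (D n) ⊔ Coord p ((D' n).baseChange S)) n =
      br N1 (Bc δ D' D n) ⊔ (br N2 (D n) ⊔ Coord p ((D' n).baseChange S)) := by
    simp only [Bc]
    rw [Submodule.map_sup, br_map_compLeft, coord_map, br_sup]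
    refine le_antisymm (sup_le le_sup_right (sup_le (le_sup_of_le_left le_sup_right) ?_))
      (sup_le (sup_le ?_ (le_sup_of_le_right le_sup_left)) le_sup_left)
    · exact le_sup_of_le_right (le_sup_of_le_right
        (coord_mono p (Submodule.baseChange_mono S hn1)))
    · exact le_sup_of_le_left (le_sup_of_le_right (br_le_coord h1 _))
  have eZ : Zc ((δ.baseChange S).compLeft ι)
      (fun n => br N2 (D n) ⊔ Coord p ((D' n).baseChange S))
      (fun n => br N1 (D n) ⊔ Coord p ((D' n).baseChange S)) n =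
      br N1 (Zc δ D' D n) ⊔ (br N2 (D n) ⊔ Coord p ((D' n).baseChange S)) := by
    apply le_antisymm
    · rintro η ⟨a1, a2⟩
      obtain ⟨η1, a3, c, a4, rfl⟩ := Submodule.mem_sup.1 a1
      have a5 := Submodule.sub_mem _ a2 (hG (Submodule.mem_sup_right a4))
      rw [add_sub_cancel_right] at a5
      refine Submodule.add_mem _ ?_ (Submodule.mem_sup_right (Submodule.mem_sup_right a4))
      refine br_ind (D0 := Zc δ D' D n) inf_le_left (fun η => η ∈
        (br N2 (D (n - 1)) ⊔ Coord p ((D' (n - 1)).baseChange S)).comap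
          ((δ.baseChange S).compLeft ι) → η ∈
        br N1 (Zc δ D' D n) ⊔ (br N2 (D n) ⊔ Coord p ((D' n).baseChange S))) ?_ ?_ η1 a3 a5
      · exact fun η hη _ => Submodule.mem_sup_left hη
      · intro W v b1 b2 b3 b4 ih η hη b5
        obtain ⟨η0, c1, ξ, c2, rfl⟩ := br_split hη
        have c3 : δ v ∉ D' (n - 1) ⊔ W.map δ := by
          intro hc
          obtain ⟨w, hw, _, ⟨z, hz, rfl⟩, e⟩ := Submodule.mem_sup.1 hc
          have c4 : v - z ∈ Zc δ D' D n := by
            refine ⟨Submodule.sub_mem _ b3 (b2 hz), ?_⟩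
            change δ (v - z) ∈ D' (n - 1)
            rw [map_sub, ← e, add_sub_cancel_right]
            exact hw
          exact b4 (by simpa using W.add_mem (b1 c4) hz)
        have c5 : ξ ∈ N2 := by
          refine sep2 (D := D (n - 1)) (sup_le (hle _) ((Submodule.map_mono b2).trans (h n)))
            ((hm _).trans le_sup_left) c3 (h21.trans h1) h2 (h1 c2) ?_
          have c6 := Submodule.mem_map_of_mem (f := (δ.baseChange S).compLeft ι) c1
          rw [br_map_compLeft] at c6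
          have c7 := Submodule.sub_mem _
            (sup_le_sup_left (coord_mono p (Submodule.baseChange_mono S
              (le_sup_left : D' (n - 1) ≤ D' (n - 1) ⊔ W.map δ))) _ b5)
            (Submodule.mem_sup_right (coord_mono p (Submodule.baseChange_mono S
              (le_sup_right : W.map δ ≤ D' (n - 1) ⊔ W.map δ)) (br_le_coord h1 _ c6)))
          rwa [map_add, add_sub_cancel_left, hd] at c7
        have c8 : tv R0 S ι v ξ ∈ br N2 (D n) ⊔ Coord p ((D' n).baseChange S) :=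
          Submodule.mem_sup_left (tv_mem c5 b3)
        refine Submodule.add_mem _ (ih η0 c1 ?_) (Submodule.mem_sup_right c8)
        have := Submodule.sub_mem _ b5 (hG c8)
        rwa [add_sub_cancel_right] at this
    · exact sup_le (le_inf (le_sup_of_le_left (br_mono le_rfl inf_le_left)) hZ1)
        (le_inf (sup_le_sup_right (br_mono h21 le_rfl) _) hG)
  obtain ⟨k, hk⟩ := ENat.ne_top_iff_exists.1 hfin
  rw [← hk, hh, eB, eZ]
  exact rl_br (hm n) inf_le_left h21 h1 h2 k _ le_sup_left hBZ hk.symm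

omit [IsLocalRing R0] in
theorem coord_baseChange_exa (p : ι → Prop) [DecidablePred p] (δ : E →ₗ[R0] E)
    {D' D : ℤ → Submodule R0 E} (h : Exa δ D' D) :
    Exa ((δ.baseChange S).compLeft ι) (fun n => Coord p ((D' n).baseChange S))
      (fun n => Coord p ((D n).baseChange S)) := by
  intro n
  rintro η ⟨h1, h2⟩
  have h3 : η ∈ Coord p ((Zc δ D' D n).baseChange S) := by
    refine mem_coord.2 ⟨fun A hA => ?_, (mem_coord.1 h1).2⟩
    rw [Zc, baseChange_inf, baseChange_comap]
    exact ⟨(mem_coord.1 h1).1 A hA, (mem_coord.1 h2).1 A hA⟩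
  have h4 := coord_mono p (Submodule.baseChange_mono S (h n)) h3
  rw [Bc, baseChange_sup, coord_sup, ← coord_map] at h4
  exact h4

end Vale.Agent.P202
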