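import Vale.Agent.P202.BiCx
import Vale.Agent.P202.Tens

/-! Auxiliary facts for the decalage argument. -/

namespace Vale.Agent.P202

open IsLocalRing TensorProduct

universe u

variable {R0 : Type u} [CommRing R0] [IsLocalRing R0] {S : Type u} [CommRing S]
  [Algebra R0 S] {E : Type u} [AddCommGroup E] [Module R0 E]

/-- The free Koszul module in degree `i`. -/
abbrev KT (S : Type u) [CommRing S] (d : ℕ) (i : ℤ) : Submodule S (Finset (Fin d) → S) :=
  Kos Finset.univ (⊤ : Submodule S S) i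

theorem rl_KT (d : ℕ) (i : ℕ) :
    rl (lenF S) (mS R0 S • KT S d i) (KT S d i) =
      (d.choose i : ℕ∞) * Module.length S (S ⧸ mS R0 S) := by
  unfold KT Kos
  rw [← coord_smul, rl_coord, card_filter_card_eq, rl_top]
  congr 1
  rw [show mS R0 S • (⊤ : Submodule S S) = mS R0 S by simp]
  rfl

theorem rl_KT_le (d : ℕ) (i : ℤ) (lam : ℕ) (hl : Module.length S (S ⧸ mS R0 S) = lam) :
    rl (lenF S) (mS R0 S • KT S d i) (KT S d i) ≤ ((2 ^ d * lam : ℕ) : ℕ∞) := by
  rcases lt_or_ge i 0 with h | h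
  · rw [rl_eq_zero_of_le _ (by rw [KT, kos_eq_bot _ _ _ (Or.inl h)]; exact bot_le)]
    exact zero_le
  · obtain ⟨j, rfl⟩ := Int.eq_ofNat_of_zero_le h
    rw [rl_KT, hl]
    have : d.choose j ≤ 2 ^ d := Nat.choose_le_two_pow d j
    exact_mod_cast Nat.mul_le_mul_right lam this

theorem rl_sub_KT_le (d : ℕ) (i : ℤ) (lam : ℕ) (hl : Module.length S (S ⧸ mS R0 S) = lam)
    {N2 N1 : Submodule S (Finset (Fin d) → S)} (h1 : N1 ≤ KT S d i) (h2 : mS R0 S • KT S d i ≤ N2) :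
    rl (lenF S) N2 N1 ≤ ((2 ^ d * lam : ℕ) : ℕ∞) :=
  (rl_mono _ h2 h1).trans (rl_KT_le d i lam hl)

omit [IsLocalRing R0] in
theorem map_kd_KT_one {d : ℕ} (y : Fin d → S) :
    (KT S d 1).map (kd y S) = Kos Finset.univ (Ideal.span (Set.range y) : Submodule S S) 0 := by
  apply le_antisymm
  · rintro _ ⟨ξ, hξ, rfl⟩
    have h0 : kd y S ξ ∈ KT S d (1 - 1) := kos_isCx y _ _ 1 ⟨ξ, hξ, rfl⟩
    refine mem_kos.2 ⟨fun A _ => ?_, fun A hA => (mem_kos.1 h0).2 A (by simpa using hA)⟩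
    rw [kd_apply]
    refine Submodule.sum_mem _ fun i _ => ?_
    rw [smul_eq_mul]
    exact Ideal.mul_mem_right _ _ (Ideal.mul_mem_left _ _ (Ideal.subset_span ⟨i, rfl⟩))
  · intro ξ hξ
    have h0 : ξ ∅ ∈ Ideal.span (Set.range y) := apply_mem_of_mem_kos hξ ∅
    set e : Finset (Fin d) → S := Pi.single ∅ 1 with he
    have hem : e ∈ KT S d 0 := by
      refine mem_kos.2 ⟨fun A _ => trivial, fun A hA => ?_⟩
      rw [he, Pi.single_eq_of_ne]
      rintro rfl
      simp at hA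
    have hξe : ξ = ξ ∅ • e := by
      funext A
      by_cases hA : A = ∅
      · subst hA; simp [he]
      · rw [(mem_kos.1 hξ).2 A (by simpa using hA)]
        simp [he, Pi.single_eq_of_ne hA]
    have hz : e ∈ Zc (kd y S) (Kos Finset.univ (⊥ : Submodule S S)) (Kos Finset.univ ⊤) 0 := by
      refine ⟨hem, ?_⟩
      have h1 : kd y S e ∈ KT S d (0 - 1) := kos_isCx y _ _ 0 ⟨e, hem, rfl⟩
      rw [KT, kos_eq_bot _ _ _ (Or.inl (by norm_num))] at h1
      refine Submodule.mem_comap.2 ?_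
      rw [(Submodule.mem_bot S).1 h1]
      exact zero_mem _
    have h2 := smul_mem_map_kd y Finset.univ ⊥ ⊤ 0 (ξ ∅) (by simpa using h0) hz
    rw [Bc, kos_bot, Pi.bot_apply, bot_sup_eq, ← hξe] at h2
    exact h2

theorem sum_negOnePow_choose (m : ℕ) :
    ∑ i ∈ Finset.Icc (2 : ℤ) ((m + 1 : ℕ) : ℤ), ((i.negOnePow : ℤˣ) : ℤ) *
      (((m + 1).choose i.toNat : ℕ) : ℤ) = m := by
  have h := Int.alternating_sum_range_choose_of_ne (n := m + 1) (by omega)
  rw [Finset.sum_range_succ', Finset.sum_range_succ'] at h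
  have h2 : ∑ i ∈ Finset.Icc (2 : ℤ) ((m + 1 : ℕ) : ℤ), ((i.negOnePow : ℤˣ) : ℤ) *
      (((m + 1).choose i.toNat : ℕ) : ℤ) =
      ∑ k ∈ Finset.range m, (-1 : ℤ) ^ (k + 1 + 1) * (((m + 1).choose (k + 1 + 1) : ℕ) : ℤ) := by
    symm
    refine Finset.sum_bij (fun k _ => ((k + 1 + 1 : ℕ) : ℤ)) ?_ ?_ ?_ ?_
    · intro k hk
      rw [Finset.mem_range] at hk
      rw [Finset.mem_Icc]
      omega
    · intro a _ b _ hab
      omega
    · intro b hb
      rw [Finset.mem_Icc] at hb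
      exact ⟨(b - 2).toNat, by rw [Finset.mem_range]; omega, by omega⟩
    · intro k _
      rw [Int.coe_negOnePow_natCast, Int.toNat_natCast]
  rw [h2]
  simp only [Nat.zero_add, pow_one, Nat.choose_one_right, pow_zero, Nat.choose_zero_right] at h
  push_cast at h ⊢
  linarith

omit [IsLocalRing R0] in
theorem br_sup_left {ι : Type} (N N' : Submodule S (ι → S)) (D : Submodule R0 E) :
    br (N ⊔ N') D = br N D ⊔ br N' D := by
  refine le_antisymm (TensAux.br_le fun ξ h1 v h2 => ?_)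
    (sup_le (br_mono le_sup_left le_rfl) (br_mono le_sup_right le_rfl))
  obtain ⟨a, ha, b, hb, rfl⟩ := Submodule.mem_sup.1 h1
  rw [map_add]
  exact Submodule.add_mem_sup (TensAux.tv_mem ha h2) (TensAux.tv_mem hb h2)

omit [IsLocalRing R0] in
theorem fil_mono {d : ℕ} {D D' : Submodule R0 E} (h : D ≤ D') (i : ℤ) :
    Kos (d := d) Finset.univ (D.baseChange S) i ≤ Kos Finset.univ (D'.baseChange S) i :=
  kos_mono _ (Submodule.baseChange_mono S h) i

omit [IsLocalRing R0] in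
theorem compLeft_mem_kos {d : ℕ} (γ : E →ₗ[R0] E) {D D' : Submodule R0 E} (h : D.map γ ≤ D')
    {i : ℤ} {ξ : Finset (Fin d) → S ⊗[R0] E} (hξ : ξ ∈ Kos Finset.univ (D.baseChange S) i) :
    (γ.baseChange S).compLeft _ ξ ∈ Kos Finset.univ (D'.baseChange S) i := by
  have h1 : (γ.baseChange S).compLeft _ ξ ∈
      (Kos Finset.univ (D.baseChange S) i).map ((γ.baseChange S).compLeft _) := ⟨ξ, hξ, rfl⟩
  unfold Kos at h1
  rw [TensAux.coord_map] at h1
  exact fil_mono h i h1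

omit [IsLocalRing R0] in
theorem sd_mem_kos {d : ℕ} (γ : E →ₗ[R0] E) {D D' : Submodule R0 E} (h : D.map γ ≤ D')
    {i : ℤ} {ξ : Finset (Fin d) → S ⊗[R0] E} (hξ : ξ ∈ Kos Finset.univ (D.baseChange S) i) :
    sd d (γ.baseChange S) ξ ∈ Kos Finset.univ (D'.baseChange S) i := by
  have h1 := compLeft_mem_kos γ h hξ
  refine mem_kos.2 ⟨fun A hA => ?_, fun A hA => ?_⟩
  · rw [sd_apply]
    exact Submodule.smul_mem _ _ ((mem_kos.1 h1).1 A hA)
  · rw [sd_apply, (mem_kos.1 hξ).2 A hA, map_zero, smul_zero]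

omit [IsLocalRing R0] in
theorem kd_sd {d : ℕ} (y : Fin d → S) {M : Type u} [AddCommGroup M] [Module S M]
    (f : M →ₗ[S] M) (ξ : Finset (Fin d) → M) : kd y M (sd d f ξ) = -sd d f (kd y M ξ) := by
  funext A
  rw [kd_apply, Pi.neg_apply, sd_apply, kd_apply, map_sum, Finset.smul_sum, ← Finset.sum_neg_distrib]
  refine Finset.sum_congr rfl fun i hi => ?_
  rw [sd_apply, Finset.card_insert_of_notMem (by simpa using hi), map_smul, smul_comm, pow_succ]
  push_cast
  rw [mul_neg, mul_one, neg_smul]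

end Vale.Agent.P202
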