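import Vale.Agent.P202.Colon

/-! Ideal sheaves on the charts. -/

namespace Vale.Agent.P202

open MvPolynomial

universe u

variable {A : Type u} [CommRing A] {m : ℕ}

section hom

variable {σ : Type}

attribute [local instance] MvPolynomial.gradedAlgebra

theorem hcomp_mul {h : MvPolynomial σ A} {γ : ℕ} (hh : h.IsHomogeneous γ) (f : MvPolynomial σ A)
    (n : ℕ) : homogeneousComponent n (f * h) =
      if γ ≤ n then homogeneousComponent (n - γ) f * h else 0 := by
  have := DirectSum.coe_decompose_mul_of_right_mem (homogeneousSubmodule σ A) (a := f) n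
    (b_mem := (hh : h ∈ homogeneousSubmodule σ A γ))
  rw [← decomposition.decompose'_apply, ← decomposition.decompose'_apply]
  exact this

theorem hcomp_map {B : Type u} [CommRing B] (φ : A →+* B) (f : MvPolynomial σ A) (n : ℕ) :
    homogeneousComponent n (MvPolynomial.map φ f) =
      MvPolynomial.map φ (homogeneousComponent n f) := by
  ext d
  rw [coeff_homogeneousComponent, coeff_map, coeff_map, coeff_homogeneousComponent]
  split_ifs <;> simp

theorem hom_ind {γ : ℕ} (P : MvPolynomial σ A → Prop) (h0 : P 0)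
    (hadd : ∀ f g, P f → P g → P (f + g))
    (hmon : ∀ (d : σ →₀ ℕ) (a : A), d.degree = γ → P (monomial d a))
    {f : MvPolynomial σ A} (hf : f.IsHomogeneous γ) : P f := by
  rw [f.as_sum]
  refine Finset.sum_induction _ P hadd h0 fun d hd => hmon d _ ?_
  by_contra h
  exact (mem_support_iff.1 hd) (hf.coeff_eq_zero h)

theorem aeval_hom_mul {B : Type u} [CommRing B] [Algebra A B] {γ : ℕ} {f : MvPolynomial σ A}
    (hf : f.IsHomogeneous γ) (x : σ → B) (t : B) :
    aeval (fun i => x i * t) f = aeval x f * t ^ γ := by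
  refine hom_ind (γ := γ) (fun f => aeval (fun i => x i * t) f = aeval x f * t ^ γ) (by simp)
    (fun f g h1 h2 => by simp only [map_add, h1, h2, add_mul]) (fun d a hd => ?_) hf
  simp only [aeval_monomial, Finsupp.prod, mul_pow, Finset.prod_mul_distrib,
    Finset.prod_pow_eq_pow_sum, mul_assoc]
  rw [← hd]
  rfl

theorem isHom_bot : IsHom (⊥ : Ideal (MvPolynomial σ A)) := by
  intro f hf γ
  rw [Ideal.mem_bot.1 hf, map_zero]
  exact Ideal.zero_mem _

theorem isHom_top : IsHom (⊤ : Ideal (MvPolynomial σ A)) := fun _ _ _ => trivial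

theorem IsHom.sup {c c' : Ideal (MvPolynomial σ A)} (h : IsHom c) (h' : IsHom c') :
    IsHom (c ⊔ c') := by
  intro f hf γ
  obtain ⟨g, hg, g', hg', rfl⟩ := Submodule.mem_sup.1 hf
  rw [map_add]
  exact Submodule.add_mem_sup (h g hg γ) (h' g' hg' γ)

theorem isHom_span_singleton {h : MvPolynomial σ A} {γ : ℕ} (hh : h.IsHomogeneous γ) :
    IsHom (Ideal.span {h}) := by
  intro f hf n
  obtain ⟨a, rfl⟩ := Ideal.mem_span_singleton'.1 hf
  rw [hcomp_mul hh]
  split_ifs
  · exact Ideal.mul_mem_left _ _ (Ideal.mem_span_singleton_self h)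
  · exact Ideal.zero_mem _

theorem IsHom.colon {c : Ideal (MvPolynomial σ A)} (hc : IsHom c) {h : MvPolynomial σ A} {γ : ℕ}
    (hh : h.IsHomogeneous γ) : IsHom (c.colon {h}) := by
  intro f hf n
  rw [Submodule.mem_colon_singleton, smul_eq_mul] at hf ⊢
  have := hc _ hf (n + γ)
  rwa [hcomp_mul hh, if_pos (by omega), Nat.add_sub_cancel] at this

theorem isHom_map_C (a : Ideal A) : IsHom (a.map (C : A →+* MvPolynomial σ A)) := by
  intro f hf n
  rw [MvPolynomial.mem_map_C_iff] at hf ⊢
  intro d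
  rw [coeff_homogeneousComponent]
  split_ifs
  · exact hf d
  · exact a.zero_mem

/-- Induction principle for the extension of a homogeneous ideal. -/
theorem IsHom.map_ind {B : Type u} [CommRing B] {c : Ideal (MvPolynomial σ A)} (hc : IsHom c)
    (φ : MvPolynomial σ A →+* B) (P : B → Prop) (h0 : P 0) (hadd : ∀ x y, P x → P y → P (x + y))
    (hgen : ∀ (γ : ℕ) (f : MvPolynomial σ A) (r : B), f ∈ c → f.IsHomogeneous γ → P (r * φ f))
    {p : B} (hp : p ∈ c.map φ) : P p := by
  have key : ∀ r, P (r * p) := by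
    refine Submodule.span_induction (p := fun p _ => ∀ r, P (r * p)) ?_ ?_ ?_ ?_ hp
    · rintro _ ⟨f, hf, rfl⟩ r
      rw [← sum_homogeneousComponent f, map_sum, Finset.mul_sum]
      exact Finset.sum_induction _ P hadd h0 fun n _ =>
        hgen n _ r (hc f hf n) (homogeneousComponent_isHomogeneous n f)
    · intro r; rwa [mul_zero]
    · intro x y _ _ hx hy r
      rw [mul_add]; exact hadd _ _ (hx r) (hy r)
    · intro a x _ hx r
      rw [smul_eq_mul, ← mul_assoc]; exact hx _
  simpa using key 1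

theorem IsHom.map {B : Type u} [CommRing B] (f : A →+* B) {c : Ideal (MvPolynomial σ A)}
    (hc : IsHom c) : IsHom (c.map (MvPolynomial.map f)) := by
  intro p hp
  refine hc.map_ind (MvPolynomial.map f)
    (fun p => ∀ n, homogeneousComponent n p ∈ c.map (MvPolynomial.map f)) ?_ ?_ ?_ hp
  · intro n; rw [map_zero]; exact Ideal.zero_mem _
  · intro x y hx hy n; rw [map_add]; exact Ideal.add_mem _ (hx n) (hy n)
  · intro γ g r hg hγ n
    rw [hcomp_mul (hγ.map f)]
    split_ifs
    · exact Ideal.mul_mem_left _ _ (Ideal.mem_map_of_mem _ hg)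
    · exact Ideal.zero_mem _

theorem IsHom.exists_homogeneous {c c' : Ideal (MvPolynomial σ A)} (hc : IsHom c)
    (h : ¬ c ≤ c') : ∃ (γ : ℕ) (g : MvPolynomial σ A), g.IsHomogeneous γ ∧ g ∈ c ∧ g ∉ c' := by
  by_contra hn
  push Not at hn
  refine h fun f hf => ?_
  rw [← sum_homogeneousComponent f]
  exact Ideal.sum_mem _ fun n _ =>
    hn n _ (homogeneousComponent_isHomogeneous n f) (hc f hf n)

end hom

/-- A Laurent monomial. -/
noncomputable def mon (A : Type u) [CommRing A] (β : Fin m → ℤ) : Lau A m :=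
  AddMonoidAlgebra.single β 1

theorem mon_add (β β' : Fin m → ℤ) : mon A (β + β') = mon A β * mon A β' := by
  simp [mon, AddMonoidAlgebra.single_mul_single]

theorem mon_zero : mon A (0 : Fin m → ℤ) = 1 := rfl

theorem mon_nsmul (n : ℕ) (β : Fin m → ℤ) : mon A (n • β) = mon A β ^ n := by
  induction n with
  | zero => simp [mon_zero]
  | succ n ih => rw [succ_nsmul, mon_add, ih, pow_succ]

theorem mon_sum {ι : Type} (s : Finset ι) (β : ι → Fin m → ℤ) :
    mon A (∑ i ∈ s, β i) = ∏ i ∈ s, mon A (β i) := by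
  classical
  induction s using Finset.induction_on with
  | empty => simp [mon_zero]
  | insert i s hi ih => rw [Finset.sum_insert hi, Finset.prod_insert hi, mon_add, ih]

theorem Cm_eq_span (b : Fin m → ℤ) (J : Fin m → Ch) :
    Cm A b J = Submodule.span A (mon A '' Om b J) :=
  AddMonoidAlgebra.supported_eq_span_single A (Om b J)

theorem mon_mem {b β : Fin m → ℤ} {J : Fin m → Ch} (h : β ∈ Om b J) : mon A β ∈ Cm A b J := by
  rw [Cm_eq_span]
  exact Submodule.subset_span ⟨β, h, rfl⟩

theorem mul_mem_Cm {b b' : Fin m → ℤ} {J : Fin m → Ch} {v v' : Lau A m} (h : v ∈ Cm A b J)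
    (h' : v' ∈ Cm A b' J) : v * v' ∈ Cm A (b + b') J := by
  have := Submodule.mul_mem_mul h h'
  rw [Cm_eq_span, Cm_eq_span, Submodule.span_mul_span] at this
  refine (Submodule.span_le.2 ?_ : _ ≤ Cm A (b + b') J) this
  rintro _ ⟨_, ⟨β, hβ, rfl⟩, _, ⟨β', hβ', rfl⟩, rfl⟩
  show mon A β * mon A β' ∈ _
  rw [← mon_add]
  refine mon_mem fun j => ⟨fun hj => ?_, fun hj => ?_⟩
  · exact add_nonneg ((hβ j).1 hj) ((hβ' j).1 hj)
  · exact add_le_add ((hβ j).2 hj) ((hβ' j).2 hj)

theorem one_mem_Cm {b : Fin m → ℤ} (hb : ∀ j, 0 ≤ b j) (J : Fin m → Ch) :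
    (1 : Lau A m) ∈ Cm A b J :=
  mon_mem (β := 0) fun j => ⟨fun _ => le_rfl, fun _ => hb j⟩

theorem prod_mem_Cm {ι : Type} (s : Finset ι) {b : ι → Fin m → ℤ} {J : Fin m → Ch}
    {v : ι → Lau A m} (h : ∀ i ∈ s, v i ∈ Cm A (b i) J) :
    ∏ i ∈ s, v i ∈ Cm A (∑ i ∈ s, b i) J := by
  classical
  induction s using Finset.induction_on with
  | empty => simpa using one_mem_Cm (b := 0) (fun _ => le_rfl) J
  | insert i s hi ih =>
    rw [Finset.sum_insert hi, Finset.prod_insert hi]
    exact mul_mem_Cm (h i (by simp)) (ih fun j hj => h j (by simp [hj]))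

theorem pow_mem_Cm {b : Fin m → ℤ} {J : Fin m → Ch} {v : Lau A m} (h : v ∈ Cm A b J) (n : ℕ) :
    v ^ n ∈ Cm A (n • b) J := by
  induction n with
  | zero => simpa using one_mem_Cm (b := 0) (fun _ => le_rfl) J
  | succ n ih => rw [pow_succ, succ_nsmul]; exact mul_mem_Cm ih h

theorem ee_mem_Cm (J : Fin m → Ch) (i : Fin (m + 1)) : ee A m i ∈ Cm A (fun _ => 1) J := by
  classical
  have key : ∀ s : Finset (Fin m), ∀ k : ℕ,
      (∏ j ∈ s, (1 + Polynomial.C (wv A j) * Polynomial.X : Polynomial (Lau A m))).coeff k ∈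
        Cm A (∑ j ∈ s, Pi.single j 1) J := by
    intro s
    induction s using Finset.induction_on with
    | empty =>
      intro k
      simp only [Finset.prod_empty, Finset.sum_empty, Polynomial.coeff_one]
      split_ifs
      · exact one_mem_Cm (fun _ => le_rfl) J
      · exact Submodule.zero_mem _
    | insert j s hj ih =>
      intro k
      rw [Finset.sum_insert hj, Finset.prod_insert hj, Polynomial.coeff_mul]
      refine Submodule.sum_mem _ fun p _ => mul_mem_Cm ?_ (ih _)
      have h0 : ∀ l, (0 : ℤ) ≤ (Pi.single j 1 : Fin m → ℤ) l := by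
        intro l
        rw [Pi.single_apply]; split_ifs <;> omega
      rw [Polynomial.coeff_add, Polynomial.coeff_C_mul, Polynomial.coeff_one, Polynomial.coeff_X]
      refine Submodule.add_mem _ ?_ ?_
      · split_ifs
        · exact one_mem_Cm h0 J
        · exact Submodule.zero_mem _
      · split_ifs
        · rw [mul_one]
          exact mon_mem fun l => ⟨fun _ => h0 l, fun _ => le_rfl⟩
        · rw [mul_zero]; exact Submodule.zero_mem _
  have := key Finset.univ i
  rwa [Finset.univ_sum_single (fun _ : Fin m => (1 : ℤ))] at this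

theorem psi_mem_Cm {f : MvPolynomial (Fin (m + 1)) A} {γ : ℕ} (hf : f.IsHomogeneous γ)
    (J : Fin m → Ch) : psi A m f ∈ Cm A (fun _ => (γ : ℤ)) J := by
  refine hom_ind (γ := γ) (fun f => psi A m f ∈ Cm A (fun _ => (γ : ℤ)) J) (by simp)
    (fun f g h1 h2 => by rw [map_add]; exact Submodule.add_mem _ h1 h2) (fun d a hd => ?_) hf
  simp only [psi, aeval_monomial, Finsupp.prod]
  rw [← Algebra.smul_def]
  refine Submodule.smul_mem _ _ ?_
  have := prod_mem_Cm d.support (fun i _ => pow_mem_Cm (ee_mem_Cm (A := A) J i) (d i))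
  convert this using 2
  funext j
  rw [← hd, Finset.sum_apply]
  simp [Finsupp.degree_apply]

theorem psi_coeff_eq_zero {f : MvPolynomial (Fin (m + 1)) A} {γ : ℕ} (hf : f.IsHomogeneous γ)
    (β : Fin m → ℤ) (hβ : ¬ ∀ j, 0 ≤ β j ∧ β j ≤ γ) : (psi A m f).coeff β = 0 := by
  by_contra h
  refine hβ fun j => ⟨?_, ?_⟩
  · by_contra h'
    exact h (mem_Cm.1 (psi_mem_Cm hf fun _ => Ch.U) β fun hb => h' ((hb j).1 rfl))
  · by_contra h'
    exact h (mem_Cm.1 (psi_mem_Cm hf fun _ => Ch.V) β fun hb => h' ((hb j).2 rfl))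

theorem psi_mul_mem_Cm {f : MvPolynomial (Fin (m + 1)) A} {γ : ℕ} (hf : f.IsHomogeneous γ)
    {b : Fin m → ℤ} {J : Fin m → Ch} {v : Lau A m} (h : v ∈ Cm A (sh b (-γ)) J) :
    psi A m f * v ∈ Cm A b J := by
  have := mul_mem_Cm (psi_mem_Cm hf J) h
  convert this using 2
  funext j
  simp [sh]

theorem gen_mem_CI {c : Ideal (MvPolynomial (Fin (m + 1)) A)} {b : Fin m → ℤ} {J : Fin m → Ch}
    {γ : ℕ} {f : MvPolynomial (Fin (m + 1)) A} {v : Lau A m} (hf : f ∈ c)
    (hγ : f.IsHomogeneous γ) (hv : v ∈ Cm A (sh b (-γ)) J) : psi A m f * v ∈ CI c b J :=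
  Submodule.subset_span ⟨γ, f, v, hf, hγ, hv, rfl⟩

theorem CI_le_of {c : Ideal (MvPolynomial (Fin (m + 1)) A)} {b : Fin m → ℤ} {J : Fin m → Ch}
    {N : Submodule A (Lau A m)}
    (h : ∀ (γ : ℕ) (f : MvPolynomial (Fin (m + 1)) A) (v : Lau A m), f ∈ c → f.IsHomogeneous γ →
      v ∈ Cm A (sh b (-γ)) J → psi A m f * v ∈ N) : CI c b J ≤ N := by
  refine Submodule.span_le.2 ?_
  rintro _ ⟨γ, f, v, h1, h2, h3, rfl⟩
  exact h γ f v h1 h2 h3

theorem sh_zero (b : Fin m → ℤ) : sh b (-((0 : ℕ) : ℤ)) = b := by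
  funext j; simp [sh]

theorem CI_le (c : Ideal (MvPolynomial (Fin (m + 1)) A)) (b : Fin m → ℤ) : CI c b ≤ Cm A b :=
  fun _ => CI_le_of fun _ _ _ _ h2 h3 => psi_mul_mem_Cm h2 h3

theorem CI_top (b : Fin m → ℤ) : CI (⊤ : Ideal (MvPolynomial (Fin (m + 1)) A)) b = Cm A b := by
  refine le_antisymm (CI_le _ b) fun J v hv => ?_
  have := gen_mem_CI (c := ⊤) (b := b) (J := J) (γ := 0) (f := 1) (v := v) trivial
    (isHomogeneous_one _ _) (by rwa [sh_zero])
  rwa [map_one, one_mul] at this

theorem CI_bot (b : Fin m → ℤ) : CI (⊥ : Ideal (MvPolynomial (Fin (m + 1)) A)) b = ⊥ := by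
  refine le_antisymm (fun J => CI_le_of fun γ f v h1 _ _ => ?_) bot_le
  rw [Ideal.mem_bot.1 h1, map_zero, zero_mul]
  exact Submodule.zero_mem _

theorem CI_mono {c c' : Ideal (MvPolynomial (Fin (m + 1)) A)} (h : c ≤ c') (b : Fin m → ℤ) :
    CI c b ≤ CI c' b :=
  fun _ => CI_le_of fun _ _ _ h1 h2 h3 => gen_mem_CI (h h1) h2 h3

theorem CI_cmono (c : Ideal (MvPolynomial (Fin (m + 1)) A)) (b : Fin m → ℤ) :
    CMono (CI c b) := fun J j hj =>
  ⟨CI_le_of fun _ _ _ h1 h2 h3 => gen_mem_CI h1 h2 ((Cm_cmono _ J j hj).1 h3),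
    CI_le_of fun _ _ _ h1 h2 h3 => gen_mem_CI h1 h2 ((Cm_cmono _ J j hj).2 h3)⟩

theorem CI_sup {c c' : Ideal (MvPolynomial (Fin (m + 1)) A)} (h : IsHom c) (h' : IsHom c')
    (b : Fin m → ℤ) (J : Fin m → Ch) : CI (c ⊔ c') b J = CI c b J ⊔ CI c' b J := by
  refine le_antisymm (CI_le_of fun γ f v h1 h2 h3 => ?_)
    (sup_le (CI_mono le_sup_left b J) (CI_mono le_sup_right b J))
  obtain ⟨g, hg, g', hg', e⟩ := Submodule.mem_sup.1 h1
  rw [← homogeneousComponent_eq_self h2, ← e, map_add, map_add, add_mul]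
  exact Submodule.add_mem_sup
    (gen_mem_CI (h g hg γ) (homogeneousComponent_isHomogeneous _ _) h3)
    (gen_mem_CI (h' g' hg' γ) (homogeneousComponent_isHomogeneous _ _) h3)

theorem CI_span_singleton {h : MvPolynomial (Fin (m + 1)) A} {γ : ℕ} (hh : h.IsHomogeneous γ)
    (b : Fin m → ℤ) (J : Fin m → Ch) :
    CI (Ideal.span {h}) b J = (Cm A (sh b (-γ)) J).map (LinearMap.mulLeft A (psi A m h)) := by
  refine le_antisymm (CI_le_of fun δ f v h1 h2 h3 => ?_) ?_
  · obtain ⟨a, e⟩ := Ideal.mem_span_singleton'.1 h1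
    rw [← homogeneousComponent_eq_self h2, ← e, hcomp_mul hh]
    split_ifs with hle
    · refine ⟨psi A m (homogeneousComponent (δ - γ) a) * v,
        psi_mul_mem_Cm (homogeneousComponent_isHomogeneous _ _) ?_, ?_⟩
      · convert h3 using 2
        funext j
        simp only [sh]
        push_cast [Nat.cast_sub hle]
        ring
      · simp only [LinearMap.mulLeft_apply, map_mul]
        ring
    · rw [map_zero, zero_mul]; exact Submodule.zero_mem _
  · rintro _ ⟨v, hv, rfl⟩
    exact gen_mem_CI (Ideal.mem_span_singleton_self h) hh hv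

theorem CI_map_C (a : Ideal A) (b : Fin m → ℤ) (J : Fin m → Ch) :
    CI (a.map (C : A →+* MvPolynomial (Fin (m + 1)) A)) b J = a • Cm A b J := by
  refine le_antisymm (CI_le_of fun δ f v h1 h2 h3 => ?_) (Submodule.smul_le.2 fun r hr v hv => ?_)
  · rw [MvPolynomial.mem_map_C_iff] at h1
    rw [f.as_sum, map_sum, Finset.sum_mul]
    refine Submodule.sum_mem _ fun d hd => ?_
    have hd' : d.degree = δ := by
      by_contra h
      exact (mem_support_iff.1 hd) (h2.coeff_eq_zero h)
    have e : monomial d (coeff d f) = coeff d f • monomial d (1 : A) := by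
      rw [smul_monomial, smul_eq_mul, mul_one]
    rw [e, map_smul, smul_mul_assoc]
    exact Submodule.smul_mem_smul (h1 d) (psi_mul_mem_Cm (isHomogeneous_monomial _ hd') h3)
  · have := gen_mem_CI (c := a.map (C : A →+* MvPolynomial (Fin (m + 1)) A)) (b := b) (J := J)
      (γ := 0) (f := C r) (v := v) (Ideal.mem_map_of_mem _ hr) (isHomogeneous_C _ _)
      (by rwa [sh_zero])
    rwa [psi, aeval_C, ← Algebra.smul_def] at this

theorem mul_mem_CI {c : Ideal (MvPolynomial (Fin (m + 1)) A)} {b b' : Fin m → ℤ}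
    {J : Fin m → Ch} {v v' : Lau A m} (h : v ∈ CI c b J) (h' : v' ∈ Cm A b' J) :
    v * v' ∈ CI c (b + b') J := by
  refine (CI_le_of (N := (CI c (b + b') J).comap (LinearMap.mulRight A v'))
    fun δ f w h1 h2 h3 => ?_) h
  rw [Submodule.mem_comap, LinearMap.mulRight_apply, mul_assoc]
  refine gen_mem_CI h1 h2 ?_
  convert mul_mem_Cm h3 h' using 2
  funext j
  simp only [sh, Pi.add_apply]
  ring

namespace Chart

variable (J : Fin m → Ch)

/-- Type of the affine coordinate. -/
def tau (j : Fin m) : Bool := decide (J j ≠ Ch.V)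

/-- Exponent of the affine coordinate. -/
def sg (j : Fin m) : ℤ := if J j = Ch.V then -1 else 1

/-- Exponent vector of an affine monomial. -/
def Lx (d : Fin m →₀ ℕ) : Fin m → ℤ := fun j => sg J j * d j

/-- The `V`-part of a multidegree. -/
def vp (x : Fin m → ℤ) : Fin m → ℤ := fun j => if J j = Ch.V then x j else 0

/-- The indicator of the `W`-coordinates. -/
def wp (k : ℤ) : Fin m → ℤ := fun j => if J j = Ch.W then k else 0

theorem vp_mem (x : Fin m → ℤ) : vp J x ∈ Om x J := fun j =>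
  ⟨fun h => by simp [vp, h], fun h => by simp [vp, h]⟩

theorem wp_mem (k : ℤ) : wp J k ∈ Om 0 J := fun j =>
  ⟨fun h => by simp [wp, h], fun h => by simp [wp, h]⟩

theorem Lx_mem (d : Fin m →₀ ℕ) : Lx J d ∈ Om 0 J := fun j =>
  ⟨fun h => by simp [Lx, sg, h], fun h => by simp [Lx, sg, h]⟩

theorem Lx_inj : Function.Injective (Lx J) := by
  intro d d' h
  ext j
  have := congrFun h j
  simp only [Lx, sg] at this
  split_ifs at this <;> omega

/-- The affine coordinate ring inside the Laurent polynomials. -/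
noncomputable def iota (A : Type u) [CommRing A] (J : Fin m → Ch) :
    MvPolynomial (Fin m) A →ₐ[A] Lau A m :=
  aeval fun j => mon A (Pi.single j (sg J j))

theorem iota_monomial (d : Fin m →₀ ℕ) (a : A) :
    iota A J (monomial d a) = a • mon A (Lx J d) := by
  rw [iota, aeval_monomial, Finsupp.prod_fintype _ _ (by simp), ← Algebra.smul_def]
  simp only [← mon_nsmul, ← mon_sum]
  congr 2
  funext j
  simp [Finset.sum_apply, Pi.single_apply, Lx, mul_comm]

theorem iota_coeff (p : MvPolynomial (Fin m) A) (d : Fin m →₀ ℕ) :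
    (iota A J p).coeff (Lx J d) = coeff d p := by
  classical
  induction p using MvPolynomial.induction_on' with
  | monomial d' a =>
    rw [iota_monomial, coeff_monomial]
    simp [mon, Finsupp.single_apply, (Lx_inj J).eq_iff]
  | add p q hp hq => simp [hp, hq]

theorem iota_inj : Function.Injective (iota A J) := by
  intro p q h
  ext d
  rw [← iota_coeff J, ← iota_coeff J, h]

theorem iota_mem (p : MvPolynomial (Fin m) A) : iota A J p ∈ Cm A 0 J := by
  induction p using MvPolynomial.induction_on' with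
  | monomial d a => rw [iota_monomial]; exact Submodule.smul_mem _ _ (mon_mem (Lx_mem J d))
  | add p q hp hq => rw [map_add]; exact Submodule.add_mem _ hp hq

theorem exists_iota_wp (N : ℕ) : ∃ q, iota A J q = mon A (wp J N) := by
  refine ⟨monomial (Finsupp.equivFunOnFinite.symm fun j => if J j = Ch.W then N else 0) 1, ?_⟩
  rw [iota_monomial, one_smul]
  congr 1
  funext j
  simp only [Lx, sg, wp, Finsupp.equivFunOnFinite_symm_apply_apply]
  cases J j <;> simp

theorem wp_add (k l : ℤ) : wp J (k + l) = wp J k + wp J l := by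
  funext j
  simp only [wp, Pi.add_apply]
  split_ifs <;> simp

/-- Elements that become polynomial after clearing denominators. -/
noncomputable def Clr (K : Ideal (MvPolynomial (Fin m) A)) : Submodule A (Lau A m) where
  carrier := {v | ∃ (N : ℕ) (q : MvPolynomial (Fin m) A), q ∈ K ∧ iota A J q = v * mon A (wp J N)}
  zero_mem' := ⟨0, 0, K.zero_mem, by simp⟩
  add_mem' := by
    rintro v v' ⟨N, q, hq, e⟩ ⟨N', q', hq', e'⟩
    obtain ⟨z, hz⟩ := exists_iota_wp (A := A) J N
    obtain ⟨z', hz'⟩ := exists_iota_wp (A := A) J N'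
    refine ⟨N + N', q * z' + q' * z,
      K.add_mem (K.mul_mem_right _ hq) (K.mul_mem_right _ hq'), ?_⟩
    rw [map_add, map_mul, map_mul, e, e', hz, hz', Nat.cast_add, wp_add, mon_add]
    ring
  smul_mem' := by
    rintro a v ⟨N, q, hq, e⟩
    refine ⟨N, C a * q, K.mul_mem_left _ hq, ?_⟩
    rw [← smul_eq_C_mul, map_smul, e, smul_mul_assoc]

theorem Cm_le_Clr : Cm A 0 J ≤ Clr J (⊤ : Ideal (MvPolynomial (Fin m) A)) := by
  rw [Cm_eq_span, Submodule.span_le]
  rintro _ ⟨β, hβ, rfl⟩
  refine ⟨∑ j, (β j).natAbs, monomial (Finsupp.equivFunOnFinite.symm fun j =>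
    ((β + wp J (∑ j, (β j).natAbs : ℕ)) j).natAbs) 1, trivial, ?_⟩
  rw [iota_monomial, one_smul, ← mon_add]
  congr 1
  funext j
  have h1 : (β j).natAbs ≤ ∑ j, (β j).natAbs :=
    Finset.single_le_sum (f := fun j => (β j).natAbs) (fun _ _ => Nat.zero_le _)
      (Finset.mem_univ j)
  have h2 := hβ j
  generalize ∑ j, (β j).natAbs = N at h1
  simp only [Lx, sg, wp, Finsupp.equivFunOnFinite_symm_apply_apply, Pi.add_apply, Pi.zero_apply]
    at h2 ⊢
  cases h : J j <;> simp only [h, reduceCtorEq, if_true, if_false, forall_true_left,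
    IsEmpty.forall_iff, and_true, true_and] at h2 ⊢ <;> omega

/-- The chart map in affine coordinates. -/
noncomputable def psiT (A : Type u) [CommRing A] (J : Fin m → Ch) :
    MvPolynomial (Fin (m + 1)) A →ₐ[A] MvPolynomial (Fin m) A :=
  aeval fun i : Fin (m + 1) =>
    (∏ j : Fin m, linf (tau J j) (X j : MvPolynomial (Fin m) A)).coeff i

theorem iota_coeff_linf (i : Fin (m + 1)) :
    iota A J ((∏ j : Fin m, linf (tau J j) (X j : MvPolynomial (Fin m) A)).coeff i) =
      ee A m i * mon A (vp J fun _ => -1) := by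
  have h1 : ∀ j, (linf (tau J j) (X j : MvPolynomial (Fin m) A)).map
      (iota A J : MvPolynomial (Fin m) A →+* Lau A m) =
      (1 + Polynomial.C (wv A j) * Polynomial.X) *
        Polynomial.C (mon A (Pi.single j (vp J (fun _ => -1) j))) := by
    intro j
    have hX : iota A J (X j) = mon A (Pi.single j (sg J j)) := by simp [iota]
    by_cases h : J j = Ch.V
    · have e : wv A j * mon A (Pi.single j (-1)) = 1 := by
        change mon A _ * _ = _
        rw [← mon_add, ← Pi.single_add, add_neg_cancel, Pi.single_zero, mon_zero]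
      simp only [linf, tau, h, ne_eq, not_true_eq_false, decide_false, Bool.false_eq_true,
        if_false, Polynomial.map_add, Polynomial.map_C, Polynomial.map_X, RingHom.coe_coe, hX, sg,
        if_true, vp]
      rw [add_mul, one_mul, mul_right_comm, ← Polynomial.C_mul, e, Polynomial.C_1, one_mul]
    · simp only [linf, tau, h, ne_eq, not_false_eq_true, decide_true, if_true,
        Polynomial.map_add, Polynomial.map_mul, Polynomial.map_one, Polynomial.map_C,
        Polynomial.map_X, RingHom.coe_coe, hX, sg, if_false, vp, Pi.single_zero, mon_zero,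
        Polynomial.C_1, mul_one]
      rfl
  have h2 := Polynomial.coeff_map (p := ∏ j : Fin m, linf (tau J j) (X j : MvPolynomial (Fin m) A))
    (iota A J : MvPolynomial (Fin m) A →+* Lau A m) i
  rw [RingHom.coe_coe] at h2
  rw [← h2, Polynomial.map_prod]
  simp only [h1]
  rw [Finset.prod_mul_distrib, ← map_prod, ← mon_sum, Polynomial.coeff_mul_C,
    Finset.univ_sum_single]
  rfl

theorem iota_psiT {f : MvPolynomial (Fin (m + 1)) A} {γ : ℕ} (hf : f.IsHomogeneous γ) :
    iota A J (psiT A J f) = psi A m f * mon A (vp J fun _ => -(γ : ℤ)) := by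
  rw [psiT, comp_aeval_apply]
  simp only [iota_coeff_linf]
  rw [aeval_hom_mul hf, ← mon_nsmul]
  congr 2
  funext j
  simp only [vp, Pi.smul_apply]
  split_ifs <;> simp

theorem cone_eq {f : MvPolynomial (Fin (m + 1)) A} {γ : ℕ} (hf : f.IsHomogeneous γ) :
    PsiCone A m (tau J) f = Polynomial.C (psiT A J f) * Polynomial.X ^ γ := by
  rw [PsiCone, aeval_hom_mul hf]
  congr 1
  exact (comp_aeval_apply (f := _) (Polynomial.CAlgHom (R := A)) f).symm

theorem eval_cone : (Polynomial.evalRingHom 1).comp (PsiCone A m (tau J)).toRingHom =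
    (psiT A J).toRingHom := by
  refine MvPolynomial.ringHom_ext (fun a => ?_) fun i => ?_
  · simp [PsiCone, psiT]
  · simp [PsiCone, psiT]

theorem colon_psiT {c : Ideal (MvPolynomial (Fin (m + 1)) A)} (hc : IsHom c)
    {h : MvPolynomial (Fin (m + 1)) A} {γ : ℕ} (hh : h.IsHomogeneous γ)
    {q : MvPolynomial (Fin m) A} (hq : psiT A J h * q ∈ c.map (psiT A J).toRingHom) :
    q ∈ (c.colon {h}).map (psiT A J).toRingHom := by
  obtain ⟨N, hN⟩ : ∃ N : ℕ, Polynomial.C (psiT A J h * q) * Polynomial.X ^ N ∈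
      c.map (PsiCone A m (tau J)).toRingHom := by
    refine hc.map_ind (psiT A J).toRingHom (fun p => ∃ N : ℕ,
      Polynomial.C p * Polynomial.X ^ N ∈ c.map (PsiCone A m (tau J)).toRingHom) ?_ ?_ ?_ hq
    · exact ⟨0, by simp⟩
    · rintro x y ⟨N, hx⟩ ⟨N', hy⟩
      refine ⟨N + N', ?_⟩
      have := Ideal.add_mem _ (Ideal.mul_mem_right (Polynomial.X ^ N') _ hx)
        (Ideal.mul_mem_right (Polynomial.X ^ N) _ hy)
      convert this using 1
      rw [map_add]
      ring
    · intro δ f r hf hδ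
      refine ⟨δ, ?_⟩
      have := Ideal.mul_mem_left _ (Polynomial.C r)
        (Ideal.mem_map_of_mem (PsiCone A m (tau J)).toRingHom hf)
      convert this using 1
      change _ = _ * PsiCone A m (tau J) f
      rw [cone_eq J hδ, map_mul, mul_assoc]
      rfl
  obtain ⟨n, hn⟩ := fa_psiCone A m (tau J) c h (Polynomial.C q * Polynomial.X ^ N) (by
    have := Ideal.mul_mem_right (Polynomial.X ^ γ) _ hN
    convert this using 1
    change PsiCone A m (tau J) h * _ = _
    rw [cone_eq J hh, map_mul]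
    ring)
  have := Ideal.mem_map_of_mem (Polynomial.evalRingHom 1) hn
  rw [Ideal.map_map, eval_cone] at this
  simpa using this

theorem iota_mem_CI {c : Ideal (MvPolynomial (Fin (m + 1)) A)} (hc : IsHom c)
    {p : MvPolynomial (Fin m) A} (hp : p ∈ c.map (psiT A J).toRingHom) :
    iota A J p ∈ CI c 0 J := by
  refine hc.map_ind (psiT A J).toRingHom (fun p => iota A J p ∈ CI c 0 J) ?_ ?_ ?_ hp
  · simp
  · intro x y hx hy; rw [map_add]; exact Submodule.add_mem _ hx hy
  · intro δ f r hf hδ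
    change iota A J (r * psiT A J f) ∈ _
    rw [map_mul, iota_psiT J hδ, mul_comm]
    have h1 : psi A m f * mon A (vp J fun _ => -(δ : ℤ)) ∈ CI c 0 J := by
      refine gen_mem_CI hf hδ ?_
      convert mon_mem (A := A) (vp_mem J fun _ => -(δ : ℤ)) using 2
      funext j; simp [sh]
    simpa using mul_mem_CI h1 (iota_mem J r)

theorem CI_le_Clr (c : Ideal (MvPolynomial (Fin (m + 1)) A)) :
    CI c 0 J ≤ Clr J (c.map (psiT A J).toRingHom) := by
  refine CI_le_of fun δ f v hf hδ hv => ?_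
  have h1 : v * mon A (vp J fun _ => (δ : ℤ)) ∈ Cm A 0 J := by
    convert mul_mem_Cm hv (mon_mem (A := A) (vp_mem J fun _ => (δ : ℤ))) using 2
    funext j; simp [sh]
  obtain ⟨N, q, -, e⟩ := Cm_le_Clr J h1
  refine ⟨N, psiT A J f * q,
    Ideal.mul_mem_right _ _ (Ideal.mem_map_of_mem (psiT A J).toRingHom hf), ?_⟩
  have e2 : mon A (vp J fun _ => -(δ : ℤ)) * mon A (vp J fun _ => (δ : ℤ)) = 1 := by
    rw [← mon_add, ← mon_zero]
    congr 1
    funext j
    simp only [vp, Pi.add_apply, Pi.zero_apply]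
    split_ifs <;> simp
  rw [map_mul, iota_psiT J hδ, e]
  linear_combination (psi A m f * v * mon A (wp J N)) * e2

end Chart

open Chart in
/-- The colon lemma. -/
theorem CI_colon {c : Ideal (MvPolynomial (Fin (m + 1)) A)} (hc : IsHom c)
    {h : MvPolynomial (Fin (m + 1)) A} {γ : ℕ} (hh : h.IsHomogeneous γ) (b : Fin m → ℤ)
    (J : Fin m → Ch) :
    Cm A (sh b (-γ)) J ⊓ (CI c b J).comap (LinearMap.mulLeft A (psi A m h)) =
      CI (c.colon {h}) (sh b (-γ)) J := by
  refine le_antisymm ?_ (le_inf (CI_le _ _ J) (CI_le_of fun δ f v hf hδ hv => ?_))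
  · rintro v ⟨hv, hv'⟩
    rw [SetLike.mem_coe, Submodule.mem_comap, LinearMap.mulLeft_apply] at hv'
    have h1 := mul_mem_Cm hv (mon_mem (A := A) (vp_mem J (-sh b (-γ))))
    have h2 := mul_mem_CI hv' (mon_mem (A := A) (vp_mem J (-b)))
    rw [add_neg_cancel] at h1 h2
    obtain ⟨N, q, -, e1⟩ := Cm_le_Clr J h1
    obtain ⟨M, p, hp, e2⟩ := CI_le_Clr J c h2
    obtain ⟨zN, hN⟩ := exists_iota_wp (A := A) J N
    obtain ⟨zM, hM⟩ := exists_iota_wp (A := A) J M
    have e3 : mon A (vp J fun _ => -(γ : ℤ)) * mon A (vp J (-sh b (-γ))) = mon A (vp J (-b)) := by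
      rw [← mon_add]
      congr 1
      funext j
      simp only [vp, sh, Pi.add_apply, Pi.neg_apply]
      split_ifs <;> ring
    have e4 : psiT A J h * (q * zM) = p * zN := by
      apply iota_inj J
      rw [map_mul, map_mul, map_mul, iota_psiT J hh, e1, e2, hN, hM, ← e3]
      ring
    have h3 := iota_mem_CI J (hc.colon hh)
      (colon_psiT J hc hh (q := q * zM) (by rw [e4]; exact Ideal.mul_mem_right _ _ hp))
    have h4 := mul_mem_CI (mul_mem_CI h3 (mon_mem (A := A) (wp_mem J (-(N + M)))))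
      (mon_mem (A := A) (vp_mem J (sh b (-γ))))
    rw [map_mul, e1, hM, add_zero, zero_add] at h4
    have e5 : vp J (-sh b (-γ)) + (wp J N + (wp J M + (wp J (-(N + M)) + vp J (sh b (-γ))))) =
        0 := by
      funext j
      simp only [vp, wp, Pi.add_apply, Pi.neg_apply, Pi.zero_apply]
      split_ifs <;> ring
    rw [mul_assoc, mul_assoc, mul_assoc, mul_assoc, ← mon_add, ← mon_add, ← mon_add, ← mon_add,
      e5, mon_zero, mul_one] at h4
    exact h4
  · rw [Submodule.mem_comap, LinearMap.mulLeft_apply]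
    rw [Submodule.mem_colon_singleton, smul_eq_mul] at hf
    rw [← mul_assoc, ← map_mul, mul_comm h]
    refine gen_mem_CI hf (hδ.mul hh) ?_
    convert hv using 2
    funext j
    simp only [sh]
    push_cast
    ring

theorem psi_ne_zero [IsDomain A] {g : MvPolynomial (Fin (m + 1)) A} {γ : ℕ}
    (hg : g.IsHomogeneous γ) (h0 : g ≠ 0) : psi A m g ≠ 0 := by
  intro h
  have h1 := CI_colon isHom_bot hg (fun _ => (γ : ℤ)) (fun _ => Ch.U)
  have h2 : (⊥ : Ideal (MvPolynomial (Fin (m + 1)) A)).colon {g} = ⊥ := by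
    refine le_antisymm (fun f hf => ?_) bot_le
    rw [Submodule.mem_colon_singleton, smul_eq_mul, Ideal.mem_bot] at hf
    exact (mul_eq_zero.1 hf).resolve_right h0
  rw [h2, CI_bot, CI_bot] at h1
  have h3 : (1 : Lau A m) ∈ (⊥ : (Fin m → Ch) → Submodule A (Lau A m)) (fun _ => Ch.U) := by
    rw [← h1]
    refine ⟨one_mem_Cm (fun j => by simp [sh]) _, ?_⟩
    simp [h]
  simp at h3

open Chart in
/-- The powers `ee i ^ N` generate the unit ideal on every chart. -/
theorem exists_ee_unit (J : Fin m → Ch) (N : ℕ) :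
    ∃ c : Fin (m + 1) → Lau A m, ∑ i, ee A m i ^ N * c i = 1 ∧
      ∀ i, c i ∈ Cm A (fun _ => -(N : ℤ)) J := by
  have h1 := Ideal.span_pow_eq_top _ (span_coeff_linf (MvPolynomial (Fin m) A) (tau J) X) N
  rw [← Set.range_comp, Ideal.eq_top_iff_one, Ideal.mem_span_range_iff_exists_fun] at h1
  obtain ⟨a, ha⟩ := h1
  refine ⟨fun i => iota A J (a i) * mon A (vp J fun _ => -1) ^ N, ?_, fun i => ?_⟩
  · have := congrArg (iota A J) ha
    rw [map_sum, map_one] at this
    rw [← this]
    refine Finset.sum_congr rfl fun i _ => ?_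
    simp only [Function.comp, map_mul, map_pow, iota_coeff_linf]
    ring
  · convert mul_mem_Cm (iota_mem J (a i))
      (pow_mem_Cm (mon_mem (A := A) (vp_mem J fun _ => -1)) N) using 2
    funext j
    simp

theorem piece_hh (μ : LenFun A) {c : Ideal (MvPolynomial (Fin (m + 1)) A)} (hc : IsHom c)
    {h : MvPolynomial (Fin (m + 1)) A} {γ : ℕ} (hh' : h.IsHomogeneous γ) (b : Fin m → ℤ)
    (n : ℤ) :
    hh μ (cd A m (Lau A m)) (Cech (CI c b)) (Cech (CI (c ⊔ Ideal.span {h}) b)) n =
      hh μ (cd A m (Lau A m)) (Cech (CI (c.colon {h}) (sh b (-γ)))) (Cech (Cm A (sh b (-γ)))) n := by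
  refine (hh_cech_transfer μ (LinearMap.mulLeft A (psi A m h)) (Cm_cmono _) (CI_cmono c b)
    (fun J => ?_) (fun J => CI_colon hc hh' b J) n).symm
  rw [CI_sup hc (isHom_span_singleton hh'), CI_span_singleton hh', sup_comm]

namespace Coef

variable {B : Type u} [CommRing B] [Algebra A B]

/-- Change of coefficients. -/
noncomputable def phi (A B : Type u) [CommRing A] [CommRing B] [Algebra A B] (m : ℕ) :
    Lau A m →ₐ[A] Lau B m :=
  AddMonoidAlgebra.mapAlgHom (Fin m → ℤ) (Algebra.ofId A B)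

theorem phi_mon (β : Fin m → ℤ) : phi A B m (mon A β) = mon B β := by
  simp [phi, mon]

theorem phi_coeff (v : Lau A m) (β : Fin m → ℤ) :
    (phi A B m v).coeff β = algebraMap A B (v.coeff β) := by
  simp [phi]

theorem phi_ee (i : Fin (m + 1)) : phi A B m (ee A m i) = ee B m i := by
  have h2 := Polynomial.coeff_map
    (p := ∏ j : Fin m, (1 + Polynomial.C (wv A j) * Polynomial.X : Polynomial (Lau A m)))
    (phi A B m : Lau A m →+* Lau B m) i
  rw [RingHom.coe_coe] at h2
  rw [ee, ← h2, Polynomial.map_prod]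
  have : ∀ j, phi A B m (wv A j) = wv B j := fun j => phi_mon _
  simp [ee, this]

theorem phi_psi (f : MvPolynomial (Fin (m + 1)) A) :
    phi A B m (psi A m f) = psi B m (MvPolynomial.map (algebraMap A B) f) := by
  rw [psi, psi, comp_aeval_apply, aeval_map_algebraMap]
  simp only [phi_ee]

theorem phi_mem {b : Fin m → ℤ} {J : Fin m → Ch} {v : Lau A m} (h : v ∈ Cm A b J) :
    phi A B m v ∈ Cm B b J :=
  mem_Cm.2 fun β hβ => by rw [phi_coeff, mem_Cm.1 h β hβ, map_zero]

theorem smul_mem_map (hf : Function.Surjective (algebraMap A B)) {N : Submodule A (Lau A m)}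
    {s : Set (Lau B m)} (hs : ∀ x ∈ s, ∃ y ∈ N, phi A B m y = x) {x : Lau B m}
    (hx : x ∈ Submodule.span B s) : ∃ y ∈ N, phi A B m y = x := by
  refine Submodule.span_induction (p := fun x _ => ∃ y ∈ N, phi A B m y = x) hs
    ⟨0, N.zero_mem, map_zero _⟩ ?_ ?_ hx
  · rintro _ _ _ _ ⟨y, hy, rfl⟩ ⟨y', hy', rfl⟩
    exact ⟨y + y', N.add_mem hy hy', map_add _ _ _⟩
  · rintro r _ _ ⟨y, hy, rfl⟩
    obtain ⟨a, rfl⟩ := hf r
    exact ⟨a • y, N.smul_mem a hy, by rw [map_smul, algebraMap_smul]⟩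

theorem exists_phi (hf : Function.Surjective (algebraMap A B)) {b : Fin m → ℤ} {J : Fin m → Ch}
    {x : Lau B m} (h : x ∈ Cm B b J) : ∃ y ∈ Cm A b J, phi A B m y = x := by
  rw [Cm_eq_span] at h
  refine smul_mem_map hf ?_ h
  rintro _ ⟨β, hβ, rfl⟩
  exact ⟨_, mon_mem hβ, phi_mon β⟩

theorem mem_ker_smul {b : Fin m → ℤ} {J : Fin m → Ch} {v : Lau A m} (h : v ∈ Cm A b J)
    (h0 : phi A B m v = 0) : v ∈ RingHom.ker (algebraMap A B) • Cm A b J := by
  rw [← v.sum_coeff_single, Finsupp.sum]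
  refine Submodule.sum_mem _ fun β hβ => ?_
  have e : AddMonoidAlgebra.single β (v.coeff β) = v.coeff β • mon A β := by simp [mon]
  rw [e]
  refine Submodule.smul_mem_smul ?_ (mon_mem ?_)
  · rw [RingHom.mem_ker, ← phi_coeff, h0]; rfl
  · by_contra h'
    exact Finsupp.mem_support_iff.1 hβ (mem_Cm.1 h β h')

end Coef

open Coef in
/-- Passing to a quotient of the coefficient ring. -/
theorem hh_CI_map {B : Type u} [CommRing B] [Algebra A B]
    (hf : Function.Surjective (algebraMap A B)) {c : Ideal (MvPolynomial (Fin (m + 1)) A)}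
    (hc : IsHom c)
    (hk : (RingHom.ker (algebraMap A B)).map (C : A →+* MvPolynomial (Fin (m + 1)) A) ≤ c)
    (b : Fin m → ℤ) (n : ℤ) :
    hh (lenF A) (cd A m (Lau A m)) (Cech (CI c b)) (Cech (Cm A b)) n =
      hh (lenF B) (cd B m (Lau B m))
        (Cech (CI (c.map (MvPolynomial.map (algebraMap A B))) b)) (Cech (Cm B b)) n := by
  rw [← hh_restrictScalars_of_surjective hf, cd_restrictScalars]
  simp only [cech_restrictScalars]
  refine hh_cech_transfer (lenF A) (phi A B m).toLinearMap (Cm_cmono b)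
    (G' := fun J => (CI (c.map (MvPolynomial.map (algebraMap A B))) b J).restrictScalars A)
    (G'' := fun J => (Cm B b J).restrictScalars A)
    (fun J j hj => CI_cmono (c.map (MvPolynomial.map (algebraMap A B))) b J j hj)
    (fun J => ?_) (fun J => ?_) n
  · refine le_antisymm (sup_le ?_ fun x hx => CI_le _ b J hx) fun x hx => ?_
    · rintro _ ⟨v, hv, rfl⟩
      exact phi_mem hv
    · obtain ⟨y, hy, rfl⟩ := exists_phi hf hx
      exact Submodule.mem_sup_left ⟨y, hy, rfl⟩
  · refine le_antisymm ?_ (le_inf (CI_le c b J) (CI_le_of fun δ f v h1 h2 h3 => ?_))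
    · rintro v ⟨hv, hv'⟩
      rw [SetLike.mem_coe, Submodule.mem_comap, Submodule.restrictScalars_mem,
        AlgHom.toLinearMap_apply] at hv'
      obtain ⟨y, hy, e⟩ := smul_mem_map (N := CI c b J) hf (by
        rintro _ ⟨δ, f', v', h1, h2, h3, rfl⟩
        obtain ⟨f, hf1, rfl⟩ := (Ideal.mem_map_iff_of_surjective _
          (MvPolynomial.map_surjective _ hf)).1 h1
        obtain ⟨w, hw, rfl⟩ := exists_phi hf h3
        refine ⟨_, gen_mem_CI (hc f hf1 δ) (homogeneousComponent_isHomogeneous δ f) hw, ?_⟩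
        rw [map_mul, phi_psi, ← hcomp_map, homogeneousComponent_eq_self h2]) hv'
      have h1 := mem_ker_smul (B := B) (Submodule.sub_mem _ hv (CI_le c b J hy))
        (by rw [map_sub, e, sub_self])
      rw [← CI_map_C] at h1
      simpa using Submodule.add_mem _ (CI_mono hk b J h1) hy
    · rw [Submodule.mem_comap, Submodule.restrictScalars_mem, AlgHom.toLinearMap_apply,
        map_mul, phi_psi]
      exact gen_mem_CI (Ideal.mem_map_of_mem _ h1) (h2.map _) (phi_mem h3)

end Vale.Agent.P202
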