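import Vale.Agent.P202.Cx

/-! The Koszul complex: basic identities. -/

namespace Vale.Agent.P202

open IsLocalRing

universe u

variable {S : Type u} [CommRing S] {d : ℕ} {M : Type u} [AddCommGroup M] [Module S M]
  {M' : Type u} [AddCommGroup M'] [Module S M']

theorem mem_coord {ι : Type} {p : ι → Prop} [DecidablePred p] {N : Submodule S M} {ξ : ι → M} :
    ξ ∈ Coord p N ↔ (∀ A, p A → ξ A ∈ N) ∧ ∀ A, ¬ p A → ξ A = 0 := by
  unfold Coord
  rw [Submodule.mem_pi]
  constructor
  · intro h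
    exact ⟨fun A hA => by simpa [hA] using h A trivial,
      fun A hA => by simpa [hA] using h A trivial⟩
  · rintro ⟨h1, h2⟩ A -
    by_cases hA : p A
    · simpa [hA] using h1 A hA
    · simpa [hA] using h2 A hA

theorem coord_mono {ι : Type} (p : ι → Prop) [DecidablePred p] {N N' : Submodule S M}
    (h : N ≤ N') : Coord p N ≤ Coord p N' := by
  intro ξ hξ
  rw [mem_coord] at hξ ⊢
  exact ⟨fun A hA => h (hξ.1 A hA), hξ.2⟩

theorem coord_sup {ι : Type} [Finite ι] (p : ι → Prop) [DecidablePred p] (N N' : Submodule S M) :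
    Coord p (N ⊔ N') = Coord p N ⊔ Coord p N' := by
  apply le_antisymm
  · intro ξ hξ
    rw [mem_coord] at hξ
    have h : ∀ A, ∃ a ∈ N, ∃ b ∈ N', a + b = ξ A ∧ (¬ p A → a = 0 ∧ b = 0) := by
      intro A
      by_cases hA : p A
      · obtain ⟨a, ha, b, hb, hab⟩ := Submodule.mem_sup.1 (hξ.1 A hA)
        exact ⟨a, ha, b, hb, hab, fun h => absurd hA h⟩
      · exact ⟨0, N.zero_mem, 0, N'.zero_mem, by rw [hξ.2 A hA, add_zero], fun _ => ⟨rfl, rfl⟩⟩
    choose a ha b hb hab h0 using h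
    refine Submodule.mem_sup.2 ⟨a, mem_coord.2 ⟨fun A _ => ha A, fun A hA => (h0 A hA).1⟩,
      b, mem_coord.2 ⟨fun A _ => hb A, fun A hA => (h0 A hA).2⟩, funext hab⟩
  · exact sup_le (coord_mono p le_sup_left) (coord_mono p le_sup_right)

theorem coord_smul {ι : Type} [Finite ι] (p : ι → Prop) [DecidablePred p] (I : Ideal S)
    (N : Submodule S M) : Coord p (I • N) = I • Coord p N := by
  classical
  apply le_antisymm
  · intro ξ hξ
    rw [mem_coord] at hξ
    have := Fintype.ofFinite ι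
    rw [← Finset.univ_sum_single ξ]
    refine Submodule.sum_mem _ fun A _ => ?_
    by_cases hA : p A
    · refine Submodule.smul_induction_on (p := fun x => Pi.single A x ∈ I • Coord p N)
        (hξ.1 A hA) ?_ ?_
      · intro r hr x hx
        rw [Pi.single_smul]
        refine Submodule.smul_mem_smul hr (mem_coord.2 ⟨fun B _ => ?_, fun B hB => ?_⟩)
        · by_cases hBA : B = A
          · subst hBA; simpa using hx
          · simp [hBA]
        · have hBA : B ≠ A := fun h => hB (h ▸ hA)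
          simp [hBA]
      · intro x y hx hy
        rw [Pi.single_add]
        exact Submodule.add_mem _ hx hy
    · rw [hξ.2 A hA, Pi.single_zero]
      exact Submodule.zero_mem _
  · rw [Submodule.smul_le]
    intro r hr ξ hξ
    rw [mem_coord] at hξ ⊢
    exact ⟨fun A hA => Submodule.smul_mem_smul hr (hξ.1 A hA),
      fun A hA => by simp [hξ.2 A hA]⟩

theorem ksgn_mul_self (A : Finset (Fin d)) (i : Fin d) : ksgn A i * ksgn A i = 1 := by
  unfold ksgn
  rw [← mul_pow]
  simp

theorem ksgn_insert {A : Finset (Fin d)} {j : Fin d} (hj : j ∉ A) (i : Fin d) :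
    ksgn (insert j A) i = (if j < i then -1 else 1) * ksgn A i := by
  unfold ksgn
  rw [Finset.filter_insert]
  by_cases h : j < i
  · rw [if_pos h, if_pos h, Finset.card_insert_of_notMem (fun h' => hj (Finset.mem_filter.1 h').1),
      pow_succ, mul_comm]
  · rw [if_neg h, if_neg h, one_mul]

theorem ksgn_insert_self (A : Finset (Fin d)) (i : Fin d) : ksgn (insert i A) i = ksgn A i := by
  unfold ksgn
  rw [Finset.filter_insert, if_neg (lt_irrefl i)]

theorem ksgn_erase_self (A : Finset (Fin d)) (i : Fin d) : ksgn (A.erase i) i = ksgn A i := by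
  by_cases h : i ∈ A
  · rw [← ksgn_insert_self (A.erase i) i, Finset.insert_erase h]
  · rw [Finset.erase_eq_of_notMem h]

theorem ksgn_anti {A : Finset (Fin d)} {i j : Fin d} (hi : i ∉ A) (hj : j ∉ A) (hij : i ≠ j) :
    ksgn A i * ksgn (insert i A) j = -(ksgn A j * ksgn (insert j A) i) := by
  rw [ksgn_insert hi, ksgn_insert hj]
  rcases lt_or_gt_of_ne hij with h | h
  · rw [if_pos h, if_neg h.not_gt]; ring
  · rw [if_neg h.not_gt, if_pos h]; ring

theorem kh_apply (i : Fin d) (ξ : Finset (Fin d) → M) (A : Finset (Fin d)) :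
    kh S i M ξ A = if i ∈ A then ((ksgn A i : ℤ) : S) • ξ (A.erase i) else 0 := by
  unfold kh
  rw [LinearMap.pi_apply]
  split_ifs <;> rfl

theorem kP_apply (n : ℤ) (ξ : Finset (Fin d) → M) (A : Finset (Fin d)) :
    kP S d M n ξ A = if (A.card : ℤ) = n then ξ A else 0 := by
  unfold kP
  rw [LinearMap.pi_apply]
  split_ifs <;> rfl

theorem kd_apply (y : Fin d → S) (ξ : Finset (Fin d) → M) (A : Finset (Fin d)) :
    kd y M ξ A = ∑ i ∈ Aᶜ, (((ksgn A i : ℤ) : S) * y i) • ξ (insert i A) := by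
  simp [kd, LinearMap.pi_apply, LinearMap.sum_apply]

theorem kd_comp_kd (y : Fin d → S) : kd y M ∘ₗ kd y M = 0 := by
  refine LinearMap.ext fun ξ => ?_
  funext A
  rw [LinearMap.comp_apply, kd_apply]
  let G : Fin d × Fin d → M := fun q => if q.2 ≠ q.1 then
    (((ksgn A q.1 * ksgn (insert q.1 A) q.2 : ℤ) : S) * (y q.1 * y q.2)) •
      ξ (insert q.2 (insert q.1 A)) else 0
  have h1 : ∑ i ∈ Aᶜ, (((ksgn A i : ℤ) : S) * y i) • kd y M ξ (insert i A) =
      ∑ q ∈ Aᶜ ×ˢ Aᶜ, G q := by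
    rw [Finset.sum_product]
    refine Finset.sum_congr rfl fun i _ => ?_
    rw [kd_apply, Finset.smul_sum, Finset.compl_insert, ← Finset.filter_ne', Finset.sum_filter]
    refine Finset.sum_congr rfl fun j _ => ?_
    simp only [G]
    split_ifs
    · rw [smul_smul]
      congr 1
      push_cast
      ring
    · rfl
  rw [h1]
  change _ = (0 : M)
  refine Finset.sum_involution (fun q _ => q.swap) ?_ ?_ ?_ ?_
  · rintro ⟨i, j⟩ hq
    obtain ⟨hi, hj⟩ := Finset.mem_product.1 hq
    by_cases hij : j = i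
    · simp [G, hij]
    · have hij' : i ≠ j := fun h => hij h.symm
      simp only [G, Prod.swap, ne_eq, hij, hij', not_false_eq_true, if_true]
      rw [ksgn_anti (Finset.mem_compl.1 hi) (Finset.mem_compl.1 hj) hij', Finset.insert_comm j i,
        ← add_smul]
      convert zero_smul S _
      push_cast
      ring
  · rintro ⟨i, j⟩ _ hG h
    apply hG
    have hij : j = i := congrArg Prod.fst h
    simp [G, hij]
  · rintro ⟨i, j⟩ hq
    obtain ⟨hi, hj⟩ := Finset.mem_product.1 hq
    exact Finset.mem_product.2 ⟨hj, hi⟩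
  · rintro ⟨i, j⟩ _
    rfl

theorem kd_kh (y : Fin d → S) (i : Fin d) (ξ : Finset (Fin d) → M) :
    kd y M (kh S i M ξ) + kh S i M (kd y M ξ) = y i • ξ := by
  funext A
  rw [Pi.add_apply, kd_apply, kh_apply, Pi.smul_apply]
  by_cases hi : i ∈ A
  · obtain ⟨B, hB, rfl⟩ : ∃ B, i ∉ B ∧ A = insert i B :=
      ⟨A.erase i, Finset.notMem_erase i A, (Finset.insert_erase hi).symm⟩
    rw [if_pos hi, Finset.erase_insert hB, kd_apply,
      ← Finset.add_sum_erase Bᶜ _ (Finset.mem_compl.2 hB), ← Finset.compl_insert, smul_add,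
      add_left_comm, Finset.smul_sum, ← Finset.sum_add_distrib, Finset.sum_eq_zero, add_zero,
      smul_smul, ksgn_insert_self, ← mul_assoc, ← Int.cast_mul, ksgn_mul_self, Int.cast_one,
      one_mul]
    intro j hj
    have hj' : j ∉ insert i B := Finset.mem_compl.1 hj
    have hji : j ≠ i := fun h => hj' (h ▸ Finset.mem_insert_self _ _)
    have hjB : j ∉ B := fun h => hj' (Finset.mem_insert_of_mem h)
    rw [kh_apply, if_pos (Finset.mem_insert_of_mem hi), Finset.erase_insert_of_ne hji,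
      Finset.erase_insert hB, smul_smul, smul_smul, ← add_smul, ksgn_insert hj' i,
      ksgn_insert hB j]
    convert zero_smul S _
    rcases lt_or_gt_of_ne hji with h | h
    · rw [if_pos h, if_neg h.not_gt]; push_cast; ring
    · rw [if_neg h.not_gt, if_pos h]; push_cast; ring
  · rw [if_neg hi, add_zero, Finset.sum_eq_single_of_mem i (Finset.mem_compl.2 hi), kh_apply,
      if_pos (Finset.mem_insert_self _ _), Finset.erase_insert hi, smul_smul, ksgn_insert_self,
      mul_right_comm, ← Int.cast_mul, ksgn_mul_self, Int.cast_one, one_mul]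
    intro j _ hji
    rw [kh_apply, if_neg, smul_zero]
    intro h
    rcases Finset.mem_insert.1 h with h | h
    · exact hji h.symm
    · exact hi h

theorem mem_kos {T : Finset (Fin d)} {N : Submodule S M} {n : ℤ} {ξ : Finset (Fin d) → M} :
    ξ ∈ Kos T N n ↔ (∀ A, (A ⊆ T ∧ (A.card : ℤ) = n) → ξ A ∈ N) ∧
      ∀ A, ¬ (A ⊆ T ∧ (A.card : ℤ) = n) → ξ A = 0 :=
  mem_coord

theorem apply_mem_of_mem_kos {T : Finset (Fin d)} {N : Submodule S M} {n : ℤ}
    {ξ : Finset (Fin d) → M} (h : ξ ∈ Kos T N n) (A : Finset (Fin d)) : ξ A ∈ N := by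
  by_cases hA : A ⊆ T ∧ (A.card : ℤ) = n
  · exact (mem_kos.1 h).1 A hA
  · rw [(mem_kos.1 h).2 A hA]
    exact N.zero_mem

theorem kos_isCx (y : Fin d → S) (T : Finset (Fin d)) (N : Submodule S M) :
    IsCx (kd y M) (Kos T N) := by
  rintro n _ ⟨ξ, hξ, rfl⟩
  refine mem_kos.2 ⟨fun A _ => ?_, fun A hA => ?_⟩
  · rw [kd_apply]
    exact Submodule.sum_mem _ fun i _ => Submodule.smul_mem _ _ (apply_mem_of_mem_kos hξ _)
  · rw [kd_apply]
    refine Finset.sum_eq_zero fun i hi => ?_
    rw [(mem_kos.1 hξ).2 _ ?_, smul_zero]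
    rintro ⟨h1, h2⟩
    apply hA
    refine ⟨(Finset.subset_insert i A).trans h1, ?_⟩
    rw [Finset.card_insert_of_notMem (Finset.mem_compl.1 hi)] at h2
    push_cast at h2
    omega

theorem kos_mono (T : Finset (Fin d)) {N N' : Submodule S M} (h : N ≤ N') :
    Kos T N ≤ Kos T N' := by
  intro n
  exact coord_mono _ h

theorem kos_bot (T : Finset (Fin d)) : Kos T (⊥ : Submodule S M) = ⊥ := by
  funext n
  rw [Pi.bot_apply, eq_bot_iff]
  intro ξ hξ
  rw [Submodule.mem_bot]
  funext A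
  exact (Submodule.mem_bot S).1 (apply_mem_of_mem_kos hξ A)

theorem kos_eq_bot (T : Finset (Fin d)) (N : Submodule S M) (n : ℤ) (h : n < 0 ∨ (d : ℤ) < n) :
    Kos T N n = ⊥ := by
  rw [eq_bot_iff]
  intro ξ hξ
  rw [Submodule.mem_bot]
  funext A
  refine (mem_kos.1 hξ).2 A ?_
  rintro ⟨-, h2⟩
  have h3 : A.card ≤ d := by simpa using Finset.card_le_univ A
  omega

theorem kh_mem_kos {T : Finset (Fin d)} {N : Submodule S M} {n : ℤ} {i : Fin d} (hi : i ∈ T)
    {ξ : Finset (Fin d) → M} (h : ξ ∈ Kos T N n) : kh S i M ξ ∈ Kos T N (n + 1) := by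
  refine mem_kos.2 ⟨fun A _ => ?_, fun A hA => ?_⟩
  · rw [kh_apply]
    split_ifs
    · exact Submodule.smul_mem _ _ (apply_mem_of_mem_kos h _)
    · exact N.zero_mem
  · rw [kh_apply]
    split_ifs with hiA
    · rw [(mem_kos.1 h).2 _ ?_, smul_zero]
      rintro ⟨h1, h2⟩
      apply hA
      refine ⟨fun j hj => ?_, ?_⟩
      · by_cases hji : j = i
        · exact hji ▸ hi
        · exact h1 (Finset.mem_erase.2 ⟨hji, hj⟩)
      · have h3 := Finset.card_erase_add_one hiA
        omega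
    · rfl

theorem kP_fix {T : Finset (Fin d)} {N : Submodule S M} {n : ℤ} {ξ : Finset (Fin d) → M}
    (h : ξ ∈ Kos T N n) : kP S d M n ξ = ξ := by
  funext A
  rw [kP_apply]
  split_ifs with hA
  · rfl
  · exact ((mem_kos.1 h).2 A fun h' => hA h'.2).symm

theorem kP_kill {T : Finset (Fin d)} {N : Submodule S M} {n n' : ℤ} (hn : n' ≠ n)
    {ξ : Finset (Fin d) → M} (h : ξ ∈ Kos T N n) : kP S d M n' ξ = 0 := by
  funext A
  rw [kP_apply]
  split_ifs with hA
  · exact (mem_kos.1 h).2 A fun h' => hn (hA.symm.trans h'.2)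
  · rfl

theorem kd_compLeft (y : Fin d → S) (φ : M →ₗ[S] M') (ξ : Finset (Fin d) → M) :
    φ.compLeft _ (kd y M ξ) = kd y M' (φ.compLeft _ ξ) := by
  funext A
  rw [kd_apply]
  change φ (kd y M ξ A) = _
  rw [kd_apply, map_sum]
  exact Finset.sum_congr rfl fun i _ => map_smul φ _ _

/-- Elements of `(y)` act null-homotopically. -/
theorem smul_mem_map_kd (y : Fin d → S) (T : Finset (Fin d)) (N' N'' : Submodule S M) (n : ℤ)
    (z : S) (hz : z ∈ Ideal.span (y '' T)) {ξ : Finset (Fin d) → M}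
    (h : ξ ∈ Zc (kd y M) (Kos T N') (Kos T N'') n) :
    z • ξ ∈ Bc (kd y M) (Kos T N') (Kos T N'') n := by
  have key : Ideal.span (y '' T) ≤
      (Bc (kd y M) (Kos T N') (Kos T N'') n).comap (LinearMap.toSpanSingleton S _ ξ) := by
    rw [Ideal.span_le]
    rintro _ ⟨i, hi, rfl⟩
    change y i • ξ ∈ Bc (kd y M) (Kos T N') (Kos T N'') n
    rw [← kd_kh, add_comm]
    have h1 : kh S i M (kd y M ξ) ∈ Kos T N' (n - 1 + 1) := kh_mem_kos hi h.2
    rw [sub_add_cancel] at h1
    exact Submodule.add_mem_sup h1 ⟨_, kh_mem_kos hi h.1, rfl⟩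
  exact key hz

theorem sd_apply (f : M →ₗ[S] M) (ξ : Finset (Fin d) → M) (A : Finset (Fin d)) :
    sd d f ξ A = (((-1 : ℤ) ^ A.card : ℤ) : S) • f (ξ A) := by
  rfl

theorem kd_add_sd_sq (y : Fin d → S) (f : M →ₗ[S] M) (hf : f ∘ₗ f = 0) :
    (kd y M + sd d f) ∘ₗ (kd y M + sd d f) = 0 := by
  have h1 : kd y M ∘ₗ sd d f + sd d f ∘ₗ kd y M = 0 := by
    refine LinearMap.ext fun ξ => ?_
    funext A
    rw [LinearMap.add_apply, Pi.add_apply, LinearMap.comp_apply, LinearMap.comp_apply, kd_apply,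
      sd_apply, kd_apply, map_sum, Finset.smul_sum, ← Finset.sum_add_distrib]
    change _ = (0 : M)
    refine Finset.sum_eq_zero fun i hi => ?_
    rw [sd_apply, map_smul, smul_smul, smul_smul, ← add_smul,
      Finset.card_insert_of_notMem (Finset.mem_compl.1 hi)]
    convert zero_smul S _
    push_cast
    ring
  have h2 : sd d f ∘ₗ sd d f = 0 := by
    refine LinearMap.ext fun ξ => ?_
    funext A
    rw [LinearMap.comp_apply, sd_apply, sd_apply, map_smul]
    have h3 : f (f (ξ A)) = 0 := LinearMap.congr_fun hf (ξ A)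
    rw [h3, smul_zero, smul_zero]
    rfl
  rw [LinearMap.add_comp, LinearMap.comp_add, LinearMap.comp_add, kd_comp_kd, h2, zero_add,
    add_zero, h1]

/-- On the row `i` the signed differential is the componentwise one up to sign. -/
theorem hh_sd (μ : LenFun S) (f : M →ₗ[S] M) (i : ℤ)
    (X' X : ℤ → Submodule S (Finset (Fin d) → M))
    (hX : ∀ n, X n ≤ Kos Finset.univ (⊤ : Submodule S M) i) (hle : X' ≤ X) (n : ℤ) :
    hh μ (sd d f) X' X n = hh μ (f.compLeft _) X' X n := by
  set c : S := (((-1 : ℤ) ^ i.toNat : ℤ) : S) with hc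
  have hcc : c * c = 1 := by
    rw [hc, ← Int.cast_mul, ← mul_pow]
    simp
  have key : ∀ m, ∀ ξ ∈ X m, sd d f ξ = c • f.compLeft _ ξ := by
    intro m ξ hξ
    funext A
    rw [sd_apply]
    change _ = c • f (ξ A)
    by_cases hA : (A.card : ℤ) = i
    · rw [hc, ← hA, Int.toNat_natCast]
    · rw [(mem_kos.1 (hX m hξ)).2 A fun h => hA h.2, map_zero, smul_zero, smul_zero]
  have key' : ∀ m, ∀ ξ ∈ X m, f.compLeft _ ξ = c • sd d f ξ := by
    intro m ξ hξ
    rw [key m ξ hξ, smul_smul, hcc, one_smul]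
  have hZ : Zc (sd d f) X' X n = Zc (f.compLeft _) X' X n := by
    ext ξ
    constructor
    · rintro ⟨h1, h2⟩
      refine ⟨h1, ?_⟩
      change f.compLeft _ ξ ∈ X' (n - 1)
      rw [key' n ξ h1]
      exact Submodule.smul_mem _ _ h2
    · rintro ⟨h1, h2⟩
      refine ⟨h1, ?_⟩
      change sd d f ξ ∈ X' (n - 1)
      rw [key n ξ h1]
      exact Submodule.smul_mem _ _ h2
  have hB : Bc (sd d f) X' X n = Bc (f.compLeft _) X' X n := by
    unfold Bc
    congr 1
    apply le_antisymm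
    · rintro _ ⟨ξ, hξ, rfl⟩
      rw [key _ ξ hξ]
      exact Submodule.smul_mem _ _ ⟨ξ, hξ, rfl⟩
    · rintro _ ⟨ξ, hξ, rfl⟩
      rw [key' _ ξ hξ]
      exact Submodule.smul_mem _ _ ⟨ξ, hξ, rfl⟩
  unfold hh
  rw [hZ, hB]

theorem card_filter_card_eq (i : ℕ) :
    (Finset.univ.filter fun A : Finset (Fin d) => A ⊆ Finset.univ ∧ (A.card : ℤ) = (i : ℤ)).card =
      d.choose i := by
  have h : (Finset.univ.filter fun A : Finset (Fin d) =>
      A ⊆ Finset.univ ∧ (A.card : ℤ) = (i : ℤ)) = Finset.powersetCard i Finset.univ := by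
    ext A
    simp [Finset.mem_powersetCard]
  rw [h, Finset.card_powersetCard, Finset.card_univ, Fintype.card_fin]

end Vale.Agent.P202
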