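import Vale.Agent.P202.MDefs
import Vale.Agent.P202.PS

/-! The map from `W(l)[[X]]` to `W(l[[t, X]])`. -/

namespace Vale.Agent.P202

open MvPowerSeries

universe u

theorem complete_of_nilpotent_mal {B : Type u} [CommRing B] {I : Ideal B} (h : IsNilpotent I) :
    IsAdicComplete I B := by
  obtain ⟨N, hN⟩ := h
  have : IsHausdorff I B := ⟨fun x hx => by simpa [hN] using hx N⟩
  refine { prec' := fun f hf => ⟨f N, fun n => ?_⟩ }
  rcases le_total n N with h | h
  · exact hf h
  · have h1 : f N = f n := by simpa [hN] using hf h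
    rw [h1]

theorem witt_ext_mal {p : ℕ} [Fact p.Prime] {R : Type u} [CommRing R] (J : Ideal R)
    [IsHausdorff J R] {x y : WittVector p R}
    (h : ∀ n : ℕ, WittVector.map (Ideal.Quotient.mk (J ^ n)) x =
      WittVector.map (Ideal.Quotient.mk (J ^ n)) y) : x = y := by
  ext i
  rw [IsHausdorff.eq_iff_smodEq (I := J)]
  intro n
  rw [SModEq.sub_mem, smul_eq_mul, Ideal.mul_top, ← Ideal.Quotient.eq, ← WittVector.map_coeff,
    h n, WittVector.map_coeff]

theorem witt_lim_mal {p : ℕ} [Fact p.Prime] {A R : Type u} [CommRing A] [CommRing R] (J : Ideal R)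
    [IsAdicComplete J R] (α : (n : ℕ) → A →+* WittVector p (R ⧸ J ^ n))
    (hα : ∀ {m n : ℕ} (hle : m ≤ n),
      (WittVector.map (Ideal.Quotient.factorPow J hle)).comp (α n) = α m) :
    ∃ β : A →+* WittVector p R,
      ∀ n a, WittVector.map (Ideal.Quotient.mk (J ^ n)) (β a) = α n a := by
  have h1 : ∀ (a : A) (i : ℕ), ∃ r : R, ∀ n, Ideal.Quotient.mk (J ^ n) r = (α n a).coeff i := by
    intro a i
    choose y hy using fun n => Ideal.Quotient.mk_surjective ((α n a).coeff i)
    obtain ⟨r, hr⟩ := IsPrecomplete.prec (I := J) inferInstance (f := y) fun {m n} hle => by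
      rw [SModEq.sub_mem, smul_eq_mul, Ideal.mul_top, ← Ideal.Quotient.eq, hy, ← hα hle,
        RingHom.comp_apply, WittVector.map_coeff, ← hy]
      rfl
    refine ⟨r, fun n => ?_⟩
    have h2 := hr n
    rw [SModEq.sub_mem, smul_eq_mul, Ideal.mul_top, ← Ideal.Quotient.eq] at h2
    rw [← h2, hy]
  choose r hr using h1
  let β : A → WittVector p R := fun a => WittVector.mk p (r a)
  have hβ : ∀ n a, WittVector.map (Ideal.Quotient.mk (J ^ n)) (β a) = α n a := fun n a => by
    ext i
    rw [WittVector.map_coeff, ← hr]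
    rfl
  exact ⟨{ toFun := β
           map_one' := witt_ext_mal J fun n => by rw [hβ, map_one, map_one]
           map_mul' := fun a b => witt_ext_mal J fun n => by rw [map_mul, hβ, hβ, hβ, map_mul]
           map_zero' := witt_ext_mal J fun n => by rw [hβ, map_zero, map_zero]
           map_add' := fun a b => witt_ext_mal J fun n => by
             rw [map_add, hβ, hβ, hβ, map_add] }, hβ⟩

theorem witt_map_map_mal {p : ℕ} [Fact p.Prime] {R S T : Type u} [CommRing R] [CommRing S]
    [CommRing T] (f : R →+* S) (g : S →+* T) (x : WittVector p R) :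
    WittVector.map g (WittVector.map f x) = WittVector.map (g.comp f) x := by
  ext i
  simp only [WittVector.map_coeff, RingHom.comp_apply]

theorem exists_alpha (p : ℕ) [Fact p.Prime] (l : Type u) [Field l] [CharP l p] (σ : Type)
    [Finite σ] : ∃ α : PS σ (WittVector p l) →+* WittVector p (PS (Option σ) l),
      (∀ a, α (C a) = WittVector.map (C : l →+* PS (Option σ) l) a) ∧
      (∀ j, α (X j) = WittVector.teichmuller p (X (some j))) ∧
      ∀ f, (α f).coeff 0 = rename some (MvPowerSeries.map WittVector.constantCoeff f) := by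
  let J : Ideal (PS (Option σ) l) := Ideal.span (Set.range X)
  have hJ : IsAdicComplete J (PS (Option σ) l) := inferInstance
  have hc : ∀ n : ℕ, IsAdicComplete (Ideal.span (Set.range fun j : σ =>
      WittVector.teichmuller p (Ideal.Quotient.mk (J ^ n) (X (some j)))))
      (WittVector p (PS (Option σ) l ⧸ J ^ n)) := fun n =>
    complete_of_nilpotent_mal ((Ideal.FG.isNilpotent_iff_le_nilradical
      (Submodule.fg_span (Set.finite_range _))).2 (Ideal.span_le.2 (by
        rintro _ ⟨j, rfl⟩
        refine mem_nilradical.2 ⟨n, ?_⟩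
        rw [← map_pow, ← map_pow, Ideal.Quotient.eq_zero_iff_mem.2
          (Ideal.pow_mem_pow (Ideal.subset_span (Set.mem_range_self _)) n),
          WittVector.teichmuller_zero])))
  choose α hC hX using fun n : ℕ => @exists_psHom σ _ _ _ _ _ _ (hc n)
    (WittVector.map ((Ideal.Quotient.mk (J ^ n)).comp (C : l →+* PS (Option σ) l)))
    (fun j => WittVector.teichmuller p (Ideal.Quotient.mk (J ^ n) (X (some j))))
    fun j => Ideal.subset_span (Set.mem_range_self j)
  obtain ⟨β, hβ⟩ := witt_lim_mal J α fun {m n} hle => by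
    have := hc m
    have h1 : ∀ j, (WittVector.map (Ideal.Quotient.factorPow J hle)).comp (α n) (X j) =
        WittVector.teichmuller p (Ideal.Quotient.mk (J ^ m) (X (some j))) := fun j => by
      rw [RingHom.comp_apply, hX, WittVector.map_teichmuller]
      rfl
    refine psHom_ext (Ideal.span (Set.range fun j : σ =>
      WittVector.teichmuller p (Ideal.Quotient.mk (J ^ m) (X (some j))))) _ _ (fun a => ?_)
      (fun j => by rw [h1, hX]) fun j => by
        rw [h1]
        exact Ideal.subset_span (Set.mem_range_self j)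
    rw [RingHom.comp_apply, hC, hC, witt_map_map_mal]
    rfl
  have b1 : ∀ a, β (C a) = WittVector.map (C : l →+* PS (Option σ) l) a := fun a =>
    witt_ext_mal J fun n => by rw [hβ, hC, witt_map_map_mal]
  have b2 : ∀ j, β (X j) = WittVector.teichmuller p (X (some j)) := fun j =>
    witt_ext_mal J fun n => by rw [hβ, hX, WittVector.map_teichmuller]
  refine ⟨β, b1, b2, fun f => ?_⟩
  have h2 := psHom_ext J (WittVector.constantCoeff.comp β)
    ((rename some : PS σ l →ₐ[l] PS (Option σ) l).toRingHom.comp
      (MvPowerSeries.map WittVector.constantCoeff))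
    (fun a => by simp [b1]) (fun j => by simp [b2]) fun j => by
      simpa [b2] using Ideal.subset_span (Set.mem_range_self (some j))
  exact RingHom.congr_fun h2 f

end Vale.Agent.P202
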