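import Vale.Agent.P202.MApx

/-! An elementary form of the flatness lemma of Andre. -/

namespace Vale.Agent.P202

open Polynomial

universe u

variable {p : ℕ} [Fact p.Prime]

theorem Cover.id (P : Type u) [CommRing P] : Cover (RingHom.id P) :=
  ⟨.of_bijective Function.bijective_id, RingHom.isIntegral_of_surjective _ Function.surjective_id,
    1, fun _ => ⟨fun _ => 1, fun x _ => ⟨fun _ => x, by simp⟩⟩⟩

theorem Cover.comp {P P' P'' : Type u} [CommRing P] [CommRing P'] [CommRing P''] {f : P →+* P'}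
    {g : P' →+* P''} (hf : Cover f) (hg : Cover g) : Cover (g.comp f) := by
  classical
  obtain ⟨n1, h1⟩ := hf.fg
  obtain ⟨n2, h2⟩ := hg.fg
  refine ⟨RingHom.FaithfullyFlat.stableUnderComposition f g hf.ff hg.ff,
    RingHom.IsIntegral.trans f g hf.int hg.int, n2 * n1, fun s => ?_⟩
  obtain ⟨w2, hw2⟩ := h2 s
  choose! c hc using hw2
  obtain ⟨w1, hw1⟩ := h1 (s.biUnion fun x => Finset.univ.image (c x))
  refine ⟨fun k => g (w1 (finProdFinEquiv.symm k).2) * w2 (finProdFinEquiv.symm k).1,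
    fun x hx => ?_⟩
  choose d hd using fun i => hw1 (c x i)
    (Finset.mem_biUnion.2 ⟨x, hx, Finset.mem_image_of_mem _ (Finset.mem_univ i)⟩)
  refine ⟨fun k => d (finProdFinEquiv.symm k).1 (finProdFinEquiv.symm k).2, ?_⟩
  rw [← finProdFinEquiv.sum_comp, Fintype.sum_prod_type]
  simp only [Equiv.symm_apply_apply]
  conv_lhs => rw [hc x hx]
  refine Finset.sum_congr rfl fun i _ => ?_
  conv_lhs => rw [hd i]
  simp only [map_sum, map_mul, Finset.sum_mul, RingHom.comp_apply, mul_assoc]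

theorem mem_nonZeroDivisors_of_flat {P P' : Type u} [CommRing P] [CommRing P'] {f : P →+* P'}
    (hf : f.Flat) {t : P} (ht : t ∈ nonZeroDivisors P) : f t ∈ nonZeroDivisors P' := by
  algebraize [f]
  have h := Module.Flat.isSMulRegular_of_nonZeroDivisors (M := P') ht
  rw [mem_nonZeroDivisors_iff_left]
  intro x hx
  exact h (show t • x = t • (0 : P') by rw [smul_zero, Algebra.smul_def]; exact hx)

theorem flat_iff_MAnd {R S : Type u} [CommRing R] [CommRing S] (f : R →+* S) :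
    f.Flat ↔ ∀ (l : ℕ) (a : Fin l → R) (x : Fin l → S), ∑ i, f (a i) * x i = 0 →
      ∃ (k : ℕ) (c : Fin l → Fin k → R) (y : Fin k → S),
        (∀ i, x i = ∑ j, f (c i j) * y j) ∧ ∀ j, ∑ i, a i * c i j = 0 := by
  letI := f.toAlgebra
  exact Module.Flat.iff_forall_isTrivialRelation.trans
    ⟨fun h _ _ _ e => h e, fun h _ _ _ e => h _ _ _ e⟩

theorem pc_pow_MAnd {Q : Type u} [CommRing Q] [CharP Q p] (x : PerfectClosure Q p) :
    ∃ n0, ∀ n, n0 ≤ n → ∃ y, x ^ p ^ n = PerfectClosure.of Q p y := by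
  obtain ⟨⟨m, y⟩, rfl⟩ := PerfectClosure.mk_surjective Q p x
  refine ⟨m, fun n hn => ⟨y ^ p ^ (n - m), ?_⟩⟩
  rw [map_pow, ← PerfectClosure.iterate_frobenius_mk Q p m y, iterate_frobenius, ← pow_mul,
    ← pow_add, Nat.add_sub_cancel' hn]

theorem pc_fam_MAnd {Q : Type u} [CommRing Q] [CharP Q p] {ι : Type*} [Finite ι]
    (x : ι → PerfectClosure Q p) :
    ∃ (n : ℕ) (y : ι → Q), ∀ i, x i ^ p ^ n = PerfectClosure.of Q p (y i) := by
  choose n hn using fun i => pc_pow_MAnd (x i)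
  obtain ⟨N, hN⟩ := (Set.finite_range n).bddAbove
  choose y hy using fun i => hn i N (hN ⟨i, rfl⟩)
  exact ⟨N, y, hy⟩

theorem pc_ker_MAnd {Q : Type u} [CommRing Q] [CharP Q p] {y : Q}
    (h : PerfectClosure.of Q p y = 0) : ∃ m, y ^ p ^ m = 0 := by
  rw [PerfectClosure.of_apply, PerfectClosure.zero_def, PerfectClosure.mk_eq_iff] at h
  obtain ⟨z, hz⟩ := h
  refine ⟨z, ?_⟩
  simp only [zero_add, iterate_frobenius] at hz
  rw [hz, zero_pow (pow_ne_zero _ (Fact.out : p.Prime).ne_zero)]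

theorem pow_inj_MAnd {L : Type u} [CommRing L] [CharP L p] [PerfectRing L p] (n : ℕ) {x y : L}
    (h : x ^ p ^ n = y ^ p ^ n) : x = y :=
  (bijective_iterateFrobenius L p n).1 h

/-- Flatness passes to the perfect closure. -/
theorem flat_perfectClosure {R Q : Type u} [CommRing R] [CommRing Q] [CharP R p] [CharP Q p]
    (f : R →+* Q) (h : ∀ n, (f.comp (iterateFrobenius R p n)).Flat) :
    ((PerfectClosure.of Q p).comp f).Flat := by
  rw [flat_iff_MAnd]
  intro l a x e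
  obtain ⟨n, y, hy⟩ := pc_fam_MAnd x
  have h1 : PerfectClosure.of Q p (∑ i, f (a i) ^ p ^ n * y i) = 0 := by
    have := congrArg (· ^ p ^ n) e
    simp only [sum_pow_char_pow, mul_pow, hy,
      zero_pow (pow_ne_zero n (Fact.out : p.Prime).ne_zero)] at this
    rw [← this]
    simp only [map_sum, map_mul, map_pow, RingHom.comp_apply]
  obtain ⟨m, hm⟩ := pc_ker_MAnd h1
  obtain ⟨k, c, w, h2, h3⟩ := (flat_iff_MAnd _).1 (h (n + m)) l a (fun i => y i ^ p ^ m) (by
    rw [← hm, sum_pow_char_pow]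
    simp only [RingHom.comp_apply, iterateFrobenius_def, map_pow, mul_pow, pow_add, pow_mul])
  refine ⟨k, c, fun j => rt p _ (n + m) (PerfectClosure.of Q p (w j)), fun i => ?_, h3⟩
  apply pow_inj_MAnd (p := p) (n + m)
  rw [sum_pow_char_pow]
  simp only [mul_pow, rt_pow]
  rw [pow_add, pow_mul, hy, ← map_pow, h2 i]
  simp only [map_sum, map_mul, map_pow, RingHom.comp_apply, iterateFrobenius_def, pow_add]

theorem isIntegral_of_perfectClosure (Q : Type u) [CommRing Q] [CharP Q p] :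
    (PerfectClosure.of Q p).IsIntegral := by
  intro x
  obtain ⟨n, hn⟩ := pc_pow_MAnd x
  obtain ⟨y, hy⟩ := hn n le_rfl
  refine ⟨X ^ p ^ n - C y, monic_X_pow_sub_C y (pow_ne_zero _ (Fact.out : p.Prime).ne_zero), ?_⟩
  rw [eval₂_sub, eval₂_X_pow, eval₂_C, hy, sub_self]

theorem comap_surjective_perfectClosure (Q : Type u) [CommRing Q] [CharP Q p] :
    Function.Surjective (PrimeSpectrum.comap (PerfectClosure.of Q p)) := by
  intro 𝔭
  letI := (PerfectClosure.of Q p).toAlgebra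
  haveI : Algebra.IsIntegral Q (PerfectClosure Q p) := ⟨isIntegral_of_perfectClosure Q⟩
  obtain ⟨𝔮, -, h1, h2⟩ := Ideal.exists_ideal_over_prime_of_isIntegral 𝔭.asIdeal
    (⊥ : Ideal (PerfectClosure Q p)) fun y hy => by
      obtain ⟨m, hm⟩ := pc_ker_MAnd (p := p) (y := y) hy
      exact 𝔭.isPrime.mem_of_pow_mem _ (hm ▸ 𝔭.asIdeal.zero_mem)
  exact ⟨⟨𝔮, h1⟩, PrimeSpectrum.ext h2⟩

/-- Weierstrass preparation modulo a power of `t`. -/
theorem exists_monic_factor {P : Type u} [CommRing P] (t : P) {f0 h : P[X]} (hf : f0.Monic)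
    (M : ℕ) : ∃ f w h' : P[X], f.Monic ∧ f.natDegree = f0.natDegree ∧
      f0 + C t * h = f * w + C (t ^ M) * h' := by
  rcases subsingleton_or_nontrivial P with hP | hP
  · exact ⟨f0, 0, 0, hf, rfl, Subsingleton.elim _ _⟩
  have key : ∀ M : ℕ, ∃ f w h' : P[X], f.Monic ∧ f.natDegree = f0.natDegree ∧
      f0 + C t * h = f * (1 + C t * w) + C t ^ (M + 1) * h' := by
    intro M
    induction M with
    | zero => exact ⟨f0, 0, h, hf, rfl, by ring⟩
    | succ M ih =>
      obtain ⟨f, w, h', h1, h2, h3⟩ := ih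
      have h4 : degree (C t ^ (M + 1) * (h' %ₘ f)) < degree f := by
        rw [← C_pow, ← smul_eq_C_mul]
        exact (degree_smul_le _ _).trans_lt (degree_modByMonic_lt h' h1)
      refine ⟨f + C t ^ (M + 1) * (h' %ₘ f), w + C t ^ M * (h' /ₘ f),
        -((h' %ₘ f) * (w + C t ^ M * (h' /ₘ f))), h1.add_of_left h4,
        by rw [natDegree_add_eq_left_of_degree_lt h4, h2], ?_⟩
      have h5 := modByMonic_add_div h' f
      rw [h3]
      linear_combination (-(C t ^ (M + 1))) * h5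
  cases M with
  | zero => exact ⟨f0, 0, f0 + C t * h, hf, rfl, by simp⟩
  | succ M =>
    obtain ⟨f, w, h', h1, h2, h3⟩ := key M
    exact ⟨f, _, h', h1, h2, by rw [C_pow]; exact h3⟩

variable {P : Type u} [CommRing P] [CharP P p] [PerfectRing P p]

theorem cover_adjoinRoot {f : P[X]} (hf : f.Monic) (hd : 1 ≤ f.natDegree) :
    ∃ _ : CharP (AdjoinRoot f) p,
      Cover ((PerfectClosure.of (AdjoinRoot f) p).comp (AdjoinRoot.of f)) := by
  haveI : Nontrivial P := CharP.nontrivial_of_char_ne_one (Fact.out : p.Prime).ne_one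
  let b := (AdjoinRoot.powerBasis' hf).basis
  haveI := hf.free_adjoinRoot
  haveI := hf.finite_adjoinRoot
  haveI : Nontrivial (AdjoinRoot f) := ⟨⟨b ⟨0, hd⟩, 0, b.ne_zero _⟩⟩
  have hff : (AdjoinRoot.of f).FaithfullyFlat :=
    (RingHom.faithfullyFlat_algebraMap_iff (R := P) (S := AdjoinRoot f)).2 inferInstance
  haveI hc : CharP (AdjoinRoot f) p := charP_of_injective_ringHom hff.injective p
  refine ⟨hc, RingHom.FaithfullyFlat.iff_flat_and_comap_surjective.2 ⟨?_, ?_⟩, ?_,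
    (AdjoinRoot.powerBasis' hf).dim, fun s => ?_⟩
  · exact flat_perfectClosure _ fun n =>
      (RingHom.Flat.of_bijective (bijective_iterateFrobenius P p n)).comp hff.flat
  · rw [PrimeSpectrum.comap_comp]
    exact (RingHom.FaithfullyFlat.iff_flat_and_comap_surjective.1 hff).2.comp
      (comap_surjective_perfectClosure _)
  · exact RingHom.IsIntegral.trans _ _
      ((algebraMap_isIntegral_iff (R := P) (A := AdjoinRoot f)).2 inferInstance)
      (isIntegral_of_perfectClosure _)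
  · obtain ⟨n, y, hy⟩ := pc_fam_MAnd fun x : s => x.1
    refine ⟨fun j => rt p _ n (PerfectClosure.of _ p (b j)), fun x hx =>
      ⟨fun j => rt p P n (b.repr (y ⟨x, hx⟩) j), ?_⟩⟩
    apply pow_inj_MAnd (p := p) n
    rw [sum_pow_char_pow, hy ⟨x, hx⟩]
    conv_lhs => rw [← b.sum_repr (y ⟨x, hx⟩), map_sum]
    refine Finset.sum_congr rfl fun j _ => ?_
    rw [mul_pow, rt_pow, ← map_pow, rt_pow, Algebra.smul_def, map_mul]
    rfl

omit [CharP P p] [PerfectRing P p] in
theorem map_comp_MAnd {P1 P2 : Type u} [CommRing P1] [CommRing P2] {f : P →+* P1} {g : P1 →+* P2}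
    {k : P →+* P2} (hk : ∀ x, g (f x) = k x) {t : P} {t1 : P1} {t2 : P2} (h1 : f t = t1)
    (h2 : g t1 = t2) (h3 : k t = t2) :
    (Unt.map p g h2).comp (Unt.map p f h1) = Unt.map p k h3 := by
  refine RingHom.ext fun b => ?_
  obtain ⟨x, rfl⟩ := Ideal.Quotient.mk_surjective b
  rw [RingHom.comp_apply, Unt.map_mk, Unt.map_mk, Unt.map_mk]
  congr 1
  ext n
  simp only [WittVector.map_coeff, hk]

/-- A monic lift of the reduction. -/
theorem exists_lift_MAnd {t : P} [Nontrivial (P ⧸ Ideal.span {t})] {F : (Unt p t)[X]}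
    (hF : F.Monic) : ∃ f0 : P[X], f0.Monic ∧ f0.natDegree = F.natDegree ∧
      ∀ {P1 : Type u} [CommRing P1] [CharP P1 p] [PerfectRing P1 p] (ι : P →+* P1) (x : P1),
        F.eval₂ (Unt.map p ι rfl) (shp p (ι t) x) - shp p (ι t) (f0.eval₂ ι x) ∈
          Ideal.span {(p : Unt p (ι t))} := by
  obtain ⟨f0, h1, h2, h3⟩ := lifts_and_natDegree_eq_and_monic
    (f := Ideal.Quotient.mk (Ideal.span {t}))
    (mem_lifts_of_surjective Ideal.Quotient.mk_surjective (F.map (Unt.red p t))) (hF.map _)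
  refine ⟨f0, h3, by rw [h2, hF.natDegree_map], fun {P1} _ _ _ ι x => ?_⟩
  let ψ : P ⧸ Ideal.span {t} →+* P1 ⧸ Ideal.span {ι t} := Ideal.quotientMap _ ι (by
    rw [Ideal.span_le, Set.singleton_subset_iff]
    exact Ideal.subset_span rfl)
  have h4 : (Unt.red p (ι t)).comp (Unt.map p ι rfl) = ψ.comp (Unt.red p t) := by
    refine RingHom.ext fun b => ?_
    obtain ⟨x, rfl⟩ := Ideal.Quotient.mk_surjective b
    rw [RingHom.comp_apply, Unt.map_mk, Unt.red_mk, RingHom.comp_apply, Unt.red_mk,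
      WittVector.map_coeff]
    rfl
  rw [← Unt.ker_red, RingHom.mem_ker, map_sub, hom_eval₂, Unt.red_shp, Unt.red_shp, h4,
    ← eval₂_map, ← h1, eval₂_map, hom_eval₂, sub_eq_zero]
  rfl

theorem andre_step {t : P} (ht : t ∈ nonZeroDivisors P) {F : (Unt p t)[X]} (hF : F.Monic)
    (hd : 1 ≤ F.natDegree) (γ : ℕ) :
    ∃ (P' : Type u) (_ : CommRing P') (_ : CharP P' p) (_ : PerfectRing P' p) (f : P →+* P')
      (z : P'), Cover f ∧ F.eval₂ (Unt.map p f rfl) (shp p (f t) z) ∈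
        Ideal.span {(p : Unt p (f t)) ^ γ} := by
  have hp : p.Prime := Fact.out
  rcases subsingleton_or_nontrivial (P ⧸ Ideal.span {t}) with hs | hs
  · refine ⟨P, _, ‹_›, ‹_›, RingHom.id P, 0, Cover.id P, ?_⟩
    have h1 : IsUnit t := by
      rwa [Ideal.Quotient.subsingleton_iff, Ideal.span_singleton_eq_top] at hs
    have h2 : IsUnit (p : Unt p (RingHom.id P t)) := by
      rw [← shp_self]; exact h1.map _
    rw [Ideal.span_singleton_eq_top.2 (h2.pow γ)]
    trivial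
  obtain ⟨f0, m0, d0, H0⟩ := exists_lift_MAnd hF
  obtain ⟨ι, hι⟩ : ∃ ι : P →+* PerfectClosure P[X] p, ι = (PerfectClosure.of P[X] p).comp C :=
    ⟨_, rfl⟩
  have hιx : ∀ x, ι x = PerfectClosure.of P[X] p (C x) := fun x => by rw [hι]; rfl
  have hfl : ι.Flat := by
    rw [hι]
    exact flat_perfectClosure _ fun n =>
      (RingHom.Flat.of_bijective (bijective_iterateFrobenius P p n)).comp
        ((RingHom.flat_algebraMap_iff (R := P) (S := P[X])).2 inferInstance)
  have h0 := H0 ι (PerfectClosure.of P[X] p X)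
  have e0 : f0.eval₂ ι (PerfectClosure.of P[X] p X) = PerfectClosure.of P[X] p f0 := by
    rw [hι, ← hom_eval₂, eval₂_C_X]
  rw [e0] at h0
  obtain ⟨g, hg, hV⟩ := approx (mem_nonZeroDivisors_of_flat hfl ht) _ _ h0 (γ * p ^ 2)
  obtain ⟨k, hk⟩ := Ideal.mem_span_singleton'.1 hg
  obtain ⟨n0, hn0⟩ := pc_pow_MAnd k
  obtain ⟨h, hh⟩ := hn0 (n0 + 1) (Nat.le_succ _)
  have e1 : g ^ p ^ (n0 + 1) = PerfectClosure.of P[X] p
      (f0 ^ p ^ (n0 + 1) + C t * (C t ^ (p ^ n0 - 1) * h)) := by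
    have h1 : rt p _ 1 (ι t) ^ p ^ (n0 + 1) = ι t ^ p ^ n0 := by
      rw [pow_succ', pow_mul, rt_succ_pow 0, rt_zero]
    rw [← mul_assoc, ← pow_succ', Nat.sub_add_cancel (Nat.one_le_pow _ _ hp.pos),
      (sub_eq_iff_eq_add'.1 hk.symm), add_pow_char_pow, mul_pow, hh, h1, hιx]
    simp only [map_add, map_mul, map_pow, mul_comm]
  obtain ⟨f, w, h', mf, df, e2⟩ := exists_monic_factor t (h := C t ^ (p ^ n0 - 1) * h)
    (m0.pow (p ^ (n0 + 1))) (γ * p ^ 2 * p ^ (n0 + 1))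
  obtain ⟨hc, hC⟩ := cover_adjoinRoot (p := p) mf (by
    rw [df, m0.natDegree_pow, d0]
    exact Nat.mul_pos (Nat.pow_pos hp.pos) hd)
  obtain ⟨f', hf'⟩ : ∃ f' : P →+* PerfectClosure (AdjoinRoot f) p,
      f' = (PerfectClosure.of (AdjoinRoot f) p).comp (AdjoinRoot.of f) := ⟨_, rfl⟩
  rw [← hf'] at hC
  obtain ⟨φ, hφ⟩ : ∃ φ : PerfectClosure P[X] p →+* PerfectClosure (AdjoinRoot f) p,
      ∀ y, φ (PerfectClosure.of P[X] p y) = PerfectClosure.of _ p (AdjoinRoot.mk f y) :=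
    ⟨PerfectClosure.lift P[X] p _ ((PerfectClosure.of (AdjoinRoot f) p).comp (AdjoinRoot.mk f)),
      fun y => rfl⟩
  have hφι : ∀ x, φ (ι x) = f' x := fun x => by rw [hιx, hφ, hf']; rfl
  refine ⟨_, _, inferInstance, inferInstance, f', φ (PerfectClosure.of P[X] p X), hC, ?_⟩
  have e3 : φ g = f' t ^ (γ * p ^ 2) *
      rt p _ (n0 + 1) (PerfectClosure.of _ p (AdjoinRoot.mk f h')) := by
    apply pow_inj_MAnd (p := p) (n0 + 1)
    rw [← map_pow, e1, e2, hφ, mul_pow, rt_pow, ← pow_mul, map_add, map_mul, AdjoinRoot.mk_self,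
      zero_mul, zero_add, ← hφι, hιx, hφ]
    simp only [map_mul, map_pow]
  have hV' := hV.map (Unt.map p φ (hφι t))
  simp only [map_sub, map_mul, map_pow, map_natCast, Unt.map_shp, hom_eval₂,
    map_comp_MAnd hφι rfl (hφι t) rfl] at hV'
  obtain ⟨u, hu⟩ : ∃ u, shp p (f' t) (φ g) = (p : Unt p (f' t)) ^ (γ * p ^ 2) * u :=
    ⟨_, by rw [e3, map_mul, map_pow, shp_self]⟩
  have hV2 : VLe (F.eval₂ (Unt.map p f' rfl) (shp p (f' t) (φ (PerfectClosure.of P[X] p X))) -
      shp p (f' t) (φ g)) (shp p (f' t) (f' t ^ (γ * p ^ 2)))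
      (shp p (f' t) (f' t ^ (γ * p ^ 2))) := by
    intro Γ _ v hv
    refine (hV' Γ v hv).trans ?_
    rw [map_pow (shp p (f' t)), shp_self, max_self]
    refine max_le ?_ le_rfl
    rw [hu, mul_left_comm, v.map_mul]
    exact mul_le_of_le_one_right' (hv _)
  have h5 := VLe.mem (mem_nonZeroDivisors_of_flat hC.ff.flat ht) ⟨_, dvd_rfl⟩ hV2 2
  rw [Set.pair_eq_singleton, Ideal.span_singleton_pow] at h5
  have h6 : (p : Unt p (f' t)) ^ γ ∣
      shp p (f' t) (rt p _ 2 (f' t ^ (γ * p ^ 2))) ^ (p ^ 2 - 3) := by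
    have h7 : rt p _ 2 (f' t ^ (γ * p ^ 2)) = f' t ^ γ := by
      apply pow_inj_MAnd (p := p) 2
      rw [rt_pow, pow_mul]
    rw [h7, map_pow, shp_self]
    refine dvd_pow_self _ ?_
    have := hp.two_le
    have : 4 ≤ p ^ 2 := by nlinarith
    omega
  have h8 := Ideal.span_singleton_le_span_singleton.2 h6 h5
  have h9 : shp p (f' t) (φ g) ∈ Ideal.span {(p : Unt p (f' t)) ^ γ} := by
    rw [hu, Ideal.mem_span_singleton]
    exact (pow_dvd_pow _ (Nat.le_mul_of_pos_right _ (Nat.pow_pos hp.pos))).mul_right _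
  simpa using add_mem h8 h9

theorem andre {t : P} (ht : t ∈ nonZeroDivisors P) {s : ℕ} {F : (Unt p t)[X]} (hF : F.Monic)
    (hd : F.natDegree = s) (γ : ℕ) :
    ∃ (P' : Type u) (_ : CommRing P') (_ : CharP P' p) (_ : PerfectRing P' p) (f : P →+* P')
      (z : Fin s → P'), Cover f ∧ ∀ n,
        (F.map (Unt.map p f rfl) - ∏ i, (X - C (shp p (f t) (z i)))).coeff n ∈
          Ideal.span {(p : Unt p (f t)) ^ γ} := by
  induction s generalizing P with
  | zero =>
    refine ⟨P, _, ‹_›, ‹_›, RingHom.id P, fun _ => 0, Cover.id P, fun n => ?_⟩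
    rw [hF.natDegree_eq_zero.1 hd]
    simp
  | succ s ih =>
    obtain ⟨P1, _, _, _, f1, z1, hC1, h1⟩ := andre_step ht hF (by omega) γ
    rcases subsingleton_or_nontrivial (Unt p (f1 t)) with hs | hs
    · exact ⟨P1, _, ‹_›, ‹_›, f1, fun _ => 0, hC1, fun n => by
        rw [Subsingleton.elim (coeff _ n) 0]; exact Ideal.zero_mem _⟩
    have m1 : (F.map (Unt.map p f1 rfl)).Monic := hF.map _
    have d1 : (F.map (Unt.map p f1 rfl)).natDegree = s + 1 := by rw [hF.natDegree_map, hd]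
    obtain ⟨P2, _, _, _, f2, z2, hC2, h2⟩ := ih (mem_nonZeroDivisors_of_flat hC1.ff.flat ht)
      (F := F.map (Unt.map p f1 rfl) /ₘ (X - C (shp p (f1 t) z1)))
      (by
        rw [Monic.def, leadingCoeff_divByMonic_of_monic (monic_X_sub_C _) (by
          rw [degree_eq_natDegree m1.ne_zero, d1, degree_X_sub_C]
          exact_mod_cast Nat.le_add_left 1 s)]
        exact m1)
      (by rw [natDegree_divByMonic _ (monic_X_sub_C _), d1, natDegree_X_sub_C, Nat.add_sub_cancel])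
    refine ⟨P2, _, ‹_›, ‹_›, f2.comp f1, Fin.cons (f2 z1) z2, hC1.comp hC2, ?_⟩
    rw [← Ideal.mem_map_C_iff] at h2 ⊢
    have h3 := modByMonic_add_div (F.map (Unt.map p f1 rfl)) (X - C (shp p (f1 t) z1))
    rw [modByMonic_X_sub_C_eq_C_eval, eval_map] at h3
    have h4 := congrArg (Polynomial.map (Unt.map p f2 (t := f1 t) rfl)) h3
    rw [Polynomial.map_map, map_comp_MAnd (k := f2.comp f1) (fun _ => rfl) rfl rfl rfl,
      Polynomial.map_add, Polynomial.map_mul, Polynomial.map_sub, map_X, map_C, map_C,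
      Unt.map_shp] at h4
    have h5 : Unt.map p f2 (t := f1 t) rfl (F.eval₂ (Unt.map p f1 rfl) (shp p (f1 t) z1)) ∈
        Ideal.span {(p : Unt p (f2 (f1 t))) ^ γ} := by
      obtain ⟨c, hc⟩ := Ideal.mem_span_singleton'.1 h1
      rw [← hc, map_mul, map_pow, map_natCast]
      exact Ideal.mul_mem_left _ _ (Ideal.subset_span rfl)
    have h6 := add_mem (Ideal.mem_map_of_mem (C : _ →+* (Unt p (f2 (f1 t)))[X]) h5)
      (Ideal.mul_mem_left _ (X - C (shp p (f2 (f1 t)) (f2 z1))) h2)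
    rw [mul_sub, ← add_sub_assoc, h4] at h6
    rw [Fin.prod_univ_succ]
    exact h6

end Vale.Agent.P202
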