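import Vale.Agent.P202.MFl

/-! The approximation lemma. -/

namespace Vale.Agent.P202

universe u

section aux

variable {B : Type u} [CommRing B]

theorem span_pair_pow_le_MApx (x y : B) (N : ℕ) :
    Ideal.span {x, y} ^ N ≤ Ideal.span (Set.range fun i : Fin (N + 1) => x ^ (i : ℕ) * y ^ (N - i)) := by
  induction N with
  | zero =>
    rw [pow_zero, Ideal.one_eq_top, top_le_iff, Ideal.eq_top_iff_one]
    exact Ideal.subset_span ⟨0, by simp⟩
  | succ N ih =>
    rw [pow_succ]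
    refine (Ideal.mul_mono_left ih).trans ?_
    rw [Ideal.span_mul_span', Ideal.span_le]
    rintro _ ⟨_, ⟨i, rfl⟩, z, hz, rfl⟩
    have hi := i.2
    rcases hz with rfl | rfl
    · refine Ideal.subset_span ⟨i.succ, ?_⟩
      simp only [Fin.val_succ, Nat.add_sub_add_right]
      ring
    · refine Ideal.subset_span ⟨i.castSucc, ?_⟩
      simp only [Fin.val_castSucc]
      rw [show N + 1 - (i : ℕ) = N - i + 1 by omega]
      ring

theorem span_pair_pow_le_pair_MApx (x y : B) (N : ℕ) :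
    Ideal.span {x, y} ^ N ≤ Ideal.span {x ^ N, y} := by
  refine (span_pair_pow_le_MApx x y N).trans ?_
  rw [Ideal.span_le]
  rintro _ ⟨i, rfl⟩
  have hi := i.2
  rw [SetLike.mem_coe, Ideal.mem_span_pair]
  by_cases h : (i : ℕ) = N
  · refine ⟨1, 0, ?_⟩
    simp [h]
  · refine ⟨0, x ^ (i : ℕ) * y ^ (N - i - 1), ?_⟩
    have : N - (i : ℕ) = N - i - 1 + 1 := by omega
    simp only
    conv_rhs => rw [this]
    ring

variable {Γ : Type u} [LinearOrderedCommGroupWithZero Γ]

theorem val_le_of_mem_singleton_MApx (v : Valuation B Γ) (hv : ∀ x, v x ≤ 1) {a b : B}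
    (hb : b ∈ Ideal.span {a}) : v b ≤ v a := by
  obtain ⟨c, rfl⟩ := Ideal.mem_span_singleton'.1 hb
  rw [map_mul]
  exact mul_le_of_le_one_left' (hv c)

theorem val_le_of_mem_mul_MApx (v : Valuation B Γ) {a b : B} {J : Ideal B}
    {c : Γ} (hJ : ∀ x ∈ J, v x ≤ c) (hb : b ∈ Ideal.span {a} * J) : v b ≤ v a * c := by
  obtain ⟨z, hz, rfl⟩ := Ideal.mem_span_singleton_mul.1 hb
  rw [map_mul]
  exact mul_le_mul_right (hJ z hz) _

/-- The numerical heart of the approximation step. -/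
theorem num_MApx {σ γ γ' M D : Γ} {p c Q : ℕ} (hp : 2 ≤ p) (hQ : 3 * (p + c) + 7 ≤ Q)
    (hσ : σ ≤ 1) (hM : M ^ Q = σ ^ p * max γ (σ ^ c)) (hD1 : D ≤ 1)
    (hD : D ≤ σ ^ p * max γ (max (M ^ (Q - 3)) (σ ^ (c + 1))))
    (hγ : max (M ^ (Q - 3)) (σ ^ p * max γ (σ ^ (c + 1))) < γ → γ' = γ) :
    D ≤ max (σ ^ p * γ') (σ ^ p * σ ^ (c + 1)) := by
  obtain ⟨p', rfl⟩ : ∃ p', p = p' + 1 := ⟨p - 1, by omega⟩
  obtain ⟨R, rfl⟩ : ∃ R, Q = R + 3 := ⟨Q - 3, by omega⟩
  rw [Nat.add_sub_cancel] at hD hγ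
  rcases eq_or_lt_of_le hσ with h1 | h1
  · subst h1
    simp [hD1]
  rcases eq_or_ne σ 0 with h0 | h0
  · subst h0
    simp only [ne_eq, Nat.add_eq_zero_iff, one_ne_zero, and_false, not_false_eq_true, zero_pow,
      zero_mul, le_zero_iff] at hD
    simp [hD]
  have hσ0 : 0 < σ := zero_lt_iff.2 h0
  rw [← mul_max]
  refine hD.trans (mul_le_mul_right ?_ _)
  rcases le_or_gt (σ ^ (c + 1)) γ with hc | hc
  · have hγ0 : 0 < γ := (pow_pos hσ0 _).trans_le hc
    have e1 : M ^ (R + 3) ≤ σ ^ p' * γ := by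
      rw [hM, mul_max]
      refine max_le ?_ ?_
      · exact mul_le_mul_left (pow_le_pow_of_le_one hσ0.le hσ (Nat.le_succ _)) _
      · rw [show σ ^ (p' + 1) * σ ^ c = σ ^ p' * σ ^ (c + 1) by
          rw [← pow_add, ← pow_add]; congr 1; omega]
        exact mul_le_mul_right hc _
    have e2 : M ^ R < γ := by
      refine lt_of_pow_lt_pow_left₀ (R + 3) hγ0.le ?_
      calc (M ^ R) ^ (R + 3) = (M ^ (R + 3)) ^ R := by rw [← pow_mul, ← pow_mul, mul_comm]
        _ ≤ (σ ^ p' * γ) ^ R := pow_le_pow_left₀ zero_le e1 _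
        _ = σ ^ (p' * R) * γ ^ R := by rw [mul_pow, ← pow_mul]
        _ < γ ^ 3 * γ ^ R := by
          refine mul_lt_mul_of_pos_right ?_ (pow_pos hγ0 _)
          calc σ ^ (p' * R) < σ ^ ((c + 1) * 3) :=
                pow_lt_pow_right_of_lt_one₀ hσ0 h1 (by nlinarith)
            _ = (σ ^ (c + 1)) ^ 3 := pow_mul _ _ _
            _ ≤ γ ^ 3 := pow_le_pow_left₀ zero_le hc _
        _ = γ ^ (R + 3) := by rw [← pow_add, add_comm]
    have e3 : σ ^ (p' + 1) * max γ (σ ^ (c + 1)) < γ := by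
      rw [max_eq_left hc]
      exact mul_lt_of_lt_one_left hγ0 (pow_lt_one₀ hσ0.le h1 (Nat.succ_ne_zero _))
    rw [hγ (max_lt e2 e3)]
    exact max_le (le_max_left _ _) (max_le (e2.le.trans (le_max_left _ _)) (le_max_right _ _))
  · have e0 : σ ^ (c + 1) ≤ σ ^ c := pow_le_pow_of_le_one hσ0.le hσ (Nat.le_succ _)
    rw [max_eq_right (hc.le.trans e0), ← pow_add] at hM
    have e2 : M ^ R ≤ σ ^ (c + 1) := by
      refine le_of_pow_le_pow_left₀ (n := R + 3) (by omega) zero_le ?_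
      calc (M ^ R) ^ (R + 3) = (M ^ (R + 3)) ^ R := by rw [← pow_mul, ← pow_mul, mul_comm]
        _ = σ ^ ((p' + 1 + c) * R) := by rw [hM, ← pow_mul]
        _ ≤ σ ^ ((c + 1) * (R + 3)) := pow_le_pow_of_le_one hσ0.le hσ (by nlinarith)
        _ = (σ ^ (c + 1)) ^ (R + 3) := pow_mul _ _ _
    exact max_le (hc.le.trans (le_max_right _ _))
      (max_le (e2.trans (le_max_right _ _)) (le_max_right _ _))

end aux

variable {p : ℕ} [Fact p.Prime] {P : Type u} [CommRing P] [CharP P p] [PerfectRing P p] {t : P}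

theorem rt_one_pow_MApx (x : P) : rt p P 1 x ^ p = x := by
  simpa using rt_pow (p := p) 1 x

theorem shp_rt_pow_MApx (t : P) (k : ℕ) (x : P) :
    shp p t (rt p P k x) ^ p ^ k = shp p t x := by
  rw [← map_pow, rt_pow]

theorem approx_step (ht : t ∈ nonZeroDivisors P) (b : Unt p t) (g : P) (c : ℕ)
    (h : VLe (b - shp p t g) (p * shp p t g) (p * shp p t (rt p P 1 t) ^ c)) :
    ∃ g', g' - g ∈ Ideal.span {rt p P 1 t} ∧
      VLe (b - shp p t g') (p * shp p t g') (p * shp p t (rt p P 1 t) ^ (c + 1)) := by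
  classical
  have hp : 2 ≤ p := (Fact.out : p.Prime).two_le
  obtain ⟨k, hk⟩ : ∃ k, 3 * (p + c) + 7 ≤ p ^ (k + 1) :=
    ⟨3 * (p + c) + 7, ((Nat.lt_pow_self hp).trans_le
      (Nat.pow_le_pow_right (by omega) (Nat.le_succ _))).le⟩
  set s := rt p P 1 t with hs
  have hsp : s ^ p = t := rt_one_pow_MApx t
  have hG : shp p t (t * g) = p * shp p t g := by rw [map_mul, shp_self]
  have hH : shp p t (t * s ^ c) = p * shp p t s ^ c := by rw [map_mul, shp_self, map_pow]
  have hdvd : ∃ c' : ℕ, t * s ^ c ∣ t ^ c' := by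
    refine ⟨c + 1, ?_⟩
    rw [pow_succ']
    refine mul_dvd_mul_left _ (pow_dvd_pow_of_dvd ?_ _)
    rw [← hsp]
    exact dvd_pow_self _ (by omega)
  rw [← hG, ← hH] at h
  have hmem := VLe.mem ht hdvd h (k + 1)
  set N := p ^ (k + 1) - 3 with hN
  set G := rt p P (k + 1) (t * g) with hGdef
  set H := rt p P (k + 1) (t * s ^ c) with hHdef
  obtain ⟨β, hβ⟩ := Ideal.mem_span_range_iff_exists_fun.1 (span_pair_pow_le_MApx _ _ _ hmem)
  choose cc hcc using fun i => exists_shp t (β i)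
  let x : Option (Fin (N + 1)) → P := fun o =>
    o.elim g fun i => cc i * (G ^ (i : ℕ) * H ^ (N - i))
  have hsum := shp_sum_sub_mem (p := p) t Finset.univ x (c + 1)
  refine ⟨∑ o, x o, ?_, ?_⟩
  · rw [Fintype.sum_option]
    simp only [x, Option.elim, add_sub_cancel_left]
    refine Ideal.sum_mem _ fun i _ => Ideal.mul_mem_left _ _ ?_
    rw [Ideal.mem_span_singleton]
    have hi := i.2
    have e1 : rt p P (k + 1) t ^ p ^ k = s := by
      rw [hs, add_comm k 1]
      exact rt_add_pow 1 k t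
    have e2 : p ^ k ≤ N := by
      have : p ^ (k + 1) = p ^ k * p := pow_succ _ _
      have : p ^ k * 2 ≤ p ^ k * p := Nat.mul_le_mul_left _ hp
      omega
    have e3 : rt p P (k + 1) t ^ N ∣ G ^ (i : ℕ) * H ^ (N - i) := by
      conv_lhs => rw [show N = i + (N - i) by omega, pow_add]
      refine mul_dvd_mul (pow_dvd_pow_of_dvd ?_ _) (pow_dvd_pow_of_dvd ?_ _)
      · rw [hGdef, map_mul]; exact dvd_mul_right _ _
      · rw [hHdef, map_mul]; exact dvd_mul_right _ _
    rw [← e1]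
    exact (pow_dvd_pow _ e2).trans e3
  · intro Γ _ v hv
    set σ := v (shp p t s) with hσ
    set γ := v (shp p t g) with hγ
    set M := max (v (shp p t G)) (v (shp p t H)) with hM
    have hπ : v (p : Unt p t) = σ ^ p := by rw [hσ, ← map_pow, ← map_pow, hsp, shp_self]
    have hMQ : M ^ p ^ (k + 1) = σ ^ p * max γ (σ ^ c) := by
      have e1 : v (shp p t G) ^ p ^ (k + 1) = σ ^ p * γ := by
        rw [← map_pow, hGdef, shp_rt_pow_MApx, hG, map_mul, hπ]
      have e2 : v (shp p t H) ^ p ^ (k + 1) = σ ^ p * σ ^ c := by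
        rw [← map_pow, hHdef, shp_rt_pow_MApx, hH, map_mul, hπ, map_pow]
      rw [mul_max, ← e1, ← e2, hM]
      exact Monotone.map_max (f := fun a : Γ => a ^ p ^ (k + 1))
        fun a b hab => pow_le_pow_left₀ zero_le hab _
    have hmon : ∀ i : Fin (N + 1), v (shp p t G ^ (i : ℕ) * shp p t H ^ (N - i)) ≤ M ^ N := by
      intro i
      have hi := i.2
      rw [map_mul, map_pow, map_pow]
      conv_rhs => rw [show N = i + (N - i) by omega, pow_add]
      exact mul_le_mul' (pow_le_pow_left₀ zero_le (le_max_left _ _) _)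
        (pow_le_pow_left₀ zero_le (le_max_right _ _) _)
    have hxs : ∀ i : Fin (N + 1), v (shp p t (x (some i))) ≤ M ^ N := by
      intro i
      simp only [x, Option.elim]
      rw [map_mul, map_mul, map_mul, map_pow, map_pow]
      exact (mul_le_of_le_one_left' (hv _)).trans (hmon i)
    have hx : ∀ o, v (shp p t (x o)) ≤ max γ (M ^ N) := by
      rintro (_ | i)
      · exact le_max_left _ _
      · exact (hxs i).trans (le_max_right _ _)
    -- the error of additivity
    have hE : v (∑ o, shp p t (x o) - shp p t (∑ o, x o)) ≤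
        σ ^ p * max γ (max (M ^ N) (σ ^ (c + 1))) := by
      obtain ⟨y, hy, z, hz, hyz⟩ := Submodule.mem_sup.1 hsum
      rw [← hyz]
      refine v.map_add_le ?_ ?_
      · obtain ⟨o0, ho0⟩ : ∃ o0, ∀ o, v (shp p t (rt p P (c + 1) (x o))) ≤
            v (shp p t (rt p P (c + 1) (x o0))) := Finite.exists_max _
        refine (val_le_of_mem_mul_MApx v
          (c := v (shp p t (rt p P (c + 1) (x o0))) ^ p ^ (c + 1)) (fun w hw => ?_) hy).trans ?_
        · refine val_le_of_mem v hv ?_ hw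
          rintro _ ⟨o, -, rfl⟩
          exact ho0 o
        · rw [hπ, ← map_pow v (shp p t (rt p P (c + 1) (x o0))), shp_rt_pow_MApx]
          refine mul_le_mul_right ((hx o0).trans ?_) _
          exact max_le_max le_rfl (le_max_left _ _)
      · refine (val_le_of_mem_singleton_MApx v hv hz).trans ?_
        rw [map_pow, pow_succ', hπ]
        refine mul_le_mul_right ?_ _
        refine le_trans ?_ ((le_max_right _ _).trans (le_max_right _ _))
        refine pow_le_pow_left₀ zero_le ?_ _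
        exact pow_le_of_le_one zero_le (hv _) (by omega)
    have hF : v (b - ∑ o, shp p t (x o)) ≤ σ ^ p * M ^ N := by
      have : b - ∑ o, shp p t (x o) = ∑ i : Fin (N + 1),
          (β i - shp p t (cc i)) * (shp p t G ^ (i : ℕ) * shp p t H ^ (N - i)) := by
        rw [Fintype.sum_option, ← sub_sub]
        simp only [x, Option.elim]
        rw [← hβ, ← Finset.sum_sub_distrib]
        refine Finset.sum_congr rfl fun i _ => ?_
        rw [map_mul, map_mul, map_pow, map_pow]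
        ring
      rw [this]
      refine v.map_sum_le fun i _ => ?_
      rw [map_mul, ← hπ]
      exact mul_le_mul' (val_le_of_mem_singleton_MApx v hv (hcc i)) (hmon i)
    rw [map_mul, map_mul, map_pow, hπ]
    refine num_MApx (M := M) (γ := γ) hp hk (hv _) hMQ (hv _) ?_ fun hlt => ?_
    · rw [← hN, ← sub_add_sub_cancel b (∑ o, shp p t (x o))]
      refine v.map_add_le (hF.trans (mul_le_mul_right ?_ _)) hE
      exact (le_max_left _ _).trans (le_max_right _ _)
    · rw [← hN] at hlt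
      refine v.map_eq_of_sub_lt (lt_of_le_of_lt ?_ hlt)
      have : shp p t (∑ o, x o) - shp p t g = ∑ i : Fin (N + 1), shp p t (x (some i)) -
          (∑ o, shp p t (x o) - shp p t (∑ o, x o)) := by
        rw [Fintype.sum_option (f := fun o => shp p t (x o))]
        simp only [x, Option.elim]
        ring
      rw [this]
      refine v.map_sub_le ((v.map_sum_le fun i _ => hxs i).trans (le_max_left _ _)) (hE.trans ?_)
      rw [mul_max, mul_max, mul_max]
      refine max_le ((le_max_left _ _).trans (le_max_right _ _)) (max_le ?_ ?_)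
      · exact (mul_le_of_le_one_left' (pow_le_one₀ zero_le (hv _))).trans (le_max_left _ _)
      · exact (le_max_right _ _).trans (le_max_right _ _)

theorem approx (ht : t ∈ nonZeroDivisors P) (b : Unt p t) (g0 : P)
    (h0 : b - shp p t g0 ∈ Ideal.span {(p : Unt p t)}) (γ : ℕ) :
    ∃ g, g - g0 ∈ Ideal.span {rt p P 1 t} ∧
      VLe (b - shp p t g) (p * shp p t g) (p ^ γ) := by
  have key : ∀ c : ℕ, ∃ g, g - g0 ∈ Ideal.span {rt p P 1 t} ∧
      VLe (b - shp p t g) (p * shp p t g) (p * shp p t (rt p P 1 t) ^ c) := by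
    intro c
    induction c with
    | zero =>
      refine ⟨g0, by simp, fun Γ _ v hv => ?_⟩
      rw [pow_zero, mul_one]
      exact (val_le_of_mem_singleton_MApx v hv h0).trans (le_max_right _ _)
    | succ c ih =>
      obtain ⟨g, hg, hV⟩ := ih
      obtain ⟨g', hg', hV'⟩ := approx_step ht b g c hV
      refine ⟨g', ?_, hV'⟩
      rw [← sub_add_sub_cancel g' g g0]
      exact Ideal.add_mem _ hg' hg
  obtain ⟨g, hg, hV⟩ := key (p * γ)
  refine ⟨g, hg, fun Γ _ v hv => (hV Γ v hv).trans (max_le_max le_rfl ?_)⟩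
  rw [pow_mul, ← map_pow, rt_one_pow_MApx, shp_self, map_mul]
  exact mul_le_of_le_one_left' (hv _)

/-- Almost division by `p^e Δ'` modulo `p^γ`. -/
theorem almost_div (ht : t ∈ nonZeroDivisors P) (Δ' : Unt p t) (g : P) (e γ k : ℕ)
    (hk : 6 ≤ p ^ k) (hg : VLe (Δ' - shp p t g) (p * shp p t g) (p ^ (γ * p ^ k))) :
    ∃ c : Unt p t, ∀ b : Unt p t, VLe b (p ^ e * Δ') (p ^ (γ * p ^ k)) →
      shp p t (rt p P k (g * t ^ e)) ^ 3 *
        (shp p t (rt p P k (g * t ^ e)) ^ 3 + shp p t (rt p P k t) ^ (p ^ k - 3) * c) * b ∈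
        Ideal.span {p ^ e * Δ', (p : Unt p t) ^ γ} := by
  set ρ := shp p t (rt p P k (g * t ^ e)) with hρ
  set τ := shp p t (rt p P k t) with hτ
  have hG : shp p t (g * t ^ e) = p ^ e * shp p t g := by
    rw [map_mul, map_pow, shp_self, mul_comm]
  have hH : shp p t (t ^ (γ * p ^ k)) = (p : Unt p t) ^ (γ * p ^ k) := by rw [map_pow, shp_self]
  have hHk : shp p t (rt p P k (t ^ (γ * p ^ k))) = (p : Unt p t) ^ γ := by
    rw [map_pow, mul_comm, pow_mul, rt_pow, map_pow, shp_self]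
  have hdvd : ∃ c : ℕ, t ^ (γ * p ^ k) ∣ t ^ c := ⟨_, dvd_rfl⟩
  have h1 : VLe (p ^ e * Δ' - shp p t (g * t ^ e)) (shp p t (t * (g * t ^ e)))
      (shp p t (t ^ (γ * p ^ k))) := by
    intro Γ _ v hv
    rw [map_mul (shp p t) t, shp_self, hG, hH, ← mul_sub, map_mul, mul_left_comm, map_mul]
    refine (mul_le_mul_right (hg Γ v hv) _).trans ?_
    rw [mul_max]
    exact max_le_max le_rfl (mul_le_of_le_one_left' (hv _))
  have h2 := span_pair_pow_le_pair_MApx _ _ _ (VLe.mem ht hdvd h1 k)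
  rw [hHk, map_mul, map_mul, ← hρ, ← hτ, Ideal.mem_span_pair] at h2
  obtain ⟨c, d, hcd⟩ := h2
  refine ⟨c, fun b hb => ?_⟩
  have h3 : VLe b (shp p t (g * t ^ e)) (shp p t (t ^ (γ * p ^ k))) := by
    intro Γ _ v hv
    refine (hb Γ v hv).trans (max_le ?_ (by rw [hH]; exact le_max_right _ _))
    rw [← sub_add_cancel (p ^ e * Δ') (shp p t (g * t ^ e))]
    refine v.map_add_le ((h1 Γ v hv).trans (max_le_max ?_ le_rfl)) (le_max_left _ _)
    rw [map_mul (shp p t) t, map_mul v]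
    exact mul_le_of_le_one_left' (hv _)
  have h4 := span_pair_pow_le_pair_MApx _ _ _ (VLe.mem ht hdvd h3 k)
  rw [hHk, ← hρ, Ideal.mem_span_pair] at h4
  obtain ⟨b1, b2, rfl⟩ := h4
  have h5 : shp p t (g * t ^ e) = ρ ^ (p ^ k - 3) * ρ ^ 3 := by
    rw [← pow_add, Nat.sub_add_cancel (by omega), hρ, shp_rt_pow_MApx]
  rw [mul_assoc]
  refine Ideal.mul_mem_left _ _ (Ideal.mem_span_pair.2
    ⟨b1, (ρ ^ 3 + τ ^ (p ^ k - 3) * c) * b2 - d * b1, ?_⟩)
  rw [h5, mul_pow] at hcd
  linear_combination (-b1) * hcd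

end Vale.Agent.P202
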