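import Vale.Agent.P202.MCx
import Vale.Agent.P202.BiCx

/-! Double complexes, relative version (port of `BiCx.lean`). -/

namespace Vale.Agent.P202

open scoped ENNReal

universe u

variable {S : Type u} [CommRing S] {E : Type u} [AddCommGroup E] [Module S E] (μ : RLen S)
  {d0 d1 : E →ₗ[S] E} {P : ℤ → E →ₗ[S] E} {X X' : ℤ → ℤ → Submodule S E}

theorem hr_step_mbi (h' : Bi d0 d1 P X') (h : Bi d0 d1 P X) (hle : X' ≤ X) (k n : ℤ) :
    hr μ (d0 + d1) (Tot (mixX X' X k)) (Tot (mixX X' X (k + 1))) n =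
      hr μ d0 (X' k) (X k) (n + -k) := by
  refine hr_transfer μ (P k) (-k) 1 (mixX_bi h' h hle _).isCx_tot (fun n => h'.map0 k n)
    (fun n x hx => by simpa using mixX_comm h' h hle k n x hx) (fun n => ?_) (fun n => ?_) n
  · apply le_antisymm
    · refine sup_le ?_ (hle _ _)
      rintro _ ⟨x, hx, rfl⟩
      exact h.P_mem k (Tot_mono (fun i j => mixX_le hle _ i j) n hx)
    · intro x hx
      refine Submodule.mem_sup_left ⟨x, Submodule.mem_iSup_of_mem k ?_, h.fix _ _ _ hx⟩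
      simpa [mixX, sub_eq_add_neg] using hx
  · apply le_antisymm
    · rintro x ⟨hx, hP⟩
      have h1 := mixX_sub h hle k n x hx
      have h2 : P k x ∈ Tot (mixX X' X k) n :=
        Submodule.mem_iSup_of_mem k (le_mixX hle _ _ _ hP)
      simpa using add_mem h1 h2
    · intro x hx
      refine ⟨Tot_mono (mixX_mono hle (by omega)) n hx, ?_⟩
      have := (mixX_bi h' h hle k).P_mem k hx
      simpa [mixX, sub_eq_add_neg] using this

theorem sq_mix_mbi (hd : Sq (d0 + d1) (Tot X') (Tot X)) (hle : X' ≤ X) (k k' : ℤ) :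
    Sq (d0 + d1) (Tot (mixX X' X k)) (Tot (mixX X' X k')) :=
  hd.mono (Tot_mono fun i j => le_mixX hle k i j) (Tot_mono fun i j => mixX_le hle k' i j)

theorem rowsR_le (hd : Sq (d0 + d1) (Tot X') (Tot X)) (h' : Bi d0 d1 P X') (h : Bi d0 d1 P X)
    (hle : X' ≤ X) (lo hi : ℤ) (hs : ∀ i ∉ Finset.Icc lo hi, ∀ j, X i j ≤ X' i j) (n : ℤ) :
    hr μ (d0 + d1) (Tot X') (Tot X) n ≤
      ∑ i ∈ Finset.Icc lo hi, hr μ d0 (X' i) (X i) (n - i) := by
  have key := hr_chain_le μ (fun r => Tot (mixX X' X (lo + r))) (hi + 1 - lo).toNat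
    (sq_mix_mbi hd hle _ _)
    (fun i _ => (mixX_bi h' h hle _).isCx_tot)
    (fun i _ => Tot_mono (mixX_mono hle (by push_cast; omega))) n
  simp only [Nat.cast_zero, add_zero] at key
  rw [mixX_lo hle hs, mixX_hi hle hs] at key
  refine key.trans (le_of_eq ?_)
  rw [Int.Icc_eq_finset_map, Finset.sum_map]
  refine Finset.sum_congr rfl fun i _ => ?_
  rw [Nat.cast_succ, ← add_assoc, hr_step_mbi μ h' h hle]
  rfl

theorem rowsR_chi (hd : Sq (d0 + d1) (Tot X') (Tot X)) (h' : Bi d0 d1 P X') (h : Bi d0 d1 P X)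
    (hle : X' ≤ X) (lo hi : ℤ) (hs : ∀ i ∉ Finset.Icc lo hi, ∀ j, X i j ≤ X' i j)
    (hg : ∀ i ∈ Finset.Icc lo hi, GoodR μ d0 (X' i) (X i)) :
    GoodR μ (d0 + d1) (Tot X') (Tot X) ∧ chiR μ (d0 + d1) (Tot X') (Tot X) =
      ∑ i ∈ Finset.Icc lo hi, (((i.negOnePow : ℤˣ) : ℤ) : ℝ) * chiR μ d0 (X' i) (X i) := by
  have step := fun k : ℤ => good_chi_of_hr_shift μ (d := d0 + d1) (F' := Tot (mixX X' X k))
    (F'' := Tot (mixX X' X (k + 1))) (d' := d0) (G' := X' k) (G'' := X k) (-k)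
    (fun n => hr_step_mbi μ h' h hle k n)
  have key := good_chiR_chain μ (fun r => Tot (mixX X' X (lo + r))) (hi + 1 - lo).toNat
    (sq_mix_mbi hd hle _ _)
    (fun i _ => (mixX_bi h' h hle _).isCx_tot)
    (fun i _ => Tot_mono (mixX_mono hle (by push_cast; omega)))
    (fun i hi' => by
      rw [Nat.cast_succ, ← add_assoc]
      exact (step _).1.2 (hg _ (Finset.mem_Icc.2 ⟨by omega, by omega⟩)))
  simp only [Nat.cast_zero, add_zero] at key
  rw [mixX_lo hle hs, mixX_hi hle hs] at key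
  refine ⟨key.1, key.2.trans ?_⟩
  rw [Int.Icc_eq_finset_map, Finset.sum_map]
  refine Finset.sum_congr rfl fun i _ => ?_
  rw [Nat.cast_succ, ← add_assoc, (step _).2, Int.negOnePow_neg]
  rfl

/-- The relative staircase. -/
theorem stairR (κ : S) (Y Y' : ℕ → ℤ → ℤ → Submodule S E)
    (hY : ∀ a, Bi d0 d1 P (Y a)) (hY' : ∀ a, Bi d0 d1 P (Y' a)) (hle : ∀ a, Y (a + 1) ≤ Y a)
    (hle' : ∀ a, Y' (a + 1) ≤ Y' a) (hd : ∀ a, Sq (d0 + d1) (Tot (Y' a)) (Tot (Y a)))
    (lo hi : ℤ) (hs : ∀ a, ∀ i ∉ Finset.Icc lo hi, ∀ j, Y a i j = ⊥)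
    (hz : ∀ a i j, ∀ x ∈ Y (a + 1) i j, d0 x ∈ Y' (a + 1) i (j - 1) →
      κ • x ∈ Y' a i j ⊔ (Y a i (j + 1)).map d0)
    (r : ℕ) (hr : hi - lo + 1 ≤ r) (n : ℤ) :
    ∀ x ∈ Zc (d0 + d1) (Tot (Y' r)) (Tot (Y r)) n,
      κ ^ r • x ∈ Bc (d0 + d1) (Tot (Y' 0)) (Tot (Y 0)) n := by
  have hanti : ∀ a, Y a ≤ Y 0 := by
    intro a
    induction a with
    | zero => exact le_rfl
    | succ a ih => exact (hle a).trans ih
  have hanti' : ∀ a, Y' a ≤ Y' 0 := by
    intro a
    induction a with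
    | zero => exact le_rfl
    | succ a ih => exact (hle' a).trans ih
  have key : ∀ r : ℕ, ∀ ξ ∈ Tot (mixX ⊥ (Y r) (lo + r)) n, (d0 + d1) ξ ∈ Tot (Y' r) (n - 1) →
      κ ^ r • ξ ∈ Bc (d0 + d1) (Tot (Y' 0)) (Tot (Y 0)) n := by
    intro r
    induction r with
    | zero =>
      intro ξ hξ _
      rw [Nat.cast_zero, add_zero, mixX_lo (hi := hi) bot_le (fun i hi j => (hs 0 i hi j).le),
        Tot_bot] at hξ
      rw [show ξ = 0 from hξ, smul_zero]
      exact zero_mem _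
    | succ r ih =>
      intro ξ hξ h0
      rw [Nat.cast_succ, ← add_assoc] at hξ
      set k : ℤ := lo + r with hk
      have hb := mixX_bi Bi.bot (hY (r + 1)) bot_le (k + 1)
      have hx : P k ξ ∈ Y (r + 1) k (n - k) := by
        have := hb.P_mem k hξ
        simpa [mixX] using this
      have hc := mixX_comm Bi.bot (hY (r + 1)) bot_le k n ξ hξ
      have hd0 : d0 (P k ξ) ∈ Y' (r + 1) k (n - k - 1) := by
        have h1 : P k ((d0 + d1) ξ) = d0 (P k ξ) := sub_eq_zero.1 hc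
        rw [← h1, show n - k - 1 = n - 1 - k by ring]
        exact (hY' (r + 1)).P_mem k h0
      obtain ⟨y, hy, _, ⟨η, hη, rfl⟩, hηx⟩ := Submodule.mem_sup.1 (hz r k _ _ hx hd0)
      have h1 : ξ - P k ξ ∈ Tot (mixX ⊥ (Y r) k) n := by
        refine Tot_mono (X' := mixX ⊥ (Y (r + 1)) k) (fun i j => ?_) n
          (mixX_sub (hY (r + 1)) bot_le k n ξ hξ)
        unfold mixX
        split_ifs
        · exact hle r i j
        · exact le_rfl
      have h2 : d1 η ∈ Tot (mixX ⊥ (Y r) k) n := by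
        refine Submodule.mem_iSup_of_mem (k - 1) ?_
        have := (hY r).map1 _ _ ⟨η, hη, rfl⟩
        rw [show n - (k - 1) = n - k + 1 by ring]
        simpa [mixX] using this
      have e : κ • ξ - y - (d0 + d1) η = κ • (ξ - P k ξ) - d1 η := by
        rw [LinearMap.add_apply, smul_sub, ← hηx]; abel
      have hy' : y ∈ Tot (Y' r) n := Submodule.mem_iSup_of_mem k hy
      have hη' : η ∈ Tot (Y r) (n + 1) := by
        refine Submodule.mem_iSup_of_mem k ?_
        rwa [show n + 1 - k = n - k + 1 by ring]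
      have h3 := ih (κ • ξ - y - (d0 + d1) η)
        (by rw [e]; exact sub_mem (Submodule.smul_mem _ _ h1) h2) (by
          rw [map_sub, map_sub, map_smul]
          refine sub_mem (sub_mem (Submodule.smul_mem _ _ (Tot_mono (hle' r) _ h0))
            ((hY' r).isCx_tot n ⟨y, hy', rfl⟩)) ?_
          have := hd r (n + 1) η hη'
          rwa [show n + 1 - 2 = n - 1 by ring] at this)
      have h4 : y + (d0 + d1) η ∈ Bc (d0 + d1) (Tot (Y' 0)) (Tot (Y 0)) n :=
        Submodule.add_mem_sup (Tot_mono (hanti' r) _ hy') ⟨η, Tot_mono (hanti r) _ hη', rfl⟩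
      have h5 := add_mem h3 (Submodule.smul_mem _ (κ ^ r) h4)
      rw [← smul_add, show κ • ξ - y - (d0 + d1) η + (y + (d0 + d1) η) = κ • ξ by abel,
        smul_smul, ← pow_succ] at h5
      exact h5
  rintro ξ ⟨hξ, h0⟩
  refine key r ξ ?_ h0
  have : mixX ⊥ (Y r) (lo + r) = Y r := by
    funext i j
    unfold mixX
    split_ifs with hi'
    · rfl
    · rw [hs r i (by rw [Finset.mem_Icc]; omega)]; rfl
  rw [this]
  exact hξ

end Vale.Agent.P202
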