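import Vale.Agent.P202.MVan

/-! Independence of the line bundle. -/

namespace Vale.Agent.P202

open scoped ENNReal

universe u

variable {B : Type u} [CommRing B] {m : ℕ} {E : Type u} [AddCommGroup E] [Module B E]
  {ξ : Fin (m + 1) → B} {φ : ℤ → Lau B m →ₗ[B] E} {K : MC B} {κ : B} {N t M' : ℕ} {μ : RLen B}

section transport

variable {E1 E2 : Type u} [AddCommGroup E1] [Module B E1] [AddCommGroup E2] [Module B E2]
  {d1 : E1 →ₗ[B] E1} {d2 : E2 →ₗ[B] E2} {i : E1 →ₗ[B] E2}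

theorem map_d_mcmp (hc : ∀ x, d2 (i x) = i (d1 x)) (A : Submodule B E1) :
    (A.map i).map d2 = (A.map d1).map i := by
  rw [← Submodule.map_comp, ← Submodule.map_comp]
  congr 1
  exact LinearMap.ext hc

theorem Bc_map_mcmp (hc : ∀ x, d2 (i x) = i (d1 x)) (F' F'' : ℤ → Submodule B E1) (n : ℤ) :
    Bc d2 (fun n => (F' n).map i) (fun n => (F'' n).map i) n = (Bc d1 F' F'' n).map i := by
  unfold Bc
  rw [Submodule.map_sup, map_d_mcmp hc]

theorem Zc_map_mcmp (hi : Function.Injective i) (hc : ∀ x, d2 (i x) = i (d1 x))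
    (F' F'' : ℤ → Submodule B E1) (n : ℤ) :
    Zc d2 (fun n => (F' n).map i) (fun n => (F'' n).map i) n = (Zc d1 F' F'' n).map i := by
  ext x
  constructor
  · rintro ⟨⟨u, hu, rfl⟩, w, hw, e⟩
    rw [hc] at e
    exact ⟨u, ⟨hu, by rw [SetLike.mem_coe, Submodule.mem_comap, ← hi e]; exact hw⟩, rfl⟩
  · rintro ⟨u, ⟨hu, hu'⟩, rfl⟩
    exact ⟨⟨u, hu, rfl⟩, d1 u, hu', (hc u).symm⟩

theorem hr_map_mcmp (μ : RLen B) (hi : Function.Injective i) (hc : ∀ x, d2 (i x) = i (d1 x))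
    (F' F'' : ℤ → Submodule B E1) (n : ℤ) :
    hr μ d2 (fun n => (F' n).map i) (fun n => (F'' n).map i) n = hr μ d1 F' F'' n := by
  unfold hr
  rw [Bc_map_mcmp hc, Zc_map_mcmp hi hc, ← rr_map, Submodule.comap_map_eq_of_injective hi]

theorem Qb_map_mcmp (hc : ∀ x, d2 (i x) = i (d1 x)) (X : ℤ → ℤ → Submodule B E1) (lam : ℤ → ℤ) :
    Qb d2 (fun s n => (X s n).map i) lam = fun n => (Qb d1 X lam n).map i := by
  funext n
  unfold Qb
  rw [Submodule.map_sup, map_d_mcmp hc]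

theorem Sys.map_mcmp {X : ℤ → ℤ → Submodule B E1} {lo hi M Lm : ℤ}
    (h : Sys μ κ d1 X lo hi M Lm) (hinj : Function.Injective i) (hc : ∀ x, d2 (i x) = i (d1 x)) :
    Sys μ κ d2 (fun s n => (X s n).map i) lo hi M Lm where
  hM := h.hM
  lohi := h.lohi
  cx s n := by
    rw [map_d_mcmp hc]
    exact Submodule.map_mono (h.cx s n)
  anti s s' hs n := Submodule.map_mono (h.anti s s' hs n)
  supp s n hn := by rw [h.supp s n hn, Submodule.map_bot]
  sq := by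
    rintro n _ ⟨u, hu, rfl⟩
    exact ⟨_, h.sq n u hu, by rw [hc, hc]⟩
  zz := by
    obtain ⟨r, hr⟩ := h.zz
    refine ⟨r, fun s s' n h0 hs hL x hx => ?_⟩
    rw [Zc_map_mcmp hinj hc] at hx
    obtain ⟨u, hu, rfl⟩ := hx
    rw [Bc_map_mcmp hc]
    exact ⟨_, hr s s' n h0 hs hL u hu, map_smul _ _ _⟩
  fin s s' n h0 hs hL := by
    rw [hr_map_mcmp _ hinj hc]
    exact h.fin s s' n h0 hs hL

theorem Qb_sup_mcmp {X : ℤ → ℤ → Submodule B E1} {G : ℤ → Submodule B E1} (hG : IsCx d1 G)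
    (lam : ℤ → ℤ) (n : ℤ) : Qb d1 (fun s => X s ⊔ G) lam n = Qb d1 X lam n ⊔ G n := by
  have h1 : (G (n + 1)).map d1 ≤ G n := by
    have := hG (n + 1)
    rwa [add_sub_cancel_right] at this
  unfold Qb
  simp only [Pi.sup_apply, Submodule.map_sup]
  refine le_antisymm (sup_le (sup_le ?_ le_sup_right) (sup_le ?_ (h1.trans le_sup_right)))
    (sup_le (sup_le ?_ ?_) ?_)
  · exact le_sup_left.trans le_sup_left
  · exact le_sup_right.trans le_sup_left
  · exact le_sup_left.trans le_sup_left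
  · exact le_sup_left.trans le_sup_right
  · exact le_sup_right.trans le_sup_left

end transport

/-- The inclusion into the cone. -/
def coneI (K : MC B) (y : B) (E : Type u) [AddCommGroup E] [Module B E] :
    (K.ι → E) →ₗ[B] ((K.cone y).ι → E) where
  toFun u := Sum.elim u 0
  map_add' u v := by
    funext a
    rcases a with a | a
    · rfl
    · exact (add_zero (0 : E)).symm
  map_smul' c u := by
    funext a
    rcases a with a | a
    · rfl
    · exact (smul_zero c).symm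

/-- The projection from the cone. -/
def coneP (K : MC B) (y : B) (E : Type u) [AddCommGroup E] [Module B E] :
    ((K.cone y).ι → E) →ₗ[B] (K.ι → E) where
  toFun x a := x (Sum.inr a)
  map_add' _ _ := rfl
  map_smul' _ _ := rfl

theorem dt_apply_mcmp (K : MC B) (δ : E →ₗ[B] E) (x : K.ι → E) (a : K.ι) :
    K.dt δ x a = (((-1 : ℤ) ^ K.deg a : ℤ) : B) • δ (x a) + ∑ b, K.mat a b • x b := by
  rw [MC.dt, LinearMap.add_apply, Pi.add_apply, MC.sg_apply, MC.act_apply]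

omit [Module B E] in
theorem cone_sum_mcmp (y : B) (f : (K.cone y).ι → E) :
    ∑ b, f b = ∑ b : K.ι, f (Sum.inl b) + ∑ b : K.ι, f (Sum.inr b) :=
  Fintype.sum_sum_type (α₁ := K.ι) (α₂ := K.ι) f

theorem cone_dt_inr_mcmp (δ : E →ₗ[B] E) (y : B) (x : (K.cone y).ι → E) :
    coneP K y E ((K.cone y).dt δ x) = -K.dt δ (coneP K y E x) := by
  funext a
  rw [Pi.neg_apply, dt_apply_mcmp]
  refine (dt_apply_mcmp (K.cone y) δ x (Sum.inr a)).trans ?_
  rw [cone_sum_mcmp]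
  change (((-1 : ℤ) ^ (K.deg a + 1) : ℤ) : B) • δ (x (Sum.inr a)) +
    (∑ b : K.ι, (0 : B) • x (Sum.inl b) + ∑ b : K.ι, (-K.mat a b) • x (Sum.inr b)) =
    -((((-1 : ℤ) ^ K.deg a : ℤ) : B) • δ (x (Sum.inr a)) + ∑ b, K.mat a b • x (Sum.inr b))
  simp only [zero_smul, Finset.sum_const_zero, zero_add, neg_smul, Finset.sum_neg_distrib, pow_succ,
    mul_neg, mul_one, Int.cast_neg, neg_add]

theorem cone_dt_I_mcmp (δ : E →ₗ[B] E) (y : B) (u : K.ι → E) :
    (K.cone y).dt δ (coneI K y E u) = coneI K y E (K.dt δ u) := by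
  funext a
  rcases a with a | a
  · refine (dt_apply_mcmp (K.cone y) δ _ (Sum.inl a)).trans ?_
    rw [cone_sum_mcmp]
    change (((-1 : ℤ) ^ K.deg a : ℤ) : B) • δ (u a) + (∑ b : K.ι, K.mat a b • u b +
      ∑ b : K.ι, (K.cone y).mat (Sum.inl a) (Sum.inr b) • (0 : E)) = K.dt δ u a
    rw [dt_apply_mcmp]
    simp only [smul_zero, Finset.sum_const_zero, add_zero]
  · have h1 := congrFun (cone_dt_inr_mcmp δ y (coneI K y E u)) a
    have h2 : coneP K y E (coneI K y E u) = 0 := rfl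
    rw [h2, map_zero, neg_zero] at h1
    exact h1

theorem coneI_inj_mcmp (y : B) : Function.Injective (coneI K y E) := fun _ _ h =>
  funext fun a => congrFun h (Sum.inl a)

theorem mem_cone_T_mcmp {y : B} {C : ℤ → Submodule B E} {n : ℤ} {x : (K.cone y).ι → E} :
    x ∈ ((K.cone y).T fun _ => C) n ↔
      (fun a => x (Sum.inl a)) ∈ (K.T fun _ => C) n ∧ coneP K y E x ∈ (K.T fun _ => C) (n + -1) := by
  have e : ∀ a : K.ι, n - (((K.cone y).deg (Sum.inr a) : ℕ) : ℤ) = n + -1 - K.deg a := by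
    intro a
    change n - ((K.deg a + 1 : ℕ) : ℤ) = _
    push_cast
    ring
  rw [MC.mem_T, MC.mem_T, MC.mem_T]
  constructor
  · intro h
    refine ⟨fun a => h (Sum.inl a), fun a => ?_⟩
    rw [← e]
    exact h (Sum.inr a)
  · rintro ⟨h1, h2⟩ (a | a)
    · exact h1 a
    · rw [e]
      exact h2 a

theorem cone_T_map_mcmp (y : B) (C : ℤ → Submodule B E) (n : ℤ) :
    (((K.cone y).T fun _ => C) n).map (coneP K y E) = (K.T fun _ => C) (n + -1) := by
  apply le_antisymm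
  · rintro _ ⟨x, hx, rfl⟩
    exact (mem_cone_T_mcmp.1 hx).2
  · intro u hu
    exact ⟨Sum.elim 0 u, mem_cone_T_mcmp.2 ⟨Submodule.zero_mem _, hu⟩, rfl⟩

theorem cone_T_ker_mcmp (y : B) (C : ℤ → Submodule B E) (n : ℤ) :
    ((K.cone y).T fun _ => C) n ⊓ LinearMap.ker (coneP K y E) =
      ((K.T fun _ => C) n).map (coneI K y E) := by
  apply le_antisymm
  · rintro x ⟨hx, h0⟩
    refine ⟨_, (mem_cone_T_mcmp.1 hx).1, ?_⟩
    funext a
    rcases a with a | a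
    · rfl
    · exact (congrFun (LinearMap.mem_ker.1 h0) a).symm
  · rintro _ ⟨u, hu, rfl⟩
    exact ⟨mem_cone_T_mcmp.2 ⟨hu, Submodule.zero_mem _⟩, rfl⟩

theorem cone_Qb_map_mcmp (δ : E →ₗ[B] E) (y : B) (C : ℤ → ℤ → Submodule B E) (M hi n : ℤ) :
    (Qb ((K.cone y).dt δ) (fun s => (K.cone y).T fun _ => C s) (lv M hi (2 * M)) n).map
      (coneP K y E) = Qb (K.dt δ) (fun s => K.T fun _ => C s) (lv M hi 0) (n + -1) := by
  have e1 : lv M hi 0 (n + -1) = lv M hi (2 * M) n := by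
    unfold lv
    ring
  have e2 : lv M hi 0 (n + -1 + 1) = lv M hi (2 * M) (n + 1) := by
    unfold lv
    ring
  have e3 : coneP K y E ∘ₗ (K.cone y).dt δ = (-K.dt δ) ∘ₗ coneP K y E :=
    LinearMap.ext (cone_dt_inr_mcmp δ y)
  unfold Qb
  rw [Submodule.map_sup, cone_T_map_mcmp, ← Submodule.map_comp, e3, Submodule.map_comp,
    cone_T_map_mcmp, Submodule.map_neg, e1, e2, show n + 1 + -1 = n + -1 + 1 by ring]

/-- The Euler characteristic of a cone vanishes. -/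
theorem cone_chi_zero {δ : E →ₗ[B] E} (y : B) (C : ℤ → ℤ → Submodule B E) {lo hi M Lm : ℤ}
    (h1 : Sys μ κ (K.dt δ) (fun s => K.T fun _ => C s) lo hi M Lm)
    (h2 : Sys μ κ ((K.cone y).dt δ) (fun s => (K.cone y).T fun _ => C s) lo hi M Lm)
    (hL : 2 * M + 2 * M * (hi - lo + 4) ≤ Lm) :
    chiR μ ((K.cone y).dt δ)
      (Qb ((K.cone y).dt δ) (fun s => (K.cone y).T fun _ => C s) (lv M hi (2 * M)))
      ((K.cone y).T fun _ => C 0) = 0 := by
  have hM := h1.hM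
  have h3 := h1.map_mcmp (coneI_inj_mcmp y) (cone_dt_I_mcmp δ y)
  have hle : (fun s n => ((K.T fun _ => C s) n).map (coneI K y E)) ≤
      fun s => (K.cone y).T fun _ => C s := fun s n =>
    (cone_T_ker_mcmp y (C s) n).symm.le.trans inf_le_left
  have hst : ∀ s n, 0 ≤ s → ((K.cone y).T fun _ => C s) n ⊓
      ((K.T fun _ => C 0) n).map (coneI K y E) ≤ ((K.T fun _ => C s) n).map (coneI K y E) := by
    intro s n _
    rw [← cone_T_ker_mcmp, ← cone_T_ker_mcmp]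
    exact inf_le_inf_left _ inf_le_right
  have e1 := h2.ses h3 hle hst (by omega) hL
  have e2 : chiR μ ((K.cone y).dt δ) (Qb ((K.cone y).dt δ)
      (fun s n => ((K.T fun _ => C s) n).map (coneI K y E)) (lv M hi (2 * M)))
      (fun n => ((K.T fun _ => C 0) n).map (coneI K y E)) =
      chiR μ (K.dt δ) (Qb (K.dt δ) (fun s => K.T fun _ => C s) (lv M hi (2 * M)))
        (K.T fun _ => C 0) := by
    unfold chiR
    rw [Qb_map_mcmp (cone_dt_I_mcmp δ y)]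
    simp only [hr_map_mcmp μ (coneI_inj_mcmp y) (cone_dt_I_mcmp δ y)]
  have hq : Qb ((K.cone y).dt δ) (fun s => (K.cone y).T fun _ => C s) (lv M hi (2 * M)) ≤
      (K.cone y).T fun _ => C 0 := h2.qb_le.trans (h2.anti 0 _ (by omega))
  have e3 := (good_chi_of_hr_shift μ (-1) (hr_transfer μ
    (F' := Qb ((K.cone y).dt δ) (fun s => ((K.cone y).T fun _ => C s) ⊔
      fun n => ((K.T fun _ => C 0) n).map (coneI K y E)) (lv M hi (2 * M)))
    (G' := Qb (K.dt δ) (fun s => K.T fun _ => C s) (lv M hi 0)) (G'' := K.T fun _ => C 0)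
    (coneP K y E) (-1) (-1) (h2.cx 0) (h1.qb_cx le_rfl (by omega))
    (fun n x _ => by
      rw [cone_dt_inr_mcmp, Units.val_neg, Units.val_one, neg_smul, one_smul, sub_self]
      exact Submodule.zero_mem _)
    (fun n => by
      rw [cone_T_map_mcmp]
      exact sup_eq_left.2 (h1.qb_le _))
    (fun n => by
      rw [Qb_sup_mcmp (h3.cx 0), ← cone_Qb_map_mcmp, Submodule.comap_map_eq, ← cone_T_ker_mcmp,
        inf_comm, sup_inf_assoc_of_le _ (hq n), inf_comm]))).2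
  have e4 := h1.qb_indep (c := 0) (c' := 2 * M) le_rfl (by omega) hL
  rw [e1, e2, e3, e4, Int.negOnePow_neg, Int.negOnePow_one]
  simp

section charts

theorem TC_mono_mcmp (K : MC B) {D D' : (Fin m → Ch) → Submodule B E} (h : D ≤ D') :
    (K.T fun _ => Cech D) ≤ K.T fun _ => Cech D' :=
  K.T_mono fun _ => cech_mono h

theorem TC_sup_mcmp (K : MC B) (D D' : (Fin m → Ch) → Submodule B E) :
    (K.T fun _ => Cech fun J => D J ⊔ D' J) = (K.T fun _ => Cech D) ⊔ K.T fun _ => Cech D' := by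
  rw [← K.T_sup]
  congr 1
  funext _ n
  exact cech_sup D D' n

theorem TC_inf_mcmp (K : MC B) (D D' : (Fin m → Ch) → Submodule B E) :
    (K.T fun _ => Cech fun J => D J ⊓ D' J) = (K.T fun _ => Cech D) ⊓ K.T fun _ => Cech D' := by
  rw [← K.T_inf]
  congr 1
  funext _ n
  exact cech_inf D D' n

theorem Geo.ideal_smul_mcmp (h : Geo ξ φ) {A : ℕ} {a a' : Fin m → ℤ} (hA : ∀ j, a' j ≤ a j + A)
    {s s' : ℤ} (hs : s' ≤ s + M') (J : Fin m → Ch) :
    (Ideal.span (Set.range ξ) ^ M' ⊔ Ideal.span {ξ 0 ^ A}) • DG φ a' s J ≤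
      DG φ a' s' J ⊔ DG φ a s J := by
  rw [Submodule.sup_smul]
  refine sup_le_sup (h.smul_le a' hs J) (Submodule.smul_le.2 fun z hz v hv => ?_)
  obtain ⟨c, rfl⟩ := Ideal.mem_span_singleton'.1 hz
  rw [mul_smul]
  exact Submodule.smul_mem _ _ (h.anti a (by omega) J (h.zero_pow_smul hA s J v hv))

theorem Geo.CG_sq_mcmp (h : Geo ξ φ) {A : ℕ}
    (hK : HK K ξ κ N t (Ideal.span (Set.range ξ) ^ M' ⊔ Ideal.span {ξ 0 ^ A}))
    {a a' : Fin m → ℤ} (hA : ∀ j, a' j ≤ a j + A) {s s' : ℤ} (h0 : 0 ≤ s) (hs : s' ≤ s + M') :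
    Sq (K.dt (cd B m E)) (CG K φ a a' s') (CG K φ a a' s) := by
  refine MC.T_sq cd_comp_cd hK.len hK.sq fun _ _ n _ _ => ?_
  rw [← cech_smul]
  refine cech_mono (fun J => ?_) n
  rw [Submodule.smul_sup]
  exact sup_le ((h.ideal_smul_mcmp hA hs J).trans (sup_le_sup_left (h.anti a h0 J) _))
    (Submodule.smul_le_right.trans le_sup_right)

theorem CG_fit_mcmp (K : MC B) (φ : ℤ → Lau B m →ₗ[B] E) (a a' : Fin m → ℤ) (s : ℤ) :
    K.Fit (cd B m E) fun _ => Cech fun J => DG φ a' s J ⊔ DG φ a 0 J :=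
  K.fit_const (cech_isCx (cmono_sup (DG_cmono φ a' s) (DG_cmono φ a 0)))

theorem Geo.CG_zz_mcmp (h : Geo ξ φ) {A : ℕ}
    (hK : HK K ξ κ N t (Ideal.span (Set.range ξ) ^ M' ⊔ Ideal.span {ξ 0 ^ A}))
    {a a' : Fin m → ℤ} (ha : a ≤ a') (hA : ∀ j, a' j ≤ a j + A) :
    ∃ r : ℕ, ∀ s s' n : ℤ, 0 ≤ s → s ≤ s' → s' ≤ s + M' →
      ∀ x ∈ Zc (K.dt (cd B m E)) (CG K φ a a' (s' + ((m + 1) * t : ℕ)))
        (CG K φ a a' (s + ((m + 1) * t : ℕ))) n,
        κ ^ r • x ∈ Bc (K.dt (cd B m E)) (CG K φ a a' s') (CG K φ a a' s) n := by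
  obtain ⟨c, hc⟩ := hK.nh
  refine ⟨c * (m + 1), fun s s' n h0 hs hs' x hx => ?_⟩
  have cast1 : ∀ (r : ℤ) (b : ℕ), r + (((b + 1) * t : ℕ) : ℤ) = r + ((b * t : ℕ) : ℤ) + t := by
    intro r b
    push_cast
    ring
  have key := MC.T_zz (E := E) hK.len hK.ent hK.sq (κ ^ c) (fun j => ξ j ^ t) hc
    (fun b _ => DG φ a' (s + (b * t : ℕ)))
    (fun b _ J => DG φ a' (s' + (b * t : ℕ)) J ⊔ DG φ a (s + (b * t : ℕ)) J)
    (fun b _ => DG_cmono φ a' _) (fun b _ => cmono_sup (DG_cmono φ a' _) (DG_cmono φ a _))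
    (fun b _ => h.anti a' (by rw [cast1]; omega))
    (fun b _ J => sup_le_sup (h.anti a' (by rw [cast1]; omega) J)
      (h.anti a (by rw [cast1]; omega) J))
    (fun _ _ => le_rfl) (fun _ _ => le_rfl) (fun _ _ _ => Submodule.smul_le_right)
    (fun _ _ _ => Submodule.smul_le_right)
    (fun b _ _ J _ _ => h.ideal_smul_mcmp hA (by omega) J)
    (fun J => by
      obtain ⟨g, g1, g2⟩ := h.unit J t
      refine ⟨g, g1, fun j b _ v hv => ⟨g2 j _ _ v (by rw [← cast1]; exact hv), fun hv' => ?_⟩⟩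
      obtain ⟨v1, hv1, v2, hv2, rfl⟩ := Submodule.mem_sup.1 hv'
      rw [map_add]
      exact Submodule.add_mem_sup (g2 j _ _ v1 (by rw [← cast1]; exact hv1))
        (g2 j _ _ v2 (by rw [← cast1]; exact hv2))) n
  obtain ⟨hx1, hx2⟩ := hx
  rw [SetLike.mem_coe, CG, TC_sup_mcmp, Pi.sup_apply] at hx1
  obtain ⟨x1, m1, x2, m2, rfl⟩ := Submodule.mem_sup.1 hx1
  have c1 := (K.fit_const (cech_isCx (DG_cmono φ a' (s + ((m + 1) * t : ℕ))))).isCx n
    ⟨x1, m1, rfl⟩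
  have c2 := (K.fit_const (cech_isCx (DG_cmono φ a 0))).isCx n ⟨x2, m2, rfl⟩
  have l2 : ∀ r, (K.T fun _ => Cech (DG φ a 0)) ≤ CG K φ a a' r := fun r =>
    TC_mono_mcmp K fun J => le_sup_right
  have c3 : K.dt (cd B m E) x1 ∈ CG K φ a a' (s' + ((m + 1) * t : ℕ)) (n - 1) := by
    have e : K.dt (cd B m E) x1 = K.dt (cd B m E) (x1 + x2) - K.dt (cd B m E) x2 := by
      rw [map_add, add_sub_cancel_right]
    rw [e]
    exact Submodule.sub_mem _ hx2 (l2 _ _ c2)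
  have c4 : K.dt (cd B m E) x1 ∈ (K.T fun _ => Cech fun J =>
      (DG φ a' (s' + ((m + 1) * t : ℕ)) J ⊔ DG φ a 0 J) ⊓ DG φ a' (s + ((m + 1) * t : ℕ)) J)
      (n - 1) := by
    rw [TC_inf_mcmp]
    exact ⟨c3, c1⟩
  have c5 := key x1 ⟨m1, TC_mono_mcmp K (fun J => by
    rw [sup_inf_assoc_of_le _ (h.anti a' (by omega) J), inf_comm]
    exact sup_le_sup_left (h.strict ha (by omega) J) _) _ c4⟩
  rw [smul_add, pow_mul]
  refine Submodule.add_mem _ ?_ (Submodule.mem_sup_left (Submodule.smul_mem _ _ (l2 _ _ m2)))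
  refine (sup_le_sup (TC_mono_mcmp K (fun J => ?_) n)
    (Submodule.map_mono (TC_mono_mcmp K (fun J => ?_) (n + 1))) : Bc _ _ _ n ≤ Bc _ _ _ n) c5
  · exact sup_le_sup (h.anti a' (by omega) J) (h.anti a (by omega) J)
  · exact (h.anti a' (by omega) J).trans le_sup_left

end charts

/-- The cokernel system. -/
theorem Geo.sys_coker (h : Geo ξ φ) {A : ℕ}
    (hK : HK K ξ κ N t (Ideal.span (Set.range ξ) ^ M' ⊔ Ideal.span {ξ 0 ^ A}))
    (hM : Mb m N t ≤ M') (hν : (μ.nu κ).q (Ideal.span (Set.range ξ)) = 0) {a a' : Fin m → ℤ}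
    (ha : a ≤ a') (hA : ∀ j, a' j ≤ a j + A) :
    Sys μ κ (K.dt (cd B m E)) (CG K φ a a') (-(m : ℤ)) (m + 1 : ℕ) ((m + 1) * t : ℕ)
      (Lmax m t) := by
  have hL : ((Lmax m t : ℕ) : ℤ) ≤ M' := by
    unfold Mb at hM
    omega
  refine ⟨by omega, by omega, fun s => (CG_fit_mcmp K φ a a' s).isCx,
    fun s s' hs => TC_mono_mcmp K fun J => sup_le_sup_right (h.anti a' hs J) _,
    fun s n hn => K.T_eq_bot hK.len (fun _ n hn => cech_eq_bot _ n hn) n hn,
    h.CG_sq_mcmp hK hA le_rfl (by omega), ?_, fun s s' n h0 hs hs' => ?_⟩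
  · obtain ⟨r, hr⟩ := h.CG_zz_mcmp hK ha hA
    exact ⟨r, fun s s' n h0 hs hs' => hr s s' n h0 hs (by omega)⟩
  · exact MC.T_hr_zero _ hK.len (CG_fit_mcmp K φ a a' s') (CG_fit_mcmp K φ a a' s)
      (fun _ => cech_mono fun J => sup_le_sup_right (h.anti a' hs J) _)
      (h.CG_sq_mcmp hK hA h0 (by omega)) n fun i _ => h.window_coker _ hν ha h0 hs _

theorem Geo.cmp (h : Geo ξ φ) {y : B} {A : ℕ}
    (hK : HK K ξ κ N t (Ideal.span (Set.range ξ) ^ M' ⊔ Ideal.span {ξ 0 ^ A}))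
    (hK' : HK (K.cone y) ξ κ N t (Ideal.span (Set.range ξ) ^ M'))
    (hM : Mb m N t ≤ M') (hν : (μ.nu κ).q (Ideal.span (Set.range ξ)) = 0) {a a' : Fin m → ℤ}
    (ha : a ≤ a') (hA : ∀ j, a' j ≤ a j + A) :
    chat μ (K.cone y) φ t a' = chat μ (K.cone y) φ t a := by
  have hL : 2 * (((m + 1) * t : ℕ) : ℤ) +
      2 * (((m + 1) * t : ℕ) : ℤ) * (((m + 1 : ℕ) : ℤ) - -(m : ℤ) + 4) ≤ (Lmax m t : ℕ) := by
    unfold Lmax
    push_cast
    nlinarith [mul_nonneg (Int.natCast_nonneg m) (Int.natCast_nonneg t), Int.natCast_nonneg t]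
  have hK2 : HK (K.cone y) ξ κ N t (Ideal.span (Set.range ξ) ^ M' ⊔ Ideal.span {ξ 0 ^ A}) :=
    ⟨hK'.len, hK'.ent, hK'.sq.mono le_sup_left,
      hK'.nh.imp fun c hc j => (K.cone y).nh_mono le_sup_left (hc j)⟩
  have e1 := (h.sys hK' hM hν a').ses (h.sys hK' hM hν a)
    (fun s => TC_mono_mcmp _ (DG_mono φ ha s))
    (fun s n hs => by
      rw [← Pi.inf_apply, ← TC_inf_mcmp]
      exact TC_mono_mcmp _ (fun J => h.strict ha hs J) n) (by omega) hL
  have e2 := cone_chi_zero y (fun s => Cech fun J => DG φ a' s J ⊔ DG φ a 0 J)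
    (h.sys_coker hK hM hν ha hA) (h.sys_coker hK2 hM hν ha hA) hL
  have e3 : (fun J => DG φ a' 0 J ⊔ DG φ a 0 J) = DG φ a' 0 :=
    funext fun J => sup_eq_left.2 (DG_mono φ ha 0 J)
  simp only [e3] at e2
  simp only [TC_sup_mcmp] at e2
  unfold chat
  rw [e1, e2, add_zero]

end Vale.Agent.P202
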