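import Vale.Agent.P202.Coef
import Vale.Agent.P202.Ext

/-! Existence of Cohen rings. -/

namespace Vale.Agent.P202

open IsLocalRing

universe u

/-- A complete discrete valuation ring with uniformizer `p`. -/
structure IsCohen (p : ℕ) (C : Type u) [CommRing C] [IsDomain C] [IsDiscreteValuationRing C] :
    Prop where
  max : maximalIdeal C = Ideal.span {(p : C)}
  complete : IsAdicComplete (maximalIdeal C) C

theorem isCohen_witt (p : ℕ) [Fact p.Prime] (l : Type u) [Field l] [CharP l p] [PerfectRing l p] :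
    IsCohen p (WittVector p l) := by
  have h : maximalIdeal (WittVector p l) = Ideal.span {(p : WittVector p l)} :=
    (IsDiscreteValuationRing.irreducible_iff_uniformizer _).1 (WittVector.irreducible p)
  exact ⟨h, h ▸ WittVector.isAdicCompleteIdealSpanP⟩

/-- A criterion for discrete valuation rings. -/
theorem dvr_of_reg_MCoh {F : Type u} [CommRing F] (ϖ : F) (hreg : ∀ x, ϖ * x = 0 → x = 0)
    (hnu : ¬ IsUnit ϖ) (h1 : ∀ x, ¬ IsUnit x → ϖ ∣ x) (h2 : ∀ x : F, x ≠ 0 → ∃ n, ¬ ϖ ^ n ∣ x) :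
    ∃ (_ : IsDomain F) (_ : IsDiscreteValuationRing F), maximalIdeal F = Ideal.span {ϖ} := by
  have hfac : ∀ (n : ℕ) (x : F), ¬ ϖ ^ n ∣ x → ∃ m, Associated (ϖ ^ m) x := by
    intro n
    induction n with
    | zero => intro x hx; exact absurd (by simp) hx
    | succ n ih =>
      intro x hx
      by_cases hu : IsUnit x
      · exact ⟨0, by rw [pow_zero]; exact (associated_one_iff_isUnit.2 hu).symm⟩
      · obtain ⟨y, rfl⟩ := h1 x hu
        obtain ⟨m, hm⟩ := ih y fun hy => hx (by rw [pow_succ']; exact mul_dvd_mul_left _ hy)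
        exact ⟨m + 1, by rw [pow_succ']; exact hm.mul_left ϖ⟩
  have hfac' : ∀ x : F, x ≠ 0 → ∃ m, Associated (ϖ ^ m) x := fun x hx =>
    (h2 x hx).elim fun n hn => hfac n x hn
  have : Nontrivial F := by
    by_contra h
    rw [not_nontrivial_iff_subsingleton] at h
    exact hnu (isUnit_of_subsingleton _)
  have hpow : ∀ n : ℕ, ϖ ^ n ≠ 0 := by
    intro n
    induction n with
    | zero => simp
    | succ n ih => intro h; rw [pow_succ'] at h; exact ih (hreg _ h)
  have : NoZeroDivisors F := by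
    refine ⟨fun {a b} hab => ?_⟩
    by_contra h
    rw [not_or] at h
    obtain ⟨m, hm⟩ := hfac' a h.1
    obtain ⟨n, hn⟩ := hfac' b h.2
    have h3 := hm.mul_mul hn
    rw [hab, ← pow_add, associated_zero_iff_eq_zero] at h3
    exact hpow _ h3
  have hD : IsDomain F := NoZeroDivisors.to_isDomain F
  have hirr : Irreducible ϖ := by
    refine ⟨hnu, fun a b hab => ?_⟩
    by_contra h
    rw [not_or] at h
    obtain ⟨y, rfl⟩ := h1 a h.1
    obtain ⟨z, rfl⟩ := h1 b h.2
    have h3 : 1 - ϖ * (y * z) = 0 := hreg _ (by linear_combination hab)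
    exact hnu (IsUnit.of_mul_eq_one (y * z) (sub_eq_zero.1 h3).symm)
  have hV : IsDiscreteValuationRing F :=
    IsDiscreteValuationRing.ofHasUnitMulPowIrreducibleFactorization
      ⟨ϖ, hirr, fun {x} hx => hfac' x hx⟩
  exact ⟨hD, hV, (IsDiscreteValuationRing.irreducible_iff_uniformizer _).1 hirr⟩

open Polynomial in
/-- Roots of monic polynomials lift from the residue field. -/
theorem root_lift_MCoh {V L : Type u} [CommRing V] [Field L] (ρ : V →+* L)
    (hroot : ∀ g : V[X], g.Monic → 0 < g.natDegree → ∃ β, g.IsRoot β) (α : L) :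
    ∀ (n : ℕ) (g : V[X]), g.Monic → g.natDegree = n → g.eval₂ ρ α = 0 →
      ∃ β, g.IsRoot β ∧ ρ β = α := by
  have : Nontrivial V := ρ.domain_nontrivial
  intro n
  induction n with
  | zero =>
    intro g hg hn h
    rw [hg.natDegree_eq_zero.1 hn, eval₂_one] at h
    exact absurd h one_ne_zero
  | succ n ih =>
    intro g hg hn h
    obtain ⟨β, hβ⟩ := hroot g hg (by omega)
    obtain ⟨g', rfl⟩ := dvd_iff_isRoot.2 hβ
    have hg' : g'.Monic := (monic_X_sub_C β).of_mul_monic_left hg
    rw [(monic_X_sub_C β).natDegree_mul hg', natDegree_X_sub_C] at hn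
    rw [eval₂_mul, eval₂_sub, eval₂_X, eval₂_C, mul_eq_zero] at h
    rcases h with h | h
    · exact ⟨β, hβ, (sub_eq_zero.1 h).symm⟩
    · obtain ⟨γ, hγ, hγ'⟩ := ih g' hg' (by omega) h
      exact ⟨γ, by rw [IsRoot, eval_mul, hγ.eq_zero, mul_zero], hγ'⟩

open Polynomial in
/-- Zorn's lemma inside a large local ring. -/
theorem exists_subring_MCoh (p : ℕ) {V L k : Type u} [CommRing V] [Field L] [Field k] [CharP k p]
    (ρ : V →+* L) (hρ : Function.Surjective ρ) (hu : ∀ x, ρ x ≠ 0 → IsUnit x)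
    (hroot : ∀ g : V[X], g.Monic → 0 < g.natDegree → ∃ β, g.IsRoot β) (ι : k →+* L) :
    ∃ F : Subring V, (∀ x ∈ F, ρ x ∈ ι.fieldRange) ∧ (∀ x ∈ F, ρ x = 0 → ∃ y ∈ F, x = p * y) ∧
      (∀ x ∈ F, ρ x ≠ 0 → ∃ y ∈ F, x * y = 1) ∧ ∀ a : k, ∃ x ∈ F, ρ x = ι a := by
  let G : Set (Subring V) :=
    {F | (∀ x ∈ F, ρ x ∈ ι.fieldRange) ∧ ∀ x ∈ F, ρ x = 0 → ∃ y ∈ F, x = p * y}
  have h0 : (⊥ : Subring V) ∈ G := by
    refine ⟨fun x hx => ?_, fun x hx hx0 => ?_⟩
    · obtain ⟨n, rfl⟩ := Subring.mem_bot.1 hx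
      rw [map_intCast]
      exact intCast_mem _ n
    · obtain ⟨n, rfl⟩ := Subring.mem_bot.1 hx
      rw [map_intCast, ← map_intCast ι, map_eq_zero, CharP.intCast_eq_zero_iff k p] at hx0
      obtain ⟨m, rfl⟩ := hx0
      exact ⟨m, intCast_mem _ m, by push_cast; rfl⟩
  obtain ⟨F, -, hF⟩ := zorn_le_nonempty₀ G (fun c hc hch F0 hF0 => by
    refine ⟨sSup c, ⟨fun t ht => ?_, fun t ht ht0 => ?_⟩, fun z hz => le_sSup hz⟩
    · obtain ⟨F1, hF1, ht⟩ := (Subring.mem_sSup_of_directedOn ⟨F0, hF0⟩ hch.directedOn).1 ht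
      exact (hc hF1).1 t ht
    · obtain ⟨F1, hF1, ht⟩ := (Subring.mem_sSup_of_directedOn ⟨F0, hF0⟩ hch.directedOn).1 ht
      obtain ⟨y, hy, h⟩ := (hc hF1).2 t ht ht0
      exact ⟨y, le_sSup hF1 hy, h⟩) _ h0
  obtain ⟨hF1, hF2⟩ := hF.prop
  have hinv : ∀ x ∈ F, ρ x ≠ 0 → ∃ y ∈ F, x * y = 1 := by
    let F' : Subring V :=
      { carrier := {x | ∃ b ∈ F, ρ b ≠ 0 ∧ b * x ∈ F}
        mul_mem' := by
          rintro x y ⟨b, hb, hb0, hx⟩ ⟨c, hc, hc0, hy⟩
          refine ⟨b * c, mul_mem hb hc, by rw [map_mul]; exact mul_ne_zero hb0 hc0, ?_⟩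
          have : b * c * (x * y) = (b * x) * (c * y) := by ring
          rw [this]
          exact mul_mem hx hy
        one_mem' := ⟨1, one_mem _, by simp, by simp⟩
        add_mem' := by
          rintro x y ⟨b, hb, hb0, hx⟩ ⟨c, hc, hc0, hy⟩
          refine ⟨b * c, mul_mem hb hc, by rw [map_mul]; exact mul_ne_zero hb0 hc0, ?_⟩
          have : b * c * (x + y) = c * (b * x) + b * (c * y) := by ring
          rw [this]
          exact add_mem (mul_mem hc hx) (mul_mem hb hy)
        zero_mem' := ⟨1, one_mem _, by simp, by simp⟩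
        neg_mem' := by
          rintro x ⟨b, hb, hb0, hx⟩
          exact ⟨b, hb, hb0, by rw [mul_neg]; exact neg_mem hx⟩ }
    have hle : F ≤ F' := fun x hx => ⟨1, one_mem _, by simp, by simpa using hx⟩
    have hG : F' ∈ G := by
      refine ⟨?_, ?_⟩
      · rintro x ⟨b, hb, hb0, hx⟩
        have : ρ x = ρ (b * x) / ρ b := by
          rw [map_mul]
          field_simp
        rw [this]
        exact div_mem (hF1 _ hx) (hF1 _ hb)
      · rintro x ⟨b, hb, hb0, hx⟩ hx0
        obtain ⟨y, hy, h⟩ := hF2 _ hx (by rw [map_mul, hx0, mul_zero])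
        obtain ⟨c, hc⟩ := (hu b hb0).exists_right_inv
        refine ⟨c * y, ⟨b, hb, hb0, by rw [← mul_assoc, hc, one_mul]; exact hy⟩, ?_⟩
        linear_combination c * h - x * hc
    intro x hx hx0
    obtain ⟨c, hc⟩ := (hu x hx0).exists_right_inv
    exact ⟨c, hF.le_of_ge hG hle ⟨x, hx, hx0, by rw [hc]; exact one_mem _⟩, hc⟩
  refine ⟨F, hF1, hF2, hinv, fun a => ?_⟩
  let κ : Subfield L :=
    { (F.map ρ) with
      inv_mem' := by
        rintro _ ⟨x, hx, rfl⟩
        by_cases hx0 : ρ x = 0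
        · exact ⟨0, zero_mem F, by rw [hx0, inv_zero, map_zero]⟩
        · obtain ⟨y, hy, h⟩ := hinv x hx hx0
          refine ⟨y, hy, (inv_eq_of_mul_eq_one_right ?_).symm⟩
          rw [← map_mul, h, map_one] }
  let σ : F →+* κ := (ρ.comp F.subtype).codRestrict κ fun x => ⟨x, x.2, rfl⟩
  have hσ : Function.Surjective σ := by
    rintro ⟨_, x, hx, rfl⟩
    exact ⟨⟨x, hx⟩, rfl⟩
  have hcomp : (algebraMap κ L).comp σ = ρ.comp (algebraMap F V) := rfl
  have hev : ∀ (P : F[X]) (β : V), ρ (aeval β P) = aeval (ρ β) (P.map σ) := by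
    intro P β
    rw [aeval_def, aeval_def, eval₂_map, hcomp, hom_eval₂]
  obtain ⟨g, β, hg, hβ, hβ'⟩ : ∃ (g : F[X]) (β : V), g.map σ = minpoly κ (ι a) ∧
      aeval β g = 0 ∧ ρ β = ι a := by
    by_cases hint : IsIntegral κ (ι a)
    · obtain ⟨g, hg, -, hgm⟩ := lifts_and_natDegree_eq_and_monic
        (mem_lifts_of_surjective hσ (minpoly κ (ι a))) (minpoly.monic hint)
      obtain ⟨β, hβ, hβ'⟩ := root_lift_MCoh ρ hroot (ι a) _ (g.map (algebraMap F V))
        (hgm.map _) rfl (by
          rw [eval₂_map, ← hcomp, ← eval₂_map, hg]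
          exact minpoly.aeval κ (ι a))
      exact ⟨g, β, hg, by rw [aeval_def, ← eval_map]; exact hβ, hβ'⟩
    · obtain ⟨β, hβ⟩ := hρ (ι a)
      exact ⟨0, β, by rw [minpoly.eq_zero hint, Polynomial.map_zero], map_zero _, hβ⟩
  have hle : F ≤ (aeval β : F[X] →ₐ[F] V).range.toSubring := fun t ht =>
    ⟨C ⟨t, ht⟩, aeval_C _ _⟩
  have hG : (aeval β : F[X] →ₐ[F] V).range.toSubring ∈ G := by
    refine ⟨?_, ?_⟩
    · rintro _ ⟨P, rfl⟩
      change ρ (aeval β P) ∈ _
      rw [aeval_eq_sum_range, map_sum]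
      refine sum_mem fun i _ => ?_
      rw [Algebra.smul_def, map_mul, map_pow, hβ']
      exact mul_mem (hF1 _ (P.coeff i).2) (pow_mem (RingHom.mem_fieldRange_self ι a) _)
    · rintro _ ⟨P, rfl⟩ hP
      change ρ (aeval β P) = 0 at hP
      rw [hev, hβ'] at hP
      obtain ⟨Q', hQ'⟩ := minpoly.dvd κ _ hP
      obtain ⟨Q, rfl⟩ := map_surjective σ hσ Q'
      have h1 : (P - g * Q).map σ = 0 := by
        rw [Polynomial.map_sub, Polynomial.map_mul, hg, hQ', sub_self]
      have h2 : C (p : F) ∣ P - g * Q := by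
        rw [C_dvd_iff_dvd_coeff]
        intro i
        have h3 : σ ((P - g * Q).coeff i) = 0 := by rw [← coeff_map, h1, coeff_zero]
        obtain ⟨y, hy, h⟩ := hF2 _ ((P - g * Q).coeff i).2 (congrArg Subtype.val h3)
        exact ⟨⟨y, hy⟩, Subtype.ext (by rw [h]; simp)⟩
      obtain ⟨R, hR⟩ := h2
      refine ⟨aeval β R, ⟨R, rfl⟩, ?_⟩
      change aeval β P = _
      rw [sub_eq_iff_eq_add.1 hR, map_add, map_mul, map_mul, hβ, zero_mul, add_zero, aeval_C,
        map_natCast]
  exact ⟨β, hF.le_of_ge hG hle ⟨X, aeval_X _⟩, hβ'⟩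

open Polynomial in
/-- A large valuation ring of mixed characteristic. -/
theorem exists_val_MCoh (p : ℕ) [Fact p.Prime] (k : Type u) [Field k] [CharP k p] :
    ∃ (V : Type u) (_ : CommRing V) (_ : IsDomain V) (_ : IsLocalRing V)
      (_ : k →+* ResidueField V), (p : V) ≠ 0 ∧
      (∀ g : V[X], g.Monic → 0 < g.natDegree → ∃ β, g.IsRoot β) ∧
      ∀ x : V, x ≠ 0 → ∃ m, x ∣ (p : V) ^ m := by
  let l := AlgebraicClosure k
  let W := WittVector p l
  let Ω := AlgebraicClosure (FractionRing W)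
  obtain ⟨V, hV, hloc⟩ := IsLocalRing.exists_factor_valuationRing (algebraMap W Ω)
  let φ : W →+* V := (algebraMap W Ω).codRestrict V.toSubring hV
  have hφ : IsLocalHom φ := hloc
  have hinj : Function.Injective (algebraMap W Ω) := by
    rw [IsScalarTower.algebraMap_eq W (FractionRing W) Ω]
    exact (algebraMap (FractionRing W) Ω).injective.comp (IsFractionRing.injective W _)
  have hφinj : Function.Injective φ := fun a b h => hinj (congrArg Subtype.val h)
  have hker : RingHom.ker (WittVector.constantCoeff : W →+* l) ≤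
      RingHom.ker ((residue V).comp φ) := by
    intro x hx
    rw [RingHom.mem_ker, RingHom.comp_apply, residue_eq_zero_iff, mem_maximalIdeal,
      mem_nonunits_iff, isUnit_map_iff]
    intro h
    have h1 := h.map (WittVector.constantCoeff : W →+* l)
    rw [RingHom.mem_ker.1 hx] at h1
    exact not_isUnit_zero h1
  have hsurj : Function.Surjective (WittVector.constantCoeff : W →+* l) := fun a =>
    ⟨WittVector.teichmuller p a, by simp⟩
  refine ⟨V, inferInstance, inferInstance, inferInstance,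
    (RingHom.liftOfSurjective _ hsurj ⟨_, hker⟩).comp (algebraMap k l), ?_, ?_, ?_⟩
  · rw [← map_natCast φ, map_ne_zero_iff φ hφinj]
    exact (WittVector.irreducible p).ne_zero
  · intro g hg hd
    obtain ⟨β, hβ⟩ := IsAlgClosed.exists_aeval_eq_zero Ω g
      (natDegree_pos_iff_degree_pos.1 hd).ne'
    obtain ⟨γ, rfl⟩ := IsIntegrallyClosed.isIntegral_iff.1 (⟨g, hg, hβ⟩ : IsIntegral V β)
    refine ⟨γ, IsFractionRing.injective V Ω ?_⟩
    rw [aeval_algebraMap_apply, coe_aeval_eq_eval] at hβ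
    rw [map_zero]
    exact hβ
  · intro x hx
    let _ : Algebra W V := φ.toAlgebra
    have : IsScalarTower W V Ω := IsScalarTower.of_algebraMap_eq fun _ => rfl
    have : Algebra.IsAlgebraic W Ω :=
      (IsFractionRing.comap_isAlgebraic_iff (K := FractionRing W)).2 inferInstance
    have h1 : IsAlgebraic W x :=
      (isAlgebraic_algebraMap_iff (IsFractionRing.injective V Ω)).1
        (Algebra.IsAlgebraic.isAlgebraic (algebraMap V Ω x))
    obtain ⟨r, hr, h2⟩ := h1.exists_nonzero_dvd (mem_nonZeroDivisors_of_ne_zero hx)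
    obtain ⟨m, b, rfl⟩ := WittVector.exists_eq_pow_p_mul' r hr
    refine ⟨m, ?_⟩
    rw [map_mul, map_pow, map_natCast] at h2
    exact (IsUnit.dvd_mul_right (b.isUnit.map _)).1 h2

/-- An unramified discrete valuation ring with prescribed residue field. -/
theorem exists_dvr (p : ℕ) [Fact p.Prime] (k : Type u) [Field k] [CharP k p] :
    ∃ (C : Type u) (_ : CommRing C) (_ : IsDomain C) (_ : IsDiscreteValuationRing C)
      (π : C →+* k), maximalIdeal C = Ideal.span {(p : C)} ∧ Function.Surjective π := by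
  obtain ⟨V, _, _, _, ι, hp, hroot, harch⟩ := exists_val_MCoh p k
  obtain ⟨F, hF1, hF2, hF3, hF4⟩ := exists_subring_MCoh p (residue V) residue_surjective
    (fun x hx => (residue_ne_zero_iff_isUnit x).1 hx) hroot ι
  have hp0 : residue V (p : V) = 0 := by
    rw [map_natCast, ← map_natCast ι, CharP.cast_eq_zero, map_zero]
  have hpu : ¬ IsUnit (p : V) := fun h => (residue_ne_zero_iff_isUnit _).2 h hp0
  obtain ⟨i1, i2, hm⟩ := dvr_of_reg_MCoh (p : F)
    (fun x hx => (mul_eq_zero.1 hx).resolve_left fun h => hp (by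
      rw [← map_natCast F.subtype, h, map_zero]))
    (fun h => hpu (by rw [← map_natCast F.subtype]; exact h.map _))
    (fun x hx => by
      by_cases h0 : residue V x = 0
      · obtain ⟨y, hy, h⟩ := hF2 x x.2 h0
        exact ⟨⟨y, hy⟩, Subtype.ext (by rw [h]; simp)⟩
      · obtain ⟨y, hy, h⟩ := hF3 x x.2 h0
        exact absurd (IsUnit.of_mul_eq_one (⟨y, hy⟩ : F) (Subtype.ext h)) hx)
    (fun x hx => by
      obtain ⟨m, hm⟩ := harch x fun h => hx (Subtype.ext h)
      refine ⟨m + 1, fun h => hpu ?_⟩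
      have h1 := map_dvd F.subtype h
      rw [map_pow, map_natCast] at h1
      have h2 : (p : V) ^ m * p ∣ (p : V) ^ m * 1 := by
        rw [mul_one, ← pow_succ]
        exact h1.trans hm
      exact isUnit_of_dvd_one ((mul_dvd_mul_iff_left (pow_ne_zero m hp)).1 h2))
  let e := ι.rangeRestrictFieldEquiv
  refine ⟨F, inferInstance, i1, i2, e.symm.toRingHom.comp
    (((residue V).comp F.subtype).codRestrict ι.fieldRange fun x => hF1 x x.2), hm, fun a => ?_⟩
  obtain ⟨x, hx, h⟩ := hF4 a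
  refine ⟨⟨x, hx⟩, ?_⟩
  change e.symm _ = a
  rw [RingEquiv.symm_apply_eq]
  exact Subtype.ext h

/-- Completion of an unramified discrete valuation ring. -/
theorem exists_cohen_of_dvr {p : ℕ} {C : Type u} [CommRing C] [IsDomain C]
    [IsDiscreteValuationRing C] (h : maximalIdeal C = Ideal.span {(p : C)}) {k : Type u} [Field k]
    (π : C →+* k) (hπ : Function.Surjective π) :
    ∃ (C' : Type u) (_ : CommRing C') (_ : IsDomain C') (_ : IsDiscreteValuationRing C')
      (π' : C' →+* k), IsCohen p C' ∧ Function.Surjective π' := by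
  let C' := AdicCompletion (maximalIdeal C) C
  have : IsNoetherianRing C' := isNoetherianRing_completion C
  have hm : maximalIdeal C' = Ideal.span {(p : C')} := by
    have h1 := congrArg (Ideal.map (algebraMap C C')) h
    rw [Ideal.map_span, Set.image_singleton, map_natCast] at h1
    exact AdicCompletion.maximalIdeal_eq_map.trans h1
  have hp : (p : C) ≠ 0 := ((IsDiscreteValuationRing.irreducible_iff_uniformizer _).2 h).ne_zero
  have hreg : IsSMulRegular C' (p : C) :=
    Module.Flat.isSMulRegular_of_nonZeroDivisors (mem_nonZeroDivisors_of_ne_zero hp)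
  obtain ⟨i1, i2, hm'⟩ := dvr_of_reg_MCoh (p : C')
    (fun x hx => hreg.right_eq_zero_of_smul (by rw [Algebra.smul_def, map_natCast, hx]))
    (by rw [← mem_nonunits_iff, ← mem_maximalIdeal, hm]; exact Ideal.mem_span_singleton_self _)
    (fun x hx => by rw [← Ideal.mem_span_singleton, ← hm]; exact hx)
    (fun x hx => by
      by_contra h1
      push Not at h1
      apply hx
      rw [← Ideal.mem_bot, ← Ideal.iInf_pow_eq_bot_of_isLocalRing (maximalIdeal C')
        (maximalIdeal.isMaximal C').ne_top, Ideal.mem_iInf]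
      intro n
      rw [hm, Ideal.span_singleton_pow, Ideal.mem_span_singleton]
      exact h1 n)
  have hker : ∀ a ∈ maximalIdeal C, π a = 0 := by
    intro a ha
    rwa [← RingHom.mem_ker, eq_maximalIdeal (RingHom.ker_isMaximal_of_surjective π hπ)]
  refine ⟨C', inferInstance, i1, i2, (Ideal.Quotient.lift _ π hker).comp
    (AdicCompletion.evalOneₐ (maximalIdeal C)).toRingHom, ⟨hm', inferInstance⟩, ?_⟩
  exact (Ideal.Quotient.lift_surjective_of_surjective _ hker hπ).comp
    (AdicCompletion.evalOneₐ_surjective (maximalIdeal C))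

theorem exists_cohen (p : ℕ) [Fact p.Prime] (k : Type u) [Field k] [CharP k p] :
    ∃ (C : Type u) (_ : CommRing C) (_ : IsDomain C) (_ : IsDiscreteValuationRing C)
      (π : C →+* k), IsCohen p C ∧ Function.Surjective π := by
  obtain ⟨C, _, _, _, π, h, hπ⟩ := exists_dvr p k
  exact exists_cohen_of_dvr h π hπ

end Vale.Agent.P202
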