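import Mathlib

/-! Auxiliary lemmas for the splitting algebra. -/

namespace Vale.Agent.P202

open Polynomial

universe u

theorem aeval_mul_of_isHomogeneous {R B σ : Type*} [CommRing R] [CommRing B] [Algebra R B]
    {f : MvPolynomial σ R} {γ : ℕ} (hf : f.IsHomogeneous γ) (t : B) (y : σ → B) :
    MvPolynomial.aeval (fun i => t * y i) f = t ^ γ * MvPolynomial.aeval y f := by
  classical
  rw [MvPolynomial.aeval_def, MvPolynomial.aeval_def, MvPolynomial.eval₂_eq,
    MvPolynomial.eval₂_eq, Finset.mul_sum]
  refine Finset.sum_congr rfl fun s hs => ?_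
  have h1 : ∑ i ∈ s.support, s i = γ := by
    have := hf (MvPolynomial.mem_support_iff.1 hs)
    rw [← this, Finsupp.weight_apply]
    simp [Finsupp.sum]
  simp_rw [mul_pow]
  rw [Finset.prod_mul_distrib, Finset.prod_pow_eq_pow_sum, h1]
  ring

/-- A ring generated by the roots of a split monic polynomial of degree `m` is spanned by
`m!` elements. -/
theorem split_span {B : Type u} [CommRing B] (m : ℕ) : ∀ (w : Fin m → B) (A : Subring B),
    (∀ i, (∏ j, (X + C (w j))).coeff i ∈ A) →
    ∃ T : Finset B, T.card ≤ m.factorial ∧
      ∀ σ ∈ Subring.closure ((A : Set B) ∪ Set.range w), σ ∈ Submodule.span A (T : Set B) := by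
  classical
  induction m with
  | zero =>
    intro w A _
    refine ⟨{1}, by simp, fun σ hσ => ?_⟩
    have : Set.range w = ∅ := Set.range_eq_empty w
    rw [this, Set.union_empty, Subring.closure_eq] at hσ
    have h1 : σ = (⟨σ, hσ⟩ : A) • (1 : B) := by simp [Subring.smul_def]
    rw [h1]
    exact Submodule.smul_mem _ _ (Submodule.subset_span (by simp))
  | succ m ih =>
    intro w A hA
    set Q : B[X] := ∏ j : Fin m, (X + C (w j.succ)) with hQ
    have hP : (∏ j, (X + C (w j))) = (X + C (w 0)) * Q := Fin.prod_univ_succ _
    set A' : Subring B := Subring.closure ((A : Set B) ∪ {w 0}) with hA'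
    have hAA' : ∀ a ∈ A, a ∈ A' := fun a ha => Subring.subset_closure (Or.inl ha)
    have hw0 : w 0 ∈ A' := Subring.subset_closure (Or.inr rfl)
    have hQc : ∀ k i, Q.natDegree < i + k → Q.coeff i ∈ A' := by
      intro k
      induction k with
      | zero =>
        intro i hi
        rw [coeff_eq_zero_of_natDegree_lt (by simpa using hi)]
        exact A'.zero_mem
      | succ k ihk =>
        intro i hi
        have h1 := hAA' _ (hA (i + 1))
        rw [hP, add_mul, coeff_add, coeff_X_mul, coeff_C_mul] at h1
        have h2 := ihk (i + 1) (by omega)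
        have h3 := A'.sub_mem h1 (A'.mul_mem hw0 h2)
        simpa using h3
    obtain ⟨T', hT', hspan⟩ := ih (fun j => w j.succ) A'
      (fun i => hQc (Q.natDegree + 1) i (by omega))
    set T : Finset B := ((Finset.range (m + 1)) ×ˢ T').image fun p => w 0 ^ p.1 * p.2 with hT
    refine ⟨T, ?_, fun σ hσ => ?_⟩
    · refine Finset.card_image_le.trans ?_
      rw [Finset.card_product, Finset.card_range, Nat.factorial_succ]
      exact Nat.mul_le_mul_left _ hT'
    have hσ' : σ ∈ Subring.closure ((A' : Set B) ∪ Set.range fun j : Fin m => w j.succ) := by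
      refine Subring.closure_le.2 ?_ hσ
      rintro z (hz | ⟨j, rfl⟩)
      · exact Subring.subset_closure (Or.inl (hAA' z hz))
      · refine Fin.cases ?_ (fun j => ?_) j
        · exact Subring.subset_closure (Or.inl hw0)
        · exact Subring.subset_closure (Or.inr ⟨j, rfl⟩)
    have hmem : ∀ k < m + 1, ∀ t ∈ T', w 0 ^ k * t ∈ Submodule.span A (T : Set B) := by
      intro k hk t ht
      refine Submodule.subset_span ?_
      rw [hT, Finset.coe_image]
      exact ⟨(k, t), by simp [ht]; omega, rfl⟩
    have hAmul : ∀ a ∈ A, ∀ y ∈ Submodule.span A (T : Set B),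
        a * y ∈ Submodule.span A (T : Set B) := fun a ha y hy =>
      Submodule.smul_mem _ (⟨a, ha⟩ : A) hy
    -- the monic relation
    have hmon : (∏ j, (X + C (w j)) : B[X]).Monic :=
      monic_prod_of_monic _ _ fun j _ => monic_X_add_C _
    have hdeg : (∏ j, (X + C (w j)) : B[X]).natDegree ≤ m + 1 := by
      refine (natDegree_prod_le _ _).trans ?_
      refine (Finset.sum_le_sum (g := fun _ => 1) fun j _ => ?_).trans (by simp)
      exact natDegree_add_le_of_degree_le natDegree_X_le (by simp)
    have htop : (∏ j, (X + C (w j)) : B[X]).coeff (m + 1) = 1 := by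
      have := coeff_prod_of_natDegree_le (s := Finset.univ)
        (fun j : Fin (m + 1) => (X + C (w j) : B[X])) 1 (fun j _ =>
          natDegree_add_le_of_degree_le natDegree_X_le (by simp))
      simpa [coeff_X, coeff_C] using this
    have hroot : ∑ i ∈ Finset.range (m + 1),
        (∏ j, (X + C (w j)) : B[X]).coeff i * (-w 0) ^ i + (-w 0) ^ (m + 1) = 0 := by
      have h0 : (∏ j, (X + C (w j)) : B[X]).eval (-w 0) = 0 := by
        rw [hP]; simp
      rw [eval_eq_sum_range' (n := m + 2) (by omega), Finset.sum_range_succ, htop, one_mul] at h0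
      exact h0
    have hneg : ∀ k < m + 1, ∀ t ∈ T', (-w 0) ^ k * t ∈ Submodule.span A (T : Set B) := by
      intro k hk t ht
      rw [neg_pow, mul_assoc]
      exact hAmul _ (A.pow_mem (A.neg_mem A.one_mem) _) _ (hmem k hk t ht)
    have hw : ∀ y ∈ Submodule.span A (T : Set B), w 0 * y ∈ Submodule.span A (T : Set B) := by
      intro y hy
      induction hy using Submodule.span_induction with
      | mem z hz =>
        rw [hT, Finset.coe_image] at hz
        obtain ⟨⟨k, t⟩, hkt, rfl⟩ := hz
        have hk : k < m + 1 := by simp at hkt; omega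
        have ht : t ∈ T' := by simp at hkt; exact hkt.2
        show w 0 * (w 0 ^ k * t) ∈ _
        rw [← mul_assoc, ← pow_succ']
        by_cases hk' : k + 1 < m + 1
        · exact hmem _ hk' t ht
        · have hkm : k = m := by omega
          subst hkm
          have h1 : (-w 0) ^ (k + 1) * t ∈ Submodule.span A (T : Set B) := by
            rw [eq_neg_of_add_eq_zero_right hroot, neg_mul, Finset.sum_mul]
            refine Submodule.neg_mem _ (Submodule.sum_mem _ fun i hi => ?_)
            rw [mul_assoc]
            exact hAmul _ (hA i) _ (hneg i (Finset.mem_range.1 hi) t ht)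
          have h2 : w 0 ^ (k + 1) * t = (-1) ^ (k + 1) * ((-w 0) ^ (k + 1) * t) := by
            rw [← mul_assoc, ← mul_pow]; simp
          rw [h2]
          exact hAmul _ (A.pow_mem (A.neg_mem A.one_mem) _) _ h1
      | zero => simp
      | add y z _ _ hy hz => rw [mul_add]; exact Submodule.add_mem _ hy hz
      | smul a y _ hy =>
        rw [Subring.smul_def, smul_eq_mul, mul_left_comm]
        exact hAmul _ a.2 _ hy
    have hA'mul : ∀ a ∈ A', ∀ y ∈ Submodule.span A (T : Set B),
        a * y ∈ Submodule.span A (T : Set B) := by
      intro a ha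
      induction ha using Subring.closure_induction with
      | mem z hz =>
        rcases hz with hz | hz
        · exact hAmul z hz
        · rw [hz]; exact hw
      | zero => intro y _; simp
      | one => intro y hy; simpa using hy
      | add a b _ _ ha hb =>
        intro y hy; rw [add_mul]; exact Submodule.add_mem _ (ha y hy) (hb y hy)
      | neg a _ ha => intro y hy; rw [neg_mul]; exact Submodule.neg_mem _ (ha y hy)
      | mul a b _ _ ha hb => intro y hy; rw [mul_assoc]; exact ha _ (hb y hy)
    have h5 := hspan σ hσ'
    clear hσ hσ'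
    induction h5 using Submodule.span_induction with
    | mem z hz => simpa using hmem 0 (by omega) z hz
    | zero => simp
    | add y z _ _ hy hz => exact Submodule.add_mem _ hy hz
    | smul a y _ hy =>
      rw [Subring.smul_def, smul_eq_mul]
      exact hA'mul _ a.2 _ hy

end Vale.Agent.P202
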