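import Vale.Agent.P202.Ideals
import Vale.Agent.P202.SigAux

/-! The splitting algebra and the filtered Cech data `DD`. -/

namespace Vale.Agent.P202

open MvPolynomial IsLocalRing

universe u

section rees

variable {R : Type u} [CommRing R] {d : ℕ}

theorem rees_of_isHomogeneous (x : Fin d → R) {g : MvPolynomial (Fin d) R} {γ : ℕ}
    (hg : g.IsHomogeneous γ) :
    aeval (fun i => (Polynomial.C (x i) * Polynomial.X : Polynomial R)) g =
      Polynomial.monomial γ (eval x g) := by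
  have h1 : (fun i => (Polynomial.C (x i) * Polynomial.X : Polynomial R)) =
      fun i => Polynomial.X * algebraMap R (Polynomial R) (x i) := by
    funext i; rw [mul_comm]; rfl
  have h2 := aeval_algebraMap_apply (R := R) (Polynomial R) x g
  rw [aeval_eq_eval] at h2
  rw [h1, aeval_mul_of_isHomogeneous hg, mul_comm]
  exact (congrArg (· * _) h2).trans Polynomial.C_mul_X_pow_eq_monomial

theorem rees_coeff (x : Fin d → R) (f : MvPolynomial (Fin d) R) (γ : ℕ) :
    (aeval (fun i => (Polynomial.C (x i) * Polynomial.X : Polynomial R)) f).coeff γ =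
      eval x (homogeneousComponent γ f) := by
  conv_lhs => rw [← sum_homogeneousComponent f, map_sum, Polynomial.finsetSum_coeff]
  simp_rw [rees_of_isHomogeneous x (homogeneousComponent_isHomogeneous _ f),
    Polynomial.coeff_monomial]
  rw [Finset.sum_ite_eq']
  split_ifs with h
  · rfl
  · rw [homogeneousComponent_eq_zero _ _ (by simpa using h), map_zero]

theorem mem_ReesI {x : Fin d → R} {f : MvPolynomial (Fin d) R} :
    f ∈ ReesI x ↔ ∀ γ : ℕ, eval x (homogeneousComponent γ f) = 0 := by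
  unfold ReesI
  rw [RingHom.mem_ker, Polynomial.ext_iff]
  refine forall_congr' fun γ => ?_
  rw [← rees_coeff]
  rfl

theorem mem_ReesI_of_isHomogeneous {x : Fin d → R} {g : MvPolynomial (Fin d) R} {γ : ℕ}
    (hg : g.IsHomogeneous γ) : g ∈ ReesI x ↔ eval x g = 0 := by
  rw [mem_ReesI]
  constructor
  · intro h
    simpa [homogeneousComponent_eq_self hg] using h γ
  · intro h n
    rw [homogeneousComponent_of_mem hg]
    split_ifs
    · exact h
    · simp

theorem isHom_ReesI (x : Fin d → R) : IsHom (ReesI x) := by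
  intro f hf γ
  exact (mem_ReesI_of_isHomogeneous (homogeneousComponent_isHomogeneous γ f)).2 (mem_ReesI.1 hf γ)

theorem isHom_StepI (x : Fin d → R) (a : Ideal R) (f : R) : IsHom (StepI x a f) := by
  exact ((isHom_ReesI x).sup (isHom_map_C a)).colon (isHomogeneous_C _ f)

theorem mem_pow_iff (x : Fin d → R) (γ : ℕ) (z : R) :
    z ∈ Ideal.span (Set.range x) ^ γ ↔
      ∃ g : MvPolynomial (Fin d) R, g.IsHomogeneous γ ∧ eval x g = z := by
  exact Ideal.mem_span_pow_iff_exists_isHomogeneous x z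

theorem eval_mem_of_mem_map_C (x : Fin d → R) {a : Ideal R} {q : MvPolynomial (Fin d) R} {γ : ℕ}
    (hq : q.IsHomogeneous γ) (ha : q ∈ a.map (C : R →+* MvPolynomial (Fin d) R)) :
    eval x q ∈ a * Ideal.span (Set.range x) ^ γ := by
  rw [q.as_sum, map_sum]
  refine Ideal.sum_mem _ fun s hs => ?_
  have h1 : monomial s (coeff s q) = C (coeff s q) * monomial s (1 : R) := by
    rw [C_mul_monomial, mul_one]
  rw [h1, map_mul, eval_C]
  refine Ideal.mul_mem_mul (MvPolynomial.mem_map_C_iff.1 ha s) ?_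
  refine (mem_pow_iff x γ _).2 ⟨_, ?_, rfl⟩
  refine isHomogeneous_monomial _ ?_
  rw [Finsupp.degree_eq_weight_one]
  exact hq (mem_support_iff.1 hs)

theorem mem_StepI {x : Fin d → R} {a : Ideal R} {f : R} {g : MvPolynomial (Fin d) R} {γ : ℕ}
    (hg : g.IsHomogeneous γ) :
    g ∈ StepI x a f ↔ f * eval x g ∈ a * Ideal.span (Set.range x) ^ γ := by
  unfold StepI
  rw [Submodule.mem_colon_singleton, smul_eq_mul]
  have hg' : (g * C f).IsHomogeneous γ := by
    simpa using hg.mul (isHomogeneous_C _ f)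
  constructor
  · intro h
    obtain ⟨p, hp, q, hq, hpq⟩ := Submodule.mem_sup.1 h
    have h1 : g * C f = homogeneousComponent γ p + homogeneousComponent γ q := by
      rw [← map_add, hpq, homogeneousComponent_eq_self hg']
    have h2 := congrArg (eval x) h1
    rw [map_mul, eval_C, map_add, mem_ReesI.1 hp γ, zero_add, mul_comm] at h2
    rw [h2]
    exact eval_mem_of_mem_map_C x (homogeneousComponent_isHomogeneous γ q)
      (isHom_map_C a q hq γ)
  · intro h
    have key : ∀ z ∈ a * Ideal.span (Set.range x) ^ γ, ∃ q : MvPolynomial (Fin d) R,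
        q.IsHomogeneous γ ∧ q ∈ a.map (C : R →+* MvPolynomial (Fin d) R) ∧ eval x q = z := by
      intro z hz
      refine Submodule.mul_induction_on hz ?_ ?_
      · intro r hr y hy
        obtain ⟨q, hq, rfl⟩ := (mem_pow_iff x γ y).1 hy
        refine ⟨C r * q, by simpa using (isHomogeneous_C _ r).mul hq,
          Ideal.mul_mem_right _ _ (Ideal.mem_map_of_mem _ hr), by simp⟩
      · rintro _ _ ⟨q, hq, hq', rfl⟩ ⟨q', hq1, hq1', rfl⟩
        exact ⟨q + q', hq.add hq1, Ideal.add_mem _ hq' hq1', by simp⟩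
    obtain ⟨q, hq, hq', he⟩ := key _ h
    refine Submodule.mem_sup.2 ⟨g * C f - q, ?_, q, hq', by ring⟩
    rw [mem_ReesI_of_isHomogeneous (hg'.sub hq)]
    simp [he, mul_comm]

theorem map_C_le_StepI [IsLocalRing R] {x : Fin d → R} {a : Ideal R} {f : R}
    (h : ∀ z ∈ maximalIdeal R, z * f ∈ a) :
    (maximalIdeal R).map (C : R →+* MvPolynomial (Fin d) R) ≤ StepI x a f := by
  rw [Ideal.map_le_iff_le_comap]
  intro z hz
  rw [Ideal.mem_comap]
  unfold StepI
  rw [Submodule.mem_colon_singleton, smul_eq_mul, ← map_mul]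
  exact Ideal.mem_sup_right (Ideal.mem_map_of_mem _ (h z hz))

theorem StepI_bot_one (x : Fin d → R) : StepI x ⊥ 1 = ReesI x := by
  ext g
  unfold StepI
  rw [Submodule.mem_colon_singleton]
  simp

end rees

variable {R : Type u} [CommRing R] [IsDomain R] {m : ℕ} (x : Fin (m + 1) → R)

theorem sig_isUnit (c : R) (hc : c ≠ 0) : IsUnit (algebraMap R (Sig x) c) := by
  have h := IsLocalization.map_units (Sig x)
    (⟨algebraMap R (Lau R m ⧸ jj x) c, Algebra.mem_algebraMapSubmonoid_of_mem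
      (⟨c, mem_nonZeroDivisors_of_ne_zero hc⟩ : nonZeroDivisors R)⟩ :
      Algebra.algebraMapSubmonoid (Lau R m ⧸ jj x) (nonZeroDivisors R))
  rwa [← IsScalarTower.algebraMap_apply] at h

theorem sig_smul_eq_zero {c : R} (hc : c ≠ 0) {σ : Sig x} (h : c • σ = 0) : σ = 0 := by
  rw [Algebra.smul_def] at h
  exact (sig_isUnit x c hc).mul_right_eq_zero.1 h

omit [IsDomain R] in
theorem toSig_eq_zero_of_mem {v : Lau R m} (hv : v ∈ jj x) : toSig x v = 0 := by
  have : Ideal.Quotient.mkₐ R (jj x) v = 0 := Ideal.Quotient.eq_zero_iff_mem.2 hv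
  unfold toSig
  rw [AlgHom.comp_apply, this, map_zero]

theorem toSig_ee (i : Fin (m + 1)) :
    algebraMap R (Sig x) (x i) = algebraMap R (Sig x) (x 0) * toSig x (ee R m i) := by
  have h := toSig_eq_zero_of_mem x (v := algebraMap R (Lau R m) (x i) -
    algebraMap R (Lau R m) (x 0) * ee R m i) (Ideal.subset_span ⟨i, rfl⟩)
  rw [map_sub, map_mul, AlgHom.commutes, AlgHom.commutes] at h
  exact sub_eq_zero.1 h

/-- The splitting algebra has generic rank at most `m!`. -/
theorem exists_smul_eq_toSig (σ : Sig x) :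
    ∃ c : R, c ≠ 0 ∧ ∃ v : Lau R m, c • σ = toSig x v := by
  obtain ⟨⟨y, ⟨_, c, hc, rfl⟩⟩, h⟩ := IsLocalization.surj
    (Algebra.algebraMapSubmonoid (Lau R m ⧸ jj x) (nonZeroDivisors R)) σ
  obtain ⟨v, rfl⟩ := Ideal.Quotient.mk_surjective y
  refine ⟨c, nonZeroDivisors.ne_zero hc, v, ?_⟩
  rw [Algebra.smul_def, IsScalarTower.algebraMap_apply R (Lau R m ⧸ jj x) (Sig x)]
  exact (mul_comm _ σ).trans h

theorem exists_smul_mem_jj {v : Lau R m} (hv : toSig x v = 0) :
    ∃ c : R, c ≠ 0 ∧ c • v ∈ jj x := by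
  obtain ⟨⟨_, c, hc, rfl⟩, h⟩ := (IsLocalization.map_eq_zero_iff
    (Algebra.algebraMapSubmonoid (Lau R m ⧸ jj x) (nonZeroDivisors R)) (Sig x)
    (Ideal.Quotient.mk (jj x) v)).1 hv
  refine ⟨c, nonZeroDivisors.ne_zero hc, ?_⟩
  rw [← Ideal.Quotient.eq_zero_iff_mem, Algebra.smul_def, map_mul]
  exact h

omit [IsDomain R] in
theorem ee_zero : ee R m 0 = 1 := by
  unfold ee
  simp [Polynomial.coeff_zero_prod]

omit [IsDomain R] in
theorem sig_natDegree_linf_le (j : Fin m) :
    (1 + Polynomial.C (wv R j) * Polynomial.X : Polynomial (Lau R m)).natDegree ≤ 1 :=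
  Polynomial.natDegree_add_le_of_degree_le (by simp)
    ((Polynomial.natDegree_C_mul_le _ _).trans Polynomial.natDegree_X_le)

omit [IsDomain R] in
theorem ee_last' : ee R m (Fin.last m) = ∏ j, wv R j := by
  have := Polynomial.coeff_prod_of_natDegree_le (s := Finset.univ)
    (fun j : Fin m => (1 + Polynomial.C (wv R j) * Polynomial.X : Polynomial (Lau R m))) 1
    (fun j _ => sig_natDegree_linf_le j)
  unfold ee
  simpa [Polynomial.coeff_one] using this

omit [IsDomain R] in
theorem ee_last : ee R m (Fin.last m) = AddMonoidAlgebra.single (fun _ => 1) 1 := by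
  rw [ee_last']
  unfold wv
  rw [AddMonoidAlgebra.prod_single]
  congr 1
  · funext j; simp [Finset.sum_apply, Pi.single_apply]
  · simp

omit [IsDomain R] in
theorem ee_last_pow (r : ℕ) :
    ee R m (Fin.last m) ^ r = AddMonoidAlgebra.single (fun _ => (r : ℤ)) 1 := by
  rw [ee_last, AddMonoidAlgebra.single_pow]
  congr 1
  · funext j; simp
  · simp

omit [IsDomain R] in
theorem exists_ee_last_pow_mul_mem (v : Lau R m) : ∃ r : ℕ, ∀ r' : ℕ, r ≤ r' →
    ∀ b : Fin m → ℤ, (∀ j, (r' : ℤ) + r ≤ b j) → ∀ J, ee R m (Fin.last m) ^ r' * v ∈ Cm R b J := by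
  classical
  refine ⟨∑ β ∈ v.coeff.support, ∑ j, (β j).natAbs, fun r' hr b hb J => ?_⟩
  rw [mem_Cm]
  intro β hβ
  rw [ee_last_pow, AddMonoidAlgebra.coeff_single_mul_apply, one_mul]
  by_contra hne
  apply hβ
  have hs : (-(fun _ => (r' : ℤ)) + β : Fin m → ℤ) ∈ v.coeff.support :=
    Finsupp.mem_support_iff.2 hne
  intro j
  have h1 := Finset.single_le_sum (f := fun β : Fin m → ℤ => ∑ j, (β j).natAbs)
    (fun _ _ => Nat.zero_le _) hs
  have h2 := Finset.single_le_sum (f := fun j => ((-(fun _ => (r' : ℤ)) + β : Fin m → ℤ) j).natAbs)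
    (fun _ _ => Nat.zero_le _) (Finset.mem_univ j)
  have h3 := h2.trans h1
  have h4 := hb j
  simp only [Pi.add_apply, Pi.neg_apply] at h3
  constructor <;> intro _ <;> omega

theorem span_aux {B : Type u} [CommRing B] [Algebra R B] (φ : Lau R m →ₐ[R] B)
    (hφ : ∀ i, algebraMap R B (x i) = algebraMap R B (x 0) * φ (ee R m i))
    (hx0 : x 0 ≠ 0) (hxl : x (Fin.last m) ≠ 0) :
    ∃ T : Finset B, T.card ≤ m.factorial ∧
      ∀ v, ∃ c : R, c ≠ 0 ∧ c • φ v ∈ Submodule.span R (T : Set B) := by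
  classical
  let K : Subring B :=
    { carrier := {σ | ∃ c : R, c ≠ 0 ∧ ∃ r : R, c • σ = algebraMap R B r}
      mul_mem' := by
        rintro a b ⟨c, hc, r, h⟩ ⟨c', hc', r', h'⟩
        refine ⟨c * c', mul_ne_zero hc hc', r * r', ?_⟩
        rw [map_mul, ← h, ← h', smul_mul_smul_comm]
      one_mem' := ⟨1, one_ne_zero, 1, by simp⟩
      add_mem' := by
        rintro a b ⟨c, hc, r, h⟩ ⟨c', hc', r', h'⟩
        refine ⟨c * c', mul_ne_zero hc hc', c' * r + c * r', ?_⟩
        rw [map_add, map_mul, map_mul, ← h, ← h']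
        simp only [Algebra.smul_def, map_mul]
        ring
      zero_mem' := ⟨1, one_ne_zero, 0, by simp⟩
      neg_mem' := by
        rintro a ⟨c, hc, r, h⟩
        exact ⟨c, hc, -r, by rw [smul_neg, h, map_neg]⟩ }
  have hK : ∀ σ, σ ∈ K ↔ ∃ c : R, c ≠ 0 ∧ ∃ r : R, c • σ = algebraMap R B r :=
    fun σ => Iff.rfl
  let w : Fin m → B := fun j => φ (wv R j)
  let w' : Fin m → B := fun j => φ (AddMonoidAlgebra.single (-Pi.single j 1) 1)
  have hww' : ∀ j, w j * w' j = 1 := by
    intro j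
    simp only [w, w', wv]
    rw [← map_mul, AddMonoidAlgebra.single_mul_single, add_neg_cancel, one_mul,
      ← AddMonoidAlgebra.one_def, map_one]
  have hprod : φ (ee R m (Fin.last m)) = ∏ j, w j := by
    rw [ee_last', map_prod]
  have hpoly : (Polynomial.C (∏ j, w j) * ∏ j, (Polynomial.X + Polynomial.C (w' j))) =
      (∏ j : Fin m, (1 + Polynomial.C (wv R j) * Polynomial.X : Polynomial (Lau R m))).map
        φ.toRingHom := by
    rw [Polynomial.map_prod, map_prod, ← Finset.prod_mul_distrib]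
    refine Finset.prod_congr rfl fun j _ => ?_
    rw [mul_add, ← Polynomial.C_mul, hww', add_comm]
    simp [w]
  have hcoef : ∀ i, (∏ j, (Polynomial.X + Polynomial.C (w' j))).coeff i ∈ K := by
    intro i
    by_cases hi : i < m + 1
    · have h1 := congrArg (fun p => Polynomial.coeff p i) hpoly
      simp only [Polynomial.coeff_C_mul, Polynomial.coeff_map] at h1
      refine (hK _).2 ⟨x (Fin.last m), hxl, x ⟨i, hi⟩, ?_⟩
      rw [Algebra.smul_def, hφ (Fin.last m), hφ ⟨i, hi⟩, hprod, mul_assoc, h1]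
      rfl
    · rw [Polynomial.coeff_eq_zero_of_natDegree_lt]
      · exact K.zero_mem
      refine lt_of_le_of_lt ((Polynomial.natDegree_prod_le _ _).trans
        (Finset.sum_le_sum (g := fun _ => 1) fun j _ => ?_)) (by simp; omega)
      exact Polynomial.natDegree_add_le_of_degree_le Polynomial.natDegree_X_le (by simp)
  obtain ⟨T, hT, hspan⟩ := split_span m w' K hcoef
  refine ⟨T, hT, fun v => ?_⟩
  set B' := Subring.closure ((K : Set B) ∪ Set.range w') with hB'
  have hKB : ∀ a ∈ K, a ∈ B' := fun a ha => Subring.subset_closure (Or.inl ha)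
  have hw'B : ∀ j, w' j ∈ B' := fun j => Subring.subset_closure (Or.inr ⟨j, rfl⟩)
  have hwB : ∀ j, w j ∈ B' := by
    intro j
    have h1 : w j = (∏ l, w l) * ∏ l ∈ Finset.univ.erase j, w' l := by
      rw [← Finset.mul_prod_erase _ _ (Finset.mem_univ j), mul_assoc, ← Finset.prod_mul_distrib]
      simp [hww']
    rw [h1]
    refine B'.mul_mem (hKB _ ((hK _).2 ⟨x 0, hx0, x (Fin.last m), ?_⟩))
      (B'.prod_mem fun l _ => hw'B l)
    rw [Algebra.smul_def, hφ (Fin.last m), hprod]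
  have hsingle : ∀ (j : Fin m) (n : ℤ),
      φ (AddMonoidAlgebra.single (Pi.single j n) 1) ∈ B' := by
    intro j n
    induction n using Int.induction_on with
    | zero =>
      rw [Pi.single_zero, ← AddMonoidAlgebra.one_def, map_one]
      exact B'.one_mem
    | succ n ih =>
      rw [Pi.single_add, ← one_mul (1 : R), ← AddMonoidAlgebra.single_mul_single, map_mul]
      exact B'.mul_mem ih (hwB j)
    | pred n ih =>
      rw [Pi.single_sub, sub_eq_add_neg, ← one_mul (1 : R), ← AddMonoidAlgebra.single_mul_single,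
        map_mul]
      exact B'.mul_mem ih (hw'B j)
  have hall : ∀ v : Lau R m, φ v ∈ B' := by
    intro v
    induction v using AddMonoidAlgebra.induction_linear with
    | zero => rw [map_zero]; exact B'.zero_mem
    | add v v' hv hv' => rw [map_add]; exact B'.add_mem hv hv'
    | single β r =>
      have h1 : (AddMonoidAlgebra.single β r : Lau R m) =
          r • ∏ j, AddMonoidAlgebra.single (Pi.single j (β j)) (1 : R) := by
        rw [AddMonoidAlgebra.prod_single, Finset.univ_sum_single, AddMonoidAlgebra.smul_single]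
        simp
      rw [h1, map_smul, map_prod, Algebra.smul_def]
      exact B'.mul_mem (hKB _ ((hK _).2 ⟨1, one_ne_zero, r, one_smul _ _⟩))
        (B'.prod_mem fun j _ => hsingle j _)
  have hfin : ∀ τ ∈ Submodule.span K (T : Set B),
      ∃ c : R, c ≠ 0 ∧ c • τ ∈ Submodule.span R (T : Set B) := by
    intro τ hτ
    induction hτ using Submodule.span_induction with
    | mem z hz => exact ⟨1, one_ne_zero, by rw [one_smul]; exact Submodule.subset_span hz⟩
    | zero => exact ⟨1, one_ne_zero, by simp⟩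
    | add y z _ _ hy hz =>
      obtain ⟨c, hc, h⟩ := hy
      obtain ⟨c', hc', h'⟩ := hz
      refine ⟨c * c', mul_ne_zero hc hc', ?_⟩
      rw [smul_add]
      refine Submodule.add_mem _ ?_ ?_
      · rw [mul_comm, mul_smul]; exact Submodule.smul_mem _ _ h
      · rw [mul_smul]; exact Submodule.smul_mem _ _ h'
    | smul a y _ hy =>
      obtain ⟨c, hc, h⟩ := hy
      obtain ⟨c', hc', r, h'⟩ := (hK _).1 a.2
      refine ⟨c' * c, mul_ne_zero hc' hc, ?_⟩
      rw [Subring.smul_def, smul_eq_mul, ← smul_mul_smul_comm, h', ← Algebra.smul_def]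
      exact Submodule.smul_mem _ _ h
  exact hfin _ (hspan _ (hall v))

theorem sig_span (hx0 : x 0 ≠ 0) (hxl : x (Fin.last m) ≠ 0) :
    ∃ T : Finset (Sig x), T.card ≤ m.factorial ∧
      ∀ σ : Sig x, ∃ c : R, c ≠ 0 ∧ c • σ ∈ Submodule.span R (T : Set (Sig x)) := by
  obtain ⟨T, hT, h⟩ := span_aux x (B := Sig x) (toSig x) (toSig_ee x) hx0 hxl
  refine ⟨T, hT, fun σ => ?_⟩
  obtain ⟨c, hc, v, hv⟩ := exists_smul_eq_toSig x σ
  obtain ⟨c', hc', h⟩ := h v
  exact ⟨c' * c, mul_ne_zero hc' hc, by rw [mul_smul, hv]; exact h⟩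

variable (u : (Sig x)ˣ) (hu : (u : Sig x) = algebraMap R (Sig x) (x 0))

omit [IsDomain R] in
theorem psi_aux {B : Type u} [CommRing B] [Algebra R B] (φ : Lau R m →ₐ[R] B)
    (hφ : ∀ i, algebraMap R B (x i) = algebraMap R B (x 0) * φ (ee R m i))
    {f : MvPolynomial (Fin (m + 1)) R} {γ : ℕ} (hf : f.IsHomogeneous γ) :
    algebraMap R B (x 0) ^ γ * φ (psi R m f) = algebraMap R B (eval x f) := by
  have h1 : φ (psi R m f) = aeval (fun i => φ (ee R m i)) f := by
    unfold psi
    rw [← AlgHom.comp_apply, comp_aeval]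
  rw [h1, ← aeval_mul_of_isHomogeneous hf, ← aeval_eq_eval, ← aeval_algebraMap_apply]
  congr 2
  funext i
  exact (hφ i).symm

omit [IsDomain R] in
theorem mem_DD {a : Fin m → ℤ} {s : ℤ} {J : Fin m → Ch} {σ : Sig x} :
    σ ∈ DD x u a s J ↔ ∃ v ∈ Cm R (sh a s) J, ((u ^ s : (Sig x)ˣ) : Sig x) * toSig x v = σ :=
  Iff.rfl

omit [IsDomain R] in
theorem psi_X (i : Fin (m + 1)) : psi R m (X i) = ee R m i := by
  unfold psi
  rw [aeval_X]

omit [IsDomain R] in
theorem ee_mul_mem {b : Fin m → ℤ} {s : ℤ} {J : Fin m → Ch} {v : Lau R m} (i : Fin (m + 1))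
    (hv : v ∈ Cm R (sh b s) J) : ee R m i * v ∈ Cm R (sh b (s + 1)) J := by
  rw [← psi_X]
  refine psi_mul_mem_Cm (isHomogeneous_X R i) ?_
  have : sh (sh b (s + 1)) (-((1 : ℕ) : ℤ)) = sh b s := by
    funext j; simp [sh]; ring
  rw [this]
  exact hv

theorem DD_cmono (a : Fin m → ℤ) (s : ℤ) : CMono (DD x u a s) := by
  exact (Cm_cmono (sh a s)).map _

include hu

theorem pow_smul_eq (i : Fin (m + 1)) (N : ℕ) (σ : Sig x) :
    x i ^ N • σ = (u : Sig x) ^ N * toSig x (ee R m i ^ N) * σ := by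
  rw [Algebra.smul_def, map_pow, toSig_ee x i, ← hu, map_pow]
  ring

theorem toSig_psi {f : MvPolynomial (Fin (m + 1)) R} {γ : ℕ} (hf : f.IsHomogeneous γ) :
    (u : Sig x) ^ γ * toSig x (psi R m f) = algebraMap R (Sig x) (eval x f) := by
  rw [hu]
  exact psi_aux x (B := Sig x) (toSig x) (toSig_ee x) hf

theorem DD_succ (a : Fin m → ℤ) (s : ℤ) (J : Fin m → Ch) :
    DD x u a (s + 1) J = Ideal.span (Set.range x) • DD x u a s J := by
  apply le_antisymm
  · intro σ hσ
    obtain ⟨v, hv, rfl⟩ := (mem_DD x u).1 hσ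
    obtain ⟨c, hc, hc'⟩ := exists_ee_unit (A := R) J 1
    have h1 : ((u ^ (s + 1) : (Sig x)ˣ) : Sig x) * toSig x v =
        ∑ i, x i • (((u ^ s : (Sig x)ˣ) : Sig x) * toSig x (c i * v)) := by
      conv_lhs => rw [← one_mul v, ← hc, Finset.sum_mul, map_sum, Finset.mul_sum]
      refine Finset.sum_congr rfl fun i _ => ?_
      have := pow_smul_eq x u hu i 1 (((u ^ s : (Sig x)ˣ) : Sig x) * toSig x (c i * v))
      rw [pow_one] at this
      rw [this, zpow_add_one, Units.val_mul]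
      simp only [map_mul, pow_one]
      ring
    rw [h1]
    refine Submodule.sum_mem _ fun i _ => Submodule.smul_mem_smul
      (Ideal.subset_span ⟨i, rfl⟩) ((mem_DD x u).2 ⟨_, ?_, rfl⟩)
    have h2 := mul_mem_Cm (hc' i) hv
    have h3 : ((fun _ => -((1 : ℕ) : ℤ)) + sh a (s + 1) : Fin m → ℤ) = sh a s := by
      funext j; simp [sh]; ring
    rwa [h3] at h2
  · rw [Submodule.smul_le]
    intro r hr σ hσ
    induction hr using Submodule.span_induction with
    | mem z hz =>
      obtain ⟨i, rfl⟩ := hz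
      obtain ⟨v, hv, rfl⟩ := (mem_DD x u).1 hσ
      refine (mem_DD x u).2 ⟨_, ee_mul_mem i hv, ?_⟩
      have := pow_smul_eq x u hu i 1 (((u ^ s : (Sig x)ˣ) : Sig x) * toSig x v)
      rw [pow_one] at this
      rw [this, zpow_add_one, Units.val_mul]
      simp only [map_mul, pow_one]
      ring
    | zero => simp
    | add y z _ _ hy hz => rw [add_smul]; exact Submodule.add_mem _ hy hz
    | smul c y _ hy => rw [smul_eq_mul, mul_smul]; exact Submodule.smul_mem _ _ hy

theorem DD_add (a : Fin m → ℤ) (s : ℤ) (N : ℕ) (J : Fin m → Ch) :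
    DD x u a (s + N) J = Ideal.span (Set.range x) ^ N • DD x u a s J := by
  induction N with
  | zero => simp
  | succ N ih =>
    rw [Nat.cast_succ, ← add_assoc, DD_succ x u hu, ih, pow_succ', Submodule.mul_smul]

theorem DD_anti (a : Fin m → ℤ) {s s' : ℤ} (h : s ≤ s') : DD x u a s' ≤ DD x u a s := by
  intro J
  obtain ⟨N, rfl⟩ := Int.le.dest h
  rw [DD_add x u hu]
  exact Submodule.smul_le_right

theorem DD_tors (hx0 : x 0 ≠ 0) (hxl : x (Fin.last m) ≠ 0) (a : Fin m → ℤ) (s : ℤ)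
    (J : Fin m → Ch) (σ : Sig x) : ∃ c : R, c ≠ 0 ∧ c • σ ∈ DD x u a s J := by
  obtain ⟨c, hc, v, hv⟩ := exists_smul_eq_toSig x σ
  obtain ⟨r, hr⟩ := exists_ee_last_pow_mul_mem v
  set k : ℕ := r + s.natAbs + ∑ j, (a j).natAbs with hk
  have hs : s ≤ ((r + k : ℕ) : ℤ) := by omega
  refine ⟨x 0 ^ k * (x (Fin.last m) ^ r * c),
    mul_ne_zero (pow_ne_zero _ hx0) (mul_ne_zero (pow_ne_zero _ hxl) hc), ?_⟩
  refine DD_anti x u hu a hs J ((mem_DD x u).2 ⟨_, hr r le_rfl _ (fun j => ?_) J, ?_⟩)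
  · have h2 := Finset.single_le_sum (f := fun j => (a j).natAbs)
      (fun _ _ => Nat.zero_le _) (Finset.mem_univ j)
    simp only [sh]
    omega
  · rw [mul_smul, mul_smul, hv, pow_smul_eq x u hu, pow_smul_eq x u hu, ee_zero, zpow_natCast,
      Units.val_pow_eq_pow_val]
    simp only [map_mul, one_pow, map_one]
    ring

theorem DD_unit (J : Fin m → Ch) (N : ℕ) :
    ∃ g : Fin (m + 1) → Sig x, ∑ i, x i ^ N • g i = 1 ∧
      ∀ i a s, ∀ v ∈ DD x u a (s + N) J, g i * v ∈ DD x u a s J := by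
  obtain ⟨c, hc, hc'⟩ := exists_ee_unit (A := R) J N
  refine ⟨fun i => ((u ^ (-(N : ℤ)) : (Sig x)ˣ) : Sig x) * toSig x (c i), ?_, ?_⟩
  · have h1 : (u : Sig x) ^ N * ((u ^ (-(N : ℤ)) : (Sig x)ˣ) : Sig x) = 1 := by
      rw [← Units.val_pow_eq_pow_val, ← Units.val_mul, ← zpow_natCast, ← zpow_add]
      simp
    rw [← map_one (toSig x), ← hc, map_sum]
    refine Finset.sum_congr rfl fun i _ => ?_
    rw [pow_smul_eq x u hu, map_mul]
    linear_combination (toSig x (ee R m i ^ N) * toSig x (c i)) * h1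
  · intro i a s σ hσ
    obtain ⟨v, hv, rfl⟩ := (mem_DD x u).1 hσ
    have h2 := mul_mem_Cm (hc' i) hv
    have h3 : ((fun _ => -(N : ℤ)) + sh a (s + N) : Fin m → ℤ) = sh a s := by
      funext j; simp [sh]; ring
    rw [h3] at h2
    refine (mem_DD x u).2 ⟨_, h2, ?_⟩
    have h1 : ((u ^ (-(N : ℤ)) : (Sig x)ˣ) : Sig x) * ((u ^ (s + N) : (Sig x)ˣ) : Sig x) =
        ((u ^ s : (Sig x)ˣ) : Sig x) := by
      rw [← Units.val_mul, ← zpow_add]
      congr 2
      ring
    rw [map_mul, ← h1]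
    ring

/-- The kernel of `Cm → DD / a DD`. -/
theorem toSig_eq_zero_of_mem_CI {b : Fin m → ℤ} {J : Fin m → Ch} {v : Lau R m}
    (hv : v ∈ CI (ReesI x) b J) : toSig x v = 0 := by
  induction hv using Submodule.span_induction with
  | mem z hz =>
    obtain ⟨γ, f, v, hf, hγ, -, rfl⟩ := hz
    have h1 := toSig_psi x u hu hγ
    rw [(mem_ReesI_of_isHomogeneous hγ).1 hf, map_zero] at h1
    rw [map_mul, (u.isUnit.pow γ).mul_right_eq_zero.1 h1, zero_mul]
  | zero => simp
  | add y z _ _ hy hz => rw [map_add, hy, hz, add_zero]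
  | smul c y _ hy => rw [map_smul, hy, smul_zero]

omit hu in
theorem mem_CI_of_toSig_eq_zero (hx0 : x 0 ≠ 0) (hxl : x (Fin.last m) ≠ 0) {b : Fin m → ℤ}
    {J : Fin m → Ch} {v : Lau R m} (hv : v ∈ Cm R b J) (h0 : toSig x v = 0) :
    v ∈ CI (ReesI x) b J := by
  obtain ⟨c, hc, hcv⟩ := exists_smul_mem_jj x h0
  obtain ⟨t, ht⟩ := Ideal.mem_span_range_iff_exists_fun.1 hcv
  choose ρ hρ using fun i => exists_ee_last_pow_mul_mem (t i)
  set r : ℕ := ∑ i, ρ i with hr
  set k : ℕ := r + 1 + ∑ j, (b j).natAbs with hk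
  set h : MvPolynomial (Fin (m + 1)) R := C c * (X (Fin.last m) ^ r * X 0 ^ k) with hh
  have hhom : h.IsHomogeneous (r + k) := by
    simpa using (isHomogeneous_C _ c).mul
      ((isHomogeneous_X_pow (R := R) (Fin.last m) r).mul (isHomogeneous_X_pow (R := R) 0 k))
  have hcol : (ReesI x).colon {h} = ReesI x := by
    have hprime : (ReesI x).IsPrime := RingHom.ker_isPrime _
    apply le_antisymm
    · intro g hg
      rw [Submodule.mem_colon_singleton, smul_eq_mul] at hg
      refine (hprime.mem_or_mem hg).resolve_right ?_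
      rw [mem_ReesI_of_isHomogeneous hhom, hh]
      simp [hc, hx0, hxl]
    · exact Ideal.le_colon
  have hsh : sh (sh b ((r + k : ℕ) : ℤ)) (-((r + k : ℕ) : ℤ)) = b := by
    funext j; simp only [sh]; ring
  have key := CI_colon (isHom_ReesI x) hhom (sh b ((r + k : ℕ) : ℤ)) J
  rw [hsh, hcol] at key
  rw [← key]
  refine ⟨hv, ?_⟩
  have h1 : psi R m h * v = ∑ i, psi R m (C (x i) * X 0 - C (x 0) * X i) *
      (ee R m (Fin.last m) ^ r * t i) := by
    have h2 : psi R m h * v = ee R m (Fin.last m) ^ r * (c • v) := by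
      rw [hh]
      simp only [map_mul, map_pow, psi_X, ee_zero, algHom_C, Algebra.smul_def]
      ring
    rw [h2, ← ht, Finset.mul_sum]
    refine Finset.sum_congr rfl fun i _ => ?_
    simp only [map_mul, map_sub, psi_X, ee_zero, algHom_C]
    ring
  show psi R m h * v ∈ CI (ReesI x) (sh b ((r + k : ℕ) : ℤ)) J
  rw [h1]
  refine Submodule.sum_mem _ fun i _ => Submodule.subset_span ?_
  have hi : (C (x i) * X 0 - C (x 0) * X i : MvPolynomial (Fin (m + 1)) R).IsHomogeneous 1 :=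
    (isHomogeneous_C_mul_X _ _).sub (isHomogeneous_C_mul_X _ _)
  have hρi : ρ i ≤ r := Finset.single_le_sum (f := ρ) (fun _ _ => Nat.zero_le _) (Finset.mem_univ i)
  refine ⟨1, _, _, ?_, hi, hρ i r hρi _ (fun j => ?_) J, rfl⟩
  · rw [mem_ReesI_of_isHomogeneous hi]
    simp [mul_comm]
  · have h2 := Finset.single_le_sum (f := fun j => (b j).natAbs)
      (fun _ _ => Nat.zero_le _) (Finset.mem_univ j)
    simp only [sh]
    omega

theorem DD_ker (hx0 : x 0 ≠ 0) (hxl : x (Fin.last m) ≠ 0) (a : Fin m → ℤ) (s : ℤ)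
    (J : Fin m → Ch) (I : Ideal R) (v : Lau R m) (hv : v ∈ Cm R (sh a s) J) :
    ((u ^ s : (Sig x)ˣ) : Sig x) * toSig x v ∈ I • DD x u a s J ↔
      v ∈ CI (ReesI x ⊔ I.map (C : R →+* MvPolynomial (Fin (m + 1)) R)) (sh a s) J := by
  rw [CI_sup (isHom_ReesI x) (isHom_map_C I), CI_map_C]
  unfold DD
  rw [← Submodule.map_smul'']
  constructor
  · rintro ⟨v', hv', h⟩
    have h1 : toSig x v' = toSig x v := (u ^ s).isUnit.mul_left_cancel h
    refine Submodule.mem_sup.2 ⟨v - v', ?_, v', hv', by ring⟩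
    refine mem_CI_of_toSig_eq_zero x hx0 hxl
      (Submodule.sub_mem _ hv (Submodule.smul_le_right hv')) ?_
    rw [map_sub, h1, sub_self]
  · intro h
    obtain ⟨p, hp, q, hq, rfl⟩ := Submodule.mem_sup.1 h
    refine ⟨q, hq, ?_⟩
    rw [map_add, toSig_eq_zero_of_mem_CI x u hu hp, zero_add]
    rfl

theorem DD_piece (μ : LenFun R) (hx0 : x 0 ≠ 0) (hxl : x (Fin.last m) ≠ 0) (a : Fin m → ℤ)
    (s : ℤ) (I : Ideal R) (f : R) (n : ℤ) :
    hh μ (cd R m (Sig x)) (Cech fun J => I • DD x u a s J)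
        (Cech fun J => (I ⊔ Ideal.span {f}) • DD x u a s J) n =
      hh μ (cd R m (Lau R m)) (Cech (CI (StepI x I f) (sh a s))) (Cech (Cm R (sh a s))) n := by
  symm
  refine hh_cech_transfer μ
    (f • ((LinearMap.mulLeft R ((u ^ s : (Sig x)ˣ) : Sig x)) ∘ₗ (toSig x).toLinearMap))
    (Cm_cmono _) ((DD_cmono x u a s).smul I) (fun J => ?_) (fun J => ?_) n
  · rw [Submodule.sup_smul, sup_comm]
    congr 1
    rw [Submodule.ideal_span_singleton_smul]
    ext σ
    rw [Submodule.mem_smul_pointwise_iff_exists]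
    constructor
    · rintro ⟨v, hv, rfl⟩
      exact ⟨_, ⟨v, hv, rfl⟩, rfl⟩
    · rintro ⟨_, ⟨v, hv, rfl⟩, rfl⟩
      exact ⟨v, hv, rfl⟩
  · have hsh : sh (sh a s) (-((0 : ℕ) : ℤ)) = sh a s := by
      funext j; simp [sh]
    have key := CI_colon ((isHom_ReesI x).sup (isHom_map_C I)) (isHomogeneous_C _ f) (sh a s) J
    rw [hsh] at key
    unfold StepI
    rw [← key]
    ext v
    refine and_congr_right fun hv => ?_
    have h1 := DD_ker x u hu hx0 hxl a s J I (f • v) (Submodule.smul_mem _ f hv)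
    have h2 : (LinearMap.mulLeft R (psi R m (C f))) v = f • v := by
      simp [Algebra.smul_def]
    have h3 : (f • ((LinearMap.mulLeft R ((u ^ s : (Sig x)ˣ) : Sig x)) ∘ₗ
        (toSig x).toLinearMap)) v = ((u ^ s : (Sig x)ˣ) : Sig x) * toSig x (f • v) := by
      simp
    change _ ∈ (I • DD x u a s J) ↔ _ ∈ CI _ _ _
    rw [h2, h3]
    exact h1

end Vale.Agent.P202
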