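import Vale.Agent.P202.MDefs
import Vale.Agent.P202.Sig

/-! The blow-up of a quasi-regular sequence (version of `Sig.lean` without domain hypothesis). -/

namespace Vale.Agent.P202

universe u

open MvPolynomial

section abstract

variable {B : Type u} [CommRing B] {m : ℕ} {ξ : Fin (m + 1) → B}

theorem colon_rees_msig {h : MvPolynomial (Fin (m + 1)) B} {γ : ℕ} (hh : h.IsHomogeneous γ)
    (h0 : eval ξ h ∈ nonZeroDivisors B) : (ReesI ξ).colon {h} = ReesI ξ := by
  refine le_antisymm (fun g hg => mem_ReesI.2 fun n => ?_) Ideal.le_colon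
  have k := ((isHom_ReesI ξ).colon hh) g hg n
  rw [Submodule.mem_colon_singleton, smul_eq_mul, mem_ReesI_of_isHomogeneous
    ((homogeneousComponent_isHomogeneous n g).mul hh), map_mul] at k
  exact (mul_right_mem_nonZeroDivisors_eq_zero_iff h0).1 k

theorem mem_CI_msig (h0 : ξ 0 ∈ nonZeroDivisors B) (hl : ξ (Fin.last m) ∈ nonZeroDivisors B)
    {b : Fin m → ℤ} {J : Fin m → Ch} {v : Lau B m} (hv : v ∈ Cm B b J) {n : ℕ}
    (hcv : ξ 0 ^ n • v ∈ jj ξ) : v ∈ CI (ReesI ξ) b J := by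
  obtain ⟨t, ht⟩ := Ideal.mem_span_range_iff_exists_fun.1 hcv
  choose ρ hρ using fun i => exists_ee_last_pow_mul_mem (t i)
  set r : ℕ := ∑ i, ρ i with hr
  set k : ℕ := r + 1 + ∑ j, (b j).natAbs with hk
  set h : MvPolynomial (Fin (m + 1)) B := C (ξ 0 ^ n) * (X (Fin.last m) ^ r * X 0 ^ k) with hh
  have hhom : h.IsHomogeneous (r + k) := by
    simpa only [zero_add] using (isHomogeneous_C _ (ξ 0 ^ n)).mul
      ((isHomogeneous_X_pow (R := B) (Fin.last m) r).mul (isHomogeneous_X_pow (R := B) 0 k))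
  have hcol : (ReesI ξ).colon {h} = ReesI ξ := colon_rees_msig hhom (by
    simp only [hh, map_mul, eval_C, map_pow, eval_X]
    exact mul_mem (pow_mem h0 _) (mul_mem (pow_mem hl _) (pow_mem h0 _)))
  have hsh : sh (sh b ((r + k : ℕ) : ℤ)) (-((r + k : ℕ) : ℤ)) = b := by
    funext j; simp only [sh]; ring
  have key := CI_colon (isHom_ReesI ξ) hhom (sh b ((r + k : ℕ) : ℤ)) J
  rw [hsh, hcol] at key
  rw [← key]
  refine ⟨hv, ?_⟩
  have h1 : psi B m h * v = ∑ i, psi B m (C (ξ i) * X 0 - C (ξ 0) * X i) *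
      (ee B m (Fin.last m) ^ r * t i) := by
    have h2 : psi B m h * v = ee B m (Fin.last m) ^ r * (ξ 0 ^ n • v) := by
      rw [hh]
      simp only [map_mul, map_pow, psi_X, ee_zero, algHom_C, Algebra.smul_def]
      ring
    rw [h2, ← ht, Finset.mul_sum]
    refine Finset.sum_congr rfl fun i _ => ?_
    simp only [map_mul, map_sub, psi_X, ee_zero, algHom_C]
    ring
  show psi B m h * v ∈ CI (ReesI ξ) (sh b ((r + k : ℕ) : ℤ)) J
  rw [h1]
  refine Submodule.sum_mem _ fun i _ => Submodule.subset_span ?_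
  have hi : (C (ξ i) * X 0 - C (ξ 0) * X i : MvPolynomial (Fin (m + 1)) B).IsHomogeneous 1 :=
    (isHomogeneous_C_mul_X _ _).sub (isHomogeneous_C_mul_X _ _)
  have hρi : ρ i ≤ r := Finset.single_le_sum (f := ρ) (fun _ _ => Nat.zero_le _) (Finset.mem_univ i)
  refine ⟨1, _, _, ?_, hi, hρ i r hρi _ (fun j => ?_) J, rfl⟩
  · rw [mem_ReesI_of_isHomogeneous hi]
    simp [mul_comm]
  · have h2 := Finset.single_le_sum (f := fun j => (b j).natAbs)
      (fun _ _ => Nat.zero_le _) (Finset.mem_univ j)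
    simp only [sh]
    omega

theorem geo_msig (h : QReg ξ) (h0 : ξ 0 ∈ nonZeroDivisors B)
    (hl : ξ (Fin.last m) ∈ nonZeroDivisors B) {E : Type u} [CommRing E] [Algebra B E]
    (T : Lau B m →ₐ[B] E) (u : Eˣ) (hu : ∀ i, algebraMap B E (ξ i) = u * T (ee B m i))
    (hker : ∀ v, T v = 0 → ∃ n : ℕ, ξ 0 ^ n • v ∈ jj ξ) :
    Geo ξ fun s => LinearMap.mulLeft B ((u ^ s : Eˣ) : E) ∘ₗ T.toLinearMap := by
  set φ : ℤ → Lau B m →ₗ[B] E := fun s => LinearMap.mulLeft B ((u ^ s : Eˣ) : E) ∘ₗ T.toLinearMap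
  have e : ∀ s v, φ s v = ((u ^ s : Eˣ) : E) * T v := fun _ _ => rfl
  have rel : ∀ s i v, φ (s + 1) (ee B m i * v) = ξ i • φ s v := fun s i v => by
    rw [e, e, Algebra.smul_def, hu, zpow_add_one, Units.val_mul, map_mul]
    ring
  refine ⟨rel, fun a s J => le_antisymm ?_ (Submodule.smul_le.2 fun r hr σ hσ => ?_), ?_,
    fun J N => ?_⟩
  · rintro _ ⟨v, hv, rfl⟩
    obtain ⟨c, hc, hc'⟩ := exists_ee_unit (A := B) J 1
    rw [← one_mul v, ← hc, Finset.sum_mul, map_sum]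
    refine Submodule.sum_mem _ fun i _ => ?_
    rw [pow_one, mul_assoc, rel]
    refine Submodule.smul_mem_smul (Ideal.subset_span ⟨i, rfl⟩) ⟨_, ?_, rfl⟩
    have h2 := mul_mem_Cm (hc' i) hv
    have h3 : ((fun _ => -((1 : ℕ) : ℤ)) + sh a (s + 1) : Fin m → ℤ) = sh a s := by
      funext j; simp [sh]; ring
    rwa [h3] at h2
  · induction hr using Submodule.span_induction with
    | mem z hz =>
      obtain ⟨i, rfl⟩ := hz
      obtain ⟨v, hv, rfl⟩ := hσ
      exact ⟨_, ee_mul_mem i hv, rel s i v⟩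
    | zero => simp
    | add y z _ _ hy hz => rw [add_smul]; exact Submodule.add_mem _ hy hz
    | smul c y _ hy => rw [smul_eq_mul, mul_smul]; exact Submodule.smul_mem _ _ hy
  · rintro a s J v hv ⟨w, hw, hw'⟩
    obtain ⟨c, hc, hc'⟩ := exists_ee_unit (A := B) J 1
    have k1 : ∑ i, ξ i • (c i * w) ∈ Ideal.span (Set.range ξ) • Cm B (sh a s) J := by
      refine Submodule.sum_mem _ fun i _ =>
        Submodule.smul_mem_smul (Ideal.subset_span ⟨i, rfl⟩) ?_
      have h2 := mul_mem_Cm (hc' i) hw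
      have h3 : ((fun _ => -((1 : ℕ) : ℤ)) + sh a (s + 1) : Fin m → ℤ) = sh a s := by
        funext j; simp [sh]; ring
      rwa [h3] at h2
    have k2 : φ s (v - ∑ i, ξ i • (c i * w)) = 0 := by
      rw [map_sub, ← hw', map_sum, sub_eq_zero]
      conv_lhs => rw [← one_mul w, ← hc, Finset.sum_mul, map_sum]
      exact Finset.sum_congr rfl fun i _ => by rw [pow_one, mul_assoc, rel, map_smul]
    obtain ⟨n, hn⟩ := hker _ ((u ^ s).isUnit.mul_right_eq_zero.1 k2)
    have k3 := CI_mono h _ J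
      (mem_CI_msig h0 hl (Submodule.sub_mem _ hv (Submodule.smul_le_right k1)) hn)
    rw [CI_map_C] at k3
    simpa only [sub_add_cancel] using Submodule.add_mem _ k3 k1
  · obtain ⟨c, hc, hc'⟩ := exists_ee_unit (A := B) J N
    refine ⟨fun i => LinearMap.mulLeft B (φ (-(N : ℤ)) (c i)), fun v => ?_, ?_⟩
    · have h1 : (u : E) ^ N * ((u ^ (-(N : ℤ)) : Eˣ) : E) = 1 := by
        rw [← Units.val_pow_eq_pow_val, ← Units.val_mul, ← zpow_natCast, ← zpow_add]
        simp
      conv_rhs => rw [← one_mul v, ← map_one T, ← hc, map_sum, Finset.sum_mul]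
      refine Finset.sum_congr rfl fun i _ => ?_
      rw [LinearMap.mulLeft_apply, e, Algebra.smul_def, map_pow, hu, map_mul, map_pow]
      linear_combination (T (ee B m i) ^ N * T (c i) * v) * h1
    · rintro i a s _ ⟨v, hv, rfl⟩
      have h2 := mul_mem_Cm (hc' i) hv
      have h3 : ((fun _ => -(N : ℤ)) + sh a (s + N) : Fin m → ℤ) = sh a s := by
        funext j; simp [sh]; ring
      rw [h3] at h2
      refine ⟨_, h2, ?_⟩
      have h1 : ((u ^ (-(N : ℤ)) : Eˣ) : E) * ((u ^ (s + N) : Eˣ) : E) = ((u ^ s : Eˣ) : E) := by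
        rw [← Units.val_mul, ← zpow_add]
        congr 2
        ring
      rw [LinearMap.mulLeft_apply, e, e, e, map_mul, ← h1]
      ring

end abstract

theorem exists_geo {B : Type u} [CommRing B] {m : ℕ} (ξ : Fin (m + 1) → B) (h : QReg ξ)
    (h0 : ξ 0 ∈ nonZeroDivisors B) (hl : ξ (Fin.last m) ∈ nonZeroDivisors B) :
    ∃ (E : Type u) (_ : AddCommGroup E) (_ : Module B E) (φ : ℤ → Lau B m →ₗ[B] E),
      Geo ξ φ := by
  let E := Localization.Away (algebraMap B (Lau B m ⧸ jj ξ) (ξ 0))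
  let T : Lau B m →ₐ[B] E :=
    (IsScalarTower.toAlgHom B (Lau B m ⧸ jj ξ) E).comp (Ideal.Quotient.mkₐ B (jj ξ))
  have hu := IsLocalization.Away.algebraMap_isUnit (S := E) (algebraMap B (Lau B m ⧸ jj ξ) (ξ 0))
  rw [← IsScalarTower.algebraMap_apply] at hu
  refine ⟨E, inferInstance, inferInstance, _, geo_msig h h0 hl T hu.unit (fun i => ?_)
    fun v hv => ?_⟩
  · have k : Ideal.Quotient.mkₐ B (jj ξ) (algebraMap B (Lau B m) (ξ i) -
        algebraMap B (Lau B m) (ξ 0) * ee B m i) = 0 :=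
      Ideal.Quotient.eq_zero_iff_mem.2 (Ideal.subset_span ⟨i, rfl⟩)
    have k2 : T (algebraMap B (Lau B m) (ξ i) - algebraMap B (Lau B m) (ξ 0) * ee B m i) = 0 := by
      rw [AlgHom.comp_apply, k, map_zero]
    rw [map_sub, map_mul, AlgHom.commutes, AlgHom.commutes] at k2
    exact sub_eq_zero.1 k2
  · obtain ⟨⟨_, n, rfl⟩, k⟩ := (IsLocalization.map_eq_zero_iff
      (Submonoid.powers (algebraMap B (Lau B m ⧸ jj ξ) (ξ 0))) E
      (Ideal.Quotient.mk (jj ξ) v)).1 hv
    refine ⟨n, ?_⟩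
    rw [← Ideal.Quotient.eq_zero_iff_mem, Algebra.smul_def, map_mul, map_pow, map_pow]
    exact k

end Vale.Agent.P202
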