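import Vale.Agent.P202.MKey
import Vale.Agent.P202.MSig

/-! The main theorem of the homological half. -/

namespace Vale.Agent.P202

open scoped ENNReal

universe u

variable {B : Type u} [CommRing B] {m : ℕ} {ξ : Fin (m + 1) → B} {κ : B} {μ : RLen B}

theorem span_ofFn_mmain {d : ℕ} (y : Fin (d + 1) → B) (i : Fin (d + 1)) :
    Ideal.span {z | z ∈ List.ofFn fun j : Fin d => y (i.succAbove j)} ⊔ Ideal.span {y i} =
      Ideal.span (Set.range y) := by
  rw [← Ideal.span_union]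
  congr 1
  ext z
  simp only [List.mem_ofFn, Set.mem_union, Set.mem_ofPred_eq, Set.mem_singleton_iff, Set.mem_range,
    Fin.exists_iff_succAbove i]
  exact ⟨fun h => h.symm.imp Eq.symm id, fun h => (h.imp Eq.symm id).symm⟩

theorem rowI_mmain (F : MC B) {d : ℕ} (y : Fin (d + 1) → B) (i : Fin (d + 1)) :
    ((F.kos (List.ofFn fun j : Fin d => y (i.succAbove j))).cone (y i)).rowI =
      F.rowI ⊔ Ideal.span (Set.range y) := by
  rw [MC.rowI_cone, MC.rowI_kos, sup_assoc, span_ofFn_mmain]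

theorem span_pow_mmain {ι : Type} (η : ι → B) {L L' : ι → ℕ} (h : ∀ i, L i ≤ L' i) :
    Ideal.span (Set.range fun i => η i ^ L' i) ≤ Ideal.span (Set.range fun i => η i ^ L i) := by
  rw [Ideal.span_le]
  rintro _ ⟨i, rfl⟩
  exact Ideal.mem_of_dvd _ (pow_dvd_pow _ (h i)) (Ideal.subset_span ⟨i, rfl⟩)

theorem hk_mmain {F : MC B} {g d N t M' c : ℕ}
    (hgd : g + (d + 1) = m + 1) (hF : F.Len g) (hent : F.Ent (Ideal.span (Set.range ξ) ^ N))
    (hsq : F.SqIn (Ideal.span (Set.range ξ) ^ M')) (y : Fin (d + 1) → B)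
    (hy : ∀ j, y j ∈ Ideal.span (Set.range ξ) ^ N)
    (hnh : ∀ j, κ ^ c * ξ j ^ t ∈ F.nh (Ideal.span (Set.range ξ) ^ M') ⊔
      Ideal.span (Set.range y)) (i : Fin (d + 1)) :
    HK ((F.kos (List.ofFn fun j : Fin d => y (i.succAbove j))).cone (y i)) ξ κ N t
      (Ideal.span (Set.range ξ) ^ M') := by
  refine ⟨((hF.kos _).cone _).mono (by simp; omega), (hent.kos fun z hz => ?_).cone (hy i),
    (hsq.kos _).cone _, c, fun j => ?_⟩
  · obtain ⟨j, rfl⟩ := List.mem_ofFn.1 hz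
    exact hy _
  · refine SetLike.le_def.1 ((le_of_eq ?_).trans
      ((sup_le_sup_right (MC.nh_kos _ _ _) _).trans (MC.nh_cone _ _ _))) (hnh j)
    rw [sup_assoc, span_ofFn_mmain]

/-- Multiplicativity of the zeroth homology in the exponents. -/
theorem Geo.mult {E : Type u} [AddCommGroup E] [Module B E] {φ : ℤ → Lau B m →ₗ[B] E}
    (h : Geo ξ φ) (hν : (μ.nu κ).q (Ideal.span (Set.range ξ)) = 0) {F : MC B} {g d N t M' n c : ℕ}
    (hgd : g + (d + 1) = m + 1) (hF : F.Len g) (hent : F.Ent (Ideal.span (Set.range ξ) ^ N))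
    (hsq : F.SqIn (Ideal.span (Set.range ξ) ^ M')) (η : Fin (d + 1) → B)
    (hη : ∀ j, η j ∈ Ideal.span (Set.range ξ) ^ N)
    (hnh : ∀ j, κ ^ c * ξ j ^ t ∈ F.nh (Ideal.span (Set.range ξ) ^ M') ⊔
      Ideal.span (Set.range fun i => η i ^ n)) (hM : Mb m N t ≤ M')
    (L : Fin (d + 1) → ℕ) (hL1 : ∀ i, 1 ≤ L i) (hLn : ∀ i, L i ≤ n) :
    ((∏ i, L i : ℕ) : ℝ≥0∞) * h0 μ φ (F.rowI ⊔ Ideal.span (Set.range η)) ((m + 1) * t : ℕ) ≤
      h0 μ φ (F.rowI ⊔ Ideal.span (Set.range fun i => η i ^ L i)) ((m + 1) * t : ℕ) := by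
  have hM2 : 2 * ((m + 1) * t) ≤ M' := by
    refine le_trans ?_ hM
    have : (m + 1) * t * 1 ≤ (m + 1) * t * (4 * m + 14) := Nat.mul_le_mul_left _ (by omega)
    unfold Mb Lmax
    omega
  have hn : ∀ L : Fin (d + 1) → ℕ, (∀ i, L i ≤ n) → ∀ j, κ ^ c * ξ j ^ t ∈
      F.nh (Ideal.span (Set.range ξ) ^ M') ⊔ Ideal.span (Set.range fun i => η i ^ L i) :=
    fun L hL j => sup_le_sup_left (span_pow_mmain η (L' := fun _ => n) hL) _ (hnh j)
  have hind : ∀ L : Fin (d + 1) → ℕ, (∀ i, L i ≤ n) →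
      h0 μ φ (F.rowI ⊔ Ideal.span (Set.range fun i => η i ^ L i)) ((m + 1) * t : ℕ) =
      h0 μ φ (F.rowI ⊔ Ideal.span (Set.range fun i => η i ^ L i)) (2 * ((m + 1) * t) : ℕ) := by
    intro L hL
    refine h.h0_indep μ hν (c := c) (t := t) (M' := M') (fun j => ?_) le_rfl (by omega) hM2
    rw [sup_right_comm]
    exact sup_le_sup_right (F.nh_le _) _ (hn L hL j)
  induction hs : ∑ i, L i using Nat.strong_induction_on generalizing L with
  | _ s ih =>
  by_cases h1 : ∀ i, L i = 1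
  · simp [h1]
  obtain ⟨i, hi⟩ := not_forall.1 h1
  obtain ⟨k, hk⟩ : ∃ k, L i = k + 1 := ⟨L i - 1, by have := hL1 i; omega⟩
  have hk1 : 1 ≤ k := by omega
  have hkn : k + 1 ≤ n := hk ▸ hLn i
  have hU1 : ∀ a, 1 ≤ a → ∀ j, 1 ≤ Function.update L i a j := fun a ha j => by
    rw [Function.update_apply]
    split_ifs
    exacts [ha, hL1 j]
  have hUn : ∀ a, a ≤ n → ∀ j, Function.update L i a j ≤ n := fun a ha j => by
    rw [Function.update_apply]
    split_ifs
    exacts [ha, hLn j]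
  have hsum : ∀ a, a ≤ k → ∑ j, Function.update L i a j < s := fun a ha => by
    rw [← hs, Fin.sum_univ_succAbove _ i, Fin.sum_univ_succAbove L i]
    simp only [Function.update_self, Function.update_of_ne (Fin.succAbove_ne i _)]
    omega
  have hprod : ∀ a, ∏ j, Function.update L i a j = a * ∏ j : Fin d, L (i.succAbove j) := fun a => by
    rw [Fin.prod_univ_succAbove _ i]
    simp only [Function.update_self, Function.update_of_ne (Fin.succAbove_ne i _)]
  set K := F.kos (List.ofFn fun j : Fin d => η (i.succAbove j) ^ L (i.succAbove j)) with hK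
  have hrow : ∀ a, K.rowI ⊔ Ideal.span {η i ^ a} =
      F.rowI ⊔ Ideal.span (Set.range fun j => η j ^ Function.update L i a j) := fun a => by
    have := rowI_mmain F (fun j => η j ^ Function.update L i a j) i
    simp only [Function.update_self, Function.update_of_ne (Fin.succAbove_ne i _)] at this
    rw [← this, MC.rowI_cone]
  have hHK := hk_mmain hgd hF hent hsq (fun j => η j ^ Function.update L i k j)
    (fun j => Ideal.pow_mem_of_mem _ (hη j) _ (hU1 k hk1 j)) (hn _ (hUn k (by omega))) i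
  simp only [Function.update_self, Function.update_of_ne (Fin.succAbove_ne i _)] at hHK
  obtain ⟨c', hc'⟩ := h.acyc hHK hM
  have hadd := h.h0_add_le μ hν K.rowI (η i ^ k) (η i ^ 1) (l := 2 * ((m + 1) * t))
    (l' := (m + 1) * t) (by omega) c' hc'
  rw [← pow_add, hrow, hrow, hrow, ← hind _ (hUn k (by omega)), ← hind _ (hUn _ hkn), ← hk,
    Function.update_eq_self] at hadd
  refine le_trans ?_ hadd
  rw [Fin.prod_univ_succAbove L i, hk, add_mul, Nat.cast_add, add_mul, ← hprod, ← hprod]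
  exact add_le_add (ih _ (hsum k le_rfl) _ (hU1 k hk1) (hUn k (by omega)) rfl)
    (ih _ (hsum 1 hk1) _ (hU1 1 le_rfl) (hUn 1 (by omega)) rfl)

theorem hom_mix (hq : QReg ξ) (h0 : ξ 0 ∈ nonZeroDivisors B)
    (hl : ξ (Fin.last m) ∈ nonZeroDivisors B) (hν : (μ.nu κ).q (Ideal.span (Set.range ξ)) = 0)
    {F : MC B} {g d N t M' n c q : ℕ} (hgd : g + (d + 1) = m + 1) (hF : F.Len g) (hN : 1 ≤ N)
    (hNq : N ≤ q) (hn : (m + 1) ≤ n) (hent : F.Ent (Ideal.span (Set.range ξ) ^ N))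
    (hsq : F.SqIn (Ideal.span (Set.range ξ) ^ M')) (η : Fin (d + 1) → B)
    (hη : ∀ j, η j ∈ Ideal.span (Set.range ξ) ^ N) (hη0 : η 0 = ξ 0 ^ q)
    (hnh : ∀ j, κ ^ c * ξ j ^ t ∈ F.nh (Ideal.span (Set.range ξ) ^ M') ⊔
      Ideal.span (Set.range fun i => η i ^ n)) (hM : Mb m N t ≤ M') :
    ((n ^ (d + 1) * N ^ (m + 1) : ℕ) : ℝ≥0∞) * μ.q (Ideal.span (Set.range ξ)) ≤
      μ.q (F.rowI ⊔ Ideal.span (Set.range fun i => η i ^ n) ⊔ Ideal.span (Set.range ξ) ^ M') := by
  obtain ⟨E, _, _, φ, h⟩ := exists_geo ξ hq h0 hl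
  have hn1 : ∀ j, κ ^ c * ξ j ^ t ∈ F.nh (Ideal.span (Set.range ξ) ^ M') ⊔
      Ideal.span (Set.range η) := fun j => by
    have := span_pow_mmain η (L := fun _ => 1) (L' := fun _ => n) fun _ => by omega
    simp only [pow_one] at this
    exact sup_le_sup_left this _ (hnh j)
  have hK' := hk_mmain hgd hF hent hsq η hη hn1 0
  have hL : (F.kos (List.ofFn fun j : Fin d => η ((0 : Fin (d + 1)).succAbove j))).Len m :=
    (hF.kos _).mono (by simp; omega)
  have hK : HK (F.kos (List.ofFn fun j : Fin d => η ((0 : Fin (d + 1)).succAbove j))) ξ κ N t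
      (Ideal.span (Set.range ξ) ^ M' ⊔ Ideal.span {ξ 0 ^ (q * n)}) := by
    refine ⟨hL.mono (by omega), hent.kos fun z hz => ?_, (hsq.kos _).mono le_sup_left, c,
      fun j => ?_⟩
    · obtain ⟨j, rfl⟩ := List.mem_ofFn.1 hz
      exact hη _
    · refine SetLike.le_def.1 (sup_le ?_ ?_) (hnh j)
      · exact (F.nh_mono le_sup_left).trans (le_sup_left.trans (MC.nh_kos _ _ _))
      · rw [Ideal.span_le]
        rintro _ ⟨i, rfl⟩
        refine Fin.cases ?_ (fun i => ?_) i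
        · refine MC.le_nh _ _ (Ideal.mem_sup_right ?_)
          simp only [hη0, ← pow_mul]
          exact Ideal.subset_span rfl
        · refine MC.nh_kos _ _ _ (Ideal.mem_sup_right (Ideal.pow_mem_of_mem _ ?_ _ (by omega)))
          exact Ideal.subset_span (List.mem_ofFn.2 ⟨i, rfl⟩)
  have h1 := h.key hL hK hK' (by rw [mul_comm]; exact Nat.mul_le_mul hNq hn) hM hν hN
  rw [rowI_mmain] at h1
  have h2 := h.mult hν hgd hF hent hsq η hη hnh hM (fun _ => n) (fun _ => by omega)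
    fun _ => le_rfl
  have hM1 : (m + 1) * t ≤ M' := le_trans (by unfold Mb; omega) hM
  have h3 := h.h0_mono μ (le_refl (F.rowI ⊔ Ideal.span (Set.range fun i => η i ^ n)))
    (Int.ofNat_le.2 hM1)
  have h4 := (((mul_le_mul_right h1 _).trans h2).trans h3).trans (h.h0_le μ _ M')
  refine (ENNReal.mul_le_mul_iff_right (a := (m.factorial : ℝ≥0∞))
    (Nat.cast_ne_zero.2 m.factorial_ne_zero) (ENNReal.natCast_ne_top _)).1 (le_trans (le_of_eq ?_) h4)
  simp only [Finset.prod_const, Finset.card_univ, Fintype.card_fin]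
  push_cast
  ring

end Vale.Agent.P202
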