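import Vale.Agent.P202.MTau
import Vale.Agent.P202.MMain
import Vale.Agent.P202.Core

/-! The core inequality in mixed characteristic, assuming the interface. -/

namespace Vale.Agent.P202

open Polynomial IsLocalRing
open scoped ENNReal

universe u

/-- The interface is available at all levels. -/
def HasIface (p : ℕ) {A : Type u} [CommRing A] {σ : Type} [Fintype σ] (Xv : σ → A)
    (F : A[X]) (Δ : A) (e : ℕ) : Prop :=
  ∀ (𝓗 : Finset A[X]), (∀ H ∈ 𝓗, IntOver F Δ H) → ∀ k γ0 : ℕ,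
    ∃ (γ : ℕ) (B : Type u) (_ : CommRing B) (μ : RLen B) (α : A →+* B) (w : Option σ → B)
      (ζ : Fin F.natDegree → B) (κ : B), γ0 ≤ γ ∧ Iface p Xv F Δ 𝓗 e (p ^ k) γ 0 B μ α w ζ κ

theorem exists_intOver {A T : Type u} [CommRing A] [CommRing T] [Algebra A T] [Module.Finite A T]
    (θ : T) {F : A[X]} {Δ : A} (hker : ∀ H : A[X], aeval θ H = 0 → F ∣ H)
    (hΔ : ∀ b : T, ∃ H : A[X], aeval θ H = Δ • b) :
    ∃ 𝓗 : Finset A[X], (∀ H ∈ 𝓗, IntOver F Δ H) ∧
      ∀ b : T, ∃ H ∈ Submodule.span A (𝓗 : Set A[X]), aeval θ H = Δ • b := by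
  classical
  obtain ⟨s, hs⟩ := Module.Finite.fg_top (R := A) (M := T)
  choose Hf hHf using hΔ
  refine ⟨s.image Hf, ?_, ?_⟩
  · intro H hH
    obtain ⟨b, -, rfl⟩ := Finset.mem_image.1 hH
    obtain ⟨P, hP, hPb⟩ : IsIntegral A b := Algebra.IsIntegral.isIntegral b
    refine ⟨P.natDegree, fun j => P.coeff j, hker _ ?_⟩
    have h1 : aeval b P = 0 := hPb
    rw [hP.as_sum] at h1
    simp only [map_add, map_pow, aeval_X, map_sum, map_mul, aeval_C] at h1 ⊢
    rw [hHf b]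
    have h2 : ∀ j ∈ Finset.range P.natDegree,
        algebraMap A T (P.coeff j) * algebraMap A T Δ ^ (P.natDegree - j) * (Δ • b) ^ j =
          algebraMap A T Δ ^ P.natDegree * (algebraMap A T (P.coeff j) * b ^ j) := by
      intro j hj
      have hj' : P.natDegree = (P.natDegree - j) + j := by
        have := Finset.mem_range.1 hj
        omega
      rw [Algebra.smul_def, mul_pow]
      conv_rhs => rw [hj', pow_add]
      ring
    rw [Finset.sum_congr rfl h2, ← Finset.mul_sum, Algebra.smul_def, mul_pow, ← mul_add, h1,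
      mul_zero]
  · intro b
    have hb : b ∈ Submodule.span A (s : Set T) := hs ▸ Submodule.mem_top
    induction hb using Submodule.span_induction with
    | mem x hx =>
      exact ⟨Hf x, Submodule.subset_span (by simpa using ⟨x, hx, rfl⟩), hHf x⟩
    | zero => exact ⟨0, Submodule.zero_mem _, by simp⟩
    | add x y _ _ hx hy =>
      obtain ⟨H1, h1, e1⟩ := hx
      obtain ⟨H2, h2, e2⟩ := hy
      exact ⟨H1 + H2, Submodule.add_mem _ h1 h2, by rw [map_add, e1, e2, smul_add]⟩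
    | smul c x _ hx =>
      obtain ⟨H1, h1, e1⟩ := hx
      exact ⟨c • H1, Submodule.smul_mem _ c h1, by rw [map_smul, e1, smul_comm]⟩

theorem mcore_exists_equiv {σ : Type} [Fintype σ] (j0 j1 : σ) (hj : j1 ≠ j0) :
    ∃ E : Fin (Fintype.card σ + 1) ≃ Option σ,
      E 0 = some j0 ∧ E (Fin.last (Fintype.card σ)) = some j1 := by
  classical
  let e0 : Fin (Fintype.card σ + 1) ≃ Option σ :=
    (Fintype.equivFinOfCardEq (Fintype.card_option (α := σ))).symm
  let e1 := e0.trans (Equiv.swap (e0 0) (some j0))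
  have h1 : e1 0 = some j0 := by simp [e1]
  have hpos : 0 < Fintype.card σ := Fintype.card_pos_iff.2 ⟨j0⟩
  have hne : (0 : Fin (Fintype.card σ + 1)) ≠ Fin.last _ := by
    intro h
    have := congrArg Fin.val h
    simp only [Fin.val_zero, Fin.val_last] at this
    omega
  refine ⟨e1.trans (Equiv.swap (e1 (Fin.last _)) (some j1)), ?_, by simp⟩
  rw [Equiv.trans_apply, h1]
  refine Equiv.swap_apply_of_ne_of_ne ?_ ?_
  · rw [← h1]
    exact fun h => hne (e1.injective h)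
  · exact fun h => hj (Option.some_injective _ h).symm

section aux

variable {A T B : Type u} [CommRing A] [CommRing T] [CommRing B] [Algebra A T] {α : A →+* B}
  {θ : T} {θ' κ : B} {𝔡 : Ideal B} {τ : T → B}

theorem mcore_nh (h : AH α θ θ' κ 𝔡 τ) (K : MC T) (J : Ideal A) (H : A[X])
    (hH : aeval θ H ∈ K.nh ⊥ ⊔ J.map (algebraMap A T)) :
    κ ^ 2 * H.eval₂ α θ' ∈ (K.mapF τ h.zero).nh 𝔡 ⊔ J.map α := by
  obtain ⟨r, hr, s, hs, hrs⟩ := Submodule.mem_sup.1 hH
  have hd : 𝔡 ≤ (K.mapF τ h.zero).nh 𝔡 ⊔ J.map α := (MC.le_nh _ _).trans le_sup_left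
  have h1 := hd (h.aeval H 1)
  rw [mul_one, ← hrs] at h1
  have h2 := hd h.one
  have h3 := hd (h.add r s)
  have h4 : κ * τ r ∈ (K.mapF τ h.zero).nh 𝔡 ⊔ J.map α :=
    Submodule.mem_sup_left (MC.mem_nh_mapF h hr)
  have h5 : τ s ∈ (K.mapF τ h.zero).nh 𝔡 ⊔ J.map α :=
    (sup_le le_sup_right hd : J.map α ⊔ 𝔡 ≤ _) (h.mem_map J hs)
  have e : κ ^ 2 * H.eval₂ α θ' = κ * τ r + κ * τ s + κ * (τ (r + s) - (τ r + τ s)) -
      κ * (τ (r + s) - H.eval₂ α θ' * τ 1) - κ * H.eval₂ α θ' * (τ 1 - κ) := by ring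
  rw [e]
  exact Ideal.sub_mem _ (Ideal.sub_mem _ (Ideal.add_mem _ (Ideal.add_mem _ h4
    (Ideal.mul_mem_left _ _ h5)) (Ideal.mul_mem_left _ _ h3)) (Ideal.mul_mem_left _ _ h1))
    (Ideal.mul_mem_left _ _ h2)

theorem mcore_row (h : AH α θ θ' κ 𝔡 τ) (K : MC T) (J : Ideal A) {b : T}
    (hb : b ∈ K.rowI ⊔ J.map (algebraMap A T)) :
    κ * τ b ∈ (K.mapF τ h.zero).rowI ⊔ J.map α ⊔ 𝔡 := by
  obtain ⟨r, hr, s, hs, rfl⟩ := Submodule.mem_sup.1 hb
  have h3 : τ (r + s) - (τ r + τ s) ∈ (K.mapF τ h.zero).rowI ⊔ J.map α ⊔ 𝔡 :=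
    Submodule.mem_sup_right (h.add r s)
  have h4 : κ * τ r ∈ (K.mapF τ h.zero).rowI ⊔ J.map α ⊔ 𝔡 :=
    (sup_le_sup_right le_sup_left _ : (K.mapF τ h.zero).rowI ⊔ 𝔡 ≤ _) (MC.mem_rowI_mapF h hr)
  have h5 : τ s ∈ (K.mapF τ h.zero).rowI ⊔ J.map α ⊔ 𝔡 :=
    (sup_le_sup_right le_sup_right _ : J.map α ⊔ 𝔡 ≤ _) (h.mem_map J hs)
  have e : κ * τ (r + s) = κ * τ r + κ * τ s + κ * (τ (r + s) - (τ r + τ s)) := by ring
  rw [e]
  exact Ideal.add_mem _ (Ideal.add_mem _ h4 (Ideal.mul_mem_left _ _ h5))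
    (Ideal.mul_mem_left _ _ h3)

end aux

theorem mcore_span_map {A T : Type u} [CommRing A] [CommRing T] (f : A →+* T) {ι : Type}
    (x : ι → A) (n : ℕ) :
    Ideal.span (Set.range fun i => f (x i) ^ n) =
      (Ideal.span (Set.range fun i => x i ^ n)).map f := by
  rw [Ideal.map_span, ← Set.range_comp]
  congr 2
  funext i
  simp

theorem mcore_range {B : Type u} {σ : Type} {n : ℕ} (E : Fin n ≃ Option σ) (z : B)
    (w : Option σ → B) :
    Set.range (fun k => (E k).elim z fun j => w (some j)) =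
      insert z (Set.range fun j => w (some j)) := by
  ext x
  constructor
  · rintro ⟨k, rfl⟩
    rcases hk : E k with _ | j
    · simp [hk]
    · simp [hk]
  · rintro (rfl | ⟨j, rfl⟩)
    · exact ⟨E.symm none, by simp⟩
    · exact ⟨E.symm (some j), by simp⟩

/-- The inequality at one level. -/
theorem mcore_level {p : ℕ} {A : Type u} [CommRing A] [IsLocalRing A] {σ : Type}
    [Fintype σ] {Xv : σ → A} {F : A[X]} {Δ Γ u : A} {e a : ℕ} (hI : HasIface p Xv F Δ e)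
    (hm : maximalIdeal A = Ideal.span (insert (p : A) (Set.range Xv)))
    (hu : IsUnit u) (h0 : F.coeff 0 - p ^ a * u ∈ Ideal.span (Set.range Xv))
    (hΓ : C Γ ∈ Ideal.span {F, derivative F})
    {T : Type u} [CommRing T] [IsLocalRing T] [Algebra A T] [Module.Finite A T] (θ : T)
    (hθ : aeval θ F = 0) (hker : ∀ H : A[X], aeval θ H = 0 → F ∣ H)
    (hΔ : ∀ b : T, ∃ H : A[X], aeval θ H = Δ • b) {n0 : ℕ}
    (hred : maximalIdeal T ^ (n0 + 1) ≤
      Ideal.span (insert θ (Set.range fun j => algebraMap A T (Xv j))) * maximalIdeal T ^ n0)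
    (hθm : θ ∈ maximalIdeal T) (hXm : ∀ j, algebraMap A T (Xv j) ∈ maximalIdeal T)
    (K : MC T) {g d : ℕ} (hgd : g + (d + 1) = Fintype.card σ + 1) (hL : K.Len g)
    (hent : K.Ent (maximalIdeal T)) (hsq : K.SqIn ⊥) (hnh : K.rowI ≤ K.nh ⊥)
    (y : Fin (d + 1) → σ) (j1 : σ) (hj : j1 ≠ y 0) {n t : ℕ} (hn : Fintype.card σ + 1 ≤ n)
    (ht : maximalIdeal T ^ t ≤
      K.rowI ⊔ Ideal.span (Set.range fun i => algebraMap A T (Xv (y i)) ^ n))
    (hfin : Module.length A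
      (T ⧸ (K.rowI ⊔ Ideal.span (Set.range fun i => algebraMap A T (Xv (y i)) ^ n))) ≠ ⊤)
    (k : ℕ) (hk : n0 + (Fintype.card σ + 1) < p ^ k) :
    ((a * n ^ (d + 1) * (p ^ k - (n0 + (Fintype.card σ + 1))) ^ (Fintype.card σ + 1) : ℕ) :
        ℝ≥0∞) ≤ (((p ^ k) ^ (Fintype.card σ + 1) : ℕ) : ℝ≥0∞) *
      (((Module.length A
        (T ⧸ (K.rowI ⊔ Ideal.span (Set.range fun i => algebraMap A T (Xv (y i)) ^ n))) : ℕ∞) :
          ℝ≥0∞) + F.natDegree * ((Module.length A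
        (T ⧸ (K.rowI ⊔ Ideal.span (Set.range fun i => algebraMap A T (Xv (y i)) ^ n) ⊔
          Ideal.span {algebraMap A T Γ})) : ℕ∞) : ℝ≥0∞)) := by
  classical
  obtain ⟨𝓗, h𝓗, hgen⟩ := exists_intOver θ hker hΔ
  obtain ⟨E, hE0, hEl⟩ := mcore_exists_equiv (y 0) j1 hj
  obtain ⟨N, hN⟩ : ∃ N, N = p ^ k - (n0 + (Fintype.card σ + 1)) := ⟨_, rfl⟩
  obtain ⟨M', hM'⟩ : ∃ M', M' = Mb (Fintype.card σ) N (p ^ k * t) := ⟨_, rfl⟩
  obtain ⟨γ1, hγ1⟩ : ∃ γ1, γ1 = (a + 1) * (p ^ k + M') := ⟨_, rfl⟩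
  obtain ⟨γ, B, _, μ, α, w, ζ, κ, hγ, h⟩ := hI 𝓗 h𝓗 k (γ1 + 2 * e + a + 1)
  rw [← hN]
  generalize p ^ k = q at *
  have hq : 1 ≤ q := by omega
  have hN1 : 1 ≤ N := by omega
  have hNq : N ≤ q := by omega
  have ha : a < γ := by omega
  choose τ hτ using fun i => h.exists_tau θ hθ hker hgen (γ1 := γ1) (by omega) i
  let I : Fin F.natDegree → Ideal B := fun i =>
    Ideal.span (insert (ζ i) (Set.range fun j => w (some j)))
  let J : Fin F.natDegree → Ideal B := fun i =>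
    Ideal.span (insert (ζ i ^ q) (Set.range fun j => α (Xv j)))
  have hζI : ∀ i, ζ i ∈ I i := fun i => Ideal.subset_span (Set.mem_insert _ _)
  have hwI : ∀ i j, w (some j) ∈ I i := fun i j =>
    Ideal.subset_span (Set.mem_insert_of_mem _ ⟨j, rfl⟩)
  have hXI : ∀ i j, α (Xv j) ∈ I i ^ q := fun i j => by
    rw [← h.wX j]
    exact Ideal.pow_mem_pow (hwI i j) q
  have hXI' : ∀ i j, α (Xv j) ∈ I i := fun i j => Ideal.pow_le_self (by omega) (hXI i j)
  have hJI : ∀ i, J i ≤ I i := fun i => by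
    refine Ideal.span_le.2 ?_
    rintro _ (rfl | ⟨j, rfl⟩)
    · exact Ideal.pow_mem_of_mem _ (hζI i) q hq
    · exact hXI' i j
  have hpJ : ∀ i (r s : ℕ), a * r ≤ s → (p : B) ^ s ∈ J i ^ r := fun i r s hrs => by
    obtain ⟨c, rfl⟩ := Nat.exists_eq_add_of_le hrs
    rw [pow_add, pow_mul]
    exact Ideal.mul_mem_right _ _ (Ideal.pow_mem_pow (h.pow_mem hu h0 ha i) r)
  have hpI : ∀ i (r s : ℕ), a * r ≤ s → (p : B) ^ s ∈ I i ^ r := fun i r s hrs =>
    Ideal.pow_right_mono (hJI i) r (hpJ i r s hrs)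
  have hd : ∀ i, Ideal.span {(p : B) ^ γ1} ≤ I i ^ M' := fun i =>
    (Ideal.span_singleton_le_iff_mem _).2 (hpI i _ _ (by
      rw [hγ1]
      exact Nat.mul_le_mul (Nat.le_succ a) (by omega)))
  let J0 : Ideal A := Ideal.span (Set.range fun i => Xv (y i) ^ n)
  have eT : Ideal.span (Set.range fun i => algebraMap A T (Xv (y i)) ^ n) =
      J0.map (algebraMap A T) := mcore_span_map _ (fun i => Xv (y i)) n
  have eB : Ideal.span (Set.range fun i => α (Xv (y i)) ^ n) = J0.map α :=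
    mcore_span_map _ (fun i => Xv (y i)) n
  let 𝔮 : Fin F.natDegree → Ideal B := fun i =>
    (K.mapF (τ i) (hτ i).zero).rowI ⊔ Ideal.span (Set.range fun i => α (Xv (y i)) ^ n) ⊔
      I i ^ M'
  have hmain : ∀ i, ((n ^ (d + 1) * N ^ (Fintype.card σ + 1) : ℕ) : ℝ≥0∞) * μ.q (I i) ≤
      μ.q (𝔮 i) := by
    intro i
    have hr : Ideal.span (Set.range fun k => (E k).elim (ζ i) fun j => w (some j)) = I i := by
      rw [mcore_range]
    have key := hom_mix (μ := μ) (κ := κ) (ξ := fun k => (E k).elim (ζ i) fun j => w (some j))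
      (h.qreg hq hu h0 ha i E) ?_ ?_ ?_ (F := K.mapF (τ i) (hτ i).zero) (g := g) (d := d)
      (N := N) (t := q * t) (M' := M') (n := n) (c := 2) (q := q) hgd hL hN1 hNq hn ?_ ?_
      (fun i => α (Xv (y i))) ?_ ?_ ?_ hM'.ge
    · rw [hr] at key
      exact key
    · rw [hE0]
      refine mem_nonZeroDivisors_iff_left.2 fun z hz => ?_
      simpa using h.reg ∅ (some (y 0)) (Set.notMem_empty _) z (by simpa using hz)
    · rw [hEl]
      refine mem_nonZeroDivisors_iff_left.2 fun z hz => ?_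
      simpa using h.reg ∅ (some j1) (Set.notMem_empty _) z (by simpa using hz)
    · rw [hr]
      refine h.nu_q (n := a + 1) ?_ fun j => Ideal.pow_mem_of_mem _ (hXI' i j) _ (by omega)
      simpa using hpI i 1 (a + 1) (by omega)
    · rw [hr]
      intro c c'
      have hb := hent c c'
      have h1 : K.mat c c' ^ q ∈
          Ideal.span (insert θ (Set.range fun j => algebraMap A T (Xv j))) ^ (q - n0) := by
        have h2 := red_pow_le hred (q - n0)
        rw [show n0 + (q - n0) = q by omega] at h2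
        exact Ideal.mul_le_left (h2 (Ideal.pow_mem_pow hb q))
      have hdJ : Ideal.span {(p : B) ^ γ1} ≤ J i ^ (q - n0) :=
        (Ideal.span_singleton_le_iff_mem _).2 (hpJ i _ _ (by
          rw [hγ1]
          exact Nat.mul_le_mul (Nat.le_succ a) (by omega)))
      have h3 : τ i (K.mat c c' ^ q) ∈ J i ^ (q - n0) :=
        (sup_le le_rfl hdJ : J i ^ (q - n0) ⊔ _ ≤ _) ((hτ i).mem_pow Xv (q - n0) h1)
      have h4 := hdJ ((hτ i).pow (K.mat c c') (q - 1))
      rw [show q - 1 + 1 = q by omega] at h4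
      have h5 : τ i (K.mat c c') ^ q ∈ J i ^ (q - n0) := by
        have := Ideal.add_mem _ h4 (Ideal.mul_mem_left _ (κ ^ (q - 1)) h3)
        simpa using this
      have h6 := h.rc i _ _ h5
      rw [Nat.sub_sub, ← hN] at h6
      exact h6
    · rw [hr]
      exact (MC.SqIn.mapF (hτ i) hsq).mono (hd i)
    · rw [hr]
      exact fun j => Ideal.pow_le_pow_right hNq (hXI i (y j))
    · simp only [hE0, Option.elim_some, h.wX]
    · rw [hr, eB]
      intro j
      have hle : (K.mapF (τ i) (hτ i).zero).nh (Ideal.span {(p : B) ^ γ1}) ⊔ J0.map α ≤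
          (K.mapF (τ i) (hτ i).zero).nh (I i ^ M') ⊔ J0.map α :=
        sup_le_sup_right (MC.nh_mono _ (hd i)) _
      have ht' : maximalIdeal T ^ t ≤ K.nh ⊥ ⊔ J0.map (algebraMap A T) := by
        rw [← eT]
        exact ht.trans (sup_le_sup_right hnh _)
      rcases hEj : E j with _ | j'
      · have := mcore_nh (hτ i) K J0 (X ^ t) (by
          rw [map_pow, aeval_X]
          exact ht' (Ideal.pow_mem_pow hθm t))
        rw [eval₂_pow, eval₂_X, ← pow_mul] at this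
        simpa [hEj] using hle this
      · have := mcore_nh (hτ i) K J0 (C (Xv j') ^ t) (by
          rw [map_pow, aeval_C]
          exact ht' (Ideal.pow_mem_pow (hXm j') t))
        rw [eval₂_pow, eval₂_C, ← h.wX, ← pow_mul] at this
        simpa [hEj] using hle this
  have havg := h.avg hm θ (γ1 := γ1) (by omega) τ hτ _ hfin 𝔮
    (fun i => Submodule.mem_sup_right (hd i (Ideal.mem_span_singleton_self _))) ?_ ?_ hΓ
  · have hlow := h.lower hq hu h0 ha
    calc ((a * n ^ (d + 1) * N ^ (Fintype.card σ + 1) : ℕ) : ℝ≥0∞)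
        = (a : ℝ≥0∞) * ((n ^ (d + 1) * N ^ (Fintype.card σ + 1) : ℕ) : ℝ≥0∞) := by
          push_cast
          ring
      _ ≤ (((q ^ (Fintype.card σ + 1) : ℕ) : ℝ≥0∞) * ∑ i, μ.q (I i)) *
            ((n ^ (d + 1) * N ^ (Fintype.card σ + 1) : ℕ) : ℝ≥0∞) := by
          gcongr
      _ = ((q ^ (Fintype.card σ + 1) : ℕ) : ℝ≥0∞) *
            ∑ i, ((n ^ (d + 1) * N ^ (Fintype.card σ + 1) : ℕ) : ℝ≥0∞) * μ.q (I i) := by
          rw [← Finset.mul_sum]
          ring
      _ ≤ ((q ^ (Fintype.card σ + 1) : ℕ) : ℝ≥0∞) * ∑ i, μ.q (𝔮 i) := by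
          gcongr with i
          exact hmain i
      _ ≤ _ := by
          gcongr
  · intro i b hb
    rw [eT] at hb
    have := mcore_row (hτ i) K J0 hb
    rw [← eB] at this
    exact (sup_le_sup_left (hd i) _ : _ ≤ 𝔮 i) this
  · intro i
    refine h.nu_q (n := (a + 1) * M') (Submodule.mem_sup_right (hpI i _ _
      (Nat.mul_le_mul_right _ (Nat.le_succ a))))
      fun j => Submodule.mem_sup_right ?_
    rw [pow_mul]
    exact Ideal.pow_mem_pow (Ideal.pow_mem_of_mem _ (hXI' i j) _ (by omega)) M'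

theorem mix_core {p : ℕ} (hp : p.Prime) {A : Type u} [CommRing A] [IsLocalRing A] {σ : Type}
    [Fintype σ] {Xv : σ → A} {F : A[X]} {Δ Γ u : A} {e a : ℕ} (hI : HasIface p Xv F Δ e)
    (hm : maximalIdeal A = Ideal.span (insert (p : A) (Set.range Xv)))
    (hu : IsUnit u) (h0 : F.coeff 0 - p ^ a * u ∈ Ideal.span (Set.range Xv))
    (hΓ : C Γ ∈ Ideal.span {F, derivative F})
    {T : Type u} [CommRing T] [IsLocalRing T] [Algebra A T] [Module.Finite A T] (θ : T)
    (hθ : aeval θ F = 0) (hker : ∀ H : A[X], aeval θ H = 0 → F ∣ H)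
    (hΔ : ∀ b : T, ∃ H : A[X], aeval θ H = Δ • b) {n0 : ℕ}
    (hred : maximalIdeal T ^ (n0 + 1) ≤
      Ideal.span (insert θ (Set.range fun j => algebraMap A T (Xv j))) * maximalIdeal T ^ n0)
    (hθm : θ ∈ maximalIdeal T) (hXm : ∀ j, algebraMap A T (Xv j) ∈ maximalIdeal T)
    (K : MC T) {g d : ℕ} (hgd : g + (d + 1) = Fintype.card σ + 1) (hL : K.Len g)
    (hent : K.Ent (maximalIdeal T)) (hsq : K.SqIn ⊥) (hnh : K.rowI ≤ K.nh ⊥)
    (y : Fin (d + 1) → σ) (j1 : σ) (hj : j1 ≠ y 0) {n t : ℕ} (hn : Fintype.card σ + 1 ≤ n)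
    (ht : maximalIdeal T ^ t ≤
      K.rowI ⊔ Ideal.span (Set.range fun i => algebraMap A T (Xv (y i)) ^ n))
    (hfin : Module.length A
      (T ⧸ (K.rowI ⊔ Ideal.span (Set.range fun i => algebraMap A T (Xv (y i)) ^ n))) ≠ ⊤) :
    ((a * n ^ (d + 1) : ℕ) : ℕ∞) ≤
      Module.length A
        (T ⧸ (K.rowI ⊔ Ideal.span (Set.range fun i => algebraMap A T (Xv (y i)) ^ n))) +
      F.natDegree * Module.length A
        (T ⧸ (K.rowI ⊔ Ideal.span (Set.range fun i => algebraMap A T (Xv (y i)) ^ n) ⊔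
          Ideal.span {algebraMap A T Γ})) := by
  have hlev := mcore_level hI hm hu h0 hΓ θ hθ hker hΔ hred hθm hXm K hgd hL hent hsq hnh y j1 hj
    hn ht hfin
  have hfin' : Module.length A
      (T ⧸ (K.rowI ⊔ Ideal.span (Set.range fun i => algebraMap A T (Xv (y i)) ^ n) ⊔
        Ideal.span {algebraMap A T Γ})) ≠ ⊤ := by
    refine ne_top_of_le_ne_top hfin ?_
    exact Module.length_le_of_surjective
      ((Ideal.Quotient.factorₐ A le_sup_left).toLinearMap)
      (Ideal.Quotient.factor_surjective le_sup_left)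
  obtain ⟨L, hLe⟩ := ENat.ne_top_iff_exists.1 hfin
  obtain ⟨L', hLe'⟩ := ENat.ne_top_iff_exists.1 hfin'
  rw [← hLe, ← hLe'] at hlev ⊢
  have hreal : ((a * n ^ (d + 1) : ℕ) : ℝ) ≤ ((L + F.natDegree * L' : ℕ) : ℝ) := by
    have h1 := (tendsto_aux (n0 + (Fintype.card σ + 1)) (Fintype.card σ) 0 hp.one_lt).const_mul
      ((a * n ^ (d + 1) : ℕ) : ℝ)
    rw [mul_one] at h1
    refine le_of_tendsto h1 ?_
    have h2 : ∀ᶠ k in Filter.atTop, n0 + (Fintype.card σ + 1) < p ^ k :=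
      (tendsto_pow_atTop_atTop_of_one_lt hp.one_lt).eventually_gt_atTop _
    filter_upwards [h2] with k hk
    have h3 := hlev k hk
    have h4 : a * n ^ (d + 1) * (p ^ k - (n0 + (Fintype.card σ + 1))) ^ (Fintype.card σ + 1) ≤
        (p ^ k) ^ (Fintype.card σ + 1) * (L + F.natDegree * L') := by
      have h5 : ((a * n ^ (d + 1) * (p ^ k - (n0 + (Fintype.card σ + 1))) ^ (Fintype.card σ + 1) :
          ℕ) : ℝ≥0∞) ≤ (((p ^ k) ^ (Fintype.card σ + 1) * (L + F.natDegree * L') : ℕ) : ℝ≥0∞) := by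
        refine h3.trans (le_of_eq ?_)
        simp
      exact_mod_cast h5
    have hpos : (0 : ℝ) < ((p ^ k : ℕ) : ℝ) ^ (Fintype.card σ + 1) := by
      have : 0 < p ^ k := by omega
      positivity
    rw [zero_mul, sub_zero, ← mul_div_assoc, div_le_iff₀ hpos, mul_comm _ (_ ^ _)]
    have h6 : ((a * n ^ (d + 1) * (p ^ k - (n0 + (Fintype.card σ + 1))) ^ (Fintype.card σ + 1) :
          ℕ) : ℝ) ≤ (((p ^ k) ^ (Fintype.card σ + 1) * (L + F.natDegree * L') : ℕ) : ℝ) := by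
      exact_mod_cast h4
    rw [Nat.cast_mul (a * n ^ (d + 1)), Nat.cast_pow (p ^ k - _), Nat.cast_mul ((p ^ k) ^ _),
      Nat.cast_pow (p ^ k)] at h6
    linarith
  have hnat : a * n ^ (d + 1) ≤ L + F.natDegree * L' := by exact_mod_cast hreal
  exact_mod_cast hnat

end Vale.Agent.P202
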