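import Vale.Agent.P202.MLen
import Vale.Agent.P202.Cx

/-! Complexes whose differential squares to zero only modulo the bottom (port of `Cx.lean`). -/

namespace Vale.Agent.P202

open scoped ENNReal

universe u

variable {S : Type u} [CommRing S] {E : Type u} [AddCommGroup E] [Module S E]
  {E' : Type u} [AddCommGroup E'] [Module S E'] (μ : RLen S)
  {d : E →ₗ[S] E} {F1 F2 F3 F' F'' : ℤ → Submodule S E}

theorem sq_of_comp (hd : d ∘ₗ d = 0) (F' F'' : ℤ → Submodule S E) : Sq d F' F'' := by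
  intro n x _
  rw [show d (d x) = 0 from LinearMap.congr_fun hd x]
  exact zero_mem _

theorem Sq.mono (h : Sq d F' F'') {G' G'' : ℤ → Submodule S E} (h1 : F' ≤ G') (h2 : G'' ≤ F'') :
    Sq d G' G'' :=
  fun n x hx => h1 _ (h n x (h2 n hx))

theorem Bc_le_Zc' (hd : Sq d F' F'') (h1 : IsCx d F') (h2 : IsCx d F'') (h : F' ≤ F'') (n : ℤ) :
    Bc d F' F'' n ≤ Zc d F' F'' n := by
  refine sup_le (le_inf (h n) (Submodule.map_le_iff_le_comap.1 (h1 n))) (le_inf ?_ ?_)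
  · simpa using h2 (n + 1)
  · rintro _ ⟨x, hx, rfl⟩
    have := hd (n + 1) x hx
    rwa [show n + 1 - 2 = n - 1 by ring] at this

/-- A three step filtration. -/
structure Tri (d : E →ₗ[S] E) (F1 F2 F3 : ℤ → Submodule S E) : Prop where
  sq : Sq d F1 F3
  h1 : IsCx d F1
  h2 : IsCx d F2
  h3 : IsCx d F3
  h12 : F1 ≤ F2
  h23 : F2 ≤ F3

/-- The long exact sequence, numerically. -/
theorem Tri.les (h : Tri d F1 F2 F3) :
    ∃ δ : ℤ → ℝ≥0∞,
      (∀ n, hr μ d F1 F2 n = δ (n + 1) + rr μ (Bc d F1 F3 n) (Zc d F1 F2 n)) ∧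
      (∀ n, hr μ d F1 F3 n =
        rr μ (Bc d F1 F3 n) (Zc d F1 F2 n) + rr μ (Bc d F2 F3 n) (Zc d F1 F3 n)) ∧
      (∀ n, hr μ d F2 F3 n = rr μ (Bc d F2 F3 n) (Zc d F1 F3 n) + δ n) := by
  obtain ⟨hd, h1, h2, h3, h12, h23⟩ := h
  have hdd : ∀ n, ∀ x ∈ F3 (n + 1), d (d x) ∈ F1 (n - 1) := fun n x hx => by
    have := hd (n + 1) x hx
    rwa [show n + 1 - 2 = n - 1 by ring] at this
  have h13 : F1 ≤ F3 := h12.trans h23
  have b12 := Bc_le_Zc' (hd.mono le_rfl h23) h1 h2 h12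
  have b13 := Bc_le_Zc' hd h1 h3 h13
  have b23 := Bc_le_Zc' (hd.mono h12 le_rfl) h2 h3 h23
  have bb : ∀ n, Bc d F1 F2 n ≤ Bc d F1 F3 n := fun n =>
    sup_le_sup_left (Submodule.map_mono (h23 _)) _
  have bb' : ∀ n, Bc d F1 F3 n ≤ Bc d F2 F3 n := fun n => sup_le_sup_right (h12 n) _
  have zz : ∀ n, Zc d F1 F2 n ≤ Zc d F1 F3 n := fun n => inf_le_inf_right _ (h23 n)
  have zz' : ∀ n, Zc d F1 F3 n ≤ Zc d F2 F3 n := fun n =>
    inf_le_inf_left _ (Submodule.comap_mono (h12 _))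
  refine ⟨fun n => rr μ (Bc d F1 F2 (n - 1)) (Bc d F1 F3 (n - 1) ⊓ Zc d F1 F2 (n - 1)),
    fun n => ?_, fun n => ?_, fun n => ?_⟩
  · simp only [add_sub_cancel_right]
    unfold hr
    rw [rr_add μ (le_inf (bb n) (b12 n)) inf_le_right, rr_inf]
  · unfold hr
    have e : Bc d F1 F3 n ⊔ Zc d F1 F2 n = Bc d F2 F3 n ⊓ Zc d F1 F3 n := by
      apply le_antisymm
      · exact sup_le (le_inf (bb' n) (b13 n))
          (le_inf (inf_le_left.trans le_sup_left) (zz n))
      · rintro x ⟨hx, hx3, hx1⟩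
        obtain ⟨a, ha, _, ⟨b, hb, rfl⟩, rfl⟩ := Submodule.mem_sup.1 hx
        rw [add_comm]
        refine Submodule.add_mem_sup (Submodule.mem_sup_right ⟨b, hb, rfl⟩) ⟨ha, ?_⟩
        have := sub_mem hx1 (hdd n b hb)
        simpa using this
    rw [rr_add μ (le_sup_left : _ ≤ Bc d F1 F3 n ⊔ Zc d F1 F2 n) (sup_le (b13 n) (zz n)),
      rr_sup, e, rr_inf]
  · unfold hr
    have e1 : Bc d F2 F3 n ⊔ Zc d F1 F3 n = (Bc d F1 F2 (n - 1)).comap d ⊓ Zc d F2 F3 n := by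
      apply le_antisymm
      · refine sup_le (le_inf ?_ (b23 n)) (le_inf ?_ (zz' n))
        · refine sup_le (fun a ha => ?_) ?_
          · exact Submodule.mem_sup_right ⟨a, by simpa using ha, rfl⟩
          · rintro _ ⟨b, hb, rfl⟩
            exact Submodule.mem_sup_left (hdd n b hb)
        · exact fun a ha => Submodule.mem_sup_left ha.2
      · rintro x ⟨hx, hx3, -⟩
        obtain ⟨a, ha, _, ⟨b, hb, rfl⟩, hab⟩ := Submodule.mem_sup.1 hx
        have hb' : b ∈ F2 n := by simpa using hb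
        have : x = b + (x - b) := by abel
        rw [this]
        refine Submodule.add_mem_sup (Submodule.mem_sup_left hb')
          ⟨sub_mem hx3 (h23 n hb'), ?_⟩
        have : d (x - b) = a := by rw [map_sub, ← hab]; abel
        simpa [this] using ha
    have e2 : Bc d F1 F2 (n - 1) ⊔ (Zc d F2 F3 n).map d =
        Bc d F1 F3 (n - 1) ⊓ Zc d F1 F2 (n - 1) := by
      apply le_antisymm
      · refine sup_le (le_inf (bb _) (b12 _)) ?_
        rintro _ ⟨z, ⟨hz3, hz2⟩, rfl⟩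
        exact ⟨Submodule.mem_sup_right ⟨z, by simpa using hz3, rfl⟩, hz2,
          hdd (n - 1) z (by simpa using hz3)⟩
      · rintro x ⟨hx, hx2, -⟩
        obtain ⟨a, ha, _, ⟨b, hb, rfl⟩, rfl⟩ := Submodule.mem_sup.1 hx
        refine Submodule.add_mem_sup (Submodule.mem_sup_left ha) ⟨b, ⟨by simpa using hb, ?_⟩, rfl⟩
        have := sub_mem hx2 (h12 _ ha)
        simpa using this
    rw [rr_add μ (le_sup_left : _ ≤ Bc d F2 F3 n ⊔ Zc d F1 F3 n) (sup_le (b23 n) (zz' n)),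
      rr_sup, e1, rr_inf, rr_map]
    beta_reduce
    rw [← e2, rr_sup]

theorem Tri.le_add (h : Tri d F1 F2 F3) (n : ℤ) :
    hr μ d F1 F3 n ≤ hr μ d F1 F2 n + hr μ d F2 F3 n := by
  obtain ⟨δ, a, b, c⟩ := h.les μ
  rw [a, b, c]
  exact add_le_add le_add_self le_self_add

theorem Tri.sub_le (h : Tri d F1 F2 F3) (n : ℤ) :
    hr μ d F1 F2 n ≤ hr μ d F1 F3 n + hr μ d F2 F3 (n + 1) := by
  obtain ⟨δ, a, b, c⟩ := h.les μ
  rw [a, b, c, add_comm (δ (n + 1))]
  exact add_le_add le_self_add le_add_self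

theorem Tri.quot_le (h : Tri d F1 F2 F3) (n : ℤ) :
    hr μ d F2 F3 n ≤ hr μ d F1 F3 n + hr μ d F1 F2 (n - 1) := by
  obtain ⟨δ, a, b, c⟩ := h.les μ
  rw [a, b, c, sub_add_cancel]
  exact add_le_add le_add_self le_self_add

theorem hr_eq_zero_of_exa (h : Exa d F' F'') (n : ℤ) : hr μ d F' F'' n = 0 := by
  exact rr_eq_zero_of_le μ (h n)

theorem hr_eq_zero_of_le (n : ℤ) (h : F'' n ≤ F' n) : hr μ d F' F'' n = 0 := by
  exact rr_eq_zero_of_le μ (inf_le_left.trans (h.trans le_sup_left))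

theorem Tri.exa (h : Tri d F1 F2 F3) (e12 : Exa d F1 F2) (e23 : Exa d F2 F3) : Exa d F1 F3 := by
  rintro n x ⟨hx, hx1⟩
  obtain ⟨a, ha, _, ⟨b, hb, rfl⟩, rfl⟩ := Submodule.mem_sup.1 (e23 n ⟨hx, h.h12 _ hx1⟩)
  have h1 : d (d b) ∈ F1 (n - 1) := by
    have := h.sq (n + 1) b hb
    rwa [show n + 1 - 2 = n - 1 by ring] at this
  have h2 : d a ∈ F1 (n - 1) := by
    have := sub_mem hx1 h1
    simpa using this
  have bb : Bc d F1 F2 n ≤ Bc d F1 F3 n := sup_le_sup_left (Submodule.map_mono (h.h23 _)) _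
  exact add_mem (bb (e12 n ⟨ha, h2⟩))
    (Submodule.mem_sup_right ⟨b, hb, rfl⟩)

theorem good_chi_of_zero (h : ∀ n, hr μ d F' F'' n = 0) :
    GoodR μ d F' F'' ∧ chiR μ d F' F'' = 0 := by
  refine ⟨⟨fun n => by simp [h], by simp [h]⟩, by simp [chiR, h]⟩

theorem Tri.good (h : Tri d F1 F2 F3) (g12 : GoodR μ d F1 F2) (g23 : GoodR μ d F2 F3) :
    GoodR μ d F1 F3 := by
  refine ⟨fun n => ne_top_of_le_ne_top (ENNReal.add_ne_top.2 ⟨g12.1 n, g23.1 n⟩)
    (h.le_add μ n), (g12.2.union g23.2).subset fun n hn => ?_⟩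
  by_contra hc
  simp only [Set.mem_union, Set.mem_setOf_eq, not_or, not_not] at hc
  have := h.le_add μ n
  rw [hc.1, hc.2] at this
  exact hn (by simpa using this)

theorem Tri.good_left (h : Tri d F1 F2 F3) (g13 : GoodR μ d F1 F3) (g23 : GoodR μ d F2 F3) :
    GoodR μ d F1 F2 := by
  refine ⟨fun n => ne_top_of_le_ne_top (ENNReal.add_ne_top.2 ⟨g13.1 n, g23.1 (n + 1)⟩)
    (h.sub_le μ n),
    (g13.2.union (g23.2.image (· - 1))).subset fun n hn => ?_⟩
  by_contra hc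
  simp only [Set.mem_union, Set.mem_setOf_eq, not_or, not_not, Set.mem_image, not_exists,
    not_and] at hc
  have := h.sub_le μ n
  have h0 : hr μ d F2 F3 (n + 1) = 0 := by
    by_contra h0
    exact hc.2 (n + 1) h0 (by simp)
  rw [hc.1, h0] at this
  exact hn (by simpa using this)

theorem Tri.good_right (h : Tri d F1 F2 F3) (g12 : GoodR μ d F1 F2) (g13 : GoodR μ d F1 F3) :
    GoodR μ d F2 F3 := by
  refine ⟨fun n => ne_top_of_le_ne_top (ENNReal.add_ne_top.2 ⟨g13.1 n, g12.1 (n - 1)⟩)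
    (h.quot_le μ n),
    (g13.2.union (g12.2.image (· + 1))).subset fun n hn => ?_⟩
  by_contra hc
  simp only [Set.mem_union, Set.mem_setOf_eq, not_or, not_not, Set.mem_image, not_exists,
    not_and] at hc
  have := h.quot_le μ n
  have h0 : hr μ d F1 F2 (n - 1) = 0 := by
    by_contra h0
    exact hc.2 (n - 1) h0 (by simp)
  rw [hc.1, h0] at this
  exact hn (by simpa using this)

theorem chiR_eq_sum (T : Finset ℤ) (h0 : ∀ n ∉ T, hr μ d F' F'' n = 0) :
    chiR μ d F' F'' =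
      ∑ n ∈ T, (((n.negOnePow : ℤˣ) : ℤ) : ℝ) * (hr μ d F' F'' n).toReal := by
  refine finsum_eq_sum_of_support_subset _ fun n hn => ?_
  by_contra hc
  exact hn (by simp [h0 n hc])

theorem chiR_eq_single (n0 : ℤ) (h0 : ∀ n, n ≠ n0 → hr μ d F' F'' n = 0) :
    chiR μ d F' F'' = (((n0.negOnePow : ℤˣ) : ℤ) : ℝ) * (hr μ d F' F'' n0).toReal := by
  rw [chiR_eq_sum μ {n0} (fun n hn => h0 n (by simpa using hn)), Finset.sum_singleton]

theorem Tri.chi_add (h : Tri d F1 F2 F3) (g12 : GoodR μ d F1 F2) (g23 : GoodR μ d F2 F3) :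
    chiR μ d F1 F3 = chiR μ d F1 F2 + chiR μ d F2 F3 := by
  obtain ⟨δ0, a0, b0, c0⟩ := h.les μ
  have tα : ∀ n, rr μ (Bc d F1 F3 n) (Zc d F1 F2 n) ≠ ⊤ := fun n =>
    ne_top_of_le_ne_top (g12.1 n) (by rw [a0]; exact le_add_self)
  have tβ : ∀ n, rr μ (Bc d F2 F3 n) (Zc d F1 F3 n) ≠ ⊤ := fun n =>
    ne_top_of_le_ne_top (g23.1 n) (by rw [c0]; exact le_self_add)
  have tδ : ∀ n, δ0 n ≠ ⊤ := fun n =>
    ne_top_of_le_ne_top (g23.1 n) (by rw [c0]; exact le_add_self)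
  set δ : ℤ → ℝ := fun n => (δ0 n).toReal with hδ
  set α : ℤ → ℝ := fun n => (rr μ (Bc d F1 F3 n) (Zc d F1 F2 n)).toReal with hα
  set β : ℤ → ℝ := fun n => (rr μ (Bc d F2 F3 n) (Zc d F1 F3 n)).toReal with hβ
  have fδ : (Function.support δ).Finite := g23.2.subset fun n hn h0 => by
    rw [c0, add_eq_zero] at h0
    exact hn (by simp [hδ, h0.2])
  have fα : (Function.support α).Finite := g12.2.subset fun n hn h0 => by
    rw [a0, add_eq_zero] at h0
    exact hn (by simp [hα, h0.2])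
  have fβ : (Function.support β).Finite := g23.2.subset fun n hn h0 => by
    rw [c0, add_eq_zero] at h0
    exact hn (by simp [hβ, h0.1])
  have a : ∀ n, (hr μ d F1 F2 n).toReal = δ (n + 1) + α n := fun n => by
    rw [a0, ENNReal.toReal_add (tδ _) (tα _)]
  have b : ∀ n, (hr μ d F1 F3 n).toReal = α n + β n := fun n => by
    rw [b0, ENNReal.toReal_add (tα _) (tβ _)]
  have c : ∀ n, (hr μ d F2 F3 n).toReal = β n + δ n := fun n => by
    rw [c0, ENNReal.toReal_add (tβ _) (tδ _)]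
  have fin : ∀ {f : ℤ → ℝ}, (Function.support f).Finite →
      (Function.support fun n : ℤ => (((n.negOnePow : ℤˣ) : ℤ) : ℝ) * f n).Finite := by
    intro f hf
    refine hf.subset fun n hn => ?_
    intro h0
    exact hn (by simp [h0])
  have fδ' : (Function.support fun n => δ (n + 1)).Finite :=
    (fδ.image (· - 1)).subset fun n hn => ⟨n + 1, hn, by simp⟩
  have shift : ∑ᶠ n : ℤ, (((n.negOnePow : ℤˣ) : ℤ) : ℝ) * δ (n + 1) =
      -∑ᶠ n : ℤ, (((n.negOnePow : ℤˣ) : ℤ) : ℝ) * δ n := by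
    rw [← finsum_neg_distrib, ← finsum_comp_equiv (Equiv.addRight (1 : ℤ))
      (f := fun n : ℤ => -((((n.negOnePow : ℤˣ) : ℤ) : ℝ) * δ n))]
    refine finsum_congr fun n => ?_
    simp [Int.negOnePow_succ]
  unfold chiR
  simp only [a, b, c, mul_add]
  rw [finsum_add_distrib (fin fα) (fin fβ), finsum_add_distrib (fin fδ') (fin fα),
    finsum_add_distrib (fin fβ) (fin fδ), shift]
  ring

theorem goodR_of_bounded (T : Finset ℤ) (h0 : ∀ n ∉ T, hr μ d F' F'' n = 0)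
    (h1 : ∀ n ∈ T, hr μ d F' F'' n ≠ ⊤) : GoodR μ d F' F'' := by
  refine ⟨fun n => ?_, T.finite_toSet.subset fun n hn => ?_⟩
  · by_cases hn : n ∈ T
    · exact h1 n hn
    · simp [h0 n hn]
  · by_contra hc
    exact hn (h0 n hc)

/-- Transfer along a map inducing an isomorphism of subquotient complexes, up to a shift `σ`
of degrees and a unit `c` in the differential. -/
theorem hr_transfer {d' : E' →ₗ[S] E'} {G' G'' : ℤ → Submodule S E'} (φ : E →ₗ[S] E') (σ : ℤ)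
    (c : Sˣ) (hF'' : IsCx d F'') (hG' : IsCx d' G')
    (hcomm : ∀ n, ∀ x ∈ F'' n, φ (d x) - (c : S) • d' (φ x) ∈ G' (n - 1 + σ))
    (hsurj : ∀ n, (F'' n).map φ ⊔ G' (n + σ) = G'' (n + σ))
    (hinj : ∀ n, F'' n ⊓ (G' (n + σ)).comap φ = F' n) (n : ℤ) :
    hr μ d F' F'' n = hr μ d' G' G'' (n + σ) := by
  have hi : ∀ n, ∀ x ∈ F'' n, (φ x ∈ G' (n + σ) ↔ x ∈ F' n) := by
    intro n x hx
    rw [← hinj n]
    exact ⟨fun h => ⟨hx, h⟩, fun h => h.2⟩
  have hF : ∀ n, F' n ≤ F'' n := fun n => by rw [← hinj n]; exact inf_le_left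
  have hdF : ∀ n, ∀ x ∈ F'' n, d x ∈ F'' (n - 1) := fun n x hx => hF'' n ⟨x, hx, rfl⟩
  have hdG : ∀ n, ∀ x ∈ G' n, d' x ∈ G' (n - 1) := fun n x hx => hG' n ⟨x, hx, rfl⟩
  have hunit : ∀ (N : Submodule S E') (y : E'), (c : S) • y ∈ N ↔ y ∈ N := fun N y =>
    N.smul_mem_iff_of_isUnit c.isUnit
  have e1 : (Bc d' G' G'' (n + σ)).comap φ ⊓ Zc d F' F'' n = Bc d F' F'' n ⊓ Zc d F' F'' n := by
    apply le_antisymm
    · rintro x ⟨hx, hxz⟩
      refine ⟨?_, hxz⟩
      obtain ⟨a, ha, _, ⟨b, hb, rfl⟩, hab⟩ := Submodule.mem_sup.1 hx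
      rw [show n + σ + 1 = n + 1 + σ by ring, ← hsurj] at hb
      obtain ⟨_, ⟨y, hy, rfl⟩, g, hg, rfl⟩ := Submodule.mem_sup.1 hb
      have hc := hcomm (n + 1) y hy
      rw [add_sub_cancel_right] at hc
      have hg' : d' g ∈ G' (n + σ) := by
        have := hdG _ g hg
        rwa [show n + 1 + σ - 1 = n + σ by ring] at this
      have hdy : d y ∈ F'' n := by simpa using hdF _ y hy
      have key : x - ((c⁻¹ : Sˣ) : S) • d y ∈ F' n := by
        rw [← hi n _ (sub_mem hxz.1 (Submodule.smul_mem _ _ hdy)), ← hunit]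
        have : (c : S) • φ (x - ((c⁻¹ : Sˣ) : S) • d y) =
            (c : S) • a + (c : S) • d' g - (φ (d y) - (c : S) • d' (φ y)) := by
          rw [map_sub, map_smul, ← hab, map_add, smul_sub, smul_smul, Units.mul_inv, one_smul,
            smul_add, smul_add]
          abel
        rw [this]
        exact sub_mem (add_mem (Submodule.smul_mem _ _ ha) (Submodule.smul_mem _ _ hg')) hc
      have : x = (x - ((c⁻¹ : Sˣ) : S) • d y) + d (((c⁻¹ : Sˣ) : S) • y) := by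
        rw [map_smul]; abel
      rw [this]
      exact Submodule.add_mem_sup key ⟨_, Submodule.smul_mem _ _ hy, rfl⟩
    · rintro x ⟨hx, hxz⟩
      refine ⟨?_, hxz⟩
      obtain ⟨a, ha, _, ⟨y, hy, rfl⟩, rfl⟩ := Submodule.mem_sup.1 hx
      have hc := hcomm (n + 1) y hy
      rw [add_sub_cancel_right] at hc
      have hy' : φ y ∈ G'' (n + σ + 1) := by
        rw [show n + σ + 1 = n + 1 + σ by ring, ← hsurj]
        exact Submodule.mem_sup_left ⟨y, hy, rfl⟩
      have : φ (a + d y) = (φ a + (φ (d y) - (c : S) • d' (φ y))) + d' ((c : S) • φ y) := by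
        rw [map_add, map_smul]; abel
      change φ (a + d y) ∈ Bc d' G' G'' (n + σ)
      rw [this]
      exact Submodule.add_mem_sup (add_mem ((hi n a (hF n ha)).2 ha) hc)
        ⟨_, Submodule.smul_mem _ _ hy', rfl⟩
  have e2 : Bc d' G' G'' (n + σ) ⊔ (Zc d F' F'' n).map φ =
      Bc d' G' G'' (n + σ) ⊔ Zc d' G' G'' (n + σ) := by
    apply le_antisymm
    · refine sup_le_sup_left ?_ _
      rintro _ ⟨x, ⟨hx, hx'⟩, rfl⟩
      refine ⟨by rw [← hsurj]; exact Submodule.mem_sup_left ⟨x, hx, rfl⟩, ?_⟩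
      change d' (φ x) ∈ G' (n + σ - 1)
      rw [show n + σ - 1 = n - 1 + σ by ring, ← hunit]
      have h1 := (hi _ _ (hdF n x hx)).2 hx'
      have := sub_mem h1 (hcomm n x hx)
      simpa using this
    · refine sup_le le_sup_left ?_
      rintro z ⟨hz, hz'⟩
      rw [← hsurj] at hz
      obtain ⟨_, ⟨x, hx, rfl⟩, g, hg, rfl⟩ := Submodule.mem_sup.1 hz
      rw [add_comm (φ x)]
      refine Submodule.add_mem_sup (Submodule.mem_sup_left hg) ⟨x, ⟨hx, ?_⟩, rfl⟩
      change d x ∈ F' (n - 1)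
      rw [← hi _ _ (hdF n x hx)]
      have h1 : d' (φ x) ∈ G' (n - 1 + σ) := by
        have h2 : d' (φ x + g) ∈ G' (n + σ - 1) := hz'
        have := sub_mem h2 (hdG _ g hg)
        rw [show n + σ - 1 = n - 1 + σ by ring] at this
        simpa using this
      have := add_mem (hcomm n x hx) (Submodule.smul_mem _ (c : S) h1)
      simpa using this
  unfold hr
  rw [← rr_inf, ← e1, rr_inf, rr_map, ← rr_sup, e2, rr_sup]

/-- The second isomorphism theorem. -/
theorem hr_inf_sup {F G : ℤ → Submodule S E} (hF : IsCx d F) (hG : IsCx d G) (n : ℤ) :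
    hr μ d (F ⊓ G) F n = hr μ d G (G ⊔ F) n := by
  have := hr_transfer μ (d := d) (d' := d) (F' := F ⊓ G) (F'' := F) (G' := G) (G'' := G ⊔ F)
    LinearMap.id 0 1 hF hG (fun n x _ => by simp) (fun n => by simp [sup_comm])
    (fun n => by simp) n
  simpa using this

theorem good_chi_of_hr_shift {d' : E' →ₗ[S] E'} {G' G'' : ℤ → Submodule S E'} (σ : ℤ)
    (h : ∀ n, hr μ d F' F'' n = hr μ d' G' G'' (n + σ)) :
    (GoodR μ d F' F'' ↔ GoodR μ d' G' G'') ∧
      chiR μ d F' F'' = (((σ.negOnePow : ℤˣ) : ℤ) : ℝ) * chiR μ d' G' G'' := by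
  refine ⟨⟨fun g => ⟨fun n => ?_, (g.2.image (· + σ)).subset fun n hn => ?_⟩,
    fun g => ⟨fun n => ?_, (g.2.image (· - σ)).subset fun n hn => ?_⟩⟩, ?_⟩
  · have := g.1 (n - σ)
    rwa [h, sub_add_cancel] at this
  · exact ⟨n - σ, by simpa [h] using hn, by simp⟩
  · rw [h]; exact g.1 _
  · exact ⟨n + σ, by simpa [h] using hn, by simp⟩
  · unfold chiR
    rw [mul_finsum, ← finsum_comp_equiv (Equiv.addRight σ) (f := fun n : ℤ =>
      (((σ.negOnePow : ℤˣ) : ℤ) : ℝ) *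
        ((((n.negOnePow : ℤˣ) : ℤ) : ℝ) * (hr μ d' G' G'' n).toReal))]
    refine finsum_congr fun n => ?_
    simp only [Equiv.coe_addRight, h, Int.negOnePow_add, Units.val_mul]
    rcases Int.units_eq_one_or σ.negOnePow with h | h <;> simp [h]

theorem good_chi_of_hr_mul {d' : E' →ₗ[S] E'} {G' G'' : ℤ → Submodule S E'} (k : ℕ)
    (h : ∀ n, hr μ d' G' G'' n = k * hr μ d F' F'' n) (g : GoodR μ d F' F'') :
    GoodR μ d' G' G'' ∧ chiR μ d' G' G'' = k * chiR μ d F' F'' := by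
  refine ⟨⟨fun n => ?_, g.2.subset fun n hn h0 => hn (by rw [h, h0, mul_zero])⟩, ?_⟩
  · rw [h]
    exact ENNReal.mul_ne_top (ENNReal.natCast_ne_top k) (g.1 n)
  · unfold chiR
    rw [mul_finsum]
    refine finsum_congr fun n => ?_
    rw [h, ENNReal.toReal_mul, ENNReal.toReal_natCast]
    ring

theorem chain_le_mcx (F : ℕ → ℤ → Submodule S E) (r : ℕ) (h : ∀ i < r, F i ≤ F (i + 1))
    {k : ℕ} (hk : k ≤ r) : F k ≤ F r := by
  induction hk with
  | refl => exact le_rfl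
  | step _ ih => exact (ih fun i hi => h i (by omega)).trans (h _ (by omega))

theorem hr_chain_le (F : ℕ → ℤ → Submodule S E) (r : ℕ) (hd : Sq d (F 0) (F r))
    (hF : ∀ i ≤ r, IsCx d (F i)) (h : ∀ i < r, F i ≤ F (i + 1)) (n : ℤ) :
    hr μ d (F 0) (F r) n ≤ ∑ i ∈ Finset.range r, hr μ d (F i) (F (i + 1)) n := by
  have key : ∀ k ≤ r, F 0 ≤ F k ∧
      hr μ d (F 0) (F k) n ≤ ∑ i ∈ Finset.range k, hr μ d (F i) (F (i + 1)) n := by
    intro k
    induction k with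
    | zero => intro _; exact ⟨le_rfl, by rw [hr_eq_zero_of_le μ n le_rfl]; exact zero_le⟩
    | succ k ih =>
      intro hk
      obtain ⟨a, b⟩ := ih (by omega)
      refine ⟨a.trans (h k (by omega)), ?_⟩
      rw [Finset.sum_range_succ]
      exact (Tri.le_add μ ⟨hd.mono le_rfl (chain_le_mcx F r h hk), hF 0 (by omega),
        hF k (by omega), hF _ hk, a, h k (by omega)⟩ n).trans (add_le_add b le_rfl)
  exact (key r le_rfl).2

theorem good_chiR_chain (F : ℕ → ℤ → Submodule S E) (r : ℕ) (hd : Sq d (F 0) (F r))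
    (hF : ∀ i ≤ r, IsCx d (F i)) (h : ∀ i < r, F i ≤ F (i + 1))
    (hg : ∀ i < r, GoodR μ d (F i) (F (i + 1))) :
    GoodR μ d (F 0) (F r) ∧
      chiR μ d (F 0) (F r) = ∑ i ∈ Finset.range r, chiR μ d (F i) (F (i + 1)) := by
  have key : ∀ k ≤ r, F 0 ≤ F k ∧ GoodR μ d (F 0) (F k) ∧
      chiR μ d (F 0) (F k) = ∑ i ∈ Finset.range k, chiR μ d (F i) (F (i + 1)) := by
    intro k
    induction k with
    | zero =>
      intro _
      have e := good_chi_of_zero μ (d := d) (F' := F 0) (F'' := F 0)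
        fun n => hr_eq_zero_of_le μ n le_rfl
      exact ⟨le_rfl, e.1, by simpa using e.2⟩
    | succ k ih =>
      intro hk
      obtain ⟨a, b, c⟩ := ih (by omega)
      have t : Tri d (F 0) (F k) (F (k + 1)) := ⟨hd.mono le_rfl (chain_le_mcx F r h hk),
        hF 0 (by omega), hF k (by omega), hF _ hk, a, h k (by omega)⟩
      refine ⟨a.trans (h k (by omega)), t.good μ b (hg k (by omega)), ?_⟩
      rw [Finset.sum_range_succ, ← c]
      exact t.chi_add μ b (hg k (by omega))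
  exact (key r le_rfl).2

end Vale.Agent.P202
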