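import Vale.Agent.P202.Defs2

/-! Definitions for the mixed characteristic case. See notes P202 Blueprint, part M. -/

namespace Vale.Agent.P202

open IsLocalRing TensorProduct
open scoped ENNReal

universe u

noncomputable section

/-- An additive `ℝ≥0∞`-valued invariant of modules. -/
structure RLen (S : Type u) [CommRing S] where
  len : ∀ (M : Type u) [AddCommGroup M] [Module S M], ℝ≥0∞
  add_of_exact : ∀ {N M P : Type u} [AddCommGroup N] [Module S N] [AddCommGroup M] [Module S M]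
    [AddCommGroup P] [Module S P] (f : N →ₗ[S] M) (g : M →ₗ[S] P), Function.Injective f →
    Function.Surjective g → Function.Exact f g → len M = len N + len P
  zero : ∀ (M : Type u) [AddCommGroup M] [Module S M] [Subsingleton M], len M = 0

/-- The colength of an ideal. -/
abbrev RLen.q {S : Type u} [CommRing S] (μ : RLen S) (I : Ideal S) : ℝ≥0∞ := μ.len (S ⧸ I)

section complexes

variable {S : Type u} [CommRing S] {E : Type u} [AddCommGroup E] [Module S E]

/-- The size of the subquotient `(A ⊔ B) / A`. -/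
def rr (μ : RLen S) (A B : Submodule S E) : ℝ≥0∞ := μ.len (B.map A.mkQ)

/-- Size of the `n`-th homology of `F'' / F'`. -/
def hr (μ : RLen S) (d : E →ₗ[S] E) (F' F'' : ℤ → Submodule S E) (n : ℤ) : ℝ≥0∞ :=
  rr μ (Bc d F' F'' n) (Zc d F' F'' n)

/-- `d ∘ d` maps `F''` into `F'`. -/
def Sq (d : E →ₗ[S] E) (F' F'' : ℤ → Submodule S E) : Prop :=
  ∀ n, ∀ x ∈ F'' n, d (d x) ∈ F' (n - 2)

/-- The total homology of `F'' / F'` has finite size. -/
def GoodR (μ : RLen S) (d : E →ₗ[S] E) (F' F'' : ℤ → Submodule S E) : Prop :=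
  (∀ n, hr μ d F' F'' n ≠ ⊤) ∧ {n | hr μ d F' F'' n ≠ 0}.Finite

/-- Euler characteristic of `F'' / F'`. -/
def chiR (μ : RLen S) (d : E →ₗ[S] E) (F' F'' : ℤ → Submodule S E) : ℝ :=
  ∑ᶠ n : ℤ, (((n.negOnePow : ℤˣ) : ℤ) : ℝ) * (hr μ d F' F'' n).toReal

/-- The bottom complex with level function `lam`. -/
def Qb (d : E →ₗ[S] E) (X : ℤ → ℤ → Submodule S E) (lam : ℤ → ℤ) (n : ℤ) : Submodule S E :=
  X (lam n) n ⊔ (X (lam (n + 1)) (n + 1)).map d

/-- The standard level function. -/
def lv (M hi c n : ℤ) : ℤ := c + 2 * M * (hi + 2 - n)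

end complexes

section regular

variable {B : Type u} [CommRing B]

/-- A regular sequence. -/
def RegSeq {n : ℕ} (x : Fin n → B) : Prop :=
  ∀ i z, x i * z ∈ Ideal.span (x '' Set.Iio i) → z ∈ Ideal.span (x '' Set.Iio i)

/-- A sequence that is regular in every order. -/
def PermReg {ι : Type} (x : ι → B) : Prop :=
  ∀ (T : Set ι) (i : ι), i ∉ T → ∀ z, x i * z ∈ Ideal.span (x '' T) → z ∈ Ideal.span (x '' T)

/-- A quasi-regular sequence. -/
def QReg {n : ℕ} (x : Fin n → B) : Prop :=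
  ReesI x ≤ (Ideal.span (Set.range x)).map (MvPolynomial.C : B →+* MvPolynomial (Fin n) B)

end regular

/-- A finite graded matrix complex with one generator in degree zero. The square of the
differential is not required to vanish. -/
structure MC (B : Type u) [CommRing B] where
  ι : Type
  [fin : Fintype ι]
  [dec : DecidableEq ι]
  deg : ι → ℕ
  mat : Matrix ι ι B
  o : ι
  deg_o : ∀ a, deg a = 0 ↔ a = o
  hom : ∀ a b, mat a b ≠ 0 → deg b = deg a + 1

attribute [instance] MC.fin MC.dec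

namespace MC

variable {B : Type u} [CommRing B] (K : MC B)

/-- All degrees are at most `L`. -/
def Len (L : ℕ) : Prop := ∀ a, K.deg a ≤ L

/-- All entries lie in `I`. -/
def Ent (I : Ideal B) : Prop := ∀ a b, K.mat a b ∈ I

/-- The square of the differential has entries in `I`. -/
def SqIn (I : Ideal B) : Prop := ∀ a b, (K.mat * K.mat) a b ∈ I

/-- The ideal presenting the zeroth homology. -/
def rowI : Ideal B := Ideal.span (Set.range fun b => K.mat K.o b)

/-- The rank in degree `i`. -/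
def rk (i : ℕ) : ℕ := (Finset.univ.filter fun a => K.deg a = i).card

/-- Elements that act null-homotopically modulo `I`. -/
def nh (I : Ideal B) : Ideal B where
  carrier := {z | ∃ h : Matrix K.ι K.ι B, (∀ a b, h a b ≠ 0 → K.deg a = K.deg b + 1) ∧
    ∀ a b, (K.mat * h + h * K.mat - z • (1 : Matrix K.ι K.ι B)) a b ∈ I}
  zero_mem' := ⟨0, by simp, by simp⟩
  add_mem' := by
    rintro z z' ⟨h, h1, h2⟩ ⟨h', h1', h2'⟩
    refine ⟨h + h', fun a b hab => ?_, fun a b => ?_⟩
    · by_contra hne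
      have e1 : h a b = 0 := by_contra fun h0 => hne (h1 a b h0)
      have e2 : h' a b = 0 := by_contra fun h0 => hne (h1' a b h0)
      exact hab (by simp [e1, e2])
    · have : K.mat * (h + h') + (h + h') * K.mat - (z + z') • (1 : Matrix K.ι K.ι B) =
          (K.mat * h + h * K.mat - z • (1 : Matrix K.ι K.ι B)) +
            (K.mat * h' + h' * K.mat - z' • (1 : Matrix K.ι K.ι B)) := by
        rw [mul_add, add_mul, add_smul]
        abel
      rw [this, Matrix.add_apply]
      exact I.add_mem (h2 a b) (h2' a b)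
  smul_mem' := by
    rintro c z ⟨h, h1, h2⟩
    refine ⟨c • h, fun a b hab => h1 a b fun h0 => hab (by simp [h0]), fun a b => ?_⟩
    have : K.mat * (c • h) + (c • h) * K.mat - (c • z) • (1 : Matrix K.ι K.ι B) =
        c • (K.mat * h + h * K.mat - z • (1 : Matrix K.ι K.ι B)) := by
      rw [Matrix.mul_smul, Matrix.smul_mul, smul_sub, smul_add, smul_assoc]
    rw [this, Matrix.smul_apply]
    exact I.mul_mem_left c (h2 a b)

/-- The mapping cone of multiplication by `y`. -/
def cone (y : B) : MC B where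
  ι := K.ι ⊕ K.ι
  deg := Sum.elim K.deg fun a => K.deg a + 1
  mat := Matrix.fromBlocks K.mat (y • (1 : Matrix K.ι K.ι B)) 0 (-K.mat)
  o := Sum.inl K.o
  deg_o := by
    rintro (a | a)
    · simpa using K.deg_o a
    · simp
  hom := by
    rintro (a | a) (b | b) h
    · exact K.hom a b h
    · have : a = b := by
        by_contra hne
        exact h (by simp [Matrix.one_apply_ne hne])
      simp [this]
    · exact absurd rfl h
    · have := K.hom a b (by simpa using h)
      simp [this]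

/-- The iterated cone. -/
def kos (K : MC B) : List B → MC B
  | [] => K
  | y :: l => (kos K l).cone y

/-- Entrywise image under a map preserving zero. -/
def mapF {B' : Type u} [CommRing B'] (τ : B → B') (h0 : τ 0 = 0) : MC B' where
  ι := K.ι
  deg := K.deg
  mat := K.mat.map τ
  o := K.o
  deg_o := K.deg_o
  hom a b h := K.hom a b fun h1 => h (by simp [h1, h0])

variable (E : Type u) [AddCommGroup E] [Module B E]

/-- A matrix acting on vectors with entries in `E`. -/
def act (A : Matrix K.ι K.ι B) : (K.ι → E) →ₗ[B] (K.ι → E) :=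
  LinearMap.pi fun a => ∑ b, A a b • (LinearMap.proj b : (K.ι → E) →ₗ[B] E)

variable {E}

/-- The signed coefficient differential. -/
def sg (δ : E →ₗ[B] E) : (K.ι → E) →ₗ[B] (K.ι → E) :=
  LinearMap.pi fun a => (((-1 : ℤ) ^ K.deg a : ℤ) : B) •
    (δ ∘ₗ (LinearMap.proj a : (K.ι → E) →ₗ[B] E))

/-- The total differential of `K ⊗ E`. -/
def dt (δ : E →ₗ[B] E) : (K.ι → E) →ₗ[B] (K.ι → E) := K.sg δ + K.act E K.mat

/-- The total complex with coefficient complex `G i` in degree `i`. -/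
def T (G : ℕ → ℤ → Submodule B E) (n : ℤ) : Submodule B (K.ι → E) :=
  Submodule.pi Set.univ fun a => G (K.deg a) (n - K.deg a)

end MC

section geo

variable {B : Type u} [CommRing B] {m : ℕ} {E : Type u} [AddCommGroup E] [Module B E]

/-- Sections of `I^s O(a)` on the chart `J`. -/
def DG (φ : ℤ → Lau B m →ₗ[B] E) (a : Fin m → ℤ) (s : ℤ) (J : Fin m → Ch) : Submodule B E :=
  (Cm B (sh a s) J).map (φ s)

/-- The abstract properties of the blow-up of a quasi-regular sequence. -/
structure Geo (ξ : Fin (m + 1) → B) (φ : ℤ → Lau B m →ₗ[B] E) : Prop where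
  rel : ∀ s i v, φ (s + 1) (ee B m i * v) = ξ i • φ s v
  succ : ∀ a s J, DG φ a (s + 1) J = Ideal.span (Set.range ξ) • DG φ a s J
  ker : ∀ a s J, ∀ v ∈ Cm B (sh a s) J, φ s v ∈ DG φ a (s + 1) J →
    v ∈ Ideal.span (Set.range ξ) • Cm B (sh a s) J
  unit : ∀ J (N : ℕ), ∃ g : Fin (m + 1) → E →ₗ[B] E, (∀ v, ∑ i, ξ i ^ N • g i v = v) ∧
    ∀ i a s, ∀ v ∈ DG φ a (s + N) J, g i v ∈ DG φ a s J

/-- Global sections. -/
def VG (φ : ℤ → Lau B m →ₗ[B] E) (a : Fin m → ℤ) (s : ℤ) : Submodule B ((Fin m → Ch) → E) :=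
  Cech (DG φ a s) 0 ⊓ LinearMap.ker (cd B m E)

/-- Global sections as a complex in degree zero. -/
def VF (φ : ℤ → Lau B m →ₗ[B] E) (a : Fin m → ℤ) (s n : ℤ) : Submodule B ((Fin m → Ch) → E) :=
  if n = 0 then VG φ a s else ⊥

/-- The Ulrich multidegree. -/
def a0 (m : ℕ) : Fin m → ℤ := fun j => (j : ℕ)

/-- The complex `K ⊗ I^lam O(a)`. -/
abbrev XG (K : MC B) (φ : ℤ → Lau B m →ₗ[B] E) (a : Fin m → ℤ) (lam : ℕ → ℤ) :
    ℤ → Submodule B (K.ι → (Fin m → Ch) → E) :=
  K.T fun i => Cech (DG φ a (lam i))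

/-- The complex `K ⊗ (I^s O(a') + O(a))`. -/
abbrev CG (K : MC B) (φ : ℤ → Lau B m →ₗ[B] E) (a a' : Fin m → ℤ) (s : ℤ) :
    ℤ → Submodule B (K.ι → (Fin m → Ch) → E) :=
  K.T fun _ => Cech fun J => DG φ a' s J ⊔ DG φ a 0 J

/-- The size of `V / (r V + V_l)` for the Ulrich bundle. -/
def h0 (μ : RLen B) (φ : ℤ → Lau B m →ₗ[B] E) (r : Ideal B) (l : ℤ) : ℝ≥0∞ :=
  rr μ (r • VG φ (a0 m) 0 ⊔ VG φ (a0 m) l) (VG φ (a0 m) 0)

/-- The hypotheses on the matrix complex. -/
structure HK (K : MC B) (ξ : Fin (m + 1) → B) (κ : B) (N t : ℕ) (𝔡 : Ideal B) : Prop where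
  len : K.Len (m + 1)
  ent : K.Ent (Ideal.span (Set.range ξ) ^ N)
  sq : K.SqIn 𝔡
  nh : ∃ c : ℕ, ∀ j, κ ^ c * ξ j ^ t ∈ K.nh 𝔡

/-- The largest level that is used. -/
def Lmax (m t : ℕ) : ℕ := (m + 1) * t * (4 * m + 14)

/-- The depth of the truncation that is needed. -/
def Mb (m N t : ℕ) : ℕ := (m + 1) * N + (m + 1) * t + Lmax m t

end geo

/-- An almost ring homomorphism modulo `𝔡`. -/
structure AH {A T B : Type u} [CommRing A] [CommRing T] [CommRing B] [Algebra A T]
    (α : A →+* B) (θ : T) (θ' κ : B) (𝔡 : Ideal B) (τ : T → B) : Prop where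
  zero : τ 0 = 0
  one : τ 1 - κ ∈ 𝔡
  add : ∀ b b', τ (b + b') - (τ b + τ b') ∈ 𝔡
  smul : ∀ a b, τ (a • b) - α a * τ b ∈ 𝔡
  theta : ∀ b, τ (θ * b) - θ' * τ b ∈ 𝔡
  mul : ∀ b b', τ b * τ b' - κ * τ (b * b') ∈ 𝔡

/-- `H` is integral over `(Δ)` modulo `F`. -/
def IntOver {A : Type u} [CommRing A] (F : Polynomial A) (Δ : A) (H : Polynomial A) : Prop :=
  ∃ (n : ℕ) (c : ℕ → A), F ∣ H ^ n +
    ∑ j ∈ Finset.range n, Polynomial.C (c j * Δ ^ (n - j)) * H ^ j

/-- The interface between the perfectoid construction and the homological argument. -/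
structure Iface (p : ℕ) {A : Type u} [CommRing A] {σ : Type} [Fintype σ] (Xv : σ → A)
    (F : Polynomial A) (Δ : A) (𝓗 : Finset (Polynomial A)) (e q γ : ℕ) (ε : ℝ≥0∞)
    (B : Type u) [CommRing B] (μ : RLen B) (α : A →+* B) (w : Option σ → B)
    (ζ : Fin F.natDegree → B) (κ : B) : Prop where
  w0 : w none ^ q = p
  wX : ∀ j, w (some j) ^ q = α (Xv j)
  reg : PermReg w
  split : ∀ n, (F.map α - ∏ i, (Polynomial.X - Polynomial.C (ζ i ^ q))).coeff n ∈
    Ideal.span {(p : B) ^ γ}
  jac : ∀ b : B, IsUnit (1 - p * b)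
  one : μ.q (Ideal.span (insert (p : B) (Set.range fun j => α (Xv j)))) = 1
  rc : ∀ i (b : B) (r : ℕ),
    b ^ q ∈ Ideal.span (insert (ζ i ^ q) (Set.range fun j => α (Xv j))) ^ r →
      b ∈ Ideal.span (insert (ζ i) (Set.range fun j => w (some j))) ^ (r - (Fintype.card σ + 1))
  colon : ∀ (n : ℕ) (z : B), α Δ * z ∈ Ideal.span {(p : B) ^ (n + e)} →
    z ∈ Ideal.span {(p : B) ^ n}
  div : ∀ i, ∀ H ∈ 𝓗, κ * H.eval₂ α (ζ i ^ q) ∈ Ideal.span {α Δ, (p : B) ^ γ}
  small : μ.q (Ideal.span (insert κ (insert (p : B) (Set.range fun j => α (Xv j))))) ≤ ε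

section perfectoid

variable (p : ℕ) [Fact p.Prime]

/-- The untilt `W(P) / (p - [t])`. -/
abbrev Unt {P : Type u} [CommRing P] (t : P) : Type u :=
  WittVector p P ⧸ Ideal.span {(p : WittVector p P) - WittVector.teichmuller p t}

/-- The multiplicative map `x ↦ x^♯`. -/
def shp {P : Type u} [CommRing P] (t : P) : P →* Unt p t :=
  (Ideal.Quotient.mk _ : WittVector p P →+* Unt p t).toMonoidHom.comp (WittVector.teichmuller p)

/-- The `p^k`-th root in a perfect ring. -/
def rt (P : Type u) [CommRing P] [CharP P p] [PerfectRing P p] (k : ℕ) : P ≃+* P :=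
  (iterateFrobeniusEquiv P p k).symm

/-- Functoriality of the untilt. -/
def Unt.map {P P' : Type u} [CommRing P] [CommRing P'] (f : P →+* P') {t : P} {t' : P'}
    (h : f t = t') : Unt p t →+* Unt p t' :=
  Ideal.quotientMap _ (WittVector.map f) (by
    rw [Ideal.span_le, Set.singleton_subset_iff, SetLike.mem_coe, Ideal.mem_comap, map_sub,
      map_natCast, WittVector.map_teichmuller, h]
    exact Ideal.subset_span rfl)

/-- Every finite subset of the target lies in the span of `ν` elements. -/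
def FGb {P P' : Type u} [CommRing P] [CommRing P'] (f : P →+* P') (ν : ℕ) : Prop :=
  ∀ s : Finset P', ∃ w : Fin ν → P', ∀ x ∈ s, ∃ c : Fin ν → P, x = ∑ i, f (c i) * w i

/-- A good cover of perfect rings. -/
structure Cover {P P' : Type u} [CommRing P] [CommRing P'] (f : P →+* P') : Prop where
  ff : f.FaithfullyFlat
  int : f.IsIntegral
  fg : ∃ ν, FGb f ν

/-- The filtration with real exponents attached to a compatible system of roots. -/
def Fl {R : Type u} [CommRing R] {ι : Type} (v : ℕ → ι → R) (ρ : ℝ) : Ideal R :=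
  ⨆ (e : ℕ) (r : ℕ) (_ : ρ * (p : ℝ) ^ e ≤ r), Ideal.span (Set.range (v e)) ^ r

end perfectoid

/-- `b` is bounded by `g` and `h` in all valuations. -/
def VLe {B : Type u} [CommRing B] (b g h : B) : Prop :=
  ∀ (Γ : Type u) [LinearOrderedCommGroupWithZero Γ] (v : Valuation B Γ), (∀ x, v x ≤ 1) →
    v b ≤ max (v g) (v h)

/-- The normalized colength function of `J`. -/
def HJ (A : Type u) [CommRing A] [IsLocalRing A] (J : Ideal A) (d n : ℕ) : ℝ :=
  (d.factorial : ℝ) * ((Module.length A (A ⧸ (J ⊔ maximalIdeal A ^ n))).toNat : ℝ) / (n : ℝ) ^ d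

/-- The upper multiplicity of `A / J` is at most `a`. -/
def Up (A : Type u) [CommRing A] [IsLocalRing A] (J : Ideal A) (d : ℕ) (a : ℝ) : Prop :=
  ∀ ε : ℝ, 0 < ε → ∀ᶠ n in Filter.atTop, HJ A J d n ≤ a + ε

/-- The lower multiplicity of `A / J` is at least `a`. -/
def Low (A : Type u) [CommRing A] [IsLocalRing A] (J : Ideal A) (d : ℕ) (a : ℝ) : Prop :=
  ∀ ε : ℝ, 0 < ε → ∀ᶠ n in Filter.atTop, a - ε ≤ HJ A J d n

end

end Vale.Agent.P202
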