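import Vale.Agent.P202.Final

/-! Growth estimates. -/

namespace Vale.Agent.P202

open IsLocalRing Filter Topology

universe u

variable {S : Type u} [CommRing S] [IsLocalRing S] [IsNoetherianRing S]

theorem length_pow_le_of_dim_le {d : ℕ} (hd : ringKrullDim S ≤ d) :
    ∃ C : ℕ, ∀ n : ℕ, Module.length S (S ⧸ maximalIdeal S ^ n) ≤ C * ((n : ℕ∞) + 1) ^ d := by
  obtain ⟨d0, h0⟩ := LC.exists_dim S
  have h1 : d0 ≤ d := by
    rw [h0] at hd
    exact_mod_cast hd
  obtain ⟨C, hC⟩ := length_pow_le_of_dim h0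
  refine ⟨C, fun n => (hC n).trans ?_⟩
  have h2 : C * n ^ d0 ≤ C * (n + 1) ^ d := Nat.mul_le_mul_left _
    ((Nat.pow_le_pow_left (Nat.le_succ n) _).trans (Nat.pow_le_pow_right (Nat.succ_pos n) h1))
  exact_mod_cast h2

theorem isMult_zero_of_lt {d : ℕ} (hd : ringKrullDim S < d) :
    IsMult S (maximalIdeal S) d 0 := by
  obtain ⟨d0, h0⟩ := LC.exists_dim S
  have h1 : d0 < d := by
    rw [h0] at hd
    exact_mod_cast hd
  obtain ⟨C, hC⟩ := length_pow_le_of_dim h0
  refine squeeze_zero' (Eventually.of_forall fun n => by unfold HS; positivity) ?_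
    (tendsto_const_div_atTop_nhds_zero_nat ((d.factorial : ℝ) * C))
  filter_upwards [eventually_gt_atTop 0] with n hn
  have h2 : (Module.length S (S ⧸ maximalIdeal S ^ n)).toNat ≤ C * n ^ d0 :=
    ENat.toNat_le_of_le_natCast (by exact_mod_cast hC n)
  have h3 : (Module.length S (S ⧸ maximalIdeal S ^ n)).toNat * n ≤ C * n ^ d :=
    calc _ ≤ C * n ^ d0 * n := Nat.mul_le_mul_right _ h2
      _ = C * n ^ (d0 + 1) := by ring
      _ ≤ _ := Nat.mul_le_mul_left _ (Nat.pow_le_pow_right hn h1)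
  have h4 : ((Module.length S (S ⧸ maximalIdeal S ^ n)).toNat : ℝ) * n ≤ C * (n : ℝ) ^ d := by
    exact_mod_cast h3
  have hn' : (0 : ℝ) < n := by exact_mod_cast hn
  rw [HS, div_le_div_iff₀ (by positivity) hn', mul_assoc, mul_assoc]
  exact mul_le_mul_of_nonneg_left h4 (by positivity)

theorem exists_isMult_of_le {d : ℕ} (hd : ringKrullDim S ≤ d) :
    ∃ e : ℝ, IsMult S (maximalIdeal S) d e := by
  rcases hd.lt_or_eq with h | h
  · exact ⟨0, isMult_zero_of_lt h⟩
  · exact exists_isMult S h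

theorem quot_le_mlim {c : S} (hc : c ∈ nonZeroDivisors S) {d : ℕ}
    (hd : ringKrullDim S ≤ (d + 1 : ℕ)) : ∃ C : ℕ, ∀ n : ℕ,
      Module.length S (S ⧸ (Ideal.span {c} ⊔ maximalIdeal S ^ n)) ≤ C * ((n : ℕ∞) + 1) ^ d := by
  by_cases h3 : Ideal.span {c} = ⊤
  · refine ⟨0, fun n => ?_⟩
    rw [h3, top_sup_eq]
    simp [Module.length_eq_zero]
  have : Nontrivial (S ⧸ Ideal.span {c}) := Ideal.Quotient.nontrivial_iff.2 h3
  have : IsLocalRing (S ⧸ Ideal.span {c}) :=
    IsLocalRing.of_surjective' _ Ideal.Quotient.mk_surjective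
  obtain ⟨d0, h0⟩ := LC.exists_dim (S ⧸ Ideal.span {c})
  have h1 := (ringKrullDim_quotient_succ_le_of_nonZeroDivisor hc).trans hd
  rw [h0] at h1
  have h2 : d0 + 1 ≤ d + 1 := by exact_mod_cast h1
  obtain ⟨C, hC⟩ := length_pow_le_of_dim_le (S := S ⧸ Ideal.span {c}) (d := d)
    (by rw [h0]; exact_mod_cast (by omega : d0 ≤ d))
  refine ⟨C, fun n => ?_⟩
  have h4 := hC n
  rw [← map_maximalIdeal_of_surjective (algebraMap S (S ⧸ Ideal.span {c}))
    Ideal.Quotient.mk_surjective, ← Ideal.map_pow, pr_length_quot Ideal.Quotient.mk_surjective,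
    Ideal.Quotient.algebraMap_eq, Ideal.mk_ker, rl_top, sup_comm] at h4
  exact h4

theorem grow_of_dim_le [IsDomain S] {d : ℕ} (hd : ringKrullDim S ≤ d) : Grow S d := by
  intro c hc
  have hc' : c ∈ nonZeroDivisors S := mem_nonZeroDivisors_of_ne_zero hc
  cases d with
  | zero =>
    refine ⟨0, fun j => ?_⟩
    have h1 := (ringKrullDim_quotient_succ_le_of_nonZeroDivisor hc').trans hd
    have h2 : Ideal.span {c} = ⊤ := by
      by_contra h3
      have : Nontrivial (S ⧸ Ideal.span {c}) := Ideal.Quotient.nontrivial_iff.2 h3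
      have h4 := (add_le_add (ringKrullDim_nonneg_of_nontrivial (R := S ⧸ Ideal.span {c}))
        (le_refl 1)).trans h1
      norm_num at h4
    rw [h2, top_sup_eq]
    simp [Module.length_eq_zero]
  | succ d =>
    obtain ⟨C, hC⟩ := quot_le_mlim hc' hd
    refine ⟨C * 2 ^ d, fun j => ?_⟩
    rcases Nat.eq_zero_or_pos j with rfl | hj
    · simp
    refine (mul_le_mul_left (hC j) _).trans ?_
    have h2 : C * (j + 1) ^ d * j ≤ C * 2 ^ d * j ^ (d + 1) := by
      have h3 : (j + 1) ^ d ≤ (2 * j) ^ d := Nat.pow_le_pow_left (by omega) d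
      calc C * (j + 1) ^ d * j ≤ C * (2 * j) ^ d * j := by gcongr
        _ = _ := by ring
    exact_mod_cast h2

/-- From the bound for all powers of the parameters to the multiplicity. -/
theorem le_mult_of_frob {d : ℕ} {y : Fin (d + 1) → S} (hy : IsRed y)
    (hd : ringKrullDim S = (d + 1 : ℕ)) {Γ : S} (hΓ : Γ ∈ nonZeroDivisors S) {a s n0 : ℕ}
    (h : ∀ n, n0 ≤ n → ((a * n ^ (d + 1) : ℕ) : ℕ∞) ≤
      Module.length S (S ⧸ Ideal.span (Set.range fun i => y i ^ n)) +
        s * Module.length S (S ⧸ (Ideal.span (Set.range fun i => y i ^ n) ⊔ Ideal.span {Γ})))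
    {e : ℝ} (he : IsMult S (maximalIdeal S) (d + 1) e) : (a : ℝ) ≤ e := by
  obtain ⟨t, ht⟩ := hy.isSop.2
  obtain ⟨hy1, n1, hy2⟩ := hy
  obtain ⟨r, c, f, hch⟩ := exists_chain y ht
  have h1 := tendsto_HS_of_reduction (Ideal.span_le.2 (Set.range_subset_iff.2 hy1)) hy2 ht
    (tendsto_HS hch)
  rw [tendsto_nhds_unique he h1]
  obtain ⟨C, hC⟩ := length_frob_le hch
  obtain ⟨C', hC'⟩ := quot_le_mlim hΓ hd.le
  generalize eChain y r c f = e' at hC ⊢
  set K := C + s * (C' * (t * (d + 1) + 1) ^ d) with hK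
  have key : ∀ n, n0 ≤ n → 0 < n → a * n ≤ e' * n + K := by
    intro n hn hn0
    have h2 : maximalIdeal S ^ (t * ((d + 1) * n)) ≤ Ideal.span (Set.range fun i => y i ^ n) :=
      (ra_pow_le ht _).trans (hs_pow_le_frob y n)
    have h3 := (ra_len_anti (A := S) (sup_le (le_sup_right : Ideal.span {Γ} ≤
      Ideal.span (Set.range fun i => y i ^ n) ⊔ Ideal.span {Γ}) (h2.trans le_sup_left))).trans
      (hC' _)
    have h4 := mul_le_mul_left ((h n hn).trans (add_le_add le_rfl (mul_le_mul_right h3 _))) n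
    rw [add_mul] at h4
    have h5 := h4.trans (add_le_add (hC n) le_rfl)
    have h6 : a * n ^ (d + 1) * n ≤ e' * n ^ (d + 2) + C * n ^ (d + 1) +
        s * (C' * (t * ((d + 1) * n) + 1) ^ d) * n := by exact_mod_cast h5
    have h7 : (t * ((d + 1) * n) + 1) ^ d ≤ (t * (d + 1) + 1) ^ d * n ^ d := by
      rw [← mul_pow]
      exact Nat.pow_le_pow_left (by nlinarith) d
    have h8 : a * n * n ^ (d + 1) ≤ (e' * n + K) * n ^ (d + 1) :=
      calc a * n * n ^ (d + 1) = a * n ^ (d + 1) * n := by ring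
        _ ≤ _ := h6
        _ ≤ e' * n ^ (d + 2) + C * n ^ (d + 1) +
            s * (C' * ((t * (d + 1) + 1) ^ d * n ^ d)) * n := by gcongr
        _ = _ := by rw [hK]; ring
    exact Nat.le_of_mul_le_mul_right h8 (by positivity)
  have h9 : a ≤ e' := by
    by_contra h10
    have h11 := key (n0 + K + 1) (by omega) (by omega)
    have h12 : (e' + 1) * (n0 + K + 1) ≤ a * (n0 + K + 1) := Nat.mul_le_mul_right _ (by omega)
    nlinarith
  exact_mod_cast h9

omit [IsNoetherianRing S] in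
open MvPolynomial in
theorem tors_mlim {d : ℕ} (c : Ideal (MvPolynomial (Fin (d + 1)) S))
    (hle : (maximalIdeal S).map (C : S →+* MvPolynomial (Fin (d + 1)) S) ≤ c)
    {g : MvPolynomial (Fin (d + 1)) S} {γ : ℕ} (hgh : g.IsHomogeneous γ) (hgc : g ∈ c)
    (hγ : g ∉ (maximalIdeal S).map (C : S →+* MvPolynomial (Fin (d + 1)) S)) (t : ℕ) :
    rl (lenF S) (c.restrictScalars S)
      (homogeneousSubmodule (Fin (d + 1)) S (γ + t)) + ((t + d).choose d : ℕ) ≤
        ((γ + t + d).choose d : ℕ) := by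
  set mP := (maximalIdeal S).map (C : S →+* MvPolynomial (Fin (d + 1)) S) with hmP
  let φ : MvPolynomial (Fin (d + 1)) S →ₗ[S] MvPolynomial (Fin (d + 1)) S := LinearMap.mulLeft S g
  let A := mP.restrictScalars S
  let B := (homogeneousSubmodule (Fin (d + 1)) S t).map φ
  let H := homogeneousSubmodule (Fin (d + 1)) S (γ + t)
  have hBH : B ≤ H := by
    rintro _ ⟨v, hv, rfl⟩
    exact hgh.mul hv
  have h1 : rl (lenF S) A B = ((t + d).choose d : ℕ) := by
    rw [← rl_map, ← hs_rl_max (R := S) t]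
    congr 1
    ext v
    rw [Submodule.mem_comap, Submodule.restrictScalars_mem, Submodule.restrictScalars_mem]
    change g * v ∈ mP ↔ v ∈ mP
    constructor
    · intro h
      exact ((hs_prime (R := S)).mem_or_mem h).resolve_left hγ
    · exact mP.mul_mem_left g
  have h2 : rl (lenF S) A (A ⊔ H) = rl (lenF S) A (A ⊔ B) + rl (lenF S) (A ⊔ B) (A ⊔ H) :=
    rl_add _ le_sup_left (sup_le_sup_left hBH A)
  rw [rl_sup, rl_sup, h1, hs_rl_max] at h2
  rw [h2, add_comm]
  refine add_le_add le_rfl (rl_mono _ ?_ le_sup_right)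
  refine sup_le (fun v hv => hle hv) ?_
  rintro _ ⟨v, -, rfl⟩
  exact c.mul_mem_right v hgc

/-- The multiplicity of a hypersurface is at most the order of its equation. -/
theorem mult_le_of_hypersurface {A : Type u} [CommRing A] [IsLocalRing A] {d : ℕ}
    (g : Fin (d + 1) → A) (hg : Ideal.span (Set.range g) = maximalIdeal A) (π : A →+* S)
    (hπ : Function.Surjective π) {f : A} {a : ℕ} (hf : f ∉ maximalIdeal A ^ (a + 1))
    (h0 : π f = 0) {e : ℝ} (he : IsMult S (maximalIdeal S) d e) : e ≤ a := by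
  classical
  have hex : ∃ k, f ∉ maximalIdeal A ^ (k + 1) := ⟨a, hf⟩
  have hγ : Nat.find hex ≤ a := Nat.find_min' hex hf
  have hf1 := Nat.find_spec hex
  have hf2 : f ∈ maximalIdeal A ^ Nat.find hex := by
    rcases h : Nat.find hex with _ | k
    · simp
    · by_contra h1
      exact Nat.find_min hex (by omega : k < Nat.find hex) h1
  generalize Nat.find hex = γ at hγ hf1 hf2
  rw [← hg] at hf2
  obtain ⟨G, hG, hGf⟩ := (mem_pow_iff g γ f).1 hf2
  have hG1 : G ∉ (maximalIdeal A).map (MvPolynomial.C : A →+* MvPolynomial (Fin (d + 1)) A) := by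
    intro h
    apply hf1
    have h1 := eval_mem_of_mem_map_C g hG h
    rw [hGf, hg, ← pow_succ'] at h1
    exact h1
  have hx : Ideal.span (Set.range fun i => π (g i)) = maximalIdeal S := by
    rw [← map_maximalIdeal_of_surjective π hπ, ← hg, Ideal.map_span, ← Set.range_comp]
    rfl
  have hG2 : MvPolynomial.map π G ∉
      (maximalIdeal S).map (MvPolynomial.C : S →+* MvPolynomial (Fin (d + 1)) S) := by
    intro h
    apply hG1
    rw [MvPolynomial.mem_map_C_iff] at h ⊢
    intro β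
    have h1 := h β
    rw [MvPolynomial.coeff_map] at h1
    by_contra h2
    exact h1 ((IsLocalRing.notMem_maximalIdeal.1 h2).map π)
  have hG3 : (MvPolynomial.map π G).IsHomogeneous γ := hG.map π
  have hk : ∀ z ∈ maximalIdeal S, z * 1 ∈ maximalIdeal S := fun z hz => by simpa using hz
  have hG4 : MvPolynomial.map π G ∈ StepI (fun i => π (g i)) (maximalIdeal S) 1 := by
    rw [mem_StepI hG3, MvPolynomial.eval_map, ← MvPolynomial.coe_eval₂Hom]
    have h1 : MvPolynomial.eval₂Hom π (fun i => π (g i)) G = π (MvPolynomial.eval g G) := by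
      rw [MvPolynomial.coe_eval₂Hom, MvPolynomial.eval₂_comp]
      rfl
    rw [h1, hGf, h0, mul_zero]
    exact Ideal.zero_mem _
  have hstep : ∀ s, rl (lenF S) (maximalIdeal S ^ (s + 1) : Ideal S) (maximalIdeal S ^ s : Ideal S) =
      rl (lenF S) ((StepI (fun i => π (g i)) (maximalIdeal S) 1).restrictScalars S)
        (MvPolynomial.homogeneousSubmodule (Fin (d + 1)) S s) := by
    intro s
    rw [← hs_step, hx, Ideal.span_singleton_one, sup_top_eq, Ideal.top_mul, ← pow_succ']
  have hle : ∀ s, rl (lenF S) (maximalIdeal S ^ (s + 1) : Ideal S) (maximalIdeal S ^ s : Ideal S) ≤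
      ((s + d).choose d : ℕ) := by
    intro s
    rw [hstep, ← hs_rl_max (R := S) s]
    refine rl_anti_left _ ?_ _
    intro v hv
    exact map_C_le_StepI hk hv
  choose w hw using fun s => ENat.ne_top_iff_exists.1
    (ne_top_of_le_ne_top (ENat.natCast_ne_top _) (hle s))
  have hsum := hs_tors_sum d γ w (fun s => by
    have := hle s
    rw [← hw] at this
    exact_mod_cast this) (fun t => by
    have := tors_mlim _ (map_C_le_StepI hk) hG3 hG4 hG2 t
    rw [← hstep, ← hw] at this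
    exact_mod_cast this)
  have hlim : Tendsto (fun n : ℕ => (γ : ℝ) * (((n : ℝ) + d) / n) ^ d) atTop (𝓝 (γ * 1)) :=
    (hs_tendsto_ratio d d).const_mul _
  rw [mul_one] at hlim
  refine (le_of_tendsto_of_tendsto' he hlim fun n => ?_).trans (by exact_mod_cast hγ)
  have h1 : Module.length S (S ⧸ maximalIdeal S ^ n) = ((∑ s ∈ Finset.range n, w s : ℕ) : ℕ∞) := by
    rw [red_length_eq_sum, Nat.cast_sum]
    exact Finset.sum_congr rfl fun s _ => (hw s).symm
  have h2 : d.factorial * ∑ s ∈ Finset.range n, w s ≤ γ * (n + d) ^ d :=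
    calc _ ≤ d.factorial * (γ * (n + d).choose d) := Nat.mul_le_mul_left _ (hsum n)
      _ = γ * (n + d).descFactorial d := by rw [Nat.descFactorial_eq_factorial_mul_choose]; ring
      _ ≤ _ := Nat.mul_le_mul_left _ (Nat.descFactorial_le_pow _ _)
  rw [HS, h1, ENat.toNat_natCast, div_pow, ← mul_div_assoc]
  refine div_le_div_of_nonneg_right ?_ (by positivity)
  exact_mod_cast h2

end Vale.Agent.P202
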