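import Vale.Agent.P202.MPS
import Vale.Agent.P202.MLim
import Vale.Agent.P202.MCoh

/-! The order of an equation does not increase under localisation. -/

namespace Vale.Agent.P202

open IsLocalRing MvPowerSeries

universe u

/-- The argument with `p`-derivations. -/
theorem not_mem_symb {p : ℕ} (hp : p.Prime) {A W : Type u} [CommRing A] [CommRing W]
    [IsLocalRing W] (φ : A →+* A) (φ' : W →+* W) (π : A →+* W) (hc : ∀ x, π (φ x) = φ' (π x))
    (hφ : ∀ x, φ x - x ^ p ∈ Ideal.span {(p : A)}) (hA : (p : A) ∈ nonZeroDivisors A)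
    (hW : (p : W) ∈ nonZeroDivisors W) (𝔮 : Ideal A) [𝔮.IsPrime] (hq : (p : A) ∈ 𝔮)
    (hπ : ∀ x ∈ 𝔮, π x ∈ maximalIdeal W) (a : ℕ) :
    ∀ (f s : A) (u : W), IsUnit u → π f = p ^ a * u → s ∉ 𝔮 → s * f ∉ 𝔮 ^ (a + 1) := by
  choose δ hδ using fun x => Ideal.mem_span_singleton'.1 (hφ x)
  have hφ' : ∀ x, φ x = x ^ p + δ x * p := fun x => by rw [hδ]; ring
  have hcan : ∀ x y : A, x * p = y * p → x = y := fun x y h =>
    (mul_cancel_right_mem_nonZeroDivisors hA).1 h
  have hmul : ∀ x y, δ (x * y) = x ^ p * δ y + δ x * φ y := by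
    intro x y
    apply hcan
    rw [hδ, map_mul, hφ' x, mul_pow]
    linear_combination x ^ p * hφ' y
  have hadd : ∀ x y, ∃ r, δ (x + y) = δ x + δ y - x * y * r := by
    intro x y
    obtain ⟨r, hr⟩ := exists_add_pow_prime_eq hp x y
    refine ⟨r, hcan _ _ ?_⟩
    rw [hδ, map_add, hr]
    linear_combination hφ' x + hφ' y
  have hφq : ∀ x ∈ 𝔮, φ x ∈ 𝔮 := fun x hx => by
    rw [hφ']
    exact add_mem (Ideal.pow_mem_of_mem _ hx _ hp.pos) (Ideal.mul_mem_left _ _ hq)
  have hφn : ∀ n, ∀ x ∈ 𝔮 ^ n, φ x ∈ 𝔮 ^ n := fun n x hx => by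
    have h1 := Ideal.mem_map_of_mem φ hx
    rw [Ideal.map_pow] at h1
    exact Ideal.pow_right_mono (Ideal.map_le_iff_le_comap.2 hφq) n h1
  have hδn : ∀ n, ∀ x ∈ 𝔮 ^ (n + 1), δ x ∈ 𝔮 ^ n := by
    intro n
    induction n with
    | zero => intro x _; simp
    | succ n ih =>
      intro x hx
      rw [pow_succ'] at hx
      have key : x ∈ 𝔮 ^ (n + 1) ∧ δ x ∈ 𝔮 ^ (n + 1) := by
        refine Submodule.mul_induction_on hx (fun a ha b hb => ⟨Ideal.mul_mem_left _ _ hb, ?_⟩)
          fun y z hy hz => ⟨add_mem hy.1 hz.1, ?_⟩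
        · rw [hmul]
          refine add_mem ?_ (Ideal.mul_mem_left _ _ (hφn _ _ hb))
          rw [pow_succ']
          exact Ideal.mul_mem_mul (Ideal.pow_mem_of_mem _ ha _ hp.pos) (ih b hb)
        · obtain ⟨r, hr⟩ := hadd y z
          rw [hr]
          exact sub_mem (add_mem hy.2 hz.2)
            (Ideal.mul_mem_right _ _ (Ideal.mul_mem_left _ _ hz.1))
      exact key.2
  have hpW : (p : W) ∈ maximalIdeal W := by
    rw [← map_natCast π]
    exact hπ _ hq
  induction a with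
  | zero =>
    intro f s u hu hf hs h
    rw [zero_add, pow_one] at h
    have h1 := hπ f ((Ideal.IsPrime.mem_or_mem ‹_› h).resolve_left hs)
    rw [hf, pow_zero, one_mul] at h1
    exact h1 hu
  | succ a ih =>
    intro f s u hu hf hs h
    obtain ⟨k, hk⟩ : ∃ k, p = k + 2 := ⟨p - 2, by have := hp.two_le; omega⟩
    have hsp : s ^ p ∉ 𝔮 := fun h1 => hs (Ideal.IsPrime.mem_of_pow_mem ‹_› p h1)
    refine ih (δ f) (s ^ p * φ s) (φ' u - (p : W) ^ ((a + 1) * (k + 1)) * u ^ p) ?_ ?_ ?_ ?_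
    · by_contra h1
      have h2 : (p : W) ^ ((a + 1) * (k + 1)) * u ^ p ∈ maximalIdeal W :=
        Ideal.mul_mem_right _ _ (Ideal.pow_mem_of_mem _ hpW _ (by positivity))
      have h3 := add_mem ((mem_maximalIdeal _).2 h1) h2
      rw [sub_add_cancel] at h3
      exact h3 (hu.map φ')
    · refine (mul_cancel_right_mem_nonZeroDivisors hW).1 ?_
      have h1 := congrArg π (hδ f)
      rw [map_mul, map_natCast, map_sub, hc, map_pow, hf, map_mul, map_pow, map_natCast] at h1
      have h2 : ((p : W) ^ (a + 1) * u) ^ p =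
          (p : W) ^ (a + 1) * (p : W) ^ ((a + 1) * (k + 1)) * u ^ p := by
        rw [mul_pow, ← pow_mul, ← pow_add]
        congr 2
        rw [hk]
        ring
      rw [h1, h2]
      ring
    · intro h1
      rcases Ideal.IsPrime.mem_or_mem ‹_› h1 with h2 | h2
      · exact hsp h2
      · rw [hφ'] at h2
        exact hsp ((Submodule.add_mem_iff_left _ (Ideal.mul_mem_left _ _ hq)).1 h2)
    · have h1 : s ^ p * φ s * δ f = s ^ p * δ (f * s) - (s * f) ^ p * δ s := by
        rw [hmul]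
        ring
      rw [h1]
      refine sub_mem (Ideal.mul_mem_left _ _ (hδn _ _ (by rw [mul_comm]; exact h))) ?_
      exact Ideal.mul_mem_right _ _ (Ideal.pow_mem_of_mem _
        (Ideal.pow_le_pow_right (Nat.le_succ _) h) _ hp.pos)

variable {p : ℕ} [Fact p.Prime] {l : Type u} [Field l] {σ : Type} [Finite σ]

theorem ker_red_MDel [CharP l p] [PerfectRing l p] :
    RingHom.ker (MvPowerSeries.map (σ := σ) (WittVector.constantCoeff : WittVector p l →+* l)) =
      Ideal.span {(p : PS σ (WittVector p l))} := by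
  rw [ker_ps_map _ WittVector.ker_constantCoeff, map_natCast]

omit [Finite σ] in
theorem red_surjective_MDel :
    Function.Surjective
      (MvPowerSeries.map (σ := σ) (WittVector.constantCoeff : WittVector p l →+* l)) := by
  intro z
  refine ⟨fun m => WittVector.teichmuller p (coeff m z), ?_⟩
  ext m
  exact (coeff_map _ m _).trans (WittVector.teichmuller_coeff_zero p _)

theorem exists_frob_lift [CharP l p] [PerfectRing l p] :
    ∃ φ : PS σ (WittVector p l) →+* PS σ (WittVector p l),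
      (∀ x, constantCoeff (φ x) = WittVector.frobenius (constantCoeff x)) ∧
      ∀ x, φ x - x ^ p ∈ Ideal.span {(p : PS σ (WittVector p l))} := by
  have hp0 : p ≠ 0 := (Fact.out : p.Prime).ne_zero
  refine ⟨(MvPowerSeries.map WittVector.frobenius).comp (expand p hp0).toRingHom, fun x => ?_,
    fun x => ?_⟩
  · simp
  · rw [← ker_red_MDel, RingHom.mem_ker, map_sub, map_pow, sub_eq_zero,
      ← map_frobenius_expand p hp0, ← map_expand]
    have h : (WittVector.constantCoeff : WittVector p l →+* l).comp WittVector.frobenius =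
        (frobenius l p).comp WittVector.constantCoeff := by
      ext y
      simp [frobenius_def]
    rw [RingHom.comp_apply, MvPowerSeries.map_map, MvPowerSeries.map_map, h]
    rfl

theorem dim_comap_MDel {A B : Type u} [CommRing A] [CommRing B] (π : A →+* B)
    (hπ : Function.Surjective π) (𝔮 : Ideal B) :
    ringKrullDim (A ⧸ 𝔮.comap π) = ringKrullDim (B ⧸ 𝔮) :=
  ringKrullDim_eq_of_ringEquiv (RingEquiv.ofBijective (Ideal.quotientMap 𝔮 π le_rfl)
    ⟨Ideal.quotientMap_injective, Ideal.quotientMap_surjective hπ⟩)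

/-- `ps_loc_span` without a hypothesis on the coordinates. -/
theorem ps_loc_gen [Infinite l] (𝔮 : Ideal (PS σ l)) [𝔮.IsPrime] {f d : ℕ}
    (hf : ringKrullDim (PS σ l ⧸ 𝔮) = f) (hσ : Nat.card σ = f + d) :
    ∃ g : Fin d → PS σ l, (∀ i, g i ∈ 𝔮) ∧
      ∀ x ∈ 𝔮, ∃ s, s ∉ 𝔮 ∧ s * x ∈ Ideal.span (Set.range g) := by
  classical
  have : Infinite (ResidueField (PS σ l)) :=
    Infinite.of_injective _ ((residue (PS σ l)).comp (C : l →+* PS σ l)).injective
  have hXm : ∀ i, (X i : PS σ l) ∈ maximalIdeal _ := fun i => by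
    rw [ps_maximalIdeal]
    exact Ideal.subset_span ⟨_, rfl⟩
  let e : σ ≃ Fin (f + d) := Finite.equivFinOfCardEq hσ
  have hy : Ideal.span (Set.range fun i => (X (e.symm i) : PS σ l)) = maximalIdeal _ := by
    rw [ps_maximalIdeal]
    congr 1
    exact e.symm.surjective.range_comp (X : σ → PS σ l)
  obtain ⟨z, hz, t, ht⟩ := red2_adapt 𝔮 Ideal.IsPrime.ne_top' hf d
    (fun i => (X (e.symm i) : PS σ l)) (fun i => hXm _)
    ⟨1, by rw [pow_one, hy]; exact le_sup_right⟩
  rw [hy] at hz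
  have := ps_isAdicComplete (σ := σ) l
  obtain ⟨ψ, hC, hX⟩ := exists_psHom (maximalIdeal (PS σ l)) (C : l →+* PS σ l) z
    fun i => hz ▸ Ideal.subset_span ⟨i, rfl⟩
  have hz' : Ideal.span (Set.range fun i => ψ (X i)) = maximalIdeal _ := by
    rw [← hz]
    congr 2
    exact funext hX
  have hψ : Function.Surjective ψ := by
    have : IsHausdorff (Ideal.span (Set.range fun i => ψ (X i))) (PS σ l) := by
      rw [hz']
      infer_instance
    refine psHom_surjective ψ ?_
    rw [hz']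
    intro w
    obtain ⟨c, hc⟩ := ps_residue_surjective (σ := σ) l w
    exact ⟨c, by rw [← hc, RingHom.comp_apply, RingHom.comp_apply, hC]; rfl⟩
  have hker : RingHom.ker ψ ≤ 𝔮.comap ψ := Ideal.ker_le_comap ψ
  obtain ⟨g, hg⟩ := ps_loc_span (𝔮.comap ψ) ((dim_comap_MDel ψ hψ 𝔮).trans hf) (t := t) (by
    intro x hx
    have h1 := Ideal.mem_map_of_mem ψ hx
    rw [Ideal.map_pow, ps_maximalIdeal, ps_map_span, hz'] at h1
    obtain ⟨a, ha, b, hb, hab⟩ := Submodule.mem_sup.1 (ht h1)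
    have h2 : b ∈ (Ideal.span (Set.range fun i : Fin f =>
        (X (Sum.inl i) : PS (Fin f ⊕ Fin d) l))).map ψ := by
      rw [Ideal.map_span, ← Set.range_comp]
      have h3 : (ψ ∘ fun i : Fin f => (X (Sum.inl i) : PS (Fin f ⊕ Fin d) l)) =
          fun i => z (Sum.inl i) := funext fun i => hX _
      rw [h3]
      exact hb
    obtain ⟨b', hb', rfl⟩ := (Ideal.mem_map_iff_of_surjective ψ hψ).1 h2
    refine Submodule.mem_sup.2 ⟨x - b', ?_, b', hb', sub_add_cancel _ _⟩
    rw [Ideal.mem_comap, map_sub, ← hab, add_sub_cancel_right]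
    exact ha)
  choose a s hs using fun i => IsLocalization.exists_mk'_eq (𝔮.comap ψ).primeCompl (g i)
  have ha : ∀ i, a i ∈ 𝔮.comap ψ := fun i => by
    rw [← IsLocalization.AtPrime.mk'_mem_maximal_iff (Localization.AtPrime (𝔮.comap ψ))
      (𝔮.comap ψ) (a i) (s i), hs, ← hg]
    exact Ideal.subset_span ⟨i, rfl⟩
  refine ⟨fun i => ψ (a i), ha, fun x hx => ?_⟩
  obtain ⟨x, rfl⟩ := hψ x
  have h1 : algebraMap _ (Localization.AtPrime (𝔮.comap ψ)) x ∈
      (Ideal.span (Set.range a)).map (algebraMap _ (Localization.AtPrime (𝔮.comap ψ))) := by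
    have h2 := (IsLocalization.AtPrime.to_map_mem_maximal_iff
      (Localization.AtPrime (𝔮.comap ψ)) (𝔮.comap ψ) x).2 hx
    rw [← hg] at h2
    refine Ideal.span_le.2 ?_ h2
    rintro _ ⟨i, rfl⟩
    rw [← hs, SetLike.mem_coe, IsLocalization.mk'_mem_iff]
    exact Ideal.mem_map_of_mem _ (Ideal.subset_span ⟨i, rfl⟩)
  obtain ⟨m, hm, h3⟩ := (IsLocalization.algebraMap_mem_map_algebraMap_iff
    (𝔮.comap ψ).primeCompl _ _ _).1 h1
  refine ⟨ψ m, hm, ?_⟩
  have h4 := Ideal.mem_map_of_mem ψ h3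
  rw [map_mul, Ideal.map_span, ← Set.range_comp] at h4
  exact h4

theorem hyp_loc_le [CharP l p] [PerfectRing l p] [Infinite l] {B : Type u} [CommRing B]
    [IsNoetherianRing B] (π : PS σ (WittVector p l) →+* B) (hπ : Function.Surjective π)
    {f0 u : PS σ (WittVector p l)} {a : ℕ} (hf0 : π f0 = 0) (hu : IsUnit u)
    (h0 : f0 - p ^ a * u ∈ Ideal.span (Set.range (X : σ → PS σ (WittVector p l))))
    (𝔮 : Ideal B) [𝔮.IsPrime] (hp : (p : B) ∈ 𝔮) {f d : ℕ} (hf : ringKrullDim (B ⧸ 𝔮) = f)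
    (hσ : Nat.card σ = f + d) {e : ℝ}
    (he : IsMult (Localization.AtPrime 𝔮) (maximalIdeal (Localization.AtPrime 𝔮)) d e) :
    e ≤ a := by
  set 𝔔 : Ideal (PS σ (WittVector p l)) := 𝔮.comap π with h𝔔
  set ρ := MvPowerSeries.map (σ := σ) (WittVector.constantCoeff : WittVector p l →+* l) with hρ
  have hρs : Function.Surjective ρ := red_surjective_MDel
  have hpQ : (p : PS σ (WittVector p l)) ∈ 𝔔 := by
    rw [h𝔔, Ideal.mem_comap, map_natCast]
    exact hp
  have hker : RingHom.ker ρ ≤ 𝔔 := by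
    rw [hρ, ker_red_MDel, Ideal.span_singleton_le_iff_mem]
    exact hpQ
  have hq' : (𝔔.map ρ).IsPrime := Ideal.map_isPrime_of_surjective hρs hker
  have hcm : (𝔔.map ρ).comap ρ = 𝔔 := by
    rw [Ideal.comap_map_of_surjective' ρ hρs, sup_eq_left.2 hker]
  obtain ⟨g0, hg0, hg0'⟩ := ps_loc_gen (𝔔.map ρ) (f := f) (d := d) (by
    rw [← dim_comap_MDel ρ hρs, hcm, h𝔔, dim_comap_MDel π hπ, hf]) hσ
  choose g1 hg1 using fun i => hρs (g0 i)
  let g2 : Fin (d + 1) → PS σ (WittVector p l) := Fin.cons (p : PS σ (WittVector p l)) g1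
  have hg2 : ∀ i, g2 i ∈ 𝔔 := by
    intro i
    refine Fin.cases hpQ (fun j => ?_) i
    rw [← hcm, Ideal.mem_comap]
    simpa [g2, hg1] using hg0 j
  have hloc : ∀ x ∈ 𝔔, ∃ s ∈ 𝔔.primeCompl, s * x ∈ Ideal.span (Set.range g2) := by
    intro x hx
    obtain ⟨s, hs, h1⟩ := hg0' (ρ x) (Ideal.mem_map_of_mem ρ hx)
    obtain ⟨s, rfl⟩ := hρs s
    refine ⟨s, fun h => hs (Ideal.mem_map_of_mem ρ h), ?_⟩
    have h2 : Ideal.span (Set.range g0) = (Ideal.span (Set.range g1)).map ρ := by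
      rw [Ideal.map_span, ← Set.range_comp]
      congr 2
      exact (funext hg1).symm
    rw [h2, ← map_mul, ← Ideal.mem_comap, Ideal.comap_map_of_surjective' ρ hρs, hρ,
      ker_red_MDel] at h1
    refine (sup_le (Ideal.span_le.2 ?_) ?_ : _ ≤ Ideal.span (Set.range g2)) h1
    · rintro _ ⟨i, rfl⟩
      exact Ideal.subset_span ⟨i.succ, by simp [g2]⟩
    · rw [Ideal.span_singleton_le_iff_mem]
      exact Ideal.subset_span ⟨0, by simp [g2]⟩
  let A := Localization.AtPrime 𝔔
  refine mult_le_of_hypersurface (A := A) (fun i => algebraMap _ A (g2 i)) ?_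
    (Localization.localRingHom 𝔔 𝔮 π rfl) ?_ (f := algebraMap _ A f0) ?_ ?_ he
  · have h1 : Ideal.span (Set.range fun i => algebraMap _ A (g2 i)) =
        (Ideal.span (Set.range g2)).map (algebraMap _ A) := by
      rw [Ideal.map_span, ← Set.range_comp]
      rfl
    rw [h1, ← Localization.AtPrime.map_eq_maximalIdeal]
    refine le_antisymm (Ideal.map_mono (Ideal.span_le.2 ?_)) (Ideal.map_le_iff_le_comap.2 ?_)
    · rintro _ ⟨i, rfl⟩
      exact hg2 i
    · intro x hx
      exact (IsLocalization.algebraMap_mem_map_algebraMap_iff 𝔔.primeCompl _ _ _).2 (hloc x hx)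
  · intro y
    obtain ⟨b, ⟨s, hs⟩, rfl⟩ := IsLocalization.exists_mk'_eq 𝔮.primeCompl y
    obtain ⟨b, rfl⟩ := hπ b
    obtain ⟨s, rfl⟩ := hπ s
    exact ⟨IsLocalization.mk' A b (⟨s, hs⟩ : 𝔔.primeCompl),
      Localization.localRingHom_mk' _ _ _ _ _ _⟩
  · rw [← Localization.AtPrime.map_eq_maximalIdeal, ← Ideal.map_pow,
      IsLocalization.algebraMap_mem_map_algebraMap_iff 𝔔.primeCompl]
    rintro ⟨s, hs, h1⟩
    obtain ⟨φ, hφ1, hφ2⟩ := exists_frob_lift (p := p) (l := l) (σ := σ)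
    have hpW : (p : WittVector p l) ≠ 0 := (WittVector.irreducible p).ne_zero
    refine not_mem_symb Fact.out φ WittVector.frobenius constantCoeff hφ1 hφ2
      (mem_nonZeroDivisors_of_ne_zero ?_) (mem_nonZeroDivisors_of_ne_zero hpW) 𝔔 hpQ
      (fun x hx => mem_maximalIdeal_mps.1 (le_maximalIdeal Ideal.IsPrime.ne_top' hx)) a f0 s
      (constantCoeff u) (hu.map _) ?_ hs h1
    · intro h
      apply hpW
      rw [← map_natCast (constantCoeff : PS σ (WittVector p l) →+* WittVector p l), h, map_zero]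
    · have h2 : Ideal.span (Set.range (X : σ → PS σ (WittVector p l))) ≤
          RingHom.ker constantCoeff := by
        rw [Ideal.span_le]
        rintro _ ⟨i, rfl⟩
        exact constantCoeff_X i
      have h3 := h2 h0
      rwa [RingHom.mem_ker, map_sub, map_mul, map_pow, map_natCast, sub_eq_zero] at h3
  · rw [Localization.localRingHom_to_map, hf0, map_zero]

end Vale.Agent.P202
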