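import Vale.Agent.P202.MDefs

/-! Algebra of matrix complexes. -/

namespace Vale.Agent.P202.MC

universe u

variable {B : Type u} [CommRing B] {K : MC B} {I I' : Ideal B} {L : ℕ} {y : B}

theorem Len.mono (h : K.Len L) {L' : ℕ} (hL : L ≤ L') : K.Len L' := fun a => (h a).trans hL

theorem Ent.mono (h : K.Ent I) (hI : I ≤ I') : K.Ent I' := fun a b => hI (h a b)

theorem SqIn.mono (h : K.SqIn I) (hI : I ≤ I') : K.SqIn I' := fun a b => hI (h a b)

theorem nh_mono (K : MC B) (hI : I ≤ I') : K.nh I ≤ K.nh I' :=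
  fun _ ⟨h, h1, h2⟩ => ⟨h, h1, fun a b => hI (h2 a b)⟩

theorem le_nh (K : MC B) (I : Ideal B) : I ≤ K.nh I := by
  intro z hz
  refine ⟨0, by simp, fun a b => ?_⟩
  simp only [mul_zero, zero_mul, add_zero, zero_sub, Matrix.neg_apply, Matrix.smul_apply,
    smul_eq_mul]
  exact I.neg_mem (I.mul_mem_right _ hz)

theorem mat_o_mmc (K : MC B) (b : K.ι) : K.mat b K.o = 0 := by
  by_contra h
  have h1 := K.hom b K.o h
  have h2 := (K.deg_o K.o).2 rfl
  omega

theorem nh_le (K : MC B) (I : Ideal B) : K.nh I ≤ K.rowI ⊔ I := by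
  rintro z ⟨h, -, h2⟩
  have h3 := h2 K.o K.o
  simp only [Matrix.sub_apply, Matrix.add_apply, Matrix.mul_apply, mat_o_mmc, mul_zero,
    Finset.sum_const_zero, add_zero, Matrix.smul_apply, Matrix.one_apply_eq, smul_eq_mul,
    mul_one] at h3
  have h4 : ∑ b, K.mat K.o b * h b K.o ∈ K.rowI :=
    Ideal.sum_mem _ fun b _ => Ideal.mul_mem_right _ _ (Ideal.subset_span ⟨b, rfl⟩)
  have h5 := (K.rowI ⊔ I).sub_mem (Ideal.mem_sup_left h4) (Ideal.mem_sup_right h3)
  rwa [sub_sub_cancel] at h5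

theorem rk_zero (K : MC B) : K.rk 0 = 1 := by
  unfold rk
  rw [Finset.card_eq_one]
  exact ⟨K.o, by ext a; simp [K.deg_o]⟩

theorem Len.cone (h : K.Len L) (y : B) : (K.cone y).Len (L + 1) := by
  rintro (a | a)
  · exact (h a).trans (Nat.le_succ L)
  · exact Nat.succ_le_succ (h a)

theorem Ent.cone (h : K.Ent I) (hy : y ∈ I) : (K.cone y).Ent I := by
  rintro (a | a) (b | b)
  · exact h a b
  · exact I.mul_mem_right _ hy
  · exact I.zero_mem
  · exact I.neg_mem (h a b)

theorem cone_mat_mmc (K : MC B) (y : B) : (K.cone y).mat =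
    Matrix.fromBlocks K.mat (y • (1 : Matrix K.ι K.ι B)) 0 (-K.mat) := rfl

theorem blocks_mem_mmc {ι : Type} (D : Matrix ι ι B) (hD : ∀ a b, D a b ∈ I) (a b : ι ⊕ ι) :
    Matrix.fromBlocks D 0 0 D a b ∈ I := by
  rcases a with a | a <;> rcases b with b | b
  · exact hD a b
  · exact I.zero_mem
  · exact I.zero_mem
  · exact hD a b

theorem SqIn.cone (h : K.SqIn I) (y : B) : (K.cone y).SqIn I := by
  intro a b
  have e : Matrix.fromBlocks K.mat (y • (1 : Matrix K.ι K.ι B)) 0 (-K.mat) *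
      Matrix.fromBlocks K.mat (y • (1 : Matrix K.ι K.ι B)) 0 (-K.mat) =
      Matrix.fromBlocks (K.mat * K.mat) 0 0 (K.mat * K.mat) := by
    rw [Matrix.fromBlocks_multiply]
    simp
  have := blocks_mem_mmc (K.mat * K.mat) h a b
  rw [← e] at this
  exact this

theorem rowI_cone (K : MC B) (y : B) : (K.cone y).rowI = K.rowI ⊔ Ideal.span {y} := by
  apply le_antisymm
  · refine Ideal.span_le.2 ?_
    rintro _ ⟨b | b, rfl⟩
    · exact Ideal.mem_sup_left (Ideal.subset_span ⟨b, rfl⟩)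
    · exact Ideal.mem_sup_right (Ideal.mul_mem_right _ _ (Ideal.subset_span rfl))
  · refine sup_le (Ideal.span_le.2 ?_) (Ideal.span_le.2 ?_)
    · rintro _ ⟨b, rfl⟩
      exact Ideal.subset_span ⟨Sum.inl b, rfl⟩
    · rw [Set.singleton_subset_iff]
      refine Ideal.subset_span ⟨Sum.inr K.o, ?_⟩
      change (y • (1 : Matrix K.ι K.ι B)) K.o K.o = y
      simp

theorem nh_cone (K : MC B) (y : B) (I : Ideal B) :
    K.nh I ⊔ Ideal.span {y} ≤ (K.cone y).nh I := by
  refine sup_le ?_ (Ideal.span_le.2 ?_)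
  · rintro z ⟨h, h1, h2⟩
    refine ⟨Matrix.fromBlocks h 0 0 (-h), ?_, fun a b => ?_⟩
    · rintro (a | a) (b | b) hab
      · exact h1 a b hab
      · exact absurd rfl hab
      · exact absurd rfl hab
      · have := h1 a b (by simpa using hab)
        change K.deg a + 1 = K.deg b + 1 + 1
        omega
    · have e : Matrix.fromBlocks K.mat (y • (1 : Matrix K.ι K.ι B)) 0 (-K.mat) *
          Matrix.fromBlocks h 0 0 (-h) + Matrix.fromBlocks h 0 0 (-h) *
          Matrix.fromBlocks K.mat (y • (1 : Matrix K.ι K.ι B)) 0 (-K.mat) -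
            z • (1 : Matrix (K.ι ⊕ K.ι) (K.ι ⊕ K.ι) B) =
          Matrix.fromBlocks (K.mat * h + h * K.mat - z • 1) 0 0
            (K.mat * h + h * K.mat - z • 1) := by
        rw [Matrix.fromBlocks_multiply, Matrix.fromBlocks_multiply, ← Matrix.fromBlocks_one,
          Matrix.fromBlocks_smul, Matrix.fromBlocks_add, sub_eq_add_neg, Matrix.fromBlocks_neg,
          Matrix.fromBlocks_add]
        simp [sub_eq_add_neg]
      have := blocks_mem_mmc _ h2 a b
      rw [← e] at this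
      exact this
  · rw [Set.singleton_subset_iff]
    refine ⟨Matrix.fromBlocks 0 0 1 0, ?_, fun a b => ?_⟩
    · rintro (a | a) (b | b) hab
      · exact absurd rfl hab
      · exact absurd rfl hab
      · have : a = b := by
          by_contra hne
          exact hab (Matrix.one_apply_ne hne)
        subst this
        rfl
      · exact absurd rfl hab
    · have e : Matrix.fromBlocks K.mat (y • (1 : Matrix K.ι K.ι B)) 0 (-K.mat) *
          Matrix.fromBlocks 0 0 1 0 + Matrix.fromBlocks 0 0 1 0 *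
          Matrix.fromBlocks K.mat (y • (1 : Matrix K.ι K.ι B)) 0 (-K.mat) -
            y • (1 : Matrix (K.ι ⊕ K.ι) (K.ι ⊕ K.ι) B) =
          Matrix.fromBlocks (0 : Matrix K.ι K.ι B) 0 0 0 := by
        rw [Matrix.fromBlocks_multiply, Matrix.fromBlocks_multiply, ← Matrix.fromBlocks_one,
          Matrix.fromBlocks_smul, Matrix.fromBlocks_add, sub_eq_add_neg, Matrix.fromBlocks_neg,
          Matrix.fromBlocks_add]
        simp
      have := blocks_mem_mmc (I := I) (0 : Matrix K.ι K.ι B) (fun _ _ => I.zero_mem) a b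
      rw [← e] at this
      exact this

theorem sum_rk_mmc (h : K.Len L) :
    ∑ i ∈ Finset.range (L + 1), (-1 : ℤ) ^ i * (K.rk i : ℤ) = ∑ a, (-1 : ℤ) ^ K.deg a := by
  rw [← Finset.sum_fiberwise_of_maps_to (s := Finset.univ) (t := Finset.range (L + 1))
    (g := K.deg) (fun a _ => Finset.mem_range.2 (Nat.lt_succ_of_le (h a)))]
  refine Finset.sum_congr rfl fun i _ => ?_
  rw [Finset.sum_congr rfl fun a ha => by rw [(Finset.mem_filter.1 ha).2], Finset.sum_const,
    nsmul_eq_mul, mul_comm]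
  rfl

theorem sum_rk_cone (h : K.Len L) (y : B) :
    ∑ i ∈ Finset.range (L + 2), (-1 : ℤ) ^ i * ((K.cone y).rk i : ℤ) = 0 := by
  rw [sum_rk_mmc (h.cone y)]
  change ∑ a : K.ι ⊕ K.ι, (-1 : ℤ) ^ (Sum.elim K.deg (fun a => K.deg a + 1) a) = 0
  rw [Fintype.sum_sum_type, ← Finset.sum_add_distrib]
  refine Finset.sum_eq_zero fun a _ => ?_
  simp [pow_succ]

theorem Len.kos (h : K.Len L) (l : List B) : (K.kos l).Len (L + l.length) := by
  induction l with
  | nil => exact h
  | cons y l ih => exact ih.cone y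

theorem Ent.kos (h : K.Ent I) {l : List B} (hl : ∀ y ∈ l, y ∈ I) : (K.kos l).Ent I := by
  induction l with
  | nil => exact h
  | cons y l ih =>
    exact (ih fun z hz => hl z (List.mem_cons_of_mem _ hz)).cone (hl y List.mem_cons_self)

theorem SqIn.kos (h : K.SqIn I) (l : List B) : (K.kos l).SqIn I := by
  induction l with
  | nil => exact h
  | cons y l ih => exact ih.cone y

theorem span_cons_mmc (y : B) (l : List B) : Ideal.span {z | z ∈ y :: l} =
    Ideal.span {z | z ∈ l} ⊔ Ideal.span {y} := by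
  rw [← Ideal.span_union]
  congr 1
  ext z
  simp

theorem rowI_kos (K : MC B) (l : List B) :
    (K.kos l).rowI = K.rowI ⊔ Ideal.span {y | y ∈ l} := by
  induction l with
  | nil => simp [kos]
  | cons y l ih => rw [kos, rowI_cone, ih, span_cons_mmc, sup_assoc]

theorem nh_kos (K : MC B) (l : List B) (I : Ideal B) :
    K.nh I ⊔ Ideal.span {y | y ∈ l} ≤ (K.kos l).nh I := by
  induction l with
  | nil => simp [kos]
  | cons y l ih =>
    rw [kos, span_cons_mmc, ← sup_assoc]
    exact (sup_le_sup_right ih _).trans (nh_cone _ y I)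

theorem base_mmc {z : B} (hz : z ∈ K.rowI) : ∃ h : Matrix K.ι K.ι B,
    (∀ a b, h a b ≠ 0 → K.deg a = K.deg b + 1) ∧ ∀ b, K.deg b ≤ 0 → ∀ a,
      (K.mat * h + h * K.mat - z • (1 : Matrix K.ι K.ι B)) a b = 0 := by
  obtain ⟨c, hc⟩ := Ideal.mem_span_range_iff_exists_fun.1 hz
  have ho := (K.deg_o K.o).2 rfl
  refine ⟨Matrix.of fun a b => if K.deg a = 1 ∧ b = K.o then c a else 0, fun a b hab => ?_,
    fun b hb a => ?_⟩
  · by_cases h : K.deg a = 1 ∧ b = K.o
    · rw [h.1, h.2, ho]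
    · exact absurd (if_neg h) hab
  · obtain rfl := (K.deg_o b).1 (Nat.le_zero.1 hb)
    simp only [Matrix.sub_apply, Matrix.add_apply, Matrix.mul_apply, mat_o_mmc, mul_zero,
      Finset.sum_const_zero, add_zero, Matrix.smul_apply, smul_eq_mul, Matrix.of_apply, and_true]
    by_cases ha : a = K.o
    · subst ha
      rw [Matrix.one_apply_eq, mul_one, ← hc, sub_eq_zero]
      refine Finset.sum_congr rfl fun j _ => ?_
      by_cases hj : K.mat K.o j = 0
      · simp [hj]
      · rw [if_pos (by rw [K.hom _ _ hj, ho]), mul_comm]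
    · rw [Matrix.one_apply_ne ha, mul_zero, sub_zero]
      refine Finset.sum_eq_zero fun j _ => ?_
      by_cases hj : K.mat a j = 0
      · simp [hj]
      · have h1 := K.hom _ _ hj
        have h2 := mt (K.deg_o a).1 ha
        rw [if_neg (by omega), mul_zero]

theorem step_mmc (hsq : K.mat * K.mat = 0) {z : B} (n : ℕ)
    (hex : ∀ (v : K.ι → B), (∀ a, K.deg a ≠ n + 1 → v a = 0) → K.mat.mulVec v = 0 →
      ∃ w : K.ι → B, (∀ a, K.deg a ≠ n + 2 → w a = 0) ∧ K.mat.mulVec w = v)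
    (h : Matrix K.ι K.ι B) (h1 : ∀ a b, h a b ≠ 0 → K.deg a = K.deg b + 1)
    (h2 : ∀ b, K.deg b ≤ n → ∀ a, (K.mat * h + h * K.mat - z • (1 : Matrix K.ι K.ι B)) a b = 0) :
    ∃ h : Matrix K.ι K.ι B, (∀ a b, h a b ≠ 0 → K.deg a = K.deg b + 1) ∧
      ∀ b, K.deg b ≤ n + 1 → ∀ a,
        (K.mat * h + h * K.mat - z • (1 : Matrix K.ι K.ι B)) a b = 0 := by
  generalize hD : K.mat * h + h * K.mat - z • (1 : Matrix K.ι K.ι B) = D at h2
  have hc : K.mat * D = D * K.mat := by
    rw [← hD, mul_sub, sub_mul, mul_add, add_mul, ← mul_assoc, hsq, mul_assoc h, hsq]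
    simp [mul_assoc]
  have hdeg : ∀ a b, K.deg a ≠ K.deg b → D a b = 0 := by
    intro a b hab
    have e : a ≠ b := fun e => hab (by rw [e])
    rw [← hD, Matrix.sub_apply, Matrix.add_apply, Matrix.smul_apply, Matrix.one_apply_ne e,
      Matrix.mul_apply, Matrix.mul_apply, Finset.sum_eq_zero, Finset.sum_eq_zero]
    · simp
    · intro c _
      by_contra hne
      have a1 := h1 _ _ (left_ne_zero_of_mul hne)
      have a2 := K.hom _ _ (right_ne_zero_of_mul hne)
      omega
    · intro c _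
      by_contra hne
      have a1 := h1 _ _ (right_ne_zero_of_mul hne)
      have a2 := K.hom _ _ (left_ne_zero_of_mul hne)
      omega
  have key : ∀ b, ∃ w : K.ι → B, (∀ a, w a ≠ 0 → K.deg a = n + 2 ∧ K.deg b = n + 1) ∧
      (K.deg b ≤ n + 1 → K.mat.mulVec w = fun a => D a b) := by
    intro b
    by_cases hb : K.deg b = n + 1
    · obtain ⟨w, hw1, hw2⟩ := hex (fun a => D a b) (fun a ha => hdeg a b (by omega)) (by
        funext a
        change (K.mat * D) a b = 0
        rw [hc, Matrix.mul_apply]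
        refine Finset.sum_eq_zero fun c _ => ?_
        by_cases hcb : K.mat c b = 0
        · rw [hcb, mul_zero]
        · have := K.hom _ _ hcb
          rw [h2 c (by omega), zero_mul])
      exact ⟨w, fun a ha => ⟨by_contra fun hne => ha (hw1 a hne), hb⟩, fun _ => hw2⟩
    · exact ⟨0, by simp, fun hle => by
        rw [Matrix.mulVec_zero]
        exact funext fun a => (h2 b (by omega) a).symm⟩
  choose w hw1 hw2 using key
  refine ⟨h - Matrix.of fun a b => w b a, fun a b hab => ?_, fun b hb a => ?_⟩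
  · by_cases e : h a b = 0
    · have := hw1 b a (by simpa [e] using hab)
      omega
    · exact h1 a b e
  · have e : K.mat * (h - Matrix.of fun a b => w b a) + (h - Matrix.of fun a b => w b a) * K.mat -
        z • (1 : Matrix K.ι K.ι B) =
        D - K.mat * (Matrix.of fun a b => w b a) - (Matrix.of fun a b => w b a) * K.mat := by
      rw [← hD, mul_sub, sub_mul]
      abel
    have e1 : (K.mat * Matrix.of fun a b => w b a) a b = D a b := congrFun (hw2 b hb) a
    have e2 : ((Matrix.of fun a b => w b a) * K.mat) a b = 0 := by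
      rw [Matrix.mul_apply]
      refine Finset.sum_eq_zero fun c _ => ?_
      by_contra hne
      have a1 := hw1 c a (left_ne_zero_of_mul hne)
      have a2 := K.hom _ _ (right_ne_zero_of_mul hne)
      omega
    rw [e, Matrix.sub_apply, Matrix.sub_apply, e1, e2, sub_self, sub_zero]

/-- An exact complex: elements killing the zeroth homology act null-homotopically. -/
theorem rowI_le_nh (hsq : K.SqIn ⊥)
    (hex : ∀ (n : ℕ) (v : K.ι → B), (∀ a, K.deg a ≠ n + 1 → v a = 0) → K.mat.mulVec v = 0 →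
      ∃ w : K.ι → B, (∀ a, K.deg a ≠ n + 2 → w a = 0) ∧ K.mat.mulVec w = v) :
    K.rowI ≤ K.nh ⊥ := by
  intro z hz
  have hsq' : K.mat * K.mat = 0 := Matrix.ext fun a b => hsq a b
  have key : ∀ n : ℕ, ∃ h : Matrix K.ι K.ι B, (∀ a b, h a b ≠ 0 → K.deg a = K.deg b + 1) ∧
      ∀ b, K.deg b ≤ n → ∀ a, (K.mat * h + h * K.mat - z • (1 : Matrix K.ι K.ι B)) a b = 0 := by
    intro n
    induction n with
    | zero => exact base_mmc hz
    | succ n ih =>
      obtain ⟨h, h1, h2⟩ := ih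
      exact step_mmc hsq' n (hex n) h h1 h2
  obtain ⟨h, h1, h2⟩ := key (Finset.univ.sup K.deg)
  exact ⟨h, h1, fun a b => h2 b (Finset.le_sup (Finset.mem_univ b)) a⟩

section AH

variable {A T : Type u} [CommRing A] [CommRing T] [Algebra A T] {α : A →+* B} {θ : T} {θ' κ : B}
  {𝔡 : Ideal B} {τ : T → B} {F : MC T}

theorem _root_.Vale.Agent.P202.AH.sum (h : AH α θ θ' κ 𝔡 τ) {ι : Type} (s : Finset ι)
    (b : ι → T) : τ (∑ i ∈ s, b i) - ∑ i ∈ s, τ (b i) ∈ 𝔡 := by
  classical
  induction s using Finset.induction_on with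
  | empty => simp [h.zero]
  | insert i s hi ih =>
    rw [Finset.sum_insert hi, Finset.sum_insert hi]
    have := 𝔡.add_mem (h.add (b i) (∑ i ∈ s, b i)) ih
    rwa [show ∀ p q r t : B, p - (q + r) + (r - t) = p - (q + t) from fun _ _ _ _ => by ring]
      at this

theorem _root_.Vale.Agent.P202.AH.pow (h : AH α θ θ' κ 𝔡 τ) (b : T) (n : ℕ) :
    τ b ^ (n + 1) - κ ^ n * τ (b ^ (n + 1)) ∈ 𝔡 := by
  induction n with
  | zero => simp
  | succ n ih =>
    have := 𝔡.add_mem (𝔡.mul_mem_left (τ b) ih) (𝔡.mul_mem_left (κ ^ n) (h.mul b (b ^ (n + 1))))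
    rwa [← pow_succ', show τ b * (τ b ^ (n + 1) - κ ^ n * τ (b ^ (n + 1))) +
      κ ^ n * (τ b * τ (b ^ (n + 1)) - κ * τ (b ^ (n + 1 + 1))) =
        τ b ^ (n + 1 + 1) - κ ^ (n + 1) * τ (b ^ (n + 1 + 1)) by ring] at this

theorem _root_.Vale.Agent.P202.AH.aeval (h : AH α θ θ' κ 𝔡 τ) (H : Polynomial A) (b : T) :
    τ (Polynomial.aeval θ H * b) - H.eval₂ α θ' * τ b ∈ 𝔡 := by
  induction H using Polynomial.induction_on generalizing b with
  | C a => simpa [← Algebra.smul_def] using h.smul a b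
  | add p q hp hq =>
    have := 𝔡.add_mem (h.add (Polynomial.aeval θ p * b) (Polynomial.aeval θ q * b))
      (𝔡.add_mem (hp b) (hq b))
    rw [map_add, add_mul, Polynomial.eval₂_add]
    rwa [show ∀ s p q r t x : B, s - (p + q) + (p - r * x + (q - t * x)) = s - (r + t) * x from
      fun _ _ _ _ _ _ => by ring] at this
  | monomial n a ih =>
    have := 𝔡.add_mem (ih (θ * b)) (𝔡.mul_mem_left
      ((Polynomial.C a * Polynomial.X ^ n).eval₂ α θ') (h.theta b))
    rw [pow_succ, ← mul_assoc, map_mul, Polynomial.aeval_X, Polynomial.eval₂_mul,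
      Polynomial.eval₂_X, mul_assoc]
    rwa [show ∀ s p q r x : B, s - p * q + p * (q - r * x) = s - p * r * x from
      fun _ _ _ _ _ => by ring] at this

theorem ah_add_mmc (h : AH α θ θ' κ 𝔡 τ) {X : Ideal B} (hX : 𝔡 ≤ X) {b b' : T} (hb : τ b ∈ X)
    (hb' : τ b' ∈ X) : τ (b + b') ∈ X := by
  have := X.add_mem (hX (h.add b b')) (X.add_mem hb hb')
  rwa [sub_add_cancel] at this

theorem ah_span_mmc (h : AH α θ θ' κ 𝔡 τ) {X : Ideal B} (hX : 𝔡 ≤ X) {S : Set T} {J : Ideal T}
    (hS : ∀ s ∈ S, ∀ n ∈ J, τ (s * n) ∈ X) {m : T} (hm : m ∈ Ideal.span S) :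
    ∀ n ∈ J, τ (m * n) ∈ X := by
  induction hm using Submodule.span_induction with
  | mem s hs => exact hS s hs
  | zero => intro n _; simp [h.zero]
  | add x y _ _ hx hy =>
    intro n hn
    rw [add_mul]
    exact ah_add_mmc h hX (hx n hn) (hy n hn)
  | smul c x _ hx =>
    intro n hn
    rw [smul_eq_mul, mul_comm c, mul_assoc]
    exact hx _ (J.mul_mem_left c hn)

/-- Ideals generated by elements of `A` and by `θ`. -/
theorem _root_.Vale.Agent.P202.AH.mem_pow (h : AH α θ θ' κ 𝔡 τ) {σ : Type} (x : σ → A) (r : ℕ)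
    {b : T} (hb : b ∈ Ideal.span (insert θ (Set.range fun j => algebraMap A T (x j))) ^ r) :
    τ b ∈ Ideal.span (insert θ' (Set.range fun j => α (x j))) ^ r ⊔ 𝔡 := by
  induction r generalizing b with
  | zero => simp
  | succ r ih =>
    rw [pow_succ'] at hb ⊢
    have aux : ∀ c ∈ Ideal.span (insert θ' (Set.range fun j => α (x j))),
        ∀ n ∈ Ideal.span (insert θ (Set.range fun j => algebraMap A T (x j))) ^ r,
        c * τ n ∈ Ideal.span (insert θ' (Set.range fun j => α (x j))) *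
          Ideal.span (insert θ' (Set.range fun j => α (x j))) ^ r ⊔ 𝔡 := by
      intro c hc n hn
      obtain ⟨p, hp, q, hq, e⟩ := Submodule.mem_sup.1 (ih hn)
      rw [← e, mul_add]
      exact Ideal.add_mem _ (Ideal.mem_sup_left (Ideal.mul_mem_mul hc hp))
        (Ideal.mem_sup_right (𝔡.mul_mem_left c hq))
    refine Submodule.mul_induction_on hb (fun m hm => ah_span_mmc h le_sup_right ?_ hm)
      fun _ _ => ah_add_mmc h le_sup_right
    rintro _ (rfl | ⟨j, rfl⟩) n hn
    · have := Ideal.add_mem _ (Ideal.mem_sup_right (h.theta n))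
        (aux θ' (Ideal.subset_span (Or.inl rfl)) n hn)
      rwa [sub_add_cancel] at this
    · have := Ideal.add_mem _ (Ideal.mem_sup_right (h.smul (x j) n))
        (aux (α (x j)) (Ideal.subset_span (Or.inr ⟨j, rfl⟩)) n hn)
      rwa [sub_add_cancel, Algebra.smul_def] at this

theorem _root_.Vale.Agent.P202.AH.mem_map (h : AH α θ θ' κ 𝔡 τ) (J : Ideal A) {b : T}
    (hb : b ∈ J.map (algebraMap A T)) : τ b ∈ J.map α ⊔ 𝔡 := by
  have := ah_span_mmc h (X := J.map α ⊔ 𝔡) le_sup_right (J := ⊤) ?_ hb 1 trivial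
  · rwa [mul_one] at this
  · rintro _ ⟨a, ha, rfl⟩ n -
    have := Ideal.add_mem _ (Ideal.mem_sup_right (h.smul a n))
      (Ideal.mem_sup_left ((J.map α).mul_mem_right (τ n) (Ideal.mem_map_of_mem α ha)))
    rwa [sub_add_cancel, Algebra.smul_def] at this

theorem ah_mulsum_mmc (h : AH α θ θ' κ 𝔡 τ) {ι : Type} [Fintype ι] (x y : ι → T) :
    ∑ i, τ (x i) * τ (y i) - κ * τ (∑ i, x i * y i) ∈ 𝔡 := by
  have h1 := 𝔡.sub_mem (𝔡.sum_mem fun i (_ : i ∈ Finset.univ) => h.mul (x i) (y i))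
    (𝔡.mul_mem_left κ (h.sum Finset.univ fun i => x i * y i))
  rwa [Finset.sum_sub_distrib, ← Finset.mul_sum,
    show ∀ p q r : B, p - κ * q - κ * (r - q) = p - κ * r from fun _ _ _ => by ring] at h1

theorem SqIn.mapF (h : AH α θ θ' κ 𝔡 τ) (hF : F.SqIn ⊥) : (F.mapF τ h.zero).SqIn 𝔡 := by
  intro a b
  have h1 := ah_mulsum_mmc h (fun c => F.mat a c) fun c => F.mat c b
  have h2 : ∑ c, F.mat a c * F.mat c b = 0 := hF a b
  rw [h2, h.zero, mul_zero, sub_zero] at h1
  exact h1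

theorem mem_nh_mapF (h : AH α θ θ' κ 𝔡 τ) {z : T} (hz : z ∈ F.nh ⊥) :
    κ * τ z ∈ (F.mapF τ h.zero).nh 𝔡 := by
  obtain ⟨g, g1, g2⟩ := hz
  refine ⟨g.map τ, fun a b hab => g1 a b fun e => hab ((congrArg τ e).trans h.zero), ?_⟩
  intro (a : F.ι) (b : F.ι)
  have h1 := ah_mulsum_mmc h (fun c => F.mat a c) fun c => g c b
  have h2 := ah_mulsum_mmc h (fun c => g a c) fun c => F.mat c b
  have h3 := h.add (∑ c, F.mat a c * g c b) (∑ c, g a c * F.mat c b)
  have h4 : ∑ c, F.mat a c * g c b + ∑ c, g a c * F.mat c b = z * (1 : Matrix F.ι F.ι T) a b :=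
    sub_eq_zero.1 (g2 a b)
  have h5 : τ (z * (1 : Matrix F.ι F.ι T) a b) = τ z * (1 : Matrix F.ι F.ι B) a b := by
    by_cases e : a = b
    · subst e
      simp
    · simp [Matrix.one_apply_ne e, h.zero]
  rw [h4, h5] at h3
  have h6 := 𝔡.sub_mem (𝔡.add_mem h1 h2) (𝔡.mul_mem_left κ h3)
  rw [show ∀ p q r s t w : B, p - κ * q + (r - κ * s) - κ * (t * w - (q + s)) =
    p + r - κ * t * w from fun _ _ _ _ _ _ => by ring] at h6
  exact h6

theorem mem_rowI_mapF (h : AH α θ θ' κ 𝔡 τ) {z : T} (hz : z ∈ F.rowI) :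
    κ * τ z ∈ (F.mapF τ h.zero).rowI ⊔ 𝔡 := by
  obtain ⟨c, rfl⟩ := Ideal.mem_span_range_iff_exists_fun.1 hz
  have h1 := ah_mulsum_mmc h c fun b => F.mat F.o b
  have h2 : ∑ i, τ (c i) * τ (F.mat F.o i) ∈ (F.mapF τ h.zero).rowI :=
    Ideal.sum_mem _ fun b _ => Ideal.mul_mem_left _ _ (Ideal.subset_span ⟨b, rfl⟩)
  have h3 := Ideal.sub_mem _ (Ideal.mem_sup_left h2) (Ideal.mem_sup_right h1)
  rwa [sub_sub_cancel] at h3

end AH

end Vale.Agent.P202.MC
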