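import Vale.Agent.P202.MRes
import Vale.Agent.P202.MMC

/-! A finite resolution as a matrix complex. -/

namespace Vale.Agent.P202

open IsLocalRing

universe u

theorem exists_MC_of_seq {T : Type u} [CommRing T] {g : ℕ} (r : ℕ → ℕ)
    (D : ∀ j, Matrix (Fin (r j)) (Fin (r (j + 1))) T) (h0 : r 0 = 1) (hg : ∀ j, g < j → r j = 0)
    {I : Ideal T} (hI : ∀ j a b, D j a b ∈ I)
    (hex : ∀ j, LinearMap.ker (D j).mulVecLin = LinearMap.range (D (j + 1)).mulVecLin) :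
    ∃ K : MC T, K.Len g ∧ K.Ent I ∧ K.SqIn ⊥ ∧
      K.rowI = Ideal.span (Set.range (D 0 ⟨0, by omega⟩)) ∧ K.rowI ≤ K.nh ⊥ := by
  classical
  have hlen : ∀ a : (j : ℕ) × Fin (r j), a.1 ≤ g := fun a => by
    by_contra hc
    have := hg a.1 (by omega)
    have := a.2.pos
    omega
  have _ : Finite ((j : ℕ) × Fin (r j)) := Finite.of_surjective
    (fun a : (j : Fin (g + 1)) × Fin (r j) => (⟨a.1, a.2⟩ : (j : ℕ) × Fin (r j)))
    fun a => ⟨⟨⟨a.1, Nat.lt_succ_of_le (hlen a)⟩, a.2⟩, rfl⟩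
  let _ : Fintype ((j : ℕ) × Fin (r j)) := Fintype.ofFinite _
  let M : Matrix ((j : ℕ) × Fin (r j)) ((j : ℕ) × Fin (r j)) T := Matrix.of fun a b =>
    if h : b.1 = a.1 + 1 then D a.1 a.2 (Fin.cast (congrArg r h) b.2) else 0
  have hM0 : ∀ a b, b.1 ≠ a.1 + 1 → M a b = 0 := fun a b h => dif_neg h
  have hM1 : ∀ j a b, M ⟨j, a⟩ ⟨j + 1, b⟩ = D j a b := fun j a b => dif_pos rfl
  have hmul : ∀ (v : ((j : ℕ) × Fin (r j)) → T) j a,
      M.mulVec v ⟨j, a⟩ = (D j).mulVec (fun b => v ⟨j + 1, b⟩) a := by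
    intro v j a
    change ∑ b, M ⟨j, a⟩ b * v b = ∑ b, D j a b * v ⟨j + 1, b⟩
    refine (Fintype.sum_of_injective (Sigma.mk (j + 1)) sigma_mk_injective _ _ ?_
      fun b => by rw [hM1]).symm
    rintro ⟨k, b⟩ hb
    rw [hM0, zero_mul]
    rintro rfl
    exact hb ⟨b, rfl⟩
  let K : MC T :=
    { ι := (j : ℕ) × Fin (r j)
      deg := fun a => a.1
      mat := M
      o := ⟨0, ⟨0, by omega⟩⟩
      deg_o := by
        rintro ⟨j, a⟩
        constructor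
        · rintro rfl
          exact congrArg (Sigma.mk 0) (Fin.ext (by have := a.2; simp only; omega))
        · intro h
          exact congrArg Sigma.fst h
      hom := fun a b h => by_contra fun hc => h (hM0 a b hc) }
  have hsq : K.SqIn ⊥ := by
    rintro ⟨j, a⟩ ⟨k, c⟩
    change M.mulVec (fun b => M b ⟨k, c⟩) ⟨j, a⟩ = 0
    rw [hmul]
    by_cases hk : k = j + 1 + 1
    · subst hk
      have : (fun b => M ⟨j + 1, b⟩ ⟨j + 1 + 1, c⟩) ∈ LinearMap.ker (D j).mulVecLin := by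
        rw [hex j]
        exact ⟨Pi.single c 1, by funext b; simp [hM1]⟩
      exact congrFun this a
    · have : (fun b => M ⟨j + 1, b⟩ ⟨k, c⟩) = 0 := funext fun b => hM0 _ _ hk
      rw [this, Matrix.mulVec_zero]
      rfl
  refine ⟨K, hlen, ?_, hsq, ?_, MC.rowI_le_nh hsq fun n v hv h => ?_⟩
  · rintro ⟨j, a⟩ ⟨k, b⟩
    change M ⟨j, a⟩ ⟨k, b⟩ ∈ I
    by_cases hk : k = j + 1
    · subst hk
      rw [hM1]
      exact hI j a b
    · rw [hM0 ⟨j, a⟩ ⟨k, b⟩ hk]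
      exact I.zero_mem
  · refine le_antisymm (Ideal.span_le.2 ?_) (Ideal.span_mono ?_)
    · rintro _ ⟨⟨k, b⟩, rfl⟩
      by_cases hk : k = 0 + 1
      · subst hk
        exact Ideal.subset_span ⟨b, (hM1 0 _ b).symm⟩
      · exact Set.mem_of_eq_of_mem (hM0 K.o ⟨k, b⟩ hk) (Ideal.zero_mem _)
    · rintro _ ⟨b, rfl⟩
      exact ⟨⟨0 + 1, b⟩, hM1 0 _ b⟩
  · have h1 : (fun b => v ⟨n + 1, b⟩) ∈ LinearMap.ker (D n).mulVecLin :=
      funext fun a => (hmul v n a).symm.trans (congrFun h ⟨n, a⟩)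
    rw [hex n] at h1
    obtain ⟨w', hw'⟩ := h1
    refine ⟨fun c => if h : c.1 = n + 2 then w' (Fin.cast (congrArg r h) c.2) else 0,
      fun a ha => dif_neg ha, funext ?_⟩
    rintro ⟨j, a⟩
    refine (hmul _ j a).trans ?_
    by_cases hj : j = n + 1
    · subst hj
      simp only [dif_pos]
      exact congrFun hw' a
    · have hj' : j + 1 ≠ n + 2 := by omega
      simp only [dif_neg hj']
      rw [hv ⟨j, a⟩ hj]
      exact congrFun (Matrix.mulVec_zero (D j)) a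

theorem exists_res {R T : Type u} [CommRing R] [IsLocalRing R] [CommRing T] [IsLocalRing T]
    [IsNoetherianRing T] [Algebra R T] [Module.Flat R T] {g : ℕ} (w : Fin g → T)
    (hm : maximalIdeal T = mS R T ⊔ Ideal.span (Set.range w))
    (hw : RegSeq fun i => Ideal.Quotient.mk (mS R T) (w i)) (J : Ideal T) (hJ : J ≠ ⊤)
    [Module.Flat R (T ⧸ J)] :
    ∃ K : MC T, K.Len g ∧ K.Ent (maximalIdeal T) ∧ K.SqIn ⊥ ∧ K.rowI = J ∧ K.rowI ≤ K.nh ⊥ := by
  obtain ⟨r, D, h0, h1, h2, h3, h4⟩ := exists_minres w hm hw J hJ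
  obtain ⟨K, k1, k2, k3, k4, k5⟩ := exists_MC_of_seq r D h0 h1 h2 h4
  exact ⟨K, k1, k2, k3, k4.trans h3, k5⟩

end Vale.Agent.P202
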