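import Vale.Agent.P202.MDefs
import Vale.Agent.P202.Ext

/-! The formally smooth extension `T = R ⊗ A`. -/

namespace Vale.Agent.P202

open IsLocalRing

universe u

section aux

open TensorProduct

attribute [local instance] Algebra.TensorProduct.rightAlgebra

theorem regSeq_of_equiv_mten {B B' : Type u} [CommRing B] [CommRing B'] (e : B ≃+* B') {n : ℕ}
    {x : Fin n → B} (h : RegSeq fun i => e (x i)) : RegSeq x := by
  intro i z hz
  have key : ∀ y, y ∈ Ideal.span (x '' Set.Iio i) ↔
      e y ∈ Ideal.span ((fun i => e (x i)) '' Set.Iio i) := fun y => by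
    rw [← Set.image_image e x, ← Ideal.map_span, Ideal.apply_mem_of_equiv_iff]
  rw [key] at hz ⊢
  exact h i _ (by rwa [map_mul] at hz)

variable {A0 A R : Type u} [CommRing A0] [CommRing A] [CommRing R] [Algebra A0 A] [Algebra A0 R]

theorem lift_mten {B : Type u} [CommRing B] (α : A →+* B) (β : R →+* B)
    (h : ∀ a, α (algebraMap A0 A a) = β (algebraMap A0 R a)) :
    ∃ γ : R ⊗[A0] A →+* B, (∀ a, γ (algebraMap A _ a) = α a) ∧ ∀ r, γ (algebraMap R _ r) = β r := by
  let _ : Algebra A0 B := (β.comp (algebraMap A0 R)).toAlgebra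
  let β' : R →ₐ[A0] B := { β with commutes' := fun a => rfl }
  let α' : A →ₐ[A0] B := { α with commutes' := h }
  exact ⟨(Algebra.TensorProduct.productMap β' α').toRingHom,
    fun a => Algebra.TensorProduct.productMap_right_apply β' α' a,
    fun a => Algebra.TensorProduct.productMap_left_apply β' α' a⟩

theorem span_mten : Submodule.span A (Set.range (algebraMap R (R ⊗[A0] A))) = ⊤ := by
  refine eq_top_iff.2 fun x hx => ?_
  clear hx
  induction x using TensorProduct.induction_on with
  | zero => exact zero_mem _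
  | add x y hx hy => exact add_mem hx hy
  | tmul r a =>
    have : r ⊗ₜ[A0] a = a • algebraMap R (R ⊗[A0] A) r := by
      rw [Algebra.smul_def]
      change _ = ((1 : R) ⊗ₜ[A0] a) * (r ⊗ₜ[A0] (1 : A))
      simp
    rw [this]
    exact Submodule.smul_mem _ _ (Submodule.subset_span ⟨r, rfl⟩)

theorem indep_mten [Module.Flat A0 A] {n : ℕ} {v : Fin n → R} (hv : LinearIndependent A0 v) :
    LinearIndependent A fun i => algebraMap R (R ⊗[A0] A) (v i) :=
  (Module.Flat.linearIndependent_one_tmul (S := A) hv).map'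
    (Algebra.TensorProduct.commRight A0 A R).toLinearEquiv.toLinearMap (LinearEquiv.ker _)

variable [IsLocalRing A0] [IsLocalRing R] [IsLocalHom (algebraMap A0 R)]

theorem mS_le_mten : (mS A0 A).map (algebraMap A (R ⊗[A0] A)) ≤ mS R (R ⊗[A0] A) := by
  rw [Ideal.map_map, ← IsScalarTower.algebraMap_eq, IsScalarTower.algebraMap_eq A0 R,
    ← Ideal.map_map]
  exact Ideal.map_mono (map_maximalIdeal_le _)

theorem theta_mten (hres : Function.Surjective ((residue R).comp (algebraMap A0 R))) :
    ∃ θ : R ⊗[A0] A →+* A ⧸ mS A0 A, (∀ a, θ (algebraMap A _ a) = Ideal.Quotient.mk _ a) ∧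
      (∀ x, ∃ a, x - algebraMap A _ a ∈ mS R (R ⊗[A0] A)) ∧
      RingHom.ker θ = mS R (R ⊗[A0] A) := by
  have hk : RingHom.ker ((residue R).comp (algebraMap A0 R)) ≤
      RingHom.ker ((Ideal.Quotient.mk (mS A0 A)).comp (algebraMap A0 A)) := by
    intro a ha
    rw [RingHom.mem_ker, RingHom.comp_apply] at ha ⊢
    rw [residue_eq_zero_iff] at ha
    exact Ideal.Quotient.eq_zero_iff_mem.2 (Ideal.mem_map_of_mem _
      ((maximalIdeal_comap (algebraMap A0 R)).le ha))
  obtain ⟨θ, h1, h2⟩ := lift_mten (A0 := A0) (Ideal.Quotient.mk (mS A0 A))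
    ((RingHom.liftOfSurjective _ hres ⟨_, hk⟩).comp (residue R))
    fun a => (RingHom.liftOfSurjective_comp_apply _ hres ⟨_, hk⟩ a).symm
  have h3 : ∀ x : R ⊗[A0] A, ∃ a, x - algebraMap A _ a ∈ mS R (R ⊗[A0] A) :=
    ext_bc_congr _ fun r => by
      obtain ⟨a, ha⟩ := hres (residue R r)
      exact ⟨a, by rw [← residue_eq_zero_iff, map_sub, sub_eq_zero]; exact ha.symm⟩
  have h4 : mS R (R ⊗[A0] A) ≤ RingHom.ker θ := by
    rw [Ideal.map_le_iff_le_comap]
    intro r hr
    rw [Ideal.mem_comap, RingHom.mem_ker, h2, RingHom.comp_apply, (residue_eq_zero_iff r).2 hr,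
      map_zero]
  refine ⟨θ, h1, h3, le_antisymm (fun x hx => ?_) h4⟩
  obtain ⟨a, ha⟩ := h3 x
  have h5 : algebraMap A _ a ∈ RingHom.ker θ := by
    have := sub_mem hx (h4 ha)
    rwa [sub_sub_cancel] at this
  rw [RingHom.mem_ker, h1, Ideal.Quotient.eq_zero_iff_mem] at h5
  have := add_mem ha (mS_le_mten (Ideal.mem_map_of_mem _ h5))
  rwa [sub_add_cancel] at this

omit [IsLocalHom (algebraMap A0 R)] in
theorem le_max_mten [IsLocalRing A] [IsLocalHom (algebraMap A0 A)] [Module.Finite A0 R]
    (K : Ideal (R ⊗[A0] A)) [K.IsMaximal] :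
    mS R (R ⊗[A0] A) ⊔ (maximalIdeal A).map (algebraMap A (R ⊗[A0] A)) ≤ K := by
  have : Module.Finite A (R ⊗[A0] A) := RingHom.finite_algebraMap.1 ext_includeRight_finite
  have h1 : (K.comap (algebraMap A (R ⊗[A0] A))).IsMaximal :=
    Ideal.isMaximal_comap_of_isIntegral_of_isMaximal K
  have h2 : ((K.comap (algebraMap R (R ⊗[A0] A))).comap (algebraMap A0 R)).IsMaximal := by
    rw [Ideal.comap_comap, ← IsScalarTower.algebraMap_eq, IsScalarTower.algebraMap_eq A0 A,
      ← Ideal.comap_comap, eq_maximalIdeal h1, maximalIdeal_comap]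
    infer_instance
  have h3 : (K.comap (algebraMap R (R ⊗[A0] A))).IsMaximal :=
    Ideal.isMaximal_of_isIntegral_of_isMaximal_comap _ h2
  refine sup_le ?_ ?_
  · rw [Ideal.map_le_iff_le_comap, eq_maximalIdeal h3]
  · rw [Ideal.map_le_iff_le_comap, eq_maximalIdeal h1]

end aux

open TensorProduct in
attribute [local instance] Algebra.TensorProduct.rightAlgebra in
theorem exists_tensor {A0 A R S : Type u} [CommRing A0] [IsLocalRing A0] [CommRing A]
    [IsLocalRing A] [IsNoetherianRing A] [CommRing R] [IsLocalRing R] [CommRing S]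
    [Algebra A0 A] [Algebra A0 R] [Algebra R S] [Module.Flat A0 A] [Module.Finite A0 R]
    [IsLocalHom (algebraMap A0 R)]
    (hres : Function.Surjective ((residue R).comp (algebraMap A0 R))) (π : A →+* S)
    (hc : ∀ a, π (algebraMap A0 A a) = algebraMap R S (algebraMap A0 R a)) {g : ℕ}
    (w : Fin g → A) (hm : maximalIdeal A = mS A0 A ⊔ Ideal.span (Set.range w))
    (hw : RegSeq fun i => Ideal.Quotient.mk (mS A0 A) (w i)) :
    ∃ (T : Type u) (_ : CommRing T) (_ : IsLocalRing T) (_ : IsNoetherianRing T)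
      (_ : Algebra A T) (_ : Algebra R T) (ρ : T →+* S), Module.Finite A T ∧ Module.Flat R T ∧
      (∀ a, algebraMap A T (algebraMap A0 A a) = algebraMap R T (algebraMap A0 R a)) ∧
      (∀ a, ρ (algebraMap A T a) = π a) ∧ (∀ r, ρ (algebraMap R T r) = algebraMap R S r) ∧
      maximalIdeal T = mS R T ⊔ Ideal.span (Set.range fun i => algebraMap A T (w i)) ∧
      (RegSeq fun i => Ideal.Quotient.mk (mS R T) (algebraMap A T (w i))) ∧
      Submodule.span A (Set.range (algebraMap R T)) = ⊤ ∧
      ∀ (n : ℕ) (v : Fin n → R), LinearIndependent A0 v →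
        LinearIndependent A fun i => algebraMap R T (v i) := by
  have hle : mS A0 A ≤ maximalIdeal A := hm ▸ le_sup_left
  have : IsLocalHom (algebraMap A0 A) := ((local_hom_TFAE _).out 0 2).2 hle
  obtain ⟨θ, h1, h2, h3⟩ := theta_mten (A := A) hres
  have hθ : Function.Surjective θ := fun y => by
    obtain ⟨a, rfl⟩ := Ideal.Quotient.mk_surjective y
    exact ⟨_, h1 a⟩
  set M := mS R (R ⊗[A0] A) ⊔ (maximalIdeal A).map (algebraMap A (R ⊗[A0] A)) with hM
  have hker : RingHom.ker ((Ideal.Quotient.factor hle).comp θ) = M := by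
    refine le_antisymm (fun x hx => ?_) (sup_le ?_ ?_)
    · obtain ⟨a, ha⟩ := h2 x
      have h4 : θ x = Ideal.Quotient.mk _ a := by
        rw [← h1, ← sub_eq_zero, ← map_sub, ← RingHom.mem_ker, h3]
        exact ha
      rw [RingHom.mem_ker, RingHom.comp_apply, h4, Ideal.Quotient.factor_mk,
        Ideal.Quotient.eq_zero_iff_mem] at hx
      have := add_mem (Ideal.mem_sup_left ha : _ ∈ M)
        (Ideal.mem_sup_right (Ideal.mem_map_of_mem _ hx))
      rwa [sub_add_cancel] at this
    · intro x hx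
      rw [← h3, RingHom.mem_ker] at hx
      rw [RingHom.mem_ker, RingHom.comp_apply, hx, map_zero]
    · rw [Ideal.map_le_iff_le_comap]
      intro a ha
      rw [Ideal.mem_comap, RingHom.mem_ker, RingHom.comp_apply, h1, Ideal.Quotient.factor_mk,
        Ideal.Quotient.eq_zero_iff_mem]
      exact ha
  have hmax : M.IsMaximal := by
    rw [← hker]
    let _ := Ideal.Quotient.field (maximalIdeal A)
    exact RingHom.ker_isMaximal_of_surjective _ ((Ideal.Quotient.factor_surjective hle).comp hθ)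
  have hloc : IsLocalRing (R ⊗[A0] A) :=
    IsLocalRing.of_unique_max_ideal ⟨_, hmax, fun K hK =>
      (hmax.eq_of_le hK.ne_top (le_max_mten K)).symm⟩
  have hfin : Module.Finite A (R ⊗[A0] A) := RingHom.finite_algebraMap.1 ext_includeRight_finite
  obtain ⟨ρ, r1, r2⟩ := lift_mten (A0 := A0) π (algebraMap R S) hc
  refine ⟨R ⊗[A0] A, inferInstance, hloc, IsNoetherianRing.of_finite A _, inferInstance,
    inferInstance, ρ, hfin, inferInstance, fun a => ?_, r1, r2, ?_, ?_, span_mten,
    fun n v hv => indep_mten hv⟩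
  · rw [← IsScalarTower.algebraMap_apply, ← IsScalarTower.algebraMap_apply]
  · rw [← eq_maximalIdeal hmax, hM, hm, Ideal.map_sup, ← sup_assoc, sup_eq_left.2 mS_le_mten,
      Ideal.map_span, ← Set.range_comp]
    rfl
  · refine regSeq_of_equiv_mten
      ((Ideal.quotEquivOfEq h3.symm).trans (RingHom.quotientKerEquivOfSurjective hθ)) ?_
    convert hw using 2 with i
    exact h1 (w i)

end Vale.Agent.P202
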