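import Vale.Agent.P202.MIf
import Vale.Agent.P202.MCore

/-! Passing to a product removes the error. -/

namespace Vale.Agent.P202

open MvPowerSeries
open scoped ENNReal

universe u

/-- Membership in a finitely generated ideal of a product is checked componentwise. -/
theorem mem_of_forall_map_eval {B : ℕ → Type u} [∀ k, CommRing (B k)] {I : Ideal (Π k, B k)}
    (hI : I.FG) (b : Π k, B k) (h : ∀ k, b k ∈ I.map (Pi.evalRingHom B k)) : b ∈ I := by
  obtain ⟨n, g, rfl⟩ := Submodule.fg_iff_exists_fin_generating_family.1 hI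
  have h1 : ∀ k, ∃ c : Fin n → B k, ∑ i, c i * g i k = b k := by
    intro k
    have h2 := h k
    rw [Ideal.submodule_span_eq, Ideal.map_span, ← Set.range_comp] at h2
    exact Ideal.mem_span_range_iff_exists_fun.1 h2
  choose c hc using h1
  refine Ideal.mem_span_range_iff_exists_fun.2 ⟨fun i k => c k i, funext fun k => ?_⟩
  rw [Finset.sum_apply]
  exact hc k

theorem flat_evalRingHom (B : ℕ → Type u) [∀ k, CommRing (B k)] (k : ℕ) :
    (Pi.evalRingHom B k).Flat := by
  classical
  let := (Pi.evalRingHom B k).toAlgebra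
  let i : B k →ₗ[Π k, B k] (Π k, B k) :=
    { toFun := Pi.single k
      map_add' := Pi.single_add k
      map_smul' := fun c x => funext fun j => by
        by_cases h : j = k
        · subst h
          simp only [Pi.single_eq_same, RingHom.id_apply, smul_eq_mul, Pi.mul_apply]
          rfl
        · simp [Pi.single_eq_of_ne h] }
  exact Module.Flat.of_retract i (Algebra.linearMap (Π k, B k) (B k))
    (LinearMap.ext fun x => Pi.single_eq_same k x)

theorem mem_of_forall_mult {B : ℕ → Type u} [∀ k, CommRing (B k)] {s : Set (Π k, B k)}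
    (hs : s.Finite) {b : Π k, B k}
    (h : ∀ k, Pi.evalRingHom B k b ∈ (Ideal.span s).map (Pi.evalRingHom B k)) :
    b ∈ Ideal.span s :=
  mem_of_forall_map_eval (Submodule.fg_span hs) b h

theorem fg_insert_mult {B : Type u} [CommRing B] {σ : Type} [Finite σ] (a : B) (x : σ → B) :
    (Ideal.span (insert a (Set.range x))).FG :=
  Submodule.fg_span ((Set.finite_range x).insert a)

theorem map_insert_mult {B B' : Type u} [CommRing B] [CommRing B'] (f : B →+* B') {σ : Type}
    (a : B) (x : σ → B) : (Ideal.span (insert a (Set.range x))).map f =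
      Ideal.span (insert (f a) (Set.range fun j => f (x j))) := by
  rw [Ideal.map_span, Set.image_insert_eq, ← Set.range_comp]
  rfl

theorem map_single_mult {B B' : Type u} [CommRing B] [CommRing B'] (f : B →+* B') (p n : ℕ) :
    (Ideal.span {(p : B) ^ n}).map f = Ideal.span {(p : B') ^ n} := by
  rw [Ideal.map_span, Set.image_singleton, map_pow, map_natCast]

theorem iface_of_eps {p : ℕ} {A : Type u} [CommRing A] {σ : Type} [Fintype σ] {Xv : σ → A}
    {F : Polynomial A} {Δ : A} {𝓗 : Finset (Polynomial A)} {e q γ : ℕ}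
    (h : ∀ ε : ℝ≥0∞, 0 < ε → ∃ (B : Type u) (_ : CommRing B) (μ : RLen B) (α : A →+* B)
      (w : Option σ → B) (ζ : Fin F.natDegree → B) (κ : B),
      Iface p Xv F Δ 𝓗 e q γ ε B μ α w ζ κ) :
    ∃ (B : Type u) (_ : CommRing B) (μ : RLen B) (α : A →+* B)
      (w : Option σ → B) (ζ : Fin F.natDegree → B) (κ : B),
      Iface p Xv F Δ 𝓗 e q γ 0 B μ α w ζ κ := by
  choose B inst μ α w ζ κ H using fun k : ℕ =>
    h (k : ℝ≥0∞)⁻¹ (ENNReal.inv_pos.2 (ENNReal.natCast_ne_top k))
  let ν : ℕ → RLen (Π k, B k) := fun k =>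
    letI := (Pi.evalRingHom B k).toAlgebra
    haveI : Module.Flat (Π k, B k) (B k) := flat_evalRingHom B k
    (μ k).bc
  have hν : ∀ k I, (ν k).q I = (μ k).q (I.map (Pi.evalRingHom B k)) := fun k I =>
    letI := (Pi.evalRingHom B k).toAlgebra
    haveI : Module.Flat (Π k, B k) (B k) := flat_evalRingHom B k
    (μ k).bc_q I
  have hlim : ∀ I : Ideal (Π k, B k),
      Filter.Tendsto (fun k => (μ k).q (I.map (Pi.evalRingHom B k))) (Filter.hyperfilter ℕ)
        (nhds ((RLen.ulim (Filter.hyperfilter ℕ) ν).q I)) := fun I =>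
    (RLen.tendsto_ulim (Filter.hyperfilter ℕ) ν ((Π k, B k) ⧸ I)).congr fun k => hν k I
  refine ⟨Π k, B k, inferInstance, RLen.ulim (Filter.hyperfilter ℕ) ν, RingHom.pi α,
    fun o k => w k o, fun i k => ζ k i, κ, funext fun k => (H k).w0,
    fun j => funext fun k => (H k).wX j, fun T i hi z hz => ?_, fun n => ?_, fun b => ?_, ?_,
    fun i b r hb => ?_, fun n z hz => ?_, fun i G hG => ?_, ?_⟩
  · refine mem_of_forall_map_eval (Submodule.fg_span (Set.toFinite _)) _ fun k => ?_
    have h1 := Ideal.mem_map_of_mem (Pi.evalRingHom B k) hz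
    rw [Ideal.map_span, Set.image_image] at h1 ⊢
    exact (H k).reg T i hi (z k) h1
  · refine mem_of_forall_mult (Set.toFinite _) fun k => ?_
    rw [map_single_mult, ← Polynomial.coeff_map, Polynomial.map_sub,
      Polynomial.map_map, Polynomial.map_prod]
    simp only [Polynomial.map_sub, Polynomial.map_X, Polynomial.map_C]
    exact (H k).split n
  · exact Pi.isUnit_iff.2 fun k => (H k).jac (b k)
  · refine tendsto_nhds_unique (hlim _) (tendsto_const_nhds.congr fun k => ?_)
    rw [map_insert_mult, map_natCast]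
    exact (H k).one.symm
  · refine mem_of_forall_map_eval (fg_insert_mult _ _).pow _ fun k => ?_
    have h1 := Ideal.mem_map_of_mem (Pi.evalRingHom B k) hb
    rw [Ideal.map_pow, map_insert_mult] at h1 ⊢
    exact (H k).rc i (b k) r h1
  · refine mem_of_forall_map_eval (Submodule.fg_span (Set.toFinite _)) _ fun k => ?_
    have h1 := Ideal.mem_map_of_mem (Pi.evalRingHom B k) hz
    rw [map_single_mult] at h1 ⊢
    exact (H k).colon n (z k) h1
  · refine mem_of_forall_mult (Set.toFinite _) fun k => ?_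
    rw [Ideal.map_span, Set.image_pair, map_pow, map_natCast, map_mul, Polynomial.hom_eval₂]
    exact (H k).div i G hG
  · refine le_of_tendsto_of_tendsto' (hlim _)
      (ENNReal.tendsto_inv_nat_nhds_zero.mono_left Nat.hyperfilter_le_atTop) fun k => ?_
    rw [Ideal.map_span, Set.image_insert_eq, Set.image_insert_eq, ← Set.range_comp, map_natCast]
    exact (H k).small

theorem hasIface {p : ℕ} [Fact p.Prime] {l : Type u} [Field l] [CharP l p]
    [PerfectRing l p] {σ : Type} [Fintype σ] {F : Polynomial (PS σ (WittVector p l))}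
    (hF : F.Monic) {u Δ : PS σ (WittVector p l)} {a : ℕ} (hu : IsUnit u)
    (h0 : F.coeff 0 - p ^ a * u ∈ Ideal.span (Set.range (X : σ → PS σ (WittVector p l))))
    (hΔ : Δ ≠ 0) : ∃ e : ℕ, HasIface p (X : σ → PS σ (WittVector p l)) F Δ e := by
  have : IsDomain (PS σ (WittVector p l)) := NoZeroDivisors.to_isDomain _
  have hp : ¬ IsUnit (p : PS σ (WittVector p l)) := by
    rw [isUnit_iff_constantCoeff, map_natCast]
    exact (WittVector.irreducible p).not_isUnit
  obtain ⟨e, Δ', h1, rfl⟩ := WfDvdMonoid.max_power_factor' hΔ hp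
  refine ⟨e, fun 𝓗 h𝓗 k γ0 => ⟨max γ0 (a + 1), ?_⟩⟩
  obtain ⟨B, _, μ, α, w, ζ, κ, H⟩ := iface_of_eps fun ε hε => exists_iface_eps hF hu h0
    (fun h => h1 (Ideal.mem_span_singleton.1 h)) e 𝓗 h𝓗 k (max γ0 (a + 1))
    (lt_max_of_lt_right (Nat.lt_succ_self a)) ε hε
  exact ⟨B, _, μ, α, w, ζ, κ, le_max_left _ _, H⟩

end Vale.Agent.P202
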