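import Vale.Agent.P202.MSet
import Vale.Agent.P202.MTen
import Vale.Agent.P202.MRes2
import Vale.Agent.P202.MUlt

/-! Lech's inequality for a complete domain of mixed characteristic. -/

namespace Vale.Agent.P202

open IsLocalRing Polynomial

universe u

theorem nzd_of_flat_mdom {R S : Type u} [CommRing R] [IsDomain R] [CommRing S] [Algebra R S]
    [Module.Flat R S] {c : R} (hc : c ≠ 0) : algebraMap R S c ∈ nonZeroDivisors S :=
  mem_nonZeroDivisors_of_flat (RingHom.flat_algebraMap_iff.2 inferInstance)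
    (mem_nonZeroDivisors_of_ne_zero hc)

variable {p : ℕ} [Fact p.Prime] {l : Type u} [Field l] [CharP l p] [PerfectRing l p] [Infinite l]
  {R S : Type u} [CommRing R] [IsDomain R] [IsLocalRing R] [IsNoetherianRing R] [CommRing S]
  [IsLocalRing S] [IsNoetherianRing S] [Algebra R S] [IsLocalHom (algebraMap R S)]
  [Module.Flat R S] [IsAdicComplete (maximalIdeal S) S]

theorem lech_hyp {C0 : Type u} [CommRing C0] [IsDomain C0] [IsDiscreteValuationRing C0]
    (hC : maximalIdeal C0 = Ideal.span {(p : C0)}) {d : ℕ} [Algebra (PS (Fin d) C0) R]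
    [Module.Finite (PS (Fin d) C0) R] [IsLocalHom (algebraMap (PS (Fin d) C0) R)]
    (hinj : Function.Injective (algebraMap (PS (Fin d) C0) R))
    (hres : Function.Surjective ((residue R).comp (algebraMap (PS (Fin d) C0) R))) {θ : R}
    {F : (PS (Fin d) C0)[X]} {a : ℕ} {u Δ : PS (Fin d) C0} (h : Hyp p MvPowerSeries.X θ F a u)
    (hred : IsRed (par (MvPowerSeries.X : Fin d → PS (Fin d) C0) θ)) (hΔ0 : Δ ≠ 0)
    (hΔ : ∀ b : R, ∃ H : (PS (Fin d) C0)[X], aeval θ H = Δ • b)
    (ω : WittVector p l →+* S) (hω : Function.Surjective ((residue S).comp ω))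
    (hd : ringKrullDim S = (d + 1 : ℕ)) {e : ℝ} (he : IsMult S (maximalIdeal S) (d + 1) e) :
    (a : ℝ) ≤ e := by
  have hW := (isCohen_witt p l).max
  have := charZero_of_unram hC
  have : CharZero (PS (Fin d) C0) :=
    charZero_of_injective_ringHom (f := (MvPowerSeries.C : C0 →+* PS (Fin d) C0))
      MvPowerSeries.C_injective
  have : IsDomain (PS (Fin d) C0) := NoZeroDivisors.to_isDomain _
  obtain ⟨Γ, hΓ0, hΓ⟩ := exists_gamma hinj h.monic h.root h.ker
  obtain ⟨g, π, f, y, j1, hπ, hπf, hfX, hj, hy⟩ := exists_present hC ω hω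
    ((algebraMap R S).comp (algebraMap (PS (Fin d) C0) R))
    (fun j => map_nonunit (algebraMap R S) _ (hred.1 (some j))) hd
  let : Algebra (PS (Fin d) C0) (PS (Fin d ⊕ Fin g) (WittVector p l)) := f.toAlgebra
  obtain ⟨hfl, hff⟩ := ps_flat_of_unram hC hW Sum.inl Sum.inl_injective f hfX
  have : Module.Flat (PS (Fin d) C0) (PS (Fin d ⊕ Fin g) (WittVector p l)) := hff
  have : IsLocalHom (algebraMap (PS (Fin d) C0) (PS (Fin d ⊕ Fin g) (WittVector p l))) := hfl
  obtain ⟨hm, hw⟩ := ps_fibre hC hW (d := d) (g := g) hfX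
  obtain ⟨T, _, _, _, _, _, ρ, hfin, hflat, hc, hρA, hρR, hmT, hwT, hsp, hli⟩ :=
    exists_tensor hres π hπf _ hm hw
  have hρA' : ρ.comp (algebraMap _ T) = π := RingHom.ext hρA
  have hρ : Function.Surjective ρ := by
    intro s
    obtain ⟨x, rfl⟩ := hπ s
    exact ⟨_, hρA x⟩
  have hJ : RingHom.ker ρ ≠ ⊤ := RingHom.ker_ne_top ρ
  have : Module.Flat R (T ⧸ RingHom.ker ρ) := by
    let ρ' : T →ₐ[R] S := { ρ with commutes' := hρR }
    exact Module.Flat.of_linearEquiv
      (Ideal.quotientKerAlgEquivOfSurjective (f := ρ') hρ).toLinearEquiv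
  obtain ⟨K, hL, hent, hsq, hrow, hnh⟩ := exists_res _ hmT hwT (RingHom.ker ρ) hJ
  have hH := h.transfer (Yv := (MvPowerSeries.X : Fin d ⊕ Fin g → _))
    (fun j => Ideal.subset_span ⟨Sum.inl j, (hfX j).symm⟩) hc hli
  obtain ⟨hθm, hXm, n0, hn0⟩ := red_transfer (Yv := (MvPowerSeries.X : Fin d ⊕ Fin g → _))
    hred hfX hc hmT
  have hfinj : Function.Injective
      (algebraMap (PS (Fin d) C0) (PS (Fin d ⊕ Fin g) (WittVector p l))) := by
    have := Module.FaithfullyFlat.of_flat_of_isLocalHom (A := PS (Fin d) C0)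
      (B := PS (Fin d ⊕ Fin g) (WittVector p l))
    exact FaithfulSMul.algebraMap_injective _ _
  obtain ⟨e0, hI⟩ := hasIface hH.monic hH.unit hH.ord
    (Δ := algebraMap (PS (Fin d) C0) _ Δ) (fun h0 => hΔ0 (hfinj (h0.trans (map_zero _).symm)))
  have hmA : maximalIdeal (PS (Fin d ⊕ Fin g) (WittVector p l)) =
      Ideal.span (insert (p : PS (Fin d ⊕ Fin g) (WittVector p l))
        (Set.range MvPowerSeries.X)) := by
    rw [psl_maximalIdeal_of_span hW, map_natCast]
  have hΓ' : C (algebraMap (PS (Fin d) C0) (PS (Fin d ⊕ Fin g) (WittVector p l)) Γ) ∈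
      Ideal.span {F.map (algebraMap _ _), derivative (F.map (algebraMap _ _))} := by
    obtain ⟨b1, b2, hb⟩ := Ideal.mem_span_pair.1 hΓ
    refine Ideal.mem_span_pair.2 ⟨b1.map (algebraMap _ _), b2.map (algebraMap _ _), ?_⟩
    rw [derivative_map, ← Polynomial.map_mul, ← Polynomial.map_mul, ← Polynomial.map_add, hb,
      map_C]
  have := IsLocalHom.of_surjective ρ hρ
  refine le_mult_of_frob hy hd (Γ := algebraMap R S (algebraMap (PS (Fin d) C0) R Γ))
    (nzd_of_flat_mdom fun h0 => hΓ0 (hinj (h0.trans (map_zero _).symm)))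
    (s := (F.map (algebraMap (PS (Fin d) C0) (PS (Fin d ⊕ Fin g) (WittVector p l)))).natDegree)
    (n0 := Fintype.card (Fin d ⊕ Fin g) + 1) (fun n hn => ?_) he
  have hmap : (Ideal.span (Set.range fun i => algebraMap _ T
      (MvPowerSeries.X (Sum.inr (y i)) : PS (Fin d ⊕ Fin g) (WittVector p l)) ^ n)).map ρ =
      Ideal.span (Set.range fun i => π (MvPowerSeries.X (Sum.inr (y i))) ^ n) := by
    rw [Ideal.map_span, ← Set.range_comp]
    congr 2
    funext i
    simp [hρA]
  obtain ⟨t, ht⟩ := (hy.isSop.pow (q := n) (by omega)).2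
  have hl1 := length_transfer ρ (hρA' ▸ hπ) (Ideal.span (Set.range fun i => algebraMap _ T
      (MvPowerSeries.X (Sum.inr (y i)) : PS (Fin d ⊕ Fin g) (WittVector p l)) ^ n))
  have hl2 := length_transfer ρ (hρA' ▸ hπ) (Ideal.span (Set.range fun i => algebraMap _ T
      (MvPowerSeries.X (Sum.inr (y i)) : PS (Fin d ⊕ Fin g) (WittVector p l)) ^ n) ⊔
      Ideal.span {algebraMap _ T
        (algebraMap (PS (Fin d) C0) (PS (Fin d ⊕ Fin g) (WittVector p l)) Γ)})
  rw [Ideal.map_sup, hmap, Ideal.map_span, Set.image_singleton, hc, hρR, ← hc, ← sup_assoc] at hl2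
  rw [hmap] at hl1
  rw [← hl1, ← hl2, ← hrow]
  refine mix_core (t := t) Fact.out hI hmA hH.unit hH.ord hΓ' (algebraMap R T θ) hH.root hH.ker
    (delta_transfer hΔ hc hsp) hn0 hθm hXm K (by simp; omega) hL hent hsq hnh
    (fun i => Sum.inr (y i)) (Sum.inr j1) (fun h0 => hj (Sum.inr_injective h0)) hn ?_ ?_
  · rw [hrow]
    have h1 : maximalIdeal T ^ t ≤ (maximalIdeal S ^ t).comap ρ := by
      rw [← Ideal.map_le_iff_le_comap, Ideal.map_pow]
      exact Ideal.pow_right_mono (map_maximalIdeal_lt_top ρ |> fun h => le_maximalIdeal h.ne) t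
    refine h1.trans ((Ideal.comap_mono ht).trans ?_)
    rw [← hmap, Ideal.comap_map_of_surjective _ hρ, sup_comm]
    exact le_rfl
  · rw [hrow, hl1]
    exact ra_ne_top ht

theorem lech_domain_mix [IsAdicComplete (maximalIdeal R) R] [Infinite (ResidueField R)]
    (ω : WittVector p l →+* S) (hω : Function.Surjective ((residue S).comp ω))
    (hp0 : (p : R) ≠ 0) (hd : ringKrullDim S = ringKrullDim R) : LechIneq R S := by
  intro d D eR eS h1 h2 heR heS
  obtain rfl : D = d := by
    rw [hd, h1] at h2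
    exact_mod_cast h2.symm
  have hpR : (p : R) ∈ maximalIdeal R := by
    have h1 := (infinite_residue_of_witt ω hω).2
    rw [← map_natCast (algebraMap R S)] at h1
    exact fun hu => h1 (hu.map _)
  obtain ⟨d, rfl⟩ : ∃ d, D = d + 1 := by
    cases D with
    | succ d => exact ⟨d, rfl⟩
    | zero =>
      exfalso
      have : Ring.KrullDimLE 0 R := ringKrullDimZero_iff_ringKrullDim_eq_zero.2 h1
      have h3 : (⊥ : Ideal R).IsMaximal := Ideal.IsPrime.isMaximal' inferInstance
      rw [← eq_maximalIdeal h3] at hpR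
      exact hp0 hpR
  have : CharP (ResidueField R) p := by
    refine charP_of_eq_zero Fact.out ?_
    rw [← map_natCast (residue R), residue_eq_zero_iff]
    exact hpR
  obtain ⟨C0, _, _, _, π, hC, hπ⟩ := exists_cohen p (ResidueField R)
  obtain ⟨ω0, hω0⟩ := dvr_lift hC.max hpR (residue R) residue_surjective π
  obtain ⟨_, x0, hfin, hinj, hloc, hCω, hred0⟩ :=
    exists_noether hC ω0 (hω0 ▸ hπ) hpR hp0 h1
  have := charZero_of_unram hC.max
  have : CharZero (PS (Fin d) C0) :=
    charZero_of_injective_ringHom (f := (MvPowerSeries.C : C0 →+* PS (Fin d) C0))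
      MvPowerSeries.C_injective
  have : IsDomain (PS (Fin d) C0) := NoZeroDivisors.to_isDomain _
  obtain ⟨θ, Δ, hred, hΔ0, hΔ⟩ := exists_prim hinj (c := (p : PS (Fin d) C0))
    (Nat.cast_ne_zero.2 (Fact.out : p.Prime).ne_zero) (by rwa [map_natCast]) hred0
  obtain ⟨F, a, u, h⟩ := exists_hyp hC.max hinj hred.isSop
  have hres : Function.Surjective ((residue R).comp (algebraMap (PS (Fin d) C0) R)) := by
    intro z
    obtain ⟨c, rfl⟩ := hπ z
    exact ⟨MvPowerSeries.C c, by rw [RingHom.comp_apply, hCω, ← hω0, RingHom.comp_apply]⟩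
  exact (h.le hC.max hinj hred hΔ0 hΔ (by simpa using heR)).trans
    (lech_hyp hC.max hinj hres h hred hΔ0 hΔ ω hω h2 heS)

end Vale.Agent.P202
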