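import Vale.Agent.P202.Coef

/-! The lifting property of unramified discrete valuation rings. -/

namespace Vale.Agent.P202

open IsLocalRing

universe u

variable {p : ℕ} [Fact p.Prime] {C : Type u} [CommRing C] [IsDomain C] [IsDiscreteValuationRing C]

omit [Fact p.Prime] in
theorem charZero_mlift (h1 : maximalIdeal C = Ideal.span {(p : C)}) : CharZero C := by
  obtain ⟨l, hl⟩ := CharP.exists C
  rcases CharP.char_is_prime_or_zero C l with hp | rfl
  · exfalso
    by_cases h : l ∣ p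
    · refine IsDiscreteValuationRing.not_a_field C ?_
      rw [h1, (CharP.cast_eq_zero_iff C l p).2 h, Ideal.span_singleton_zero]
    · have h2 : (p : C) ∈ maximalIdeal C := h1 ▸ Ideal.subset_span rfl
      have h3 : IsCoprime (l : C) (p : C) := by
        have := (Nat.isCoprime_iff_coprime.2 ((Nat.Prime.coprime_iff_not_dvd hp).2 h)).map
          (Int.castRingHom C)
        simpa using this
      rw [CharP.cast_eq_zero, isCoprime_zero_left] at h3
      exact h2 h3
  · exact CharP.charP_to_charZero C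

theorem flat_quot_mlift {R S : Type*} [CommRing R] [CommRing S] [Algebra R S] [Module.Flat R S]
    (I : Ideal R) : Module.Flat (R ⧸ I) (S ⧸ I.map (algebraMap R S)) :=
  Module.Flat.of_linearEquiv (Algebra.TensorProduct.quotIdealMapEquivQuotTensor S I).toLinearEquiv

theorem smooth_mlift (h : maximalIdeal C = Ideal.span {(p : C)}) (j : ℕ) :
    Algebra.FormallySmooth (ℤ ⧸ Ideal.span {(p : ℤ)} ^ (j + 1))
      (C ⧸ (Ideal.span {(p : ℤ)} ^ (j + 1)).map (algebraMap ℤ C)) := by
  have := charZero_mlift h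
  induction j with
  | zero =>
    have e : (Ideal.span {(p : ℤ)} ^ (0 + 1)).map (algebraMap ℤ C) = maximalIdeal C := by
      rw [zero_add, pow_one, h, Ideal.map_span, Set.image_singleton, map_natCast]
    have hp : (p : ResidueField C) = 0 := by
      rw [← map_natCast (residue C), residue_eq_zero_iff, h]
      exact Ideal.subset_span rfl
    have : CharP (ResidueField C) p := (CharP.charP_iff_prime_eq_zero Fact.out).2 hp
    let : Algebra (ZMod p) (ResidueField C) := ZMod.algebra _ p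
    have h1 := RingHom.formallySmooth_algebraMap.2 (formallySmooth_zmod (ResidueField C) p)
    let e1 : (ℤ ⧸ Ideal.span {(p : ℤ)} ^ (0 + 1)) ≃+* ZMod p :=
      (Ideal.quotEquivOfEq (by rw [zero_add, pow_one])).trans (Int.quotientSpanNatEquivZMod p)
    let e2 : ResidueField C ≃+* C ⧸ (Ideal.span {(p : ℤ)} ^ (0 + 1)).map (algebraMap ℤ C) :=
      Ideal.quotEquivOfEq e.symm
    have h2 := ((RingHom.FormallySmooth.of_bijective (f := e1.toRingHom) e1.bijective).comp
      h1).comp (RingHom.FormallySmooth.of_bijective (f := e2.toRingHom) e2.bijective)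
    rw [← RingHom.formallySmooth_algebraMap]
    convert h2 using 1
    exact Ideal.Quotient.ringHom_ext (RingHom.ext_int _ _)
  | succ j ih =>
    have hle : Ideal.span {(p : ℤ)} ^ (j + 1 + 1) ≤ Ideal.span {(p : ℤ)} ^ (j + 1) :=
      Ideal.pow_le_pow_right (Nat.le_succ _)
    rw [← RingHom.formallySmooth_algebraMap] at ih ⊢
    refine RingHom.FormallySmooth.of_flat_of_ker_eq_map_of_square_zero _
      (RingHom.flat_algebraMap_iff.2 (flat_quot_mlift _)) (Ideal.Quotient.factor hle)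
      (Ideal.Quotient.factor (Ideal.map_mono hle)) _ (Ideal.Quotient.factor_surjective _)
      (Ideal.Quotient.factor_surjective _) (Ideal.Quotient.ringHom_ext (RingHom.ext_int _ _))
      ?_ ?_ ih
    · rw [Ideal.Quotient.factor_ker, ← Ideal.map_pow, ← pow_mul, Ideal.map_eq_bot_iff_le_ker,
        Ideal.mk_ker]
      exact Ideal.pow_le_pow_right (by omega)
    · rw [Ideal.Quotient.factor_ker, Ideal.Quotient.factor_ker, Ideal.map_map, Ideal.map_map]
      congr 1

/-- Infinitesimal lifting into rings killed by a power of `p`. -/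
theorem dvr_lift_sq (h : maximalIdeal C = Ideal.span {(p : C)}) {B : Type u} [CommRing B] {n : ℕ}
    (hB : (p : B) ^ n = 0) (I : Ideal B) (hI : I ^ 2 = ⊥) (f : C →+* B ⧸ I) :
    ∃ g : C →+* B, (Ideal.Quotient.mk I).comp g = f := by
  have hs := smooth_mlift h n
  set J := Ideal.span {(p : ℤ)} ^ (n + 1) with hJ
  have h1 : J ≤ RingHom.ker (algebraMap ℤ B) := by
    rw [hJ, Ideal.span_singleton_pow, Ideal.span_le, Set.singleton_subset_iff, SetLike.mem_coe,
      RingHom.mem_ker, map_pow, map_natCast, pow_succ, hB, zero_mul]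
  have h2 : J.map (algebraMap ℤ C) ≤ RingHom.ker f := by
    rw [Ideal.map_le_iff_le_comap]
    intro z hz
    rw [Ideal.mem_comap, RingHom.mem_ker, ← RingHom.comp_apply,
      RingHom.ext_int (f.comp (algebraMap ℤ C)) ((Ideal.Quotient.mk I).comp (algebraMap ℤ B)),
      RingHom.comp_apply, RingHom.mem_ker.1 (h1 hz), map_zero]
  let : Algebra (ℤ ⧸ J) B := (Ideal.Quotient.lift J (algebraMap ℤ B) h1).toAlgebra
  let f' : C ⧸ J.map (algebraMap ℤ C) →+* B ⧸ I := Ideal.Quotient.lift _ f h2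
  have hc : f'.comp (algebraMap (ℤ ⧸ J) _) = algebraMap (ℤ ⧸ J) (B ⧸ I) :=
    Ideal.Quotient.ringHom_ext (RingHom.ext_int _ _)
  obtain ⟨g, hg⟩ := Algebra.FormallySmooth.comp_surjective (ℤ ⧸ J)
    (C ⧸ J.map (algebraMap ℤ C)) I hI ⟨f', fun r => RingHom.congr_fun hc r⟩
  exact ⟨g.toRingHom.comp (Ideal.Quotient.mk _),
    RingHom.ext fun c => AlgHom.congr_fun hg (Ideal.Quotient.mk _ c)⟩

theorem glue_mlift {C A S1 S2 T : Type u} [CommRing C] [CommRing A] [CommRing S1] [CommRing S2]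
    [CommRing T] (π1 : A →+* S1) (π2 : A →+* S2) (ρ : A →+* T)
    (hρ : ∀ x, π1 x = 0 → π2 x = 0 → ρ x = 0) (f1 : C →+* S1) (f2 : C →+* S2)
    (h : ∀ c, ∃ x, π1 x = f1 c ∧ π2 x = f2 c) :
    ∃ g : C →+* T, ∀ c x, π1 x = f1 c → π2 x = f2 c → g c = ρ x := by
  choose y h1 h2 using h
  have key : ∀ c x, π1 x = f1 c → π2 x = f2 c → ρ (y c) = ρ x := by
    intro c x e1 e2
    rw [← sub_eq_zero, ← map_sub]
    exact hρ _ (by rw [map_sub, h1, e1, sub_self]) (by rw [map_sub, h2, e2, sub_self])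
  refine ⟨⟨⟨⟨fun c => ρ (y c), ?_⟩, fun c d => ?_⟩, ?_, fun c d => ?_⟩, key⟩
  · rw [key 1 1 (by simp) (by simp), map_one]
  · exact (key (c * d) (y c * y d) (by simp [h1]) (by simp [h2])).trans (map_mul ρ _ _)
  · exact (key 0 0 (by simp) (by simp)).trans (map_zero ρ)
  · exact (key (c + d) (y c + y d) (by simp [h1]) (by simp [h2])).trans (map_add ρ _ _)

theorem step_mlift (h : maximalIdeal C = Ideal.span {(p : C)}) {A S : Type u} [CommRing A]
    [IsLocalRing A] [CommRing S] (hp : (p : A) ∈ maximalIdeal A) (π : A →+* S) [Nontrivial S]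
    (f : C →+* S) (n : ℕ) (g : C →+* A ⧸ maximalIdeal A ^ n)
    (hg : ∀ c, ∃ x, Ideal.Quotient.mk _ x = g c ∧ π x = f c) :
    ∃ g' : C →+* A ⧸ maximalIdeal A ^ (n + 1),
      (∀ c, ∃ x, Ideal.Quotient.mk _ x = g' c ∧ π x = f c) ∧
      (Ideal.Quotient.factorPow (maximalIdeal A) (Nat.le_succ n)).comp g' = g := by
  set N := maximalIdeal A ^ n ⊓ RingHom.ker π with hN
  set I := N.map (Ideal.Quotient.mk (maximalIdeal A ^ (n + 1))) with hI
  have hI2 : I ^ 2 = ⊥ := by
    rw [hI, ← Ideal.map_pow, Ideal.map_eq_bot_iff_le_ker, Ideal.mk_ker, pow_two, pow_succ]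
    exact Ideal.mul_mono inf_le_left
      (inf_le_right.trans (le_maximalIdeal (RingHom.ker_ne_top π)))
  obtain ⟨g1, h1⟩ := glue_mlift (Ideal.Quotient.mk (maximalIdeal A ^ n)) π
    ((Ideal.Quotient.mk I).comp (Ideal.Quotient.mk (maximalIdeal A ^ (n + 1))))
    (fun x e1 e2 => Ideal.Quotient.eq_zero_iff_mem.2
      (Ideal.mem_map_of_mem _ ⟨Ideal.Quotient.eq_zero_iff_mem.1 e1, e2⟩)) g f hg
  obtain ⟨g', h2⟩ := dvr_lift_sq h (B := A ⧸ maximalIdeal A ^ (n + 1)) (n := n + 1) (by
    rw [← map_natCast (Ideal.Quotient.mk (maximalIdeal A ^ (n + 1))), ← map_pow,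
      Ideal.Quotient.eq_zero_iff_mem]
    exact Ideal.pow_mem_pow hp _) I hI2 g1
  have key : ∀ c, ∃ x, Ideal.Quotient.mk _ x = g' c ∧ π x = f c ∧ Ideal.Quotient.mk _ x = g c := by
    intro c
    obtain ⟨x, e1, e2⟩ := hg c
    have e3 := h1 c x e1 e2
    rw [← h2, RingHom.comp_apply, RingHom.comp_apply, Ideal.Quotient.eq, hI,
      Ideal.mem_map_iff_of_surjective _ Ideal.Quotient.mk_surjective] at e3
    obtain ⟨a, ha, e4⟩ := e3
    refine ⟨x + a, by rw [map_add, e4, add_sub_cancel], ?_, ?_⟩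
    · rw [map_add, e2, RingHom.mem_ker.1 ha.2, add_zero]
    · rw [map_add, e1, Ideal.Quotient.eq_zero_iff_mem.2 ha.1, add_zero]
  refine ⟨g', fun c => (key c).imp fun x hx => ⟨hx.1, hx.2.1⟩, RingHom.ext fun c => ?_⟩
  obtain ⟨x, e1, -, e2⟩ := key c
  rw [RingHom.comp_apply, ← e1, ← e2]
  rfl

theorem dvr_lift (h : maximalIdeal C = Ideal.span {(p : C)}) {A S : Type u} [CommRing A]
    [IsLocalRing A] [IsNoetherianRing A] [IsAdicComplete (maximalIdeal A) A] [CommRing S]
    (hp : (p : A) ∈ maximalIdeal A) (π : A →+* S) (hπ : Function.Surjective π) [Nontrivial S]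
    (f : C →+* S) : ∃ g : C →+* A, π.comp g = f := by
  choose st h1 h2 using step_mlift h hp π f
  have : Subsingleton (A ⧸ maximalIdeal A ^ 0) := by
    rw [Ideal.Quotient.subsingleton_iff, pow_zero, Ideal.one_eq_top]
  let g0 : C →+* A ⧸ maximalIdeal A ^ 0 :=
    ⟨⟨⟨fun _ => 0, Subsingleton.elim _ _⟩, fun _ _ => Subsingleton.elim _ _⟩,
      Subsingleton.elim _ _, fun _ _ => Subsingleton.elim _ _⟩
  let G : (n : ℕ) → {g : C →+* A ⧸ maximalIdeal A ^ n //
      ∀ c, ∃ x, Ideal.Quotient.mk _ x = g c ∧ π x = f c} := fun n =>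
    Nat.rec ⟨g0, fun c => (hπ (f c)).imp fun x hx => ⟨Subsingleton.elim _ _, hx⟩⟩
      (fun n g => ⟨st n g.1 g.2, h1 n g.1 g.2⟩) n
  have hG : ∀ n, (Ideal.Quotient.factorPow (maximalIdeal A) (Nat.le_succ n)).comp (G (n + 1)).1 =
      (G n).1 := fun n => h2 n (G n).1 (G n).2
  have hc : ∀ {m n : ℕ} (hle : m ≤ n),
      (Ideal.Quotient.factorPow (maximalIdeal A) hle).comp (G n).1 = (G m).1 := by
    intro m n hle
    induction n, hle using Nat.le_induction with
    | base =>
      refine RingHom.ext fun c => ?_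
      obtain ⟨x, hx⟩ := Ideal.Quotient.mk_surjective ((G m).1 c)
      rw [RingHom.comp_apply, ← hx]
      rfl
    | succ n hle ih =>
      rw [← ih, ← hG n]
      refine RingHom.ext fun c => ?_
      obtain ⟨x, hx⟩ := Ideal.Quotient.mk_surjective ((G (n + 1)).1 c)
      simp only [RingHom.comp_apply, ← hx]
      rfl
  refine ⟨IsAdicComplete.liftRingHom (maximalIdeal A) (fun n => (G n).1) hc,
    RingHom.ext fun c => ?_⟩
  let := π.toAlgebra
  have : Module.Finite A S := Module.Finite.of_surjective (Algebra.linearMap A S) hπ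
  rw [← sub_eq_zero, ← Submodule.mem_bot A, ← (maximalIdeal A).iInf_pow_smul_eq_bot_of_isLocalRing
    (M := S) (maximalIdeal.isMaximal A).ne_top, Submodule.mem_iInf]
  intro n
  obtain ⟨x, e1, e2⟩ := (G n).2 c
  rw [← IsAdicComplete.mk_liftRingHom (maximalIdeal A) (fun n => (G n).1) hc n c, eq_comm,
    Ideal.Quotient.eq] at e1
  rw [← e2, RingHom.comp_apply, ← map_sub, Ideal.smul_top_eq_map]
  exact Ideal.mem_map_of_mem π e1

end Vale.Agent.P202
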