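import Vale.Agent.P202.MPS
import Vale.Agent.P202.MCoh
import Vale.Agent.P202.MLift

/-! Extension of the residue field to a perfect field. -/

namespace Vale.Agent.P202

open IsLocalRing

universe u

attribute [local instance] Algebra.TensorProduct.rightAlgebra in
open TensorProduct in
theorem aux_mgon {A A' S : Type u} [CommRing A] [CommRing A'] [CommRing S] [IsLocalRing A]
    [IsLocalRing A'] [IsLocalRing S] [IsNoetherianRing A'] [Algebra A A'] [Algebra A S]
    (hU : Unr A A') (hψ : Function.Surjective (algebraMap A S)) :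
    ∃ (S' : Type u) (_ : CommRing S') (_ : IsLocalRing S') (_ : IsNoetherianRing S')
      (_ : Algebra S S') (π : A' →+* S'), Unr S S' ∧ Function.Surjective π := by
  have := hU.flat
  have := hU.isLocalHom
  have : Module.FaithfullyFlat A A' := Module.FaithfullyFlat.of_flat_of_isLocalHom
  have hπ : Function.Surjective (algebraMap A' (S ⊗[A] A')) :=
    RingHom.surjective_isStableUnderBaseChange A S A' (S ⊗[A] A') hψ
  have hloc : IsLocalRing (S ⊗[A] A') := IsLocalRing.of_surjective' _ hπ
  refine ⟨S ⊗[A] A', inferInstance, hloc, isNoetherianRing_of_surjective _ _ _ hπ, inferInstance,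
    algebraMap A' (S ⊗[A] A'), ⟨inferInstance, ?_⟩, hπ⟩
  rw [← map_maximalIdeal_of_surjective _ hπ, ← map_maximalIdeal_of_surjective _ hψ, ← hU.map_eq,
    Ideal.map_map, Ideal.map_map, ← IsScalarTower.algebraMap_eq, ← IsScalarTower.algebraMap_eq]

theorem exists_gonfl (p : ℕ) [Fact p.Prime] (S : Type u) [CommRing S] [IsLocalRing S]
    [IsNoetherianRing S] [IsAdicComplete (maximalIdeal S) S] (hp : (p : S) ∈ maximalIdeal S) :
    ∃ (l : Type u) (_ : Field l) (_ : CharP l p) (_ : PerfectRing l p) (_ : Infinite l)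
      (S' : Type u) (_ : CommRing S') (_ : IsLocalRing S') (_ : IsNoetherianRing S')
      (_ : Algebra S S') (ω : WittVector p l →+* S'), Unr S S' ∧
      IsAdicComplete (maximalIdeal S') S' ∧ Function.Surjective ((residue S').comp ω) := by
  have : CharP (ResidueField S) p := (CharP.charP_iff_prime_eq_zero Fact.out).2 (by
    rw [← map_natCast (residue S), residue_eq_zero_iff]; exact hp)
  obtain ⟨C0, _, _, _, π, hC, hπ⟩ := exists_cohen p (ResidueField S)
  obtain ⟨g, hg⟩ := dvr_lift hC.max hp (residue S) residue_surjective π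
  obtain ⟨n, z, hz⟩ := Submodule.fg_iff_exists_fin_generating_family.1
    (IsNoetherian.noetherian (maximalIdeal S))
  obtain ⟨φ, hφC, hφX⟩ := exists_psHom (maximalIdeal S) g z fun i =>
    hz ▸ Submodule.subset_span ⟨i, rfl⟩
  have hz' : Ideal.span (Set.range fun i => φ (MvPowerSeries.X i)) = maximalIdeal S := by
    simp only [hφX]; exact hz
  have hφ : Function.Surjective φ := by
    have : IsHausdorff (Ideal.span (Set.range fun i => φ (MvPowerSeries.X i))) S := by
      rw [hz']; infer_instance
    refine psHom_surjective φ fun y => ?_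
    obtain ⟨y, rfl⟩ := Ideal.Quotient.mk_surjective y
    obtain ⟨c, hc⟩ := hπ (residue S y)
    refine ⟨c, Ideal.Quotient.eq.2 ?_⟩
    rw [hz', ← residue_eq_zero_iff, map_sub, RingHom.comp_apply, hφC, ← hc, ← hg,
      RingHom.comp_apply, sub_self]
  let l := AlgebraicClosure (ResidueField S)
  have hW := isCohen_witt p l
  have := hW.complete
  obtain ⟨j, -⟩ := dvr_lift (A := WittVector p l) hC.max (hW.max ▸ Ideal.subset_span rfl)
    WittVector.constantCoeff (fun x => ⟨WittVector.teichmuller p x, rfl⟩)
    ((algebraMap (ResidueField S) l).comp π)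
  obtain ⟨-, hfl⟩ := ps_flat_of_unram hC.max hW.max (id : Fin n → Fin n) Function.injective_id
    (MvPowerSeries.map j) fun i => by simp
  obtain ⟨S', _, _, _, _, ρ, hU, hρ⟩ := @aux_mgon (PS (Fin n) C0) (PS (Fin n) (WittVector p l)) S
    _ _ _ _ _ _ _ (MvPowerSeries.map j).toAlgebra φ.toAlgebra
    (@Unr.mk _ _ _ _ _ _ (MvPowerSeries.map j).toAlgebra hfl (by
      rw [RingHom.algebraMap_toAlgebra, psl_maximalIdeal_of_span hC.max,
        psl_maximalIdeal_of_span hW.max, Ideal.map_span, Set.image_insert_eq, ← Set.range_comp]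
      congr 2
      · simp
      · congr 1
        funext i
        simp)) hφ
  have := psl_complete (σ := Fin n) (Λ := WittVector p l)
  refine ⟨l, _, inferInstance, inferInstance, inferInstance, S', _, ‹_›, ‹_›, _,
    ρ.comp MvPowerSeries.C, hU, complete_of_surjective ρ hρ, fun y => ?_⟩
  obtain ⟨y, rfl⟩ := residue_surjective y
  obtain ⟨a, rfl⟩ := hρ y
  obtain ⟨c, hc⟩ := psl_residue_surjective (residue _ a)
  refine ⟨c, Ideal.Quotient.eq.2 ?_⟩
  rw [← map_maximalIdeal_of_surjective _ hρ, RingHom.comp_apply, ← map_sub]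
  exact Ideal.mem_map_of_mem _ (Ideal.Quotient.eq.1 hc)

end Vale.Agent.P202
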