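import Vale.Agent.P202.MDom
import Vale.Agent.P202.MGon

/-! Lech's conjecture. -/

namespace Vale.Agent.P202

open IsLocalRing

universe u

variable {R S : Type u} [CommRing R] [IsLocalRing R] [IsNoetherianRing R] [CommRing S]
  [IsLocalRing S] [IsNoetherianRing S] [Algebra R S] [IsLocalHom (algebraMap R S)]
  [Module.Flat R S]

theorem res_surj_mfinal {W S S1 : Type u} [CommRing W] [CommRing S] [IsLocalRing S] [CommRing S1]
    [IsLocalRing S1] (ω : W →+* S) (hω : Function.Surjective ((residue S).comp ω))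
    (π : S →+* S1) (hπ : Function.Surjective π) :
    Function.Surjective ((residue S1).comp (π.comp ω)) := by
  have := IsLocalHom.of_surjective π hπ
  intro z
  obtain ⟨z, rfl⟩ := residue_surjective z
  obtain ⟨s, rfl⟩ := hπ z
  obtain ⟨a, ha⟩ := hω (residue S s)
  refine ⟨a, ?_⟩
  have h1 : ω a - s ∈ maximalIdeal S := by
    rw [← Ideal.Quotient.eq]
    exact ha
  have h2 : π (ω a - s) ∈ maximalIdeal S1 := map_nonunit π _ h1
  rw [map_sub] at h2
  exact Ideal.Quotient.eq.2 h2

theorem lech_eqdim_complete {p : ℕ} [Fact p.Prime] {l : Type u} [Field l] [CharP l p]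
    [PerfectRing l p] [Infinite l] [IsAdicComplete (maximalIdeal R) R]
    [Infinite (ResidueField R)] [IsAdicComplete (maximalIdeal S) S] (ω : WittVector p l →+* S)
    (hω : Function.Surjective ((residue S).comp ω)) (hd : ringKrullDim S = ringKrullDim R) :
    LechIneq R S := by
  intro d D eR eS h1 h2 heR heS
  obtain rfl : D = d := by
    rw [hd, h1] at h2
    exact_mod_cast h2.symm
  have hfl : (algebraMap R S).Flat := RingHom.flat_algebraMap_iff.2 inferInstance
  obtain ⟨a, ha1, ha2⟩ := prime_red (RingHom.id R) (algebraMap R S) hfl D D (fun Q hQ => by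
    obtain ⟨S1, _, _, _, _, _, _, hloc, hflat, hsq⟩ := exists_quotSq (S := S) Q hQ.ne_top
    have hk1 : RingHom.ker (algebraMap R (R ⧸ Q)) = Q := Ideal.mk_ker
    have hk2 : RingHom.ker (algebraMap S S1) = Q.map (algebraMap R S) := by
      rw [hsq.ker_eq, hk1]
    rw [Ideal.map_id]
    have hle : ringKrullDim (R ⧸ Q) ≤ D :=
      h1 ▸ ringKrullDim_le_of_surjective _ hsq.surjR
    rcases hle.lt_or_eq with hlt | heq
    · refine ⟨0, ?_, low_zero _ _⟩
      have := up_of_isMult _ hsq.surjR (isMult_zero_of_lt hlt)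
      rwa [hk1] at this
    · have hS1 : ringKrullDim S1 = D := by
        refine le_antisymm (h2 ▸ ringKrullDim_le_of_surjective _ hsq.surjS) ?_
        have h3 := dim_eq_add (R := R ⧸ Q) (R' := S1)
        have hne : mS (R ⧸ Q) S1 ≠ ⊤ := (map_maximalIdeal_lt_top (algebraMap (R ⧸ Q) S1)).ne
        have : Nontrivial (S1 ⧸ mS (R ⧸ Q) S1) := Ideal.Quotient.nontrivial_iff.2 hne
        rw [h3, heq]
        exact le_add_of_nonneg_right ringKrullDim_nonneg_of_nontrivial
      obtain ⟨e1, he1⟩ := exists_isMult (R ⧸ Q) heq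
      obtain ⟨e2, he2⟩ := exists_isMult S1 hS1
      have hle : e1 ≤ e2 := by
        by_cases hp0 : (p : R ⧸ Q) = 0
        · exact lech (Or.inr ⟨p, Fact.out, hp0⟩) D D e1 e2 heq hS1 he1 he2
        · have := complete_of_surjective _ hsq.surjR
          have := complete_of_surjective _ hsq.surjS
          have := IsLocalHom.of_surjective _ hsq.surjR
          have : Infinite (ResidueField (R ⧸ Q)) :=
            Infinite.of_injective _ (ResidueField.map (algebraMap R (R ⧸ Q))).injective
          exact lech_domain_mix ((algebraMap S S1).comp ω) (res_surj_mfinal ω hω _ hsq.surjS) hp0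
            (hS1.trans heq.symm) D D e1 e2 heq hS1 he1 he2
      refine ⟨e1, ?_, ?_⟩
      · have := up_of_isMult _ hsq.surjR he1
        rwa [hk1] at this
      · have := low_of_isMult _ hsq.surjS he2 hle
        rwa [hk2] at this)
  exact le_of_up_low ha1 ha2 heR heS

theorem lech_eqdim_mix {p : ℕ} [Fact p.Prime] (hp : (p : R) ∈ maximalIdeal R)
    (hd : ringKrullDim S = ringKrullDim R) : LechIneq R S := by
  obtain ⟨R1, S1, _, _, _, _, _, _, _, _, _, hR, hS, hc, hinf, -⟩ := exists_square_infinite R S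
  have := hS.flat
  have := hS.isLocalHom
  have := hR.isLocalHom
  obtain ⟨hloc, hflat, -⟩ := flat_of_unr_square hR hc
  obtain ⟨R2, S2, _, _, _, _, _, _, _, _, _, hR', hS', hc', hcompR, hcomp⟩ :=
    exists_square_complete R1 S1
  have := hS'.flat
  have := hS'.isLocalHom
  have := hR'.isLocalHom
  obtain ⟨hloc', hflat', -⟩ := flat_of_unr_square hR' hc'
  have : Infinite (ResidueField R2) :=
    Infinite.of_injective _ (ResidueField.map (algebraMap R1 R2)).injective
  have hp2 : (p : S2) ∈ maximalIdeal S2 := by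
    have h1 := map_nonunit (algebraMap R2 S2) _
      (map_nonunit (algebraMap R1 R2) _ (map_nonunit (algebraMap R R1) _ hp))
    simpa using h1
  obtain ⟨l, _, _, _, _, S3, _, _, _, _, ω, hU, hc3, hω⟩ := exists_gonfl p S2 hp2
  let : Algebra R2 S3 := ((algebraMap S2 S3).comp (algebraMap R2 S2)).toAlgebra
  have : IsScalarTower R2 S2 S3 := IsScalarTower.of_algebraMap_eq' rfl
  have := hU.flat
  have := hU.isLocalHom
  have : Module.Flat R2 S3 := Module.Flat.trans R2 S2 S3
  have : IsLocalHom (algebraMap R2 S3) := RingHom.isLocalHom_comp _ _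
  refine LechIneq.of_unr hR hS (LechIneq.of_unr hR' hS' (LechIneq.of_unr Unr.refl hU
    (lech_eqdim_complete ω hω ?_)))
  rw [hU.dim_eq, hS'.dim_eq, hS.dim_eq, hR'.dim_eq, hR.dim_eq, hd]

theorem lech_complete_mix {p : ℕ} [Fact p.Prime] {l : Type u} [Field l] [CharP l p]
    [PerfectRing l p] [Infinite l] [IsAdicComplete (maximalIdeal S) S]
    (ω : WittVector p l →+* S) (hω : Function.Surjective ((residue S).comp ω)) :
    LechIneq R S := by
  intro d D eR eS hd hD heR heS
  have hpR : (p : R) ∈ maximalIdeal R := by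
    have h1 := (infinite_residue_of_witt ω hω).2
    rw [← map_natCast (algebraMap R S)] at h1
    exact fun hu => h1 (hu.map _)
  have hne : mS R S ≠ ⊤ := (map_maximalIdeal_lt_top (algebraMap R S)).ne
  obtain ⟨P, hP, hdim⟩ := exists_prime_fibre hne
  have hPp : P.IsPrime := hP.1.1
  have : Nontrivial (S ⧸ mS R S) := Ideal.Quotient.nontrivial_iff.2 hne
  have : IsLocalRing (S ⧸ mS R S) :=
    IsLocalRing.of_surjective' (Ideal.Quotient.mk _) Ideal.Quotient.mk_surjective
  obtain ⟨f, hf⟩ := LC.exists_dim (S ⧸ mS R S)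
  have h1 := dim_eq_add (R := R) (R' := S)
  rw [hd, hD, hf] at h1
  obtain rfl : D = f + d := by
    have h2 : D = d + f := by exact_mod_cast h1
    omega
  have hlo : P.LiesOver (maximalIdeal R) := ⟨((maximalIdeal.isMaximal R).eq_of_le
    (Ideal.comap_ne_top _ hPp.ne_top) (Ideal.map_le_iff_le_comap.1 hP.1.2))⟩
  have hflat : Module.Flat R (Localization.AtPrime P) :=
    Module.Flat.trans R S (Localization.AtPrime P)
  have hloc : IsLocalHom (algebraMap R (Localization.AtPrime P)) := by
    refine ((local_hom_TFAE (algebraMap R (Localization.AtPrime P))).out 0 2).2 ?_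
    rw [IsScalarTower.algebraMap_eq R S (Localization.AtPrime P), ← Ideal.map_map,
      ← Localization.AtPrime.map_eq_maximalIdeal]
    exact Ideal.map_mono hP.1.2
  have hmin : P.map (Ideal.Quotient.mk (mS R S)) ∈ minimalPrimes (S ⧸ mS R S) := by
    have h3 := Ideal.minimalPrimes_map_of_surjective (f := Ideal.Quotient.mk (mS R S))
      Ideal.Quotient.mk_surjective ⊥
    rw [Ideal.map_bot, bot_sup_eq, Ideal.mk_ker] at h3
    have h4 : P.map (Ideal.Quotient.mk (mS R S)) ∈ (⊥ : Ideal (S ⧸ mS R S)).minimalPrimes := by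
      rw [h3]
      exact ⟨P, hP, rfl⟩
    exact h4
  have hdP : ringKrullDim (Localization.AtPrime P) = ringKrullDim R := by
    have := hmin.1.1
    rw [IsLocalization.AtPrime.ringKrullDim_eq_height P (Localization.AtPrime P),
      Ideal.height_eq_height_add_of_liesOver_of_hasGoingDown (maximalIdeal R) P,
      Ideal.height_eq_zero_iff.2 hmin, add_zero, maximalIdeal_height_eq_ringKrullDim]
  obtain ⟨eP, heP⟩ := exists_isMult (Localization.AtPrime P) (hdP.trans hd)
  have hpP : (p : S) ∈ P := by
    rw [← map_natCast (algebraMap R S)]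
    exact hP.1.2 (Ideal.mem_map_of_mem _ hpR)
  exact (lech_eqdim_mix hpR hdP d d eR eP hd (hdP.trans hd) heR heP).trans
    (mult_loc_le_mix ω hω P hpP (hdim.trans hf) hD heP heS)

omit [IsNoetherianRing R] in
theorem eqChar_or_mem (R : Type u) [CommRing R] [IsLocalRing R] :
    EqChar R ∨ ∃ p : ℕ, p.Prime ∧ (p : R) ∈ maximalIdeal R := by
  by_cases h : ∃ p : ℕ, p.Prime ∧ (p : R) ∈ maximalIdeal R
  · exact Or.inr h
  · left
    left
    have h1 : ∀ n : ℕ, n ≠ 0 → IsUnit (n : R) := by
      intro n
      induction n using induction_on_primes with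
      | zero => exact fun h0 => absurd rfl h0
      | one => exact fun _ => by simp
      | prime_mul q a hq ih =>
        intro h0
        rw [Nat.cast_mul]
        refine IsUnit.mul ?_ (ih fun ha => h0 (by simp [ha]))
        by_contra hu
        exact h ⟨q, hq, hu⟩
    have h2 : ∀ y : nonZeroDivisors ℤ, IsUnit (Int.castRingHom R y) := by
      rintro ⟨y, hy⟩
      have hy0 : y ≠ 0 := nonZeroDivisors.ne_zero hy
      have h3 := h1 y.natAbs (Int.natAbs_ne_zero.2 hy0)
      rcases Int.natAbs_eq y with h4 | h4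
      · simpa using (show IsUnit ((y : ℤ) : R) by rw [h4]; simpa using h3)
      · simpa using (show IsUnit ((y : ℤ) : R) by rw [h4]; simpa using h3)
    exact ⟨IsLocalization.lift (S := ℚ) h2⟩

theorem lech_all : LechIneq R S := by
  rcases eqChar_or_mem R with h | ⟨p, hp, hpR⟩
  · exact lech h
  have : Fact p.Prime := ⟨hp⟩
  obtain ⟨R2, S2, _, _, _, _, _, _, _, _, _, hR', hS', hc', -, hcomp⟩ :=
    exists_square_complete R S
  have := hS'.flat
  have := hS'.isLocalHom
  have hp2 : (p : S2) ∈ maximalIdeal S2 := by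
    have h1 := map_nonunit (algebraMap S S2) _ (map_nonunit (algebraMap R S) _ hpR)
    simpa using h1
  obtain ⟨l, _, _, _, _, S3, _, _, _, _, ω, hU, hc3, hω⟩ := exists_gonfl p S2 hp2
  have := hU.flat
  have := hU.isLocalHom
  let : Algebra S S3 := ((algebraMap S2 S3).comp (algebraMap S S2)).toAlgebra
  have : IsScalarTower S S2 S3 := IsScalarTower.of_algebraMap_eq' rfl
  let : Algebra R S3 := ((algebraMap S S3).comp (algebraMap R S)).toAlgebra
  have : IsScalarTower R S S3 := IsScalarTower.of_algebraMap_eq' rfl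
  have hU' : Unr S S3 := hS'.trans hU
  have := hU'.flat
  have := hU'.isLocalHom
  have : Module.Flat R S3 := Module.Flat.trans R S S3
  have : IsLocalHom (algebraMap R S3) := RingHom.isLocalHom_comp _ _
  exact LechIneq.of_unr Unr.refl hU' (lech_complete_mix ω hω)

end Vale.Agent.P202
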