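import Vale.Agent.P202.MDefs

/-! The valuative criterion for integral dependence on an ideal. -/

namespace Vale.Agent.P202

universe u

variable {B : Type u} [CommRing B]

theorem VLe.map {b g h : B} (H : VLe b g h) {B' : Type u} [CommRing B'] (f : B →+* B') :
    VLe (f b) (f g) (f h) := fun Γ _ v hv => H Γ (v.comap f) fun x => hv (f x)

theorem pow_mem_mval {b : B} {J : Ideal B} {M : ℕ}
    (h : b ^ (M + 1) ∈ J * (J ⊔ Ideal.span {b}) ^ M) (N : ℕ) : b ^ (N + M) ∈ J ^ N := by
  have hb : b ∈ J ⊔ Ideal.span {b} := Ideal.mem_sup_right (Ideal.mem_span_singleton_self b)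
  generalize hK : J ⊔ Ideal.span {b} = K at h hb
  have h1 : ∀ j : ℕ, K ^ (j + 1) ≤ J * K ^ j ⊔ Ideal.span {b ^ (j + 1)} := by
    intro j
    induction j with
    | zero => simp [hK]
    | succ j ih =>
      have e1 : J * K ^ j * K = J * K ^ (j + 1) := by ring
      have e2 : Ideal.span {b ^ (j + 1)} * K =
          J * Ideal.span {b ^ (j + 1)} ⊔ Ideal.span {b ^ (j + 1 + 1)} := by
        rw [← hK, Ideal.mul_sup, Ideal.span_singleton_mul_span_singleton, mul_comm J,
          pow_succ b (j + 1)]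
      rw [pow_succ K (j + 1)]
      refine (Ideal.mul_mono_left ih).trans ?_
      rw [Ideal.sup_mul, e1, e2]
      exact sup_le le_sup_left (sup_le (le_sup_of_le_left (Ideal.mul_mono_right
        ((Ideal.span_singleton_le_iff_mem _).2 (Ideal.pow_mem_pow hb _)))) le_sup_right)
  have h2 : K ^ (M + 1) ≤ J * K ^ M :=
    (h1 M).trans (sup_le le_rfl ((Ideal.span_singleton_le_iff_mem _).2 h))
  have h3 : K ^ (N + M) ≤ J ^ N * K ^ M := by
    induction N with
    | zero => simp
    | succ N ih =>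
      have e1 : K ^ (N + 1 + M) = K ^ (N + M) * K := by ring
      have e2 : J ^ N * K ^ M * K = J ^ N * K ^ (M + 1) := by ring
      have e3 : J ^ (N + 1) * K ^ M = J ^ N * (J * K ^ M) := by ring
      rw [e1, e3]
      refine (Ideal.mul_mono_left ih).trans ?_
      rw [e2]
      exact Ideal.mul_mono_right h2
  exact Ideal.mul_le_left (h3 (Ideal.pow_mem_pow hb _))

open MvPolynomial in
theorem exists_rel_mval {b g h : B} (H : VLe b g h) {L : Type u} [CommRing L]
    (φ : MvPolynomial Bool B →+* L) (hg : φ (C b * X true - C g) = 0)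
    (hh : φ (C b * X false - C h) = 0) :
    ∃ (m : ℕ) (a a' : MvPolynomial Bool B),
      φ (C b ^ m * (1 + (a * X true + a' * X false))) = 0 := by
  by_contra hne
  let Q : Ideal (MvPolynomial Bool B) := Ideal.span {X true, X false}
  let S : Submonoid (MvPolynomial Bool B) :=
    { carrier := {x | ∃ m : ℕ, ∃ f ∈ Q, x = C b ^ m * (1 + f)}
      one_mem' := ⟨0, 0, Q.zero_mem, by simp⟩
      mul_mem' := by
        rintro _ _ ⟨m, f, hf, rfl⟩ ⟨m', f', hf', rfl⟩
        exact ⟨m + m', f + f' + f * f', Q.add_mem (Q.add_mem hf hf') (Q.mul_mem_left _ hf'),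
          by ring⟩ }
  have hd : Disjoint (RingHom.ker φ : Set (MvPolynomial Bool B)) S := by
    rw [Set.disjoint_left]
    rintro _ h1 ⟨m, f, hf, rfl⟩
    obtain ⟨a, a', rfl⟩ := Ideal.mem_span_pair.1 hf
    exact hne ⟨m, a, a', h1⟩
  obtain ⟨𝔭, hp, hle, hdis⟩ := Ideal.exists_le_prime_disjoint _ S hd
  let ψ : MvPolynomial Bool B →+* FractionRing (MvPolynomial Bool B ⧸ 𝔭) :=
    (algebraMap _ _).comp (Ideal.Quotient.mk 𝔭)
  have hψ : ∀ x, ψ x = 0 ↔ x ∈ 𝔭 := fun x => by
    rw [← Ideal.Quotient.eq_zero_iff_mem]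
    exact map_eq_zero_iff _ (IsFractionRing.injective (MvPolynomial Bool B ⧸ 𝔭) _)
  have hI : Q.map ψ.rangeRestrict ≠ ⊤ := by
    intro h1
    have h2 : (1 : ψ.range) ∈ Q.map ψ.rangeRestrict := h1 ▸ Submodule.mem_top
    obtain ⟨f, hf, h3⟩ := (Ideal.mem_map_iff_of_surjective _ ψ.rangeRestrict_surjective).1 h2
    have h4 : ψ f = 1 := congrArg Subtype.val h3
    refine Set.disjoint_left.1 hdis ((hψ (1 + -f)).1 (by simp [h4]))
      ⟨0, -f, Q.neg_mem hf, by simp⟩
  obtain ⟨V, hV1, hV2⟩ := Ideal.image_subset_nonunits_valuationSubring _ hI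
  have hb : V.valuation (ψ (C b)) ≠ 0 := by
    rw [Ne, Valuation.zero_iff, hψ]
    exact fun h1 => Set.disjoint_left.1 hdis h1 ⟨1, 0, Q.zero_mem, by simp⟩
  have key : ∀ (c : Bool) (y : B), X c ∈ Q → φ (C b * X c - C y) = 0 →
      V.valuation (ψ (C y)) < V.valuation (ψ (C b)) := by
    intro c y hc hy
    have h1 : ψ (C b * X c - C y) = 0 := (hψ _).2 (hle hy)
    rw [map_sub, map_mul, sub_eq_zero] at h1
    have h2 : V.valuation (ψ (X c)) < 1 :=
      V.mem_nonunits_iff.1 (hV2 ⟨_, Ideal.mem_map_of_mem _ hc, rfl⟩)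
    rw [← h1, map_mul]
    exact mul_lt_of_lt_one_right (zero_lt_iff.2 hb) h2
  have h5 := H _ (V.valuation.comap (ψ.comp C)) fun x =>
    (V.valuation_le_one_iff _).2 (hV1 ⟨C x, rfl⟩)
  exact absurd h5 (not_le.2 (max_lt (key true g (Ideal.subset_span (by simp)) hg)
    (key false h (Ideal.subset_span (by simp)) hh)))

open MvPolynomial in
theorem VLe.exists_pow_mem {b g h : B} (H : VLe b g h) :
    ∃ n1 : ℕ, ∀ N : ℕ, b ^ (N + n1) ∈ Ideal.span {g, h} ^ N := by
  let ι := algebraMap B (Localization.Away b)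
  let t : Localization.Away b := IsLocalization.Away.invSelf b
  have ht : ι b * t = 1 := IsLocalization.Away.mul_invSelf b
  let w : Bool → B := fun c => cond c g h
  let φ : MvPolynomial Bool B →+* Localization.Away b := eval₂Hom ι fun c => ι (w c) * t
  have hC : ∀ x, φ (C x) = ι x := fun x => eval₂Hom_C _ _ x
  have hX : ∀ c, φ (X c) * ι b = ι (w c) := fun c => by
    rw [show φ (X c) = ι (w c) * t from eval₂Hom_X' _ _ c]
    linear_combination ι (w c) * ht
  have hw : ∀ c, w c ∈ Ideal.span {g, h} := fun c => Ideal.subset_span (by cases c <;> simp [w])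
  generalize Ideal.span {g, h} = J at hw
  have hb : b ∈ J ⊔ Ideal.span {b} := Ideal.mem_sup_right (Ideal.mem_span_singleton_self b)
  have hP : ∀ a : MvPolynomial Bool B, ∀ᶠ n in Filter.atTop,
      ∃ y ∈ (J ⊔ Ideal.span {b}) ^ n, φ a * ι b ^ n = ι y := by
    intro a
    induction a using MvPolynomial.induction_on with
    | C x =>
      exact Filter.Eventually.of_forall fun n => ⟨x * b ^ n,
        Ideal.mul_mem_left _ _ (Ideal.pow_mem_pow hb n), by rw [hC, map_mul, map_pow]⟩
    | add a a' h1 h2 =>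
      filter_upwards [h1, h2] with n ⟨y, hy, e⟩ ⟨y', hy', e'⟩
      exact ⟨y + y', Ideal.add_mem _ hy hy', by rw [map_add, add_mul, e, e', map_add]⟩
    | mul_X a c h1 =>
      obtain ⟨n0, h2⟩ := Filter.eventually_atTop.1 h1
      filter_upwards [Filter.eventually_ge_atTop (n0 + 1)] with n hn
      obtain ⟨k, rfl⟩ : ∃ k, n = k + 1 := ⟨n - 1, by omega⟩
      obtain ⟨y, hy, e⟩ := h2 k (by omega)
      refine ⟨y * w c, ?_, ?_⟩
      · rw [pow_succ]
        exact Ideal.mul_mem_mul hy (Ideal.mem_sup_left (hw c))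
      · rw [map_mul, map_mul, ← e, ← hX]
        ring
  have hrel : ∀ c, φ (C b * X c - C (w c)) = 0 := fun c => by
    rw [map_sub, map_mul, hC, hC, ← hX, mul_comm, sub_self]
  obtain ⟨m, a, a', h1⟩ := exists_rel_mval H φ (hrel true) (hrel false)
  obtain ⟨n, ⟨y, hy, e⟩, y', hy', e'⟩ := ((hP a).and (hP a')).exists
  have h2 : ι (b ^ m * (b ^ (n + 1) + (w true * y + w false * y'))) = 0 := by
    simp only [map_mul, map_add, map_pow, map_one, hC] at h1 ⊢
    rw [← e, ← e', ← hX, ← hX]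
    linear_combination ι b ^ (n + 1) * h1
  obtain ⟨⟨_, k, rfl⟩, h3⟩ :=
    (IsLocalization.map_eq_zero_iff (Submonoid.powers b) (Localization.Away b) _).1 h2
  refine ⟨k + m + n, pow_mem_mval ?_⟩
  have h4 : b ^ (k + m + n + 1) = -(w true * (b ^ (k + m) * y) + w false * (b ^ (k + m) * y')) := by
    simp only at h3
    linear_combination h3
  have h5 : ∀ z ∈ (J ⊔ Ideal.span {b}) ^ n,
      b ^ (k + m) * z ∈ (J ⊔ Ideal.span {b}) ^ (k + m + n) := fun z hz => by
    rw [pow_add _ (k + m)]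
    exact Ideal.mul_mem_mul (Ideal.pow_mem_pow hb _) hz
  rw [h4]
  exact Submodule.neg_mem _ (Ideal.add_mem _ (Ideal.mul_mem_mul (hw _) (h5 _ hy))
    (Ideal.mul_mem_mul (hw _) (h5 _ hy')))

theorem val_le_of_mem {Γ : Type u} [LinearOrderedCommGroupWithZero Γ] (v : Valuation B Γ)
    (hv : ∀ x, v x ≤ 1) {s : Set B} {c : Γ} (hs : ∀ x ∈ s, v x ≤ c) {n : ℕ} {b : B}
    (hb : b ∈ Ideal.span s ^ n) : v b ≤ c ^ n := by
  have h1 : ∀ x ∈ Ideal.span s, v x ≤ c := by
    intro x hx
    induction hx using Submodule.span_induction with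
    | mem x hx => exact hs x hx
    | zero => simp
    | add x y _ _ hx hy => exact v.map_add_le hx hy
    | smul a x _ hx =>
      rw [smul_eq_mul, map_mul]
      exact (mul_le_mul' (hv a) hx).trans (one_mul c).le
  induction n generalizing b with
  | zero => simpa using hv b
  | succ n ih =>
    rw [pow_succ] at hb
    refine Submodule.mul_induction_on hb (fun x hx y hy => ?_) fun x y hx hy => v.map_add_le hx hy
    rw [map_mul, pow_succ]
    exact mul_le_mul' (ih hx) (h1 y hy)

/-- An approximate equation of integral dependence. -/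
theorem vle_of_eq {b g h : B} {n : ℕ} (hn : 1 ≤ n) (c : ℕ → B)
    (H : b ^ n + ∑ j ∈ Finset.range n, c j * g ^ (n - j) * b ^ j ∈ Ideal.span {h ^ n}) :
    VLe b g h := by
  intro Γ _ v hv
  by_contra hlt
  rw [not_le, max_lt_iff] at hlt
  have hb : 0 < v b := lt_of_le_of_lt zero_le hlt.1
  have h1 : v (∑ j ∈ Finset.range n, c j * g ^ (n - j) * b ^ j) < v (b ^ n) := by
    rw [map_pow]
    refine v.map_sum_lt (pow_pos hb n).ne' fun j hj => ?_
    have hj' := Finset.mem_range.1 hj
    rw [map_mul, map_mul, map_pow, map_pow]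
    calc v (c j) * v g ^ (n - j) * v b ^ j ≤ 1 * v g ^ (n - j) * v b ^ j := by
          gcongr
          exact hv _
      _ < v b ^ (n - j) * v b ^ j := by
          rw [one_mul]
          exact mul_lt_mul_of_pos_right (pow_lt_pow_left₀ hlt.1 zero_le (by omega)) (pow_pos hb j)
      _ = v b ^ n := by rw [← pow_add, Nat.sub_add_cancel hj'.le]
  obtain ⟨a, ha⟩ := Ideal.mem_span_singleton'.1 H
  have h2 := v.map_add_eq_of_lt_left h1
  rw [← ha, map_mul, map_pow, map_pow] at h2
  have h3 : v a * v h ^ n < v b ^ n :=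
    lt_of_le_of_lt ((mul_le_mul' (hv a) le_rfl).trans (one_mul _).le)
      (pow_lt_pow_left₀ hlt.2 zero_le (by omega))
  exact h3.ne h2

end Vale.Agent.P202
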