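import Vale.Agent.P202.MUnt
import Vale.Agent.P202.MVal

/-! Filtrations with real exponents are root closed in the untilt. -/

set_option linter.unusedSectionVars false

namespace Vale.Agent.P202

universe u

section general

variable {p : ℕ} [Fact p.Prime] {R : Type u} [CommRing R] {ι : Type} {v : ℕ → ι → R}

theorem decomp_mfl {w : ι → R} {n : ℕ} {y : R} (hy : y ∈ Ideal.span (Set.range w) ^ n) :
    ∃ (s : Finset (ι →₀ ℕ)) (c : (ι →₀ ℕ) → R),
      y = ∑ d ∈ s, c d * ∏ i ∈ d.support, w i ^ d i ∧ ∀ d ∈ s, ∑ i ∈ d.support, d i = n := by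
  obtain ⟨f, hf, rfl⟩ := (Ideal.mem_span_pow_iff_exists_isHomogeneous w y).1 hy
  refine ⟨f.support, fun d => f.coeff d, MvPolynomial.eval_eq w f, fun d hd => ?_⟩
  have := hf (MvPolynomial.mem_support_iff.1 hd)
  simpa [Finsupp.weight_apply, Finsupp.sum] using this

theorem prod_mem_mfl (w : ι → R) (s : Finset ι) (a : ι → ℕ) :
    ∏ i ∈ s, w i ^ a i ∈ Ideal.span (Set.range w) ^ ∑ i ∈ s, a i := by
  rw [← Finset.prod_pow_eq_pow_sum]
  exact Ideal.prod_mem_prod fun i _ => Ideal.pow_mem_pow (Ideal.subset_span (Set.mem_range_self i)) _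

theorem pigeon_mfl [Fintype ι] (w : ι → R) {Q N m : ℕ} (hQ : 0 < Q)
    (h : Q * (m + Fintype.card ι) ≤ N) :
    Ideal.span (Set.range w) ^ N ≤ Ideal.span (Set.range fun j => w j ^ Q) ^ m := by
  intro y hy
  obtain ⟨s, c, rfl, hs⟩ := decomp_mfl hy
  refine Ideal.sum_mem _ fun d hd => Ideal.mul_mem_left _ _ ?_
  have e : ∏ i ∈ d.support, w i ^ d i =
      (∏ i ∈ d.support, w i ^ (d i % Q)) * ∏ i ∈ d.support, (w i ^ Q) ^ (d i / Q) := by
    rw [← Finset.prod_mul_distrib]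
    refine Finset.prod_congr rfl fun i _ => ?_
    rw [← pow_mul, ← pow_add, Nat.mod_add_div]
  rw [e]
  refine Ideal.mul_mem_left _ _ (Ideal.pow_le_pow_right ?_ (prod_mem_mfl _ _ _))
  have h1 : ∑ i ∈ d.support, d i ≤ ∑ i ∈ d.support, Q * (d i / Q + 1) :=
    Finset.sum_le_sum fun i _ => (Nat.lt_mul_div_succ (d i) hQ).le
  rw [hs d hd, ← Finset.mul_sum, Finset.sum_add_distrib] at h1
  have h2 := Nat.le_of_mul_le_mul_left (h.trans h1) hQ
  have h3 := Finset.card_le_univ d.support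
  simp only [Finset.sum_const, smul_eq_mul, mul_one] at h2
  omega

theorem mem_sup_mfl {I J K : Ideal R} {x : R} (hx : x ∈ I ⊔ J) (h : I ≤ K) : x ∈ K ⊔ J :=
  (sup_le_sup_right h J : I ⊔ J ≤ K ⊔ J) hx

theorem mem_of_sup_mfl {I : Ideal R} {x y : R} (hx : x ∈ I ⊔ Ideal.span {y}) (h : y ∈ I) :
    x ∈ I :=
  (sup_le le_rfl ((Ideal.span_singleton_le_iff_mem _).2 h) : I ⊔ Ideal.span {y} ≤ I) hx

theorem ppos_mfl (p : ℕ) [Fact p.Prime] : (0 : ℝ) < p := Nat.cast_pos.2 (Fact.out : p.Prime).pos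

omit [Fact p.Prime] in
theorem pow_le_Fl (v : ℕ → ι → R) {e r : ℕ} {ρ : ℝ} (h : ρ * (p : ℝ) ^ e ≤ r) :
    Ideal.span (Set.range (v e)) ^ r ≤ Fl p v ρ :=
  le_iSup_of_le e (le_iSup_of_le r (le_iSup_of_le h le_rfl))

omit [Fact p.Prime] in
theorem Fl_le_mfl {ρ : ℝ} {I : Ideal R} (h : ∀ e r : ℕ, ρ * (p : ℝ) ^ e ≤ r →
    Ideal.span (Set.range (v e)) ^ r ≤ I) : Fl p v ρ ≤ I :=
  iSup_le fun e => iSup_le fun r => iSup_le fun hr => h e r hr

theorem Fl_anti (v : ℕ → ι → R) {ρ ρ' : ℝ} (h : ρ ≤ ρ') : Fl p v ρ' ≤ Fl p v ρ :=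
  Fl_le_mfl fun _ _ hr =>
    pow_le_Fl v ((mul_le_mul_of_nonneg_right h (pow_pos (ppos_mfl p) _).le).trans hr)

theorem Fl_eq_top (v : ℕ → ι → R) {ρ : ℝ} (h : ρ ≤ 0) : Fl p v ρ = ⊤ := by
  have := pow_le_Fl (p := p) v (e := 0) (r := 0) (ρ := ρ) (by simpa using h)
  simpa using this

omit [Fact p.Prime] in
theorem v_pow_mfl (hv : ∀ e j, v (e + 1) j ^ p = v e j) (e k : ℕ) (j : ι) :
    v (e + k) j ^ p ^ k = v e j := by
  induction k with
  | zero => simp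
  | succ k ih => rw [pow_succ', pow_mul, ← add_assoc, hv, ih]

omit [Fact p.Prime] in
theorem J_le_mfl (hv : ∀ e j, v (e + 1) j ^ p = v e j) (e k r : ℕ) :
    Ideal.span (Set.range (v e)) ^ r ≤ Ideal.span (Set.range (v (e + k))) ^ (p ^ k * r) := by
  rw [pow_mul]
  refine Ideal.pow_right_mono (Ideal.span_le.2 ?_) r
  rintro _ ⟨j, rfl⟩
  rw [← v_pow_mfl hv e k j]
  exact Ideal.pow_mem_pow (Ideal.subset_span (Set.mem_range_self j)) _

theorem mem_Fl (hv : ∀ e j, v (e + 1) j ^ p = v e j) {ρ : ℝ} {x : R} (hx : x ∈ Fl p v ρ) :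
    ∃ e0 : ℕ, ∀ e, e0 ≤ e → ∃ r : ℕ, ρ * (p : ℝ) ^ e ≤ r ∧
      x ∈ Ideal.span (Set.range (v e)) ^ r := by
  let G : Ideal R :=
    { carrier := {x | ∃ e0 : ℕ, ∀ e, e0 ≤ e →
        x ∈ Ideal.span (Set.range (v e)) ^ ⌈ρ * (p : ℝ) ^ e⌉₊}
      zero_mem' := ⟨0, fun _ _ => Ideal.zero_mem _⟩
      add_mem' := fun ⟨a, ha⟩ ⟨b, hb⟩ => ⟨max a b, fun e he =>
        Ideal.add_mem _ (ha e ((le_max_left _ _).trans he)) (hb e ((le_max_right _ _).trans he))⟩
      smul_mem' := fun c _ ⟨a, ha⟩ => ⟨a, fun e he => Ideal.mul_mem_left _ c (ha e he)⟩ }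
  have h : Fl p v ρ ≤ G := Fl_le_mfl fun e r hr y hy => ⟨e, fun e' he' => by
    obtain ⟨k, rfl⟩ := Nat.exists_eq_add_of_le he'
    refine Ideal.pow_le_pow_right (Nat.ceil_le.2 ?_) (J_le_mfl hv e k r hy)
    have := mul_le_mul_of_nonneg_left hr (pow_pos (ppos_mfl p) k).le
    push_cast
    rw [pow_add]
    linarith⟩
  obtain ⟨e0, h0⟩ := h hx
  exact ⟨e0, fun e he => ⟨_, Nat.le_ceil _, h0 e he⟩⟩

theorem Fl_mul_le (hv : ∀ e j, v (e + 1) j ^ p = v e j) (ρ ρ' : ℝ) :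
    Fl p v ρ * Fl p v ρ' ≤ Fl p v (ρ + ρ') := by
  refine Ideal.mul_le.2 fun x hx y hy => ?_
  obtain ⟨a, ha⟩ := mem_Fl hv hx
  obtain ⟨b, hb⟩ := mem_Fl hv hy
  obtain ⟨r, hr, hx⟩ := ha _ (le_max_left a b)
  obtain ⟨s, hs, hy⟩ := hb _ (le_max_right a b)
  refine pow_le_Fl v (e := max a b) (r := r + s) (by push_cast; linarith) ?_
  rw [pow_add]
  exact Ideal.mul_mem_mul hx hy

theorem Fl_pow_le (hv : ∀ e j, v (e + 1) j ^ p = v e j) (ρ : ℝ) (n : ℕ) :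
    Fl p v ρ ^ n ≤ Fl p v (n * ρ) := by
  induction n with
  | zero => rw [Fl_eq_top v (ρ := (0 : ℕ) * ρ) (by simp)]; exact le_top
  | succ n ih =>
    rw [pow_succ]
    refine (Ideal.mul_mono_left ih).trans ((Fl_mul_le hv _ _).trans (le_of_eq ?_))
    push_cast
    rw [add_mul, one_mul]

/-- Pigeonhole. -/
theorem Fl_le_pow [Fintype ι] (hv : ∀ e j, v (e + 1) j ^ p = v e j) {ρ : ℝ} {e r : ℕ}
    (h : (r : ℝ) ≤ ρ * (p : ℝ) ^ e) :
    Fl p v ρ ≤ Ideal.span (Set.range (v e)) ^ (r - Fintype.card ι) := by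
  rcases le_total r (Fintype.card ι) with hr | hr
  · rw [Nat.sub_eq_zero_of_le hr, pow_zero, Ideal.one_eq_top]
    exact le_top
  intro x hx
  obtain ⟨k, hk⟩ := mem_Fl hv hx
  obtain ⟨s, hs, hx⟩ := hk (e + k) (Nat.le_add_left k e)
  have h1 : p ^ k * (r - Fintype.card ι + Fintype.card ι) ≤ s := by
    rw [Nat.sub_add_cancel hr]
    have := mul_le_mul_of_nonneg_left h (pow_pos (ppos_mfl p) k).le
    rw [pow_add] at hs
    exact_mod_cast (by push_cast; linarith : ((p ^ k * r : ℕ) : ℝ) ≤ s)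
  have := pigeon_mfl (v (e + k)) (pow_pos (Fact.out : p.Prime).pos k) h1 hx
  simpa only [v_pow_mfl hv] using this

end general

variable {p : ℕ} [Fact p.Prime] {P : Type u} [CommRing P] [CharP P p] [PerfectRing P p]
  {ι : Type} {t : P} {u : ι → P}

theorem rt_pow_mfl (k : ℕ) (x : P) : rt p P k (x ^ p ^ k) = x := by rw [map_pow, rt_pow]

theorem rt_rt_mfl (k e : ℕ) (x : P) : rt p P k (rt p P e x) = rt p P (e + k) x := by
  rw [← rt_add_pow e k x, rt_pow_mfl]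

theorem hv_mfl (u : ι → P) : ∀ e j, rt p P (e + 1) (u j) ^ p = rt p P e (u j) :=
  fun e j => rt_succ_pow e (u j)

theorem hv_shp_mfl (t : P) (u : ι → P) :
    ∀ e j, shp p t (rt p P (e + 1) (u j)) ^ p = shp p t (rt p P e (u j)) :=
  fun e j => by rw [← map_pow, rt_succ_pow]

theorem lev_mfl (ρ : ℝ) (e k : ℕ) : ρ / (p : ℝ) ^ k * (p : ℝ) ^ (e + k) = ρ * (p : ℝ) ^ e := by
  have := ppos_mfl p
  rw [pow_add]
  field_simp

theorem lev2_mfl (ρ : ℝ) (k : ℕ) : ((p ^ k : ℕ) : ℝ) * (ρ / (p : ℝ) ^ k) = ρ := by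
  have := ppos_mfl p
  push_cast
  field_simp

theorem rt_mem_Fl {ρ : ℝ} {x : P} (k : ℕ) :
    rt p P k x ∈ Fl p (fun e j => rt p P e (u j)) (ρ / (p : ℝ) ^ k) ↔
      x ∈ Fl p (fun e j => rt p P e (u j)) ρ := by
  constructor
  · intro h
    have := Fl_pow_le (hv_mfl u) _ _ (Ideal.pow_mem_pow h (p ^ k))
    rwa [rt_pow, lev2_mfl] at this
  · intro h
    obtain ⟨e, he⟩ := mem_Fl (hv_mfl u) h
    obtain ⟨r, hr, hx⟩ := he e le_rfl
    refine pow_le_Fl _ (e := e + k) (r := r) (by rwa [lev_mfl]) ?_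
    have := Ideal.mem_map_of_mem (rt p P k) hx
    rw [Ideal.map_pow, Ideal.map_span, ← Set.range_comp] at this
    simpa only [Function.comp_def, rt_rt_mfl] using this

theorem shp_sum_mfl {κ : Type} (s : Finset κ) (x : κ → P) {ρ : ℝ} (n : ℕ)
    (hx : ∀ i ∈ s, shp p t (rt p P n (x i)) ∈
      Fl p (fun e j => shp p t (rt p P e (u j))) (ρ / (p : ℝ) ^ n)) :
    ∑ i ∈ s, shp p t (x i) - shp p t (∑ i ∈ s, x i) ∈
      Ideal.span {(p : Unt p t)} * Fl p (fun e j => shp p t (rt p P e (u j))) ρ ⊔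
        Ideal.span {(p : Unt p t) ^ (n + 1)} := by
  refine mem_sup_mfl (shp_sum_sub_mem t s x n) (Ideal.mul_mono_right ?_)
  refine (Ideal.pow_right_mono (Ideal.span_le.2 ?_) _).trans
    ((Fl_pow_le (hv_shp_mfl t u) (ρ / (p : ℝ) ^ n) _).trans (by rw [lev2_mfl]))
  rintro _ ⟨i, hi, rfl⟩
  exact hx i hi

theorem shp_mem_sup_mfl {ρ : ℝ} {x : P} (hx : x ∈ Fl p (fun e j => rt p P e (u j)) ρ) (n : ℕ) :
    shp p t x ∈ Fl p (fun e j => shp p t (rt p P e (u j))) ρ ⊔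
      Ideal.span {(p : Unt p t) ^ (n + 1)} := by
  obtain ⟨e, he⟩ := mem_Fl (hv_mfl u) hx
  obtain ⟨r, hr, hx⟩ := he e le_rfl
  obtain ⟨s, c, rfl, hs⟩ := decomp_mfl hx
  have key : ∀ n, ∀ d ∈ s, shp p t (rt p P n (c d * ∏ i ∈ d.support, rt p P e (u i) ^ d i)) ∈
      Fl p (fun e j => shp p t (rt p P e (u j))) (ρ / (p : ℝ) ^ n) := by
    intro n d hd
    simp only [map_mul, map_prod, map_pow, rt_rt_mfl]
    refine Ideal.mul_mem_left _ _ (pow_le_Fl _ (e := e + n) (r := r) (by rwa [lev_mfl]) ?_)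
    rw [← hs d hd]
    exact prod_mem_mfl _ _ _
  have h1 := mem_sup_mfl (shp_sum_mfl s _ n (key n)) Ideal.mul_le_right
  have h2 : ∑ d ∈ s, shp p t (c d * ∏ i ∈ d.support, rt p P e (u i) ^ d i) ∈
      Fl p (fun e j => shp p t (rt p P e (u j))) ρ :=
    Ideal.sum_mem _ fun d hd => by simpa only [rt_zero, pow_zero, div_one] using key 0 d hd
  have := Ideal.sub_mem _ (Ideal.mem_sup_left h2) h1
  rwa [sub_sub_cancel] at this

theorem exists_p_mem_Fl (hu : ∃ c : ℕ, t ^ c ∈ Ideal.span (Set.range u)) :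
    ∃ σ : ℝ, 0 < σ ∧ t ∈ Fl p (fun e j => rt p P e (u j)) σ ∧
      (p : Unt p t) ∈ Fl p (fun e j => shp p t (rt p P e (u j))) σ := by
  obtain ⟨c, hc⟩ := hu
  have h1 : t ^ p ^ c ∈ Fl p (fun e j => rt p P e (u j)) 1 := by
    refine pow_le_Fl _ (e := 0) (r := 1) (by simp) ?_
    simp only [rt_zero, pow_one]
    exact Ideal.pow_mem_of_pow_mem _ hc (Nat.lt_pow_self (Fact.out : p.Prime).one_lt).le
  have h2 := (rt_mem_Fl c).2 h1
  rw [rt_pow_mfl] at h2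
  refine ⟨_, div_pos one_pos (pow_pos (ppos_mfl p) c), h2, ?_⟩
  have h3 := shp_mem_sup_mfl (t := t) h2 1
  rw [shp_self] at h3
  obtain ⟨a, ha, b, hb, hab⟩ := Submodule.mem_sup.1 h3
  obtain ⟨b, rfl⟩ := Ideal.mem_span_singleton'.1 hb
  have e : a = (p : Unt p t) * (1 - p * b) := by linear_combination hab
  rw [e] at ha
  exact (Ideal.mul_unit_mem_iff_mem _ (Unt.jac t b)).1 ha

theorem p_pow_mem_mfl (hu : ∃ c : ℕ, t ^ c ∈ Ideal.span (Set.range u)) (ρ : ℝ) :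
    ∃ n : ℕ, (p : Unt p t) ^ n ∈ Fl p (fun e j => shp p t (rt p P e (u j))) ρ := by
  obtain ⟨σ, hσ, -, hp⟩ := exists_p_mem_Fl (p := p) hu
  obtain ⟨n, hn⟩ := exists_nat_ge (ρ / σ)
  exact ⟨n, Fl_anti _ ((div_le_iff₀ hσ).1 hn)
    (Fl_pow_le (hv_shp_mfl t u) _ _ (Ideal.pow_mem_pow hp n))⟩

theorem shp_mem_Fl (hu : ∃ c : ℕ, t ^ c ∈ Ideal.span (Set.range u)) {ρ : ℝ} {x : P}
    (hx : x ∈ Fl p (fun e j => rt p P e (u j)) ρ) :
    shp p t x ∈ Fl p (fun e j => shp p t (rt p P e (u j))) ρ := by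
  obtain ⟨n, hn⟩ := p_pow_mem_mfl (p := p) hu ρ
  refine mem_of_sup_mfl (shp_mem_sup_mfl hx n) ?_
  rw [pow_succ]
  exact Ideal.mul_mem_right _ _ hn

theorem shp_add_mfl (hu : ∃ c : ℕ, t ^ c ∈ Ideal.span (Set.range u)) {ρ : ℝ} {x y : P}
    (hx : x ∈ Fl p (fun e j => rt p P e (u j)) ρ) (hy : y ∈ Fl p (fun e j => rt p P e (u j)) ρ) :
    shp p t x + shp p t y - shp p t (x + y) ∈
      Ideal.span {(p : Unt p t)} * Fl p (fun e j => shp p t (rt p P e (u j))) ρ := by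
  obtain ⟨n, hn⟩ := p_pow_mem_mfl (p := p) hu ρ
  have h1 := shp_sum_mfl (t := t) (u := u) (ρ := ρ) Finset.univ (fun b : Bool => cond b x y) n
    fun b _ => shp_mem_Fl hu ((rt_mem_Fl n).2 (by cases b; exacts [hy, hx]))
  simp only [Fintype.sum_bool, cond_true, cond_false] at h1
  refine mem_of_sup_mfl h1 ?_
  rw [pow_succ']
  exact Ideal.mul_mem_mul (Ideal.mem_span_singleton_self _) hn

theorem exists_shp_Fl (hu : ∃ c : ℕ, t ^ c ∈ Ideal.span (Set.range u)) {ρ : ℝ} {b : Unt p t}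
    (hb : b ∈ Fl p (fun e j => shp p t (rt p P e (u j))) ρ) :
    ∃ x ∈ Fl p (fun e j => rt p P e (u j)) ρ, b - shp p t x ∈
      Ideal.span {(p : Unt p t)} * Fl p (fun e j => shp p t (rt p P e (u j))) ρ := by
  let G : Ideal (Unt p t) :=
    { carrier := {b | ∃ x ∈ Fl p (fun e j => rt p P e (u j)) ρ, b - shp p t x ∈
        Ideal.span {(p : Unt p t)} * Fl p (fun e j => shp p t (rt p P e (u j))) ρ}
      zero_mem' := ⟨0, Ideal.zero_mem _, by rw [shp_zero, sub_zero]; exact Ideal.zero_mem _⟩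
      add_mem' := fun {a b} ⟨x, hx, ha⟩ ⟨y, hy, hb⟩ => ⟨x + y, Ideal.add_mem _ hx hy, by
        have := Ideal.add_mem _ (Ideal.add_mem _ ha hb) (shp_add_mfl hu hx hy)
        rwa [show a - shp p t x + (b - shp p t y) + (shp p t x + shp p t y - shp p t (x + y)) =
          a + b - shp p t (x + y) by ring] at this⟩
      smul_mem' := fun c b ⟨x, hx, hb⟩ => by
        obtain ⟨c0, hc0⟩ := exists_shp t c
        refine ⟨c0 * x, Ideal.mul_mem_left _ _ hx, ?_⟩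
        have := Ideal.add_mem _ (Ideal.mul_mem_left _ c hb)
          (Ideal.mul_mem_mul hc0 (shp_mem_Fl hu hx))
        rwa [show c * (b - shp p t x) + (c - shp p t c0) * shp p t x =
          c • b - shp p t (c0 * x) by rw [map_mul, smul_eq_mul]; ring] at this }
  have h : Fl p (fun e j => shp p t (rt p P e (u j))) ρ ≤ G := Fl_le_mfl fun e r hr y hy => by
    obtain ⟨s, c, rfl, hs⟩ := decomp_mfl hy
    refine G.sum_mem fun d hd => G.mul_mem_left _ ⟨∏ i ∈ d.support, rt p P e (u i) ^ d i, ?_, ?_⟩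
    · refine pow_le_Fl _ hr ?_
      rw [← hs d hd]
      exact prod_mem_mfl _ _ _
    · simp only [map_prod, map_pow, sub_self]
      exact Ideal.zero_mem _
  exact h hb

theorem mem_Fl_of_shp (ht : t ∈ nonZeroDivisors P)
    (hu : ∃ c : ℕ, t ^ c ∈ Ideal.span (Set.range u)) {ρ : ℝ} {x : P}
    (hx : shp p t x ∈ Fl p (fun e j => shp p t (rt p P e (u j))) ρ) :
    x ∈ Fl p (fun e j => rt p P e (u j)) ρ := by
  obtain ⟨σ, hσ, htσ, -⟩ := exists_p_mem_Fl (p := p) hu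
  obtain ⟨n, hn⟩ := exists_nat_ge (ρ / σ)
  rw [div_le_iff₀ hσ] at hn
  induction n generalizing ρ x with
  | zero =>
    rw [Fl_eq_top _ (by simpa using hn)]
    trivial
  | succ n ih =>
    have hρ : ρ - σ ≤ n * σ := by push_cast at hn; linarith
    have hle : ρ - σ ≤ ρ := by linarith
    obtain ⟨x', hx', h1⟩ := exists_shp_Fl hu hx
    obtain ⟨x'', h2⟩ := Ideal.mem_span_singleton'.1 (mem_of_shp_sub_mem (Ideal.mul_le_left h1))
    have h3 := ih (Fl_anti _ hle hx) hρ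
    have h4 : x'' * t ∈ Fl p (fun e j => rt p P e (u j)) (ρ - σ) := by
      rw [h2]
      exact Ideal.sub_mem _ h3 (Fl_anti _ hle hx')
    have h5 := Ideal.add_mem _ (shp_add_mfl hu (Fl_anti _ hle hx') h4)
      (Ideal.mul_mono_right (Fl_anti _ hle) h1)
    have e : x' + x'' * t = x := by rw [h2]; ring
    rw [e, map_mul, shp_self] at h5
    obtain ⟨z, hz, h6⟩ := Ideal.mem_span_singleton_mul.1 h5
    have h7 : z = shp p t x'' := by
      refine (mul_cancel_left_mem_nonZeroDivisors (Unt.p_reg (p := p) ht)).1 ?_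
      rw [h6]
      ring
    have h8 := Fl_mul_le (hv_mfl u) _ _ (Ideal.mul_mem_mul (ih (h7 ▸ hz) hρ) htσ)
    rw [sub_add_cancel] at h8
    rw [← e]
    exact Ideal.add_mem _ hx' h8

theorem Fl_root_one_mfl (ht : t ∈ nonZeroDivisors P)
    (hu : ∃ c : ℕ, t ^ c ∈ Ideal.span (Set.range u)) {ρ : ℝ} {b : Unt p t}
    (hb : b ^ p ∈ Fl p (fun e j => shp p t (rt p P e (u j))) ρ) :
    b ∈ Fl p (fun e j => shp p t (rt p P e (u j))) (ρ / p) := by
  obtain ⟨σ, hσ, -, hp⟩ := exists_p_mem_Fl (p := p) hu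
  have hp0 := ppos_mfl p
  have hp1 : 1 ≤ p := (Fact.out : p.Prime).pos
  have hp1' : (1 : ℝ) ≤ p := by exact_mod_cast hp1
  have key : ∀ n : ℕ,
      b ∈ Fl p (fun e j => shp p t (rt p P e (u j))) (min ρ (n * σ) / p) := by
    intro n
    induction n with
    | zero =>
      rw [Fl_eq_top _ (div_nonpos_of_nonpos_of_nonneg (by simp) hp0.le)]
      trivial
    | succ n ih =>
      obtain ⟨x, hx, h1⟩ := exists_shp_Fl hu ih
      have h2 := shp_mem_Fl hu hx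
      have hm : min ρ ((n + 1 : ℕ) * σ) ≤ σ + min ρ (n * σ) := by
        rcases le_total ρ (n * σ) with h | h
        · rw [min_eq_left h]
          linarith [min_le_left ρ ((n + 1 : ℕ) * σ)]
        · rw [min_eq_right h]
          have := min_le_right ρ ((n + 1 : ℕ) * σ)
          push_cast at this ⊢
          linarith
      generalize min ρ (n * σ) = ρ' at *
      have h3 : b - shp p t x ∈ Fl p (fun e j => shp p t (rt p P e (u j))) (σ + ρ' / p) :=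
        Fl_mul_le (hv_shp_mfl t u) _ _
          (Ideal.mul_mono_left ((Ideal.span_singleton_le_iff_mem _).2 hp) h1)
      have h4 : ∑ i ∈ Finset.range p, b ^ i * shp p t x ^ (p - 1 - i) ∈
          Fl p (fun e j => shp p t (rt p P e (u j))) (ρ' / p) ^ (p - 1) := by
        refine Ideal.sum_mem _ fun i hi => ?_
        have := Ideal.mul_mem_mul (Ideal.pow_mem_pow ih i) (Ideal.pow_mem_pow h2 (p - 1 - i))
        rwa [← pow_add, show i + (p - 1 - i) = p - 1 by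
          have := Finset.mem_range.1 hi; omega] at this
      have h5 := Fl_mul_le (hv_shp_mfl t u) _ _
        (Ideal.mul_mem_mul (Fl_pow_le (hv_shp_mfl t u) _ _ h4) h3)
      rw [geom_sum₂_mul, show ((p - 1 : ℕ) : ℝ) * (ρ' / p) + (σ + ρ' / p) = σ + ρ' by
        rw [Nat.cast_sub hp1]; field_simp; ring] at h5
      have h6 := Ideal.sub_mem _ (Fl_anti _ (min_le_left ρ ((n + 1 : ℕ) * σ)) hb) (Fl_anti _ hm h5)
      rw [sub_sub_cancel, ← map_pow] at h6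
      have h7 := (rt_mem_Fl 1).2 (mem_Fl_of_shp ht hu h6)
      rw [show x ^ p = x ^ p ^ 1 by rw [pow_one], rt_pow_mfl, pow_one] at h7
      have h8 : min ρ ((n + 1 : ℕ) * σ) / p ≤ σ + ρ' / p := by
        rw [div_le_iff₀ hp0, add_mul, div_mul_cancel₀ _ hp0.ne']
        nlinarith
      have := Ideal.add_mem _ (Fl_anti _ h8 h3) (shp_mem_Fl hu h7)
      rwa [sub_add_cancel] at this
  obtain ⟨n, hn⟩ := exists_nat_ge (ρ / σ)
  have := key n
  rwa [min_eq_left ((div_le_iff₀ hσ).1 hn)] at this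

theorem Fl_root (ht : t ∈ nonZeroDivisors P) (hu : ∃ c : ℕ, t ^ c ∈ Ideal.span (Set.range u))
    {ρ : ℝ} {b : Unt p t} (k : ℕ)
    (hb : b ^ p ^ k ∈ Fl p (fun e j => shp p t (rt p P e (u j))) ρ) :
    b ∈ Fl p (fun e j => shp p t (rt p P e (u j))) (ρ / (p : ℝ) ^ k) := by
  induction k generalizing ρ with
  | zero => simpa using hb
  | succ k ih =>
    rw [pow_succ, pow_mul] at hb
    have := ih (Fl_root_one_mfl ht hu hb)
    rwa [div_div, ← pow_succ'] at this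

theorem zero_le_Fl_mfl (t : P) (u : ι → P) (r : ℕ) :
    Ideal.span (Set.range fun j => shp p t (u j)) ^ r ≤
      Fl p (fun e j => shp p t (rt p P e (u j))) r := by
  have := pow_le_Fl (p := p) (fun e j => shp p t (rt p P e (u j))) (e := 0) (r := r) (ρ := r)
    (by rw [pow_zero, mul_one])
  simpa only [rt_zero] using this

theorem root_closed [Fintype ι] (ht : t ∈ nonZeroDivisors P)
    (hu : ∃ c : ℕ, t ^ c ∈ Ideal.span (Set.range u)) {b : Unt p t} {k r : ℕ}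
    (hb : b ^ p ^ k ∈ Ideal.span (Set.range fun j => shp p t (u j)) ^ r) :
    b ∈ Ideal.span (Set.range fun j => shp p t (rt p P k (u j))) ^ (r - Fintype.card ι) := by
  have h2 : (r : ℝ) ≤ (r : ℝ) / (p : ℝ) ^ k * (p : ℝ) ^ k := by
    rw [div_mul_cancel₀ _ (pow_pos (ppos_mfl p) k).ne']
  have h3 := Fl_le_pow (hv_shp_mfl t u) h2 (Fl_root ht hu k (zero_le_Fl_mfl t u r hb))
  beta_reduce at h3
  exact h3

theorem num_mfl (n1 k : ℕ) : n1 ≤ p ^ (n1 + k) ∧ ((p ^ k - 1 : ℕ) : ℝ) ≤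
    ((p ^ (n1 + k) - n1 : ℕ) : ℝ) / (p : ℝ) ^ (n1 + k) * (p : ℝ) ^ k := by
  have hp := (Fact.out : p.Prime).one_lt
  have h2 : n1 < p ^ n1 := Nat.lt_pow_self hp
  have h3 : 1 ≤ p ^ k := Nat.one_le_pow _ _ (by omega)
  have h4 : n1 ≤ p ^ (n1 + k) := by
    rw [pow_add]
    exact h2.le.trans (Nat.le_mul_of_pos_right _ h3)
  have hp0 := ppos_mfl p
  have h8 : (n1 : ℝ) ≤ (p : ℝ) ^ n1 := by exact_mod_cast h2.le
  refine ⟨h4, ?_⟩
  rw [Nat.cast_sub h3, Nat.cast_sub h4, div_mul_eq_mul_div, le_div_iff₀ (by positivity)]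
  push_cast
  rw [pow_add]
  nlinarith [mul_le_mul_of_nonneg_right h8 (pow_pos hp0 k).le]

/-- Valuative bounds imply ideal membership, up to a small loss. -/
theorem VLe.mem (ht : t ∈ nonZeroDivisors P) {g h : P} (hh : ∃ c : ℕ, h ∣ t ^ c) {b : Unt p t}
    (hb : VLe b (shp p t g) (shp p t h)) (k : ℕ) :
    b ∈ Ideal.span {shp p t (rt p P k g), shp p t (rt p P k h)} ^ (p ^ k - 3) := by
  obtain ⟨n1, h1⟩ := hb.exists_pow_mem
  obtain ⟨u, hu1, hu2⟩ : ∃ u : Bool → P, u false = g ∧ u true = h :=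
    ⟨fun i => cond i h g, rfl, rfl⟩
  subst hu1 hu2
  have hu : ∃ c : ℕ, t ^ c ∈ Ideal.span (Set.range u) := hh.imp fun c hc =>
    Ideal.mem_of_dvd _ hc (Ideal.subset_span (Set.mem_range_self true))
  obtain ⟨h4, h9⟩ := num_mfl (p := p) n1 k
  have h5 := h1 (p ^ (n1 + k) - n1)
  rw [Nat.sub_add_cancel h4, ← Bool.range_eq (fun j => shp p t (u j))] at h5
  have h7 := Fl_le_pow (hv_shp_mfl t u) h9 (Fl_root ht hu _ (zero_le_Fl_mfl t u _ h5))
  rwa [Bool.range_eq, Fintype.card_bool, Nat.sub_sub] at h7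

end Vale.Agent.P202
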