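import Vale.Agent.P202.MMono
import Vale.Agent.P202.Sig

/-! Consequences of `Geo`. -/

namespace Vale.Agent.P202

open scoped ENNReal

universe u

variable {B : Type u} [CommRing B] {m : ℕ} {E : Type u} [AddCommGroup E] [Module B E]
  {ξ : Fin (m + 1) → B} {φ : ℤ → Lau B m →ₗ[B] E}

theorem Cm_le_mgeo {A : Type u} [CommRing A] {b b' : Fin m → ℤ} (h : ∀ j, b j ≤ b' j)
    (J : Fin m → Ch) : Cm A b J ≤ Cm A b' J :=
  AddMonoidAlgebra.supported_mono fun _ hβ j => ⟨(hβ j).1, fun e => ((hβ j).2 e).trans (h j)⟩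

theorem DG_cmono (φ : ℤ → Lau B m →ₗ[B] E) (a : Fin m → ℤ) (s : ℤ) : CMono (DG φ a s) :=
  (Cm_cmono _).map _

theorem DG_mono (φ : ℤ → Lau B m →ₗ[B] E) {a a' : Fin m → ℤ} (h : a ≤ a') (s : ℤ) :
    DG φ a s ≤ DG φ a' s := fun J =>
  Submodule.map_mono (Cm_le_mgeo (fun j => by have : a j ≤ a' j := h j; simp only [sh]; omega) J)

theorem Geo.add (h : Geo ξ φ) (a : Fin m → ℤ) (s : ℤ) (N : ℕ) (J : Fin m → Ch) :
    DG φ a (s + N) J = Ideal.span (Set.range ξ) ^ N • DG φ a s J := by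
  induction N with
  | zero => simp
  | succ N ih =>
    rw [Nat.cast_succ, ← add_assoc, h.succ, ih, pow_succ', Submodule.mul_smul]

theorem Geo.anti (h : Geo ξ φ) (a : Fin m → ℤ) {s s' : ℤ} (hs : s ≤ s') :
    DG φ a s' ≤ DG φ a s := by
  intro J
  obtain ⟨N, rfl⟩ := Int.le.dest hs
  rw [h.add]
  exact Submodule.smul_le_right

theorem Geo.smul_le (h : Geo ξ φ) (a : Fin m → ℤ) {s s' : ℤ} {N : ℕ} (hs : s' ≤ s + N)
    (J : Fin m → Ch) : Ideal.span (Set.range ξ) ^ N • DG φ a s J ≤ DG φ a s' J := by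
  rw [← h.add]
  exact h.anti a hs J

theorem Geo.zero_pow_smul (h : Geo ξ φ) {a a' : Fin m → ℤ} {A : ℕ} (ha : ∀ j, a' j ≤ a j + A)
    (s : ℤ) (J : Fin m → Ch) : ∀ v ∈ DG φ a' s J, ξ 0 ^ A • v ∈ DG φ a (s + A) J := by
  rintro _ ⟨v, hv, rfl⟩
  have key : ∀ N : ℕ, φ (s + N) v = ξ 0 ^ N • φ s v := by
    intro N
    induction N with
    | zero => simp
    | succ N ih =>
      have := h.rel (s + N) 0 v
      rw [ee_zero, one_mul, ih, smul_smul, ← pow_succ'] at this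
      rw [Nat.cast_succ, ← add_assoc, this]
  exact ⟨v, Cm_le_mgeo (fun j => by have := ha j; simp only [sh]; omega) J hv, key A⟩

theorem Geo.strict (h : Geo ξ φ) {a a' : Fin m → ℤ} (ha : a ≤ a') {s s' : ℤ} (hs : s ≤ s')
    (J : Fin m → Ch) : DG φ a' s' J ⊓ DG φ a s J ≤ DG φ a s' J := by
  obtain ⟨N, rfl⟩ := Int.le.dest hs
  clear hs
  induction N with
  | zero => simp
  | succ N ih =>
    rw [Nat.cast_succ, ← add_assoc]
    rintro x ⟨h1, h2⟩
    obtain ⟨v, hv, rfl⟩ := ih ⟨h.anti a' (by omega) J h1, h2⟩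
    have hv' := Cm_le_mgeo (A := B) (b := sh a (s + N)) (b' := sh a' (s + N))
      (fun j => by have : a j ≤ a' j := ha j; simp only [sh]; omega) J hv
    have h3 := (mem_smul_Cm.1 (h.ker a' _ J v hv' h1)).2
    rw [h.succ, DG, ← Submodule.map_smul'']
    exact ⟨v, mem_smul_Cm.2 ⟨hv, h3⟩, rfl⟩

theorem Geo.piece (h : Geo ξ φ) (μ : RLen B) (a : Fin m → ℤ) (s n : ℤ) :
    hr μ (cd B m E) (Cech (DG φ a (s + 1))) (Cech (DG φ a s)) n =
      if n = -(cdeg (Jstar (sh a s)) : ℤ) then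
        ((Box (sh a s)).card : ℝ≥0∞) * μ.q (Ideal.span (Set.range ξ)) else 0 := by
  rw [← mono_hr_mod]
  refine (hr_cech_transfer μ (φ s) (Cm_cmono _) (DG_cmono φ a (s + 1)) (fun J => ?_)
    (fun J => ?_) n).symm
  · exact sup_eq_left.2 (h.anti a (by omega) J)
  · refine le_antisymm (fun v hv => h.ker a s J v hv.1 hv.2)
      (le_inf Submodule.smul_le_right ?_)
    rw [← Submodule.map_le_iff_le_comap, h.succ, DG, Submodule.map_smul'']

theorem Geo.tri_mgeo (h : Geo ξ φ) (a : Fin m → ℤ) (s : ℤ) (N : ℕ) :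
    Tri (cd B m E) (Cech (DG φ a (s + N + 1))) (Cech (DG φ a (s + N))) (Cech (DG φ a s)) :=
  ⟨sq_of_comp cd_comp_cd _ _, cech_isCx (DG_cmono φ a _), cech_isCx (DG_cmono φ a _),
    cech_isCx (DG_cmono φ a _), cech_mono (h.anti a (by omega)), cech_mono (h.anti a (by omega))⟩

theorem Geo.window_zero (h : Geo ξ φ) (μ : RLen B) (a : Fin m → ℤ) {s s' : ℤ} (hs : s ≤ s')
    (n : ℤ) (hn : ∀ r, s ≤ r → r < s' → μ.q (Ideal.span (Set.range ξ)) = 0 ∨
      n ≠ -(cdeg (Jstar (sh a r)) : ℤ) ∨ ∃ j, a j + r = -1) :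
    hr μ (cd B m E) (Cech (DG φ a s')) (Cech (DG φ a s)) n = 0 := by
  obtain ⟨N, rfl⟩ := Int.le.dest hs
  clear hs
  induction N with
  | zero => exact hr_eq_zero_of_le μ n (by simp)
  | succ N ih =>
    rw [Nat.cast_succ, ← add_assoc] at *
    have h1 := (h.tri_mgeo a s N).le_add μ n
    rw [ih fun r h1 h2 => hn r h1 (by omega), h.piece, add_zero] at h1
    refine le_antisymm (h1.trans (le_of_eq ?_)) bot_le
    rcases hn (s + N) (by omega) (by omega) with h2 | h2 | ⟨j, h2⟩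
    · simp [h2]
    · exact if_neg h2
    · have h3 := box_card (sh a (s + N))
      rw [Finset.prod_eq_zero (Finset.mem_univ j) (by simp only [sh]; rw [h2]; rfl)] at h3
      have h4 : (Box (sh a (s + N))).card = 0 := by exact_mod_cast h3
      simp [h4]

theorem Geo.window_chi (h : Geo ξ φ) (μ : RLen B) (hμ : μ.q (Ideal.span (Set.range ξ)) ≠ ⊤)
    (a : Fin m → ℤ) (s : ℤ) (N : ℕ) :
    GoodR μ (cd B m E) (Cech (DG φ a (s + N))) (Cech (DG φ a s)) ∧
      chiR μ (cd B m E) (Cech (DG φ a (s + N))) (Cech (DG φ a s)) =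
        (μ.q (Ideal.span (Set.range ξ))).toReal *
          ((∑ r ∈ Finset.range N, ∏ j, (a j + (s + r) + 1) : ℤ) : ℝ) := by
  induction N with
  | zero =>
    have := good_chi_of_zero μ (d := cd B m E) (F' := Cech (DG φ a (s + (0 : ℕ))))
      (F'' := Cech (DG φ a s)) fun n => hr_eq_zero_of_le μ n (by simp)
    simpa using this
  | succ N ih =>
    rw [Nat.cast_succ, ← add_assoc]
    have t := h.tri_mgeo a s N
    have h0 : ∀ n, n ≠ -(cdeg (Jstar (sh a (s + N))) : ℤ) →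
        hr μ (cd B m E) (Cech (DG φ a (s + N + 1))) (Cech (DG φ a (s + N))) n = 0 :=
      fun n hn => by rw [h.piece, if_neg hn]
    have g : GoodR μ (cd B m E) (Cech (DG φ a (s + N + 1))) (Cech (DG φ a (s + N))) :=
      goodR_of_bounded μ {-(cdeg (Jstar (sh a (s + N))) : ℤ)}
        (fun n hn => h0 n (by simpa using hn)) fun n _ => by
          rw [h.piece]
          split_ifs
          · exact ENNReal.mul_ne_top (by simp) hμ
          · simp
    refine ⟨t.good μ g ih.1, ?_⟩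
    rw [t.chi_add μ g ih.1, ih.2, chiR_eq_single μ _ h0, h.piece, if_pos rfl,
      Finset.sum_range_succ]
    have h1 := congrArg (fun z : ℤ => (z : ℝ)) (sign_mul_box_card (sh a (s + N)))
    simp only [sh, Int.cast_mul, Int.cast_natCast] at h1
    rw [ENNReal.toReal_mul, ENNReal.toReal_natCast, ← mul_assoc, Int.cast_add, ← h1]
    ring

theorem cmono_sup {D D' : (Fin m → Ch) → Submodule B E} (h : CMono D) (h' : CMono D') :
    CMono fun J => D J ⊔ D' J := fun J j hj =>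
  ⟨sup_le_sup (h J j hj).1 (h' J j hj).1, sup_le_sup (h J j hj).2 (h' J j hj).2⟩

theorem cech_sup (D D' : (Fin m → Ch) → Submodule B E) (n : ℤ) :
    Cech (fun J => D J ⊔ D' J) n = Cech D n ⊔ Cech D' n := by
  refine le_antisymm (fun x hx => ?_)
    (sup_le (cech_mono (fun _ => le_sup_left) n) (cech_mono (fun _ => le_sup_right) n))
  obtain ⟨h1, h2⟩ := mem_cech.1 hx
  have : ∀ J, ∃ y z : E, y + z = x J ∧ ((cdeg J : ℤ) = -n → y ∈ D J ∧ z ∈ D' J) ∧
      ((cdeg J : ℤ) ≠ -n → y = 0 ∧ z = 0) := by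
    intro J
    by_cases hJ : (cdeg J : ℤ) = -n
    · obtain ⟨y, hy, z, hz, e⟩ := Submodule.mem_sup.1 (h1 J hJ)
      exact ⟨y, z, e, fun _ => ⟨hy, hz⟩, fun hc => absurd hJ hc⟩
    · exact ⟨0, 0, by rw [h2 J hJ, add_zero], fun hc => absurd hc hJ, fun _ => ⟨rfl, rfl⟩⟩
  choose y z e1 e2 e3 using this
  exact Submodule.mem_sup.2 ⟨y, mem_cech.2 ⟨fun J hJ => (e2 J hJ).1, fun J hJ => (e3 J hJ).1⟩,
    z, mem_cech.2 ⟨fun J hJ => (e2 J hJ).2, fun J hJ => (e3 J hJ).2⟩, funext e1⟩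

theorem cech_inf (D D' : (Fin m → Ch) → Submodule B E) (n : ℤ) :
    Cech (fun J => D J ⊓ D' J) n = Cech D n ⊓ Cech D' n := by
  ext x
  simp only [Submodule.mem_inf, mem_cech]
  exact ⟨fun h => ⟨⟨fun J hJ => (h.1 J hJ).1, h.2⟩, fun J hJ => (h.1 J hJ).2, h.2⟩,
    fun h => ⟨fun J hJ => ⟨h.1.1 J hJ, h.2.1 J hJ⟩, h.1.2⟩⟩

/-- Windows of the cokernel system. -/
theorem Geo.window_coker (h : Geo ξ φ) (μ : RLen B) (hμ : μ.q (Ideal.span (Set.range ξ)) = 0)
    {a a' : Fin m → ℤ} (ha : a ≤ a') {s s' : ℤ} (h0 : 0 ≤ s) (hs : s ≤ s') (n : ℤ) :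
    hr μ (cd B m E) (Cech fun J => DG φ a' s' J ⊔ DG φ a 0 J)
      (Cech fun J => DG φ a' s J ⊔ DG φ a 0 J) n = 0 := by
  have sq := fun F' F'' => sq_of_comp (cd_comp_cd (R := B) (m := m) (M := E)) F' F''
  have cx := fun a s => cech_isCx (DG_cmono φ a s)
  have cx2 := fun a s a' s' => cech_isCx (cmono_sup (DG_cmono φ a s) (DG_cmono φ a' s'))
  have pz : ∀ a r n, hr μ (cd B m E) (Cech (DG φ a (r + 1))) (Cech (DG φ a r)) n = 0 :=
    fun a r n => by rw [h.piece, hμ]; simp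
  have step : ∀ r, 0 ≤ r → hr μ (cd B m E) (Cech fun J => DG φ a' (r + 1) J ⊔ DG φ a 0 J)
      (Cech fun J => DG φ a' r J ⊔ DG φ a 0 J) n = 0 := by
    intro r hr0
    have e1 := hr_inf_sup μ (cx a' r) (cx2 a' (r + 1) a 0) n
    have e2 : (Cech fun J => DG φ a' (r + 1) J ⊔ DG φ a 0 J) ⊔ Cech (DG φ a' r) =
        Cech fun J => DG φ a' r J ⊔ DG φ a 0 J := by
      funext k
      rw [Pi.sup_apply, ← cech_sup]
      congr 1
      funext J
      rw [sup_right_comm, sup_eq_right.2 (h.anti a' (by omega) J)]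
    have e3 : Cech (DG φ a' r) ⊓ (Cech fun J => DG φ a' (r + 1) J ⊔ DG φ a 0 J) =
        Cech fun J => DG φ a' (r + 1) J ⊔ DG φ a r J := by
      funext k
      rw [Pi.inf_apply, ← cech_inf]
      congr 1
      funext J
      rw [inf_comm, sup_inf_assoc_of_le _ (h.anti a' (by omega) J)]
      congr 1
      refine le_antisymm (inf_comm (DG φ a 0 J) _ ▸ h.strict ha hr0 J)
        (le_inf (h.anti a hr0 J) (DG_mono φ ha r J))
    rw [e2, e3] at e1
    rw [← e1]
    have t : Tri (cd B m E) (Cech (DG φ a' (r + 1)))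
        (Cech fun J => DG φ a' (r + 1) J ⊔ DG φ a r J) (Cech (DG φ a' r)) :=
      ⟨sq _ _, cx _ _, cx2 _ _ _ _, cx _ _, cech_mono fun _ => le_sup_left,
        cech_mono fun J => sup_le (h.anti a' (by omega) J) (DG_mono φ ha r J)⟩
    have e4 := hr_inf_sup μ (cx a r) (cx a' (r + 1)) (n - 1)
    have e5 : Cech (DG φ a r) ⊓ Cech (DG φ a' (r + 1)) = Cech (DG φ a (r + 1)) := by
      funext k
      rw [Pi.inf_apply, ← cech_inf]
      congr 1
      funext J
      refine le_antisymm (inf_comm (DG φ a r J) _ ▸ h.strict ha (by omega) J)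
        (le_inf (h.anti a (by omega) J) (DG_mono φ ha _ J))
    have e6 : Cech (DG φ a' (r + 1)) ⊔ Cech (DG φ a r) =
        Cech fun J => DG φ a' (r + 1) J ⊔ DG φ a r J := by
      funext k
      rw [Pi.sup_apply, ← cech_sup]
    rw [e5, e6, pz] at e4
    have e7 := t.quot_le μ n
    rw [pz, ← e4, add_zero] at e7
    exact le_antisymm e7 bot_le
  obtain ⟨N, rfl⟩ := Int.le.dest hs
  clear hs
  induction N with
  | zero => exact hr_eq_zero_of_le μ n (by simp)
  | succ N ih =>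
    rw [Nat.cast_succ, ← add_assoc]
    have t : Tri (cd B m E) (Cech fun J => DG φ a' (s + N + 1) J ⊔ DG φ a 0 J)
        (Cech fun J => DG φ a' (s + N) J ⊔ DG φ a 0 J)
        (Cech fun J => DG φ a' s J ⊔ DG φ a 0 J) :=
      ⟨sq _ _, cx2 _ _ _ _, cx2 _ _ _ _, cx2 _ _ _ _,
        cech_mono fun J => sup_le_sup_right (h.anti a' (by omega) J) _,
        cech_mono fun J => sup_le_sup_right (h.anti a' (by omega) J) _⟩
    have e := t.le_add μ n
    rw [ih, step _ (by omega), add_zero] at e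
    exact le_antisymm e bot_le

end Vale.Agent.P202
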