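import Vale.Agent.P202.MLen2
import Vale.Agent.P202.HSAux

/-! Regular and quasi-regular sequences. -/

namespace Vale.Agent.P202

open scoped ENNReal

universe u

variable {B : Type u} [CommRing B]

theorem PermReg.comp {ι ι' : Type} {x : ι → B} (h : PermReg x) {e : ι' → ι}
    (he : Function.Injective e) : PermReg (x ∘ e) := by
  intro T i hi z hz
  rw [Set.image_comp] at hz ⊢
  refine h (e '' T) (e i) ?_ z hz
  rintro ⟨j, hj, hji⟩
  exact hi (he hji ▸ hj)

theorem PermReg.regSeq {n : ℕ} {x : Fin n → B} (h : PermReg x) : RegSeq x :=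
  fun i z hz => h (Set.Iio i) i (lt_irrefl i) z hz

theorem PermReg.mem_nonZeroDivisors {ι : Type} {x : ι → B} (h : PermReg x) (i : ι) :
    x i ∈ nonZeroDivisors B := by
  refine mem_nonZeroDivisors_iff_left.2 fun z hz => ?_
  have := h ∅ i (Set.notMem_empty i) z (by rw [hz]; exact Ideal.zero_mem _)
  simpa using this

theorem reg_pow_mqr {J : Ideal B} {a : B} (ha : ∀ z, a * z ∈ J → z ∈ J) (k : ℕ) :
    ∀ z, a ^ k * z ∈ J → z ∈ J := by
  induction k with
  | zero => intro z hz; simpa using hz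
  | succ k ih =>
    intro z hz
    rw [pow_succ, mul_assoc] at hz
    exact ha z (ih _ hz)

theorem reg_sup_pow_mqr {J : Ideal B} {a y : B} (ha : ∀ z, a * z ∈ J → z ∈ J)
    (hy : ∀ z, y * z ∈ J ⊔ Ideal.span {a} → z ∈ J ⊔ Ideal.span {a}) (k : ℕ) :
    ∀ z, y * z ∈ J ⊔ Ideal.span {a ^ k} → z ∈ J ⊔ Ideal.span {a ^ k} := by
  induction k with
  | zero => intro z _; simp
  | succ k ih =>
    intro z hz
    have h1 : J ⊔ Ideal.span {a ^ (k + 1)} ≤ J ⊔ Ideal.span {a} :=
      sup_le_sup_left (Ideal.span_singleton_le_span_singleton.2 (dvd_pow_self a (by omega))) _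
    obtain ⟨c, hc, _, hb, rfl⟩ := Submodule.mem_sup.1 (hy z (h1 hz))
    obtain ⟨z', rfl⟩ := Ideal.mem_span_singleton'.1 hb
    obtain ⟨c', hc', _, hb', e⟩ := Submodule.mem_sup.1 hz
    obtain ⟨t, rfl⟩ := Ideal.mem_span_singleton'.1 hb'
    have h2 : y * z' - t * a ^ k ∈ J := ha _ (by
      rw [show a * (y * z' - t * a ^ k) = c' - y * c by linear_combination -e]
      exact sub_mem hc' (J.mul_mem_left y hc))
    have h3 := ih z' (by
      rw [show y * z' = (y * z' - t * a ^ k) + t * a ^ k by ring]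
      exact Submodule.add_mem_sup h2 (Ideal.mem_span_singleton'.2 ⟨t, rfl⟩))
    obtain ⟨c2, hc2, _, hb2, rfl⟩ := Submodule.mem_sup.1 h3
    obtain ⟨t2, rfl⟩ := Ideal.mem_span_singleton'.1 hb2
    rw [show c + (c2 + t2 * a ^ k) * a = (c + c2 * a) + t2 * a ^ (k + 1) by ring]
    exact Submodule.add_mem_sup (add_mem hc (J.mul_mem_right a hc2))
      (Ideal.mem_span_singleton'.2 ⟨t2, rfl⟩)

theorem span_insert_mqr {ι : Type} (x : ι → B) (i : ι) (T : Set ι) :
    Ideal.span (x '' insert i T) = Ideal.span (x '' T) ⊔ Ideal.span {x i} := by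
  rw [Set.image_insert_eq, Ideal.span_insert, sup_comm]

theorem PermReg.step_mqr {ι : Type} {x y : ι → B} (h : PermReg x) (i0 : ι) {k : ℕ}
    (h0 : y i0 = x i0 ^ k) (h1 : ∀ j, j ≠ i0 → y j = x j) : PermReg y := by
  have him : ∀ T : Set ι, i0 ∉ T → y '' T = x '' T := fun T hT =>
    Set.image_congr fun j hj => h1 j fun e => hT (e ▸ hj)
  intro T j hj z hz
  by_cases hT : i0 ∈ T
  · have hj0 : j ≠ i0 := fun e => hj (e ▸ hT)
    have e : T = insert i0 (T \ {i0}) := by
      rw [Set.insert_sdiff_singleton, Set.insert_eq_of_mem hT]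
    have hn : i0 ∉ T \ {i0} := fun hc => hc.2 rfl
    rw [e, span_insert_mqr, him _ hn, h0] at hz ⊢
    rw [h1 j hj0] at hz
    refine reg_sup_pow_mqr (h _ i0 hn) (fun w hw => ?_) k z hz
    rw [← span_insert_mqr, ← e] at hw ⊢
    exact h T j hj w hw
  · rw [him T hT] at hz ⊢
    by_cases hj0 : j = i0
    · subst hj0
      rw [h0] at hz
      exact reg_pow_mqr (h T j hj) k z hz
    · rw [h1 j hj0] at hz
      exact h T j hj z hz

theorem PermReg.pow_mqr {ι : Type} [DecidableEq ι] {x : ι → B} (h : PermReg x) (L : ι → ℕ)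
    (s : Finset ι) : PermReg fun i => if i ∈ s then x i ^ L i else x i := by
  induction s using Finset.induction_on with
  | empty => simpa using h
  | insert i s hi ih =>
    exact ih.step_mqr i (k := L i) (by simp [hi]) fun j hj => by simp [hj]

theorem PermReg.pow {ι : Type} [Finite ι] {x : ι → B} (h : PermReg x) (L : ι → ℕ)
    (hL : ∀ i, 1 ≤ L i) : PermReg fun i => x i ^ L i := by
  classical
  have _ := hL
  let _ := Fintype.ofFinite ι
  simpa using h.pow_mqr L Finset.univ

theorem PermReg.of_pow {ι : Type} [Finite ι] {x : ι → B} (L : ι → ℕ) (hL : ∀ i, 1 ≤ L i)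
    {B' : Type u} [CommRing B'] (e : B ≃+* B') {x' : ι → B'} (h : PermReg x')
    (he : ∀ i, e (x i) = x' i) : PermReg fun i => x i ^ L i := by
  refine PermReg.pow (fun T i hi z hz => ?_) L hL
  have h1 : (Ideal.span (x '' T)).map e = Ideal.span (x' '' T) := by
    rw [Ideal.map_span, Set.image_image]
    simp only [he]
  rw [← Ideal.apply_mem_of_equiv_iff (f := e), h1] at hz ⊢
  rw [map_mul, he] at hz
  exact h T i hi _ hz

/-- The colon of an extended ideal along a flat map. -/
theorem mem_map_of_flat_mqr {B' : Type u} [CommRing B'] {f : B →+* B'} (hf : f.Flat)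
    {I : Ideal B} {c : B} (hc : ∀ z, c * z ∈ I → z ∈ I) (z : B') (hz : f c * z ∈ I.map f) :
    z ∈ I.map f := by
  let _ : Algebra B B' := f.toAlgebra
  have _ : Module.Flat B B' := hf
  have h1 : IsSMulRegular (B ⧸ I) c := isSMulRegular_iff_right_eq_zero_of_smul.2 fun w hw => by
    obtain ⟨w, rfl⟩ := Ideal.Quotient.mk_surjective w
    exact Ideal.Quotient.eq_zero_iff_mem.2 (hc w (Ideal.Quotient.eq_zero_iff_mem.1 hw))
  have h2 := IsSMulRegular.lTensor B' h1
  let e := Algebra.TensorProduct.quotIdealMapEquivTensorQuot B' I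
  have h3 : e (Ideal.Quotient.mk _ z) = 0 := by
    refine h2 ?_
    beta_reduce
    rw [smul_zero, ← algebraMap_smul B' c, ← map_smul]
    have : (algebraMap B B' c) • (Ideal.Quotient.mk (I.map (algebraMap B B')) z) = 0 :=
      Ideal.Quotient.eq_zero_iff_mem.2 hz
    rw [this, map_zero]
  exact Ideal.Quotient.eq_zero_iff_mem.1 (e.injective (h3.trans (map_zero e).symm))

theorem PermReg.map_flat {ι : Type} [Finite ι] {x : ι → B} (h : PermReg x) {B' : Type u}
    [CommRing B'] {f : B →+* B'} (hf : f.Flat) : PermReg fun i => f (x i) := by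
  intro T i hi z hz
  have h1 : (Ideal.span (x '' T)).map f = Ideal.span ((fun i => f (x i)) '' T) := by
    rw [Ideal.map_span, Set.image_image]
  rw [← h1] at hz ⊢
  exact mem_map_of_flat_mqr hf (h T i hi) z hz

/-- The colon of an extended ideal along a flat map. -/
theorem mem_map_of_flat {B' : Type u} [CommRing B'] {f : B →+* B'} (hf : f.Flat) {I : Ideal B}
    {c : B} (hc : ∀ z, c * z ∈ I → z ∈ I) (z : B') (hz : f c * z ∈ I.map f) : z ∈ I.map f :=
  mem_map_of_flat_mqr hf hc z hz

theorem span_range_mqr {ι : Type} (x : ι → B) (i : ι) :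
    Ideal.span (Set.range x) = Ideal.span (x '' {i}ᶜ) ⊔ Ideal.span {x i} := by
  rw [← span_insert_mqr, Set.insert_eq, Set.union_compl_self, Set.image_univ]

theorem PermReg.q_pows (μ : RLen B) {ι : Type} [Fintype ι] {x : ι → B} (h : PermReg x)
    (L : ι → ℕ) : μ.q (Ideal.span (Set.range fun i => x i ^ L i)) =
      ((∏ i, L i : ℕ) : ℝ≥0∞) * μ.q (Ideal.span (Set.range x)) := by
  classical
  have key : ∀ s : Finset ι,
      μ.q (Ideal.span (Set.range fun i => if i ∈ s then x i ^ L i else x i)) =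
        ((∏ i ∈ s, L i : ℕ) : ℝ≥0∞) * μ.q (Ideal.span (Set.range x)) := by
    intro s
    induction s using Finset.induction_on with
    | empty => simp
    | insert i s hi ih =>
      have e : (fun j => if j ∈ insert i s then x j ^ L j else x j) '' {i}ᶜ =
          (fun j => if j ∈ s then x j ^ L j else x j) '' {i}ᶜ :=
        Set.image_congr fun j hj => by
          have hj' : j ≠ i := hj
          simp [hj']
      have hreg := h.pow_mqr L s {i}ᶜ i (fun hc => hc rfl)
      rw [span_range_mqr _ i] at ih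
      rw [span_range_mqr _ i, e, Finset.prod_insert hi, Nat.cast_mul, mul_assoc, ← ih]
      simp only [Finset.mem_insert_self, if_true, if_neg hi] at hreg ⊢
      exact μ.q_pow_eq _ _ hreg _
  simpa using key Finset.univ

section rees

open MvPolynomial

theorem exists_hom_mqr {n : ℕ} (x : Fin n → B) (a : Ideal B) (γ : ℕ) (z : B)
    (hz : z ∈ a * Ideal.span (Set.range x) ^ γ) : ∃ q : MvPolynomial (Fin n) B,
      q.IsHomogeneous γ ∧ q ∈ a.map (C : B →+* MvPolynomial (Fin n) B) ∧ eval x q = z := by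
  refine Submodule.mul_induction_on hz ?_ ?_
  · intro r hr y hy
    obtain ⟨q, hq, rfl⟩ := (mem_pow_iff x γ y).1 hy
    refine ⟨C r * q, by simpa using (isHomogeneous_C _ r).mul hq,
      Ideal.mul_mem_right _ _ (Ideal.mem_map_of_mem _ hr), by simp⟩
  · rintro _ _ ⟨q, hq, hq', rfl⟩ ⟨q', hq1, hq1', rfl⟩
    exact ⟨q + q', hq.add hq1, Ideal.add_mem _ hq' hq1', by simp⟩

/-- Quasi-regularity in one degree. -/
def WkMqr {n : ℕ} (x : Fin n → B) (γ : ℕ) : Prop :=
  ∀ f : MvPolynomial (Fin n) B, f.IsHomogeneous γ → eval x f = 0 →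
    f ∈ (Ideal.span (Set.range x)).map (C : B →+* MvPolynomial (Fin n) B)

theorem qreg_iff_mqr {n : ℕ} {x : Fin n → B} : QReg x ↔ ∀ γ, WkMqr x γ := by
  constructor
  · intro h γ f hf h0
    exact h ((mem_ReesI_of_isHomogeneous hf).2 h0)
  · intro h f hf
    rw [← sum_homogeneousComponent f]
    exact Ideal.sum_mem _ fun γ _ =>
      h γ _ (homogeneousComponent_isHomogeneous γ f) (mem_ReesI.1 hf γ)

theorem WkMqr.strong {n : ℕ} {x : Fin n → B} {γ : ℕ} (h : WkMqr x γ)
    {f : MvPolynomial (Fin n) B} (hf : f.IsHomogeneous γ)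
    (h1 : eval x f ∈ Ideal.span (Set.range x) ^ (γ + 1)) :
    f ∈ (Ideal.span (Set.range x)).map (C : B →+* MvPolynomial (Fin n) B) := by
  rw [pow_succ'] at h1
  obtain ⟨q, hq, hq', e⟩ := exists_hom_mqr x _ γ _ h1
  have := h (f - q) (hf.sub hq) (by rw [map_sub, e, sub_self])
  simpa using add_mem this hq'

theorem QReg.colon_mqr {n : ℕ} {x : Fin n → B} (h : QReg x) {y : B}
    (hy : ∀ z, y * z ∈ Ideal.span (Set.range x) → z ∈ Ideal.span (Set.range x)) (γ : ℕ) :
    ∀ z, y * z ∈ Ideal.span (Set.range x) ^ γ → z ∈ Ideal.span (Set.range x) ^ γ := by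
  induction γ with
  | zero => intro z _; simp
  | succ γ ih =>
    intro z hz
    obtain ⟨f, hf, rfl⟩ := (mem_pow_iff x γ z).1
      (ih z (Ideal.pow_le_pow_right (Nat.le_succ γ) hz))
    have h1 := (qreg_iff_mqr.1 h γ).strong (f := C y * f)
      (by simpa using (isHomogeneous_C _ y).mul hf) (by simpa using hz)
    rw [pow_succ']
    refine eval_mem_of_mem_map_C x hf (mem_map_C_iff.2 fun s => hy _ ?_)
    simpa using mem_map_C_iff.1 h1 s

theorem split_last_mqr {n : ℕ} (F : MvPolynomial (Fin (n + 1)) B) :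
    ∃ (G : MvPolynomial (Fin n) B) (H : MvPolynomial (Fin (n + 1)) B),
      F = rename Fin.castSucc G + H * X (Fin.last n) := by
  induction F using MvPolynomial.induction_on with
  | C a => exact ⟨C a, 0, by simp⟩
  | add p q hp hq =>
    obtain ⟨G, H, rfl⟩ := hp
    obtain ⟨G', H', rfl⟩ := hq
    exact ⟨G + G', H + H', by rw [map_add]; ring⟩
  | mul_X p i hp =>
    refine Fin.lastCases ⟨0, p, by simp⟩ (fun j => ?_) i
    obtain ⟨G, H, rfl⟩ := hp
    exact ⟨G * X j, H * X j.castSucc, by rw [map_mul, rename_X]; ring⟩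

theorem rename_mem_mqr {σ τ : Type} (e : σ → τ) (I : Ideal B) {f : MvPolynomial σ B}
    (hf : f ∈ I.map (C : B →+* MvPolynomial σ B)) :
    rename e f ∈ I.map (C : B →+* MvPolynomial τ B) := by
  have : I.map (C : B →+* MvPolynomial σ B) ≤
      (I.map (C : B →+* MvPolynomial τ B)).comap (rename e : MvPolynomial σ B →ₐ[B] _) := by
    rw [Ideal.map_le_iff_le_comap]
    intro r hr
    rw [Ideal.mem_comap, Ideal.mem_comap, rename_C]
    exact Ideal.mem_map_of_mem _ hr
  exact this hf

theorem qreg_step_mqr {n : ℕ} {x : Fin (n + 1) → B} (h : QReg fun j : Fin n => x j.castSucc)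
    (ha : ∀ z, x (Fin.last n) * z ∈ Ideal.span (Set.range fun j : Fin n => x j.castSucc) →
      z ∈ Ideal.span (Set.range fun j : Fin n => x j.castSucc)) : QReg x := by
  set x' : Fin n → B := fun j => x j.castSucc with hx'
  have hle : Ideal.span (Set.range x') ≤ Ideal.span (Set.range x) :=
    Ideal.span_mono (by rintro _ ⟨j, rfl⟩; exact ⟨_, rfl⟩)
  refine qreg_iff_mqr.2 fun γ => ?_
  induction γ with
  | zero =>
    intro f hf h0
    rw [← homogeneousComponent_eq_self hf, homogeneousComponent_zero] at h0 ⊢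
    rw [eval_C] at h0
    rw [h0, map_zero]
    exact zero_mem _
  | succ γ ih =>
    intro F hF h0
    obtain ⟨G0, H0, e0⟩ := split_last_mqr F
    set G := homogeneousComponent (γ + 1) G0 with hG
    set H := homogeneousComponent γ H0 with hH
    have hGh : G.IsHomogeneous (γ + 1) := homogeneousComponent_isHomogeneous _ _
    have hHh : H.IsHomogeneous γ := homogeneousComponent_isHomogeneous _ _
    have e : F = rename Fin.castSucc G + H * X (Fin.last n) := by
      rw [← homogeneousComponent_eq_self hF, e0, map_add, ← rename_homogeneousComponent,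
        hcomp_mul (isHomogeneous_X B (Fin.last n)), if_pos (by omega), Nat.add_sub_cancel]
    have e1 : eval x' G + eval x H * x (Fin.last n) = 0 := by
      rw [← h0, e, map_add, map_mul, eval_X, eval_rename]
      rfl
    have h1 : eval x H ∈ Ideal.span (Set.range x') ^ (γ + 1) := by
      refine h.colon_mqr ha _ _ ?_
      rw [show x (Fin.last n) * eval x H = -eval x' G by linear_combination e1]
      exact neg_mem ((mem_pow_iff x' _ _).2 ⟨G, hGh, rfl⟩)
    have h2 := ih.strong hHh (Ideal.pow_right_mono hle _ h1)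
    obtain ⟨g, hg, eg⟩ := (mem_pow_iff x' _ _).1 h1
    have h3 := qreg_iff_mqr.1 h (γ + 1) (G + C (x (Fin.last n)) * g)
      (hGh.add (by simpa using (isHomogeneous_C _ (x (Fin.last n))).mul hg))
      (by rw [map_add, map_mul, eval_C, eg]; linear_combination e1)
    have h4 : G ∈ (Ideal.span (Set.range x)).map (C : B →+* MvPolynomial (Fin n) B) := by
      have h5 : C (x (Fin.last n)) * g ∈
          (Ideal.span (Set.range x)).map (C : B →+* MvPolynomial (Fin n) B) :=
        Ideal.mul_mem_right _ _ (Ideal.mem_map_of_mem _ (Ideal.subset_span ⟨_, rfl⟩))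
      simpa using sub_mem (Ideal.map_mono hle h3) h5
    rw [e]
    exact add_mem (rename_mem_mqr _ _ h4) (Ideal.mul_mem_right _ _ h2)

omit [CommRing B] in
theorem range_castSucc_mqr {n : ℕ} (x : Fin (n + 1) → B) :
    (Set.range fun j : Fin n => x j.castSucc) = x '' Set.Iio (Fin.last n) := by
  ext z
  constructor
  · rintro ⟨j, rfl⟩
    exact ⟨_, Fin.castSucc_lt_last j, rfl⟩
  · rintro ⟨i, hi, rfl⟩
    exact ⟨i.castPred (ne_of_lt hi), by simp⟩

omit [CommRing B] in
theorem image_castSucc_mqr {n : ℕ} (x : Fin (n + 1) → B) (i : Fin n) :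
    (fun j : Fin n => x j.castSucc) '' Set.Iio i = x '' Set.Iio i.castSucc := by
  ext z
  constructor
  · rintro ⟨j, hj, rfl⟩
    exact ⟨_, Fin.castSucc_lt_castSucc_iff.2 hj, rfl⟩
  · rintro ⟨j, hj, rfl⟩
    have hne : j ≠ Fin.last n := ne_of_lt (lt_trans hj (Fin.castSucc_lt_last i))
    refine ⟨j.castPred hne, Fin.castSucc_lt_castSucc_iff.1 ?_, by simp⟩
    simpa using hj

end rees

/-- Rees' theorem. -/
theorem RegSeq.qreg {n : ℕ} {x : Fin n → B} (h : RegSeq x) : QReg x := by
  induction n with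
  | zero =>
    refine qreg_iff_mqr.2 fun γ f _ h0 => ?_
    rw [f.eq_C_of_isEmpty] at h0 ⊢
    rw [MvPolynomial.eval_C] at h0
    rw [h0, map_zero]
    exact zero_mem _
  | succ n ih =>
    refine qreg_step_mqr (ih fun i z hz => ?_) fun z hz => ?_
    · rw [image_castSucc_mqr] at hz ⊢
      exact h _ z hz
    · rw [range_castSucc_mqr] at hz ⊢
      exact h _ z hz

theorem QReg.comp_equiv {n : ℕ} {x : Fin n → B} (h : QReg x) (e : Fin n ≃ Fin n) :
    QReg (x ∘ e) := by
  refine qreg_iff_mqr.2 fun γ f hf h0 => ?_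
  have h1 := qreg_iff_mqr.1 h γ (MvPolynomial.rename e f) hf.rename_isHomogeneous
    (by rw [MvPolynomial.eval_rename, h0])
  have h2 := rename_mem_mqr e.symm _ h1
  rw [MvPolynomial.rename_rename, e.symm_comp_self, MvPolynomial.rename_id_apply] at h2
  rwa [e.surjective.range_comp]

/-- One element may be replaced by an element that is regular modulo all the others. -/
theorem qreg_of_permReg {σ : Type} [Fintype σ] {w : σ → B} (hw : PermReg w) {ζ : B}
    (hζ : ∀ z, ζ * z ∈ Ideal.span (Set.range w) → z ∈ Ideal.span (Set.range w)) {n : ℕ}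
    (e : Fin n ≃ Option σ) : QReg fun i => (e i).elim ζ w := by
  obtain rfl : n = Fintype.card σ + 1 := by
    simpa using Fintype.card_congr e
  let e0 : Fin (Fintype.card σ) ≃ σ := (Fintype.equivFin σ).symm
  let e1 : Fin (Fintype.card σ + 1) ≃ Option σ := finSuccEquivLast.trans e0.optionCongr
  have h1 : QReg fun i => (e1 i).elim ζ w := by
    have e2 : (fun j : Fin (Fintype.card σ) => (e1 j.castSucc).elim ζ w) = w ∘ e0 := by
      funext j
      simp [e1]
    refine qreg_step_mqr ?_ ?_
    · rw [e2]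
      exact (hw.comp e0.injective).regSeq.qreg
    · rw [e2, e0.surjective.range_comp]
      simpa [e1] using hζ
  have h2 := h1.comp_equiv (e.trans e1.symm)
  convert h2 using 1
  funext i
  simp

theorem QReg.coeff_mem {n : ℕ} {x : Fin n → B} (h : QReg x) {γ : ℕ} {f : MvPolynomial (Fin n) B}
    (hf : f.IsHomogeneous γ) (h1 : MvPolynomial.eval x f ∈ Ideal.span (Set.range x) ^ (γ + 1))
    (s : Fin n →₀ ℕ) : f.coeff s ∈ Ideal.span (Set.range x) :=
  MvPolynomial.mem_map_C_iff.1 ((qreg_iff_mqr.1 h γ).strong hf h1) s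

open MvPolynomial in
theorem rr_sup_mqr (μ : RLen B) {n : ℕ} (J : Ideal B) (T : Finset (Fin n →₀ ℕ)) :
    rr μ ((J.map (C : B →+* MvPolynomial (Fin n) B)).restrictScalars B) (hsSup B T) =
      T.card * μ.q J := by
  classical
  let c : MvPolynomial (Fin n) B →ₗ[B] (T → B ⧸ J) :=
    LinearMap.pi fun β => J.mkQ ∘ₗ lcoeff B β.1
  have h1 : (J.map (C : B →+* MvPolynomial (Fin n) B)).restrictScalars B ⊓ hsSup B T =
      LinearMap.ker c ⊓ hsSup B T := by
    ext v
    refine and_congr_left fun hv => ?_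
    rw [SetLike.mem_coe, SetLike.mem_coe, Submodule.restrictScalars_mem, mem_map_C_iff,
      LinearMap.mem_ker, funext_iff]
    constructor
    · intro h β
      exact (Submodule.Quotient.mk_eq_zero J).2 (h β.1)
    · intro h β
      by_cases hβ : β ∈ T
      · exact (Submodule.Quotient.mk_eq_zero J).1 (h ⟨β, hβ⟩)
      · rw [hv β hβ]; exact J.zero_mem
  have h2 : (hsSup B T).map c = ⊤ := by
    rw [eq_top_iff]
    intro w _
    choose w' hw' using fun β : T => J.mkQ_surjective (w β)
    refine ⟨∑ β : T, monomial β.1 (w' β), ?_, ?_⟩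
    · intro γ hγ
      rw [coeff_sum]
      refine Finset.sum_eq_zero fun β _ => ?_
      rw [coeff_monomial, if_neg]
      rintro rfl
      exact hγ β.2
    · funext γ
      change J.mkQ (coeff γ.1 (∑ β : T, monomial β.1 (w' β))) = w γ
      rw [coeff_sum, Finset.sum_eq_single γ]
      · rw [coeff_monomial, if_pos rfl, hw']
      · intro β _ hβ
        rw [coeff_monomial, if_neg]
        exact fun h => hβ (Subtype.ext h)
      · simp
  rw [← rr_inf, h1, rr_inf, rr_eq_len_map μ c _ _ rfl, h2, μ.equiv Submodule.topEquiv,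
    μ.len_pi fun _ : T => B ⧸ J]
  simp

theorem QReg.rr_pow (μ : RLen B) {n : ℕ} {x : Fin (n + 1) → B} (h : QReg x) (s : ℕ) :
    rr μ (Ideal.span (Set.range x) ^ (s + 1) : Ideal B) (Ideal.span (Set.range x) ^ s : Ideal B) =
      ((s + n).choose n : ℕ) * μ.q (Ideal.span (Set.range x)) := by
  have h1 := hs_map_ev x 1 s
  rw [Ideal.span_singleton_one, Ideal.top_mul] at h1
  have h2 : Submodule.comap (hsEv x 1) (Ideal.span (Set.range x) ^ (s + 1) : Ideal B) ⊓
      MvPolynomial.homogeneousSubmodule (Fin (n + 1)) B s =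
      ((Ideal.span (Set.range x)).map
        (MvPolynomial.C : B →+* MvPolynomial (Fin (n + 1)) B)).restrictScalars B ⊓
      MvPolynomial.homogeneousSubmodule (Fin (n + 1)) B s := by
    ext g
    refine and_congr_left fun hg => ?_
    rw [SetLike.mem_coe, SetLike.mem_coe, Submodule.restrictScalars_mem, Submodule.mem_comap,
      hsEv_apply, one_mul]
    refine ⟨(qreg_iff_mqr.1 h s).strong hg, fun h3 => ?_⟩
    rw [pow_succ']
    exact eval_mem_of_mem_map_C x hg h3
  rw [← h1, ← rr_map, ← rr_inf, h2, rr_inf, hs_homog_eq, rr_sup_mqr, hs_card_antidiag]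

/-- The multiplicity of a quasi-regular sequence is its colength. -/
theorem QReg.isMult {n : ℕ} {x : Fin (n + 1) → B} (h : QReg x) {a : ℕ}
    (ha : Module.length B (B ⧸ Ideal.span (Set.range x)) = a) :
    IsMult B (Ideal.span (Set.range x)) (n + 1) a := by
  set I := Ideal.span (Set.range x) with hI
  have hq : (RLen.ofLen B).q I = a := by
    change ((Module.length B (B ⧸ I) : ℕ∞) : ℝ≥0∞) = a
    rw [ha]
    rfl
  have h1 : ∀ k : ℕ, (RLen.ofLen B).q (I ^ k) =
      (((∑ s ∈ Finset.range k, (s + n).choose n) * a : ℕ) : ℝ≥0∞) := by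
    intro k
    induction k with
    | zero => simpa using (RLen.ofLen B).q_top
    | succ k ih =>
      have h2 := rr_add (RLen.ofLen B) (Ideal.pow_le_pow_right (I := I) (Nat.le_succ k))
        (le_top : (I ^ k : Ideal B) ≤ ⊤)
      rw [rr_top, rr_top, h.rr_pow] at h2
      change (RLen.ofLen B).q _ = _ + (RLen.ofLen B).q _ at h2
      rw [h2, ih, hq, Finset.sum_range_succ]
      push_cast
      ring
  have h3 : ∀ k : ℕ, Module.length B (B ⧸ I ^ k) = (((k + n).choose (n + 1) * a : ℕ) : ℕ∞) := by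
    intro k
    rw [← ENat.toENNReal_inj, ← hs_sum_choose]
    exact h1 k
  have h4 := (hs_tendsto_main n).mul_const (a : ℝ)
  rw [one_mul] at h4
  refine h4.congr fun k => ?_
  unfold HS
  rw [h3, ENat.toNat_natCast]
  push_cast
  ring

end Vale.Agent.P202
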