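import Vale.Agent.P202.MPS
import Vale.Agent.P202.MQR
import Vale.Agent.P202.RankA

/-! Hypersurfaces `C[[X]][θ]` over an unramified discrete valuation ring. -/

namespace Vale.Agent.P202

open IsLocalRing Polynomial

universe u

/-- The sequence `θ, X`. -/
def par {A R : Type u} [CommRing A] [CommRing R] [Algebra A R] {σ : Type} (Xv : σ → A) (θ : R) :
    Option σ → R := fun o => o.elim θ fun j => algebraMap A R (Xv j)

/-- The generator as an element of the subalgebra it generates. -/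
def gen (A : Type u) {R : Type u} [CommRing A] [CommRing R] [Algebra A R] (θ : R) :
    Algebra.adjoin A {θ} := ⟨θ, Algebra.self_mem_adjoin_singleton A θ⟩

/-- The equation of `θ`. -/
structure Hyp (p : ℕ) {A R : Type u} [CommRing A] [CommRing R] [Algebra A R] {σ : Type}
    (Xv : σ → A) (θ : R) (F : A[X]) (a : ℕ) (u : A) : Prop where
  monic : F.Monic
  root : aeval θ F = 0
  ker : ∀ H : A[X], aeval θ H = 0 → F ∣ H
  unit : IsUnit u
  ord : F.coeff 0 - p ^ a * u ∈ Ideal.span (Set.range Xv)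

theorem length_comap_mhyp {A B : Type u} [CommRing A] [CommRing B] (f : A →+* B)
    (hf : Function.Surjective f) (J : Ideal B) :
    Module.length A (A ⧸ J.comap f) = Module.length B (B ⧸ J) := by
  let _ := f.toAlgebra
  rw [← Module.length_eq_of_surjective (S := A) (R := B) hf]
  let φ : A →ₗ[A] B ⧸ J := (Submodule.mkQ J).restrictScalars A ∘ₗ Algebra.linearMap A B
  have hφ : Function.Surjective φ := (Submodule.mkQ_surjective J).comp hf
  have hk : J.comap f = LinearMap.ker φ := by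
    ext z
    exact (Submodule.Quotient.mk_eq_zero J).symm
  exact ((Submodule.quotEquivOfEq _ _ hk).trans (φ.quotKerEquivOfSurjective hφ)).length_eq

theorem aeval_sub_mhyp {A R : Type u} [CommRing A] [CommRing R] [Algebra A R] (θ : R)
    (H : A[X]) : ∃ c, aeval θ H = algebraMap A R (H.coeff 0) + c * θ := by
  refine ⟨aeval θ H.divX, ?_⟩
  conv_lhs => rw [← divX_mul_X_add H]
  rw [map_add, map_mul, aeval_X, aeval_C, add_comm]

theorem mem_span_X_mhyp {σ : Type} [Finite σ] {Λ : Type u} [CommRing Λ] (z : PS σ Λ) :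
    z ∈ Ideal.span (Set.range (MvPowerSeries.X : σ → PS σ Λ)) ↔
      MvPowerSeries.constantCoeff z = 0 := by
  constructor
  · intro h
    have : Ideal.span (Set.range (MvPowerSeries.X : σ → PS σ Λ)) ≤
        RingHom.ker MvPowerSeries.constantCoeff := Ideal.span_le.2 (by
      rintro _ ⟨i, rfl⟩
      exact MvPowerSeries.constantCoeff_X i)
    exact this h
  · intro h
    simpa [h] using ps_sub_C_mem z

theorem coe_aeval_gen_mhyp {A R : Type u} [CommRing A] [CommRing R] [Algebra A R] (θ : R)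
    (H : A[X]) : ((aeval (gen A θ) H : Algebra.adjoin A {θ}) : R) = aeval θ H :=
  (aeval_algHom_apply (Algebra.adjoin A {θ}).val (gen A θ) H).symm

theorem exists_aeval_mhyp {A R : Type u} [CommRing A] [CommRing R] [Algebra A R] {θ : R}
    {z : R} (h : z ∈ Algebra.adjoin A {θ}) : ∃ H : A[X], aeval θ H = z := by
  rwa [Algebra.adjoin_singleton_eq_range_aeval] at h

theorem eq_max_mhyp {R : Type u} [CommRing R] [IsLocalRing R] {ι : Type} {x : ι → R}
    (h : IsSop x) (Q : Ideal R) [hQ : Q.IsPrime] (hx : ∀ i, x i ∈ Q) : Q = maximalIdeal R := by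
  obtain ⟨-, t, ht⟩ := h
  refine le_antisymm (le_maximalIdeal hQ.ne_top) (Ideal.IsPrime.le_of_pow_le (n := t) ?_)
  exact ht.trans (Ideal.span_le.2 (Set.range_subset_iff.2 hx))

variable {p : ℕ} {C0 : Type u} [CommRing C0] [IsDomain C0] [IsDiscreteValuationRing C0]
  {σ : Type} [Finite σ] {R : Type u} [CommRing R] [Algebra (PS σ C0) R]

theorem Hyp.isMult (hC : maximalIdeal C0 = Ideal.span {(p : C0)}) {θ : R} {F : (PS σ C0)[X]}
    {a : ℕ} {u : PS σ C0} (h : Hyp p MvPowerSeries.X θ F a u)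
    (hadj : Algebra.adjoin (PS σ C0) {θ} = ⊤) :
    IsMult R (Ideal.span (Set.range (par (MvPowerSeries.X : σ → PS σ C0) θ)))
      (Nat.card σ + 1) a := by
  let _ := Fintype.ofFinite σ
  have hs : Function.Surjective (aeval θ : (PS σ C0)[X] →ₐ[PS σ C0] R) := fun z =>
    exists_aeval_mhyp (hadj ▸ Algebra.mem_top)
  have hker : Ideal.span {F} = RingHom.ker (aeval θ : (PS σ C0)[X] →ₐ[PS σ C0] R) := by
    ext H
    rw [Ideal.mem_span_singleton, RingHom.mem_ker]
    refine ⟨?_, h.ker H⟩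
    rintro ⟨G, rfl⟩
    rw [map_mul, h.root, zero_mul]
  have _ := h.monic.free_quotient
  have hfl : Module.Flat (PS σ C0) R := Module.Flat.of_linearEquiv
    ((Ideal.quotientEquivAlgOfEq (PS σ C0) hker).trans
      (Ideal.quotientKerAlgEquivOfSurjective hs)).symm.toLinearEquiv
  have hfl' : (algebraMap (PS σ C0) R).Flat := RingHom.flat_algebraMap_iff.2 hfl
  have hp : (p : C0) ≠ 0 := fun h0 => IsDiscreteValuationRing.not_a_field C0
    (by rw [hC, h0, Ideal.span_singleton_zero])
  have hu : IsUnit (MvPowerSeries.constantCoeff u) := h.unit.map _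
  have hF : MvPowerSeries.constantCoeff (F.coeff 0) = p ^ a * MvPowerSeries.constantCoeff u := by
    have := (mem_span_X_mhyp _).1 h.ord
    rwa [map_sub, map_mul, map_pow, map_natCast, sub_eq_zero] at this
  obtain ⟨c, hc⟩ := aeval_sub_mhyp θ F
  rw [h.root] at hc
  have hθ : ∀ z, θ * z ∈ Ideal.span (Set.range fun j : σ =>
      algebraMap (PS σ C0) R (MvPowerSeries.X j)) → z ∈ Ideal.span (Set.range fun j : σ =>
      algebraMap (PS σ C0) R (MvPowerSeries.X j)) := by
    intro z hz
    rw [← ps_map_span] at hz ⊢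
    refine mem_map_of_flat hfl' (c := F.coeff 0) (fun w hw => ?_) z ?_
    · rw [mem_span_X_mhyp] at hw ⊢
      rw [map_mul, hF] at hw
      exact (mul_eq_zero.1 hw).resolve_left (mul_ne_zero (pow_ne_zero _ hp) hu.ne_zero)
    · rw [show algebraMap (PS σ C0) R (F.coeff 0) * z = -c * (θ * z) by
        linear_combination (-z) * hc]
      exact Ideal.mul_mem_left _ _ hz
  let e : Fin (Nat.card σ + 1) ≃ Option σ := (Finite.equivFinOfCardEq (by simp)).symm
  have hq := qreg_of_permReg ((ps_permReg C0).map_flat hfl') hθ e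
  have hr : (Set.range fun i => (e i).elim θ fun j : σ =>
      algebraMap (PS σ C0) R (MvPowerSeries.X j)) =
      Set.range (par (MvPowerSeries.X : σ → PS σ C0) θ) :=
    e.surjective.range_comp (par (MvPowerSeries.X : σ → PS σ C0) θ)
  rw [← hr]
  refine hq.isMult ?_
  rw [hr]
  set I := Ideal.span (Set.range (par (MvPowerSeries.X : σ → PS σ C0) θ)) with hI
  have hθI : θ ∈ I := Ideal.subset_span ⟨none, rfl⟩
  have hXI : ∀ z : PS σ C0, MvPowerSeries.constantCoeff z = 0 → algebraMap _ R z ∈ I := by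
    intro z hz
    have h1 := Ideal.mem_map_of_mem (algebraMap (PS σ C0) R) ((mem_span_X_mhyp z).2 hz)
    rw [ps_map_span] at h1
    refine Ideal.span_mono ?_ h1
    rintro _ ⟨j, rfl⟩
    exact ⟨some j, rfl⟩
  let χ : (PS σ C0)[X] →+* C0 := MvPowerSeries.constantCoeff.comp constantCoeff
  have hχ : Function.Surjective χ := fun z => ⟨C (MvPowerSeries.C z), by simp [χ]⟩
  have hIm : I = (RingHom.ker χ).map (aeval θ : (PS σ C0)[X] →ₐ[PS σ C0] R) := by
    refine le_antisymm (Ideal.span_le.2 ?_) (Ideal.map_le_iff_le_comap.2 fun H hH => ?_)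
    · rintro _ ⟨_ | j, rfl⟩
      · have := Ideal.mem_map_of_mem (aeval θ : (PS σ C0)[X] →ₐ[PS σ C0] R)
          (show X ∈ RingHom.ker χ by simp [χ])
        rwa [aeval_X] at this
      · have := Ideal.mem_map_of_mem (aeval θ : (PS σ C0)[X] →ₐ[PS σ C0] R)
          (show C (MvPowerSeries.X j) ∈ RingHom.ker χ by simp [χ])
        rwa [aeval_C] at this
    · obtain ⟨c, hc⟩ := aeval_sub_mhyp θ H
      rw [Ideal.mem_comap, hc]
      exact add_mem (hXI _ hH) (I.mul_mem_left _ hθI)
  have e1 : I.comap ((aeval θ : (PS σ C0)[X] →ₐ[PS σ C0] R) : (PS σ C0)[X] →+* R) =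
      (Ideal.span {(p : C0) ^ a}).comap χ := by
    have h1 : (Ideal.span {F}).map χ = Ideal.span {(p : C0) ^ a} := by
      rw [Ideal.map_span, Set.image_singleton]
      exact (congrArg (fun z => Ideal.span {z}) hF).trans
        (Ideal.span_singleton_mul_right_unit hu _)
    rw [← h1, Ideal.comap_map_of_surjective _ hχ, ← RingHom.ker_eq_comap_bot, hker, sup_comm, hIm]
    exact Ideal.comap_map_of_surjective _ hs _
  rw [← length_comap_mhyp ((aeval θ : (PS σ C0)[X] →ₐ[PS σ C0] R) : (PS σ C0)[X] →+* R) hs, e1,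
    length_comap_mhyp χ hχ, ← ENat.toENNReal_inj]
  have h2 := (RLen.ofLen C0).q_pow_eq ⊥ p (fun z hz => (mul_eq_zero.1 hz).resolve_left hp) a
  rw [bot_sup_eq, bot_sup_eq, ← hC] at h2
  refine h2.trans ?_
  change (a : ENNReal) * ((Module.length C0 (C0 ⧸ maximalIdeal C0) : ℕ∞) : ENNReal) = _
  rw [hs_len_residue]
  simp

omit [Finite σ] [IsDomain C0] [IsDiscreteValuationRing C0] in
theorem Hyp.gen {θ : R} {F : (PS σ C0)[X]} {a : ℕ} {u : PS σ C0}
    (h : Hyp p MvPowerSeries.X θ F a u) :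
    Hyp p MvPowerSeries.X (gen (PS σ C0) θ) F a u ∧
      Algebra.adjoin (PS σ C0) {gen (PS σ C0) θ} = ⊤ := by
  refine ⟨⟨h.monic, Subtype.ext ((coe_aeval_gen_mhyp θ F).trans h.root), fun H hH =>
    h.ker H ((coe_aeval_gen_mhyp θ H).symm.trans (congrArg Subtype.val hH)), h.unit, h.ord⟩,
    top_le_iff.1 fun z _ => ?_⟩
  obtain ⟨H, hH⟩ := exists_aeval_mhyp z.2
  exact (Algebra.adjoin_singleton_eq_range_aeval _ _).ge
    ⟨H, Subtype.ext ((coe_aeval_gen_mhyp θ H).trans hH)⟩

variable [IsDomain R] [IsLocalRing R] [IsNoetherianRing R] [Module.Finite (PS σ C0) R]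

theorem exists_hyp (hC : maximalIdeal C0 = Ideal.span {(p : C0)})
    (hinj : Function.Injective (algebraMap (PS σ C0) R)) {θ : R}
    (hsop : IsSop (par (MvPowerSeries.X : σ → PS σ C0) θ)) :
    ∃ (F : (PS σ C0)[X]) (a : ℕ) (u : PS σ C0), Hyp p MvPowerSeries.X θ F a u := by
  have _ : IsDomain (PS σ C0) := NoZeroDivisors.to_isDomain _
  have _ : IsIntegrallyClosed (PS σ C0) := ps_isIntegrallyClosed
  have _ : FaithfulSMul (PS σ C0) R := (faithfulSMul_iff_algebraMap_injective _ _).2 hinj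
  have hθ : IsIntegral (PS σ C0) θ := Algebra.IsIntegral.isIntegral θ
  have hirr := (IsDiscreteValuationRing.irreducible_iff_uniformizer (p : C0)).2 hC
  have h0 : MvPowerSeries.constantCoeff ((minpoly (PS σ C0) θ).coeff 0) ≠ 0 := by
    intro h0
    let χ : (PS σ C0)[X] →+* C0 := MvPowerSeries.constantCoeff.comp constantCoeff
    let _ : Algebra (PS σ C0)[X] R := (aeval θ : (PS σ C0)[X] →ₐ[PS σ C0] R).toRingHom.toAlgebra
    have _ : IsScalarTower (PS σ C0) (PS σ C0)[X] R :=
      IsScalarTower.of_algHom (aeval θ : (PS σ C0)[X] →ₐ[PS σ C0] R)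
    have _ : Algebra.IsIntegral (PS σ C0)[X] R := Algebra.IsIntegral.tower_top (PS σ C0)
    have _ := RingHom.ker_isPrime χ
    obtain ⟨Q, -, hQ, hQ'⟩ := Ideal.exists_ideal_over_prime_of_isIntegral (S := R)
      (RingHom.ker χ) ⊥ (fun H hH => by
        obtain ⟨G, rfl⟩ := minpoly.isIntegrallyClosed_dvd hθ (p := H) hH
        exact Ideal.mul_mem_right _ _ h0)
    have h1 : Q = maximalIdeal R := eq_max_mhyp hsop Q fun o => by
      rcases o with _ | j
      · have : X ∈ Q.comap (algebraMap (PS σ C0)[X] R) := hQ' ▸ by simp [χ]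
        rw [Ideal.mem_comap] at this
        exact (aeval_X (R := PS σ C0) θ) ▸ this
      · have : C (MvPowerSeries.X j) ∈ Q.comap (algebraMap (PS σ C0)[X] R) := hQ' ▸ by simp [χ]
        rw [Ideal.mem_comap] at this
        exact Set.mem_of_eq_of_mem (aeval_C θ (MvPowerSeries.X j : PS σ C0)).symm this
    have h2 : (p : PS σ C0) ∈ maximalIdeal (PS σ C0) := by
      rw [mem_maximalIdeal_mps, map_natCast, hC]
      exact Ideal.mem_span_singleton_self _
    have h3 : (p : (PS σ C0)[X]) ∈ RingHom.ker χ := by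
      rw [← hQ', h1, Ideal.mem_comap, map_natCast, ← map_natCast (algebraMap (PS σ C0) R),
        ← Ideal.mem_comap, eq_maximalIdeal (Ideal.isMaximal_comap_of_isIntegral_of_isMaximal
          (R := PS σ C0) (maximalIdeal R))]
      exact h2
    rw [RingHom.mem_ker, map_natCast] at h3
    exact hirr.ne_zero h3
  obtain ⟨a, u, hu⟩ := IsDiscreteValuationRing.eq_unit_mul_pow_irreducible h0 hirr
  refine ⟨minpoly (PS σ C0) θ, a, MvPowerSeries.C (u : C0), minpoly.monic hθ, minpoly.aeval _ _,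
    fun H hH => minpoly.isIntegrallyClosed_dvd hθ hH, u.isUnit.map _, (mem_span_X_mhyp _).2 ?_⟩
  rw [map_sub, map_mul, map_pow, map_natCast, MvPowerSeries.constantCoeff_C, hu, mul_comm, sub_self]

/-- The subring generated by `θ` is local. -/
theorem adjoin_local {θ : R} (hsop : IsSop (par (MvPowerSeries.X : σ → PS σ C0) θ)) :
    ∃ _ : IsLocalRing (Algebra.adjoin (PS σ C0) {θ}),
      IsNoetherianRing (Algebra.adjoin (PS σ C0) {θ}) ∧
      IsLocalHom (algebraMap (Algebra.adjoin (PS σ C0) {θ}) R) ∧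
      Module.Finite (Algebra.adjoin (PS σ C0) {θ}) R ∧
      IsSop (par (MvPowerSeries.X : σ → PS σ C0) (gen (PS σ C0) θ)) ∧
      Grow (Algebra.adjoin (PS σ C0) {θ}) (Nat.card σ + 1) := by
  set B := Algebra.adjoin (PS σ C0) {θ} with hB
  have hfin : Module.Finite B R := Module.Finite.of_restrictScalars_finite (PS σ C0) B R
  have hloc : IsLocalHom (algebraMap B R) := inferInstance
  have hB1 : IsLocalRing B := (algebraMap B R).domain_isLocalRing
  have _ : Module.Finite (PS σ C0) B :=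
    Module.Finite.of_injective B.val.toLinearMap Subtype.val_injective
  have hN : IsNoetherianRing B := IsNoetherianRing.of_finite (PS σ C0) B
  have hpar : ∀ o, algebraMap B R (par (MvPowerSeries.X : σ → PS σ C0) (gen (PS σ C0) θ) o) =
      par (MvPowerSeries.X : σ → PS σ C0) θ o := by
    rintro (_ | j) <;> rfl
  have hcm : (maximalIdeal R).comap (algebraMap B R) = maximalIdeal B := maximalIdeal_comap _
  have hs : IsSop (par (MvPowerSeries.X : σ → PS σ C0) (gen (PS σ C0) θ)) := by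
    refine ⟨fun o => ?_, Ideal.exists_pow_le_of_le_radical_of_fg ?_ (IsNoetherian.noetherian _)⟩
    · rw [← hcm, Ideal.mem_comap, hpar]
      exact hsop.1 o
    · rw [Ideal.radical_eq_sInf]
      refine le_sInf ?_
      rintro P ⟨hP, hP'⟩
      obtain ⟨Q, -, hQ, hQ'⟩ := Ideal.exists_ideal_over_prime_of_isIntegral (S := R) P ⊥
        (fun z hz => by
          rw [show z = 0 from Subtype.ext hz]
          exact P.zero_mem)
      rw [← hQ', eq_max_mhyp hsop Q fun o => ?_, hcm]
      rw [← hpar, ← Ideal.mem_comap, hQ']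
      exact hP (Ideal.subset_span ⟨o, rfl⟩)
  refine ⟨hB1, hN, hloc, hfin, hs, ?_⟩
  let e : Fin (Nat.card σ + 1) ≃ Option σ := (Finite.equivFinOfCardEq (by simp)).symm
  obtain ⟨h1, t, ht⟩ := hs
  refine grow_of_isDomain (par (MvPowerSeries.X : σ → PS σ C0) (gen (PS σ C0) θ) ∘ e)
    (fun i => h1 _) (t := t) ?_
  rwa [e.surjective.range_comp]

/-- The multiplicity of a birational extension of the hypersurface. -/
theorem Hyp.le (hC : maximalIdeal C0 = Ideal.span {(p : C0)})
    (hinj : Function.Injective (algebraMap (PS σ C0) R)) {θ : R} {F : (PS σ C0)[X]}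
    {a : ℕ} {u : PS σ C0} (h : Hyp p MvPowerSeries.X θ F a u)
    (hred : IsRed (par (MvPowerSeries.X : σ → PS σ C0) θ)) {Δ : PS σ C0} (hΔ0 : Δ ≠ 0)
    (hΔ : ∀ b : R, ∃ H : (PS σ C0)[X], aeval θ H = Δ • b) {e : ℝ}
    (he : IsMult R (maximalIdeal R) (Nat.card σ + 1) e) : e ≤ a := by
  obtain ⟨_, _, _, _, ⟨h1, t, ht⟩, hg⟩ := adjoin_local hred.isSop
  set B := Algebra.adjoin (PS σ C0) {θ} with hB
  have h2 := le_of_rank_up (A := B) (E := R) hg ht (h.gen.1.isMult hC h.gen.2) (W := ⊤)
    Module.Finite.fg_top {1} (fun _ _ => trivial) (c := algebraMap (PS σ C0) B Δ)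
    (fun h0 => hΔ0 (hinj ((congrArg Subtype.val h0).trans (map_zero _).symm))) (fun w _ => ?_)
    (fun n => Module.length R (R ⧸ maximalIdeal R ^ n)) (fun n => ?_) he
  · simpa using h2
  · obtain ⟨H, hH⟩ := hΔ w
    rw [algebraMap_smul, ← hH, Finset.coe_singleton, Submodule.mem_span_singleton]
    exact ⟨aeval (P202.gen (PS σ C0) θ) H, (mul_one _).trans (coe_aeval_gen_mhyp θ H)⟩
  · have h3 : (Ideal.span (Set.range
        (par (MvPowerSeries.X : σ → PS σ C0) (P202.gen (PS σ C0) θ))) ^ n •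
        ⊤ : Submodule B R) ≤ (maximalIdeal R ^ n).restrictScalars B := by
      rw [Ideal.smul_top_eq_map, Submodule.restrictScalars_le, Ideal.map_pow]
      exact Ideal.pow_right_mono ((Ideal.map_mono
        (Ideal.span_le.2 (Set.range_subset_iff.2 h1))).trans (map_maximalIdeal_le _)) n
    refine le_trans ?_ (rl_anti_left _ h3 ⊤)
    rw [← Submodule.restrictScalars_top B R, rl_restrictScalars, rl_top]
    exact ENat.self_le_mul_right _ Module.length_pos.ne'

end Vale.Agent.P202
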