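import Vale.Agent.P202.MLen

/-! Constructions of real valued length functions. -/

namespace Vale.Agent.P202

open IsLocalRing TensorProduct
open scoped ENNReal

universe u

noncomputable section

variable {S : Type u} [CommRing S] {E : Type u} [AddCommGroup E] [Module S E]

theorem ml2_ite_add {p q r : Prop} [Decidable p] [Decidable q] [Decidable r] (h : p ↔ q ∧ r) :
    (if p then 0 else ⊤ : ℝ≥0∞) = (if q then 0 else ⊤) + if r then 0 else ⊤ := by
  by_cases hq : q <;> by_cases hr : r <;> simp [h, hq, hr]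

theorem ml2_subsingleton {N M P : Type u} [AddCommGroup N] [Module S N] [AddCommGroup M]
    [Module S M] [AddCommGroup P] [Module S P] (f : N →ₗ[S] M) (g : M →ₗ[S] P)
    (hf : Function.Injective f) (hg : Function.Surjective g) (h : Function.Exact f g) :
    Subsingleton M ↔ Subsingleton N ∧ Subsingleton P := by
  refine ⟨fun _ => ⟨hf.subsingleton, hg.subsingleton⟩, fun ⟨_, _⟩ => ?_⟩
  refine subsingleton_of_forall_eq 0 fun x => ?_
  obtain ⟨y, rfl⟩ := (h x).1 (Subsingleton.elim _ _)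
  rw [Subsingleton.elim y 0, map_zero]

open Classical in
/-- Zero on the zero module, `⊤` otherwise. -/
def RLen.triv (S : Type u) [CommRing S] : RLen S where
  len M _ _ := if Subsingleton M then 0 else ⊤
  add_of_exact := fun f g hf hg h => ml2_ite_add (ml2_subsingleton f g hf hg h)
  zero := fun _ _ _ h => if_pos h

theorem rr_triv_eq_zero_iff {A B : Submodule S E} : rr (RLen.triv S) A B = 0 ↔ B ≤ A := by
  rw [← map_mkQ_eq_bot_iff, ← Submodule.subsingleton_iff_eq_bot]
  unfold rr RLen.triv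
  by_cases h : Subsingleton (B.map A.mkQ)
  · exact ⟨fun _ => h, fun _ => if_pos h⟩
  · refine ⟨fun h0 => ?_, fun h0 => (h h0).elim⟩
    have h1 : (⊤ : ℝ≥0∞) = 0 := (if_neg h).symm.trans h0
    exact (ENNReal.top_ne_zero h1).elim

theorem hr_triv_eq_zero_iff {d : E →ₗ[S] E} {F' F'' : ℤ → Submodule S E} {n : ℤ} :
    hr (RLen.triv S) d F' F'' n = 0 ↔ Zc d F' F'' n ≤ Bc d F' F'' n := rr_triv_eq_zero_iff

/-- Ordinary length. -/
def RLen.ofLen (S : Type u) [CommRing S] : RLen S where
  len M _ _ := (Module.length S M : ℕ∞)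
  add_of_exact := fun f g hf hg h => by
    rw [Module.length_eq_add_of_exact f g hf hg h, ENat.toENNReal_add]
  zero := fun _ _ _ _ => by rw [Module.length_eq_zero, ENat.toENNReal_zero]

/-- The modules on which `RLen.nu` vanishes. -/
def NuGood (μ : RLen S) (κ : S) (M : Type u) [AddCommGroup M] [Module S M] : Prop :=
  μ.len M ≠ ⊤ ∧ μ.len (M ⧸ (Ideal.span {κ} • ⊤ : Submodule S M)) = 0

theorem ml2_span_smul (κ : S) (M : Type u) [AddCommGroup M] [Module S M] :
    (Ideal.span {κ} • ⊤ : Submodule S M) = LinearMap.range (LinearMap.lsmul S M κ) := by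
  rw [Submodule.ideal_span_singleton_smul]
  ext x
  rw [Submodule.mem_smul_pointwise_iff_exists]
  simp

theorem ml2_ker_coker (μ : RLen S) (φ : E →ₗ[S] E) (h : μ.len E ≠ ⊤) :
    μ.len (LinearMap.ker φ) = μ.len (E ⧸ LinearMap.range φ) := by
  have h1 := μ.add_of_exact (LinearMap.ker φ).subtype φ.rangeRestrict (Submodule.subtype_injective _)
    φ.surjective_rangeRestrict (by
      rw [← LinearMap.ker_rangeRestrict]
      exact LinearMap.exact_subtype_ker_map _)
  have h2 := μ.add_of_exact (LinearMap.range φ).subtype (LinearMap.range φ).mkQ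
    (Submodule.subtype_injective _) (Submodule.mkQ_surjective _) (LinearMap.exact_subtype_mkQ _)
  have h3 : μ.len (LinearMap.range φ) ≠ ⊤ :=
    ne_top_of_le_ne_top h (μ.le_of_injective _ (Submodule.subtype_injective _))
  rw [h1, add_comm] at h2
  exact (ENNReal.add_right_inj h3).1 h2

theorem nuGood_iff_ker (μ : RLen S) (κ : S) :
    NuGood μ κ E ↔ μ.len E ≠ ⊤ ∧ μ.len (LinearMap.ker (LinearMap.lsmul S E κ)) = 0 := by
  unfold NuGood
  refine and_congr_right fun h => ?_
  rw [ml2_ker_coker μ _ h, ml2_span_smul]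

theorem NuGood.of_injective {μ : RLen S} {κ : S} {N : Type u} [AddCommGroup N] [Module S N]
    (h : NuGood μ κ E) (f : N →ₗ[S] E) (hf : Function.Injective f) : NuGood μ κ N := by
  rw [nuGood_iff_ker] at h ⊢
  refine ⟨ne_top_of_le_ne_top h.1 (μ.le_of_injective f hf), le_antisymm ?_ zero_le⟩
  have hm : ∀ x ∈ LinearMap.ker (LinearMap.lsmul S N κ),
      f x ∈ LinearMap.ker (LinearMap.lsmul S E κ) := fun x hx => by
    rw [LinearMap.mem_ker, LinearMap.lsmul_apply] at hx ⊢
    rw [← map_smul, hx, map_zero]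
  rw [← h.2]
  exact μ.le_of_injective (f.restrict hm) fun x y hxy =>
    Subtype.ext (hf (congrArg Subtype.val hxy))

theorem NuGood.of_surjective {μ : RLen S} {κ : S} {P : Type u} [AddCommGroup P] [Module S P]
    (h : NuGood μ κ E) (g : E →ₗ[S] P) (hg : Function.Surjective g) : NuGood μ κ P := by
  refine ⟨ne_top_of_le_ne_top h.1 (μ.le_of_surjective g hg), le_antisymm ?_ zero_le⟩
  have h1 := rr_map_le μ g (Ideal.span {κ} • ⊤) ⊤
  rw [Submodule.map_smul'', Submodule.map_top, LinearMap.range_eq_top.2 hg, rr_top, rr_top,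
    h.2] at h1
  exact h1

theorem NuGood.of_exact {μ : RLen S} {κ : S} {N P : Type u} [AddCommGroup N] [Module S N]
    [AddCommGroup P] [Module S P] (f : N →ₗ[S] E) (g : E →ₗ[S] P) (hf : Function.Injective f)
    (hg : Function.Surjective g) (h : Function.Exact f g) (hN : NuGood μ κ N)
    (hP : NuGood μ κ P) : NuGood μ κ E := by
  refine ⟨?_, le_antisymm ?_ zero_le⟩
  · rw [μ.add_of_exact f g hf hg h]
    exact ENNReal.add_ne_top.2 ⟨hN.1, hP.1⟩
  have h1 := rr_triangle μ (Ideal.span {κ} • ⊤ : Submodule S E)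
    (Ideal.span {κ} • ⊤ ⊔ LinearMap.range f) ⊤
  have h2 : rr μ (Ideal.span {κ} • ⊤ : Submodule S E) (LinearMap.range f) ≤ 0 := by
    rw [← hN.2, ← rr_top, ← Submodule.map_top]
    refine le_trans (rr_anti_left μ ?_ _) (rr_map_le μ f _ _)
    rw [Submodule.map_smul'']
    exact smul_mono_right _ le_top
  have h3 : rr μ (Ideal.span {κ} • ⊤ ⊔ LinearMap.range f : Submodule S E) ⊤ = 0 := by
    have e : (Ideal.span {κ} • ⊤ ⊔ LinearMap.range f : Submodule S E) =
        (Ideal.span {κ} • ⊤ : Submodule S P).comap g := by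
      rw [← LinearMap.range_eq_top.2 hg, ← Submodule.map_top g, ← Submodule.map_smul'',
        Submodule.comap_map_eq, h.linearMap_ker_eq]
    rw [e, rr_map, Submodule.map_top, LinearMap.range_eq_top.2 hg, rr_top, hP.2]
  rw [rr_sup, h3, add_zero, rr_top] at h1
  exact h1.trans h2

open Classical in
/-- Zero on modules of finite size on which `κ` is almost surjective, `⊤` otherwise. -/
def RLen.nu (μ : RLen S) (κ : S) : RLen S where
  len M _ _ := if μ.len M ≠ ⊤ ∧ μ.len (M ⧸ (Ideal.span {κ} • ⊤ : Submodule S M)) = 0 then 0 else ⊤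
  add_of_exact := fun f g hf hg h => ml2_ite_add
    ⟨fun hM => ⟨NuGood.of_injective hM f hf, NuGood.of_surjective hM g hg⟩,
      fun hM => NuGood.of_exact f g hf hg h hM.1 hM.2⟩
  zero := fun M _ _ _ => if_pos ⟨by rw [μ.zero M]; exact ENNReal.zero_ne_top, μ.zero _⟩

theorem nu_len_eq_zero_iff (μ : RLen S) (κ : S) : (μ.nu κ).len E = 0 ↔ NuGood μ κ E := by
  unfold RLen.nu
  by_cases h : NuGood μ κ E
  · exact ⟨fun _ => h, fun _ => if_pos h⟩
  · refine ⟨fun h0 => ?_, fun h0 => (h h0).elim⟩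
    have h1 : (⊤ : ℝ≥0∞) = 0 := (if_neg h).symm.trans h0
    exact (ENNReal.top_ne_zero h1).elim

theorem RLen.nu_q (μ : RLen S) (κ : S) {I : Ideal S} (h1 : μ.q I ≠ ⊤)
    (h2 : μ.q (I ⊔ Ideal.span {κ}) = 0) : (μ.nu κ).q I = 0 := by
  refine (nu_len_eq_zero_iff μ κ).2 ⟨h1, ?_⟩
  have e : (Ideal.span {κ} • ⊤ : Submodule S (S ⧸ I)).comap (Submodule.mkQ I) =
      I ⊔ Ideal.span {κ} := by
    rw [← Submodule.range_mkQ, ← Submodule.map_top, ← Submodule.map_smul'',
      Submodule.comap_map_mkQ, smul_eq_mul, Ideal.mul_top]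
  have h3 := rr_map μ (Submodule.mkQ I) (Ideal.span {κ} • ⊤) ⊤
  rw [e, Submodule.map_top, Submodule.range_mkQ, rr_top, rr_top] at h3
  exact h3.symm.trans h2

theorem rr_ne_top_of_nu (μ : RLen S) (κ : S) {A B : Submodule S E} (h : rr (μ.nu κ) A B = 0) :
    rr μ A B ≠ ⊤ := ((nu_len_eq_zero_iff μ κ).1 h).1

theorem NuGood.len_eq_zero {μ : RLen S} {κ : S} (r : ℕ) :
    ∀ (M : Type u) [AddCommGroup M] [Module S M], NuGood μ κ M → (∀ x : M, κ ^ r • x = 0) →
      μ.len M = 0 := by
  induction r with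
  | zero =>
    intro M _ _ _ hr
    have : Subsingleton M := subsingleton_of_forall_eq 0 fun x => by simpa using hr x
    exact μ.zero M
  | succ r ih =>
    intro M _ _ h hr
    have h2 := μ.add_of_exact (Ideal.span {κ} • ⊤ : Submodule S M).subtype
      (Ideal.span {κ} • ⊤ : Submodule S M).mkQ
      (Submodule.subtype_injective _) (Submodule.mkQ_surjective _) (LinearMap.exact_subtype_mkQ _)
    rw [h2, h.2, add_zero]
    refine ih _ (h.of_injective _ (Submodule.subtype_injective _)) fun x => Subtype.ext ?_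
    obtain ⟨x, hx⟩ := x
    rw [ml2_span_smul] at hx
    obtain ⟨y, rfl⟩ := hx
    change κ ^ r • κ • y = 0
    rw [← mul_smul, ← pow_succ, hr]

/-- The null lemma. -/
theorem rr_eq_zero_of_nu (μ : RLen S) (κ : S) {A B : Submodule S E} (h : rr (μ.nu κ) A B = 0)
    (r : ℕ) (hr : ∀ x ∈ B, κ ^ r • x ∈ A) : rr μ A B = 0 := by
  refine NuGood.len_eq_zero r _ ((nu_len_eq_zero_iff μ κ).1 h) ?_
  rintro ⟨_, x, hx, rfl⟩
  apply Subtype.ext
  change κ ^ r • A.mkQ x = 0
  rw [← map_smul]
  exact (Submodule.Quotient.mk_eq_zero A).2 (hr x hx)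

/-- If `κ^r J ≤ I ≤ J` and `S / I` is good then `I` and `J` have the same colength. -/
theorem RLen.q_eq_of_nu (μ : RLen S) (κ : S) {I J : Ideal S} (h : (μ.nu κ).q I = 0) (hIJ : I ≤ J)
    (r : ℕ) (hr : ∀ x ∈ J, κ ^ r * x ∈ I) : μ.q J = μ.q I := by
  have h1 : rr (μ.nu κ) I J = 0 := by
    refine le_antisymm ?_ zero_le
    have := rr_mono (μ.nu κ) (le_refl I) (le_top : J ≤ ⊤)
    rw [rr_top] at this
    exact this.trans h.le
  have h2 := rr_add μ hIJ (le_top : J ≤ ⊤)
  rw [rr_eq_zero_of_nu μ κ h1 r hr, zero_add, rr_top, rr_top] at h2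
  exact h2.symm

theorem RLen.q_sup_pow_eq_zero (μ : RLen S) (κ : S) {I : Ideal S} (h : (μ.nu κ).q I = 0) (r : ℕ) :
    μ.q (I ⊔ Ideal.span {κ ^ r}) = 0 := by
  have h1 : rr (μ.nu κ) (I ⊔ Ideal.span {κ ^ r}) ⊤ = 0 := by
    refine le_antisymm ?_ zero_le
    have := rr_anti_left (μ.nu κ) (le_sup_left : I ≤ I ⊔ Ideal.span {κ ^ r}) ⊤
    rw [rr_top _ I] at this
    exact this.trans h.le
  have h2 := rr_eq_zero_of_nu μ κ h1 r fun x _ =>
    Submodule.mem_sup_right (Ideal.mul_mem_right x _ (Ideal.mem_span_singleton_self _))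
  rw [rr_top] at h2
  exact h2

/-- Restriction of scalars along a ring homomorphism. -/
def RLen.res (μ : RLen S) {S' : Type u} [CommRing S'] (f : S →+* S') : RLen S' where
  len M _ _ := letI : Module S M := Module.compHom M f; μ.len M
  add_of_exact := fun {N M P} _ _ _ _ _ _ a b ha hb h =>
    letI : Module S N := Module.compHom N f
    letI : Module S M := Module.compHom M f
    letI : Module S P := Module.compHom P f
    μ.add_of_exact (⟨a.toAddHom, fun s x => a.map_smul (f s) x⟩ : N →ₗ[S] M)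
      (⟨b.toAddHom, fun s x => b.map_smul (f s) x⟩ : M →ₗ[S] P) ha hb h
  zero := fun M _ _ _ =>
    letI : Module S M := Module.compHom M f
    μ.zero M

theorem RLen.res_len (μ : RLen S) {S' : Type u} [CommRing S'] [Algebra S S'] (M : Type u)
    [AddCommGroup M] [Module S' M] [Module S M] [IsScalarTower S S' M] :
    (μ.res (algebraMap S S')).len M = μ.len M := by
  have e : Module.compHom M (algebraMap S S') = (inferInstance : Module S M) :=
    Module.ext' _ _ fun r m => algebraMap_smul S' r m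
  exact congrArg (fun i : Module S M => @RLen.len S _ μ M _ i) e

theorem RLen.res_q (μ : RLen S) {S' : Type u} [CommRing S'] (f : S →+* S')
    (hf : Function.Surjective f) (J : Ideal S') : (μ.res f).q J = μ.q (J.comap f) := by
  let : Algebra S S' := f.toAlgebra
  have h1 : (μ.res f).q J = μ.len (S' ⧸ J) := μ.res_len (S' ⧸ J)
  let φ : S →ₗ[S] S' ⧸ J := (Submodule.mkQ J).restrictScalars S ∘ₗ Algebra.linearMap S S'
  have hφ : Function.Surjective φ := (Submodule.mkQ_surjective J).comp hf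
  have hk : LinearMap.ker φ = J.comap f := by
    ext x
    exact Submodule.Quotient.mk_eq_zero J
  have h2 := rr_eq_len_map μ φ _ ⊤ hk
  rw [rr_top, Submodule.map_top, LinearMap.range_eq_top.2 hφ, μ.equiv Submodule.topEquiv] at h2
  exact h1.trans h2.symm

theorem rr_res (μ : RLen S) {S' : Type u} [CommRing S'] [Algebra S S'] [Module S' E]
    [IsScalarTower S S' E] (A B : Submodule S' E) :
    rr (μ.res (algebraMap S S')) A B = rr μ (A.restrictScalars S) (B.restrictScalars S) := by
  have hk : LinearMap.ker (A.mkQ.restrictScalars S) = A.restrictScalars S := by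
    ext x
    exact Submodule.Quotient.mk_eq_zero A
  rw [rr_eq_len_map μ _ _ _ hk]
  have e : (B.restrictScalars S).map (A.mkQ.restrictScalars S) =
      (B.map A.mkQ).restrictScalars S := by
    ext x
    rfl
  rw [e]
  exact μ.res_len (B.map A.mkQ)

/-- Flat base change. -/
def RLen.bc {S' : Type u} [CommRing S'] [Algebra S S'] [Module.Flat S S'] (μ : RLen S') :
    RLen S where
  len M _ _ := μ.len (S' ⊗[S] M)
  add_of_exact := fun f g hf hg h => μ.add_of_exact (f.baseChange S') (g.baseChange S')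
    (Module.Flat.lTensor_preserves_injective_linearMap (M := S') f hf)
    (LinearMap.lTensor_surjective S' hg) (Module.Flat.lTensor_exact S' h)
  zero := fun _ _ _ _ => μ.zero _

theorem RLen.bc_q {S' : Type u} [CommRing S'] [Algebra S S'] [Module.Flat S S'] (μ : RLen S')
    (I : Ideal S) : (μ.bc : RLen S).q I = μ.q (I.map (algebraMap S S')) :=
  (μ.equiv (Algebra.TensorProduct.quotIdealMapEquivTensorQuot S' I).toLinearEquiv).symm

/-- Rescaling. -/
def RLen.smul (c : ℝ≥0∞) (μ : RLen S) : RLen S where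
  len M _ _ := c * μ.len M
  add_of_exact := fun f g hf hg h => by rw [μ.add_of_exact f g hf hg h, mul_add]
  zero := fun M _ _ _ => by rw [μ.zero M, mul_zero]

theorem ml2_tendsto (U : Ultrafilter ℕ) (a : ℕ → ℝ≥0∞) :
    Filter.Tendsto a U (nhds (U.map a).lim) := (U.map a).le_nhds_lim

/-- Ultralimit. -/
def RLen.ulim (U : Ultrafilter ℕ) (μ : ℕ → RLen S) : RLen S where
  len M _ _ := (U.map fun k => (μ k).len M).lim
  add_of_exact := fun f g hf hg h => tendsto_nhds_unique (ml2_tendsto U _)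
    (((ml2_tendsto U _).add (ml2_tendsto U _)).congr fun k =>
      ((μ k).add_of_exact f g hf hg h).symm)
  zero := fun M _ _ _ => tendsto_nhds_unique (ml2_tendsto U _)
    (tendsto_const_nhds.congr fun k => ((μ k).zero M).symm)

theorem RLen.tendsto_ulim (U : Ultrafilter ℕ) (μ : ℕ → RLen S) (M : Type u) [AddCommGroup M]
    [Module S M] : Filter.Tendsto (fun k => (μ k).len M) U (nhds ((RLen.ulim U μ).len M)) :=
  ml2_tendsto U _

theorem ml2_socle {A : Type u} [CommRing A] [IsLocalRing A] {N : Type u} [AddCommGroup N]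
    [Module A N] (N' : Submodule A N) (hfin : Module.length A (N ⧸ N') ≠ ⊤) (hne : N' ≠ ⊤) :
    ∃ x, x ∉ N' ∧ ∀ a ∈ maximalIdeal A, a • x ∈ N' := by
  have : IsArtinian A (N ⧸ N') :=
    (isFiniteLength_iff_isNoetherian_isArtinian.1 (Module.length_ne_top_iff.1 hfin)).2
  have : Nontrivial (N ⧸ N') := Submodule.Quotient.nontrivial_iff.2 hne
  obtain ⟨T, hT⟩ := IsAtomic.exists_atom (Submodule A (N ⧸ N'))
  have hs : IsSimpleModule A T := isSimpleModule_iff_isAtom.2 hT
  obtain ⟨t, ht, ht0⟩ := Submodule.exists_mem_ne_zero_of_ne_bot hT.1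
  obtain ⟨x, rfl⟩ := N'.mkQ_surjective t
  refine ⟨x, fun hx => ht0 ((Submodule.Quotient.mk_eq_zero N').2 hx), fun a ha => ?_⟩
  rw [← eq_maximalIdeal hs.annihilator_isMaximal, Module.mem_annihilator] at ha
  have h1 : a • N'.mkQ x = 0 := congrArg Subtype.val (ha ⟨_, ht⟩)
  rw [← map_smul] at h1
  exact (Submodule.Quotient.mk_eq_zero N').1 h1

theorem ml2_span_aux (μ : RLen S) {A : Type u} [CommRing A] [IsLocalRing A] (α : A →+* S)
    {N : Type u} [AddCommGroup N] [Module A N] (ψ : N → E) (n : ℕ) :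
    ∀ (W : Submodule S E) (N' : Submodule A N), (∀ x y, ψ (x + y) - (ψ x + ψ y) ∈ W) →
      (∀ a x, ψ (a • x) - α a • ψ x ∈ W) → (∀ x ∈ N', ψ x ∈ W) → Module.length A (N ⧸ N') ≤ n →
      rr μ W (Submodule.span S (Set.range ψ)) ≤ (n : ℝ≥0∞) * μ.q ((maximalIdeal A).map α) := by
  have htop : ∀ W : Submodule S E, (∀ x ∈ (⊤ : Submodule A N), ψ x ∈ W) →
      rr μ W (Submodule.span S (Set.range ψ)) = 0 := fun W h =>
    rr_eq_zero_of_le μ (Submodule.span_le.2 (Set.range_subset_iff.2 fun x => h x trivial))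
  induction n with
  | zero =>
    intro W N' _ _ hN' hl
    have h1 : Module.length A (N ⧸ N') = 0 := by simpa using hl
    rw [Module.length_eq_zero_iff, Submodule.Quotient.subsingleton_iff] at h1
    rw [htop W (h1 ▸ hN')]
    exact zero_le
  | succ n ih =>
    intro W N' hadd hsmul hN' hl
    by_cases hne : N' = ⊤
    · rw [htop W (hne ▸ hN')]
      exact zero_le
    obtain ⟨x, hx, hm⟩ := ml2_socle N' (ne_top_of_le_ne_top (ENat.natCast_ne_top _) hl) hne
    have hl' : Module.length A (N ⧸ (N' ⊔ Submodule.span A {x})) ≤ n := by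
      have h1 := rl_add (lenF A) (le_sup_left : N' ≤ N' ⊔ Submodule.span A {x})
        (le_top : N' ⊔ Submodule.span A {x} ≤ ⊤)
      rw [rl_top, rl_top] at h1
      have h2 : rl (lenF A) N' (N' ⊔ Submodule.span A {x}) ≠ 0 := fun h0 =>
        hx (rl_lenF_eq_zero_iff.1 h0 (Submodule.mem_sup_right (Submodule.mem_span_singleton_self x)))
      have h3 : 1 + Module.length A (N ⧸ (N' ⊔ Submodule.span A {x})) ≤ 1 + (n : ℕ∞) := by
        refine le_trans ?_ (hl.trans (le_of_eq (by push_cast; ring)))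
        exact (add_le_add (Order.one_le_iff_ne_zero.2 h2) le_rfl).trans h1.ge
      exact (ENat.add_le_add_iff_left ENat.one_ne_top).1 h3
    have h4 := ih (W ⊔ Submodule.span S {ψ x}) (N' ⊔ Submodule.span A {x})
      (fun a b => Submodule.mem_sup_left (hadd a b)) (fun a b => Submodule.mem_sup_left (hsmul a b))
      (fun y hy => by
        obtain ⟨y, hy', _, hz, rfl⟩ := Submodule.mem_sup.1 hy
        obtain ⟨a, rfl⟩ := Submodule.mem_span_singleton.1 hz
        have e : ψ (y + a • x) = (ψ (y + a • x) - (ψ y + ψ (a • x)) + ψ y +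
            (ψ (a • x) - α a • ψ x)) + α a • ψ x := by abel
        rw [e]
        exact Submodule.add_mem_sup (W.add_mem (W.add_mem (hadd _ _) (hN' y hy')) (hsmul _ _))
          (Submodule.smul_mem _ _ (Submodule.mem_span_singleton_self _))) hl'
    have h5 : rr μ W (W ⊔ Submodule.span S {ψ x}) ≤ μ.q ((maximalIdeal A).map α) := by
      rw [rr_sup, rr_span_singleton]
      refine μ.q_anti (Ideal.map_le_iff_le_comap.2 fun a ha => ?_)
      rw [Ideal.mem_comap, Submodule.mem_colon_singleton]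
      have e : α a • ψ x = ψ (a • x) - (ψ (a • x) - α a • ψ x) := by abel
      rw [e]
      exact W.sub_mem (hN' _ (hm a ha)) (hsmul _ _)
    refine (rr_triangle μ W (W ⊔ Submodule.span S {ψ x}) _).trans ?_
    refine (add_le_add h5 h4).trans (le_of_eq ?_)
    push_cast
    ring

/-- The span of the image of a module of finite length. -/
theorem rr_span_image_le (μ : RLen S) {A : Type u} [CommRing A] [IsLocalRing A] (α : A →+* S)
    {N : Type u} [AddCommGroup N] [Module A N] (W : Submodule S E) (ψ : N → E)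
    (hadd : ∀ x y, ψ (x + y) - (ψ x + ψ y) ∈ W) (hsmul : ∀ a x, ψ (a • x) - α a • ψ x ∈ W)
    (N' : Submodule A N) (hN' : ∀ x ∈ N', ψ x ∈ W) (hfin : Module.length A (N ⧸ N') ≠ ⊤) :
    rr μ W (Submodule.span S (Set.range ψ)) ≤
      ((Module.length A (N ⧸ N') : ℕ∞) : ℝ≥0∞) * μ.q ((maximalIdeal A).map α) := by
  obtain ⟨n, hn⟩ := ENat.ne_top_iff_exists.1 hfin
  rw [← hn, ENat.toENNReal_coe]
  exact ml2_span_aux μ α ψ n W N' hadd hsmul hN' hn.ge

theorem RLen.q_map_le (μ : RLen S) {A : Type u} [CommRing A] [IsLocalRing A] (α : A →+* S)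
    (J : Ideal A) (hfin : Module.length A (A ⧸ J) ≠ ⊤) :
    μ.q (J.map α) ≤ ((Module.length A (A ⧸ J) : ℕ∞) : ℝ≥0∞) * μ.q ((maximalIdeal A).map α) := by
  have h := rr_span_image_le μ α (J.map α) α (fun x y => by simp) (fun a x => by simp) J
    (fun x hx => Ideal.mem_map_of_mem α hx) hfin
  have e : Submodule.span S (Set.range α) = ⊤ :=
    (Ideal.eq_top_iff_one _).2 (Submodule.subset_span ⟨1, map_one α⟩)
  rw [e, rr_top] at h
  exact h

end

end Vale.Agent.P202
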