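import Vale.Agent.P202.MP0
import Vale.Agent.P202.MLen2

/-! The almost unit has small colength. -/

namespace Vale.Agent.P202

open MvPowerSeries
open scoped ENNReal

universe u

variable {p : ℕ} [Fact p.Prime] {l : Type u} [Field l] {σ : Type} [Finite σ]

theorem shp_rt_pow_msm {P : Type u} [CommRing P] [CharP P p] [PerfectRing P p] (t : P) (k : ℕ)
    (x : P) : shp p t (rt p P k x) ^ p ^ k = shp p t x := by
  rw [← map_pow, rt_pow]

omit [Finite σ] in
theorem range_shp_msm {P : Type u} [CommRing P] (ι : PS (Option σ) l →+* P) :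
    (Set.range fun o => shp p (ι (X none)) (ι (X o))) = insert (p : Unt p (ι (X none)))
      (Set.range fun j => shp p (ι (X none)) (ι (X (some j)))) := by
  rw [Option.range_eq, shp_self]
  rfl

/-- The colength of the roots of the variables. -/
theorem PCov.q_rt {P : Type u} [CommRing P] [CharP P p] [PerfectRing P p]
    {ι : PS (Option σ) l →+* P} (h : PCov p ι) (μ : RLen (Unt p (ι (X none))))
    (h1 : μ.q (Ideal.span (insert (p : Unt p (ι (X none)))
      (Set.range fun j => shp p (ι (X none)) (ι (X (some j)))))) = 1) (k : ℕ) :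
    ((p ^ (k * (Nat.card σ + 1)) : ℕ) : ℝ≥0∞) *
      μ.q (Ideal.span (Set.range fun o => shp p (ι (X none)) (rt p P k (ι (X o))))) = 1 := by
  have := Fintype.ofFinite σ
  have h2 := (h.permReg k).q_pows μ fun _ => p ^ k
  simp only [shp_rt_pow_msm] at h2
  rw [range_shp_msm, h1, Finset.prod_const, Finset.card_univ, Fintype.card_option,
    ← pow_mul] at h2
  rw [Nat.card_eq_fintype_card, ← h2]

theorem PCov.q_rt_t {P : Type u} [CommRing P] [CharP P p] [PerfectRing P p]
    {ι : PS (Option σ) l →+* P} (h : PCov p ι) (μ : RLen (Unt p (ι (X none))))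
    (h1 : μ.q (Ideal.span (insert (p : Unt p (ι (X none)))
      (Set.range fun j => shp p (ι (X none)) (ι (X (some j)))))) = 1) (k : ℕ) :
    ((p ^ k : ℕ) : ℝ≥0∞) * μ.q (Ideal.span (insert (p : Unt p (ι (X none)))
      (Set.range fun j => shp p (ι (X none)) (ι (X (some j))))) ⊔
        Ideal.span {shp p (ι (X none)) (rt p P k (ι (X none)))}) = 1 := by
  have := Fintype.ofFinite σ
  have h2 := (h.permReg k).q_pows μ fun o => o.elim 1 fun _ => p ^ k
  rw [Option.range_eq, Fintype.prod_option] at h2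
  simp only [Option.elim_none, Option.elim_some, pow_one, Function.comp_def, shp_rt_pow_msm,
    one_mul, Finset.prod_const, Finset.card_univ] at h2
  have h3 : Ideal.span {(p : Unt p (ι (X none)))} ≤
      Ideal.span {shp p (ι (X none)) (rt p P k (ι (X none)))} := by
    rw [Ideal.span_singleton_le_span_singleton, ← shp_self, ← shp_rt_pow_msm _ k (ι (X none))]
    exact dvd_pow_self _ (pow_pos (Fact.out : p.Prime).pos k).ne'
  rw [Ideal.span_insert, sup_right_comm, sup_eq_right.2 h3, ← Ideal.span_insert, h2,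
    ← h.q_rt μ h1 k, ← mul_assoc, ← Nat.cast_mul, ← pow_mul, ← pow_add, Nat.card_eq_fintype_card,
    mul_add, mul_one, add_comm]

theorem comap_red_msm {P : Type u} [CommRing P] [CharP P p] [PerfectRing P p] {t s : P}
    (hs : Ideal.span {t} ≤ Ideal.span {s}) (Z : Set P) :
    ((Ideal.span Z).map (Ideal.Quotient.mk (Ideal.span {s}))).comap
      ((Ideal.Quotient.factor hs).comp (Unt.red p t)) =
      Ideal.span (insert (p : Unt p t) (shp p t '' insert s Z)) := by
  rw [← comap_red_span, ← Ideal.comap_comap]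
  congr 1
  ext x
  obtain ⟨x, rfl⟩ := Ideal.Quotient.mk_surjective x
  rw [Ideal.mem_comap, Ideal.Quotient.factor_mk, Ideal.mem_quotient_iff_mem_sup,
    Ideal.mem_quotient_iff_mem_sup, Ideal.span_insert, sup_right_comm, sup_eq_left.2 hs, sup_comm]

theorem pigeon_msm {R : Type u} [CommRing R] (x : σ → R) {N : ℕ} (hN : 0 < N) :
    Ideal.span (Set.range x) ^ ((Nat.card σ + 1) * N) ≤
      Ideal.span (Set.range fun i => x i ^ N) := by
  let e : Fin (Nat.card σ + 1) ≃ Option σ :=
    (finSuccEquiv _).trans (Equiv.optionCongr (Finite.equivFin σ).symm)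
  have h := hs_pow_le_frob (fun i => (e i).elim 0 x) N
  refine le_trans (Ideal.pow_right_mono (Ideal.span_mono ?_) _) (h.trans (Ideal.span_le.2 ?_))
  · rintro _ ⟨i, rfl⟩
    exact ⟨e.symm (some i), by simp⟩
  · rintro _ ⟨i, rfl⟩
    rcases he : e i with _ | j
    · simp [he, hN.ne']
    · simp only [he, Option.elim_some]
      exact Ideal.subset_span ⟨j, rfl⟩

theorem rt_rt_msm {P : Type u} [CommRing P] [CharP P p] [PerfectRing P p] (k : ℕ) (x : P) :
    rt p P k (rt p P 1 x) = rt p P (k + 1) x := by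
  apply pow_inj_unt (p := p) (k + 1)
  rw [rt_pow, pow_succ, pow_mul, rt_pow, rt_succ_pow 0, rt_zero]

theorem small_aux_msm {c : PS σ l} {P : Type u} [CommRing P] [CharP P p] [PerfectRing P p]
    (ι : PS (Option σ) l →+* P) (μ : RLen (Unt p (ι (X none)))) (k : ℕ) (g : P)
    (hg : g - ι (rename some c) ∈ Ideal.span {rt p P 1 (ι (X none))})
    (hfin : Module.length (PS σ l) (PS σ l ⧸ (Ideal.span {c ^ p} ⊔
      IsLocalRing.maximalIdeal (PS σ l) ^ ((Nat.card σ + 1) * p ^ (k + 1)))) ≠ ⊤) :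
    μ.q (Ideal.span (insert (p : Unt p (ι (X none))) (shp p (ι (X none)) ''
      insert (rt p P (k + 1) (ι (X none))) (insert (rt p P k g)
        (Set.range fun j => ι (X (some j))))))) ≤
      ((Module.length (PS σ l) (PS σ l ⧸ (Ideal.span {c ^ p} ⊔
        IsLocalRing.maximalIdeal (PS σ l) ^ ((Nat.card σ + 1) * p ^ (k + 1)))) : ℕ∞) : ℝ≥0∞) *
      μ.q (Ideal.span (Set.range fun o => shp p (ι (X none)) (rt p P (k + 1) (ι (X o))))) := by
  have hN : 0 < p ^ (k + 1) := pow_pos (Fact.out : p.Prime).pos _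
  have hs : Ideal.span {ι (X none)} ≤ Ideal.span {rt p P (k + 1) (ι (X none))} := by
    rw [Ideal.span_singleton_le_span_singleton]
    conv_rhs => rw [← rt_pow (p := p) (k + 1) (ι (X none))]
    exact dvd_pow_self _ hN.ne'
  have hf : Function.Surjective ((Ideal.Quotient.factor hs).comp (Unt.red p (ι (X none)))) :=
    (Ideal.Quotient.factor_surjective hs).comp (Unt.red_surjective _)
  let α : PS σ l →+* P ⧸ Ideal.span {rt p P (k + 1) (ι (X none))} :=
    (Ideal.Quotient.mk _).comp ((rt p P (k + 1) : P →+* P).comp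
      (ι.comp (rename some : PS σ l →ₐ[l] PS (Option σ) l)))
  have hα : ∀ a, α a = Ideal.Quotient.mk _ (rt p P (k + 1) (ι (rename some a))) := fun _ => rfl
  have h2 := (μ.res ((Ideal.Quotient.factor hs).comp (Unt.red p (ι (X none))))).q_map_le α _ hfin
  rw [← comap_red_msm hs, ← μ.res_q _ hf]
  refine le_trans (RLen.q_anti _ ?_) (h2.trans (mul_le_mul_right ?_ _))
  · rw [Ideal.map_le_iff_le_comap, ps_maximalIdeal]
    refine sup_le (Ideal.span_le.2 ?_) ((pigeon_msm _ hN).trans (Ideal.span_le.2 ?_))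
    · rw [Set.singleton_subset_iff, SetLike.mem_coe, Ideal.mem_comap, map_pow, hα, ← map_pow,
        rt_succ_pow, Ideal.mem_quotient_iff_mem_sup]
      obtain ⟨a, ha⟩ := Ideal.mem_span_singleton'.1 hg
      have h3 : rt p P k (ι (rename some c)) =
          rt p P k g - rt p P k a * rt p P (k + 1) (ι (X none)) := by
        rw [← rt_rt_msm, ← map_mul, ha, ← map_sub, sub_sub_cancel]
      rw [h3]
      exact Ideal.sub_mem _ (Ideal.mem_sup_left (Ideal.subset_span (Set.mem_insert _ _)))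
        (Ideal.mem_sup_right (Ideal.mul_mem_left _ _ (Ideal.mem_span_singleton_self _)))
    · rintro _ ⟨j, rfl⟩
      rw [SetLike.mem_coe, Ideal.mem_comap, map_pow, hα, ← map_pow, rt_pow, rename_X]
      exact Ideal.mem_map_of_mem _ (Ideal.subset_span (Set.mem_insert_of_mem _ ⟨j, rfl⟩))
  · have h3 : (IsLocalRing.maximalIdeal (PS σ l)).map α =
        (Ideal.span (Set.range fun j => rt p P (k + 1) (ι (X (some j))))).map
          (Ideal.Quotient.mk _) := by
      rw [ps_maximalIdeal, Ideal.map_span, Ideal.map_span, ← Set.range_comp, ← Set.range_comp]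
      congr 2
      funext j
      rw [Function.comp_apply, hα, rename_X]
      rfl
    rw [h3, μ.res_q _ hf, comap_red_msm hs]
    refine RLen.q_anti _ (Ideal.span_mono ?_)
    rintro _ ⟨_ | j, rfl⟩
    · exact Set.mem_insert_of_mem _ ⟨_, Set.mem_insert _ _, rfl⟩
    · exact Set.mem_insert_of_mem _ ⟨_, Set.mem_insert_of_mem _ ⟨j, rfl⟩, rfl⟩

theorem exists_small_rt (p : ℕ) [Fact p.Prime] {c : PS σ l} (hc : c ≠ 0) : ∃ C0 : ℕ,
    ∀ (P : Type u) [CommRing P] [CharP P p] [PerfectRing P p] (ι : PS (Option σ) l →+* P),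
      PCov p ι → ∀ (μ : RLen (Unt p (ι (X none)))),
      μ.q (Ideal.span (insert (p : Unt p (ι (X none)))
        (Set.range fun j => shp p (ι (X none)) (ι (X (some j)))))) = 1 →
      ∀ (k : ℕ) (g : P), g - ι (rename some c) ∈ Ideal.span {rt p P 1 (ι (X none))} →
        ((p ^ k : ℕ) : ℝ≥0∞) * μ.q (Ideal.span (insert (p : Unt p (ι (X none)))
          (Set.range fun j => shp p (ι (X none)) (ι (X (some j))))) ⊔
            Ideal.span {shp p (ι (X none)) (rt p P k g)}) ≤ C0 := by
  obtain ⟨C, hC⟩ := grow_ps (σ := σ) l (Nat.card σ) rfl (c ^ p) (pow_ne_zero p hc)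
  refine ⟨C * (Nat.card σ + 1) ^ Nat.card σ, fun P _ _ _ ι h μ h1 k g hg => ?_⟩
  have hp := (Fact.out : p.Prime).pos
  have hj : p ^ k ≤ (Nat.card σ + 1) * p ^ (k + 1) :=
    (Nat.pow_le_pow_right hp k.le_succ).trans (Nat.le_mul_of_pos_left _ (Nat.succ_pos _))
  have h2 := hC ((Nat.card σ + 1) * p ^ (k + 1))
  have h3 := small_aux_msm ι μ k g hg
  generalize Module.length (PS σ l) (PS σ l ⧸ (Ideal.span {c ^ p} ⊔
      IsLocalRing.maximalIdeal (PS σ l) ^ ((Nat.card σ + 1) * p ^ (k + 1)))) = L at h2 h3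
  have hL : L ≠ ⊤ := by
    rintro rfl
    rw [ENat.top_mul (Nat.cast_ne_zero.2 ((pow_pos hp k).trans_le hj).ne'), top_le_iff,
      ← Nat.cast_pow, ← Nat.cast_mul] at h2
    exact ENat.natCast_ne_top _ h2
  lift L to ℕ using hL
  have h4 : p ^ k * L ≤ C * ((Nat.card σ + 1) * p ^ (k + 1)) ^ Nat.card σ := by
    rw [mul_comm]
    exact (Nat.mul_le_mul_left _ hj).trans (by exact_mod_cast h2)
  have h5 := μ.q_pow_le (Ideal.span (shp p (ι (X none)) '' insert (rt p P k g)
    (Set.range fun j => ι (X (some j))))) (shp p (ι (X none)) (rt p P (k + 1) (ι (X none))))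
    (p ^ (k + 1))
  rw [shp_rt_pow_msm, shp_self] at h5
  have h6 := h.q_rt μ h1 (k + 1)
  have h7 : p ^ k * (p ^ (k + 1) * L) ≤
      C * (Nat.card σ + 1) ^ Nat.card σ * p ^ ((k + 1) * (Nat.card σ + 1)) := by
    refine le_of_eq_of_le ?_ ((Nat.mul_le_mul_right (p ^ (k + 1)) h4).trans (le_of_eq ?_))
    · ring
    · rw [mul_pow, pow_mul, pow_succ (p ^ (k + 1))]
      ring
  have h8 : Ideal.span {(p : Unt p (ι (X none)))} ≤
      Ideal.span {shp p (ι (X none)) (rt p P (k + 1) (ι (X none)))} := by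
    rw [Ideal.span_singleton_le_span_singleton, ← shp_self,
      ← shp_rt_pow_msm _ (k + 1) (ι (X none))]
    exact dvd_pow_self _ (pow_pos hp _).ne'
  replace h3 := h3 (ENat.natCast_ne_top L)
  rw [Set.image_insert_eq, Ideal.span_insert, Ideal.span_insert, ← sup_assoc, sup_eq_right.2 h8,
    sup_comm, ENat.toENNReal_coe] at h3
  rw [Set.image_insert_eq, ← Set.range_comp, Ideal.span_insert, sup_comm,
    sup_comm (Ideal.span {shp p _ (rt p P k g)}), ← sup_assoc, ← Ideal.span_insert] at h5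
  refine (mul_le_mul_right (h5.trans (mul_le_mul_right ?_ _)) _).trans
    (?_ : _ * (_ * ((L : ℝ≥0∞) * μ.q (Ideal.span (Set.range fun o =>
      shp p (ι (X none)) (rt p P (k + 1) (ι (X o))))))) ≤ _)
  · rw [← sup_comm (Ideal.span {shp p _ (rt p P k g)}), ← Ideal.span_insert, Set.range_comp,
      ← Set.image_insert_eq]
    exact h3
  · rw [← mul_assoc _ (L : ℝ≥0∞), ← mul_assoc, ← Nat.cast_mul, ← Nat.cast_mul]
    refine (mul_le_mul_left (Nat.cast_le.2 h7) _).trans ?_
    rw [Nat.cast_mul, mul_assoc, h6, mul_one]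

theorem exists_small (p : ℕ) [Fact p.Prime] {c : PS σ l} (hc : c ≠ 0) (e : ℕ) : ∃ C0 : ℕ,
    ∀ (P : Type u) [CommRing P] [CharP P p] [PerfectRing P p] (ι : PS (Option σ) l →+* P),
      PCov p ι → ∀ (μ : RLen (Unt p (ι (X none)))),
      μ.q (Ideal.span (insert (p : Unt p (ι (X none)))
        (Set.range fun j => shp p (ι (X none)) (ι (X (some j)))))) = 1 →
      ∀ (k : ℕ) (g : P) (b : Unt p (ι (X none))), 6 ≤ p ^ k →
        g - ι (rename some c) ∈ Ideal.span {rt p P 1 (ι (X none))} →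
        ((p ^ k : ℕ) : ℝ≥0∞) * μ.q (Ideal.span (insert
          (shp p (ι (X none)) (rt p P k (g * ι (X none) ^ e)) ^ 3 *
            (shp p (ι (X none)) (rt p P k (g * ι (X none) ^ e)) ^ 3 +
              shp p (ι (X none)) (rt p P k (ι (X none))) ^ (p ^ k - 3) * b))
          (insert (p : Unt p (ι (X none)))
            (Set.range fun j => shp p (ι (X none)) (ι (X (some j))))))) ≤ C0 := by
  obtain ⟨C, hC⟩ := exists_small_rt p hc
  refine ⟨9 * (C + e), fun P _ _ _ ι h μ h1 k g b hk hg => ?_⟩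
  have h2 := hC P ι h μ h1 k g hg
  have h3 := h.q_rt_t μ h1 k
  have h4 : shp p (ι (X none)) (rt p P k (ι (X none))) ^ p ^ k = p := by
    rw [shp_rt_pow_msm, shp_self]
  have h5 : shp p (ι (X none)) (rt p P k (g * ι (X none) ^ e)) =
      shp p (ι (X none)) (rt p P k g) * shp p (ι (X none)) (rt p P k (ι (X none))) ^ e := by
    rw [map_mul, map_mul, map_pow, map_pow]
  have h6 : (p : Unt p (ι (X none))) ∈ Ideal.span (insert (p : Unt p (ι (X none)))
      (Set.range fun j => shp p (ι (X none)) (ι (X (some j))))) :=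
    Ideal.subset_span (Set.mem_insert _ _)
  rw [Ideal.span_insert, sup_comm]
  generalize Ideal.span (insert (p : Unt p (ι (X none)))
    (Set.range fun j => shp p (ι (X none)) (ι (X (some j))))) = I at h2 h3 h6 ⊢
  generalize shp p (ι (X none)) (rt p P k (g * ι (X none) ^ e)) = ρ at h5 ⊢
  generalize shp p (ι (X none)) (rt p P k (ι (X none))) = τ at h3 h4 h5 ⊢
  generalize shp p (ι (X none)) (rt p P k g) = γ at h2 h5
  rw [← h4] at h6
  generalize p ^ k = Q at hk h2 h3 h6 ⊢
  obtain ⟨r, rfl⟩ := Nat.exists_eq_add_of_le hk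
  have h7 : I ⊔ Ideal.span {ρ ^ 9} ≤ I ⊔ Ideal.span {ρ ^ 3 * (ρ ^ 3 + τ ^ (6 + r - 3) * b)} := by
    refine sup_le le_sup_left ?_
    rw [Ideal.span_singleton_le_iff_mem, show 6 + r - 3 = 3 + r by omega,
      show ρ ^ 9 = τ ^ (6 + r) * (τ ^ r * b ^ 2 * ρ ^ 3) +
        ρ ^ 3 * (ρ ^ 3 + τ ^ (3 + r) * b) * (ρ ^ 3 - τ ^ (3 + r) * b) by ring]
    exact Ideal.add_mem _ (Ideal.mem_sup_left (I.mul_mem_right _ h6))
      (Ideal.mem_sup_right (Ideal.mul_mem_right _ _ (Ideal.mem_span_singleton_self _)))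
  have h8 : μ.q (I ⊔ Ideal.span {ρ}) ≤
      μ.q (I ⊔ Ideal.span {γ}) + e * μ.q (I ⊔ Ideal.span {τ}) := by
    rw [h5]
    exact (μ.q_mul_le I _ _).trans (add_le_add le_rfl (μ.q_pow_le I τ e))
  refine (mul_le_mul_right
    ((μ.q_anti h7).trans ((μ.q_pow_le I ρ 9).trans (mul_le_mul_right h8 _))) _).trans ?_
  rw [mul_left_comm, mul_add, mul_left_comm _ (e : ℝ≥0∞), h3, mul_one, Nat.cast_mul, Nat.cast_add C]
  exact mul_le_mul_right (add_le_add h2 le_rfl) _

end Vale.Agent.P202
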