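import Vale.Agent.P202.MNorm
import Vale.Agent.P202.MSmall
import Vale.Agent.P202.MAl

/-! The interface exists up to an arbitrarily small error. -/

namespace Vale.Agent.P202

open MvPowerSeries
open scoped ENNReal

universe u

/-- A power of `p` lies in the ideal generated by an approximate root and the variables. -/
theorem pow_mem_of_split {p : ℕ} {A B : Type u} [CommRing A] [CommRing B] {σ : Type} {Xv : σ → A}
    {F : Polynomial A} (α : A →+* B) {s : ℕ} (r : Fin s → B) {γ a : ℕ} {u : A}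
    (hs : (F.map α - ∏ i, (Polynomial.X - Polynomial.C (r i))).coeff 0 ∈
      Ideal.span {(p : B) ^ γ})
    (hj : ∀ b : B, IsUnit (1 - p * b)) (hu : IsUnit u)
    (h0 : F.coeff 0 - p ^ a * u ∈ Ideal.span (Set.range Xv)) (ha : a < γ) (i : Fin s) :
    (p : B) ^ a ∈ Ideal.span (insert (r i) (Set.range fun j => α (Xv j))) := by
  set J := Ideal.span (insert (r i) (Set.range fun j => α (Xv j))) with hJ
  obtain ⟨c, hc⟩ := Ideal.mem_span_singleton'.1 hs
  obtain ⟨d, rfl⟩ := Nat.exists_eq_add_of_lt ha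
  obtain ⟨v, hv⟩ := (hu.map α).exists_left_inv
  have h1 : (∏ j, (Polynomial.X - Polynomial.C (r j))).coeff 0 ∈ J := by
    rw [Polynomial.coeff_zero_prod]
    refine Ideal.mem_of_dvd J (Finset.dvd_prod_of_mem _ (Finset.mem_univ i)) ?_
    rw [Polynomial.coeff_sub, Polynomial.coeff_X_zero, Polynomial.coeff_C_zero, zero_sub]
    exact J.neg_mem (Ideal.subset_span (Set.mem_insert _ _))
  have h2 : α (F.coeff 0) - p ^ a * α u ∈ J := by
    have h3 := Ideal.mem_map_of_mem α h0
    rw [Ideal.map_span, ← Set.range_comp, map_sub, map_mul, map_pow, map_natCast] at h3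
    exact Ideal.span_mono (Set.subset_insert _ _) h3
  rw [Polynomial.coeff_sub, Polynomial.coeff_map] at hc
  have h3 := J.mul_mem_left v (J.sub_mem h1 h2)
  have h4 : v * ((∏ j, (Polynomial.X - Polynomial.C (r j))).coeff 0 -
      (α (F.coeff 0) - p ^ a * α u)) = (1 - p * (v * c * p ^ d)) * p ^ a := by
    linear_combination v * hc + (p : B) ^ a * hv
  rw [h4] at h3
  exact (Ideal.unit_mul_mem_iff_mem J (hj _)).1 h3

/-- Integral dependence gives a valuative bound at an approximate root. -/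
theorem IntOver.vle {A : Type u} [CommRing A] [Nontrivial A] {F H : Polynomial A} {Δ : A}
    (h : IntOver F Δ H) (hF : F.Monic) (hd : 1 ≤ F.natDegree) :
    ∃ n : ℕ, ∀ (B : Type u) [CommRing B] (α : A →+* B) (r π : B),
      F.eval₂ α r ∈ Ideal.span {π ^ n} → VLe (H.eval₂ α r) (α Δ) π := by
  obtain ⟨n, c, G, hG⟩ := h
  have hn : 1 ≤ n := by
    by_contra h0
    obtain rfl : n = 0 := by omega
    have h1 : F = 1 := hF.eq_one_of_isUnit (IsUnit.of_mul_eq_one G (by simpa using hG.symm))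
    simp [h1] at hd
  refine ⟨n, fun B _ α r π hr => vle_of_eq hn (fun j => α (c j)) ?_⟩
  have h1 := congrArg (Polynomial.eval₂RingHom α r) hG
  simp only [map_add, map_pow, map_sum, map_mul, Polynomial.coe_eval₂RingHom,
    Polynomial.eval₂_C] at h1
  rw [h1]
  exact Ideal.mul_mem_right _ _ hr

theorem eval_mem_mif {A B : Type u} [CommRing A] [CommRing B] {F : Polynomial A} (α : A →+* B)
    {s : ℕ} (r : Fin s → B) {I : Ideal B}
    (hs : ∀ n, (F.map α - ∏ i, (Polynomial.X - Polynomial.C (r i))).coeff n ∈ I) (i : Fin s) :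
    F.eval₂ α (r i) ∈ I := by
  have h1 : (F.map α - ∏ i, (Polynomial.X - Polynomial.C (r i))).eval (r i) ∈ I := by
    rw [Polynomial.eval_eq_sum_range]
    exact I.sum_mem fun n _ => I.mul_mem_right _ (hs n)
  rwa [Polynomial.eval_sub, Polynomial.eval_prod, Finset.prod_eq_zero (Finset.mem_univ i) (by simp),
    sub_zero, ← Polynomial.eval₂_eq_eval_map] at h1

theorem exists_cov_mif {p : ℕ} [Fact p.Prime] {l : Type u} [Field l] [CharP l p]
    {σ : Type} [Finite σ] {F : Polynomial (PS σ (WittVector p l))} (hF : F.Monic) (Γ : ℕ) :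
    ∃ (P : Type u) (_ : CommRing P) (_ : CharP P p) (_ : PerfectRing P p)
      (ι : PS (Option σ) l →+* P) (α : PS σ (WittVector p l) →+* Unt p (ι (X none)))
      (z : Fin F.natDegree → P), PCov p ι ∧
      (∀ j, α (X j) = shp p (ι (X none)) (ι (X (some j)))) ∧
      (∀ g, α g - shp p (ι (X none)) (ι (rename some
        (MvPowerSeries.map WittVector.constantCoeff g))) ∈
          Ideal.span {(p : Unt p (ι (X none)))}) ∧
      ∀ n, (F.map α - ∏ i, (Polynomial.X - Polynomial.C (shp p (ι (X none)) (z i)))).coeff n ∈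
        Ideal.span {(p : Unt p (ι (X none))) ^ Γ} := by
  have := ps_charP p l (Option σ)
  obtain ⟨β, -, hX, hc⟩ := exists_alpha p l σ
  let o := PerfectClosure.of (PS (Option σ) l) p
  let α0 : PS σ (WittVector p l) →+* Unt p (o (X none)) :=
    (Ideal.Quotient.mk _).comp ((WittVector.map o).comp β)
  have hj : o (X none) ∈ (⊥ : Ideal (PerfectClosure (PS (Option σ) l) p)).jacobson :=
    (pcov_of_cover (Cover.id (PerfectClosure (PS (Option σ) l) p))).jac
  have : Nontrivial (PerfectClosure (PS (Option σ) l) p) :=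
    CharP.nontrivial_of_char_ne_one (R := PerfectClosure (PS (Option σ) l) p)
      (Fact.out : p.Prime).ne_one
  have : Nontrivial (PerfectClosure (PS (Option σ) l) p ⧸ Ideal.span {o (X none)}) := by
    refine Ideal.Quotient.nontrivial_iff.2 (ne_top_of_le_ne_top ?_
      ((Ideal.span_singleton_le_iff_mem _).2 hj))
    rw [Ne, Ideal.jacobson_eq_top_iff]
    exact bot_ne_top
  have : Nontrivial (Unt p (o (X none))) := (Unt.red p (o (X none))).domain_nontrivial
  obtain ⟨P, _, _, _, f, z, hf, hs⟩ := andre (t := o (X none)) t_reg_perfectClosure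
    (hF.map α0) (hF.natDegree_map α0) Γ
  refine ⟨P, _, ‹_›, ‹_›, f.comp o, (Unt.map p f rfl).comp α0, z, pcov_of_cover hf,
    fun j => ?_, fun g => ?_, fun n => ?_⟩
  · change Ideal.Quotient.mk _ (WittVector.map f (WittVector.map o (β (X j)))) = _
    rw [hX, WittVector.map_teichmuller, WittVector.map_teichmuller]
    rfl
  · rw [← Unt.ker_red, RingHom.mem_ker, map_sub, Unt.red_shp, sub_eq_zero, ← hc]
    rfl
  · rw [← Polynomial.map_map]
    exact hs n

theorem exists_iface_eps {p : ℕ} [Fact p.Prime] {l : Type u} [Field l] [CharP l p]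
    [PerfectRing l p] {σ : Type} [Fintype σ] {F : Polynomial (PS σ (WittVector p l))}
    (hF : F.Monic) {u Δ' : PS σ (WittVector p l)} {a : ℕ} (hu : IsUnit u)
    (h0 : F.coeff 0 - p ^ a * u ∈ Ideal.span (Set.range (X : σ → PS σ (WittVector p l))))
    (hΔ : Δ' ∉ Ideal.span {(p : PS σ (WittVector p l))}) (e : ℕ)
    (𝓗 : Finset (Polynomial (PS σ (WittVector p l)))) (h𝓗 : ∀ H ∈ 𝓗, IntOver F (p ^ e * Δ') H)
    (k γ : ℕ) (hγ : a < γ) (ε : ℝ≥0∞) (hε : 0 < ε) :
    ∃ (B : Type u) (_ : CommRing B) (μ : RLen B) (α : PS σ (WittVector p l) →+* B)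
      (w : Option σ → B) (ζ : Fin F.natDegree → B) (κ : B),
      Iface p (X : σ → PS σ (WittVector p l)) F (p ^ e * Δ') 𝓗 e (p ^ k) γ ε B μ α w ζ κ := by
  have hc : MvPowerSeries.map (σ := σ) (WittVector.constantCoeff : WittVector p l →+* l) Δ' ≠ 0 := by
    intro h
    apply hΔ
    have h1 := ker_ps_map (σ := σ) (WittVector.constantCoeff : WittVector p l →+* l)
      WittVector.ker_constantCoeff
    rw [map_natCast] at h1
    rw [← h1]
    exact h
  obtain ⟨C0, hC0⟩ := exists_small p hc e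
  obtain ⟨N, hN⟩ := ENNReal.exists_nat_mul_gt hε.ne' (ENNReal.natCast_ne_top C0)
  have hQ : N + 6 < p ^ (N + 6) := Nat.lt_pow_self (Fact.out : p.Prime).one_lt
  have h1 : ∀ H ∈ 𝓗, ∃ n : ℕ, 1 ≤ F.natDegree → ∀ (B : Type u) [CommRing B]
      (α : PS σ (WittVector p l) →+* B) (r π : B), F.eval₂ α r ∈ Ideal.span {π ^ n} →
        VLe (H.eval₂ α r) (α (p ^ e * Δ')) π := by
    intro H hH
    by_cases hd : 1 ≤ F.natDegree
    · exact ((h𝓗 H hH).vle hF hd).imp fun n hn _ => hn
    · exact ⟨0, fun h => absurd h hd⟩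
  choose n hn using h1
  set M := 𝓗.attach.sup fun H => n H.1 H.2 with hM
  obtain ⟨P, _, _, _, ι, α, z, h, hX, hred, hs⟩ :=
    exists_cov_mif hF (γ + γ * p ^ (N + 6) * M)
  have hs' : ∀ {m : ℕ}, m ≤ γ + γ * p ^ (N + 6) * M → ∀ n,
      (F.map α - ∏ i, (Polynomial.X - Polynomial.C (shp p (ι (X none)) (z i)))).coeff n ∈
        Ideal.span {(p : Unt p (ι (X none))) ^ m} := fun hm n =>
    Ideal.span_singleton_le_span_singleton.2 (pow_dvd_pow _ hm) (hs n)
  obtain ⟨μ, hμ⟩ := h.exists_norm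
  obtain ⟨g, hg1, hg2⟩ := approx h.t_reg (α Δ') _ (hred Δ') (γ * p ^ (N + 6))
  obtain ⟨b, hb⟩ := almost_div h.t_reg (α Δ') g e γ (N + 6) (by omega) hg2
  have hsm := hC0 P ι h μ hμ (N + 6) g b (by omega) hg1
  have hα : α (p ^ e * Δ') = p ^ e * α Δ' := by rw [map_mul, map_pow, map_natCast]
  refine ⟨_, _, μ, α, fun o => shp p (ι (X none)) (rt p P k (ι (X o))),
    fun i => shp p (ι (X none)) (rt p P k (z i)),
    shp p (ι (X none)) (rt p P (N + 6) (g * ι (X none) ^ e)) ^ 3 *
      (shp p (ι (X none)) (rt p P (N + 6) (g * ι (X none) ^ e)) ^ 3 +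
        shp p (ι (X none)) (rt p P (N + 6) (ι (X none))) ^ (p ^ (N + 6) - 3) * b),
    ?_, fun j => ?_, h.permReg k, fun m => ?_, Unt.jac _, ?_, fun i y r hy => ?_,
    fun m y hy => ?_, fun i H hH => ?_, ?_⟩
  · rw [shp_rt_pow_MApx, shp_self]
  · rw [shp_rt_pow_MApx, hX]
  · simp only [shp_rt_pow_MApx]
    exact hs' (Nat.le_add_right _ _) m
  · simp only [hX]
    exact hμ
  · have h2 := pow_mem_of_split α (fun i => shp p (ι (X none)) (z i))
      (hs' (Nat.le_add_right _ _) 0) (Unt.jac _) hu h0 hγ i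
    simp only [hX, shp_rt_pow_MApx] at h2 hy
    exact h.rc (z i) h2 k r y hy
  · refine h.colon hc (hred Δ') m y ?_
    obtain ⟨c, hc⟩ := Ideal.mem_span_singleton'.1 hy
    refine Ideal.mem_span_singleton'.2 ⟨c, ?_⟩
    rw [← sub_eq_zero]
    refine (pow_mem (Unt.p_reg h.t_reg) e).1 _ ?_
    rw [hα] at hc
    linear_combination hc
  · rw [shp_rt_pow_MApx, hα]
    refine hb _ ?_
    rw [← hα]
    refine hn H hH (Nat.succ_le_of_lt i.pos) _ α _ _ ?_
    rw [← pow_mul]
    refine eval_mem_mif α (fun i => shp p (ι (X none)) (z i)) (hs' ?_) i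
    have h2 : n H hH ≤ M := Finset.le_sup (f := fun H : 𝓗 => n H.1 H.2) (Finset.mem_attach _ ⟨H, hH⟩)
    exact (Nat.mul_le_mul_left _ h2).trans (Nat.le_add_left _ _)
  · simp only [hX]
    have h2 : (C0 : ℝ≥0∞) ≤ ((p ^ (N + 6) : ℕ) : ℝ≥0∞) * ε :=
      hN.le.trans (mul_le_mul_left (Nat.cast_le.2 (by omega)) ε)
    exact (ENNReal.mul_le_mul_iff_right (Nat.cast_ne_zero.2 (by omega))
      (ENNReal.natCast_ne_top _)).1 (hsm.trans h2)

end Vale.Agent.P202
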