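import Vale.Agent.P202.MGeo
import Vale.Agent.P202.HSAux

/-! Global sections, in particular of the Ulrich bundle. -/

namespace Vale.Agent.P202

open scoped ENNReal

universe u

variable {B : Type u} [CommRing B] {m : ℕ} {E : Type u} [AddCommGroup E] [Module B E]
  {ξ : Fin (m + 1) → B} {φ : ℤ → Lau B m →ₗ[B] E}

theorem VF_zero_mv (φ : ℤ → Lau B m →ₗ[B] E) (a : Fin m → ℤ) (s : ℤ) :
    VF φ a s 0 = VG φ a s := if_pos rfl

theorem VF_ne_mv (φ : ℤ → Lau B m →ₗ[B] E) (a : Fin m → ℤ) (s : ℤ) {n : ℤ} (hn : n ≠ 0) :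
    VF φ a s n = ⊥ := if_neg hn

theorem VF_isCx (φ : ℤ → Lau B m →ₗ[B] E) (a : Fin m → ℤ) (s : ℤ) :
    IsCx (cd B m E) (VF φ a s) := by
  rintro n _ ⟨x, hx, rfl⟩
  by_cases hn : n = 0
  · subst hn
    rw [VF_zero_mv] at hx
    rw [LinearMap.mem_ker.1 hx.2]
    exact zero_mem _
  · rw [VF_ne_mv φ a s hn] at hx
    rw [(Submodule.mem_bot B).1 hx, map_zero]
    exact zero_mem _

theorem VF_le (φ : ℤ → Lau B m →ₗ[B] E) (a : Fin m → ℤ) (s : ℤ) :
    VF φ a s ≤ Cech (DG φ a s) := by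
  intro n
  by_cases hn : n = 0
  · subst hn
    rw [VF_zero_mv]
    exact inf_le_left
  · rw [VF_ne_mv φ a s hn]
    exact bot_le

theorem Geo.VG_anti (h : Geo ξ φ) (a : Fin m → ℤ) {s s' : ℤ} (hs : s ≤ s') :
    VG φ a s' ≤ VG φ a s := inf_le_inf_right _ (cech_mono (h.anti a hs) 0)

theorem Geo.VF_inf (h : Geo ξ φ) (a : Fin m → ℤ) {s s' : ℤ} (hs : s ≤ s') (n : ℤ) :
    VF φ a s n ⊓ Cech (DG φ a s') n = VF φ a s' n := by
  by_cases hn : n = 0
  · subst hn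
    rw [VF_zero_mv, VF_zero_mv]
    exact le_antisymm (fun x hx => ⟨hx.2, hx.1.2⟩) fun x hx => ⟨h.VG_anti a hs hx, hx.1⟩
  · rw [VF_ne_mv φ a s hn, VF_ne_mv φ a s' hn, bot_inf_eq]

theorem Geo.smul_VG_le (h : Geo ξ φ) (a : Fin m → ℤ) (s : ℤ) (N : ℕ) :
    Ideal.span (Set.range ξ) ^ N • VG φ a s ≤ VG φ a (s + N) := by
  refine Submodule.smul_le.2 fun r hr v hv => ⟨?_, Submodule.smul_mem _ r hv.2⟩
  obtain ⟨h1, h2⟩ := mem_cech.1 hv.1
  refine mem_cech.2 ⟨fun J hJ => ?_, fun J hJ => ?_⟩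
  · rw [h.add]
    exact Submodule.smul_mem_smul hr (h1 J hJ)
  · rw [Pi.smul_apply, h2 J hJ, smul_zero]

/-- The constant cochain on the charts of degree zero. -/
noncomputable def cstMV (B : Type u) [CommRing B] (m : ℕ) (E : Type u) [AddCommGroup E]
    [Module B E] : E →ₗ[B] (Fin m → Ch) → E :=
  LinearMap.pi fun J => if ∀ j, J j ≠ Ch.W then LinearMap.id else 0

theorem cstMV_apply (e : E) (J : Fin m → Ch) :
    cstMV B m E e J = if ∀ j, J j ≠ Ch.W then e else 0 := by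
  by_cases h : ∀ j, J j ≠ Ch.W
  · simp only [cstMV, LinearMap.pi_apply, if_pos h, LinearMap.id_apply]
  · simp only [cstMV, LinearMap.pi_apply, if_neg h, LinearMap.zero_apply]

theorem cocyc_mv {b : Fin m → ℤ} (hb : ∀ j, 0 ≤ b j) (ψ : Lau B m →ₗ[B] E) (v : Lau B m) :
    ψ.compLeft (Fin m → Ch) (cocyc b v) = cstMV B m E (ψ v) := by
  funext J
  have e : (∀ j, (J j = Ch.W ↔ Jstar b j = Ch.W)) ↔ ∀ j, J j ≠ Ch.W :=
    forall_congr' fun j => by simp [Jstar_eq_W, not_lt.2 (hb j)]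
  change ψ (cocyc b v J) = _
  rw [cstMV_apply, cocyc]
  by_cases h : ∀ j, J j ≠ Ch.W
  · rw [if_pos h, if_pos (e.2 h)]
  · rw [if_neg h, if_neg (mt e.1 h), map_zero]

theorem cdeg_Jstar_mv {b : Fin m → ℤ} (hb : ∀ j, 0 ≤ b j) : cdeg (Jstar b) = 0 := by
  rw [← cdeg_V (m := m)]
  exact cdeg_congr fun j => by simp [Jstar_eq_W, not_lt.2 (hb j)]

theorem cd_compLeft_mv (ψ : Lau B m →ₗ[B] E) (v : (Fin m → Ch) → Lau B m) :
    cd B m E (ψ.compLeft (Fin m → Ch) v) = ψ.compLeft (Fin m → Ch) (cd B m (Lau B m) v) :=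
  funext fun J => cd_comp ψ v J

theorem cech_map_mv (ψ : Lau B m →ₗ[B] E) (D : (Fin m → Ch) → Submodule B (Lau B m)) (n : ℤ) :
    (Cech D n).map (ψ.compLeft (Fin m → Ch)) = Cech (fun J => (D J).map ψ) n := by
  apply le_antisymm
  · rintro _ ⟨v, hv, rfl⟩
    obtain ⟨h1, h2⟩ := mem_cech.1 hv
    refine mem_cech.2 ⟨fun J hJ => ⟨v J, h1 J hJ, rfl⟩, fun J hJ => ?_⟩
    change ψ (v J) = 0
    rw [h2 J hJ, map_zero]
  · intro x hx
    obtain ⟨h1, h2⟩ := mem_cech.1 hx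
    have key : ∀ J, ∃ v, ((cdeg J : ℤ) = -n → v ∈ D J) ∧ ((cdeg J : ℤ) ≠ -n → v = 0) ∧
        ψ v = x J := by
      intro J
      by_cases hJ : (cdeg J : ℤ) = -n
      · obtain ⟨v, hv, e⟩ := h1 J hJ
        exact ⟨v, fun _ => hv, fun h => absurd hJ h, e⟩
      · exact ⟨0, fun h => absurd h hJ, fun _ => rfl, by rw [map_zero, h2 J hJ]⟩
    choose v v1 v2 v3 using key
    exact ⟨v, mem_cech.2 ⟨v1, v2⟩, funext v3⟩

/-- The span of the standard sections of level `r`. -/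
noncomputable def SMV (φ : ℤ → Lau B m →ₗ[B] E) (a : Fin m → ℤ) (r : ℤ) :
    Submodule B ((Fin m → Ch) → E) :=
  (Submodule.span B (Set.range fun β : Box (sh a r) => mon B β.1)).map (cstMV B m E ∘ₗ φ r)

theorem SMV_eq (φ : ℤ → Lau B m →ₗ[B] E) (a : Fin m → ℤ) (r : ℤ) : SMV φ a r =
    Submodule.span B (Set.range fun β : Box (sh a r) => cstMV B m E (φ r (mon B β.1))) := by
  rw [SMV, Submodule.map_span, ← Set.range_comp]
  rfl

theorem SMV_le (φ : ℤ → Lau B m →ₗ[B] E) {a : Fin m → ℤ} {r : ℤ} (hb : ∀ j, 0 ≤ sh a r j) :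
    SMV φ a r ≤ VG φ a r := by
  rw [SMV_eq, Submodule.span_le]
  rintro _ ⟨β, rfl⟩
  have h1 := cocyc_mem (sh a r) (mon B β.1) (fun γ hγ => by
    have : β.1 ≠ γ := fun e => hγ (e ▸ β.2)
    simp [mon, AddMonoidAlgebra.coeff_single, this])
  rw [cdeg_Jstar_mv hb] at h1
  simp only [← cocyc_mv hb]
  refine ⟨?_, ?_⟩
  · exact (cech_map_mv (φ r) (Cm B (sh a r)) 0).le ⟨_, h1.1, rfl⟩
  · have h2 : cd B m (Lau B m) (cocyc (sh a r) (mon B β.1)) = 0 := h1.2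
    change cd B m E _ = 0
    rw [cd_compLeft_mv, h2, map_zero]

theorem Geo.step_mv (h : Geo ξ φ) {a : Fin m → ℤ} {r : ℤ} (hb : ∀ j, 0 ≤ sh a r j)
    {x : (Fin m → Ch) → E} (hx : x ∈ Cech (DG φ a r) 0)
    (hd : cd B m E x ∈ Cech (DG φ a (r + 1)) (0 - 1)) :
    x ∈ Cech (DG φ a (r + 1)) 0 ⊔ SMV φ a r := by
  obtain ⟨v, hv, rfl⟩ := (cech_map_mv (φ r) (Cm B (sh a r)) 0).ge hx
  have h1 := mem_cech.1 (cech_isCx (Cm_cmono (sh a r)) 0 ⟨v, hv, rfl⟩)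
  rw [cd_compLeft_mv] at hd
  have h2 := mono_lift (Ideal.span (Set.range ξ)) (sh a r) hb (x := v) ⟨hv, mem_cech.2
    ⟨fun J hJ => h.ker a r J _ (h1.1 J hJ) ((mem_cech.1 hd).1 J hJ), h1.2⟩⟩
  have h3 := Submodule.mem_map_of_mem (f := (φ r).compLeft (Fin m → Ch)) h2
  rw [Submodule.map_sup, cech_map_mv, Submodule.map_span, ← Set.range_comp] at h3
  refine SetLike.le_def.1 (sup_le_sup (cech_mono (D' := DG φ a (r + 1)) (fun J => ?_) 0 :) ?_) h3
  · rw [h.succ, Submodule.map_smul'']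
    exact le_rfl
  · rw [SMV_eq]
    refine Submodule.span_mono ?_
    rintro _ ⟨β, rfl⟩
    exact ⟨β, (cocyc_mv hb _ _).symm⟩

theorem Geo.zero_mv (h : Geo ξ φ) {a : Fin m → ℤ} (ha : ∀ j, 0 ≤ a j) {s : ℤ} (h0 : 0 ≤ s)
    {x : (Fin m → Ch) → E} (hx : x ∈ Cech (DG φ a s) 0) (N : ℕ)
    (hd : cd B m E x ∈ Cech (DG φ a (s + N)) (0 - 1)) :
    x ∈ VG φ a s ⊔ Cech (DG φ a (s + N)) 0 := by
  induction N with
  | zero => exact Submodule.mem_sup_right (by simpa using hx)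
  | succ N ih =>
    rw [Nat.cast_succ, ← add_assoc] at hd ⊢
    obtain ⟨g, hg, y, hy, rfl⟩ := Submodule.mem_sup.1
      (ih (cech_mono (h.anti a (by omega)) _ hd))
    have hb : ∀ j, 0 ≤ sh a (s + N) j := fun j => by
      have := ha j
      unfold sh
      omega
    rw [map_add, LinearMap.mem_ker.1 hg.2, zero_add] at hd
    refine Submodule.add_mem _ (Submodule.mem_sup_left hg) ?_
    refine SetLike.le_def.1 (sup_le le_sup_right (le_sup_of_le_left ?_)) (h.step_mv hb hy hd)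
    exact (SMV_le φ hb).trans (h.VG_anti a (by omega))

/-- Global sections compute the cohomology of the windows in non-negative levels. -/
theorem Geo.V_exa (h : Geo ξ φ) {a : Fin m → ℤ} (ha : ∀ j, 0 ≤ a j) {s s' : ℤ} (h0 : 0 ≤ s)
    (hs : s ≤ s') :
    Exa (cd B m E) (VF φ a s ⊔ Cech (DG φ a s')) (Cech (DG φ a s)) := by
  rintro n x ⟨hx, hd⟩
  rcases lt_trichotomy n 0 with hn | rfl | hn
  · have h1 := hr_triv_eq_zero_iff.1 (h.window_zero (RLen.triv B) a hs n fun r hr _ => by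
      refine Or.inr (Or.inl ?_)
      rw [cdeg_Jstar_mv fun j => by
        have := ha j
        unfold sh
        omega]
      omega)
    rw [Pi.sup_apply, VF_ne_mv φ a s (by omega), bot_sup_eq] at hd
    exact sup_le_sup_right (le_sup_right : _ ≤ VF φ a s n ⊔ _) _ (h1 ⟨hx, hd⟩)
  · rw [Pi.sup_apply, VF_ne_mv φ a s (by omega), bot_sup_eq] at hd
    obtain ⟨N, rfl⟩ := Int.le.dest hs
    refine Submodule.mem_sup_left ?_
    rw [Pi.sup_apply, VF_zero_mv]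
    exact h.zero_mv ha h0 hx N hd
  · rw [cech_eq_bot _ n (Or.inr hn)] at hx
    rw [(Submodule.mem_bot B).1 hx]
    exact zero_mem _

theorem Geo.VG_step_mv (h : Geo ξ φ) {a : Fin m → ℤ} {r : ℤ} (hb : ∀ j, 0 ≤ sh a r j) :
    VG φ a r ≤ SMV φ a r ⊔ VG φ a (r + 1) := by
  intro x hx
  have h0 : cd B m E x = 0 := hx.2
  obtain ⟨y, hy, g, hg, rfl⟩ := Submodule.mem_sup.1 (h.step_mv hb hx.1 (h0 ▸ zero_mem _))
  rw [map_add, LinearMap.mem_ker.1 (SMV_le φ hb hg).2, add_zero] at h0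
  exact Submodule.add_mem _ (Submodule.mem_sup_right ⟨hy, h0⟩) (Submodule.mem_sup_left hg)

theorem Geo.SMV_succ (h : Geo ξ φ) (s : ℕ) :
    SMV φ (a0 m) (s + 1) ≤ Ideal.span (Set.range ξ) • SMV φ (a0 m) s := by
  rw [SMV_eq, Submodule.span_le]
  rintro _ ⟨β, rfl⟩
  obtain ⟨c, hc, e⟩ := ulrich_gen (A := B) s β.1 β.2
  simp only [e, map_sum, h.rel, map_smul, SetLike.mem_coe]
  exact Submodule.sum_mem _ fun i _ =>
    Submodule.smul_mem_smul (Ideal.subset_span ⟨i, rfl⟩) ⟨c i, hc i, rfl⟩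

theorem Geo.SMV_pow (h : Geo ξ φ) (s : ℕ) :
    SMV φ (a0 m) s ≤ Ideal.span (Set.range ξ) ^ s • SMV φ (a0 m) 0 := by
  induction s with
  | zero => simp
  | succ s ih =>
    rw [Nat.cast_succ, pow_succ', mul_smul]
    exact (h.SMV_succ s).trans (Submodule.smul_mono le_rfl ih)

theorem sh_a0_mv {r : ℤ} (hr : 0 ≤ r) (j : Fin m) : 0 ≤ sh (a0 m) r j := by
  unfold sh a0
  omega

theorem Geo.gen_mv (h : Geo ξ φ) (s : ℕ) (s' : ℤ) :
    VG φ (a0 m) s ≤ Ideal.span (Set.range ξ) ^ s • SMV φ (a0 m) 0 ⊔ VG φ (a0 m) s' := by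
  rcases le_total s' s with hs | hs
  · exact le_sup_of_le_right (h.VG_anti _ hs)
  · obtain ⟨N, rfl⟩ := Int.le.dest hs
    clear hs
    induction N with
    | zero => simp
    | succ N ih =>
      rw [Nat.cast_succ, ← add_assoc]
      refine ih.trans (sup_le le_sup_left ((h.VG_step_mv (sh_a0_mv (by omega))).trans ?_))
      refine sup_le_sup_right ?_ _
      rw [← Nat.cast_add]
      exact (h.SMV_pow (s + N)).trans
        (Submodule.smul_mono (Ideal.pow_le_pow_right (Nat.le_add_right s N)) le_rfl)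

/-- The sections of level `s` come from the sections of level zero. -/
theorem Geo.V_gen (h : Geo ξ φ) (s : ℕ) (s' : ℤ) :
    VG φ (a0 m) s ≤ Ideal.span (Set.range ξ) ^ s • VG φ (a0 m) 0 ⊔ VG φ (a0 m) s' :=
  (h.gen_mv s s').trans
    (sup_le_sup_right (Submodule.smul_mono le_rfl (SMV_le φ (sh_a0_mv le_rfl))) _)

theorem Geo.V_span (h : Geo ξ φ) : ∃ x : Fin m.factorial → (Fin m → Ch) → E,
    (∀ i, x i ∈ VG φ (a0 m) 0) ∧
      ∀ s' : ℤ, VG φ (a0 m) 0 ≤ Submodule.span B (Set.range x) ⊔ VG φ (a0 m) s' := by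
  let e := (Finset.equivFinOfCardEq (card_box_a0 (m := m))).symm
  have h1 : SMV φ (a0 m) 0 =
      Submodule.span B (Set.range fun i => cstMV B m E (φ 0 (mon B (e i).1))) := by
    rw [SMV_eq, ← e.surjective.range_comp]
    rfl
  refine ⟨fun i => cstMV B m E (φ 0 (mon B (e i).1)), fun i => ?_, fun s' => ?_⟩
  · exact SMV_le φ (sh_a0_mv le_rfl) (h1.ge (Submodule.subset_span ⟨i, rfl⟩))
  · rw [← h1]
    exact (h.gen_mv 0 s').trans (sup_le_sup_right Submodule.smul_le_right _)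

theorem Geo.smul_mem_mv (h : Geo ξ φ) (r : Ideal B) {l : ℤ} {N : ℕ} (hl : l ≤ N) {z : B}
    (hz : z ∈ r ⊔ Ideal.span (Set.range ξ) ^ N) {x : (Fin m → Ch) → E}
    (hx : x ∈ VG φ (a0 m) 0) : z • x ∈ r • VG φ (a0 m) 0 ⊔ VG φ (a0 m) l := by
  have h1 := Submodule.smul_mem_smul hz hx
  rw [Submodule.sup_smul] at h1
  exact sup_le_sup_left ((h.smul_VG_le _ 0 N).trans (h.VG_anti _ (by omega))) _ h1

theorem Geo.h0_le (h : Geo ξ φ) (μ : RLen B) (r : Ideal B) (l : ℕ) :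
    h0 μ φ r l ≤ (m.factorial : ℝ≥0∞) * μ.q (r ⊔ Ideal.span (Set.range ξ) ^ l) := by
  obtain ⟨x, hx, hs⟩ := h.V_span
  refine (rr_le_of_le_sup μ le_rfl ((hs l).trans
    (sup_le le_sup_right (le_sup_of_le_left le_sup_right)))).trans ?_
  simpa using rr_span_le μ _ x _ fun i z hz => h.smul_mem_mv r (l := l) le_rfl hz (hx i)

theorem Geo.h0_mono (h : Geo ξ φ) (μ : RLen B) {r r' : Ideal B} (hr : r' ≤ r) {l l' : ℤ}
    (hl : l ≤ l') : h0 μ φ r l ≤ h0 μ φ r' l' :=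
  rr_anti_left μ (sup_le_sup (Submodule.smul_mono hr le_rfl) (h.VG_anti _ hl)) _

theorem Geo.null_mv (h : Geo ξ φ) (μ : RLen B) {κ : B}
    (hν : (μ.nu κ).q (Ideal.span (Set.range ξ)) = 0) {A C : Submodule B ((Fin m → Ch) → E)}
    (l : ℕ) (hA : VG φ (a0 m) l ≤ A) (hC : C ≤ VG φ (a0 m) 0) (c : ℕ)
    (hc : ∀ x ∈ C, κ ^ c • x ∈ A) : rr μ A C = 0 := by
  refine rr_eq_zero_of_nu μ κ (le_antisymm ?_ zero_le) c hc
  have h1 := h.h0_le (μ.nu κ) ⊥ l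
  have h2 := (μ.nu κ).q_ideal_pow_le ⊥ ξ l
  rw [bot_sup_eq (a := Ideal.span (Set.range ξ)), hν, mul_zero] at h2
  rw [le_antisymm h2 zero_le, mul_zero, h0, Submodule.bot_smul, bot_sup_eq] at h1
  exact (rr_mono _ hA hC).trans h1

theorem Geo.sup_le_mv (h : Geo ξ φ) (r : Ideal B) (l : ℕ) :
    r • VG φ (a0 m) 0 ⊔ VG φ (a0 m) l ≤ VG φ (a0 m) 0 :=
  sup_le Submodule.smul_le_right (h.VG_anti _ (Int.natCast_nonneg l))

/-- Independence of the level. -/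
theorem Geo.h0_indep (h : Geo ξ φ) (μ : RLen B) {κ : B}
    (hν : (μ.nu κ).q (Ideal.span (Set.range ξ)) = 0) {r : Ideal B} {c t M' : ℕ}
    (hr : ∀ j, κ ^ c * ξ j ^ t ∈ r ⊔ Ideal.span (Set.range ξ) ^ M') {l l' : ℕ}
    (h1 : (m + 1) * t ≤ l) (h2 : l ≤ l') (h3 : l' ≤ M') : h0 μ φ r l = h0 μ φ r l' := by
  have hle : r • VG φ (a0 m) 0 ⊔ VG φ (a0 m) l' ≤ r • VG φ (a0 m) 0 ⊔ VG φ (a0 m) l :=
    sup_le_sup_left (h.VG_anti _ (by omega)) _
  have hI : ∀ z ∈ Ideal.span (Set.range ξ) ^ l,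
      κ ^ c * z ∈ r ⊔ Ideal.span (Set.range ξ) ^ M' := by
    intro z hz
    obtain ⟨e, rfl⟩ := Ideal.mem_span_range_iff_exists_fun.1
      (hs_pow_le_frob ξ t (Ideal.pow_le_pow_right h1 hz))
    rw [Finset.mul_sum]
    refine Ideal.sum_mem _ fun j _ => ?_
    rw [mul_left_comm]
    exact Ideal.mul_mem_left _ _ (hr j)
  have key : r • VG φ (a0 m) 0 ⊔ VG φ (a0 m) l ≤
      (r • VG φ (a0 m) 0 ⊔ VG φ (a0 m) l').comap (LinearMap.lsmul B _ (κ ^ c)) := by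
    refine sup_le (fun x hx => Submodule.smul_mem _ _ (Submodule.mem_sup_left hx))
      ((h.V_gen l l').trans (sup_le (Submodule.smul_le.2 fun z hz x hx => ?_)
        fun x hx => Submodule.smul_mem _ _ (Submodule.mem_sup_right hx)))
    rw [Submodule.mem_comap, LinearMap.lsmul_apply, smul_smul]
    exact h.smul_mem_mv r (by omega) (hI z hz) hx
  rw [h0, h0, rr_add μ hle (h.sup_le_mv r l),
    h.null_mv μ hν l' le_sup_right (h.sup_le_mv r l) c key, zero_add]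

/-- Superadditivity from the almost vanishing of the first homology. -/
theorem Geo.h0_add_le (h : Geo ξ φ) (μ : RLen B) {κ : B}
    (hν : (μ.nu κ).q (Ideal.span (Set.range ξ)) = 0) (r : Ideal B) (y z : B) {l l' : ℕ}
    (hl : l' ≤ l) (c : ℕ)
    (hy : ∀ v ∈ VG φ (a0 m) 0, y • v ∈ r • VG φ (a0 m) 0 ⊔ VG φ (a0 m) l →
      κ ^ c • v ∈ r • VG φ (a0 m) 0 ⊔ VG φ (a0 m) l') :
    h0 μ φ (r ⊔ Ideal.span {y}) l + h0 μ φ (r ⊔ Ideal.span {z}) l' ≤
      h0 μ φ (r ⊔ Ideal.span {y * z}) l := by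
  unfold h0
  have hle : (r ⊔ Ideal.span {y * z}) • VG φ (a0 m) 0 ⊔ VG φ (a0 m) l ≤
      (r ⊔ Ideal.span {y}) • VG φ (a0 m) 0 ⊔ VG φ (a0 m) l :=
    sup_le_sup_right (Submodule.smul_mono (sup_le_sup_left
      (Ideal.span_singleton_le_span_singleton.2 (dvd_mul_right y z)) _) le_rfl) _
  rw [rr_add μ hle (h.sup_le_mv _ l), add_comm]
  refine add_le_add ?_ le_rfl
  have h1 : (VG φ (a0 m) 0).map (LinearMap.lsmul B _ y) ≤
      (r ⊔ Ideal.span {y}) • VG φ (a0 m) 0 ⊔ VG φ (a0 m) l := by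
    rintro _ ⟨v, hv, rfl⟩
    exact Submodule.mem_sup_left (Submodule.smul_mem_smul
      (Ideal.mem_sup_right (Ideal.mem_span_singleton_self y)) hv)
  refine le_trans ?_ (rr_mono μ le_rfl h1)
  rw [← rr_map, ← rr_inf μ (Submodule.comap _ _)]
  refine (rr_triangle μ _ _ _).trans (le_of_eq ((congrArg (· + _) ?_).trans (zero_add _)))
  refine h.null_mv μ hν l' le_sup_right inf_le_right c fun v hv => ?_
  have h2 : y • v ∈ (r ⊔ Ideal.span {y * z}) • VG φ (a0 m) 0 ⊔ VG φ (a0 m) l := hv.1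
  rw [Submodule.sup_smul, sup_right_comm, Submodule.ideal_span_singleton_smul] at h2
  obtain ⟨p, hp, q, hq, e⟩ := Submodule.mem_sup.1 h2
  obtain ⟨w, hw, rfl⟩ := (Submodule.mem_smul_pointwise_iff_exists _ _ _).1 hq
  have h3 := hy (v - z • w) (Submodule.sub_mem _ hv.2 (Submodule.smul_mem _ _ hw)) (by
    rw [smul_sub, ← e, smul_smul, add_sub_cancel_right]
    exact hp)
  have h4 : κ ^ c • v = κ ^ c • (v - z • w) + z • κ ^ c • w := by
    rw [smul_sub, smul_comm z, sub_add_cancel]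
  rw [h4]
  refine Submodule.add_mem _ (SetLike.le_def.1
    (sup_le_sup_right (Submodule.smul_mono le_sup_left le_rfl) _) h3) (Submodule.mem_sup_left ?_)
  exact Submodule.smul_mem_smul (Ideal.mem_sup_right (Ideal.mem_span_singleton_self z))
    (Submodule.smul_mem _ _ hw)

end Vale.Agent.P202
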