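import Vale.Agent.P202.MCmp
import Vale.Agent.P202.MV

/-! The key inequality and acyclicity. -/

namespace Vale.Agent.P202

open scoped ENNReal

universe u

variable {B : Type u} [CommRing B] {m : ℕ} {E : Type u} [AddCommGroup E] [Module B E]
  {ξ : Fin (m + 1) → B} {φ : ℤ → Lau B m →ₗ[B] E} {K : MC B} {κ : B} {N t M' : ℕ} {μ : RLen B}

/-- The complex of global sections. -/
noncomputable abbrev VT_key (K : MC B) (φ : ℤ → Lau B m →ₗ[B] E) :
    ℤ → Submodule B (K.ι → (Fin m → Ch) → E) :=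
  K.T fun _ => VF φ (a0 m) 0

theorem VF_le_VG_key (s n : ℤ) : VF φ (a0 m) s n ≤ VG φ (a0 m) s := by
  unfold VF
  split_ifs
  · exact le_rfl
  · exact bot_le

theorem dt_key (x : K.ι → (Fin m → Ch) → E) (hx : ∀ a, x a ∈ VG φ (a0 m) 0) (a : K.ι) :
    K.dt (cd B m E) x a = ∑ b, K.mat a b • x b := by
  have h0 : cd B m E (x a) = 0 := (hx a).2
  rw [MC.dt, LinearMap.add_apply, Pi.add_apply, MC.sg_apply, MC.act_apply, h0, smul_zero, zero_add]

theorem isCx_sup_key {E' : Type u} [AddCommGroup E'] [Module B E'] {d : E' →ₗ[B] E'}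
    {F G : ℤ → Submodule B E'} (hF : IsCx d F) (hG : IsCx d G) : IsCx d (F ⊔ G) := fun n => by
  rw [Pi.sup_apply, Pi.sup_apply, Submodule.map_sup]
  exact sup_le_sup (hF n) (hG n)

theorem X_isCx_key (K : MC B) (φ : ℤ → Lau B m →ₗ[B] E) (l : ℤ) :
    IsCx (K.dt (cd B m E)) (XG K φ (a0 m) fun _ => l) :=
  (MC.fit_const K (cech_isCx (DG_cmono φ _ l))).isCx

theorem Geo.exa_key (h : Geo ξ φ) (hK : HK K ξ κ N t (Ideal.span (Set.range ξ) ^ M')) {l : ℤ}
    (h0 : 0 ≤ l) (hl : l ≤ M') (n : ℤ) :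
    Zc (K.dt (cd B m E)) (VT_key K φ ⊔ XG K φ (a0 m) fun _ => l) (XG K φ (a0 m) fun _ => 0) n ≤
      Bc (K.dt (cd B m E)) (VT_key K φ ⊔ XG K φ (a0 m) fun _ => l)
        (XG K φ (a0 m) fun _ => 0) n := by
  have e : VT_key K φ ⊔ (XG K φ (a0 m) fun _ => l) =
      K.T fun _ => VF φ (a0 m) 0 ⊔ Cech (DG φ (a0 m) l) := (K.T_sup _ _).symm
  have hsq : Sq (K.dt (cd B m E)) (VT_key K φ ⊔ XG K φ (a0 m) fun _ => l)
      (XG K φ (a0 m) fun _ => 0) :=
    (h.XG_sq hK (a0 m) (lt := fun _ => 0) (lb := fun _ => l) fun _ _ _ _ => by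
      rw [zero_add]; exact hl).mono le_sup_right le_rfl
  rw [← hr_triv_eq_zero_iff]
  rw [e] at hsq ⊢
  refine MC.T_hr_zero _ hK.len
    (MC.fit_const K (isCx_sup_key (VF_isCx φ _ 0) (cech_isCx (DG_cmono φ _ l))))
    (MC.fit_const K (cech_isCx (DG_cmono φ _ 0)))
    (fun _ => sup_le (VF_le φ _ 0) (cech_mono (h.anti _ h0))) hsq n fun i _ => ?_
  exact hr_eq_zero_of_exa _ (h.V_exa (fun j => Int.natCast_nonneg _) le_rfl h0) _

theorem mem_rowI_smul_key {E' : Type u} [AddCommGroup E'] [Module B E'] {V : Submodule B E'}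
    {z : E'} (hz : z ∈ K.rowI • V) : ∃ v : K.ι → E', (∀ b, v b ∈ V) ∧
      (∀ b, K.deg b ≠ 1 → v b = 0) ∧ z = ∑ b, K.mat K.o b • v b := by
  refine Submodule.smul_induction_on hz (fun r hr v hv => ?_) ?_
  · obtain ⟨c, rfl⟩ := (Submodule.mem_span_range_iff_exists_fun B).1 hr
    refine ⟨fun b => if K.deg b = 1 then c b • v else 0, fun b => ?_, fun b hb => if_neg hb, ?_⟩
    · dsimp only
      split_ifs
      · exact V.smul_mem _ hv
      · exact V.zero_mem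
    · rw [Finset.sum_smul]
      refine Finset.sum_congr rfl fun b _ => ?_
      dsimp only
      split_ifs with hb
      · rw [smul_eq_mul, mul_comm, mul_smul]
      · have : K.mat K.o b = 0 := by_contra fun h0 =>
          hb (by rw [K.hom _ _ h0, (K.deg_o _).2 rfl])
        simp [this]
  · rintro _ _ ⟨v, h1, h2, rfl⟩ ⟨v', h1', h2', rfl⟩
    refine ⟨v + v', fun b => V.add_mem (h1 b) (h1' b), fun b hb => ?_, ?_⟩
    · rw [Pi.add_apply, h2 b hb, h2' b hb, add_zero]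
    · simp only [Pi.add_apply, smul_add, Finset.sum_add_distrib]

theorem row_zero_key {E' : Type u} [AddCommGroup E'] [Module B E'] {v : K.ι → E'}
    (hv : ∀ b, K.deg b ≠ 1 → v b = 0) {a : K.ι} (ha : a ≠ K.o) : ∑ b, K.mat a b • v b = 0 := by
  refine Finset.sum_eq_zero fun b _ => ?_
  by_cases hb : K.deg b = 1
  · have : K.mat a b = 0 := by_contra fun h0 => ha ((K.deg_o a).1 (by
      have := K.hom _ _ h0
      omega))
    rw [this, zero_smul]
  · rw [hv b hb, smul_zero]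

theorem single_mem_key {l : ℤ} {v : (Fin m → Ch) → E} (hv : v ∈ VG φ (a0 m) l) :
    Pi.single K.o v ∈ XG K φ (a0 m) (fun _ => l) 0 := by
  refine K.mem_T.2 fun a => ?_
  by_cases ha : a = K.o
  · rw [ha, Pi.single_eq_same, (K.deg_o _).2 rfl]
    exact hv.1
  · rw [Pi.single_eq_of_ne ha]
    exact zero_mem _

theorem deg_one_mem_key {v : K.ι → (Fin m → Ch) → E} (h1 : ∀ b, v b ∈ VG φ (a0 m) 0)
    (h2 : ∀ b, K.deg b ≠ 1 → v b = 0) : v ∈ VT_key K φ 1 := by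
  refine K.mem_T.2 fun a => ?_
  by_cases ha : K.deg a = 1
  · rw [ha, VF, if_pos (by simp)]
    exact h1 a
  · rw [h2 a ha]
    exact zero_mem _

theorem VT_le_key (K : MC B) (φ : ℤ → Lau B m →ₗ[B] E) :
    VT_key K φ ≤ XG K φ (a0 m) fun _ => 0 := K.T_mono fun _ => VF_le φ _ 0

theorem Geo.van_key (h : Geo ξ φ) (hK : HK K ξ κ N t (Ideal.span (Set.range ξ) ^ M'))
    (hM : Mb m N t ≤ M') : ∃ r : ℕ, ∀ n s : ℤ, n ≠ 0 → 0 ≤ s → s + ((m + 1) * t : ℕ) ≤ Lmax m t →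
      ∀ x ∈ Zc (K.dt (cd B m E)) (XG K φ (a0 m) fun _ => s + ((m + 1) * t : ℕ))
          (XG K φ (a0 m) fun _ => 0) n,
        κ ^ r • x ∈ Bc (K.dt (cd B m E)) (XG K φ (a0 m) fun _ => s)
          (XG K φ (a0 m) fun _ => 0) n := by
  have := h.van hK hM (a0 m) (Nat.zero_le N) (fun i s _ hs _ => by
    rw [a0_low s (by simpa using hs)]
    exact_mod_cast Nat.zero_le i) (fun i s hi hs hj => by
    rw [a0_high s (by simpa using hs) hj]
    omega)
  simpa only [Nat.cast_zero, mul_zero, neg_zero] using this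

theorem q_ne_top_key {I : Ideal B} (hν : (μ.nu κ).q I = 0) : μ.q I ≠ ⊤ := by
  have := rr_ne_top_of_nu μ κ (A := I) (B := ⊤) (by rw [rr_top]; exact hν)
  rwa [rr_top] at this

/-- For the Ulrich bundle the Euler characteristic is bounded by the zeroth homology. -/
theorem Geo.chat_le (h : Geo ξ φ) (hK : HK K ξ κ N t (Ideal.span (Set.range ξ) ^ M'))
    (hM : Mb m N t ≤ M') (hν : (μ.nu κ).q (Ideal.span (Set.range ξ)) = 0) :
    h0 μ φ K.rowI ((m + 1) * t : ℕ) ≠ ⊤ ∧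
      chat μ K φ t (a0 m) ≤ (h0 μ φ K.rowI ((m + 1) * t : ℕ)).toReal := by
  refine ⟨ne_top_of_le_ne_top ?_ (h.h0_le μ _ _), ?_⟩
  · refine ENNReal.mul_ne_top (ENNReal.natCast_ne_top _) (ne_top_of_le_ne_top ?_
      ((μ.q_anti (sup_le_sup_right bot_le _)).trans (μ.q_ideal_pow_le ⊥ ξ _)))
    rw [bot_sup_eq]
    exact ENNReal.mul_ne_top (ENNReal.natCast_ne_top _) (q_ne_top_key hν)
  have hs := h.sys hK hM hν (a0 m)
  obtain ⟨r, hr⟩ := h.van_key hK hM
  obtain ⟨M, hMd⟩ : ∃ M : ℕ, M = (m + 1) * t := ⟨_, rfl⟩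
  have hLm : Lmax m t = M * (4 * m + 14) := by rw [hMd, Lmax]
  have hM' : M + M * (4 * m + 14) ≤ M' := by
    rw [Mb, hLm, ← hMd] at hM
    omega
  have hM0 : (0 : ℤ) ≤ M := Int.natCast_nonneg _
  have hMm : (0 : ℤ) ≤ M * m := by positivity
  unfold chat
  rw [← hMd] at hs hr ⊢
  rw [hLm] at hs hr
  obtain ⟨h1, h2⟩ := hs.chi_eq (c := 2 * M) (by omega) (by push_cast; nlinarith) (hs.cx 0) le_rfl
    (hs.supp 0) hs.sq (fun n => hr_eq_zero_of_le _ n le_rfl) r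
    fun n s hn h3 h4 => hr n s hn (by omega) h4
  rw [(good_chi_of_zero μ fun n => hr_eq_zero_of_le μ n le_rfl).2, add_zero] at h2
  rw [h2]
  have hl0 : lv (M : ℤ) ((m + 1 : ℕ) : ℤ) (2 * M) 0 = ((M * (2 * m + 8) : ℕ) : ℤ) := by
    unfold lv; push_cast; ring
  have hl1 : lv (M : ℤ) ((m + 1 : ℕ) : ℤ) (2 * M) (0 - 1) = ((M * (2 * m + 10) : ℕ) : ℤ) := by
    unfold lv; push_cast; ring
  obtain ⟨c, hc⟩ := hK.nh
  have e := h.h0_indep μ hν (r := K.rowI) (c := c) (t := t) (M' := M')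
    (fun j => K.nh_le _ (hc j)) (l := M) (l' := M * (2 * m + 8)) hMd.ge (by nlinarith)
    (by nlinarith)
  have hfin : h0 μ φ K.rowI M ≠ ⊤ := by
    refine ne_top_of_le_ne_top ?_ (h.h0_le μ _ _)
    refine ENNReal.mul_ne_top (ENNReal.natCast_ne_top _) (ne_top_of_le_ne_top ?_
      ((μ.q_anti (sup_le_sup_right bot_le _)).trans (μ.q_ideal_pow_le ⊥ ξ _)))
    rw [bot_sup_eq]
    exact ENNReal.mul_ne_top (ENNReal.natCast_ne_top _) (q_ne_top_key hν)
  refine ENNReal.toReal_mono hfin ?_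
  rw [hs.hr_qb μ (hs.anti 0 _ (by omega)) 0, hl0, hl1, e]
  refine le_trans (rr_le_of_le_sup μ ?_ ?_)
    (rr_map_le μ (LinearMap.single B (fun _ : K.ι => (Fin m → Ch) → E) K.o) _ _)
  · rw [Submodule.map_sup]
    refine sup_le ?_ ?_
    · rintro _ ⟨z, hz, rfl⟩
      obtain ⟨v, v1, v2, rfl⟩ := mem_rowI_smul_key hz
      refine Submodule.mem_sup_right ⟨v, VT_le_key K φ _ (deg_one_mem_key v1 v2), ?_⟩
      funext a
      rw [dt_key v v1, LinearMap.single_apply]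
      by_cases ha : a = K.o
      · rw [ha, Pi.single_eq_same]
      · rw [Pi.single_eq_of_ne ha, row_zero_key v2 ha]
    · rintro _ ⟨z, hz, rfl⟩
      exact Submodule.mem_sup_left (single_mem_key hz)
  · refine le_trans (inf_le_inf_left _ (Submodule.comap_mono (le_sup_of_le_right
      (hs.anti _ _ (by push_cast; nlinarith) _)))) ((h.exa_key hK (Int.natCast_nonneg _)
        (l := (M * (2 * m + 8) : ℕ)) (by norm_cast; nlinarith) 0).trans ?_)
    refine sup_le (sup_le (le_sup_of_le_right fun x hx => ?_) (le_sup_of_le_left le_sup_left))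
      (le_sup_of_le_left le_sup_right)
    refine ⟨x K.o, VF_le_VG_key _ _ (K.mem_T.1 hx K.o), funext fun a => ?_⟩
    rw [LinearMap.single_apply]
    by_cases ha : a = K.o
    · rw [ha, Pi.single_eq_same]
    · have h3 := K.mem_T.1 hx a
      have h4 : K.deg a ≠ 0 := fun h0 => ha ((K.deg_o a).1 h0)
      rw [VF, if_neg (by omega)] at h3
      rw [Pi.single_eq_of_ne ha]
      exact ((Submodule.mem_bot B).1 h3).symm

/-- Almost acyclicity in degree one. -/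
theorem Geo.acyc (h : Geo ξ φ) {y : B}
    (hK : HK (K.cone y) ξ κ N t (Ideal.span (Set.range ξ) ^ M')) (hM : Mb m N t ≤ M') :
    ∃ c : ℕ, ∀ v ∈ VG φ (a0 m) 0,
      y • v ∈ K.rowI • VG φ (a0 m) 0 ⊔ VG φ (a0 m) (2 * ((m + 1) * t) : ℕ) →
      κ ^ c • v ∈ K.rowI • VG φ (a0 m) 0 ⊔ VG φ (a0 m) ((m + 1) * t : ℕ) := by
  obtain ⟨r, hr⟩ := h.van_key hK hM
  refine ⟨r, fun v hv hy => ?_⟩
  obtain ⟨M, hMd⟩ : ∃ M : ℕ, M = (m + 1) * t := ⟨_, rfl⟩
  have hLm : Lmax m t = M * (4 * m + 14) := by rw [hMd, Lmax]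
  have hM' : M + M * (4 * m + 14) ≤ M' := by
    rw [Mb, hLm, ← hMd] at hM
    omega
  have hM0 : (0 : ℤ) ≤ M := Int.natCast_nonneg _
  have hMm : (0 : ℤ) ≤ M * m := by positivity
  rw [← hMd] at hr hy ⊢
  rw [hLm] at hr
  obtain ⟨z, hz, w, hw, e⟩ := Submodule.mem_sup.1 hy
  obtain ⟨u, u1, u2, rfl⟩ := mem_rowI_smul_key hz
  let x : (K.cone y).ι → (Fin m → Ch) → E := Sum.elim (-u) (Pi.single K.o v)
  have hs : ∀ a, (Pi.single K.o v : K.ι → (Fin m → Ch) → E) a ∈ VG φ (a0 m) 0 := fun a => by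
    by_cases ha : a = K.o
    · rw [ha, Pi.single_eq_same]; exact hv
    · rw [Pi.single_eq_of_ne ha]; exact zero_mem _
  have x1 : ∀ a, x a ∈ VG φ (a0 m) 0 := by
    rintro (a | a)
    · exact neg_mem (u1 a)
    · exact hs a
  have x2 : ∀ a, (K.cone y).deg a ≠ 1 → x a = 0 := by
    rintro (a | a) ha
    · exact neg_eq_zero.2 (u2 a ha)
    · refine Pi.single_eq_of_ne (fun h0 => ha ?_) _
      show K.deg a + 1 = 1
      rw [(K.deg_o a).2 h0]
  have x3 : x ∈ VT_key (K.cone y) φ 1 := deg_one_mem_key x1 x2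
  have x4 : (K.cone y).dt (cd B m E) x = Pi.single (K.cone y).o w := by
    funext a
    rw [dt_key x x1]
    by_cases ha : a = (K.cone y).o
    · rw [ha, Pi.single_eq_same]
      show ∑ b : K.ι ⊕ K.ι, _ = _
      rw [Fintype.sum_sum_type]
      show ∑ b, K.mat K.o b • (-u b) +
        ∑ b, (y * (1 : Matrix K.ι K.ι B) K.o b) • (Pi.single K.o v : K.ι → _) b = w
      rw [Finset.sum_eq_single K.o (f := fun b => (y * (1 : Matrix K.ι K.ι B) K.o b) •
        (Pi.single K.o v : K.ι → _) b) (fun b _ hb => by rw [Pi.single_eq_of_ne hb, smul_zero])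
        (by simp), Matrix.one_apply_eq, mul_one, Pi.single_eq_same, ← e]
      simp only [smul_neg, Finset.sum_neg_distrib]
      abel
    · rw [Pi.single_eq_of_ne ha, row_zero_key x2 ha]
  have x5 := hr 1 M one_ne_zero hM0 (by push_cast; nlinarith) x ⟨VT_le_key _ φ _ x3, by
    show (K.cone y).dt (cd B m E) x ∈ XG (K.cone y) φ (a0 m) (fun _ => (M : ℤ) + M) 0
    rw [x4]
    refine single_mem_key ?_
    rwa [Nat.cast_mul, Nat.cast_ofNat, two_mul] at hw⟩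
  obtain ⟨a, ha, _, ⟨b, hb, rfl⟩, e2⟩ := Submodule.mem_sup.1 x5
  have b0 := h.exa_key hK hM0 (by norm_cast; omega) 2 (x := b) ⟨hb, by
    show (K.cone y).dt (cd B m E) b ∈ VT_key (K.cone y) φ 1 ⊔ XG (K.cone y) φ (a0 m) (fun _ => M) 1
    rw [← eq_sub_iff_add_eq'] at e2
    rw [e2]
    exact sub_mem (Submodule.mem_sup_left (Submodule.smul_mem _ _ x3))
      (Submodule.mem_sup_right ha)⟩
  obtain ⟨b', hb', _, ⟨g, hg, rfl⟩, rfl⟩ := Submodule.mem_sup.1 b0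
  obtain ⟨b1, hb1, b2, hb2, rfl⟩ := Submodule.mem_sup.1 hb'
  have b3 : (K.cone y).dt (cd B m E) b2 ∈ XG (K.cone y) φ (a0 m) (fun _ => M) 1 :=
    X_isCx_key _ φ _ 2 ⟨b2, hb2, rfl⟩
  have b4 : (K.cone y).dt (cd B m E) ((K.cone y).dt (cd B m E) g) ∈
      XG (K.cone y) φ (a0 m) (fun _ => M) 1 :=
    h.XG_sq hK (a0 m) (lt := fun _ => 0) (lb := fun _ => M) (fun _ _ _ _ => by
      norm_cast; omega) 3 g hg
  have b5 : κ ^ r • x - (K.cone y).dt (cd B m E) b1 ∈ XG (K.cone y) φ (a0 m) (fun _ => M) 1 := by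
    rw [← e2, map_add, map_add]
    have e3 : ∀ p q r s : (K.cone y).ι → (Fin m → Ch) → E, p + (q + r + s) - q = p + r + s :=
      fun p q r s => by abel
    rw [e3]
    exact add_mem (add_mem ha b3) b4
  have b6 : ∀ a, b1 a ∈ VG φ (a0 m) 0 := fun a => VF_le_VG_key _ _ ((K.cone y).mem_T.1 hb1 a)
  have b7 : (K.cone y).dt (cd B m E) b1 (Sum.inr K.o) ∈ K.rowI • VG φ (a0 m) 0 := by
    rw [show (K.cone y).dt (cd B m E) b1 (Sum.inr K.o) = _ from dt_key b1 b6 (Sum.inr K.o)]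
    refine sum_mem ?_
    rintro (a | a) _
    · show (0 : B) • _ ∈ _
      rw [zero_smul]
      exact zero_mem _
    · exact Submodule.smul_mem_smul (neg_mem (Ideal.subset_span ⟨a, rfl⟩)) (b6 _)
  have b8 := (K.cone y).mem_T.1 b5 (Sum.inr K.o)
  have b9 : (κ ^ r • x - (K.cone y).dt (cd B m E) b1) (Sum.inr K.o) =
      κ ^ r • v - (K.cone y).dt (cd B m E) b1 (Sum.inr K.o) := by
    show κ ^ r • (Pi.single K.o v : K.ι → _) K.o - _ = _
    rw [Pi.single_eq_same]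
  have b10 : (1 : ℤ) - ((K.cone y).deg (Sum.inr K.o) : ℕ) = 0 := by
    show (1 : ℤ) - ((K.deg K.o + 1 : ℕ) : ℤ) = 0
    rw [(K.deg_o _).2 rfl]
    rfl
  rw [b9, b10] at b8
  have b11 := h.VF_inf (a0 m) hM0 0
  rw [VF, VF, if_pos rfl, if_pos rfl] at b11
  have b12 : κ ^ r • v - (K.cone y).dt (cd B m E) b1 (Sum.inr K.o) ∈ VG φ (a0 m) M := by
    rw [← b11]
    exact ⟨sub_mem (Submodule.smul_mem _ _ hv) (Submodule.smul_le_right b7), b8⟩
  exact Submodule.mem_sup.2 ⟨_, b7, _, b12, add_sub_cancel _ _⟩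

theorem Geo.key (h : Geo ξ φ) {y : B} {A : ℕ} (hL : K.Len m)
    (hK : HK K ξ κ N t (Ideal.span (Set.range ξ) ^ M' ⊔ Ideal.span {ξ 0 ^ A}))
    (hK' : HK (K.cone y) ξ κ N t (Ideal.span (Set.range ξ) ^ M')) (hA : (m + 1) * N ≤ A)
    (hM : Mb m N t ≤ M') (hν : (μ.nu κ).q (Ideal.span (Set.range ξ)) = 0) (hN : 1 ≤ N) :
    ((m.factorial * N ^ (m + 1) : ℕ) : ℝ≥0∞) * μ.q (Ideal.span (Set.range ξ)) ≤
      h0 μ φ (K.cone y).rowI ((m + 1) * t : ℕ) := by
  have h1 := h.dec hK' hM hν hN (MC.sum_rk_cone hL y)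
  obtain ⟨h2, h3⟩ := h.chat_le hK' hM hν
  have h4 : ∀ i0 : Fin (m + 1), chat μ (K.cone y) φ t (bb N i0) = chat μ (K.cone y) φ t (a0 m) :=
    fun i0 => h.cmp hK hK' hM hν (a0_le_bb hN i0) fun j => by
      have h5 := (le_abs_self _).trans (abs_bb_le hN i0 j)
      have h6 : ((m : ℤ) + 1) * N ≤ A := by exact_mod_cast hA
      have h7 : 0 ≤ a0 m j := Int.natCast_nonneg _
      omega
  simp only [h4, Finset.sum_const, Finset.card_univ, Fintype.card_fin, nsmul_eq_mul] at h1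
  rw [← ENNReal.toReal_le_toReal
    (ENNReal.mul_ne_top (ENNReal.natCast_ne_top _) (q_ne_top_key hν)) h2, ENNReal.toReal_mul,
    ENNReal.toReal_natCast]
  refine le_trans ?_ h3
  rw [Nat.factorial_succ] at h1
  push_cast at h1 ⊢
  have hm : (0 : ℝ) < (m : ℝ) + 1 := by positivity
  refine le_of_mul_le_mul_left ?_ hm
  linarith

end Vale.Agent.P202
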