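import Vale.Agent.P202.MDefs
import Vale.Agent.P202.Len

/-! Basic properties of real valued length functions (port of `Len.lean`). -/

namespace Vale.Agent.P202

open IsLocalRing TensorProduct
open scoped ENNReal

universe u

variable {S : Type u} [CommRing S] {E : Type u} [AddCommGroup E] [Module S E]
  {E' : Type u} [AddCommGroup E'] [Module S E'] (μ : RLen S)

theorem RLen.equiv (e : E ≃ₗ[S] E') : μ.len E = μ.len E' := by
  have h := μ.add_of_exact (e : E →ₗ[S] E') (0 : E' →ₗ[S] PUnit.{u + 1}) e.injective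
    (fun x => ⟨0, Subsingleton.elim _ _⟩)
    (fun y => ⟨fun _ => e.surjective y, fun _ => rfl⟩)
  rw [h, μ.zero PUnit.{u + 1}, add_zero]

theorem RLen.le_of_injective (f : E →ₗ[S] E') (hf : Function.Injective f) :
    μ.len E ≤ μ.len E' := by
  have h := μ.add_of_exact f (LinearMap.range f).mkQ hf (Submodule.mkQ_surjective _)
    (LinearMap.exact_map_mkQ_range f)
  rw [h]
  exact le_self_add

theorem RLen.le_of_surjective (f : E →ₗ[S] E') (hf : Function.Surjective f) :
    μ.len E' ≤ μ.len E := by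
  have h := μ.add_of_exact (LinearMap.ker f).subtype f (Submodule.subtype_injective _) hf
    (LinearMap.exact_subtype_ker_map f)
  rw [h]
  exact le_add_self

theorem rr_eq_len_map (φ : E →ₗ[S] E') (A B : Submodule S E) (h : LinearMap.ker φ = A) :
    rr μ A B = μ.len (B.map φ) :=
  μ.equiv (rlEquiv φ A B h)

theorem rr_eq_zero_of_le {A B : Submodule S E} (h : B ≤ A) : rr μ A B = 0 := by
  have h1 : B.map A.mkQ = ⊥ := (map_mkQ_eq_bot_iff A B).2 h
  unfold rr
  rw [h1]
  exact μ.zero _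

theorem rr_sup (A B : Submodule S E) : rr μ A (A ⊔ B) = rr μ A B := by
  unfold rr
  rw [Submodule.map_sup, Submodule.mkQ_map_self, bot_sup_eq]

theorem rr_inf (A B : Submodule S E) : rr μ (A ⊓ B) B = rr μ A B := by
  have key : ∀ C : Submodule S E, rr μ C B = rr μ (C.comap B.subtype) ⊤ := by
    intro C
    rw [rr_eq_len_map μ (C.mkQ ∘ₗ B.subtype) (C.comap B.subtype) ⊤
      (by rw [LinearMap.ker_comp, Submodule.ker_mkQ]), Submodule.map_comp, Submodule.map_top,
      Submodule.range_subtype]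
    rfl
  rw [key, key A, Submodule.comap_inf, Submodule.comap_subtype_self, inf_top_eq]

theorem rr_add {A B C : Submodule S E} (hAB : A ≤ B) (hBC : B ≤ C) :
    rr μ A C = rr μ A B + rr μ B C := by
  have hf : B.map A.mkQ ≤ C.map A.mkQ := Submodule.map_mono hBC
  have hg : ∀ x ∈ C.map A.mkQ, Submodule.factor hAB x ∈ C.map B.mkQ := by
    rintro _ ⟨c, hc, rfl⟩
    exact ⟨c, hc, rfl⟩
  refine μ.add_of_exact (Submodule.inclusion hf) ((Submodule.factor hAB).restrict hg)
    (Submodule.inclusion_injective hf) ?_ ?_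
  · rintro ⟨_, c, hc, rfl⟩
    exact ⟨⟨A.mkQ c, c, hc, rfl⟩, rfl⟩
  · rintro ⟨_, c, hc, rfl⟩
    constructor
    · intro h
      have h1 : B.mkQ c = 0 := congrArg Subtype.val h
      have h2 : c ∈ B := by simpa using h1
      exact ⟨⟨A.mkQ c, c, h2, rfl⟩, rfl⟩
    · rintro ⟨⟨_, b, hb, rfl⟩, h⟩
      have h1 : A.mkQ b = A.mkQ c := congrArg Subtype.val h
      apply Subtype.ext
      change Submodule.factor hAB (A.mkQ c) = 0
      rw [← h1, Submodule.factor_mk]
      simpa using hb

theorem rr_anti_left {A A' : Submodule S E} (hA : A' ≤ A) (B : Submodule S E) :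
    rr μ A B ≤ rr μ A' B := by
  have hg : ∀ x ∈ B.map A'.mkQ, Submodule.factor hA x ∈ B.map A.mkQ := by
    rintro _ ⟨c, hc, rfl⟩
    exact ⟨c, hc, rfl⟩
  refine μ.le_of_surjective ((Submodule.factor hA).restrict hg) ?_
  rintro ⟨_, c, hc, rfl⟩
  exact ⟨⟨A'.mkQ c, c, hc, rfl⟩, rfl⟩

theorem rr_triangle (A B C : Submodule S E) : rr μ A C ≤ rr μ A B + rr μ B C := by
  have h1 : rr μ A C ≤ rr μ A (A ⊔ B ⊔ C) :=
    μ.le_of_injective (Submodule.inclusion (Submodule.map_mono le_sup_right))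
      (Submodule.inclusion_injective _)
  have h2 := rr_add μ (le_sup_left : A ≤ A ⊔ B) (le_sup_left : A ⊔ B ≤ A ⊔ B ⊔ C)
  rw [rr_sup, rr_sup] at h2
  have h3 : rr μ (A ⊔ B) C ≤ rr μ B C := rr_anti_left μ le_sup_right C
  rw [h2] at h1
  exact h1.trans (add_le_add le_rfl h3)

theorem rr_mono {A A' B B' : Submodule S E} (hA : A' ≤ A) (hB : B ≤ B') :
    rr μ A B ≤ rr μ A' B' := by
  have h1 : rr μ A' B ≤ rr μ A' B' :=
    μ.le_of_injective (Submodule.inclusion (Submodule.map_mono hB))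
      (Submodule.inclusion_injective _)
  exact (rr_anti_left μ hA B).trans h1

/-- The form in which subquotients are compared most often. -/
theorem rr_le_of_le_sup {A A' B B' : Submodule S E} (hA : A' ≤ A) (hB : B ≤ A ⊔ B') :
    rr μ A B ≤ rr μ A' B' := by
  have h1 := rr_mono μ (le_refl A) hB
  rw [rr_sup] at h1
  exact h1.trans (rr_anti_left μ hA B')

theorem rr_map (φ : E →ₗ[S] E') (A' : Submodule S E') (B : Submodule S E) :
    rr μ (A'.comap φ) B = rr μ A' (B.map φ) := by
  rw [rr_eq_len_map μ (A'.mkQ ∘ₗ φ) (A'.comap φ) B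
    (by rw [LinearMap.ker_comp, Submodule.ker_mkQ]), Submodule.map_comp]
  rfl

theorem rr_map_le (φ : E →ₗ[S] E') (A B : Submodule S E) :
    rr μ (A.map φ) (B.map φ) ≤ rr μ A B := by
  rw [← rr_map]
  exact rr_mono μ (Submodule.le_comap_map _ _) le_rfl

theorem rr_top (A : Submodule S E) : rr μ A ⊤ = μ.len (E ⧸ A) := by
  unfold rr
  rw [Submodule.map_top, Submodule.range_mkQ]
  exact μ.equiv Submodule.topEquiv

theorem rr_bot (B : Submodule S E) : rr μ ⊥ B = μ.len B := by
  rw [rr_eq_len_map μ LinearMap.id ⊥ B LinearMap.ker_id, Submodule.map_id]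

theorem rr_chain (F : ℕ → Submodule S E) (r : ℕ) (h : ∀ i < r, F i ≤ F (i + 1)) :
    rr μ (F 0) (F r) = ∑ i ∈ Finset.range r, rr μ (F i) (F (i + 1)) := by
  have key : ∀ k ≤ r, F 0 ≤ F k ∧
      rr μ (F 0) (F k) = ∑ i ∈ Finset.range k, rr μ (F i) (F (i + 1)) := by
    intro k
    induction k with
    | zero => intro _; exact ⟨le_rfl, by simpa using rr_eq_zero_of_le μ le_rfl⟩
    | succ k ih =>
      intro hk
      obtain ⟨h1, h2⟩ := ih (by omega)
      have h3 := h k (by omega)
      exact ⟨h1.trans h3, by rw [Finset.sum_range_succ, ← h2, rr_add μ h1 h3]⟩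
  exact (key r le_rfl).2

theorem rr_sup_le (A B C : Submodule S E) : rr μ A (B ⊔ C) ≤ rr μ A B + rr μ A C := by
  have h1 := rr_triangle μ A (A ⊔ B) (B ⊔ C)
  rw [rr_sup] at h1
  have h2 : rr μ (A ⊔ B) (B ⊔ C) ≤ rr μ A C := by
    rw [← rr_sup μ (A ⊔ B) (B ⊔ C), show A ⊔ B ⊔ (B ⊔ C) = A ⊔ B ⊔ C by
      rw [← sup_assoc, sup_assoc A B B, sup_idem], rr_sup]
    exact rr_mono μ le_sup_left le_rfl
  exact h1.trans (add_le_add le_rfl h2)

theorem RLen.len_prod : μ.len (E × E') = μ.len E + μ.len E' :=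
  μ.add_of_exact _ _ LinearMap.inl_injective LinearMap.snd_surjective .inl_snd

theorem RLen.len_pi_mlen : ∀ {ι : Type} [Fintype ι]
    (M : ι → Type u) [∀ i, AddCommGroup (M i)] [∀ i, Module S (M i)],
    μ.len (Π i, M i) = ∑ i, μ.len (M i) := by
  apply Fintype.induction_empty_option
  · intro α β _ e IH M _ _
    let _ : Fintype α := .ofEquiv β e.symm
    rw [← μ.equiv (LinearEquiv.piCongrLeft S M e), IH, e.sum_comp (μ.len <| M ·)]
  · intro M _ _
    simp [μ.zero]
  · intro ι _ IH M _ _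
    rw [μ.equiv (LinearEquiv.piOptionEquivProd _), μ.len_prod, IH, add_comm,
      Fintype.sum_option, add_comm]

theorem RLen.len_pi {ι : Type} [Fintype ι] (M : ι → Type u) [∀ i, AddCommGroup (M i)]
    [∀ i, Module S (M i)] : μ.len (Π i, M i) = ∑ i, μ.len (M i) :=
  μ.len_pi_mlen M

theorem rr_pi {ι : Type} [Fintype ι] (A B : ι → Submodule S E) :
    rr μ (Submodule.pi Set.univ A) (Submodule.pi Set.univ B) = ∑ i, rr μ (A i) (B i) := by
  let φ : (ι → E) →ₗ[S] (Π i, E ⧸ A i) :=
    LinearMap.pi fun i => (A i).mkQ ∘ₗ LinearMap.proj i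
  have hker : LinearMap.ker φ = Submodule.pi Set.univ A := by
    ext x
    simp [φ, Submodule.mem_pi, funext_iff]
  rw [rr_eq_len_map μ φ _ _ hker]
  have hψ : ∀ i, ∀ x : (Submodule.pi Set.univ B).map φ, x.1 i ∈ (B i).map (A i).mkQ := by
    rintro i ⟨_, x, hx, rfl⟩
    exact ⟨x i, hx i trivial, rfl⟩
  let ψ : (Submodule.pi Set.univ B).map φ →ₗ[S] (Π i, (B i).map (A i).mkQ) :=
    LinearMap.pi fun i => LinearMap.codRestrict _
      ((LinearMap.proj i : (Π i, E ⧸ A i) →ₗ[S] E ⧸ A i) ∘ₗ Submodule.subtype _) (hψ i)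
  have hbij : Function.Bijective ψ := by
    constructor
    · intro x y hxy
      apply Subtype.ext
      funext i
      exact congrArg Subtype.val (congrFun hxy i)
    · intro z
      choose w hw hw' using fun i => (z i).2
      refine ⟨⟨φ w, w, fun i _ => hw i, rfl⟩, ?_⟩
      funext i
      exact Subtype.ext (hw' i)
  rw [μ.equiv (LinearEquiv.ofBijective ψ hbij), μ.len_pi]
  rfl

theorem rr_coord {ι : Type} [Fintype ι] (p : ι → Prop) [DecidablePred p] (A B : Submodule S E) :
    rr μ (Coord p A) (Coord p B) = ((Finset.univ.filter p).card : ℝ≥0∞) * rr μ A B := by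
  unfold Coord
  rw [rr_pi]
  have h : ∀ i, rr μ (if p i then A else ⊥) (if p i then B else ⊥) =
      if p i then rr μ A B else 0 := by
    intro i
    by_cases hi : p i
    · simp [hi]
    · simp [hi, rr_eq_zero_of_le μ (le_refl (⊥ : Submodule S E))]
  simp only [h]
  rw [← Finset.sum_filter, Finset.sum_const, nsmul_eq_mul]

theorem RLen.q_anti {I J : Ideal S} (h : I ≤ J) : μ.q J ≤ μ.q I := by
  rw [RLen.q, RLen.q, ← rr_top, ← rr_top]
  exact rr_anti_left μ h ⊤

theorem RLen.q_top : μ.q ⊤ = 0 := by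
  rw [RLen.q, ← rr_top]
  exact rr_eq_zero_of_le μ le_rfl

/-- A cyclic subquotient. -/
theorem rr_span_singleton (A : Submodule S E) (x : E) :
    rr μ A (Submodule.span S {x}) = μ.q (A.colon {x}) := by
  have h1 : A.colon {x} = A.comap (LinearMap.toSpanSingleton S E x) := by
    ext z
    simp [Submodule.mem_colon_singleton]
  rw [RLen.q, ← rr_top, h1, rr_map, Submodule.map_top, LinearMap.range_toSpanSingleton]

/-- A subquotient generated by a finite family and killed by `J`. -/
theorem rr_span_le {ι : Type} [Fintype ι] (A : Submodule S E) (x : ι → E) (J : Ideal S)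
    (h : ∀ i, ∀ z ∈ J, z • x i ∈ A) :
    rr μ A (Submodule.span S (Set.range x)) ≤ (Fintype.card ι : ℝ≥0∞) * μ.q J := by
  classical
  have key : ∀ s : Finset ι,
      rr μ A (Submodule.span S (x '' s)) ≤ (s.card : ℝ≥0∞) * μ.q J := by
    intro s
    induction s using Finset.induction_on with
    | empty => simp [rr_eq_zero_of_le μ (bot_le : ⊥ ≤ A)]
    | insert i s hi ih =>
      rw [Finset.coe_insert, Set.image_insert_eq, Submodule.span_insert,
        Finset.card_insert_of_notMem hi, Nat.cast_succ, add_mul, one_mul, add_comm]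
      refine (rr_sup_le μ _ _ _).trans (add_le_add ?_ ih)
      rw [rr_span_singleton]
      exact μ.q_anti fun z hz => Submodule.mem_colon_singleton.2 (h i z hz)
  simpa using key Finset.univ

theorem RLen.q_eq_add (I : Ideal S) (x : S) :
    μ.q I = μ.q (I ⊔ Ideal.span {x}) + μ.q (I.colon {x}) := by
  have h := rr_add μ (le_sup_left : I ≤ I ⊔ Ideal.span {x}) (le_top : _ ≤ ⊤)
  rw [rr_sup, rr_top, rr_top, Ideal.span, rr_span_singleton] at h
  rw [RLen.q, h, add_comm]

theorem RLen.q_mul_le (I : Ideal S) (x y : S) :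
    μ.q (I ⊔ Ideal.span {x * y}) ≤ μ.q (I ⊔ Ideal.span {x}) + μ.q (I ⊔ Ideal.span {y}) := by
  rw [μ.q_eq_add (I ⊔ Ideal.span {x * y}) x]
  refine add_le_add (μ.q_anti (sup_le_sup_right le_sup_left _)) (μ.q_anti (sup_le ?_ ?_))
  · intro z hz
    exact Submodule.mem_colon_singleton.2 (Submodule.mem_sup_left (I.mul_mem_right x hz))
  · rw [Ideal.span_singleton_le_iff_mem, Submodule.mem_colon_singleton, smul_eq_mul, mul_comm]
    exact Submodule.mem_sup_right (Ideal.mem_span_singleton_self _)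

theorem RLen.q_prod_le {ι : Type} (s : Finset ι) (I : Ideal S) (x : ι → S) :
    μ.q (I ⊔ Ideal.span {∏ i ∈ s, x i}) ≤ ∑ i ∈ s, μ.q (I ⊔ Ideal.span {x i}) := by
  classical
  induction s using Finset.induction_on with
  | empty => simp [μ.q_top]
  | insert i s hi ih =>
    rw [Finset.prod_insert hi, Finset.sum_insert hi]
    exact (μ.q_mul_le I _ _).trans (add_le_add le_rfl ih)

theorem RLen.q_pow_le (I : Ideal S) (x : S) (n : ℕ) :
    μ.q (I ⊔ Ideal.span {x ^ n}) ≤ n * μ.q (I ⊔ Ideal.span {x}) := by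
  simpa using μ.q_prod_le (Finset.range n) I fun _ => x

theorem RLen.q_pow_eq (I : Ideal S) (x : S) (hx : ∀ z, x * z ∈ I → z ∈ I) (n : ℕ) :
    μ.q (I ⊔ Ideal.span {x ^ n}) = n * μ.q (I ⊔ Ideal.span {x}) := by
  induction n with
  | zero => simp [μ.q_top]
  | succ n ih =>
    have e1 : I ⊔ Ideal.span {x ^ (n + 1)} ⊔ Ideal.span {x} = I ⊔ Ideal.span {x} := by
      rw [sup_assoc]
      congr 1
      exact sup_eq_right.2 (Ideal.span_singleton_le_span_singleton.2 (dvd_pow_self x (by omega)))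
    have e2 : (I ⊔ Ideal.span {x ^ (n + 1)}).colon {x} = I ⊔ Ideal.span {x ^ n} := by
      ext z
      rw [Submodule.mem_colon_singleton, smul_eq_mul]
      constructor
      · intro hz
        obtain ⟨a, ha, b, hb, hab⟩ := Submodule.mem_sup.1 hz
        obtain ⟨c, rfl⟩ := Ideal.mem_span_singleton'.1 hb
        have h1 : z - c * x ^ n ∈ I := hx _ (by
          rw [show x * (z - c * x ^ n) = a by rw [mul_sub, mul_comm x z, ← hab]; ring]
          exact ha)
        rw [show z = z - c * x ^ n + c * x ^ n by ring]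
        exact Submodule.add_mem_sup h1 (Ideal.mem_span_singleton'.2 ⟨c, rfl⟩)
      · intro hz
        obtain ⟨a, ha, b, hb, rfl⟩ := Submodule.mem_sup.1 hz
        obtain ⟨c, rfl⟩ := Ideal.mem_span_singleton'.1 hb
        rw [add_mul]
        exact Submodule.add_mem_sup (I.mul_mem_right x ha)
          (Ideal.mem_span_singleton'.2 ⟨c, by ring⟩)
    rw [μ.q_eq_add _ x, e1, e2, ih, Nat.cast_succ, add_mul, one_mul, add_comm]

/-- Powers of the generators. -/
theorem RLen.q_pows_le {ι : Type} [Fintype ι] (I : Ideal S) (x : ι → S) (L : ι → ℕ) :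
    μ.q (I ⊔ Ideal.span (Set.range fun i => x i ^ L i)) ≤
      ((∏ i, L i : ℕ) : ℝ≥0∞) * μ.q (I ⊔ Ideal.span (Set.range x)) := by
  classical
  have key : ∀ s : Finset ι, ∀ I : Ideal S,
      μ.q (I ⊔ Ideal.span ((fun i => x i ^ L i) '' s)) ≤
        ((∏ i ∈ s, L i : ℕ) : ℝ≥0∞) * μ.q (I ⊔ Ideal.span (x '' s)) := by
    intro s
    induction s using Finset.induction_on with
    | empty => simp
    | insert i s hi ih =>
      intro I
      rw [Finset.coe_insert, Set.image_insert_eq, Set.image_insert_eq, Ideal.span_insert,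
        Ideal.span_insert, Finset.prod_insert hi, Nat.cast_mul, mul_assoc, ← sup_assoc,
        sup_right_comm]
      refine (μ.q_pow_le _ _ _).trans (mul_le_mul_right ?_ _)
      rw [sup_right_comm, ← sup_assoc]
      exact ih _
  simpa using key Finset.univ I

/-- Powers of a finitely generated ideal. -/
theorem RLen.q_ideal_pow_le {ι : Type} [Fintype ι] (I : Ideal S) (x : ι → S) (r : ℕ) :
    μ.q (I ⊔ Ideal.span (Set.range x) ^ r) ≤
      ((r ^ Fintype.card ι : ℕ) : ℝ≥0∞) * μ.q (I ⊔ Ideal.span (Set.range x)) := by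
  refine le_trans (μ.q_anti (sup_le_sup_left ?_ I)) ((μ.q_pows_le I x fun _ => r).trans ?_)
  · rw [Ideal.span_le]
    rintro _ ⟨i, rfl⟩
    exact Ideal.pow_mem_pow (Ideal.subset_span (Set.mem_range_self i)) r
  · simp

end Vale.Agent.P202
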