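import Vale.Agent.P202.MDefs
import Vale.Agent.P202.MLim

/-! Reduction to prime ideals. -/

namespace Vale.Agent.P202

open IsLocalRing Filter Topology

universe u

section bridge

variable {A B : Type u} [CommRing A] [IsLocalRing A] [CommRing B] [IsLocalRing B]

theorem HJ_eq (π : A →+* B) (hπ : Function.Surjective π) (d : ℕ) :
    HJ A (RingHom.ker π) d = HS B (maximalIdeal B) d := by
  letI := π.toAlgebra
  funext n
  have h := pr_length_quot (A := A) (B := B) hπ (maximalIdeal A ^ n)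
  rw [Ideal.map_pow, map_maximalIdeal_of_surjective (algebraMap A B) hπ, rl_top, sup_comm] at h
  rw [HJ, HS, h]
  rfl

theorem HJ_bot (d : ℕ) : HJ A ⊥ d = HS A (maximalIdeal A) d := by
  funext n
  rw [HJ, HS, bot_sup_eq]

theorem up_of_isMult (π : A →+* B) (hπ : Function.Surjective π) {d : ℕ} {e : ℝ}
    (he : IsMult B (maximalIdeal B) d e) : Up A (RingHom.ker π) d e := by
  intro ε hε
  rw [HJ_eq π hπ]
  exact (he.eventually (gt_mem_nhds (lt_add_of_pos_right e hε))).mono fun n hn => hn.le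

theorem low_of_isMult (π : A →+* B) (hπ : Function.Surjective π) {d : ℕ} {e a : ℝ}
    (he : IsMult B (maximalIdeal B) d e) (ha : a ≤ e) : Low A (RingHom.ker π) d a := by
  intro ε hε
  rw [HJ_eq π hπ]
  exact (he.eventually (lt_mem_nhds (show a - ε < e by linarith))).mono fun n hn => hn.le

theorem up_top (d : ℕ) : Up A ⊤ d 0 := by
  intro ε hε
  refine Eventually.of_forall fun n => ?_
  rw [HJ, top_sup_eq]
  simp [Module.length_eq_zero, hε.le]

theorem low_zero (J : Ideal A) (d : ℕ) : Low A J d 0 := by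
  intro ε hε
  refine Eventually.of_forall fun n => ?_
  have : 0 ≤ HJ A J d n := by unfold HJ; positivity
  linarith

theorem le_of_up_low {d d' : ℕ} {a e e' : ℝ} (h1 : Up A ⊥ d a) (h2 : Low B ⊥ d' a)
    (he : IsMult A (maximalIdeal A) d e) (he' : IsMult B (maximalIdeal B) d' e') : e ≤ e' := by
  have h3 : e ≤ a := le_of_forall_pos_le_add fun ε hε =>
    le_of_tendsto he (by simpa only [HJ_bot] using h1 ε hε)
  have h4 : a ≤ e' := le_of_forall_pos_le_add fun ε hε => by
    have := ge_of_tendsto he' (by simpa only [HJ_bot] using h2 ε hε)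
    linarith
  exact h3.trans h4

end bridge

section step

variable {A : Type u} [CommRing A] [IsLocalRing A] [IsNoetherianRing A]

omit [IsNoetherianRing A] in
theorem len_add_mpr (J : Ideal A) (f : A) :
    Module.length A (A ⧸ J) = Module.length A (A ⧸ (J ⊔ Ideal.span {f})) +
      Module.length A (A ⧸ Submodule.comap (LinearMap.lsmul A A f) J) := by
  have h1 := rl_add (lenF A) (le_sup_left : J ≤ J ⊔ Ideal.span {f}) le_top
  rw [rl_sup, ← Ideal.mul_top (Ideal.span {f}), ← pr_map_lsmul, ← rl_map, rl_top, rl_top, rl_top,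
    pr_map_lsmul, Ideal.mul_top, add_comm] at h1
  exact h1

theorem fin_mpr (J : Ideal A) (n : ℕ) : Module.length A (A ⧸ (J ⊔ maximalIdeal A ^ n)) ≠ ⊤ :=
  ra_ne_top le_sup_right

theorem up_add_mpr {J Q : Ideal A} {f : A} {d : ℕ} {a1 a2 : ℝ}
    (h1 : Up A (J ⊔ Ideal.span {f}) d a1) (h2 : Up A Q d a2)
    (hQ : Q ≤ Submodule.comap (LinearMap.lsmul A A f) J) : Up A J d (a1 + a2) := by
  intro ε hε
  filter_upwards [h1 _ (half_pos hε), h2 _ (half_pos hε)] with n h3 h4
  have h5 : Q ⊔ maximalIdeal A ^ n ≤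
      Submodule.comap (LinearMap.lsmul A A f) (J ⊔ maximalIdeal A ^ n) :=
    sup_le (hQ.trans (Submodule.comap_mono le_sup_left))
      fun z hz => Ideal.mem_sup_right (Ideal.mul_mem_left _ f hz)
  have h6 := (len_add_mpr (J ⊔ maximalIdeal A ^ n) f).le.trans (add_le_add le_rfl (ra_len_anti h5))
  rw [sup_right_comm] at h6
  have h7 := ENat.toNat_le_toNat h6 (WithTop.add_ne_top.2 ⟨fin_mpr _ _, fin_mpr _ _⟩)
  rw [ENat.toNat_add (fin_mpr _ _) (fin_mpr _ _)] at h7
  have h8 : HJ A J d n ≤ HJ A (J ⊔ Ideal.span {f}) d n + HJ A Q d n := by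
    simp only [HJ]
    rw [← add_div, ← mul_add]
    gcongr
    exact_mod_cast h7
  linarith

theorem colon_le_mpr (J : Ideal A) (f : A) : ∃ c : ℕ, ∀ n, c ≤ n →
    Submodule.comap (LinearMap.lsmul A A f) (J ⊔ maximalIdeal A ^ n) ≤
      Submodule.comap (LinearMap.lsmul A A f) J ⊔ maximalIdeal A ^ (n - c) := by
  obtain ⟨c, hc⟩ := Ideal.exists_pow_inf_eq_pow_smul (maximalIdeal A)
    (Submodule.span A {J.mkQ f})
  refine ⟨c, fun n hn z hz => ?_⟩
  obtain ⟨u, hu, v, hv, huv⟩ := Submodule.mem_sup.1 (show f * z ∈ J ⊔ maximalIdeal A ^ n from hz)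
  have h1 : J.mkQ (f * z) = z • J.mkQ f := by rw [← map_smul, smul_eq_mul, mul_comm]
  have h2 : J.mkQ (f * z) ∈ (maximalIdeal A ^ n • ⊤ ⊓ Submodule.span A {J.mkQ f} :
      Submodule A (A ⧸ J)) := by
    refine ⟨?_, ?_⟩
    · have h3 : J.mkQ (f * z) = v • J.mkQ 1 := by
        rw [← huv, map_add, ← map_smul, smul_eq_mul, mul_one,
          show J.mkQ u = 0 from (Submodule.Quotient.mk_eq_zero J).2 hu, zero_add]
      rw [h3]
      exact Submodule.smul_mem_smul hv Submodule.mem_top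
    · rw [h1]
      exact Submodule.smul_mem _ _ (Submodule.mem_span_singleton_self _)
  rw [hc n hn] at h2
  obtain ⟨w, hw, hw'⟩ := Submodule.mem_smul_span_singleton.1
    (Submodule.smul_mono le_rfl inf_le_right h2)
  rw [show z = (z - w) + w by ring]
  refine Submodule.add_mem_sup ?_ hw
  rw [Submodule.mem_comap, LinearMap.lsmul_apply, smul_eq_mul, ← Submodule.Quotient.mk_eq_zero,
    mul_sub, Submodule.Quotient.mk_sub]
  change J.mkQ (f * z) - J.mkQ (f * w) = 0
  rw [← hw', ← map_smul, smul_eq_mul, mul_comm, sub_self]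

theorem low_add_mpr {J Q : Ideal A} {f : A} {d : ℕ} {a1 a2 : ℝ}
    (h1 : Low A (J ⊔ Ideal.span {f}) d a1) (h2 : Low A Q d a2)
    (hQ : Submodule.comap (LinearMap.lsmul A A f) J ≤ Q) : Low A J d (a1 + a2) := by
  intro ε hε
  obtain ⟨c, hc⟩ := colon_le_mpr J f
  have hε3 : 0 < ε / 3 := by positivity
  have h3 : Tendsto (fun n : ℕ => (a2 - ε / 3) * (((n : ℝ) + -c) / n) ^ d) atTop
      (𝓝 ((a2 - ε / 3) * 1)) := (hs_tendsto_ratio (-c) d).const_mul _
  filter_upwards [h1 _ hε3, (tendsto_sub_atTop_nat c).eventually (h2 _ hε3),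
    h3.eventually (lt_mem_nhds (show a2 - 2 * (ε / 3) < (a2 - ε / 3) * 1 by linarith)),
    eventually_gt_atTop c] with n h4 h5 h6 hn
  have h7 := (add_le_add le_rfl (ra_len_anti ((hc n hn.le).trans (sup_le_sup_right hQ _)))).trans
    (len_add_mpr (J ⊔ maximalIdeal A ^ n) f).ge
  rw [sup_right_comm] at h7
  have h8 := ENat.toNat_le_toNat h7 (fin_mpr _ _)
  rw [ENat.toNat_add (fin_mpr _ _) (fin_mpr _ _)] at h8
  obtain ⟨m, rfl⟩ := Nat.exists_eq_add_of_le hn.le
  have hm : 0 < m := by omega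
  rw [Nat.add_sub_cancel_left] at h5 h8
  rw [show ((c + m : ℕ) : ℝ) + -c = m by push_cast; ring] at h6
  have h9 : HJ A (J ⊔ Ideal.span {f}) d (c + m) + HJ A Q d m * ((m : ℝ) / (c + m : ℕ)) ^ d ≤
      HJ A J d (c + m) := by
    simp only [HJ]
    rw [div_pow, div_mul_div_cancel₀ (by positivity), ← add_div, ← mul_add]
    gcongr
    exact_mod_cast h8
  have h10 := mul_le_mul_of_nonneg_right h5
    (show (0 : ℝ) ≤ ((m : ℝ) / (c + m : ℕ)) ^ d by positivity)
  linarith

end step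

theorem prime_red {R A1 A2 : Type u} [CommRing R] [IsNoetherianRing R] [CommRing A1]
    [IsLocalRing A1] [IsNoetherianRing A1] [CommRing A2] [IsLocalRing A2] [IsNoetherianRing A2]
    (φ1 : R →+* A1) (φ2 : R →+* A2) (h2 : φ2.Flat) (d1 d2 : ℕ)
    (h : ∀ Q : Ideal R, Q.IsPrime → ∃ a : ℝ, Up A1 (Q.map φ1) d1 a ∧ Low A2 (Q.map φ2) d2 a) :
    ∃ a : ℝ, Up A1 ⊥ d1 a ∧ Low A2 ⊥ d2 a := by
  have key : ∀ J : Ideal R, ∃ a : ℝ, Up A1 (J.map φ1) d1 a ∧ Low A2 (J.map φ2) d2 a := by
    intro J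
    induction J using (wellFounded_gt (α := Ideal R)).induction with
    | _ J ih =>
    by_cases hJ : J = ⊤
    · exact ⟨0, by rw [hJ, Ideal.map_top]; exact up_top d1, low_zero _ d2⟩
    have := Ideal.Quotient.nontrivial_iff.2 hJ
    obtain ⟨p, hp⟩ := associatedPrimes.nonempty R (R ⧸ J)
    rw [AssociatedPrimes.mem_iff, isAssociatedPrime_iff] at hp
    obtain ⟨hp, f, hf⟩ := hp
    obtain ⟨f, rfl⟩ := Ideal.Quotient.mk_surjective f
    have hpf : p = Submodule.comap (LinearMap.lsmul R R f) J := by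
      rw [hf]
      ext z
      rw [Submodule.mem_colon_singleton, Submodule.mem_bot, Submodule.mem_comap,
        ← Ideal.Quotient.eq_zero_iff_mem, LinearMap.lsmul_apply, smul_eq_mul, mul_comm f, map_mul]
      rfl
    have hfJ : f ∉ J := fun h => hp.ne_top (by
      rw [hpf, eq_top_iff]
      exact fun z _ => J.mul_mem_right z h)
    have hlt : J < J ⊔ Ideal.span {f} := by
      refine lt_of_le_of_ne le_sup_left fun h => hfJ ?_
      rw [h]
      exact Ideal.mem_sup_right (Ideal.mem_span_singleton_self f)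
    obtain ⟨a1, h11, h12⟩ := ih _ hlt
    obtain ⟨a2, h21, h22⟩ := h p hp
    rw [Ideal.map_sup, Ideal.map_span, Set.image_singleton] at h11 h12
    refine ⟨a1 + a2, up_add_mpr h11 h21 ?_, low_add_mpr h12 h22 ?_⟩
    · rw [Ideal.map_le_iff_le_comap, hpf]
      intro z hz
      have h3 := Ideal.mem_map_of_mem φ1 (show f * z ∈ J from hz)
      rw [map_mul] at h3
      exact h3
    · letI := φ2.toAlgebra
      have : Module.Flat R A2 := h2
      rw [hpf]
      exact (pr_map_comap (B := A2) J f).ge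
  simpa only [Ideal.map_bot] using key ⊥

end Vale.Agent.P202
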