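import Vale.Agent.P202.Red
import Vale.Agent.P202.Defs2

/-! Reductions adapted to a prime ideal. -/

namespace Vale.Agent.P202

open IsLocalRing

universe u

variable {R : Type u} [CommRing R] [IsNoetherianRing R] [IsLocalRing R]

omit [IsNoetherianRing R] in
theorem red2_lower {r : ℕ} (x : Fin r → R) (hx : ∀ i, x i ∈ maximalIdeal R) (γ : ℕ)
    (B : Finset (Fin r → ℕ)) (hB : ∀ e ∈ B, ∑ i, e i = γ)
    (hind : ∀ c : B → R, ∑ e : B, c e * ∏ i, x i ^ (e.1 i) ∈
      maximalIdeal R * Ideal.span (Set.range x) ^ γ → ∀ e, c e ∈ maximalIdeal R) :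
    (B.card : ℕ∞) ≤ rl (lenF R) (Ideal.span (Set.range x) ^ (γ + 1) : Ideal R)
      (Ideal.span (Set.range x) ^ γ : Ideal R) := by
  classical
  have hI : Ideal.span (Set.range x) ≤ maximalIdeal R := by
    rw [Ideal.span_le]
    rintro _ ⟨i, rfl⟩
    exact hx i
  let φ : (B → R) →ₗ[R] R := Fintype.linearCombination R fun e : B => ∏ i, x i ^ (e.1 i)
  have hφ : ∀ c, φ c = ∑ e : B, c e * ∏ i, x i ^ (e.1 i) := fun c => by
    simp [φ, Fintype.linearCombination_apply]
  have h1 : (⊤ : Submodule R (B → R)).map φ ≤ (Ideal.span (Set.range x) ^ γ : Ideal R) := by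
    rintro _ ⟨c, -, rfl⟩
    rw [hφ]
    refine Ideal.sum_mem _ fun e _ => Ideal.mul_mem_left _ _ ?_
    rw [← hB e.1 e.2, ← Finset.prod_pow_eq_pow_sum]
    exact Ideal.prod_mem_prod fun i _ => Ideal.pow_mem_pow (Ideal.subset_span (Set.mem_range_self i)) _
  have h2 : Submodule.comap φ (Ideal.span (Set.range x) ^ (γ + 1) : Ideal R) ≤
      Submodule.pi Set.univ fun _ : B => (maximalIdeal R : Submodule R R) := by
    intro c hc e _
    refine hind c ?_ e
    rw [← hφ]
    have h3 : Ideal.span (Set.range x) ^ (γ + 1) ≤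
        maximalIdeal R * Ideal.span (Set.range x) ^ γ := by
      rw [pow_succ']
      exact Ideal.mul_mono_left hI
    exact h3 hc
  have h3 : rl (lenF R) (maximalIdeal R : Submodule R R) ⊤ = 1 := by
    rw [rl_top]
    change Module.length R (R ⧸ maximalIdeal R) = 1
    have : IsSimpleModule R (R ⧸ maximalIdeal R) :=
      isSimpleModule_iff_isCoatom.2 (Ideal.isMaximal_def.1 inferInstance)
    exact Module.length_eq_one _ _
  calc (B.card : ℕ∞) = ∑ _e : B, rl (lenF R) (maximalIdeal R : Submodule R R) ⊤ := by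
        simp [h3]
    _ = rl (lenF R) (Submodule.pi Set.univ fun _ : B => (maximalIdeal R : Submodule R R))
          (Submodule.pi Set.univ fun _ : B => (⊤ : Submodule R R)) := (rl_pi _ _ _).symm
    _ ≤ rl (lenF R) (Submodule.comap φ (Ideal.span (Set.range x) ^ (γ + 1) : Ideal R)) ⊤ :=
        rl_mono _ h2 le_top
    _ = rl (lenF R) (Ideal.span (Set.range x) ^ (γ + 1) : Ideal R)
          ((⊤ : Submodule R (B → R)).map φ) := rl_map _ _ _ _
    _ ≤ _ := rl_mono _ le_rfl h1

/-- More than `dim R` elements satisfy a relation in the fibre cone. -/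
theorem red2_exists_rel {d r : ℕ} (hd : ringKrullDim R = d) (hr : d < r) {x : Fin r → R}
    (hx : IsSop x) :
    ∃ (γ : ℕ) (B : Finset (Fin r → ℕ)) (c : B → R), (∀ e ∈ B, ∑ i, e i = γ) ∧
      ∑ e : B, c e * ∏ i, x i ^ (e.1 i) ∈ maximalIdeal R * Ideal.span (Set.range x) ^ γ ∧
      ∃ e, c e ∉ maximalIdeal R := by
  classical
  by_contra hcon
  push Not at hcon
  obtain ⟨hx, t, ht⟩ := hx
  obtain ⟨C, hC⟩ := length_pow_le_of_dim hd
  set n : ℕ := C * (t * r) ^ d + 1 with hn
  let box : Finset (Fin r → ℕ) := Fintype.piFinset fun _ => Finset.range n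
  have hbox : box.card = n ^ r := by simp [box]
  have hmaps : ∀ e ∈ box, ∑ i, e i ∈ Finset.range (r * n) := by
    intro e he
    rw [Finset.mem_range]
    have h1 : ∀ i, e i < n := fun i => Finset.mem_range.1 (Fintype.mem_piFinset.1 he i)
    have hne : (Finset.univ : Finset (Fin r)).Nonempty := ⟨⟨0, by omega⟩, Finset.mem_univ _⟩
    calc ∑ i, e i < ∑ _i : Fin r, n := Finset.sum_lt_sum_of_nonempty hne fun i _ => h1 i
      _ = r * n := by simp
  have h1 := Finset.card_eq_sum_card_fiberwise (f := fun e : Fin r → ℕ => ∑ i, e i) hmaps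
  have h2 : ((n ^ r : ℕ) : ℕ∞) ≤ Module.length R (R ⧸ Ideal.span (Set.range x) ^ (r * n)) := by
    rw [red_length_eq_sum, ← hbox, h1, Nat.cast_sum]
    refine Finset.sum_le_sum fun γ _ => ?_
    refine red2_lower x hx γ _ (fun e he => (Finset.mem_filter.1 he).2) fun c hc => ?_
    exact hcon γ _ c (fun e he => (Finset.mem_filter.1 he).2) hc
  have h2' : Module.length R (R ⧸ Ideal.span (Set.range x) ^ (r * n)) ≤
      Module.length R (R ⧸ maximalIdeal R ^ (t * (r * n))) := by
    have hJ : maximalIdeal R ^ (t * (r * n)) ≤ Ideal.span (Set.range x) ^ (r * n) := by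
      rw [pow_mul]
      exact Ideal.pow_right_mono ht _
    have := rl_mono (lenF R) hJ (le_rfl (a := ⊤))
    rwa [rl_top, rl_top] at this
  have h3 := (h2.trans h2').trans (hC (t * (r * n)))
  have h4 : n ^ r ≤ C * (t * (r * n)) ^ d := by exact_mod_cast h3
  have hpos : 0 < n := by omega
  have h5 : n ^ d * n ≤ n ^ r := by
    rw [← pow_succ]
    exact Nat.pow_le_pow_right hpos hr
  have h6 : n ^ d * n ≤ n ^ d * (C * (t * r) ^ d) := by
    calc n ^ d * n ≤ C * (t * (r * n)) ^ d := h5.trans h4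
      _ = n ^ d * (C * (t * r) ^ d) := by rw [← mul_assoc t, mul_pow]; ring
  have h7 := Nat.le_of_mul_le_mul_left h6 (pow_pos hpos d)
  omega

omit [IsNoetherianRing R] in
theorem red2_exists_point [Infinite (ResidueField R)] {r γ : ℕ} (B : Finset (Fin (r + 1) → ℕ))
    (hB : ∀ e ∈ B, ∑ i, e i = γ) (c : B → R) (hc : ∃ e, c e ∉ maximalIdeal R) :
    ∃ a : Fin (r + 1) → R, a (Fin.last r) = 1 ∧ IsUnit (∑ e : B, c e * ∏ i, a i ^ (e.1 i)) := by
  classical
  let ρ : (Fin (r + 1) → ℕ) ≃ (Fin (r + 1) → ℕ) := Equiv.arrowCongr Fin.revPerm (Equiv.refl ℕ)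
  let κ : B.map ρ.toEmbedding ≃ B := (Equiv.subtypeEquiv ρ (by simp)).symm
  obtain ⟨e0, he0⟩ := hc
  obtain ⟨a, ⟨w, hw⟩, hg⟩ := red_exists_point (B.map ρ.toEmbedding) (fun e => c (κ e))
    ⟨κ.symm e0, by simpa using he0⟩
  refine ⟨fun i => a i.rev * ((w⁻¹ : Rˣ) : R), by simp [← hw], ?_⟩
  have e1 : ∑ e : B, c e * ∏ i, (a i.rev * ((w⁻¹ : Rˣ) : R)) ^ (e.1 i) =
      (∑ e : B.map ρ.toEmbedding, c (κ e) * ∏ i, a i ^ (e.1 i)) * ((w⁻¹ : Rˣ) : R) ^ γ := by
    rw [Finset.sum_mul, ← κ.symm.sum_comp]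
    refine Finset.sum_congr rfl fun e _ => ?_
    simp only [mul_pow, Finset.prod_mul_distrib, Finset.prod_pow_eq_pow_sum, hB e.1 e.2,
      Equiv.apply_symm_apply]
    rw [mul_assoc]
    congr 2
    rw [← Equiv.prod_comp Fin.revPerm]
    refine Finset.prod_congr rfl fun i _ => ?_
    simp [κ, ρ]
  rw [e1]
  exact hg.mul ((Units.isUnit _).pow _)

omit [IsNoetherianRing R] [IsLocalRing R] in
theorem red2_span_eq {r : ℕ} (x : Fin (r + 1) → R) (c : Fin r → R) :
    Ideal.span (Set.range x) =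
      Ideal.span (Set.range fun i : Fin r => x i.castSucc - c i * x (Fin.last r)) ⊔
        Ideal.span {x (Fin.last r)} := by
  apply le_antisymm
  · rw [Ideal.span_le]
    rintro _ ⟨i, rfl⟩
    refine Fin.lastCases ?_ (fun j => ?_) i
    · exact Ideal.mem_sup_right (Ideal.mem_span_singleton_self _)
    · have e : x j.castSucc = (x j.castSucc - c j * x (Fin.last r)) + c j * x (Fin.last r) := by
        ring
      rw [e]
      exact Ideal.add_mem _ (Ideal.mem_sup_left (Ideal.subset_span ⟨j, rfl⟩))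
        (Ideal.mem_sup_right (Ideal.mul_mem_left _ _ (Ideal.mem_span_singleton_self _)))
  · refine sup_le ?_ ?_
    · rw [Ideal.span_le]
      rintro _ ⟨j, rfl⟩
      exact Ideal.sub_mem _ (Ideal.subset_span ⟨_, rfl⟩)
        (Ideal.mul_mem_left _ _ (Ideal.subset_span ⟨_, rfl⟩))
    · rw [Ideal.span_singleton_le_iff_mem]
      exact Ideal.subset_span ⟨_, rfl⟩

/-- One step of Noether normalisation in the fibre cone. -/
theorem exists_reduction_step [Infinite (ResidueField R)] {d r : ℕ} (hd : ringKrullDim R = d)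
    (hr : d ≤ r) {x : Fin (r + 1) → R} (hx : IsSop x) :
    ∃ (c : Fin r → R) (n0 : ℕ), Ideal.span (Set.range x) ^ (n0 + 1) ≤
      Ideal.span (Set.range fun i : Fin r => x i.castSucc - c i * x (Fin.last r)) *
        Ideal.span (Set.range x) ^ n0 := by
  classical
  obtain ⟨γ, B, c, hB, hrel, hc⟩ := red2_exists_rel hd (Nat.lt_succ_of_le hr) hx
  obtain ⟨a, ha0, hg⟩ := red2_exists_point B hB c hc
  refine ⟨fun i => a i.castSucc, γ, ?_⟩
  have hI := red2_span_eq x fun i => a i.castSucc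
  set J := Ideal.span (Set.range fun i : Fin r => x i.castSucc - a i.castSucc * x (Fin.last r))
    with hJ
  set I := Ideal.span (Set.range x) with hIdef
  have hxI : ∀ i, x i ∈ I := fun i => Ideal.subset_span ⟨i, rfl⟩
  have hJI : J ≤ I := hI ▸ le_sup_left
  have hdiff : ∀ i, x i - a i * x (Fin.last r) ∈ J := by
    intro i
    refine Fin.lastCases ?_ (fun j => ?_) i
    · simp [ha0]
    · exact Ideal.subset_span ⟨j, rfl⟩
  have hR : RedRel J I γ (∑ e : B, c e * ∏ i, x i ^ (e.1 i))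
      (∑ e : B, c e * ∏ i, (a i * x (Fin.last r)) ^ (e.1 i)) := by
    refine RedRel.sum _ _ _ _ fun e _ => ?_
    have h1 := RedRel.prod (J := J) (m := I) Finset.univ (fun i => e.1 i)
      (fun i => x i ^ (e.1 i)) (fun i => (a i * x (Fin.last r)) ^ (e.1 i)) fun i _ => by
        refine RedRel.pow ⟨?_, ?_, fun z hz => ?_⟩ _
        · rw [pow_one]; exact hxI _
        · rw [pow_one]; exact Ideal.mul_mem_left _ _ (hxI _)
        · rw [pow_one, mul_comm z]; exact Ideal.mul_mem_mul (hdiff i) hz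
    rw [hB e.1 e.2] at h1
    simpa using (RedRel.const J I (c e)).mul h1
  have e2 : ∑ e : B, c e * ∏ i, (a i * x (Fin.last r)) ^ (e.1 i) =
      (∑ e : B, c e * ∏ i, a i ^ (e.1 i)) * x (Fin.last r) ^ γ := by
    rw [Finset.sum_mul]
    refine Finset.sum_congr rfl fun e _ => ?_
    simp only [mul_pow, Finset.prod_mul_distrib, Finset.prod_pow_eq_pow_sum, hB e.1 e.2]
    ring
  rw [e2] at hR
  have hw : Ideal.span {x (Fin.last r) ^ γ} * I ≤ J * I ^ γ ⊔ maximalIdeal R • I ^ (γ + 1) := by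
    rw [Ideal.span_singleton_mul_le_iff]
    intro z hz
    refine (Ideal.unit_mul_mem_iff_mem _ hg).1 ?_
    have h1 := hR.2.2 z hz
    have h2 : z * (∑ e : B, c e * ∏ i, x i ^ (e.1 i)) ∈ maximalIdeal R • I ^ (γ + 1) := by
      rw [smul_eq_mul, pow_succ, ← mul_assoc, mul_comm z]
      exact Ideal.mul_mem_mul hrel hz
    have e3 : (∑ e : B, c e * ∏ i, a i ^ (e.1 i)) * (x (Fin.last r) ^ γ * z) =
        z * (∑ e : B, c e * ∏ i, x i ^ (e.1 i)) -
          z * (∑ e : B, c e * ∏ i, x i ^ (e.1 i) -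
            (∑ e : B, c e * ∏ i, a i ^ (e.1 i)) * x (Fin.last r) ^ γ) := by ring
    rw [e3]
    exact Ideal.sub_mem _ (Ideal.mem_sup_right h2) (Ideal.mem_sup_left h1)
  have hkey : I ^ (γ + 1) ≤ J * I ^ γ ⊔ maximalIdeal R • I ^ (γ + 1) := by
    calc I ^ (γ + 1) = (J ⊔ Ideal.span {x (Fin.last r)}) ^ γ * I := by rw [← hI, pow_succ]
      _ ≤ _ := (red_sup_pow hJI (hxI _) γ).trans (sup_le le_sup_left hw)
  exact Submodule.le_of_le_smul_of_le_jacobson_bot (IsNoetherian.noetherian _)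
    (maximalIdeal_le_jacobson _) hkey

theorem red2_adapt [Infinite (ResidueField R)] (P : Ideal R) (hP : P ≠ ⊤) {f : ℕ}
    (hf : ringKrullDim (R ⧸ P) = f) (j : ℕ) (y : Fin (f + j) → R)
    (hy : ∀ i, y i ∈ maximalIdeal R)
    (ht : ∃ t : ℕ, maximalIdeal R ^ t ≤ P ⊔ Ideal.span (Set.range y)) :
    ∃ z : Fin f ⊕ Fin j → R, Ideal.span (Set.range z) = Ideal.span (Set.range y) ∧
      ∃ t : ℕ, maximalIdeal R ^ t ≤ P ⊔ Ideal.span (Set.range fun i => z (Sum.inl i)) := by
  induction j with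
  | zero =>
    refine ⟨Sum.elim y Fin.elim0, ?_, ht⟩
    congr 1
    rw [Set.Sum.elim_range]
    simp
  | succ j ih =>
    have : Nontrivial (R ⧸ P) := Ideal.Quotient.nontrivial_iff.2 hP
    have : IsLocalRing (R ⧸ P) :=
      IsLocalRing.of_surjective' (Ideal.Quotient.mk P) Ideal.Quotient.mk_surjective
    have : IsLocalHom (Ideal.Quotient.mk P) :=
      IsLocalHom.of_surjective _ Ideal.Quotient.mk_surjective
    have : Infinite (ResidueField (R ⧸ P)) :=
      Infinite.of_injective _ (ResidueField.map (Ideal.Quotient.mk P)).injective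
    have hm : (maximalIdeal R).map (Ideal.Quotient.mk P) = maximalIdeal (R ⧸ P) :=
      IsLocalRing.map_maximalIdeal_of_surjective _ Ideal.Quotient.mk_surjective
    have hspan : ∀ {k : ℕ} (w : Fin k → R), (Ideal.span (Set.range w)).map (Ideal.Quotient.mk P) =
        Ideal.span (Set.range fun i => Ideal.Quotient.mk P (w i)) := by
      intro k w
      rw [Ideal.map_span, ← Set.range_comp]
      rfl
    obtain ⟨t, ht⟩ := ht
    have ht' : maximalIdeal (R ⧸ P) ^ t ≤
        Ideal.span (Set.range fun i => Ideal.Quotient.mk P (y i)) := by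
      have h := Ideal.map_mono (f := Ideal.Quotient.mk P) ht
      rwa [Ideal.map_pow, hm, Ideal.map_sup, Ideal.map_quotient_self, bot_sup_eq, hspan] at h
    have hsop : IsSop fun i : Fin (f + j + 1) => Ideal.Quotient.mk P (y i) :=
      ⟨fun i => hm ▸ Ideal.mem_map_of_mem _ (hy i), t, ht'⟩
    obtain ⟨c', n0, hc'⟩ := exists_reduction_step hf (Nat.le_add_right f j) hsop
    choose c hc using fun i => Ideal.Quotient.mk_surjective (c' i)
    let y' : Fin (f + j) → R := fun i => y i.castSucc - c i * y (Fin.last (f + j))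
    have hy' : ∀ i, y' i ∈ maximalIdeal R := fun i =>
      Ideal.sub_mem _ (hy _) (Ideal.mul_mem_left _ _ (hy _))
    have ht2 : maximalIdeal R ^ (t * (n0 + 1)) ≤ P ⊔ Ideal.span (Set.range y') := by
      have h1 : (maximalIdeal R ^ (t * (n0 + 1))).map (Ideal.Quotient.mk P) ≤
          (Ideal.span (Set.range y')).map (Ideal.Quotient.mk P) := by
        rw [Ideal.map_pow, hm, pow_mul, hspan]
        refine (Ideal.pow_right_mono ht' _).trans (hc'.trans (Ideal.mul_le_left.trans ?_))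
        simp only [y', map_sub, map_mul, hc]
        exact le_rfl
      rw [Ideal.map_le_iff_le_comap, Ideal.comap_map_of_surjective _ Ideal.Quotient.mk_surjective,
        ← RingHom.ker_eq_comap_bot, Ideal.mk_ker, sup_comm] at h1
      exact h1
    obtain ⟨z', hz', t', ht3⟩ := ih y' hy' ⟨_, ht2⟩
    refine ⟨Sum.elim (fun i => z' (Sum.inl i))
      (Fin.cons (y (Fin.last (f + j))) fun i => z' (Sum.inr i)), ?_, t', ht3⟩
    rw [red2_span_eq (r := f + j) y c]
    change _ = Ideal.span (Set.range y') ⊔ _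
    rw [← hz', ← Ideal.span_union]
    congr 1
    rw [Set.Sum.elim_range, Fin.range_cons]
    ext w
    simp only [Set.mem_union, Set.mem_insert_iff, Set.mem_range, Sum.exists,
      Set.mem_singleton_iff]
    constructor
    · rintro (h | h | h)
      · exact Or.inl (Or.inl h)
      · exact Or.inr h
      · exact Or.inl (Or.inr h)
    · rintro ((h | h) | h)
      · exact Or.inl h
      · exact Or.inr (Or.inr h)
      · exact Or.inr (Or.inl h)

/-- A minimal reduction whose first `f` elements are parameters modulo `P`. -/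
theorem exists_isRed_adapted [Infinite (ResidueField R)] (P : Ideal R) (hP : P ≠ ⊤) {f d : ℕ}
    (hf : ringKrullDim (R ⧸ P) = f) (hD : ringKrullDim R = (f + d : ℕ)) :
    ∃ y : Fin f ⊕ Fin d → R, IsRed y ∧
      ∃ t : ℕ, maximalIdeal R ^ t ≤ P ⊔ Ideal.span (Set.range fun i => y (Sum.inl i)) := by
  obtain ⟨x, n0, hx, hn⟩ := exists_reduction hD
  obtain ⟨z, hz, ht⟩ := red2_adapt P hP hf d x hx
    ⟨n0 + 1, le_sup_of_le_right (hn.trans Ideal.mul_le_left)⟩
  refine ⟨z, ⟨fun i => ?_, n0, hz ▸ hn⟩, ht⟩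
  have hI : Ideal.span (Set.range x) ≤ maximalIdeal R := by
    rw [Ideal.span_le]
    rintro _ ⟨i, rfl⟩
    exact hx i
  exact hI (hz ▸ Ideal.subset_span ⟨i, rfl⟩)

end Vale.Agent.P202
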