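import Vale.Agent.P202.MHyp
import Vale.Agent.P202.MCoh
import Vale.Agent.P202.Red2

/-! Noether normalisation and primitive elements in mixed characteristic. -/

namespace Vale.Agent.P202

open IsLocalRing Polynomial

universe u

theorem charZero_of_unram {p : ℕ} [Fact p.Prime] {C0 : Type u} [CommRing C0] [IsDomain C0]
    [IsDiscreteValuationRing C0] (hC : maximalIdeal C0 = Ideal.span {(p : C0)}) :
    CharZero C0 := charZero_mps hC

/-- Noether normalisation adapted to a minimal reduction. -/
theorem exists_noether {p : ℕ} {C0 : Type u} [CommRing C0] [IsDomain C0]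
    [IsDiscreteValuationRing C0] (hC : IsCohen p C0) {R : Type u} [CommRing R] [IsDomain R]
    [IsLocalRing R] [IsNoetherianRing R] [IsAdicComplete (maximalIdeal R) R]
    [Infinite (ResidueField R)] (ω : C0 →+* R)
    (hω : Function.Surjective ((residue R).comp ω)) (hp : (p : R) ∈ maximalIdeal R)
    (hp0 : (p : R) ≠ 0) {d : ℕ} (hd : ringKrullDim R = (d + 1 : ℕ)) :
    ∃ (_ : Algebra (PS (Fin d) C0) R) (x0 : R), Module.Finite (PS (Fin d) C0) R ∧
      Function.Injective (algebraMap (PS (Fin d) C0) R) ∧
      IsLocalHom (algebraMap (PS (Fin d) C0) R) ∧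
      (∀ a, algebraMap (PS (Fin d) C0) R (MvPowerSeries.C a) = ω a) ∧
      IsRed (par (MvPowerSeries.X : Fin d → PS (Fin d) C0) x0) := by
  have hP : Ideal.span {(p : R)} ≠ ⊤ := fun h =>
    (maximalIdeal.isMaximal R).ne_top
      (top_le_iff.1 (h ▸ (Ideal.span_singleton_le_iff_mem _).2 hp))
  have hf : ringKrullDim (R ⧸ Ideal.span {(p : R)}) = d := by
    have _ : Nontrivial (R ⧸ Ideal.span {(p : R)}) := Ideal.Quotient.nontrivial_iff.2 hP
    have _ : IsLocalRing (R ⧸ Ideal.span {(p : R)}) :=
      IsLocalRing.of_surjective' (Ideal.Quotient.mk _) Ideal.Quotient.mk_surjective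
    obtain ⟨f, hf⟩ := LC.exists_dim (R ⧸ Ideal.span {(p : R)})
    have h1 := ringKrullDim_quotient_span_singleton_succ_eq_ringKrullDim_of_mem_nonZeroDivisors
      (mem_nonZeroDivisors_of_ne_zero hp0) hp
    rw [hf, hd] at h1
    have h2 : f + 1 = d + 1 := by exact_mod_cast h1
    rw [hf, show f = d by omega]
  obtain ⟨y, hy, t, ht⟩ := exists_isRed_adapted (d := 1) _ hP hf hd
  obtain ⟨φ, hφC, hφX⟩ := exists_psHom (maximalIdeal R) ω (fun i => y (Sum.inl i))
    fun i => hy.1 _
  have hmap : (maximalIdeal (PS (Fin d) C0)).map φ =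
      Ideal.span {(p : R)} ⊔ Ideal.span (Set.range fun i => y (Sum.inl i)) := by
    rw [psl_maximalIdeal_of_span hC.max, Ideal.span_insert, Ideal.map_sup, ps_map_span,
      Ideal.map_span, Set.image_singleton, hφC, map_natCast]
    simp only [hφX]
  have hloc : IsLocalHom φ := by
    refine ((local_hom_TFAE φ).out 0 2).2 ?_
    rw [hmap]
    exact sup_le ((Ideal.span_singleton_le_iff_mem _).2 hp)
      (Ideal.span_le.2 (Set.range_subset_iff.2 fun i => hy.1 _))
  have _ := hC.complete
  have hfin : φ.Finite := psl_finite φ (t := t) (hmap ▸ ht) fun z => by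
    obtain ⟨a, ha⟩ := hω z
    exact ⟨a, by rw [← ha, RingHom.comp_apply, RingHom.comp_apply, hφC, RingHom.comp_apply]⟩
  let _ : Algebra (PS (Fin d) C0) R := φ.toAlgebra
  have _ : Module.Finite (PS (Fin d) C0) R := hfin
  refine ⟨inferInstance, y (Sum.inr 0), hfin, ?_, hloc, hφC, ?_⟩
  · change Function.Injective φ
    rw [injective_iff_map_eq_zero]
    intro r hr
    by_contra hr0
    have _ : IsDomain (PS (Fin d) C0) := NoZeroDivisors.to_isDomain _
    let _ : Algebra (PS (Fin d) C0 ⧸ RingHom.ker φ) R := (RingHom.kerLift φ).toAlgebra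
    have _ : IsScalarTower (PS (Fin d) C0) (PS (Fin d) C0 ⧸ RingHom.ker φ) R :=
      IsScalarTower.of_algebraMap_eq fun a => (RingHom.kerLift_mk φ a).symm
    have _ : Algebra.IsIntegral (PS (Fin d) C0 ⧸ RingHom.ker φ) R :=
      Algebra.IsIntegral.tower_top (PS (Fin d) C0)
    have h1 := loc_dim_le (R := PS (Fin d) C0 ⧸ RingHom.ker φ) (S := R)
    have h2 := ringKrullDim_succ_le_of_surjective (Ideal.Quotient.mk (RingHom.ker φ))
      Ideal.Quotient.mk_surjective (mem_nonZeroDivisors_of_ne_zero hr0)
      (Ideal.Quotient.eq_zero_iff_mem.2 hr)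
    have h3 := ((add_le_add h1 le_rfl).trans h2).trans (psl_dim_le (σ := Fin d) hC.max)
    rw [hd, Nat.card_eq_fintype_card, Fintype.card_fin] at h3
    have h4 : d + 1 + 1 ≤ d + 1 := by exact_mod_cast h3
    omega
  · have hr : Set.range (par (MvPowerSeries.X : Fin d → PS (Fin d) C0) (y (Sum.inr 0))) =
        Set.range y := by
      apply Set.Subset.antisymm
      · rintro _ ⟨_ | j, rfl⟩
        · exact ⟨_, rfl⟩
        · exact ⟨Sum.inl j, (hφX j).symm⟩
      · rintro _ ⟨j | j, rfl⟩
        · exact ⟨some j, hφX j⟩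
        · exact ⟨none, by rw [Subsingleton.elim j 0]; rfl⟩
    refine ⟨fun o => ?_, ?_⟩
    · obtain ⟨i, hi⟩ := hr.le ⟨o, rfl⟩
      exact hi ▸ hy.1 i
    · rw [hr]
      exact hy.2

theorem isRed_perturb_mprim {A R : Type u} [CommRing A] [CommRing R] [Algebra A R]
    [IsLocalRing R] [IsNoetherianRing R] {σ : Type} {Xv : σ → A} {x0 θ : R}
    (hred : IsRed (par Xv x0)) (h : θ - x0 ∈ maximalIdeal R ^ 2) : IsRed (par Xv θ) := by
  obtain ⟨h1, n0, h2⟩ := hred
  refine ⟨fun o => ?_, n0, ?_⟩
  · rcases o with _ | j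
    · have := add_mem (Ideal.pow_le_self two_ne_zero h) (h1 none)
      rwa [show θ - x0 + par Xv x0 none = θ from sub_add_cancel θ x0] at this
    · exact h1 (some j)
  · refine Submodule.le_of_le_smul_of_le_jacobson_bot (IsNoetherian.noetherian _)
      (maximalIdeal_le_jacobson _) (h2.trans ?_)
    have h3 : Ideal.span (Set.range (par Xv x0)) ≤
        Ideal.span (Set.range (par Xv θ)) ⊔ maximalIdeal R ^ 2 := by
      refine Ideal.span_le.2 ?_
      rintro _ ⟨_ | j, rfl⟩
      · have := sub_mem (Ideal.mem_sup_left (Ideal.subset_span ⟨none, rfl⟩ :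
          θ ∈ Ideal.span (Set.range (par Xv θ)))) (Ideal.mem_sup_right h)
        rwa [sub_sub_cancel] at this
      · exact Ideal.mem_sup_left (Ideal.subset_span ⟨some j, rfl⟩)
    refine (Ideal.mul_mono_left h3).trans (le_of_eq ?_)
    rw [Ideal.sup_mul, smul_eq_mul]
    congr 1
    ring

variable {A R : Type u} [CommRing A] [IsDomain A] [CharZero A] [CommRing R] [IsDomain R]
  [Algebra A R]

/-- A primitive element that is part of a reduction. -/
theorem exists_prim [IsLocalRing R] [IsNoetherianRing R] [Module.Finite A R]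
    (hinj : Function.Injective (algebraMap A R)) {c : A} (hc0 : c ≠ 0)
    (hc : algebraMap A R c ∈ maximalIdeal R) {σ : Type} {Xv : σ → A} {x0 : R}
    (hred : IsRed (par Xv x0)) :
    ∃ (θ : R) (Δ : A), IsRed (par Xv θ) ∧ Δ ≠ 0 ∧
      ∀ b : R, ∃ H : A[X], aeval θ H = Δ • b := by
  have _ : FaithfulSMul A R := (faithfulSMul_iff_algebraMap_injective _ _).2 hinj
  let K := FractionRing A
  let L := FractionRing R
  let _ : Algebra K L := FractionRing.liftAlgebra A L
  have _ : FiniteDimensional K L := .of_isLocalization A R (nonZeroDivisors A)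
  have hprim := Field.exists_primitive_element K L
  have _ := Field.finite_intermediateField_of_exists_primitive_element K L hprim
  obtain ⟨α, hα⟩ := hprim
  obtain ⟨⟨θ1, _, a, ha, rfl⟩, h1⟩ :=
    IsLocalization.surj (Algebra.algebraMapSubmonoid R (nonZeroDivisors A)) α
  have h1 : α * algebraMap R L (algebraMap A R a) = algebraMap R L θ1 := h1
  let f : ℕ → R := fun n => x0 + algebraMap A R (n * c ^ 2) * θ1
  obtain ⟨n, n', hne, heq⟩ := Finite.exists_ne_map_eq_of_infinite
    fun n => IntermediateField.adjoin K {algebraMap R L (f n)}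
  have htop : IntermediateField.adjoin K {algebraMap R L (f n)} = ⊤ := by
    rw [eq_top_iff, ← hα, IntermediateField.adjoin_simple_le_iff]
    have h2 := IntermediateField.mem_adjoin_simple_self K (algebraMap R L (f n))
    have h3 := IntermediateField.mem_adjoin_simple_self K (algebraMap R L (f n'))
    rw [← heq] at h3
    have h4 : algebraMap R L (f n) - algebraMap R L (f n') =
        algebraMap A K ((n - n') * c ^ 2 * a) • α := by
      rw [Algebra.smul_def, ← IsScalarTower.algebraMap_apply A K L,
        IsScalarTower.algebraMap_apply A R L]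
      simp only [f, map_add, map_mul, map_sub, ← h1]
      ring
    have h5 : algebraMap A K ((n - n') * c ^ 2 * a) ≠ 0 := by
      rw [Ne, map_eq_zero_iff _ (IsFractionRing.injective A K)]
      exact mul_ne_zero (mul_ne_zero (sub_ne_zero.2 (Nat.cast_injective.ne hne))
        (pow_ne_zero _ hc0)) (nonZeroDivisors.ne_zero ha)
    have h6 := IntermediateField.smul_mem _ (sub_mem h2 h3)
      (x := (algebraMap A K ((n - n') * c ^ 2 * a))⁻¹)
    rwa [h4, smul_smul, inv_mul_cancel₀ h5, one_smul] at h6
  have hb : ∀ b : R, ∃ t : nonZeroDivisors A, t • b ∈ Algebra.adjoin A {f n} := by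
    intro b
    have h2 : algebraMap R L b ∈ Algebra.adjoin K {algebraMap R L (f n)} := by
      rw [← IntermediateField.adjoin_simple_toSubalgebra_of_isAlgebraic
        (IsAlgebraic.of_finite K _), htop]
      trivial
    obtain ⟨t, ht⟩ := multiple_mem_adjoin_of_mem_localization_adjoin (nonZeroDivisors A) K _ _ h2
    obtain ⟨H, hH⟩ := exists_aeval_mhyp ht
    refine ⟨t, ?_⟩
    rw [Algebra.adjoin_singleton_eq_range_aeval]
    refine ⟨H, IsFractionRing.injective R L ?_⟩
    rw [aeval_algebraMap_apply] at hH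
    refine hH.trans ?_
    rw [Submonoid.smul_def, Submonoid.smul_def, Algebra.smul_def, Algebra.smul_def, map_mul,
      IsScalarTower.algebraMap_apply A R L]
  obtain ⟨Δ, hΔ, hΔ'⟩ := Submodule.annihilator_top_inter_nonZeroDivisors (R := A)
    (M := R ⧸ Subalgebra.toSubmodule (Algebra.adjoin A {f n})) fun z => by
      obtain ⟨b, rfl⟩ := Submodule.mkQ_surjective _ z
      obtain ⟨t, ht⟩ := hb b
      exact ⟨t, (Submodule.Quotient.mk_eq_zero _).2 ht⟩
  refine ⟨f n, Δ, isRed_perturb_mprim hred ?_, nonZeroDivisors.ne_zero hΔ', fun b => ?_⟩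
  · rw [show f n - x0 = algebraMap A R c ^ 2 * (n * θ1) by
      simp only [f, map_mul, map_pow, map_natCast]
      ring]
    exact Ideal.mul_mem_right _ _ (Ideal.pow_mem_pow hc 2)
  · exact exists_aeval_mhyp ((Submodule.Quotient.mk_eq_zero _).1
      (Submodule.mem_annihilator.1 hΔ (Submodule.Quotient.mk b) trivial))

/-- Separability. -/
theorem exists_gamma (hinj : Function.Injective (algebraMap A R)) {θ : R} {F : A[X]}
    (hF : F.Monic) (h0 : aeval θ F = 0) (hker : ∀ H : A[X], aeval θ H = 0 → F ∣ H) :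
    ∃ Γ : A, Γ ≠ 0 ∧ C Γ ∈ Ideal.span {F, derivative F} := by
  have _ : FaithfulSMul A R := (faithfulSMul_iff_algebraMap_injective _ _).2 hinj
  let K := FractionRing A
  let L := FractionRing R
  let _ : Algebra K L := FractionRing.liftAlgebra A L
  have hroot : aeval (algebraMap R L θ) (F.map (algebraMap A K)) = 0 := by
    rw [aeval_map_algebraMap, aeval_algebraMap_apply, h0, map_zero]
  have hint : IsIntegral K (algebraMap R L θ) := ⟨_, hF.map _, hroot⟩
  have heq : F.map (algebraMap A K) = minpoly K (algebraMap R L θ) := by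
    refine eq_of_monic_of_associated (hF.map _) (minpoly.monic hint)
      (associated_of_dvd_dvd ?_ (minpoly.dvd K _ hroot))
    obtain ⟨b, hb, e⟩ := IsLocalization.integerNormalization_spec (nonZeroDivisors A)
      (minpoly K (algebraMap R L θ))
    have h1 := hker (IsLocalization.integerNormalization (nonZeroDivisors A)
      (minpoly K (algebraMap R L θ))) (IsFractionRing.injective R L (by
        rw [← aeval_algebraMap_apply, ← aeval_map_algebraMap K, e, ← algebraMap_smul K b,
          map_smul, minpoly.aeval, smul_zero, map_zero]))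
    have h2 := Polynomial.map_dvd (algebraMap A K) h1
    rw [e, ← algebraMap_smul K b, smul_eq_C_mul] at h2
    exact (isUnit_C.2 (IsLocalization.map_units K ⟨b, hb⟩)).dvd_mul_left.1 h2
  have hsep : (F.map (algebraMap A K)).Separable := by
    rw [heq]
    exact (minpoly.irreducible hint).separable
  obtain ⟨u, v, huv⟩ := hsep
  obtain ⟨s, hs, es⟩ := IsLocalization.integerNormalization_spec (nonZeroDivisors A) u
  obtain ⟨t, ht, et⟩ := IsLocalization.integerNormalization_spec (nonZeroDivisors A) v
  refine ⟨s * t, mul_ne_zero (nonZeroDivisors.ne_zero hs) (nonZeroDivisors.ne_zero ht),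
    Ideal.mem_span_pair.2 ⟨C t * IsLocalization.integerNormalization (nonZeroDivisors A) u,
      C s * IsLocalization.integerNormalization (nonZeroDivisors A) v, ?_⟩⟩
  refine Polynomial.map_injective _ (IsFractionRing.injective A K) ?_
  rw [derivative_map] at huv
  simp only [Polynomial.map_add, Polynomial.map_mul, map_C, es, et, map_mul]
  rw [← algebraMap_smul K s, ← algebraMap_smul K t, smul_eq_C_mul, smul_eq_C_mul]
  linear_combination (C (algebraMap A K s) * C (algebraMap A K t)) * huv

end Vale.Agent.P202
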