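import Vale.Agent.P202.MDel
import Vale.Agent.P202.MPrim
import Vale.Agent.P202.MPr

/-! The localisation inequality in mixed characteristic. -/

namespace Vale.Agent.P202

open IsLocalRing Filter Topology

universe u

theorem mloc_local {A B : Type u} [CommRing A] [IsLocalRing A] [CommRing B] [IsLocalRing B]
    [Algebra A B] [Module.Finite A B] :
    (maximalIdeal A).map (algebraMap A B) ≤ maximalIdeal B := by
  rw [Ideal.map_le_iff_le_comap]
  exact (eq_maximalIdeal
    (Ideal.isMaximal_comap_of_isIntegral_of_isMaximal (R := A) (maximalIdeal B))).ge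

/-- A finite local algebra over a complete ring is complete. -/
theorem complete_of_finite {A B : Type u} [CommRing A] [IsLocalRing A] [IsNoetherianRing A]
    [IsAdicComplete (maximalIdeal A) A] [CommRing B] [IsLocalRing B] [Algebra A B]
    [Module.Finite A B] : IsAdicComplete (maximalIdeal B) B := by
  have : IsNoetherianRing B := IsNoetherianRing.of_finite A B
  have := IsHausdorff.of_isLocalRing (maximalIdeal B) B (maximalIdeal.isMaximal _).ne_top
  have h1 : IsPrecomplete (maximalIdeal A) B := by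
    obtain ⟨n, g, hg⟩ := Module.Finite.exists_fin' A B
    have := isPrecomplete_pi (Fin n) (maximalIdeal A)
    rw [← AdicCompletion.of_surjective_iff]
    intro y
    obtain ⟨x, rfl⟩ := AdicCompletion.map_surjective (maximalIdeal A) (f := g) hg y
    obtain ⟨a, rfl⟩ := AdicCompletion.of_surjective (maximalIdeal A) (Fin n → A) x
    exact ⟨_, (AdicCompletion.map_of _ _ _).symm⟩
  have h2 := IsPrecomplete.map_algebraMap_iff (S := B) (M := B) (I := maximalIdeal A).2 h1
  set J := (maximalIdeal A).map (algebraMap A B) with hJ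
  have hJm : J ≤ maximalIdeal B := mloc_local
  have hrad : maximalIdeal B ≤ J.radical := by
    rw [Ideal.radical_eq_sInf, le_sInf_iff]
    rintro Q ⟨hQ, hQp⟩
    have h3 : Q.comap (algebraMap A B) = maximalIdeal A :=
      ((maximalIdeal.isMaximal A).eq_of_le Ideal.IsPrime.ne_top'
        (Ideal.map_le_iff_le_comap.1 hQ)).symm
    have h4 : Q.IsMaximal :=
      Ideal.isMaximal_of_isIntegral_of_isMaximal_comap (R := A) Q (h3 ▸ maximalIdeal.isMaximal A)
    exact (eq_maximalIdeal h4).ge
  obtain ⟨t, ht⟩ := Ideal.exists_pow_le_of_le_radical_of_fg hrad (IsNoetherian.noetherian _)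
  have ht' : ∀ n, maximalIdeal B ^ ((t + 1) * n) ≤ J ^ n := fun n => by
    rw [pow_mul]
    exact Ideal.pow_right_mono ((Ideal.pow_le_pow_right (Nat.le_succ t)).trans ht) n
  refine { prec' := fun f hf => ?_ }
  have hf' : ∀ {m n : ℕ}, m ≤ n → f m - f n ∈ maximalIdeal B ^ m := fun h => by
    have h5 := SModEq.sub_mem.1 (hf h)
    rwa [smul_eq_mul, Ideal.mul_top] at h5
  obtain ⟨L, hL⟩ := IsPrecomplete.prec h2 (f := fun n => f ((t + 1) * n)) fun {m n} h => by
    rw [SModEq.sub_mem, smul_eq_mul, Ideal.mul_top]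
    exact ht' m (hf' (Nat.mul_le_mul_left _ h))
  refine ⟨L, fun n => ?_⟩
  rw [SModEq.sub_mem, smul_eq_mul, Ideal.mul_top]
  have h5 := SModEq.sub_mem.1 (hL n)
  rw [smul_eq_mul, Ideal.mul_top] at h5
  have h6 := hf' (show n ≤ (t + 1) * n by nlinarith)
  have h7 := Ideal.add_mem _ h6 (Ideal.pow_right_mono hJm n h5)
  rwa [sub_add_sub_cancel] at h7

/-- A complete hypersurface ring is a quotient of a power series ring. -/
theorem exists_ps_surj {p : ℕ} {C0 : Type u} [CommRing C0] [IsDomain C0]
    [IsDiscreteValuationRing C0] (hC : IsCohen p C0) {σ : Type} [Finite σ] {B : Type u}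
    [CommRing B] [IsLocalRing B] [Algebra (PS σ C0) B] [Module.Finite (PS σ C0) B] {θ : B}
    (hθ : θ ∈ maximalIdeal B) (hadj : Algebra.adjoin (PS σ C0) {θ} = ⊤) :
    ∃ π : PS (Option σ) C0 →+* B, Function.Surjective π ∧ π (MvPowerSeries.X none) = θ ∧
      ∀ a, π (MvPowerSeries.rename some a) = algebraMap (PS σ C0) B a := by
  have := hC.complete
  have := psl_complete (σ := σ) (Λ := C0)
  have : IsAdicComplete (maximalIdeal B) B := complete_of_finite (A := PS σ C0)
  have hX : ∀ j, algebraMap (PS σ C0) B (MvPowerSeries.X j) ∈ maximalIdeal B := fun j => by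
    refine mloc_local (A := PS σ C0) (Ideal.mem_map_of_mem _ ?_)
    rw [mem_maximalIdeal_mps, MvPowerSeries.constantCoeff_X]
    exact Ideal.zero_mem _
  obtain ⟨π, h1, h2⟩ := exists_psHom (σ := Option σ) (maximalIdeal B)
    ((algebraMap (PS σ C0) B).comp MvPowerSeries.C) (par MvPowerSeries.X θ) (by
      rintro (_ | j)
      · exact hθ
      · exact hX j)
  have h3 : π.comp (MvPowerSeries.rename (R := C0) (some : σ → Option σ)).toRingHom =
      algebraMap (PS σ C0) B := by
    have h4 : ∀ i, π (MvPowerSeries.rename some (MvPowerSeries.X i : PS σ C0)) =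
        algebraMap (PS σ C0) B (MvPowerSeries.X i) := fun i => by
      rw [MvPowerSeries.rename_X, h2]
      rfl
    refine psHom_ext (maximalIdeal B) _ _ (fun a => ?_) h4 fun i => ?_
    · change π (MvPowerSeries.rename some (MvPowerSeries.C a : PS σ C0)) = _
      rw [MvPowerSeries.rename_C, h1]
      rfl
    · change π (MvPowerSeries.rename some (MvPowerSeries.X i : PS σ C0)) ∈ _
      rw [h4]
      exact hX i
  have h5 : ∀ a, π (MvPowerSeries.rename some a) = algebraMap (PS σ C0) B a :=
    fun a => congrArg (fun ψ => ψ a) h3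
  refine ⟨π, fun b => ?_, h2 none, h5⟩
  have hb : b ∈ Algebra.adjoin (PS σ C0) {θ} := hadj ▸ Algebra.mem_top
  change b ∈ π.range
  induction hb using Algebra.adjoin_induction with
  | mem x hx => exact ⟨_, (h2 none).trans (Set.mem_singleton_iff.1 hx).symm⟩
  | algebraMap a => exact ⟨_, h5 a⟩
  | add x y _ _ hx hy => exact π.range.add_mem hx hy
  | mul x y _ _ hx hy => exact π.range.mul_mem hx hy

theorem mloc_low {A S : Type u} [CommRing A] [CommRing S] [IsLocalRing A] [IsNoetherianRing A]
    [IsLocalRing S] [IsNoetherianRing S] [Algebra A S] [IsLocalHom (algebraMap A S)]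
    (hres : Function.Surjective (algebraMap (ResidueField A) (ResidueField S))) {I : Ideal A}
    {t : ℕ} (ht : maximalIdeal A ^ t ≤ I) {n0 : ℕ}
    (hred : maximalIdeal S ^ (n0 + 1) ≤ I.map (algebraMap A S) * maximalIdeal S ^ n0) {D : ℕ}
    (hg : Grow A D) {e0 : ℝ} (he0 : IsMult A I D e0) {r : ℕ} (v : Fin r → S)
    (hli : LinearIndependent A v) {c : A} (hc : c ≠ 0)
    (hcv : ∀ w : S, c • w ∈ Submodule.span A (Set.range v)) {e : ℝ}
    (he : IsMult S (maximalIdeal S) D e) : r * e0 ≤ e := by
  have hpow : ∀ n : ℕ, maximalIdeal S ^ (n + n0) ≤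
      I.map (algebraMap A S) ^ n * maximalIdeal S ^ n0 := by
    intro n
    induction n with
    | zero => simp
    | succ n ih =>
      calc maximalIdeal S ^ (n + 1 + n0) = maximalIdeal S ^ (n + n0) * maximalIdeal S := by ring
        _ ≤ I.map (algebraMap A S) ^ n * maximalIdeal S ^ n0 * maximalIdeal S :=
          Ideal.mul_mono_left ih
        _ = I.map (algebraMap A S) ^ n * maximalIdeal S ^ (n0 + 1) := by ring
        _ ≤ I.map (algebraMap A S) ^ n * (I.map (algebraMap A S) * maximalIdeal S ^ n0) :=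
          Ideal.mul_mono_right hred
        _ = _ := by ring
  refine le_of_rank_low hg ht he0 (W := ⊤) v (fun _ => trivial) hli hc
    (fun w _ => hcv w) (fun n => Module.length S (S ⧸ maximalIdeal S ^ (n + n0)))
    (fun n => length_quot_pow_ne_top (t := 1) (by rw [pow_one]) _) (fun n => ?_) ?_
  · have h1 : Module.length (ResidueField A) (ResidueField S) = 1 := by
      rw [Module.length_eq_of_surjective hres]
      exact Module.length_eq_one _ _
    rw [Ideal.smul_top_eq_map, ← Submodule.restrictScalars_top A S, rl_restrictScalars, h1,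
      mul_one, Ideal.map_pow]
    refine (rl_anti_left _ ((hpow n).trans Ideal.mul_le_left) ⊤).trans (le_of_eq ?_)
    exact rl_top _ _
  · have h1 := (he.comp (tendsto_add_atTop_nat n0)).mul (hs_tendsto_ratio (n0 : ℝ) D)
    rw [mul_one] at h1
    refine h1.congr' ?_
    filter_upwards [eventually_gt_atTop 0] with n hn
    have h2 : (n : ℝ) ≠ 0 := by positivity
    have h3 : (n : ℝ) + n0 ≠ 0 := by positivity
    simp only [Function.comp_apply, HS, Nat.cast_add, div_pow]
    field_simp

/-- The dimension of a localisation. -/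
theorem mloc_dim {B : Type u} [CommRing B] (q : Ideal B) [q.IsPrime] {f d : ℕ}
    (hf : ringKrullDim (B ⧸ q) = f) (hD : ringKrullDim B ≤ (f + d : ℕ)) :
    ringKrullDim (Localization.AtPrime q) ≤ d := by
  let x : PrimeSpectrum B := ⟨q, ‹_›⟩
  have : Nonempty (PrimeSpectrum B) := ⟨x⟩
  have h1 : PrimeSpectrum.zeroLocus (R := B) q = Set.Ici x := by
    ext y
    exact PrimeSpectrum.mem_zeroLocus _ _
  rw [ringKrullDim_quotient, h1, ← Order.coheight_eq_krullDim_Ici] at hf
  have h2 : Order.coheight x = f := by exact_mod_cast hf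
  rw [ringKrullDim, Order.krullDim_eq_iSup_height_add_coheight_of_nonempty] at hD
  have h3 : (⨆ a : PrimeSpectrum B, Order.height a + Order.coheight a) ≤ (f + d : ℕ) := by
    exact_mod_cast hD
  have h4 := (le_iSup (fun a : PrimeSpectrum B => Order.height a + Order.coheight a) x).trans h3
  rw [h2, Nat.cast_add, add_comm] at h4
  have h5 : Order.height x ≤ d := (ENat.add_le_add_iff_left (by simp)).1 h4
  rw [IsLocalization.AtPrime.ringKrullDim_eq_height q, x.height_eq_orderHeight]
  exact_mod_cast h5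

theorem mloc_core {B S : Type u} [CommRing B] [IsDomain B] [IsLocalRing B] [IsNoetherianRing B]
    [CommRing S] [IsLocalRing S] [IsNoetherianRing S] [Algebra B S] [Module.Finite B S]
    [IsLocalHom (algebraMap B S)] (hinj : Function.Injective (algebraMap B S))
    (hres : Function.Surjective (algebraMap (ResidueField B) (ResidueField S))) {I : Ideal B}
    {t : ℕ} (ht : maximalIdeal B ^ t ≤ I) {n0 : ℕ}
    (hred : maximalIdeal S ^ (n0 + 1) ≤ I.map (algebraMap B S) * maximalIdeal S ^ n0) {f d : ℕ}
    {a : ℝ} (ha : IsMult B I (f + d) a) (P : Ideal S) [P.IsPrime]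
    (hf : ringKrullDim (S ⧸ P) = f) (hD : ringKrullDim S = (f + d : ℕ))
    (hup : ∀ (q : Ideal B) [q.IsPrime], q = P.comap (algebraMap B S) →
      ringKrullDim (B ⧸ q) = f → ∀ e : ℝ,
      IsMult (Localization.AtPrime q) (maximalIdeal (Localization.AtPrime q)) d e → e ≤ a)
    (ha0 : 0 ≤ a) {eP eS : ℝ}
    (heP : IsMult (Localization.AtPrime P) (maximalIdeal (Localization.AtPrime P)) d eP)
    (heS : IsMult S (maximalIdeal S) (f + d) eS) : eP ≤ eS := by
  have hB : ringKrullDim B ≤ (f + d : ℕ) := hD ▸ loc_dim_ge hinj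
  obtain ⟨r, v, c, -, hli, hc, hcv⟩ := exists_generic_basis
    (Module.Finite.fg_top (R := B) (M := S))
  have hlow : (r : ℝ) * a ≤ eS :=
    mloc_low hres ht hred (grow_of_dim_le hB) ha v hli hc (fun w => hcv w trivial) heS
  let q := P.comap (algebraMap B S)
  have hq : q.IsPrime := Ideal.comap_isPrime _ _
  have hlies : P.LiesOver q := ⟨rfl⟩
  have hdim : ringKrullDim (B ⧸ q) = f := by
    rw [← hf]
    exact le_antisymm (loc_dim_ge (FaithfulSMul.algebraMap_injective _ _)) loc_dim_le
  have hdq := mloc_dim q hdim hB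
  obtain ⟨e0, he0⟩ := exists_isMult_of_le hdq
  have he0' := hup q rfl hdim e0 he0
  let _ := Localization.AtPrime.algebraOfLiesOver q P
  have : IsLocalHom (algebraMap (Localization.AtPrime q) (Localization.AtPrime P)) :=
    Localization.isLocalHom_localRingHom q P _ _
  obtain ⟨k, hk, hk'⟩ := loc_up (A := B)
    (A' := Localization.AtPrime q) (S' := Localization.AtPrime P)
    (fun a => Localization.localRingHom_to_map q P _ _ a) P
    (fun a ha => (IsLocalization.AtPrime.isUnit_to_map_iff (Localization.AtPrime q) q a).2 ha)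
    (grow_of_dim_le hdq) he0 v (c := c) (by
      rw [Ne, map_eq_zero_iff _
        (IsLocalization.injective _ q.primeCompl_le_nonZeroDivisors)]
      exact hc) (fun w => hcv w trivial) heP
  have h1 : (k : ℝ) ≤ r := by exact_mod_cast hk
  have h2 : (k : ℝ) * e0 ≤ k * a := mul_le_mul_of_nonneg_left he0' (by positivity)
  have h3 : (k : ℝ) * a ≤ r * a := mul_le_mul_of_nonneg_right h1 ha0
  linarith

variable {p : ℕ} [Fact p.Prime] {l : Type u} [Field l] [CharP l p] [PerfectRing l p] [Infinite l]

theorem mloc_hyp {σ : Type} [Finite σ] {B : Type u} [CommRing B] [IsLocalRing B]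
    [IsNoetherianRing B] [Algebra (PS σ (WittVector p l)) B]
    [Module.Finite (PS σ (WittVector p l)) B] {θ : B} (hθ : θ ∈ maximalIdeal B)
    (hadj : Algebra.adjoin (PS σ (WittVector p l)) {θ} = ⊤)
    {F : Polynomial (PS σ (WittVector p l))} {a : ℕ} {u : PS σ (WittVector p l)}
    (h : Hyp p MvPowerSeries.X θ F a u) (q : Ideal B) [q.IsPrime] (hp : (p : B) ∈ q) {f d : ℕ}
    (hf : ringKrullDim (B ⧸ q) = f) (hσ : Nat.card σ + 1 = f + d) {e : ℝ}
    (he : IsMult (Localization.AtPrime q) (maximalIdeal (Localization.AtPrime q)) d e) :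
    e ≤ a := by
  obtain ⟨π, hπ, hπ0, hπ1⟩ := exists_ps_surj (isCohen_witt p l) hθ hadj
  let ρ : PS σ (WittVector p l) →+* PS (Option σ) (WittVector p l) :=
    (MvPowerSeries.rename (R := WittVector p l) (some : σ → Option σ)).toRingHom
  have hρ : π.comp ρ = algebraMap _ B := RingHom.ext hπ1
  refine hyp_loc_le π hπ (f0 := F.eval₂ ρ (MvPowerSeries.X none)) (u := ρ u) ?_ (h.unit.map ρ) ?_
    q hp hf (by rw [Finite.card_option, hσ]) he
  · rw [Polynomial.hom_eval₂, hρ, hπ0, ← Polynomial.aeval_def, h.root]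
  · have h1 : F.eval₂ ρ (MvPowerSeries.X none) -
        (p : PS (Option σ) (WittVector p l)) ^ a * ρ u =
        F.divX.eval₂ ρ (MvPowerSeries.X none) * MvPowerSeries.X none +
          ρ (F.coeff 0 - (p : PS σ (WittVector p l)) ^ a * u) := by
      conv_lhs => rw [← Polynomial.divX_mul_X_add F]
      rw [Polynomial.eval₂_add, Polynomial.eval₂_mul, Polynomial.eval₂_X, Polynomial.eval₂_C,
        map_sub, map_mul, map_pow, map_natCast]
      ring
    rw [h1]
    refine Ideal.add_mem _ (Ideal.mul_mem_left _ _ (Ideal.subset_span ⟨none, rfl⟩)) ?_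
    have h2 := Ideal.mem_map_of_mem ρ h.ord
    rw [Ideal.map_span] at h2
    refine Ideal.span_mono ?_ h2
    rintro _ ⟨_, ⟨j, rfl⟩, rfl⟩
    exact ⟨some j, (MvPowerSeries.rename_X some j).symm⟩

theorem mloc_infinite {S : Type u} [CommRing S] [IsLocalRing S] (ω : WittVector p l →+* S)
    (hω : Function.Surjective ((residue S).comp ω)) : Infinite (ResidueField S) := by
  have h1 := eq_maximalIdeal (RingHom.ker_isMaximal_of_surjective _ hω)
  have h2 := eq_maximalIdeal (RingHom.ker_isMaximal_of_surjective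
    (WittVector.constantCoeff : WittVector p l →+* l) (WittVector.constantCoeff_surjective p))
  refine Infinite.of_injective (fun a : l => ((residue S).comp ω) (WittVector.teichmuller p a))
    fun a b hab => ?_
  have h3 : WittVector.teichmuller p a - WittVector.teichmuller p b ∈
      RingHom.ker ((residue S).comp ω) := (RingHom.sub_mem_ker_iff _).2 hab
  rw [h1, ← h2, RingHom.sub_mem_ker_iff] at h3
  simpa using h3

variable {S : Type u} [CommRing S] [IsLocalRing S] [IsNoetherianRing S]
  [IsAdicComplete (maximalIdeal S) S]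

theorem mult_loc_le_domain [IsDomain S] (ω : WittVector p l →+* S)
    (hω : Function.Surjective ((residue S).comp ω)) (hp0 : (p : S) ≠ 0) (P : Ideal S) [P.IsPrime]
    (hp : (p : S) ∈ P) {f d : ℕ} (hf : ringKrullDim (S ⧸ P) = f)
    (hD : ringKrullDim S = (f + d : ℕ)) {eP eS : ℝ}
    (heP : IsMult (Localization.AtPrime P) (maximalIdeal (Localization.AtPrime P)) d eP)
    (heS : IsMult S (maximalIdeal S) (f + d) eS) : eP ≤ eS := by
  have hC := isCohen_witt p l
  have := mloc_infinite ω hω
  have hpm : (p : S) ∈ maximalIdeal S := le_maximalIdeal Ideal.IsPrime.ne_top' hp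
  obtain ⟨D, hDe⟩ : ∃ D, D + 1 = f + d := by
    rcases Nat.eq_zero_or_pos (f + d) with h0 | h0
    · rw [h0] at hD
      have h1 : Ring.KrullDimLE 0 S :=
        ringKrullDimZero_iff_ringKrullDim_eq_zero.2 (by exact_mod_cast hD)
      have h2 : (⊥ : Ideal S).IsMaximal := Ideal.isMaximal_of_isPrime _
      rw [← eq_maximalIdeal h2] at hpm
      exact absurd hpm hp0
    · exact ⟨f + d - 1, by omega⟩
  obtain ⟨_, x0, hfin, hinj, hloc, hω', hred⟩ :=
    exists_noether hC ω hω hpm hp0 (d := D) (hDe ▸ hD)
  obtain ⟨F, a, u, hF⟩ := exists_hyp hC.max hinj hred.isSop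
  obtain ⟨_, hN, hl, hfin', hsop, -⟩ := adjoin_local hred.isSop
  obtain ⟨hF', hadj⟩ := hF.gen
  have hmult := hF'.isMult hC.max hadj
  have hcard : Nat.card (Fin D) + 1 = f + d := by
    rw [Nat.card_eq_fintype_card, Fintype.card_fin, hDe]
  rw [hcard] at hmult
  have : IsNoetherian (PS (Fin D) (WittVector p l)) S := inferInstance
  have : Module.Finite (PS (Fin D) (WittVector p l))
      (Algebra.adjoin (PS (Fin D) (WittVector p l)) {x0}) :=
    Module.Finite.of_injective (Algebra.adjoin (PS (Fin D) (WittVector p l)) {x0}).val.toLinearMap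
      Subtype.val_injective
  obtain ⟨t, ht⟩ := hsop.2
  obtain ⟨n0, hn0⟩ := hred.2
  refine mloc_core (B := Algebra.adjoin (PS (Fin D) (WittVector p l)) {x0}) Subtype.val_injective
    ?_ ht (n0 := n0) ?_ hmult P hf hD ?_ (Nat.cast_nonneg a) heP heS
  · intro z
    obtain ⟨w, rfl⟩ := hω z
    refine ⟨residue _ (algebraMap (PS (Fin D) (WittVector p l)) _ (MvPowerSeries.C w)), ?_⟩
    rw [RingHom.comp_apply, ← hω']
    rfl
  · rw [Ideal.map_span, ← Set.range_comp]
    have h1 : (algebraMap (Algebra.adjoin (PS (Fin D) (WittVector p l)) {x0}) S) ∘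
        par (MvPowerSeries.X : Fin D → PS (Fin D) (WittVector p l))
          (gen (PS (Fin D) (WittVector p l)) x0) =
        par (MvPowerSeries.X : Fin D → PS (Fin D) (WittVector p l)) x0 := by
      funext o
      cases o <;> rfl
    rw [h1]
    exact hn0
  · intro q _ hq hqf e he
    refine mloc_hyp (hsop.1 none) hadj hF' q ?_ hqf hcard he
    rw [hq, Ideal.mem_comap, map_natCast]
    exact hp

end Vale.Agent.P202
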