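import Vale.Agent.P202.MLoc

/-! The localisation inequality in mixed characteristic, general case. -/

namespace Vale.Agent.P202

open IsLocalRing

universe u

theorem dim_loc_add_le_mloc2 {A : Type u} [CommRing A] (P : Ideal A) [hP : P.IsPrime] :
    ringKrullDim (Localization.AtPrime P) + ringKrullDim (A ⧸ P) ≤ ringKrullDim A := by
  have : Nonempty (PrimeSpectrum A) := ⟨⟨P, hP⟩⟩
  have h1 : ringKrullDim (A ⧸ P) = Order.coheight (⟨P, hP⟩ : PrimeSpectrum A) := by
    rw [ringKrullDim_quotient, Order.coheight_eq_krullDim_Ici]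
    rfl
  rw [IsLocalization.AtPrime.ringKrullDim_eq_height P (Localization.AtPrime P), h1, ringKrullDim,
    Order.krullDim_eq_iSup_height_add_coheight_of_nonempty,
    PrimeSpectrum.height_eq_orderHeight ⟨P, hP⟩, ← WithBot.coe_add, WithBot.coe_le_coe]
  exact le_iSup (fun a : PrimeSpectrum A => Order.height a + Order.coheight a) ⟨P, hP⟩

/-- Localisation commutes with quotients. -/
theorem loc_quot_mloc2 {A B : Type u} [CommRing A] [CommRing B] (π : A →+* B)
    (hπ : Function.Surjective π) (P : Ideal A) [P.IsPrime] (P1 : Ideal B) [P1.IsPrime]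
    (h : P = P1.comap π) :
    Function.Surjective (Localization.localRingHom P P1 π h) ∧
      RingHom.ker (Localization.localRingHom P P1 π h) =
        (RingHom.ker π).map (algebraMap A (Localization.AtPrime P)) := by
  constructor
  · intro z
    obtain ⟨⟨a, s⟩, rfl⟩ := IsLocalization.mk'_surjective P1.primeCompl z
    obtain ⟨a, rfl⟩ := hπ a
    obtain ⟨s', hs'⟩ := hπ s.1
    have hs : s' ∈ P.primeCompl := by
      intro h1
      rw [h] at h1
      exact s.2 (hs' ▸ h1)
    refine ⟨IsLocalization.mk' _ a ⟨s', hs⟩, ?_⟩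
    rw [Localization.localRingHom_mk']
    congr 1
    exact Subtype.ext hs'
  · refine le_antisymm (fun z hz => ?_) (Ideal.map_le_iff_le_comap.2 fun a ha => ?_)
    · obtain ⟨⟨a, s⟩, rfl⟩ := IsLocalization.mk'_surjective P.primeCompl z
      rw [RingHom.mem_ker, Localization.localRingHom_mk', IsLocalization.mk'_eq_zero_iff] at hz
      obtain ⟨t, ht⟩ := hz
      obtain ⟨t', ht'⟩ := hπ t.1
      have ht1 : t' ∈ P.primeCompl := by
        intro h1
        rw [h] at h1
        exact t.2 (ht' ▸ h1)
      rw [IsLocalization.mk'_mem_map_algebraMap_iff]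
      exact ⟨t', ht1, by rw [RingHom.mem_ker, map_mul, ht', ht]⟩
    · rw [Ideal.mem_comap, RingHom.mem_ker, Localization.localRingHom_to_map, ha, map_zero]

variable {p : ℕ} [Fact p.Prime] {l : Type u} [Field l] [CharP l p] [PerfectRing l p] [Infinite l]
  {S : Type u} [CommRing S] [IsLocalRing S] [IsNoetherianRing S]

omit [IsNoetherianRing S] in
theorem infinite_residue_of_witt (ω : WittVector p l →+* S)
    (hω : Function.Surjective ((residue S).comp ω)) :
    Infinite (ResidueField S) ∧ (p : S) ∈ maximalIdeal S := by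
  have h1 : RingHom.ker ((residue S).comp ω) = Ideal.span {(p : WittVector p l)} := by
    rw [← (isCohen_witt p l).max]
    exact eq_maximalIdeal (RingHom.ker_isMaximal_of_surjective _ hω)
  constructor
  · refine Infinite.of_injective (fun x : l => residue S (ω (WittVector.teichmuller p x)))
      fun x y hxy => ?_
    have h2 : WittVector.teichmuller p x - WittVector.teichmuller p y ∈
        RingHom.ker ((residue S).comp ω) := by
      rw [RingHom.mem_ker, map_sub, sub_eq_zero]
      exact hxy
    rw [h1, ← WittVector.ker_constantCoeff, RingHom.mem_ker, map_sub, sub_eq_zero] at h2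
    simpa using h2
  · have h2 : (p : WittVector p l) ∈ RingHom.ker ((residue S).comp ω) :=
      h1 ▸ Ideal.subset_span rfl
    rw [RingHom.mem_ker, RingHom.comp_apply, residue_eq_zero_iff, map_natCast] at h2
    exact h2

theorem res_surj_mloc2 {W S S1 : Type u} [CommRing W] [CommRing S] [IsLocalRing S] [CommRing S1]
    [IsLocalRing S1] (ω : W →+* S) (hω : Function.Surjective ((residue S).comp ω))
    (π : S →+* S1) (hπ : Function.Surjective π) :
    Function.Surjective ((residue S1).comp (π.comp ω)) := by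
  have := IsLocalHom.of_surjective π hπ
  intro z
  obtain ⟨z, rfl⟩ := residue_surjective z
  obtain ⟨s, rfl⟩ := hπ z
  obtain ⟨a, ha⟩ := hω (residue S s)
  refine ⟨a, ?_⟩
  have h1 : ω a - s ∈ maximalIdeal S := by
    rw [← Ideal.Quotient.eq]
    exact ha
  have h2 : π (ω a - s) ∈ maximalIdeal S1 := map_nonunit π _ h1
  rw [map_sub] at h2
  exact Ideal.Quotient.eq.2 h2

theorem mult_loc_le_mix [IsAdicComplete (maximalIdeal S) S] (ω : WittVector p l →+* S)
    (hω : Function.Surjective ((residue S).comp ω)) (P : Ideal S) [P.IsPrime]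
    (hp : (p : S) ∈ P) {f d : ℕ} (hf : ringKrullDim (S ⧸ P) = f)
    (hD : ringKrullDim S = (f + d : ℕ)) {eP eS : ℝ}
    (heP : IsMult (Localization.AtPrime P) (maximalIdeal (Localization.AtPrime P)) d eP)
    (heS : IsMult S (maximalIdeal S) (f + d) eS) : eP ≤ eS := by
  obtain ⟨a, ha1, ha2⟩ := prime_red (algebraMap S (Localization.AtPrime P)) (RingHom.id S)
    (RingHom.Flat.id S) d (f + d) (fun Q hQ => by
    rw [Ideal.map_id]
    by_cases hQP : Q ≤ P
    swap
    · refine ⟨0, ?_, low_zero _ _⟩
      rw [IsLocalization.AtPrime.map_eq_top_of_not_le _ hQP]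
      exact up_top d
    have hπ : Function.Surjective (Ideal.Quotient.mk Q) := Ideal.Quotient.mk_surjective
    have : Nontrivial (S ⧸ Q) := Ideal.Quotient.nontrivial_iff.2 hQ.ne_top
    have : IsLocalRing (S ⧸ Q) := IsLocalRing.of_surjective' _ hπ
    have hk : RingHom.ker (Ideal.Quotient.mk Q) = Q := Ideal.mk_ker
    have hP1 : (P.map (Ideal.Quotient.mk Q)).IsPrime :=
      Ideal.map_isPrime_of_surjective hπ (hk.le.trans hQP)
    have hc : P = (P.map (Ideal.Quotient.mk Q)).comap (Ideal.Quotient.mk Q) := by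
      rw [Ideal.comap_map_of_surjective _ hπ, ← RingHom.ker_eq_comap_bot, hk, sup_eq_left.2 hQP]
    obtain ⟨hs, hker⟩ := loc_quot_mloc2 _ hπ P _ hc
    rw [hk] at hker
    have hf1 : ringKrullDim ((S ⧸ Q) ⧸ P.map (Ideal.Quotient.mk Q)) = f := by
      rw [← hf]
      exact ringKrullDim_eq_of_ringEquiv (DoubleQuot.quotQuotEquivQuotOfLE hQP)
    have hle : ringKrullDim (S ⧸ Q) ≤ (f + d : ℕ) := hD ▸ ringKrullDim_le_of_surjective _ hπ
    have hsum := dim_loc_add_le_mloc2 (P.map (Ideal.Quotient.mk Q))
    obtain ⟨d1, hd1⟩ := LC.exists_dim (Localization.AtPrime (P.map (Ideal.Quotient.mk Q)))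
    obtain ⟨D1, hD1⟩ := LC.exists_dim (S ⧸ Q)
    rw [hd1, hf1, hD1] at hsum
    rw [hD1] at hle
    have hsum' : d1 + f ≤ D1 := by exact_mod_cast hsum
    have hle' : D1 ≤ f + d := by exact_mod_cast hle
    by_cases hlt : d1 < d
    · refine ⟨0, ?_, low_zero _ _⟩
      rw [← hker]
      exact up_of_isMult _ hs (isMult_zero_of_lt (by rw [hd1]; exact_mod_cast hlt))
    obtain rfl : d1 = d := by omega
    obtain rfl : D1 = f + d1 := by omega
    obtain ⟨e1, he1⟩ := exists_isMult _ hd1
    obtain ⟨e2, he2⟩ := exists_isMult _ hD1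
    have := complete_of_surjective _ hπ
    have hω1 := res_surj_mloc2 ω hω _ hπ
    have hle : e1 ≤ e2 := by
      by_cases hp0 : (p : S ⧸ Q) = 0
      · have := (infinite_residue_of_witt _ hω1).1
        exact mult_loc_le (Or.inr ⟨p, Fact.out, hp0⟩) _ hf1 hD1 he1 he2
      · refine mult_loc_le_domain _ hω1 hp0 _ ?_ hf1 hD1 he1 he2
        rw [← map_natCast (Ideal.Quotient.mk Q)]
        exact Ideal.mem_map_of_mem _ hp
    refine ⟨e1, ?_, ?_⟩
    · rw [← hker]
      exact up_of_isMult _ hs he1
    · have := low_of_isMult _ hπ he2 hle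
      rwa [hk] at this)
  exact le_of_up_low ha1 ha2 heP heS

end Vale.Agent.P202
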