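import Vale.Agent.P202.MCx
import Vale.Agent.P202.MLen2
import Vale.Agent.P202.Ideals

/-! Cohomology of line bundles on a product of projective lines, modulo an ideal. -/

namespace Vale.Agent.P202

open scoped ENNReal

universe u

variable {A : Type u} [CommRing A] {m : ℕ}

theorem hr_cech_transfer (μ : RLen A) {M M' : Type u} [AddCommGroup M] [Module A M]
    [AddCommGroup M'] [Module A M'] (φ : M →ₗ[A] M')
    {D' D'' : (Fin m → Ch) → Submodule A M} {G' G'' : (Fin m → Ch) → Submodule A M'}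
    (hD : CMono D'') (hG : CMono G') (hsurj : ∀ J, (D'' J).map φ ⊔ G' J = G'' J)
    (hinj : ∀ J, D'' J ⊓ (G' J).comap φ = D' J) (n : ℤ) :
    hr μ (cd A m M) (Cech D') (Cech D'') n = hr μ (cd A m M') (Cech G') (Cech G'') n := by
  have := hr_transfer μ (d := cd A m M) (d' := cd A m M') (F' := Cech D') (F'' := Cech D'')
    (G' := Cech G') (G'' := Cech G'') (φ.compLeft (Fin m → Ch)) 0 1 (cech_isCx hD) (cech_isCx hG)
    (fun n x _ => by
      have : (φ.compLeft (Fin m → Ch)) (cd A m M x) = cd A m M' (φ.compLeft (Fin m → Ch) x) :=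
        funext fun J => (cd_comp φ x J).symm
      simp [this])
    (fun n => by
      rw [add_zero]
      apply le_antisymm
      · refine sup_le ?_ (cech_mono (fun J => (hsurj J) ▸ le_sup_right) n)
        rintro _ ⟨ξ, hξ, rfl⟩
        obtain ⟨h1, h2⟩ := mem_cech.1 hξ
        refine mem_cech.2 ⟨fun J hJ => ?_, fun J hJ => by simp [h2 J hJ]⟩
        rw [← hsurj J]
        exact Submodule.mem_sup_left ⟨ξ J, h1 J hJ, rfl⟩
      · intro ξ hξ
        obtain ⟨h1, h2⟩ := mem_cech.1 hξ
        have : ∀ J, ∃ a b, φ a + b = ξ J ∧ ((cdeg J : ℤ) = -n → a ∈ D'' J ∧ b ∈ G' J) ∧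
            ((cdeg J : ℤ) ≠ -n → a = 0 ∧ b = 0) := by
          intro J
          by_cases hJ : (cdeg J : ℤ) = -n
          · have := h1 J hJ
            rw [← hsurj J] at this
            obtain ⟨_, ⟨a, ha, rfl⟩, b, hb, e⟩ := Submodule.mem_sup.1 this
            exact ⟨a, b, e, fun _ => ⟨ha, hb⟩, fun h => (h hJ).elim⟩
          · exact ⟨0, 0, by simp [h2 J hJ], fun h => (hJ h).elim, fun _ => ⟨rfl, rfl⟩⟩
        choose a b e1 e2 e3 using this
        refine Submodule.mem_sup.2 ⟨_, ⟨a, mem_cech.2 ⟨fun J hJ => (e2 J hJ).1,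
          fun J hJ => (e3 J hJ).1⟩, rfl⟩, b, mem_cech.2 ⟨fun J hJ => (e2 J hJ).2,
          fun J hJ => (e3 J hJ).2⟩, funext e1⟩)
    (fun n => by
      rw [add_zero]
      ext ξ
      rw [Submodule.mem_inf, Submodule.mem_comap, mem_cech, mem_cech, mem_cech]
      constructor
      · rintro ⟨⟨h1, h2⟩, h3, -⟩
        exact ⟨fun J hJ => (hinj J) ▸ ⟨h1 J hJ, h3 J hJ⟩, h2⟩
      · rintro ⟨h1, h2⟩
        have h3 : ∀ J, (cdeg J : ℤ) = -n → ξ J ∈ D'' J ⊓ (G' J).comap φ := fun J hJ =>
          (hinj J).symm ▸ h1 J hJ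
        exact ⟨⟨fun J hJ => (h3 J hJ).1, h2⟩, fun J hJ => (h3 J hJ).2,
          fun J hJ => by simp [h2 J hJ]⟩) n
  rwa [add_zero] at this

theorem hr_of_zero_diff_mmono (μ : RLen A) {E : Type u} [AddCommGroup E] [Module A E]
    {d : E →ₗ[A] E} {F' F'' : ℤ → Submodule A E} (h : ∀ n, (F'' n).map d ≤ F' (n - 1)) (n : ℤ) :
    hr μ d F' F'' n = rr μ (F' n) (F'' n) := by
  unfold hr Bc Zc
  have e1 : F' n ⊔ (F'' (n + 1)).map d = F' n := sup_eq_left.2 (by simpa using h (n + 1))
  have e2 : F'' n ⊓ (F' (n - 1)).comap d = F'' n :=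
    inf_eq_left.2 (Submodule.map_le_iff_le_comap.1 (h n))
  rw [e1, e2]

theorem hr_eq_of_exa_mmono (μ : RLen A) {E : Type u} [AddCommGroup E] [Module A E]
    {d : E →ₗ[A] E} {F1 F2 F3 : ℤ → Submodule A E} (h : Tri d F1 F2 F3) (e12 : Exa d F1 F2)
    (n : ℤ) : hr μ d F1 F3 n = hr μ d F2 F3 n := by
  apply le_antisymm
  · have := h.le_add μ n
    rwa [hr_eq_zero_of_exa _ e12, zero_add] at this
  · have := h.quot_le μ n
    rwa [hr_eq_zero_of_exa _ e12, add_zero] at this

theorem rr_Jstar_mmono (μ : RLen A) (b : Fin m → ℤ) :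
    rr μ (Cm' A b (Jstar b)) (Cm A b (Jstar b)) = ((Box b).card : ℝ≥0∞) * μ.len A := by
  classical
  let φ : Lau A m →ₗ[A] (Box b → A) := LinearMap.pi fun β => cf A β.1
  have h1 : Cm' A b (Jstar b) = LinearMap.ker φ ⊓ Cm A b (Jstar b) := by
    ext v
    rw [mem_Cm', Submodule.mem_inf, mem_Cm, LinearMap.mem_ker, funext_iff (f := φ v)]
    constructor
    · intro h
      refine ⟨fun β => ?_, fun β hβ => ?_⟩
      · by_contra hc
        exact (h β.1 hc).2 ⟨rfl, β.2⟩
      · by_contra hc
        exact hβ (h β hc).1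
    · rintro ⟨h1, h2⟩ β hβ
      refine ⟨?_, fun hc => hβ (h1 ⟨β, hc.2⟩)⟩
      by_contra hc
      exact hβ (h2 β hc)
  have h2 : (Cm A b (Jstar b)).map φ = ⊤ := by
    refine top_le_iff.1 fun w _ => ?_
    rw [← Finset.univ_sum_single w]
    refine Submodule.sum_mem _ fun β _ => ⟨AddMonoidAlgebra.single β.1 (w β),
      mem_Cm.2 fun γ hγ => ?_, funext fun γ => ?_⟩
    · rw [AddMonoidAlgebra.coeff_single, Finsupp.single_apply, if_neg]
      rintro rfl
      exact hγ (mem_Om_of_box β.2 fun j hj => Jstar_eq_W.2 hj)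
    · change (AddMonoidAlgebra.single β.1 (w β) : Lau A m).coeff γ.1 = _
      rw [AddMonoidAlgebra.coeff_single, Finsupp.single_apply, Pi.single_apply]
      exact if_congr (Subtype.ext_iff.symm.trans eq_comm) rfl rfl
  rw [h1, rr_inf, rr_eq_len_map μ φ _ _ rfl, h2, μ.equiv Submodule.topEquiv,
    μ.len_pi fun _ : Box b => A]
  simp

theorem mono_hr (μ : RLen A) (b : Fin m → ℤ) (n : ℤ) :
    hr μ (cd A m (Lau A m)) ⊥ (Cech (Cm A b)) n =
      if n = -(cdeg (Jstar b) : ℤ) then ((Box b).card : ℝ≥0∞) * μ.len A else 0 := by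
  rw [hr_eq_of_exa_mmono μ ⟨sq_of_comp cd_comp_cd _ _, isCx_bot, cech_isCx (Cm'_cmono b),
    cech_isCx (Cm_cmono b), bot_le, cech_mono (Cm'_le b)⟩ (Cm'_exa b),
    hr_of_zero_diff_mmono μ (cd_mem_Cm' b)]
  unfold Cech
  rw [rr_pi, Finset.sum_eq_single (Jstar b)]
  · by_cases h : n = -(cdeg (Jstar b) : ℤ)
    · rw [if_pos h, if_pos (by omega), if_pos (by omega), rr_Jstar_mmono]
    · rw [if_neg h, if_neg (by omega), if_neg (by omega), rr_eq_zero_of_le μ le_rfl]
  · intro J _ hJ
    refine rr_eq_zero_of_le μ ?_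
    split_ifs
    · exact AddMonoidAlgebra.supported_mono fun β hβ => ⟨hβ, fun hc => hJ hc.1⟩
    · exact le_rfl
  · simp

theorem mem_smul_Cm {I : Ideal A} {b : Fin m → ℤ} {J : Fin m → Ch} {v : Lau A m} :
    v ∈ I • Cm A b J ↔ v ∈ Cm A b J ∧ ∀ β, v.coeff β ∈ I := by
  constructor
  · intro h
    refine ⟨Submodule.smul_le_right h, fun β => ?_⟩
    have h1 : (I • Cm A b J).map (cf A β) ≤ I := by
      rw [Submodule.map_smul'']
      exact Submodule.smul_le.2 fun r hr x _ => I.mul_mem_right x hr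
    exact h1 ⟨v, h, rfl⟩
  · rintro ⟨h, h0⟩
    rw [← v.sum_coeff_single, Finsupp.sum]
    refine Submodule.sum_mem _ fun β hβ => ?_
    have e : AddMonoidAlgebra.single β (v.coeff β) = v.coeff β • mon A β := by simp [mon]
    rw [e]
    refine Submodule.smul_mem_smul (h0 β) (mon_mem ?_)
    by_contra h'
    exact Finsupp.mem_support_iff.1 hβ (mem_Cm.1 h β h')

theorem hr_res_mmono (μ : RLen A) {B : Type u} [CommRing B] [Algebra A B] {E : Type u}
    [AddCommGroup E] [Module A E] [Module B E] [IsScalarTower A B E] (d : E →ₗ[B] E)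
    (F' F'' : ℤ → Submodule B E) (n : ℤ) :
    hr (μ.res (algebraMap A B)) d F' F'' n =
      hr μ (d.restrictScalars A) (fun n => (F' n).restrictScalars A)
        (fun n => (F'' n).restrictScalars A) n := by
  unfold hr
  rw [rr_res]
  congr 1
  unfold Bc
  rw [Submodule.restrictScalars_sup]
  rfl

theorem mono_hr_mod (μ : RLen A) (I : Ideal A) (b : Fin m → ℤ) (n : ℤ) :
    hr μ (cd A m (Lau A m)) (Cech fun J => I • Cm A b J) (Cech (Cm A b)) n =
      if n = -(cdeg (Jstar b) : ℤ) then ((Box b).card : ℝ≥0∞) * μ.q I else 0 := by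
  have hf : Function.Surjective (algebraMap A (A ⧸ I)) := Ideal.Quotient.mk_surjective
  have h := mono_hr (μ.res (algebraMap A (A ⧸ I))) b n
  rw [RLen.res_len, ← cech_bot, hr_res_mmono, cd_restrictScalars] at h
  simp only [cech_restrictScalars] at h
  rw [← h]
  refine hr_cech_transfer μ (Coef.phi A (A ⧸ I) m).toLinearMap (Cm_cmono b)
    (fun J j hj => ⟨le_rfl, le_rfl⟩) (fun J => ?_) (fun J => ?_) n
  · refine le_antisymm (sup_le ?_ fun x hx => ?_) fun x hx => ?_
    · rintro _ ⟨v, hv, rfl⟩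
      exact Coef.phi_mem hv
    · rw [show x = 0 from hx]
      exact Submodule.zero_mem _
    · obtain ⟨y, hy, rfl⟩ := Coef.exists_phi hf hx
      exact Submodule.mem_sup_left ⟨y, hy, rfl⟩
  · ext v
    rw [mem_smul_Cm, Submodule.mem_inf]
    refine and_congr_right fun _ => ?_
    change Coef.phi A (A ⧸ I) m v = 0 ↔ _
    constructor
    · intro h0 β
      rw [← Ideal.Quotient.eq_zero_iff_mem]
      exact (Coef.phi_coeff v β).symm.trans (by rw [h0]; rfl)
    · intro h0
      refine AddMonoidAlgebra.coeff_injective (Finsupp.ext fun β => ?_)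
      rw [Coef.phi_coeff]
      exact Ideal.Quotient.eq_zero_iff_mem.2 (h0 β)

/-- The components of a cocycle of degree zero agree. -/
theorem cocycle_eq_mmono {M : Type u} [AddCommGroup M] [Module A M] (ξ : (Fin m → Ch) → M)
    (h : ∀ J, cdeg J ≠ 0 → ξ J = 0) (h0 : cd A m M ξ = 0) (J : Fin m → Ch)
    (hJ : ∀ j, J j ≠ Ch.W) : ξ J = ξ fun _ => Ch.V := by
  obtain ⟨η, h1, h2⟩ := exists_homotopy (R := A) Finset.univ ξ h0
  have hη : η = 0 := funext fun J => by
    by_contra hc
    obtain ⟨j, -, -, J', a, b, -⟩ := h2 J hc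
    exact a (h J' (by omega))
  subst hη
  have := h1 J
  simp only [map_zero, Pi.zero_apply, sub_zero, Finset.mem_univ, if_true] at this
  rw [this, if_pos fun j _ => hJ j]

/-- Sections modulo an ideal lift to combinations of the standard cocycles. -/
theorem mono_lift (I : Ideal A) (b : Fin m → ℤ) (hb : ∀ j, 0 ≤ b j) :
    Zc (cd A m (Lau A m)) (Cech fun J => I • Cm A b J) (Cech (Cm A b)) 0 ≤
      Cech (fun J => I • Cm A b J) 0 ⊔
        Submodule.span A (Set.range fun β : Box b => cocyc b (mon A β.1)) := by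
  classical
  rintro ξ ⟨hξ, hd⟩
  obtain ⟨h1, h2⟩ := mem_cech.1 hξ
  obtain ⟨h3, h4⟩ := mem_cech.1 (show cd A m (Lau A m) ξ ∈ _ from hd)
  have hJs : ∀ j, Jstar b j ≠ Ch.W := fun j hj => absurd (Jstar_eq_W.1 hj) (not_lt.2 (hb j))
  have hW : ∀ J : Fin m → Ch, (cdeg J : ℤ) = -0 ↔ ∀ j, J j ≠ Ch.W := fun J => by
    simp [cdeg, Finset.filter_eq_empty_iff]
  have key : ∀ (γ : Fin m → ℤ) (J : Fin m → Ch), (∀ j, J j ≠ Ch.W) →
      (ξ J).coeff γ - (ξ fun _ => Ch.V).coeff γ ∈ I := by
    intro γ J hJ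
    let φ : Lau A m →ₗ[A] A ⧸ I := I.mkQ ∘ₗ cf A γ
    have := cocycle_eq_mmono (A := A) (fun K => φ (ξ K))
      (fun K hK => by rw [h2 K (by omega), map_zero]) (funext fun K => by
        rw [cd_comp]
        by_cases hK : (cdeg K : ℤ) = -(0 - 1)
        · exact (Submodule.Quotient.mk_eq_zero I).2 ((mem_smul_Cm.1 (h3 K hK)).2 γ)
        · rw [h4 K hK, map_zero]
          rfl) J hJ
    exact (Submodule.Quotient.eq I).1 this
  let η : (Fin m → Ch) → Lau A m :=
    ∑ β : Box b, (ξ fun _ => Ch.V).coeff β.1 • cocyc b (mon A β.1)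
  have hη : η ∈ Submodule.span A (Set.range fun β : Box b => cocyc b (mon A β.1)) :=
    Submodule.sum_mem _ fun β _ => Submodule.smul_mem _ _ (Submodule.subset_span ⟨β, rfl⟩)
  have hc : ∀ (v : Lau A m) (J : Fin m → Ch), cocyc b v J = if ∀ j, J j ≠ Ch.W then v else 0 :=
    fun v J => if_congr (forall_congr' fun j => by simp [hJs j]) rfl rfl
  rw [show ξ = (ξ - η) + η by abel]
  refine Submodule.add_mem_sup (mem_cech.2 ⟨fun J hJ => ?_, fun J hJ => ?_⟩) hη
  · have hJ' := (hW J).1 hJ
    have e : η J = ∑ β : Box b, (ξ fun _ => Ch.V).coeff β.1 • mon A β.1 := by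
      simp only [η, Finset.sum_apply, Pi.smul_apply, hc, if_pos hJ']
    rw [Pi.sub_apply, e]
    refine mem_smul_Cm.2 ⟨sub_mem (h1 J hJ) (Submodule.sum_mem _ fun β _ =>
      Submodule.smul_mem _ _ (mon_mem (mem_Om_of_box β.2 fun j hj =>
        absurd hj (not_lt.2 (hb j))))), fun γ => ?_⟩
    have e2 : (∑ β : Box b, (ξ fun _ => Ch.V).coeff β.1 • mon A β.1).coeff γ =
        if γ ∈ Box b then (ξ fun _ => Ch.V).coeff γ else 0 := by
      rw [← cf_apply, map_sum]
      simp only [map_smul, cf_apply, mon, AddMonoidAlgebra.coeff_single, Finsupp.single_apply,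
        smul_eq_mul, mul_ite, mul_one, mul_zero]
      rw [Finset.sum_coe_sort (Box b) fun β => if β = γ then (ξ fun _ => Ch.V).coeff β else 0,
        Finset.sum_ite_eq']
    rw [← cf_apply, map_sub, cf_apply, cf_apply, e2]
    split_ifs with hγ
    · exact key γ J hJ'
    · rw [sub_zero]
      have : ∃ j, γ j < 0 ∨ b j < γ j := by
        by_contra hn
        refine hγ (mem_Box.2 fun j => ?_)
        have : ¬ (γ j < 0 ∨ b j < γ j) := fun hj => hn ⟨j, hj⟩
        have := hb j
        omega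
      obtain ⟨j, hj | hj⟩ := this
      · have z : (ξ fun _ => Ch.U).coeff γ = 0 :=
          mem_Cm.1 (h1 _ ((hW _).2 fun _ => by decide)) γ fun ho => by
            have := (ho j).1 rfl
            omega
        have := sub_mem (key γ J hJ') (key γ (fun _ => Ch.U) fun _ => by decide)
        simpa [z] using this
      · have z : (ξ fun _ => Ch.V).coeff γ = 0 :=
          mem_Cm.1 (h1 _ ((hW _).2 fun _ => by decide)) γ fun ho => by
            have := (ho j).2 rfl
            omega
        simpa [z] using key γ J hJ'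
  · have hJ' : ¬ ∀ j, J j ≠ Ch.W := fun h => hJ ((hW J).2 h)
    simp only [η, Pi.sub_apply, h2 J hJ, Finset.sum_apply, Pi.smul_apply, hc, if_neg hJ',
      smul_zero, Finset.sum_const_zero, sub_zero]

section gen

variable {R : Type u} [CommRing R] [Algebra A R]

/-- Elementary symmetric functions of a finite family. -/
noncomputable def elMmono (w : Fin m → R) (i : ℕ) : R :=
  (∏ j : Fin m, (1 + Polynomial.C (w j) * Polynomial.X : Polynomial R)).coeff i

/-- The span of the staircase monomials. -/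
def pmMmono (A : Type u) [CommRing A] [Algebra A R] (w : Fin m → R) (s : ℕ) : Submodule A R :=
  Submodule.span A {z | ∃ β : Fin m → ℕ, (∀ j, β j ≤ j + s) ∧ z = ∏ j, w j ^ β j}

theorem el_zero_mmono (w : Fin (m + 1) → R) :
    elMmono w 0 = elMmono (fun j => w j.castSucc) 0 := by
  simp [elMmono, Fin.prod_univ_castSucc, mul_add, ← mul_assoc]

theorem el_succ_mmono (w : Fin (m + 1) → R) (i : ℕ) :
    elMmono w (i + 1) = elMmono (fun j => w j.castSucc) (i + 1) +
      elMmono (fun j => w j.castSucc) i * w (Fin.last m) := by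
  simp only [elMmono, Fin.prod_univ_castSucc, mul_add, mul_one, ← mul_assoc, Polynomial.coeff_add,
    Polynomial.coeff_mul_X, Polynomial.coeff_mul_C]

theorem el_eq_zero_mmono : ∀ (m : ℕ) (w : Fin m → R) (i : ℕ), m < i → elMmono w i = 0 := by
  intro m
  induction m with
  | zero =>
    intro w i hi
    simp [elMmono, Polynomial.coeff_one, hi.ne']
  | succ m ih =>
    intro w i hi
    obtain ⟨i, rfl⟩ : ∃ k, i = k + 1 := ⟨i - 1, by omega⟩
    rw [el_succ_mmono, ih _ _ (by omega), ih _ _ (by omega), zero_mul, add_zero]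

theorem gen_mmono (s : ℕ) : ∀ (m : ℕ) (w : Fin m → R) (β : Fin m → ℕ), (∀ j, β j ≤ j + s + 1) →
    ∏ j, w j ^ β j ∈ ⨆ i : ℕ, (pmMmono A w s).map (LinearMap.mulLeft A (elMmono w i)) := by
  intro m
  induction m with
  | zero =>
    intro w β _
    refine Submodule.mem_iSup_of_mem 0 ⟨1, Submodule.subset_span ⟨0, fun j => j.elim0, by simp⟩, ?_⟩
    simp [elMmono]
  | succ m ih =>
    intro w β hβ
    set T := ⨆ i : ℕ, (pmMmono A w s).map (LinearMap.mulLeft A (elMmono w i)) with hT
    set w' : Fin m → R := fun j => w j.castSucc with hw'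
    set z := w (Fin.last m) with hz
    have h0 := ih w' (fun j => β j.castSucc) fun j => by simpa using hβ j.castSucc
    have hk : β (Fin.last m) ≤ m + s + 1 := by simpa using hβ (Fin.last m)
    rw [Fin.prod_univ_castSucc]
    have hle : (⨆ i : ℕ, (pmMmono A w' s).map (LinearMap.mulLeft A (elMmono w' i))) ≤
        T.comap (LinearMap.mulRight A (z ^ β (Fin.last m))) := by
      refine iSup_le fun i => Submodule.map_le_iff_le_comap.2 (Submodule.span_le.2 ?_)
      rintro _ ⟨γ, hγ, rfl⟩
      set p := ∏ j, w' j ^ γ j with hp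
      have G : ∀ l k : ℕ, k ≤ m + s → elMmono w l * p * z ^ k ∈ T := by
        intro l k hk
        refine Submodule.mem_iSup_of_mem l ⟨p * z ^ k,
          Submodule.subset_span ⟨Fin.snoc γ k, fun j => ?_, ?_⟩, (mul_assoc _ _ _).symm⟩
        · refine Fin.lastCases ?_ (fun j => ?_) j
          · simpa using hk
          · simpa using hγ j
        · simp [Fin.prod_univ_castSucc, hp, hw', hz]
      have FA : ∀ i k : ℕ, k + i ≤ m + s → elMmono w' i * p * z ^ k ∈ T := by
        intro i
        induction i with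
        | zero =>
          intro k hk
          rw [← el_zero_mmono]
          exact G 0 k hk
        | succ i ihi =>
          intro k hk
          have e : elMmono w' (i + 1) * p * z ^ k =
              elMmono w (i + 1) * p * z ^ k - elMmono w' i * p * z ^ (k + 1) := by
            rw [el_succ_mmono]
            ring
          rw [e]
          exact sub_mem (G _ k (by omega)) (ihi (k + 1) (by omega))
      have FB : ∀ k i : ℕ, k ≤ m + s + 1 → m + 1 ≤ k + i → elMmono w' i * p * z ^ k ∈ T := by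
        intro k
        induction k with
        | zero =>
          intro i _ hi
          rw [el_eq_zero_mmono m w' i (by omega), zero_mul, zero_mul]
          exact zero_mem _
        | succ k ihk =>
          intro i hk hi
          have e : elMmono w' i * p * z ^ (k + 1) =
              elMmono w (i + 1) * p * z ^ k - elMmono w' (i + 1) * p * z ^ k := by
            rw [el_succ_mmono]
            ring
          rw [e]
          exact sub_mem (G _ k (by omega)) (ihk (i + 1) (by omega) (by omega))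
      change elMmono w' i * p * z ^ β (Fin.last m) ∈ T
      by_cases hi : β (Fin.last m) + i ≤ m + s
      · exact FA i _ hi
      · exact FB _ i hk (by omega)
    exact hle h0

end gen

theorem mon_eq_prod_mmono (β : Fin m → ℕ) :
    mon A (fun j => (β j : ℤ)) = ∏ j, wv A j ^ β j := by
  have e : (fun j => (β j : ℤ)) = ∑ j, β j • (Pi.single j 1 : Fin m → ℤ) := by
    funext l
    simp [Finset.sum_apply, Pi.single_apply]
  rw [e, mon_sum]
  exact Finset.prod_congr rfl fun j _ => mon_nsmul _ _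

/-- The Ulrich bundle is generated by its sections of lowest degree. -/
theorem ulrich_gen (s : ℕ) (β : Fin m → ℤ) (hβ : β ∈ Box (sh (a0 m) (s + 1))) :
    ∃ c : Fin (m + 1) → Lau A m,
      (∀ i, c i ∈ Submodule.span A (Set.range fun β' : Box (sh (a0 m) s) => mon A β'.1)) ∧
      mon A β = ∑ i, ee A m i * c i := by
  classical
  set P := Submodule.span A (Set.range fun β' : Box (sh (a0 m) s) => mon A β'.1) with hP
  have hb : ∀ j, 0 ≤ β j ∧ β j ≤ (j : ℕ) + ((s : ℤ) + 1) := fun j =>
    (mem_Box.1 hβ j).1 (by simp only [sh, a0]; positivity)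
  have e : β = fun j => (((β j).toNat : ℕ) : ℤ) := funext fun j =>
    (Int.toNat_of_nonneg (hb j).1).symm
  have h := gen_mmono (A := A) s m (wv A) (fun j => (β j).toNat) fun j => by
    have := hb j
    omega
  rw [← mon_eq_prod_mmono, ← e] at h
  have hP' : pmMmono A (wv A (m := m)) s ≤ P := by
    refine Submodule.span_le.2 ?_
    rintro _ ⟨γ, hγ, rfl⟩
    rw [← mon_eq_prod_mmono]
    refine Submodule.subset_span ⟨⟨fun j => (γ j : ℤ), mem_Box.2 fun j => ?_⟩, rfl⟩
    have := hγ j
    simp only [sh, a0]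
    omega
  let ψ : (Fin (m + 1) → Lau A m) →ₗ[A] Lau A m :=
    ∑ i, LinearMap.mulLeft A (ee A m i) ∘ₗ LinearMap.proj i
  have hle : (⨆ i : ℕ, (pmMmono A (wv A (m := m)) s).map
      (LinearMap.mulLeft A (elMmono (wv A) i))) ≤ (Submodule.pi Set.univ fun _ => P).map ψ := by
    refine iSup_le fun i => ?_
    rintro _ ⟨v, hv, rfl⟩
    by_cases hi : m < i
    · rw [el_eq_zero_mmono m _ i hi, LinearMap.mulLeft_apply, zero_mul]
      exact zero_mem _
    · refine ⟨Pi.single ⟨i, by omega⟩ v, fun l _ => ?_, ?_⟩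
      · rw [Pi.single_apply]
        split_ifs
        · exact hP' hv
        · exact zero_mem _
      · simp only [ψ, LinearMap.sum_apply, LinearMap.comp_apply, LinearMap.proj_apply,
          LinearMap.mulLeft_apply, Pi.single_apply, mul_ite, mul_zero, Finset.sum_ite_eq',
          Finset.mem_univ, if_true]
        rfl
  obtain ⟨c, hc, hc'⟩ := hle h
  refine ⟨c, fun i => hc i trivial, ?_⟩
  rw [← hc']
  simp [ψ, LinearMap.sum_apply]

theorem card_box_a0 : (Box (sh (a0 m) 0)).card = m.factorial := by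
  have h := box_card (sh (a0 m) 0)
  have e : ∀ j : Fin m, |sh (a0 m) 0 j + 1| = (((j : ℕ) + 1 : ℕ) : ℤ) := fun j => by
    simp only [sh, a0]
    rw [abs_of_nonneg (by positivity)]
    push_cast
    ring
  simp only [e] at h
  rw [← Nat.cast_prod, Fin.prod_univ_eq_prod_range (fun j => j + 1),
    Finset.prod_range_add_one_eq_factorial] at h
  exact_mod_cast h

end Vale.Agent.P202
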