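import Vale.Agent.P202.MLen

/-! The normalized length attached to a tower of subalgebras. -/

namespace Vale.Agent.P202

open scoped ENNReal

universe u

/-- The `O`-module spanned by the products of elements of `Λ` and `s`. -/
def towSpan {O B : Type u} [CommRing O] [CommRing B] (o : O →+* B) (Λ : Subring B) {M : Type u}
    [AddCommGroup M] [Module B M] (s : Set M) :
    @Submodule O M _ _ (Module.compHom M o) :=
  @Submodule.span O M _ _ (Module.compHom M o) {y | ∃ a ∈ Λ, ∃ x ∈ s, y = a • x}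

/-- The `O`-length of `Λ s`. -/
noncomputable def towLen {O B : Type u} [CommRing O] [CommRing B] (o : O →+* B) (Λ : Subring B)
    {M : Type u} [AddCommGroup M] [Module B M] (s : Set M) : ℕ∞ :=
  letI : Module O M := Module.compHom M o
  Module.length O (towSpan o Λ s)

section aux

variable {O B : Type u} [CommRing O] [CommRing B] [Algebra O B] {M : Type u} [AddCommGroup M]
  [Module B M] [Module O M] [IsScalarTower O B M] {M' : Type u} [AddCommGroup M']
  [Module B M'] [Module O M'] [IsScalarTower O B M']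

/-- The span of the products. -/
def spMtow (O : Type u) {B : Type u} [CommRing O] [CommRing B] (Λ : Subring B) {M : Type u}
    [AddCommGroup M] [Module B M] [Module O M] (s : Set M) : Submodule O M :=
  Submodule.span O {y | ∃ a ∈ Λ, ∃ x ∈ s, y = a • x}

omit [Algebra O B] [IsScalarTower O B M] in
theorem spMtow_mono {Λ Λ' : Subring B} (h : Λ ≤ Λ') {s s' : Set M} (hs : s ⊆ s') :
    spMtow O Λ s ≤ spMtow O Λ' s' :=
  Submodule.span_mono fun _ ⟨a, ha, x, hx, e⟩ => ⟨a, h ha, x, hs hx, e⟩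

omit [Algebra O B] [IsScalarTower O B M] in
theorem spMtow_empty (Λ : Subring B) : spMtow O Λ (∅ : Set M) = ⊥ := by
  simp [spMtow]

theorem smul_mem_spMtow {Λ : Subring B} {s : Set M} {a : B} (ha : a ∈ Λ) {y : M}
    (hy : y ∈ spMtow O Λ s) : a • y ∈ spMtow O Λ s := by
  induction hy using Submodule.span_induction with
  | mem y hy =>
    obtain ⟨a', ha', x, hx, rfl⟩ := hy
    exact Submodule.subset_span ⟨a * a', Λ.mul_mem ha ha', x, hx, (mul_smul _ _ _).symm⟩
  | zero => simp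
  | add x y _ _ hx hy => rw [smul_add]; exact Submodule.add_mem _ hx hy
  | smul r x _ hx => rw [smul_comm]; exact Submodule.smul_mem _ _ hx

theorem mem_spMtow {Λ : Subring B} (ho : ∀ a, algebraMap O B a ∈ Λ) {s : Set M} {y : M} :
    y ∈ spMtow O Λ s ↔ y ∈ Submodule.span Λ s := by
  constructor
  · intro hy
    induction hy using Submodule.span_induction with
    | mem y hy =>
      obtain ⟨a, ha, x, hx, rfl⟩ := hy
      exact Submodule.smul_mem _ (⟨a, ha⟩ : Λ) (Submodule.subset_span hx)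
    | zero => simp
    | add x y _ _ hx hy => exact Submodule.add_mem _ hx hy
    | smul r x _ hx =>
      rw [← algebraMap_smul B r x]
      exact Submodule.smul_mem _ (⟨_, ho r⟩ : Λ) hx
  · intro hy
    induction hy using Submodule.span_induction with
    | mem y hy => exact Submodule.subset_span ⟨1, Λ.one_mem, y, hy, (one_smul _ _).symm⟩
    | zero => simp
    | add x y _ _ hx hy => exact Submodule.add_mem _ hx hy
    | smul r x _ hx => exact smul_mem_spMtow r.2 hx

theorem map_spMtow (Λ : Subring B) (f : M →ₗ[B] M') (s : Set M) :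
    (spMtow O Λ s).map (f.restrictScalars O) = spMtow O Λ (f '' s) := by
  rw [spMtow, Submodule.map_span]
  congr 1
  ext y
  constructor
  · rintro ⟨_, ⟨a, ha, x, hx, rfl⟩, rfl⟩
    exact ⟨a, ha, f x, ⟨x, hx, rfl⟩, f.map_smul a x⟩
  · rintro ⟨a, ha, _, ⟨x, hx, rfl⟩, rfl⟩
    exact ⟨a • x, ⟨a, ha, x, hx, rfl⟩, f.map_smul a x⟩

theorem rr_step_mtow (μ : RLen O) {Λ Λ' : Subring B} (h : Λ ≤ Λ') {c : ℕ} (b : Fin c → B)
    (hb : ∀ i, b i ∈ Λ') (hg : ∀ x ∈ Λ', ∃ a : Fin c → B, (∀ i, a i ∈ Λ) ∧ x = ∑ i, a i * b i)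
    (s0 s : Set M) :
    rr μ (spMtow O Λ' s0) (spMtow O Λ' s) ≤ c * rr μ (spMtow O Λ s0) (spMtow O Λ s) := by
  let φ : (Fin c → M) →ₗ[O] M :=
    ∑ i, (LinearMap.lsmul B M (b i)).restrictScalars O ∘ₗ LinearMap.proj i
  have hφ : ∀ v, φ v = ∑ i, b i • v i := fun v => by simp [φ]
  have h1 := rr_pi μ (fun _ : Fin c => spMtow O Λ s0) fun _ => spMtow O Λ s
  rw [Finset.sum_const, Finset.card_univ, Fintype.card_fin, nsmul_eq_mul] at h1
  rw [← h1]
  refine le_trans (rr_mono μ ?_ ?_) (rr_map_le μ φ _ _)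
  · rintro _ ⟨v, hv, rfl⟩
    rw [hφ]
    exact Submodule.sum_mem _ fun i _ => smul_mem_spMtow (hb i)
      (spMtow_mono h subset_rfl (hv i trivial))
  · refine Submodule.span_le.2 ?_
    rintro _ ⟨a, ha, x, hx, rfl⟩
    obtain ⟨a', ha', rfl⟩ := hg a ha
    refine ⟨fun i => a' i • x, fun i _ => Submodule.subset_span ⟨a' i, ha' i, x, hx, rfl⟩, ?_⟩
    rw [hφ, Finset.sum_smul]
    exact Finset.sum_congr rfl fun i _ => by rw [mul_comm, mul_smul]

theorem rr_inj_mtow (μ : RLen O) (Λ : Subring B) (f : M →ₗ[B] M') (hf : Function.Injective f)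
    (s : Set M) : rr μ ⊥ (spMtow O Λ (f '' s)) = rr μ ⊥ (spMtow O Λ s) := by
  rw [← map_spMtow, ← rr_map, Submodule.comap_bot,
    LinearMap.ker_eq_bot.2 (show Function.Injective (f.restrictScalars O) from hf)]

theorem rr_ker_mtow (μ : RLen O) (Λ : Subring B) (g : M →ₗ[B] M') (s : Set M) :
    rr μ (LinearMap.ker (g.restrictScalars O) ⊓ spMtow O Λ s) (spMtow O Λ s) =
      rr μ ⊥ (spMtow O Λ (g '' s)) := by
  rw [rr_inf, ← map_spMtow, ← rr_map, Submodule.comap_bot]

theorem add_mtow (μ : RLen O) (Λ : ℕ → Subring B) (ho : ∀ n a, algebraMap O B a ∈ Λ n)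
    (hmono : Monotone Λ) (hN : ∀ n, IsNoetherianRing (Λ n)) {c : ℕ}
    (hc : 1 ≤ c) (hgen : ∀ n, ∃ b : Fin c → B, (∀ i, b i ∈ Λ (n + 1)) ∧
      ∀ x ∈ Λ (n + 1), ∃ a : Fin c → B, (∀ i, a i ∈ Λ n) ∧ x = ∑ i, a i * b i)
    {N : Type u} [AddCommGroup N] [Module B N] [Module O N] [IsScalarTower O B N]
    (f : N →ₗ[B] M) (g : M →ₗ[B] M') (hf : Function.Injective f) (hg : Function.Surjective g)
    (hfg : Function.Exact f g) :
    ⨆ s : Finset M, ⨅ n : ℕ, rr μ ⊥ (spMtow O (Λ n) (s : Set M)) / ((c ^ n : ℕ) : ℝ≥0∞) =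
      (⨆ s : Finset N, ⨅ n : ℕ, rr μ ⊥ (spMtow O (Λ n) (s : Set N)) / ((c ^ n : ℕ) : ℝ≥0∞)) +
      ⨆ s : Finset M', ⨅ n : ℕ, rr μ ⊥ (spMtow O (Λ n) (s : Set M')) / ((c ^ n : ℕ) : ℝ≥0∞) := by
  classical
  have hanti : ∀ s0 s : Set M, Antitone fun n : ℕ =>
      rr μ (spMtow O (Λ n) s0) (spMtow O (Λ n) s) / ((c ^ n : ℕ) : ℝ≥0∞) := fun s0 s =>
    antitone_nat_of_succ_le fun n => by
      obtain ⟨b, h1, h2⟩ := hgen n
      refine (ENNReal.div_le_div_right (rr_step_mtow μ (hmono n.le_succ) b h1 h2 s0 s) _).trans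
        (le_of_eq ?_)
      rw [pow_succ', Nat.cast_mul, ENNReal.mul_div_mul_left _ _ (by simpa using by omega)
        (ENNReal.natCast_ne_top c)]
  refine le_antisymm (iSup_le fun s => ?_) (ENNReal.iSup_add_iSup_le fun s' s'' => ?_)
  · refine le_trans ?_ (add_le_add le_rfl (le_iSup _ (s.image g)))
    rw [ENNReal.add_iInf]
    refine le_iInf fun n0 => ?_
    have := hN n0
    have h1 : IsNoetherian (Λ n0) (Submodule.span (Λ n0) (s : Set M)) :=
      isNoetherian_span_of_finite _ s.finite_toSet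
    obtain ⟨s0, hs0⟩ := Submodule.fg_of_fg_map_injective (f.restrictScalars (Λ n0)) hf
      (isNoetherian_submodule.1 h1 _ (Submodule.map_comap_le (f.restrictScalars (Λ n0)) _))
    have h2 : LinearMap.ker (g.restrictScalars O) ⊓ spMtow O (Λ n0) (s : Set M) ≤
        spMtow O (Λ n0) (f '' s0) := by
      rintro y ⟨hy1, hy2⟩
      obtain ⟨x, rfl⟩ := (hfg y).1 hy1
      rw [← map_spMtow]
      refine ⟨x, (mem_spMtow (ho n0)).2 ?_, rfl⟩
      rw [hs0]
      exact (mem_spMtow (ho n0)).1 hy2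
    refine le_trans ?_ (add_le_add (le_iSup _ s0) le_rfl)
    rw [ENNReal.iInf_add]
    refine le_iInf fun n => iInf_le_of_le (max n n0) ?_
    refine (ENNReal.div_le_div_right
      (rr_triangle μ _ (spMtow O (Λ (max n n0)) (f '' s0)) _) _).trans ?_
    rw [ENNReal.add_div]
    refine add_le_add ?_ ((hanti _ _ (le_max_right n n0)).trans (ENNReal.div_le_div_right ?_ _))
    · have h3 := hanti ∅ (f '' s0) (le_max_left n n0)
      simp only [spMtow_empty] at h3
      rwa [rr_inj_mtow μ (Λ n) f hf] at h3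
    · rw [Finset.coe_image, ← rr_ker_mtow]
      exact rr_anti_left μ h2 _
  · refine le_iSup_of_le (s'.image f ∪ s''.image (Function.surjInv hg)) (le_iInf fun n => ?_)
    refine (add_le_add (iInf_le _ n) (iInf_le _ n)).trans ?_
    rw [← ENNReal.add_div]
    refine ENNReal.div_le_div_right ?_ _
    rw [rr_add μ bot_le (inf_le_right (a := LinearMap.ker (g.restrictScalars O))), rr_ker_mtow,
      ← rr_inj_mtow μ (Λ n) f hf]
    refine add_le_add (rr_mono μ le_rfl (le_inf ?_ (spMtow_mono le_rfl (by simp))))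
      (rr_mono μ le_rfl (spMtow_mono le_rfl fun y hy => ?_))
    · rw [← map_spMtow]
      rintro _ ⟨x, -, rfl⟩
      exact hfg.apply_apply_eq_zero x
    · exact ⟨Function.surjInv hg y, by
        simp only [Finset.coe_union, Finset.coe_image]
        exact Or.inr ⟨y, hy, rfl⟩, Function.surjInv_eq hg y⟩

end aux

/-- There is a length function with `len M = sup_s inf_n len_O (Λ_n s) / c^n`. -/
theorem exists_tower {O B : Type u} [CommRing O] [CommRing B] (o : O →+* B) (Λ : ℕ → Subring B)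
    (ho : ∀ n a, o a ∈ Λ n) (hmono : Monotone Λ) (hN : ∀ n, IsNoetherianRing (Λ n)) {c : ℕ}
    (hc : 1 ≤ c) (hgen : ∀ n, ∃ b : Fin c → B, (∀ i, b i ∈ Λ (n + 1)) ∧
      ∀ x ∈ Λ (n + 1), ∃ a : Fin c → B, (∀ i, a i ∈ Λ n) ∧ x = ∑ i, a i * b i) :
    ∃ μ : RLen B, ∀ (M : Type u) [AddCommGroup M] [Module B M],
      μ.len M = ⨆ s : Finset M, ⨅ n : ℕ,
        ((towLen o (Λ n) (s : Set M) : ℕ∞) : ℝ≥0∞) / ((c ^ n : ℕ) : ℝ≥0∞) := by
  let μ : RLen O :=
    { len := fun M _ _ => (Module.length O M : ℕ∞)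
      add_of_exact := fun f g hf hg hfg => by
        rw [Module.length_eq_add_of_exact f g hf hg hfg, ENat.toENNReal_add]
      zero := fun M _ _ _ => by simp }
  have key : ∀ (M : Type u) [AddCommGroup M] [Module B M] (n : ℕ) (s : Set M),
      ((towLen o (Λ n) s : ℕ∞) : ℝ≥0∞) =
        letI : Module O M := Module.compHom M o
        rr μ ⊥ (spMtow O (Λ n) s) := fun M _ _ n s => by
    letI : Module O M := Module.compHom M o
    rw [rr_bot]
    rfl
  refine ⟨⟨fun M _ _ => ⨆ s : Finset M, ⨅ n : ℕ,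
    ((towLen o (Λ n) (s : Set M) : ℕ∞) : ℝ≥0∞) / ((c ^ n : ℕ) : ℝ≥0∞), ?_, ?_⟩, fun _ _ _ => rfl⟩
  · intro N M P _ _ _ _ _ _ f g hf hg hfg
    simp only [key]
    let := o.toAlgebra
    let : Module O N := Module.compHom N o
    let : Module O M := Module.compHom M o
    let : Module O P := Module.compHom P o
    have : IsScalarTower O B N := IsScalarTower.of_algebraMap_smul fun _ _ => rfl
    have : IsScalarTower O B M := IsScalarTower.of_algebraMap_smul fun _ _ => rfl
    have : IsScalarTower O B P := IsScalarTower.of_algebraMap_smul fun _ _ => rfl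
    exact add_mtow μ Λ ho hmono hN hc hgen f g hf hg hfg
  · intro M _ _ _
    simp only [key]
    let : Module O M := Module.compHom M o
    refine le_antisymm (iSup_le fun s => iInf_le_of_le 0 ?_) zero_le
    rw [rr_eq_zero_of_le μ fun x _ => Subsingleton.elim x 0]
    simp

end Vale.Agent.P202
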