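import Vale.Agent.P202.MP0
import Vale.Agent.P202.MTow
import Vale.Agent.P202.MLen2
import Vale.Agent.P202.MSmall

/-! The normalized length on the untilt of a perfect cover. -/

namespace Vale.Agent.P202

open MvPowerSeries
open scoped ENNReal

universe u

section aux

variable {O B : Type u} [CommRing O] [CommRing B]

theorem q_max_mno [IsLocalRing O] : (RLen.ofLen O).q (IsLocalRing.maximalIdeal O) = 1 := by
  change ((Module.length O (O ⧸ IsLocalRing.maximalIdeal O) : ℕ∞) : ℝ≥0∞) = 1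
  rw [hs_len_residue, ENat.toENNReal_one]

theorem smul_quot_mno (I : Ideal B) (a : B) (x : B ⧸ I) : a • x = Ideal.Quotient.mk I a * x :=
  Algebra.smul_def a x

theorem towLen_le_mno [IsLocalRing O] (o : O →+* B) (Λ : Subring B) {M : Type u} [AddCommGroup M]
    [Module B M] (s : Set M) {κ : Type} [Fintype κ] (x : κ → M)
    (hx : ∀ i, ∀ z ∈ IsLocalRing.maximalIdeal O, o z • x i = 0)
    (hs : ∀ a ∈ Λ, ∀ y ∈ s, ∃ c : κ → O, a • y = ∑ i, o (c i) • x i) :
    ((towLen o Λ s : ℕ∞) : ℝ≥0∞) ≤ Fintype.card κ := by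
  let : Module O M := Module.compHom M o
  have h1 := rr_span_le (RLen.ofLen O) (⊥ : Submodule O M) x (IsLocalRing.maximalIdeal O) hx
  rw [q_max_mno, mul_one] at h1
  refine le_trans ?_ ((rr_mono _ le_rfl (?_ : towSpan o Λ s ≤ _)).trans h1)
  · rw [rr_bot]
    exact le_rfl
  · refine Submodule.span_le.2 ?_
    rintro _ ⟨a, ha, y, hy, rfl⟩
    obtain ⟨c, hc⟩ := hs a ha y hy
    rw [hc]
    exact Submodule.sum_mem _ fun i _ =>
      Submodule.smul_mem _ (c i) (Submodule.subset_span ⟨i, rfl⟩)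

theorem le_towLen_mno [IsLocalRing O] (o : O →+* B) (Λ : Subring B) {M : Type u} [AddCommGroup M]
    [Module B M] (s : Set M) {κ : Type} [Fintype κ] (x : κ → M)
    (hx : ∀ i, ∃ a ∈ Λ, ∃ y ∈ s, x i = a • y)
    (hind : ∀ c : κ → O, ∑ i, o (c i) • x i = 0 → ∀ i, c i ∈ IsLocalRing.maximalIdeal O) :
    (Fintype.card κ : ℝ≥0∞) ≤ ((towLen o Λ s : ℕ∞) : ℝ≥0∞) := by
  let : Module O M := Module.compHom M o
  have h1 := rr_pi (RLen.ofLen O) (fun _ : κ => IsLocalRing.maximalIdeal O) fun _ => ⊤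
  rw [rr_top, Finset.sum_const, Finset.card_univ, nsmul_eq_mul] at h1
  have h2 := h1.trans (congrArg (_ * ·) q_max_mno)
  rw [mul_one] at h2
  have h3 := rr_map (RLen.ofLen O) (Fintype.linearCombination O x) ⊥ ⊤
  rw [← h2]
  refine (rr_mono _ ?_ le_top).trans (h3.le.trans ((rr_mono _ le_rfl
    (?_ : _ ≤ towSpan o Λ s)).trans ?_))
  · exact fun c hc i _ => hind c hc i
  · rintro _ ⟨c, -, rfl⟩
    exact Submodule.sum_mem _ fun i _ => Submodule.smul_mem _ (c i) (Submodule.subset_span (hx i))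
  · rw [rr_bot]
    exact le_rfl

theorem gen_mno {τ : Type} [Fintype τ] [DecidableEq τ] (o : O →+* B) (v : τ → B) {q : ℕ}
    (hq : 0 < q) (Λ : Subring B) (ho : ∀ a, o a ∈ Λ) (hv : ∀ j, v j ^ q ∈ Λ)
    (f : MvPolynomial τ O) : ∃ c : (τ → Fin q) → B, (∀ a, c a ∈ Λ) ∧
      MvPolynomial.eval₂Hom o v f = ∑ a, c a * ∏ j, v j ^ (a j : ℕ) := by
  induction f using MvPolynomial.induction_on' with
  | monomial β r =>
    refine ⟨Pi.single (fun j => ⟨β j % q, Nat.mod_lt _ hq⟩) (o r * ∏ j, (v j ^ q) ^ (β j / q)),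
      fun a => ?_, ?_⟩
    · rw [Pi.single_apply]
      split_ifs
      · exact Λ.mul_mem (ho r) (Λ.prod_mem fun j _ => Λ.pow_mem (hv j) _)
      · exact Λ.zero_mem
    · rw [Finset.sum_eq_single (fun j => (⟨β j % q, Nat.mod_lt _ hq⟩ : Fin q))
        (fun b _ hb => by rw [Pi.single_eq_of_ne hb, zero_mul]) (by simp), Pi.single_eq_same,
        MvPolynomial.eval₂Hom_monomial, Finsupp.prod_fintype _ _ (by simp), mul_assoc,
        ← Finset.prod_mul_distrib]
      refine congrArg _ (Finset.prod_congr rfl fun j _ => ?_)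
      rw [← pow_mul, ← pow_add, Nat.div_add_mod]
  | add f g hf hg =>
    obtain ⟨c, h1, h2⟩ := hf
    obtain ⟨c', h1', h2'⟩ := hg
    refine ⟨c + c', fun a => Λ.add_mem (h1 a) (h1' a), ?_⟩
    rw [map_add, h2, h2', ← Finset.sum_add_distrib]
    exact Finset.sum_congr rfl fun a _ => (add_mul _ _ _).symm

theorem range_le_mno {τ : Type} (o : O →+* B) (v : τ → B) (Λ : Subring B) (ho : ∀ a, o a ∈ Λ)
    (hv : ∀ j, v j ∈ Λ) : (MvPolynomial.eval₂Hom o v).range ≤ Λ := by
  rintro _ ⟨f, rfl⟩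
  exact MvPolynomial.eval₂_mem (fun _ _ => ho _) hv

theorem coeff_span_mno {τ : Type} {q : ℕ} {F : PS τ O}
    (hF : F ∈ Ideal.span (Set.range fun j => (X j : PS τ O) ^ q)) (β : τ →₀ ℕ)
    (hβ : ∀ j, β j < q) : coeff β F = 0 := by
  have key : ∀ G ∈ Ideal.span (Set.range fun j => (X j : PS τ O) ^ q), ∀ H,
      coeff β (H * G) = 0 := by
    intro G hG
    induction hG using Submodule.span_induction with
    | mem x hx =>
      obtain ⟨j, rfl⟩ := hx
      exact fun H => X_pow_dvd_iff.1 (dvd_mul_left _ H) β (hβ j)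
    | zero => simp
    | add x y _ _ hx hy => intro H; rw [mul_add, map_add, hx, hy, add_zero]
    | smul r x _ hx => intro H; rw [smul_eq_mul, ← mul_assoc, hx]
  simpa using key F hF 1

theorem ind_mno {τ : Type} [Fintype τ] [DecidableEq τ] {q : ℕ} (c : (τ → Fin q) → O)
    (h : ∑ a, C (c a) * ∏ j, (X j : PS τ O) ^ (a j : ℕ) ∈
      Ideal.span (Set.range fun j => (X j : PS τ O) ^ q)) (a : τ → Fin q) : c a = 0 := by
  let E : (τ → Fin q) → τ →₀ ℕ := fun a => Finsupp.equivFunOnFinite.symm fun j => (a j : ℕ)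
  have hE : Function.Injective E := fun a b hab => funext fun j =>
    Fin.ext (congrFun (Finsupp.equivFunOnFinite.symm.injective hab) j)
  have e : ∀ b : τ → Fin q, C (c b) * ∏ j, (X j : PS τ O) ^ (b j : ℕ) = monomial (E b) (c b) := by
    intro b
    rw [monomial_eq', Finsupp.prod_fintype _ _ (by simp)]
    rfl
  have h1 := coeff_span_mno h (E a) fun j => (a j).2
  simp only [e, map_sum] at h1
  rwa [Finset.sum_eq_single a (fun b _ hb => coeff_monomial_ne (fun h => hb (hE h).symm) _)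
    (by simp), coeff_monomial_same] at h1

end aux

variable {p : ℕ} [Fact p.Prime] {l : Type u} [Field l] [CharP l p] [PerfectRing l p] {σ : Type}
  [Finite σ] {P : Type u} [CommRing P] [CharP P p] [PerfectRing P p] {ι : PS (Option σ) l →+* P}

theorem exists_pi_mno (t : P) (s : Set P) :
    ∃ π : P →+* Unt p t ⧸ Ideal.span (insert (p : Unt p t) (shp p t '' s)),
      (∀ w : WittVector p P, Ideal.Quotient.mk _ (Ideal.Quotient.mk _ w) = π (w.coeff 0)) ∧
      (∀ x, π x = Ideal.Quotient.mk _ (shp p t x)) ∧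
      ∀ x, π x = 0 ↔ x ∈ Ideal.span (insert t s) := by
  have hk : RingHom.ker (Unt.red p t) ≤
      RingHom.ker (Ideal.Quotient.mk (Ideal.span (insert (p : Unt p t) (shp p t '' s)))) := by
    rw [Unt.ker_red, Ideal.mk_ker]
    exact Ideal.span_mono (Set.singleton_subset_iff.2 (Set.mem_insert _ _))
  have h1 := RingHom.liftOfSurjective_comp_apply _ (Unt.red_surjective t) ⟨_, hk⟩
  refine ⟨((Unt.red p t).liftOfSurjective (Unt.red_surjective t) ⟨_, hk⟩).comp
    (Ideal.Quotient.mk _), fun w => (h1 _).symm, fun x => h1 (shp p t x), fun x => ?_⟩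
  refine (Eq.congr_left (h1 (shp p t x))).trans (Ideal.Quotient.eq_zero_iff_mem.trans ?_)
  rw [← comap_red_span, Ideal.mem_comap, Unt.red_shp, Ideal.mem_quotient_iff_mem_sup,
    Ideal.span_insert, sup_comm]

/-- The structure map from the Witt vectors of the residue field. -/
noncomputable def oMno (p : ℕ) [Fact p.Prime] (ι : PS (Option σ) l →+* P) :
    WittVector p l →+* Unt p (ι (X none)) :=
  (Ideal.Quotient.mk _).comp (WittVector.map (ι.comp C))

/-- The tower of subrings. -/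
noncomputable def lamMno (p : ℕ) [Fact p.Prime] [CharP P p] [PerfectRing P p]
    (ι : PS (Option σ) l →+* P) (n : ℕ) : Subring (Unt p (ι (X none))) :=
  (MvPolynomial.eval₂Hom (oMno p ι) fun j => shp p (ι (X none)) (rt p P n (ι (X j)))).range

omit [CharP l p] [PerfectRing l p] [Finite σ] in
theorem o_mem_lamMno (n : ℕ) (a : WittVector p l) : oMno p ι a ∈ lamMno p ι n :=
  ⟨MvPolynomial.C a, by simp⟩

omit [CharP l p] [PerfectRing l p] [Finite σ] in
theorem mem_lamMno (n : ℕ) (j : Option σ) :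
    shp p (ι (X none)) (rt p P n (ι (X j))) ∈ lamMno p ι n :=
  ⟨MvPolynomial.X j, by simp⟩

section main

variable {I : Ideal (Unt p (ι (X none)))} {π : P →+* Unt p (ι (X none)) ⧸ I}
  (h1 : ∀ w : WittVector p P, Ideal.Quotient.mk I (Ideal.Quotient.mk _ w) = π (w.coeff 0))
  (h2 : ∀ x, π x = Ideal.Quotient.mk _ (shp p (ι (X none)) x))
  (h3 : ∀ x, π x = 0 ↔ x ∈ Ideal.span (Set.range fun j => ι (X j)))

include h1 in
omit [CharP l p] [PerfectRing l p] [Finite σ] [CharP P p] [PerfectRing P p] in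
theorem mk_o_mno (c : WittVector p l) :
    Ideal.Quotient.mk I (oMno p ι c) = π (ι (C (c.coeff 0))) := by
  rw [oMno, RingHom.comp_apply, h1, WittVector.map_coeff]
  rfl

include h1 h2 h3 in
omit [Finite σ] in
theorem lower_mno [Fintype σ] (h : PCov p ι) (n : ℕ) :
    ((p ^ (Fintype.card σ + 1)) ^ n : ℕ) ≤
      ((towLen (oMno p ι) (lamMno p ι n) ({1} : Set (Unt p (ι (X none)) ⧸ I)) : ℕ∞) : ℝ≥0∞) := by
  classical
  have key := le_towLen_mno (oMno p ι) (lamMno p ι n) ({1} : Set (Unt p (ι (X none)) ⧸ I))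
    (fun a : Option σ → Fin (p ^ n) => π (rt p P n (ι (∏ j, X j ^ (a j : ℕ))))) ?_ ?_
  · rwa [Fintype.card_fun, Fintype.card_fin, Fintype.card_option, ← pow_mul, mul_comm,
      pow_mul] at key
  · intro a
    refine ⟨∏ j, shp p (ι (X none)) (rt p P n (ι (X j))) ^ (a j : ℕ),
      Subring.prod_mem _ fun j _ => Subring.pow_mem _ (mem_lamMno n j) _, 1, rfl, ?_⟩
    rw [smul_quot_mno, mul_one]
    simp only [map_prod, map_pow, h2]
  · intro c hc a
    have e : ∀ b : Option σ → Fin (p ^ n), oMno p ι (c b) • π (rt p P n (ι (∏ j, X j ^ (b j : ℕ)))) =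
        π (rt p P n (ι (C ((c b).coeff 0 ^ p ^ n) * ∏ j, X j ^ (b j : ℕ)))) := by
      intro b
      rw [smul_quot_mno, mk_o_mno h1, map_mul ι, map_mul,
        map_mul π, map_pow, map_pow, map_pow, rt_pow]
    simp only [e] at hc
    rw [← map_sum, ← map_sum, ← map_sum, h3] at hc
    have h4 := Ideal.mem_map_of_mem (iterateFrobenius P p n) hc
    rw [iterateFrobenius_def, rt_pow, Ideal.map_span, ← Set.range_comp] at h4
    let := ι.toAlgebra
    have : Module.FaithfullyFlat (PS (Option σ) l) P := h.ff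
    have h5 := ind_mno (fun b => (c b).coeff 0 ^ p ^ n) (by
      rw [← Ideal.comap_map_eq_self_of_faithfullyFlat (B := P) (Ideal.span _), Ideal.mem_comap,
        Ideal.map_span, ← Set.range_comp]
      refine Ideal.span_mono ?_ h4
      rintro _ ⟨j, rfl⟩
      exact ⟨j, map_pow ι _ _⟩) a
    rw [(WittVector.irreducible p).maximalIdeal_eq, WittVector.mem_span_p_iff_coeff_zero_eq_zero]
    exact pow_eq_zero_iff (pow_pos (Fact.out : p.Prime).pos n).ne' |>.1 h5

include h1 h2 h3 in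
theorem mem_lam_mno (n : ℕ) (c : PS (Option σ) l) :
    π (rt p P n (ι c)) ∈ (lamMno p ι n).map (Ideal.Quotient.mk I) := by
  let φ : PS (Option σ) l →+* Unt p (ι (X none)) ⧸ I :=
    π.comp ((rt p P n : P →+* P).comp ι)
  have h4 := pigeon_msm _ (pow_pos (Fact.out : p.Prime).pos n) (ps_sub_trunc_mem _ c)
  have h5 : Ideal.span (Set.range fun j => (X j : PS (Option σ) l) ^ p ^ n) ≤ RingHom.ker φ := by
    rw [Ideal.span_le]
    rintro _ ⟨j, rfl⟩
    rw [SetLike.mem_coe, RingHom.mem_ker, map_pow]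
    change π (rt p P n (ι (X j))) ^ p ^ n = 0
    rw [← map_pow, rt_pow, h3]
    exact Ideal.subset_span ⟨j, rfl⟩
  have h6 := h5 h4
  rw [RingHom.mem_ker, map_sub, sub_eq_zero, ps_map_coe] at h6
  change φ c ∈ _
  rw [h6]
  refine range_le_mno _ _ _ (fun a => ?_) (fun j => ?_) ⟨_, rfl⟩
  · refine ⟨oMno p ι (WittVector.teichmuller p (rt p l n a)), o_mem_lamMno n _, ?_⟩
    rw [mk_o_mno h1, WittVector.teichmuller_coeff_zero]
    exact congrArg π (map_rt (ι.comp C) n a)
  · exact ⟨_, mem_lamMno n j, (h2 _).symm⟩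

include h1 h2 h3 in
theorem upper_mno [Fintype σ] (hπ : Function.Surjective π) {ν : ℕ}
    (hν : ∀ s : Finset P, ∃ (n : ℕ) (w : Fin ν → P), ∀ x ∈ s,
      ∃ c : Fin ν → PS (Option σ) l, x = ∑ i, rt p P n (ι (c i)) * w i)
    (s : Finset (Unt p (ι (X none)) ⧸ I)) : ∃ n : ℕ,
      ((towLen (oMno p ι) (lamMno p ι n) (s : Set (Unt p (ι (X none)) ⧸ I)) : ℕ∞) : ℝ≥0∞) ≤
        ν * ((p ^ (Fintype.card σ + 1)) ^ n : ℕ) := by
  classical
  obtain ⟨n, w, hw⟩ := hν (s.image (Function.surjInv hπ))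
  refine ⟨n, ?_⟩
  have key := towLen_le_mno (oMno p ι) (lamMno p ι n) (s : Set (Unt p (ι (X none)) ⧸ I))
    (fun a : Fin ν × (Option σ → Fin (p ^ n)) =>
      (∏ j, π (rt p P n (ι (X j))) ^ (a.2 j : ℕ)) * π (w a.1)) ?_ ?_
  · rwa [Fintype.card_prod, Fintype.card_fun, Fintype.card_fin, Fintype.card_fin,
      Fintype.card_option, ← pow_mul, mul_comm n, pow_mul, Nat.cast_mul] at key
  · intro a z hz
    rw [(WittVector.irreducible p).maximalIdeal_eq,
      WittVector.mem_span_p_iff_coeff_zero_eq_zero] at hz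
    rw [smul_quot_mno, mk_o_mno h1, hz, map_zero, map_zero,
      map_zero, zero_mul]
  · intro a ha y hy
    obtain ⟨c, hc⟩ := hw _ (Finset.mem_image_of_mem _ hy)
    have h4 : ∀ i, ∃ e : (Option σ → Fin (p ^ n)) → WittVector p l,
        Ideal.Quotient.mk I a * π (rt p P n (ι (c i))) = ∑ b, Ideal.Quotient.mk I (oMno p ι (e b)) *
          ∏ j, π (rt p P n (ι (X j))) ^ (b j : ℕ) := by
      intro i
      obtain ⟨_, ⟨f, rfl⟩, hf⟩ := Subring.mul_mem _ (Subring.mem_map.2 ⟨a, ha, rfl⟩)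
        (mem_lam_mno h1 h2 h3 n (c i))
      obtain ⟨e, e1, e2⟩ := gen_mno ((Ideal.Quotient.mk I).comp (oMno p ι))
        (fun j => π (rt p P n (ι (X j)))) (pow_pos (Fact.out : p.Prime).pos n)
        ((Ideal.Quotient.mk I).comp (oMno p ι)).range (fun a => ⟨a, rfl⟩) (fun j => by
          rw [← map_pow, rt_pow, (h3 _).2 (Ideal.subset_span ⟨j, rfl⟩)]
          exact zero_mem _) f
      choose e' he' using e1
      refine ⟨e', ?_⟩
      rw [← hf, MvPolynomial.map_eval₂Hom]
      simp only [← h2]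
      rw [e2]
      exact Finset.sum_congr rfl fun b _ => by rw [← he' b]; rfl
    choose e he using h4
    refine ⟨fun b => e b.1 b.2, ?_⟩
    rw [← Function.surjInv_eq hπ y, hc, Fintype.sum_prod_type, map_sum, Finset.smul_sum]
    refine Finset.sum_congr rfl fun i _ => ?_
    rw [smul_quot_mno, map_mul, ← mul_assoc, he, Finset.sum_mul]
    refine Finset.sum_congr rfl fun b _ => ?_
    rw [smul_quot_mno, mul_assoc]

end main

theorem tower_mno [Fintype σ] (ι : PS (Option σ) l →+* P) :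
    ∃ μ : RLen (Unt p (ι (X none))), ∀ (M : Type u) [AddCommGroup M]
      [Module (Unt p (ι (X none))) M], μ.len M = ⨆ s : Finset M, ⨅ n : ℕ,
        ((towLen (oMno p ι) (lamMno p ι n) (s : Set M) : ℕ∞) : ℝ≥0∞) /
          (((p ^ (Fintype.card σ + 1)) ^ n : ℕ) : ℝ≥0∞) := by
  classical
  have hp := (Fact.out : p.Prime).pos
  have ho : ∀ n a, oMno p ι a ∈ lamMno p ι n := o_mem_lamMno
  have hv : ∀ n j, shp p (ι (X none)) (rt p P n (ι (X j))) ∈ lamMno p ι n := mem_lamMno
  refine exists_tower (oMno p ι) (lamMno p ι) ho (monotone_nat_of_le_succ fun n => ?_)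
    (fun n => isNoetherianRing_range _) (pow_pos hp _) fun n => ?_
  · refine range_le_mno _ _ _ (ho _) fun j => ?_
    rw [← rt_succ_pow, map_pow]
    exact Subring.pow_mem _ (hv _ j) p
  · let e : (Option σ → Fin p) ≃ Fin (p ^ (Fintype.card σ + 1)) :=
      Fintype.equivFinOfCardEq (by simp)
    refine ⟨fun i => ∏ j, shp p (ι (X none)) (rt p P (n + 1) (ι (X j))) ^ (e.symm i j : ℕ),
      fun i => Subring.prod_mem _ fun j _ => Subring.pow_mem _ (hv _ j) _, ?_⟩
    rintro _ ⟨f, rfl⟩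
    obtain ⟨c, c1, c2⟩ := gen_mno (oMno p ι)
      (fun j => shp p (ι (X none)) (rt p P (n + 1) (ι (X j)))) hp (lamMno p ι n) (ho n)
      (fun j => by
        rw [← map_pow, rt_succ_pow]
        exact hv n j) f
    exact ⟨fun i => c (e.symm i), fun i => c1 _, c2.trans (e.symm.sum_comp _).symm⟩

theorem PCov.exists_norm (h : PCov p ι) : ∃ μ : RLen (Unt p (ι (X none))),
    μ.q (Ideal.span (insert (p : Unt p (ι (X none)))
      (Set.range fun j => shp p (ι (X none)) (ι (X (some j)))))) = 1 := by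
  have := Fintype.ofFinite σ
  obtain ⟨μ, hμ⟩ := tower_mno (p := p) ι
  obtain ⟨ν, hν⟩ := h.fg
  obtain ⟨π, h1, h2, h3⟩ :=
    exists_pi_mno (p := p) (ι (X none)) (Set.range fun j => ι (X (some j)))
  have hπ : Function.Surjective π := by
    intro y
    obtain ⟨y, rfl⟩ := Ideal.Quotient.mk_surjective y
    obtain ⟨y, rfl⟩ := Ideal.Quotient.mk_surjective y
    exact ⟨_, (h1 y).symm⟩
  have h4 : ∀ x, π x = 0 ↔ x ∈ Ideal.span (Set.range fun j => ι (X j)) := fun x => by
    rw [h3, Option.range_eq]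
    rfl
  have hc : ∀ n, (((p ^ (Fintype.card σ + 1)) ^ n : ℕ) : ℝ≥0∞) ≠ 0 := fun n =>
    Nat.cast_ne_zero.2 (pow_pos (pow_pos (Fact.out : p.Prime).pos _) _).ne'
  have e : (Set.range fun j => shp p (ι (X none)) (ι (X (some j)))) =
      shp p (ι (X none)) '' Set.range fun j => ι (X (some j)) := Set.range_comp _ _
  rw [e]
  generalize Ideal.span (insert (p : Unt p (ι (X none)))
    (shp p (ι (X none)) '' Set.range fun j => ι (X (some j)))) = I at π h1 h2 hπ h4 ⊢
  have hl : 1 ≤ μ.q I := by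
    rw [RLen.q, hμ]
    refine le_iSup_of_le {1} (le_iInf fun n => ?_)
    rw [ENNReal.le_div_iff_mul_le (Or.inl (hc n)) (Or.inl (ENNReal.natCast_ne_top _)), one_mul,
      Finset.coe_singleton]
    exact lower_mno h1 h2 h4 h n
  have hu : μ.q I ≤ ν := by
    rw [RLen.q, hμ]
    refine iSup_le fun s => ?_
    obtain ⟨n, hn⟩ := upper_mno h1 h2 h4 hπ hν s
    exact iInf_le_of_le n (ENNReal.div_le_of_le_mul hn)
  exact ⟨RLen.smul (μ.q I)⁻¹ μ, ENNReal.inv_mul_cancel (zero_lt_one.trans_le hl).ne'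
    (ne_top_of_le_ne_top (ENNReal.natCast_ne_top ν) hu)⟩

end Vale.Agent.P202
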