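import Vale.Agent.P202.MDefs
import Vale.Agent.P202.PS
import Vale.Agent.P202.Ext
import Vale.Agent.P202.Loc

/-! Power series over a complete local ring. -/

namespace Vale.Agent.P202

open IsLocalRing MvPowerSeries

universe u

variable {σ : Type} [Finite σ]

theorem mem_span_X_mps {Λ : Type u} [CommRing Λ] (T : Set σ) (z : PS σ Λ) :
    z ∈ Ideal.span ((X : σ → PS σ Λ) '' T) ↔
      ∀ m : σ →₀ ℕ, (∀ i ∈ T, m i = 0) → coeff m z = 0 := by
  classical
  constructor
  · intro hz
    induction hz using Submodule.span_induction with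
    | mem x hx =>
      obtain ⟨i, hi, rfl⟩ := hx
      intro m hm
      exact X_dvd_iff.1 dvd_rfl m (hm i hi)
    | zero => intro m _; simp
    | add x y _ _ hx hy => intro m hm; rw [map_add, hx m hm, hy m hm, add_zero]
    | smul c x _ hx =>
      intro m hm
      rw [smul_eq_mul, coeff_mul]
      refine Finset.sum_eq_zero fun q hq => ?_
      rw [hx q.2 fun i hi => ?_, mul_zero]
      have h1 := congrArg (fun f : σ →₀ ℕ => f i) (Finset.HasAntidiagonal.mem_antidiagonal.1 hq)
      have h2 := hm i hi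
      simp only [Finsupp.coe_add, Pi.add_apply] at h1
      omega
  · have hT := Set.toFinite T
    induction T, hT using Set.Finite.induction_on generalizing z with
    | empty =>
      intro h
      have : z = 0 := MvPowerSeries.ext fun m => h m (by simp)
      rw [this]
      exact Ideal.zero_mem _
    | @insert i T _ _ ih =>
      intro h
      let z0 : PS σ Λ := fun m => if m i = 0 then coeff m z else 0
      have h0 : ∀ m, coeff m z0 = if m i = 0 then coeff m z else 0 := fun m => rfl
      have h1 : z0 ∈ Ideal.span ((X : σ → PS σ Λ) '' T) := by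
        refine ih z0 fun m hm => ?_
        rw [h0]
        split_ifs with hi
        · refine h m fun j hj => ?_
          rcases hj with rfl | hj
          · exact hi
          · exact hm j hj
        · rfl
      have h2 : (X i : PS σ Λ) ∣ z - z0 := by
        refine X_dvd_iff.2 fun m hm => ?_
        rw [map_sub, h0, if_pos hm, sub_self]
      have h3 : z = z0 + (z - z0) := by ring
      rw [h3]
      refine Ideal.add_mem _ (Ideal.span_mono (Set.image_mono (Set.subset_insert i T)) h1) ?_
      obtain ⟨c, hc⟩ := h2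
      rw [hc]
      exact Ideal.mul_mem_right _ _ (Ideal.subset_span ⟨i, Set.mem_insert i T, rfl⟩)

theorem ps_permReg (Λ : Type u) [CommRing Λ] : PermReg (X : σ → PS σ Λ) := by
  classical
  intro T i hi z hz
  rw [mem_span_X_mps] at hz ⊢
  intro m hm
  have h1 := hz (Finsupp.single i 1 + m) fun j hj => by
    have : j ≠ i := fun h => hi (h ▸ hj)
    simp [hm j hj, this]
  rwa [X_def, coeff_add_monomial_mul, one_mul] at h1

omit [Finite σ] in
theorem ker_killCompl_mps {Λ : Type u} [CommRing Λ] (z : PS (Option σ) Λ) :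
    killCompl (Function.Embedding.some : σ ↪ Option σ) z = 0 ↔
      z ∈ Ideal.span {(X none : PS (Option σ) Λ)} := by
  rw [Ideal.mem_span_singleton, X_dvd_iff]
  constructor
  · intro h m hm
    have h1 : m = (Finsupp.some m).embDomain Function.Embedding.some := by
      ext o
      cases o with
      | none =>
        rw [hm, Finsupp.embDomain_of_notMem_range]
        simp
      | some i => exact (Finsupp.embDomain_apply_self Function.Embedding.some m.some i).symm
    rw [h1, ← coeff_killCompl, h, map_zero]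
  · intro h
    ext m
    rw [coeff_killCompl, map_zero]
    refine h _ (Finsupp.embDomain_of_notMem_range _ _ _ ?_)
    simp

/-- A series that does not involve the variable `none` is regular modulo this variable. -/
theorem ps_rename_some_reg {l : Type u} [Field l] {c : PS σ l} (hc : c ≠ 0)
    (z : PS (Option σ) l) (h : rename some c * z ∈ Ideal.span {(X none : PS (Option σ) l)}) :
    z ∈ Ideal.span {(X none : PS (Option σ) l)} := by
  rw [← ker_killCompl_mps] at h ⊢
  rw [map_mul] at h
  have h1 : killCompl (Function.Embedding.some : σ ↪ Option σ) (rename some c) = c :=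
    killCompl_rename_app (e := Function.Embedding.some) c
  rw [h1] at h
  exact (mul_eq_zero.1 h).resolve_left hc

variable {Λ : Type u} [CommRing Λ] [IsLocalRing Λ]

omit [Finite σ] in
theorem mem_maximalIdeal_mps {p : PS σ Λ} :
    p ∈ maximalIdeal (PS σ Λ) ↔ constantCoeff p ∈ maximalIdeal Λ := by
  rw [mem_maximalIdeal, mem_nonunits_iff, isUnit_iff_constantCoeff, mem_maximalIdeal,
    mem_nonunits_iff]

theorem psl_maximalIdeal : maximalIdeal (PS σ Λ) =
    (maximalIdeal Λ).map (C : Λ →+* PS σ Λ) ⊔ Ideal.span (Set.range (X : σ → PS σ Λ)) := by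
  apply le_antisymm
  · intro p hp
    have h1 := Ideal.add_mem _
      (Ideal.mem_sup_left (Ideal.mem_map_of_mem (C : Λ →+* PS σ Λ) (mem_maximalIdeal_mps.1 hp)))
      (Ideal.mem_sup_right (ps_sub_C_mem p))
    rwa [add_sub_cancel] at h1
  · refine sup_le (Ideal.map_le_iff_le_comap.2 fun a ha => ?_) (Ideal.span_le.2 ?_)
    · rw [Ideal.mem_comap, mem_maximalIdeal_mps, constantCoeff_C]
      exact ha
    · rintro _ ⟨i, rfl⟩
      rw [SetLike.mem_coe, mem_maximalIdeal_mps, constantCoeff_X]
      exact Ideal.zero_mem _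

theorem psl_maximalIdeal_of_span {π : Λ} (h : maximalIdeal Λ = Ideal.span {π}) :
    maximalIdeal (PS σ Λ) = Ideal.span (insert (C π) (Set.range (X : σ → PS σ Λ))) := by
  rw [psl_maximalIdeal, h, Ideal.map_span, Set.image_singleton, Ideal.span_insert]

theorem psl_residue_surjective :
    Function.Surjective ((residue (PS σ Λ)).comp (C : Λ →+* PS σ Λ)) := by
  intro z
  obtain ⟨p, rfl⟩ := residue_surjective z
  refine ⟨constantCoeff p, ?_⟩
  rw [RingHom.comp_apply, eq_comm, ← sub_eq_zero, ← map_sub, residue_eq_zero_iff,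
    mem_maximalIdeal_mps]
  simp

theorem mem_pow_mps (n : ℕ) (p : PS σ Λ) : p ∈ maximalIdeal (PS σ Λ) ^ n ↔
    ∀ d : σ →₀ ℕ, coeff d p ∈ maximalIdeal Λ ^ (n - d.degree) := by
  classical
  constructor
  · induction n generalizing p with
    | zero => intro _ d; simp
    | succ n ih =>
      intro hp
      rw [pow_succ] at hp
      refine Submodule.mul_induction_on hp (fun a ha b hb d => ?_) fun a b ha hb d => ?_
      · rw [coeff_mul]
        refine Ideal.sum_mem _ fun q hq => ?_
        have h1 : q.1.degree + q.2.degree = d.degree := by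
          rw [← map_add, Finset.HasAntidiagonal.mem_antidiagonal.1 hq]
        by_cases h2 : q.2 = 0
        · have h3 : coeff q.2 b ∈ maximalIdeal Λ := by
            rw [h2, coeff_zero_eq_constantCoeff_apply]
            exact mem_maximalIdeal_mps.1 hb
          have h4 := Ideal.mul_mem_mul (ih a ha q.1) h3
          rw [← pow_succ] at h4
          exact Ideal.pow_le_pow_right (by omega) h4
        · have h3 : q.2.degree ≠ 0 := fun h => h2 ((Finsupp.degree_eq_zero_iff _).1 h)
          exact Ideal.mul_mem_right _ _ (Ideal.pow_le_pow_right (by omega) (ih a ha q.1))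
      · rw [map_add]
        exact Ideal.add_mem _ (ha d) (hb d)
  · intro h
    have hX : Ideal.span (Set.range (X : σ → PS σ Λ)) ≤ maximalIdeal (PS σ Λ) := by
      rw [psl_maximalIdeal]
      exact le_sup_right
    have hC : (maximalIdeal Λ).map (C : Λ →+* PS σ Λ) ≤ maximalIdeal (PS σ Λ) := by
      rw [psl_maximalIdeal]
      exact le_sup_left
    have h1 := Ideal.pow_right_mono hX n (ps_sub_trunc_mem n p)
    have h2 : ((truncTotal n p : MvPolynomial σ Λ) : PS σ Λ) ∈ maximalIdeal (PS σ Λ) ^ n := by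
      rw [(truncTotal n p).as_sum, ← MvPolynomial.coeToMvPowerSeries.ringHom_apply, map_sum]
      refine Ideal.sum_mem _ fun d _ => ?_
      rw [MvPolynomial.coeToMvPowerSeries.ringHom_apply, MvPolynomial.coe_monomial]
      have h3 : (monomial d (MvPolynomial.coeff d (truncTotal n p)) : PS σ Λ) =
          C (MvPolynomial.coeff d (truncTotal n p)) * monomial d 1 := by
        rw [← monomial_zero_eq_C_apply, monomial_mul_monomial, zero_add, mul_one]
      have h4 : (monomial d 1 : PS σ Λ) ∈ maximalIdeal (PS σ Λ) ^ d.degree := by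
        refine Ideal.pow_right_mono hX _ (ps_mem_pow_of_truncTotal ?_)
        ext x
        rw [coeff_truncTotal_eq_ite]
        split_ifs with hx
        · rw [coeff_monomial, if_neg, MvPolynomial.coeff_zero]
          rintro rfl
          exact lt_irrefl _ hx
        · simp
      have h5 : MvPolynomial.coeff d (truncTotal n p) ∈ maximalIdeal Λ ^ (n - d.degree) := by
        rw [coeff_truncTotal_eq_ite]
        split_ifs
        · exact h d
        · exact Ideal.zero_mem _
      have h6 := Ideal.mem_map_of_mem (C : Λ →+* PS σ Λ) h5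
      rw [Ideal.map_pow] at h6
      have h7 := Ideal.mul_mem_mul (Ideal.pow_right_mono hC _ h6) h4
      rw [← pow_add] at h7
      rw [h3]
      exact Ideal.pow_le_pow_right (by omega) h7
    have h3 := Ideal.add_mem _ h1 h2
    rwa [sub_add_cancel] at h3

theorem psl_complete [IsNoetherianRing Λ] [IsAdicComplete (maximalIdeal Λ) Λ] :
    IsAdicComplete (maximalIdeal (PS σ Λ)) (PS σ Λ) := by
  have := IsHausdorff.of_isLocalRing (maximalIdeal (PS σ Λ)) (PS σ Λ)
    (maximalIdeal.isMaximal _).ne_top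
  refine { prec' := fun f hf => ?_ }
  have hf' : ∀ {m n : ℕ}, m ≤ n → ∀ d : σ →₀ ℕ,
      coeff d (f m) - coeff d (f n) ∈ maximalIdeal Λ ^ (m - d.degree) := by
    intro m n h d
    have h1 := SModEq.sub_mem.1 (hf h)
    rw [smul_eq_mul, Ideal.mul_top, mem_pow_mps] at h1
    simpa using h1 d
  have h : ∀ d : σ →₀ ℕ, ∃ L : Λ, ∀ n, coeff d (f (n + d.degree)) ≡ L
      [SMOD (maximalIdeal Λ ^ n • ⊤ : Submodule Λ Λ)] := by
    intro d
    refine IsPrecomplete.prec' (fun n => coeff d (f (n + d.degree))) fun {m n} h => ?_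
    rw [SModEq.sub_mem, smul_eq_mul, Ideal.mul_top]
    have h1 := hf' (Nat.add_le_add_right h d.degree) d
    rwa [Nat.add_sub_cancel] at h1
  choose L hL using h
  obtain ⟨L', hL'⟩ : ∃ L' : PS σ Λ, ∀ d, coeff d L' = L d := ⟨L, fun _ => rfl⟩
  refine ⟨L', fun n => ?_⟩
  rw [SModEq.sub_mem, smul_eq_mul, Ideal.mul_top, mem_pow_mps]
  intro d
  have h1 := SModEq.sub_mem.1 (hL d n)
  rw [smul_eq_mul, Ideal.mul_top] at h1
  have h2 := Ideal.add_mem _ (hf' (Nat.le_add_right n d.degree) d)
    (Ideal.pow_le_pow_right (Nat.sub_le n d.degree) h1)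
  rw [sub_add_sub_cancel] at h2
  rw [map_sub, hL']
  exact h2

theorem psl_finite [IsNoetherianRing Λ] [IsAdicComplete (maximalIdeal Λ) Λ] {B : Type u}
    [CommRing B] [IsNoetherianRing B] [IsLocalRing B] (φ : PS σ Λ →+* B) [IsLocalHom φ] {t : ℕ}
    (ht : maximalIdeal B ^ t ≤ (maximalIdeal (PS σ Λ)).map φ)
    (hres : Function.Surjective ((residue B).comp (φ.comp C))) : φ.Finite := by
  let := φ.toAlgebra
  have := psl_complete (σ := σ) (Λ := Λ)
  set I := maximalIdeal (PS σ Λ) with hI
  set J := I.map (algebraMap (PS σ Λ) B) with hJ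
  have hJm : J ≤ maximalIdeal B := map_maximalIdeal_le φ
  have : IsHausdorff I B := IsHausdorff.of_map hJm
  have : Module.Finite (PS σ Λ) (B ⧸ maximalIdeal B) := by
    refine Module.Finite.of_surjective (Algebra.linearMap _ _) fun z => ?_
    obtain ⟨a, ha⟩ := hres z
    exact ⟨C a, ha⟩
  have : Module.Finite (PS σ Λ) (B ⧸ J) := by
    refine Module.finite_of_surjective_of_ker_le_nilradical (Ideal.Quotient.factorₐ (PS σ Λ) hJm)
      (Ideal.Quotient.factor_surjective hJm) ?_ (IsNoetherian.noetherian _)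
    intro z hz
    obtain ⟨b, rfl⟩ := Ideal.Quotient.mk_surjective z
    have hb : b ∈ maximalIdeal B := Ideal.Quotient.eq_zero_iff_mem.1 hz
    refine mem_nilradical.2 ⟨t, ?_⟩
    rw [← map_pow, Ideal.Quotient.eq_zero_iff_mem]
    exact ht (Ideal.pow_mem_pow hb t)
  have : Module.Finite (PS σ Λ) (B ⧸ (I • ⊤ : Submodule (PS σ Λ) B)) := by
    rw [Ideal.smul_top_eq_map]
    exact Module.Finite.equiv (Submodule.Quotient.restrictScalarsEquiv (PS σ Λ) J).symm
  exact finite_of_finite_quot I

theorem psl_dim_le {π : Λ} [IsNoetherianRing Λ] (h : maximalIdeal Λ = Ideal.span {π}) :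
    ringKrullDim (PS σ Λ) ≤ (Nat.card σ + 1 : ℕ) := by
  refine (ringKrullDim_le_spanFinrank_maximalIdeal _).trans ?_
  rw [psl_maximalIdeal_of_span h]
  have h1 := Submodule.spanFinrank_span_le_ncard_of_finite (R := PS σ Λ)
    ((Set.finite_range (X : σ → PS σ Λ)).insert (C π))
  have h2 : (Set.range (X : σ → PS σ Λ)).ncard ≤ Nat.card σ := by
    rw [← Set.image_univ]
    exact (Set.ncard_image_le Set.finite_univ).trans (by simp [Set.ncard_univ])
  have h3 := (Set.ncard_insert_le (C π) (Set.range (X : σ → PS σ Λ))).trans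
    (Nat.add_le_add_right h2 1)
  exact_mod_cast h1.trans h3

omit [IsLocalRing Λ] in
theorem ker_ps_map {Λ' : Type u} [CommRing Λ'] (f : Λ →+* Λ') {π : Λ}
    (h : RingHom.ker f = Ideal.span {π}) :
    RingHom.ker (MvPowerSeries.map (σ := σ) f) = Ideal.span {C π} := by
  apply le_antisymm
  · intro p hp
    have h1 : ∀ d : σ →₀ ℕ, ∃ c, π * c = coeff d p := by
      intro d
      have h2 : coeff d p ∈ RingHom.ker f := by
        rw [RingHom.mem_ker, ← coeff_map, RingHom.mem_ker.1 hp, map_zero]
      rw [h, Ideal.mem_span_singleton] at h2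
      obtain ⟨c, hc⟩ := h2
      exact ⟨c, hc.symm⟩
    choose c hc using h1
    obtain ⟨c', hc'⟩ : ∃ c' : PS σ Λ, ∀ d, coeff d c' = c d := ⟨c, fun _ => rfl⟩
    refine Ideal.mem_span_singleton.2 ⟨c', ?_⟩
    ext d
    rw [coeff_C_mul, ← hc d, hc']
  · rw [Ideal.span_le, Set.singleton_subset_iff, SetLike.mem_coe, RingHom.mem_ker, map_C]
    have h1 : π ∈ RingHom.ker f := h ▸ Ideal.subset_span rfl
    rw [RingHom.mem_ker.1 h1, map_zero]

theorem dvd_of_almost_mps {R : Type u} [CommRing R] [IsDomain R] [IsNoetherianRing R]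
    [IsIntegrallyClosed R] {a b d : R} (hb : b ≠ 0) (hd : d ≠ 0) (h : ∀ n, b ^ n ∣ d * a ^ n) :
    b ∣ a := by
  let K := FractionRing R
  have hb' : algebraMap R K b ≠ 0 := by simpa using hb
  have h1 : IsAlmostIntegral R (algebraMap R K a / algebraMap R K b) := by
    refine ⟨d, mem_nonZeroDivisors_of_ne_zero hd, fun n => ?_⟩
    obtain ⟨e, he⟩ := h n
    refine ⟨e, ?_⟩
    have h2 := congrArg (algebraMap R K) he
    rw [map_mul, map_mul, map_pow, map_pow] at h2
    rw [Algebra.smul_def, div_pow, ← mul_div_assoc, h2, mul_div_cancel_left₀ _ (pow_ne_zero n hb')]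
  obtain ⟨c, hc⟩ := IsIntegrallyClosed.isIntegral_iff.1 h1.isIntegral
  refine ⟨c, IsFractionRing.injective R K ?_⟩
  rw [map_mul, hc, mul_div_cancel₀ _ hb']

theorem lead_mps {A R : Type u} [CommRing A] [IsDomain A] [IsNoetherianRing A] [CommRing R]
    [IsDomain R] [IsNoetherianRing R] [IsIntegrallyClosed R] (g : A →+* R)
    (hg : Function.Surjective g) {π : A} (hπ : π ≠ 0) (hk : ∀ z, g z = 0 ↔ π ∣ z) {a b d : A}
    (hb : b ≠ 0) (hd : d ≠ 0) {j : ℕ} (ha : ¬ π ∣ a) (h : ∀ n, b ^ n ∣ d * (π ^ j * a) ^ n) :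
    ∃ c r, π ^ j * a = c * b + π ^ (j + 1) * r := by
  have hu : ¬ IsUnit π := fun hu => ha hu.dvd
  have hp : Prime π := by
    refine ⟨hπ, hu, fun x y hxy => ?_⟩
    rw [← hk, map_mul, mul_eq_zero, hk, hk] at hxy
    exact hxy
  obtain ⟨β, b', hb', rfl⟩ := WfDvdMonoid.max_power_factor' hb hu
  obtain ⟨δ, d', hd', rfl⟩ := WfDvdMonoid.max_power_factor' hd hu
  have h1 : ∀ n, ¬ π ∣ d' * a ^ n := fun n hn =>
    (hp.dvd_or_dvd hn).elim hd' fun h2 => ha (hp.dvd_of_dvd_pow h2)
  have h2 : ∀ n, π ^ (β * n) * b' ^ n ∣ π ^ (δ + j * n) * (d' * a ^ n) := by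
    intro n
    have := h n
    rw [mul_pow, mul_pow, ← pow_mul, ← pow_mul] at this
    convert this using 1
    ring
  have h3 : ∀ n, β * n ≤ δ + j * n := by
    intro n
    by_contra hlt
    have h4 : π ^ (δ + j * n) * π ∣ π ^ (δ + j * n) * (d' * a ^ n) := by
      refine dvd_trans ?_ ((dvd_mul_right _ _).trans (h2 n))
      rw [← pow_succ]
      exact pow_dvd_pow π (by omega)
    exact h1 n ((mul_dvd_mul_iff_left (pow_ne_zero _ hπ)).1 h4)
  have h4 : β ≤ j := by
    by_contra hlt
    have h5 := h3 (δ + 1)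
    have h6 : (j + 1) * (δ + 1) ≤ β * (δ + 1) := Nat.mul_le_mul_right _ (by omega)
    nlinarith
  have h5 : ∀ n, b' ^ n ∣ d' * a ^ n := by
    intro n
    obtain ⟨e, he⟩ := (dvd_mul_left _ _).trans (h2 n)
    have h6 : π ^ (δ + j * n) ∣ b' ^ n * e := ⟨_, he.symm⟩
    obtain ⟨e', rfl⟩ := hp.pow_dvd_of_dvd_mul_left _ (fun h7 => hb' (hp.dvd_of_dvd_pow h7)) h6
    refine ⟨e', mul_left_cancel₀ (pow_ne_zero (δ + j * n) hπ) ?_⟩
    rw [he]
    ring
  have h6 : g b' ∣ g a := by
    refine dvd_of_almost_mps (d := g d') (fun h7 => hb' ((hk _).1 h7))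
      (fun h7 => hd' ((hk _).1 h7)) fun n => ?_
    have := map_dvd g (h5 n)
    rwa [map_mul, map_pow, map_pow] at this
  obtain ⟨c, hc⟩ := h6
  obtain ⟨c, rfl⟩ := hg c
  obtain ⟨r, hr⟩ := (hk (a - b' * c)).1 (by rw [map_sub, map_mul, hc, sub_self])
  obtain ⟨k, rfl⟩ := Nat.exists_eq_add_of_le h4
  refine ⟨π ^ k * c, r, ?_⟩
  rw [sub_eq_iff_eq_add] at hr
  rw [hr]
  ring

theorem normal_lift_mps {A R : Type u} [CommRing A] [IsDomain A] [IsNoetherianRing A]
    [IsLocalRing A] [CommRing R] [IsDomain R] [IsNoetherianRing R] [IsIntegrallyClosed R]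
    (g : A →+* R) (hg : Function.Surjective g) {π : A} (hπ : π ≠ 0)
    (hk : ∀ z, g z = 0 ↔ π ∣ z) : IsIntegrallyClosed A := by
  have key : ∀ {b d : A}, b ≠ 0 → d ≠ 0 → ∀ a, (∀ n, b ^ n ∣ d * a ^ n) → b ∣ a := by
    intro b d hb hd a h
    have h1 : ∀ j : ℕ, ∃ c r, a = c * b + π ^ j * r := by
      intro j
      induction j with
      | zero => exact ⟨0, a, by simp⟩
      | succ j ih =>
        obtain ⟨c, r, hr⟩ := ih
        by_cases h2 : π ∣ r
        · obtain ⟨r', rfl⟩ := h2
          exact ⟨c, r', by rw [hr]; ring⟩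
        · obtain ⟨c', r', h3⟩ := lead_mps g hg hπ hk hb hd (j := j) h2 fun n => by
            have h4 : π ^ j * r = a + -(c * b) := by rw [hr]; ring
            rw [h4, add_pow, Finset.mul_sum]
            refine Finset.dvd_sum fun i hi => ?_
            have h5 : i ≤ n := Nat.lt_succ_iff.1 (Finset.mem_range.1 hi)
            obtain ⟨k, rfl⟩ := Nat.exists_eq_add_of_le h5
            obtain ⟨e, he⟩ := h i
            refine ⟨e * (-c) ^ k * ((i + k).choose i : A), ?_⟩
            rw [Nat.add_sub_cancel_left, ← mul_assoc, ← mul_assoc, he, ← neg_mul, mul_pow]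
            ring
          exact ⟨c + c', r', by rw [hr, h3]; ring⟩
    have hI : Ideal.span {π} ≠ ⊤ := by
      rw [Ne, Ideal.span_singleton_eq_top]
      intro hu
      exact one_ne_zero (((hk 1).2 hu.dvd).symm.trans (map_one g)).symm
    rw [← Ideal.mem_span_singleton, ← Submodule.Quotient.mk_eq_zero, ← Submodule.mem_bot A,
      ← (Ideal.span {π}).iInf_pow_smul_eq_bot_of_isLocalRing (M := A ⧸ Ideal.span {b}) hI,
      Submodule.mem_iInf]
    intro j
    obtain ⟨c, r, hr⟩ := h1 j
    have h2 : (Submodule.Quotient.mk a : A ⧸ Ideal.span {b}) =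
        π ^ j • (Submodule.Quotient.mk r : A ⧸ Ideal.span {b}) := by
      rw [← Submodule.Quotient.mk_smul, Submodule.Quotient.eq, hr, smul_eq_mul,
        add_sub_cancel_right]
      exact Ideal.mul_mem_left _ _ (Ideal.subset_span rfl)
    rw [h2]
    have h3 : π ^ j ∈ Ideal.span {π} ^ j :=
      Ideal.pow_mem_pow (Ideal.mem_span_singleton_self π) j
    exact Submodule.smul_mem_smul h3 Submodule.mem_top
  let K := FractionRing A
  refine (isIntegrallyClosed_iff K).2 fun {x} hx => ?_
  obtain ⟨d, hd, hx'⟩ := hx.isAlmostIntegral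
  obtain ⟨a, b, hb, rfl⟩ := IsFractionRing.div_surjective (A := A) x
  have hb0 : b ≠ 0 := nonZeroDivisors.ne_zero hb
  have hb' : algebraMap A K b ≠ 0 := by simpa using hb0
  obtain ⟨c, rfl⟩ := key hb0 (nonZeroDivisors.ne_zero hd) a fun n => by
    obtain ⟨e, he⟩ := hx' n
    refine ⟨e, IsFractionRing.injective A K ?_⟩
    rw [map_mul, map_mul, map_pow, map_pow, he, Algebra.smul_def, div_pow, ← mul_div_assoc,
      mul_div_cancel₀ _ (pow_ne_zero n hb')]
  exact ⟨c, by rw [map_mul, mul_div_cancel_left₀ _ hb']⟩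

omit [IsLocalRing Λ] in
theorem ps_isIntegrallyClosed [IsDomain Λ] [IsDiscreteValuationRing Λ] :
    IsIntegrallyClosed (PS σ Λ) := by
  revert σ
  intro σ hσ
  refine Finite.induction_empty_option (P := fun σ : Type => IsIntegrallyClosed (PS σ Λ))
    (fun {α β} e h => ?_) ?_ (fun {α} _ h => ?_) σ
  · exact IsIntegrallyClosed.of_equiv (renameEquiv Λ e).toRingEquiv
  · exact IsIntegrallyClosed.of_equiv (isEmptyEquiv PEmpty Λ).symm.toRingEquiv
  · have : IsDomain (PS α Λ) := NoZeroDivisors.to_isDomain _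
    have : IsDomain (PS (Option α) Λ) := NoZeroDivisors.to_isDomain _
    refine normal_lift_mps
      (killCompl (R := Λ) (Function.Embedding.some : α ↪ Option α)).toRingHom
      (fun z => ⟨rename _ z, killCompl_rename_app z⟩) (π := X none) ?_ fun z => ?_
    · intro h0
      have := congrArg (coeff (Finsupp.single none 1)) h0
      simp at this
    · exact (ker_killCompl_mps z).trans Ideal.mem_span_singleton

omit [IsLocalRing Λ] in
/-- A quotient of a complete Noetherian local ring is complete. -/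
theorem complete_of_surjective {A B : Type u} [CommRing A] [IsNoetherianRing A] [IsLocalRing A]
    [IsAdicComplete (maximalIdeal A) A] [CommRing B] [IsLocalRing B] (f : A →+* B)
    (hf : Function.Surjective f) : IsAdicComplete (maximalIdeal B) B := by
  have : IsNoetherianRing B := isNoetherianRing_of_surjective A B f hf
  have := IsHausdorff.of_isLocalRing (maximalIdeal B) B (maximalIdeal.isMaximal _).ne_top
  let := f.toAlgebra
  have h1 : IsPrecomplete (maximalIdeal A) B := by
    rw [← AdicCompletion.of_surjective_iff]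
    intro y
    obtain ⟨x, rfl⟩ := AdicCompletion.map_surjective (maximalIdeal A)
      (f := Algebra.linearMap A B) hf y
    obtain ⟨a, rfl⟩ := AdicCompletion.of_surjective (maximalIdeal A) A x
    exact ⟨_, (AdicCompletion.map_of _ _ _).symm⟩
  have h2 := IsPrecomplete.map_algebraMap_iff (S := B) (M := B) (I := maximalIdeal A).2 h1
  rw [map_maximalIdeal_of_surjective (algebraMap A B) hf] at h2
  exact ⟨⟩

omit [IsLocalRing Λ] in
theorem coe_flat_mps (Λ : Type u) [CommRing Λ] [IsNoetherianRing Λ] :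
    (MvPolynomial.coeToMvPowerSeries.ringHom : MvPolynomial σ Λ →+* PS σ Λ).Flat := by
  have h : Module.Flat (MvPolynomial σ Λ) (PS σ Λ) :=
    Module.Flat.of_linearEquiv (toAdicCompletionAlgEquiv σ Λ).toLinearEquiv
  have h2 : (algebraMap (MvPolynomial σ Λ) (PS σ Λ)).Flat := RingHom.flat_algebraMap_iff.2 h
  convert h2 using 1
  refine RingHom.ext fun a => ?_
  rw [MvPowerSeries.algebraMap_apply']
  simp

theorem charZero_mps {p : ℕ} {C1 : Type u} [CommRing C1] [IsDomain C1]
    [IsDiscreteValuationRing C1] (h1 : maximalIdeal C1 = Ideal.span {(p : C1)}) : CharZero C1 := by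
  obtain ⟨l, hl⟩ := CharP.exists C1
  rcases CharP.char_is_prime_or_zero C1 l with hp | rfl
  · exfalso
    by_cases h : l ∣ p
    · refine IsDiscreteValuationRing.not_a_field C1 ?_
      rw [h1, (CharP.cast_eq_zero_iff C1 l p).2 h, Ideal.span_singleton_zero]
    · have h2 : (p : C1) ∈ maximalIdeal C1 := h1 ▸ Ideal.subset_span rfl
      have h3 : IsCoprime (l : C1) (p : C1) := by
        have := (Nat.isCoprime_iff_coprime.2 ((Nat.Prime.coprime_iff_not_dvd hp).2 h)).map
          (Int.castRingHom C1)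
        simpa using this
      rw [CharP.cast_eq_zero, isCoprime_zero_left] at h3
      exact h2 h3
  · exact CharP.charP_to_charZero C1

attribute [local instance] MvPolynomial.algebraMvPolynomial in
omit [Finite σ] in
theorem poly_map_flat_mps (C1 : Type u) [CommRing C1] [IsDomain C1] [CharZero C1] :
    (MvPolynomial.map (σ := σ) (algebraMap ℤ C1)).Flat := by
  have h : Module.Flat (MvPolynomial σ ℤ) (MvPolynomial σ C1) :=
    Module.Flat.isBaseChange ℤ (MvPolynomial σ ℤ) C1 (MvPolynomial σ C1)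
      (Algebra.IsPushout.out (R := ℤ) (S := MvPolynomial σ ℤ) (R' := C1)
        (S' := MvPolynomial σ C1))
  exact RingHom.flat_algebraMap_iff.2 h

omit [Finite σ] in
theorem rename_flat_mps {τ : Type} (e : σ → τ) (he : Function.Injective e) :
    ((MvPolynomial.rename e : MvPolynomial σ ℤ →ₐ[ℤ] MvPolynomial τ ℤ) :
      MvPolynomial σ ℤ →+* MvPolynomial τ ℤ).Flat := by
  classical
  let E : ((Set.range e)ᶜ : Set τ) ⊕ σ ≃ τ :=
    ((Equiv.sumCongr (Equiv.refl _) (Equiv.ofInjective e he)).trans (Equiv.sumComm _ _)).trans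
      (Equiv.Set.sumCompl (Set.range e))
  have hE : ∀ i, E (Sum.inr i) = e i := fun i => rfl
  have h1 : (MvPolynomial.C : MvPolynomial σ ℤ →+*
      MvPolynomial ((Set.range e)ᶜ : Set τ) (MvPolynomial σ ℤ)).Flat :=
    RingHom.flat_algebraMap_iff.2 inferInstance
  let F := (MvPolynomial.sumAlgEquiv ℤ ((Set.range e)ᶜ : Set τ) σ).symm.trans
    (MvPolynomial.renameEquiv ℤ E)
  have h2 := h1.comp (RingHom.Flat.of_bijective (f := F.toRingEquiv.toRingHom) F.bijective)
  convert h2 using 1
  refine MvPolynomial.ringHom_ext' (RingHom.ext_int _ _) fun i => ?_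
  simp [F, hE]

/-- Flatness of maps between power series rings over unramified discrete valuation rings. -/
theorem ps_flat_of_unram {τ : Type} [Finite τ] {p : ℕ} {C1 C2 : Type u} [CommRing C1]
    [IsDomain C1] [IsDiscreteValuationRing C1] [CommRing C2] [IsDomain C2]
    [IsDiscreteValuationRing C2] (h1 : maximalIdeal C1 = Ideal.span {(p : C1)})
    (h2 : maximalIdeal C2 = Ideal.span {(p : C2)}) (e : σ → τ) (he : Function.Injective e)
    (f : PS σ C1 →+* PS τ C2) (hX : ∀ i, f (X i) = X (e i)) : IsLocalHom f ∧ f.Flat := by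
  have hloc : IsLocalHom f := by
    refine ((local_hom_TFAE f).out 0 2).2 ?_
    rw [psl_maximalIdeal_of_span h1, psl_maximalIdeal_of_span h2, Ideal.map_span]
    refine Ideal.span_mono ?_
    rintro _ ⟨_, rfl | ⟨i, rfl⟩, rfl⟩
    · left
      simp
    · right
      exact ⟨e i, (hX i).symm⟩
  refine ⟨hloc, ?_⟩
  have := charZero_mps h1
  have := charZero_mps h2
  let g1 : MvPolynomial σ ℤ →+* PS σ C1 :=
    MvPolynomial.coeToMvPowerSeries.ringHom.comp (MvPolynomial.map (algebraMap ℤ C1))
  let g2 : MvPolynomial τ ℤ →+* PS τ C2 :=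
    MvPolynomial.coeToMvPowerSeries.ringHom.comp (MvPolynomial.map (algebraMap ℤ C2))
  have hg1 : g1.Flat := (poly_map_flat_mps C1).comp (coe_flat_mps C1)
  have hg2 : g2.Flat := (poly_map_flat_mps C2).comp (coe_flat_mps C2)
  have hc : f.comp g1 = g2.comp (MvPolynomial.rename e : MvPolynomial σ ℤ →ₐ[ℤ] _) := by
    refine MvPolynomial.ringHom_ext' (RingHom.ext_int _ _) fun i => ?_
    simp [g1, g2, hX]
  let E : ULift.{u} (MvPolynomial σ ℤ) ≃+* MvPolynomial σ ℤ := ULift.ringEquiv
  have hE : (E : ULift.{u} (MvPolynomial σ ℤ) →+* MvPolynomial σ ℤ).Flat :=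
    RingHom.Flat.of_bijective E.bijective
  refine ext_flat_of_map_eq (g1.comp (E : ULift.{u} (MvPolynomial σ ℤ) →+* MvPolynomial σ ℤ)) f
    (hE.comp hg1) ?_ ((Ideal.span (insert (p : MvPolynomial σ ℤ) (Set.range MvPolynomial.X))).comap
      (E : ULift.{u} (MvPolynomial σ ℤ) →+* MvPolynomial σ ℤ)) ?_
  · rw [← RingHom.comp_assoc, hc]
    exact hE.comp ((rename_flat_mps e he).comp hg2)
  · rw [← Ideal.map_map, Ideal.map_comap_of_surjective
      (E : ULift.{u} (MvPolynomial σ ℤ) →+* MvPolynomial σ ℤ) E.surjective,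
      psl_maximalIdeal_of_span h1, Ideal.map_span, Set.image_insert_eq, ← Set.range_comp]
    congr 2
    · simp
    · congr 1
      funext i
      simp [g1]

end Vale.Agent.P202
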