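import Vale.Agent.P202.MAnd
import Vale.Agent.P202.MPS

/-! Perfect covers of `l[[t, X]]`. -/

namespace Vale.Agent.P202

open MvPowerSeries

universe u

/-- A perfect cover of `l[[t, X]]`. -/
structure PCov (p : ℕ) [Fact p.Prime] {l : Type u} [Field l] {σ : Type} {P : Type u} [CommRing P]
    [CharP P p] [PerfectRing P p] (ι : PS (Option σ) l →+* P) : Prop where
  ff : ι.FaithfullyFlat
  int : ι.IsIntegral
  fg : ∃ ν : ℕ, ∀ s : Finset P, ∃ (n : ℕ) (w : Fin ν → P), ∀ x ∈ s,
    ∃ c : Fin ν → PS (Option σ) l, x = ∑ i, rt p P n (ι (c i)) * w i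

variable {p : ℕ} [Fact p.Prime] {l : Type u} [Field l] {σ : Type} [Finite σ]

omit [Finite σ] in
theorem ps_charP (p : ℕ) (l : Type u) [Field l] [CharP l p] (σ : Type) : CharP (PS σ l) p := by
  exact charP_of_injective_ringHom (f := (C : l →+* PS σ l)) C_injective p

theorem flat_of_mp0 [CharP (PS (Option σ) l) p] :
    (PerfectClosure.of (PS (Option σ) l) p).Flat := by
  simpa using flat_perfectClosure (p := p) (RingHom.id (PS (Option σ) l)) fun n => by
    simpa using ps_frob_flat l p n

theorem t_reg_perfectClosure [CharP (PS (Option σ) l) p] :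
    PerfectClosure.of (PS (Option σ) l) p (X none) ∈
      nonZeroDivisors (PerfectClosure (PS (Option σ) l) p) := by
  exact mem_nonZeroDivisors_of_flat flat_of_mp0 ((ps_permReg l).mem_nonZeroDivisors none)

variable {P : Type u} [CommRing P] [CharP P p] [PerfectRing P p]

theorem pcov_of_cover [CharP (PS (Option σ) l) p]
    {f : PerfectClosure (PS (Option σ) l) p →+* P} (hf : Cover f) :
    PCov p (f.comp (PerfectClosure.of (PS (Option σ) l) p)) := by
  obtain ⟨ν, hν⟩ := hf.fg
  refine ⟨RingHom.FaithfullyFlat.stableUnderComposition _ _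
    (RingHom.FaithfullyFlat.iff_flat_and_comap_surjective.2
      ⟨flat_of_mp0, comap_surjective_perfectClosure _⟩) hf.ff,
    RingHom.IsIntegral.trans _ _ (isIntegral_of_perfectClosure _) hf.int, ν, fun s => ?_⟩
  obtain ⟨w, hw⟩ := hν s
  choose c hc using hw
  obtain ⟨n, y, hy⟩ := pc_fam_MAnd fun a : s × Fin ν => c a.1 a.1.2 a.2
  refine ⟨n, w, fun x hx => ⟨fun i => y (⟨x, hx⟩, i), (hc x hx).trans ?_⟩⟩
  refine Finset.sum_congr rfl fun i _ => congrArg (· * w i) (pow_inj_MAnd (p := p) n ?_)
  rw [rt_pow, ← map_pow, hy (⟨x, hx⟩, i), RingHom.comp_apply]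

variable {ι : PS (Option σ) l →+* P}

theorem PCov.t_reg (h : PCov p ι) : ι (X none) ∈ nonZeroDivisors P := by
  exact mem_nonZeroDivisors_of_flat h.ff.flat ((ps_permReg l).mem_nonZeroDivisors none)

theorem PCov.jac (h : PCov p ι) : ι (X none) ∈ (⊥ : Ideal P).jacobson := by
  refine Ideal.mem_sInf.2 fun {J} hJ => ?_
  have := hJ.2
  have h1 := IsLocalRing.eq_maximalIdeal
    (Ideal.isMaximal_comap_of_isIntegral_of_isMaximal' ι h.int J)
  rw [← Ideal.mem_comap, h1, ps_mem_maximalIdeal, constantCoeff_X]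

theorem PCov.permReg (h : PCov p ι) (k : ℕ) :
    PermReg fun o => shp p (ι (X none)) (rt p P k (ι (X o))) := by
  refine Unt.permReg (fun o => rt p P k (ι (X o))) ?_
    (Nat.one_le_pow k p (Fact.out : p.Prime).pos) (rt_pow k _)
  exact ((ps_permReg l).map_flat h.ff.flat).map_flat (f := (rt p P k : P →+* P))
    (RingHom.Flat.of_bijective (rt p P k).bijective)

/-- An element whose reduction is a nonzero series in the variables `X` is regular modulo
powers of `p`. -/
theorem PCov.colon (h : PCov p ι) {c : PS σ l} (hc : c ≠ 0) {b : Unt p (ι (X none))}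
    (hb : b - shp p (ι (X none)) (ι (rename some c)) ∈ Ideal.span {(p : Unt p (ι (X none)))})
    (n : ℕ) (z : Unt p (ι (X none)))
    (hz : b * z ∈ Ideal.span {(p : Unt p (ι (X none))) ^ n}) :
    z ∈ Ideal.span {(p : Unt p (ι (X none))) ^ n} := by
  have h1 : ∀ z, b * z ∈ Ideal.span {(p : Unt p (ι (X none)))} →
      z ∈ Ideal.span {(p : Unt p (ι (X none)))} := by
    intro z hz
    rw [← Unt.ker_red, RingHom.mem_ker] at hb hz ⊢
    obtain ⟨y, hy⟩ := Ideal.Quotient.mk_surjective (Unt.red p _ z)
    rw [map_sub, sub_eq_zero, Unt.red_shp] at hb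
    rw [map_mul, hb, ← hy, ← map_mul, Ideal.Quotient.eq_zero_iff_mem] at hz
    have := mem_map_of_flat h.ff.flat (ps_rename_some_reg hc) y
    rw [Ideal.map_span, Set.image_singleton] at this
    rw [← hy, Ideal.Quotient.eq_zero_iff_mem]
    exact this hz
  have := reg_pow_unt (I := ⊥) (x := b) (fun z hz => by
    rw [Ideal.mem_bot] at hz ⊢
    exact mem_nonZeroDivisors_iff_left.1 (Unt.p_reg h.t_reg) z hz)
    (by simpa only [bot_sup_eq] using h1) n z
  simp only [bot_sup_eq] at this
  exact this hz

/-- Root closure for the ideals generated by one sharp element and the variables. -/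
theorem PCov.rc [Fintype σ] (h : PCov p ι) (z : P) {a : ℕ}
    (ha : (p : Unt p (ι (X none))) ^ a ∈ Ideal.span (insert (shp p (ι (X none)) z)
      (Set.range fun j => shp p (ι (X none)) (ι (X (some j))))))
    (k r : ℕ) (b : Unt p (ι (X none)))
    (hb : b ^ p ^ k ∈ Ideal.span (insert (shp p (ι (X none)) z)
      (Set.range fun j => shp p (ι (X none)) (ι (X (some j))))) ^ r) :
    b ∈ Ideal.span (insert (shp p (ι (X none)) (rt p P k z))
      (Set.range fun j => shp p (ι (X none)) (rt p P k (ι (X (some j)))))) ^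
        (r - (Fintype.card σ + 1)) := by
  have := root_closed (u := fun o : Option σ => o.elim z fun j => ι (X (some j))) (b := b) (k := k)
    (r := r) h.t_reg (rad_of_pow_mem (a := a) h.jac (by
      rw [← Set.range_comp, Option.range_eq]; exact ha))
  rw [Option.range_eq, Option.range_eq, Fintype.card_option] at this
  exact this hb

end Vale.Agent.P202
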