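import Vale.Agent.P202.MDefs
import Vale.Agent.P202.LC

/-! Finite free resolutions over a formally smooth extension. -/

namespace Vale.Agent.P202

open IsLocalRing

universe u

theorem flat_ker_mres {R : Type u} [CommRing R] {K N P : Type u} [AddCommGroup K] [Module R K]
    [AddCommGroup N] [Module R N] [AddCommGroup P] [Module R P] [Module.Flat R N]
    [Module.Flat R P] (g : K →ₗ[R] N) (f : N →ₗ[R] P) (hg : Function.Injective g)
    (hf : Function.Surjective f) (H : Function.Exact g f) : Module.Flat R K := by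
  rw [Module.Flat.iff_rTensor_injective']
  intro I
  have h1 := LinearMap.lTensor_injective_of_exact_of_flat f hf g hg H I
  have h2 := Module.Flat.rTensor_preserves_injective_linearMap (M := N) I.subtype
    I.injective_subtype
  have e : (g.lTensor R) ∘ₗ (I.subtype.rTensor K) = (I.subtype.rTensor N) ∘ₗ (g.lTensor I) := by
    rw [LinearMap.lTensor_comp_rTensor, LinearMap.rTensor_comp_lTensor]
  have h3 : Function.Injective ((g.lTensor R) ∘ₗ (I.subtype.rTensor K)) := by
    rw [e]
    exact h2.comp h1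
  exact Function.Injective.of_comp (f := g.lTensor R) h3

theorem mem_smul_top_mres {T : Type u} [CommRing T] {r : ℕ} {I : Ideal T} {x : Fin r → T} :
    x ∈ I • (⊤ : Submodule T (Fin r → T)) ↔ ∀ a, x a ∈ I := by
  constructor
  · intro h a
    refine Submodule.smul_induction_on h (fun c hc y _ => I.mul_mem_right _ hc) fun y z hy hz => ?_
    exact I.add_mem hy hz
  · intro h
    rw [← Finset.univ_sum_single x]
    refine Submodule.sum_mem _ fun a _ => ?_
    have : (Pi.single a (x a) : Fin r → T) = x a • Pi.single a 1 := by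
      rw [← Pi.single_smul, smul_eq_mul, mul_one]
    rw [this]
    exact Submodule.smul_mem_smul (h a) trivial

theorem exists_mingen_mres {T : Type u} [CommRing T] [IsLocalRing T] {F : Type u}
    [AddCommGroup F] [Module T F] {Z : Submodule T F} (hZ : Z.FG) :
    ∃ (n : ℕ) (v : Fin n → F), Submodule.span T (Set.range v) = Z ∧
      ∀ c : Fin n → T, ∑ a, c a • v a = 0 → ∀ a, c a ∈ maximalIdeal T := by
  classical
  have hex := Submodule.fg_iff_exists_fin_generating_family.1 hZ
  obtain ⟨v, hv⟩ := Nat.find_spec hex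
  have hmin := fun k => Nat.find_min hex (m := k)
  generalize Nat.find hex = n at v hv hmin
  refine ⟨n, v, hv, fun c hc a => ?_⟩
  by_contra ha
  obtain ⟨u, hu⟩ := notMem_maximalIdeal.1 ha
  obtain ⟨k, rfl⟩ : ∃ k, n = k + 1 := ⟨n - 1, by have := a.pos; omega⟩
  refine hmin k (Nat.lt_succ_self k) ⟨fun b => v (a.succAbove b), ?_⟩
  rw [← hv]
  refine le_antisymm (Submodule.span_mono ?_) (Submodule.span_le.2 ?_)
  · rintro _ ⟨b, rfl⟩
    exact ⟨_, rfl⟩
  · rintro _ ⟨b, rfl⟩
    rcases Fin.eq_self_or_eq_succAbove a b with rfl | ⟨b, rfl⟩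
    · rw [Fin.sum_univ_succAbove _ b, ← hu] at hc
      rw [SetLike.mem_coe, ← Submodule.smul_mem_iff_of_isUnit _ u.isUnit,
        eq_neg_of_add_eq_zero_left hc]
      exact neg_mem (Submodule.sum_mem _ fun l _ =>
        Submodule.smul_mem _ _ (Submodule.subset_span ⟨l, rfl⟩))
    · exact Submodule.subset_span ⟨b, rfl⟩

variable (R : Type u) {T : Type u} [CommRing R] [IsLocalRing R] [CommRing T] [Algebra R T] {g : ℕ}

/-- The ideal generated by the maximal ideal of `R` and the first `i` elements. -/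
def qMres (w : Fin g → T) (i : ℕ) : Ideal T := mS R T ⊔ Ideal.span (w '' {l | (l : ℕ) < i})

theorem qMres_zero (w : Fin g → T) : qMres R w 0 = mS R T := by
  simp [qMres]

theorem qMres_succ (w : Fin g → T) (i : Fin g) :
    qMres R w (i + 1) = qMres R w i ⊔ Ideal.span {w i} := by
  have : {l : Fin g | (l : ℕ) < i + 1} = insert i {l : Fin g | (l : ℕ) < i} := by
    ext l
    simp only [Set.mem_ofPred_eq, Set.mem_insert_iff, Fin.ext_iff]
    omega
  rw [qMres, this, Set.image_insert_eq, Ideal.span_insert, qMres, sup_assoc, sup_comm (Ideal.span _)]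

theorem qMres_last (w : Fin g → T) : qMres R w g = mS R T ⊔ Ideal.span (Set.range w) := by
  simp [qMres]

variable {R}

theorem qMres_reg {w : Fin g → T} (hw : RegSeq fun i => Ideal.Quotient.mk (mS R T) (w i))
    (i : Fin g) (z : T) (hz : w i * z ∈ qMres R w i) : z ∈ qMres R w i := by
  have e : qMres R w i = (Ideal.span ((fun i => Ideal.Quotient.mk (mS R T) (w i)) ''
      Set.Iio i)).comap (Ideal.Quotient.mk (mS R T)) := by
    rw [← Set.image_image (Ideal.Quotient.mk (mS R T)) w, ← Ideal.map_span,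
      Ideal.comap_map_of_surjective _ Ideal.Quotient.mk_surjective, ← RingHom.ker_eq_comap_bot,
      Ideal.mk_ker, sup_comm]
    rfl
  rw [e, Ideal.mem_comap] at hz ⊢
  exact hw i _ hz

theorem tor_zero_mres {r : ℕ} {Z : Submodule T (Fin r → T)} [Module.Flat R ((Fin r → T) ⧸ Z)]
    {x : Fin r → T} (hx : x ∈ Z) (h : ∀ a, x a ∈ mS R T) : x ∈ mS R T • Z := by
  have h1 := LinearMap.ker_inf_smul_top_eq_smul_of_flat (maximalIdeal R)
    (Z.mkQ.restrictScalars R) Z.mkQ_surjective
  have h2 : LinearMap.ker (Z.mkQ.restrictScalars R) = Z.restrictScalars R := by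
    rw [LinearMap.ker_restrictScalars, Submodule.ker_mkQ]
  rw [h2, ← Submodule.restrictScalars_top R T, ← Ideal.smul_restrictScalars,
    ← Ideal.smul_restrictScalars] at h1
  exact h1.le ⟨hx, mem_smul_top_mres.2 h⟩

variable (R) in
/-- The invariant of the construction. -/
structure InvMres [IsLocalRing T] (w : Fin g → T) (j : ℕ) {r : ℕ}
    (Z : Submodule T (Fin r → T)) : Prop where
  flat : Module.Flat R ((Fin r → T) ⧸ Z)
  le : ∀ x ∈ Z, ∀ a, x a ∈ maximalIdeal T
  tor : ∀ i, i ≤ j → i ≤ g → ∀ x ∈ Z, (∀ a, x a ∈ qMres R w i) → x ∈ qMres R w i • Z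

theorem InvMres.step [IsLocalRing T] [IsNoetherianRing T] [Module.Flat R T] {w : Fin g → T}
    (hw : RegSeq fun i => Ideal.Quotient.mk (mS R T) (w i)) {j r : ℕ}
    {Z : Submodule T (Fin r → T)} (h : InvMres R w j Z) :
    ∃ (r' : ℕ) (D : Matrix (Fin r) (Fin r') T), LinearMap.range D.mulVecLin = Z ∧
      InvMres R w (j + 1) (LinearMap.ker D.mulVecLin) := by
  obtain ⟨n, v, hv, hmin⟩ := exists_mingen_mres (IsNoetherian.noetherian Z)
  let D : Matrix (Fin r) (Fin n) T := Matrix.of fun a b => v b a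
  have hD : ∀ c, D.mulVecLin c = ∑ b, c b • v b := fun c => by
    funext a
    simp [D, Matrix.mulVec, dotProduct, Finset.sum_apply, mul_comm]
  have hr : LinearMap.range D.mulVecLin = Z := by
    rw [← hv]
    ext x
    rw [LinearMap.mem_range, Submodule.mem_span_range_iff_exists_fun]
    simp only [hD]
  have _ := h.flat
  have _ : Module.Flat R (Fin r → T) := Module.Flat.trans R T _
  have _ : Module.Flat R Z := flat_ker_mres (Z.subtype.restrictScalars R)
    (Z.mkQ.restrictScalars R) Z.injective_subtype Z.mkQ_surjective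
    (LinearMap.exact_subtype_mkQ Z)
  have hfl : Module.Flat R ((Fin n → T) ⧸ LinearMap.ker D.mulVecLin) :=
    Module.Flat.of_linearEquiv
      ((D.mulVecLin.quotKerEquivRange.trans (LinearEquiv.ofEq _ _ hr)).restrictScalars R)
  refine ⟨n, D, hr, hfl, fun x hx => hmin x ((hD x).symm.trans hx), fun i => ?_⟩
  induction i with
  | zero =>
    intro _ _ x hx hx'
    rw [qMres_zero] at hx' ⊢
    exact tor_zero_mres hx hx'
  | succ i ih =>
    intro hi hg x hx hx'
    let i0 : Fin g := ⟨i, hg⟩
    have e : qMres R w (i + 1) = qMres R w i ⊔ Ideal.span {w i0} := qMres_succ R w i0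
    rw [e] at hx' ⊢
    have h1 : ∀ a, ∃ q ∈ qMres R w i, ∃ y, x a = q + w i0 * y := fun a => by
      obtain ⟨q, hq, _, hb, e'⟩ := Submodule.mem_sup.1 (hx' a)
      obtain ⟨y, rfl⟩ := Ideal.mem_span_singleton'.1 hb
      exact ⟨q, hq, y, by rw [← e', mul_comm]⟩
    choose q hq y hy using h1
    have hxe : x = q + w i0 • y := funext hy
    have hmap : ∀ I : Ideal T, (I • ⊤ : Submodule T (Fin n → T)).map D.mulVecLin = I • Z :=
      fun I => by rw [Submodule.map_smul'', Submodule.map_top, hr]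
    have h2 : D.mulVecLin q ∈ qMres R w i • Z := hmap _ ▸ ⟨q, mem_smul_top_mres.2 hq, rfl⟩
    have h3 : w i0 • D.mulVecLin y = -D.mulVecLin q := by
      have : D.mulVecLin x = 0 := hx
      rw [hxe, map_add, map_smul] at this
      exact eq_neg_of_add_eq_zero_right this
    have h4 : D.mulVecLin y ∈ qMres R w i • Z := by
      refine h.tor i (by omega) (by omega) _ (hr ▸ ⟨y, rfl⟩) fun a => qMres_reg hw i0 _ ?_
      have := mem_smul_top_mres.1 (Submodule.smul_mono le_rfl le_top (neg_mem h2)) a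
      rw [← h3] at this
      exact this
    rw [← hmap] at h4
    obtain ⟨q', hq', e'⟩ := h4
    have h5 : y - q' ∈ LinearMap.ker D.mulVecLin := by
      rw [LinearMap.mem_ker, map_sub, e', sub_self]
    have h6 : w i0 • (y - q') ∈ LinearMap.ker D.mulVecLin := Submodule.smul_mem _ _ h5
    have h7 : x = (x - w i0 • (y - q')) + w i0 • (y - q') := by abel
    rw [h7, Submodule.sup_smul]
    refine Submodule.add_mem_sup (ih (by omega) (by omega) _ (sub_mem hx h6) fun a => ?_)
      (Submodule.smul_mem_smul (Ideal.mem_span_singleton_self _) h5)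
    have : (x - w i0 • (y - q')) a = q a + w i0 * q' a := by
      simp only [Pi.sub_apply, Pi.smul_apply, smul_eq_mul, hy a]
      ring
    rw [this]
    exact add_mem (hq a) (Ideal.mul_mem_left _ _ (mem_smul_top_mres.1 hq' a))

/-- A minimal resolution of length at most `g`. -/
theorem exists_minres {R T : Type u} [CommRing R] [IsLocalRing R] [CommRing T] [IsLocalRing T]
    [IsNoetherianRing T] [Algebra R T] [Module.Flat R T] {g : ℕ} (w : Fin g → T)
    (hm : maximalIdeal T = mS R T ⊔ Ideal.span (Set.range w))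
    (hw : RegSeq fun i => Ideal.Quotient.mk (mS R T) (w i)) (J : Ideal T) (hJ : J ≠ ⊤)
    [Module.Flat R (T ⧸ J)] :
    ∃ (r : ℕ → ℕ) (D : ∀ j, Matrix (Fin (r j)) (Fin (r (j + 1))) T) (h0 : r 0 = 1),
      (∀ j, g < j → r j = 0) ∧ (∀ j a b, D j a b ∈ maximalIdeal T) ∧
      Ideal.span (Set.range (D 0 ⟨0, by omega⟩)) = J ∧
      ∀ j, LinearMap.ker (D j).mulVecLin = LinearMap.range (D (j + 1)).mulVecLin := by
  let π : (Fin 1 → T) →ₗ[T] T ⧸ J := J.mkQ ∘ₗ LinearMap.proj 0
  have hπ : Function.Surjective π := J.mkQ_surjective.comp (LinearMap.proj_surjective 0)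
  have hk : ∀ x, x ∈ LinearMap.ker π ↔ x 0 ∈ J := fun x => Submodule.Quotient.mk_eq_zero J
  have hfl : Module.Flat R ((Fin 1 → T) ⧸ LinearMap.ker π) :=
    Module.Flat.of_linearEquiv ((π.quotKerEquivOfSurjective hπ).restrictScalars R)
  have h0 : InvMres R w 0 (LinearMap.ker π) := by
    refine ⟨hfl, fun x hx a => ?_, fun i hi _ x hx hx' => ?_⟩
    · rw [Subsingleton.elim a 0]
      exact le_maximalIdeal hJ ((hk x).1 hx)
    · obtain rfl : i = 0 := by omega
      rw [qMres_zero] at hx' ⊢
      exact tor_zero_mres hx hx'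
  let St : ℕ → Type u := fun j => {s : (r : ℕ) × Submodule T (Fin r → T) // InvMres R w j s.2}
  have hstep : ∀ j (s : St j), ∃ (s' : St (j + 1)) (D : Matrix (Fin s.1.1) (Fin s'.1.1) T),
      LinearMap.range D.mulVecLin = s.1.2 ∧ LinearMap.ker D.mulVecLin = s'.1.2 := by
    intro j s
    obtain ⟨r', D, h1, h2⟩ := s.2.step hw
    exact ⟨⟨⟨r', _⟩, h2⟩, D, h1, rfl⟩
  choose nx D hD1 hD2 using hstep
  let s : ∀ j, St j := fun j => Nat.rec ⟨⟨1, LinearMap.ker π⟩, h0⟩ nx j
  have hs : ∀ j, s (j + 1) = nx j (s j) := fun j => rfl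
  refine ⟨fun j => (s j).1.1, fun j => D j (s j), rfl, fun j hj => ?_, fun j a b => ?_, ?_,
    fun j => (hD2 j (s j)).trans (hD1 (j + 1) (s (j + 1))).symm⟩
  · obtain ⟨j, rfl⟩ : ∃ k, j = k + 1 := ⟨j - 1, by omega⟩
    have h1 : (s j).1.2 = ⊥ := by
      refine Submodule.eq_bot_of_le_smul_of_le_jacobson_bot (maximalIdeal T) _
        (IsNoetherian.noetherian _) (fun x hx => ?_) (maximalIdeal_le_jacobson _)
      have := (s j).2.tor g (by omega) le_rfl x hx
      rw [qMres_last, ← hm] at this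
      exact this ((s j).2.le x hx)
    by_contra hne
    have h2 : (fun _ => 1) ∈ (s (j + 1)).1.2 := by
      have h3 := hD1 j (s j)
      rw [h1, LinearMap.range_eq_bot] at h3
      have h4 := hD2 j (s j)
      rw [h3, LinearMap.ker_zero] at h4
      exact h4.le trivial
    exact (maximalIdeal.isMaximal T).ne_top
      ((Ideal.eq_top_iff_one _).2 ((s (j + 1)).2.le _ h2 ⟨0, Nat.pos_of_ne_zero hne⟩))
  · refine (s j).2.le (fun a => D j (s j) a b) ?_ a
    rw [← hD1 j (s j)]
    exact ⟨Pi.single b 1, by funext a; simp⟩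
  · have h1 := hD1 0 (s 0)
    ext z
    rw [Ideal.mem_span_range_iff_exists_fun]
    constructor
    · rintro ⟨c, rfl⟩
      have h2 : (D 0 (s 0)).mulVecLin c ∈ LinearMap.ker π := h1.le ⟨c, rfl⟩
      rw [hk] at h2
      simp only [mul_comm (c _)]
      exact h2
    · intro hz
      obtain ⟨c, hc⟩ := h1.ge ((hk fun _ => z).2 hz)
      refine ⟨c, ?_⟩
      simp only [mul_comm (c _)]
      exact congrFun hc (0 : Fin 1)

end Vale.Agent.P202
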