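import Vale.Agent.P202.MPrim
import Vale.Agent.P202.MLift
import Vale.Agent.P202.MLoc2

/-! The presentation of `S` as a quotient of a power series ring over the Witt vectors. -/

namespace Vale.Agent.P202

open IsLocalRing Polynomial

universe u

variable {p : ℕ} [Fact p.Prime] {l : Type u} [Field l] [CharP l p] [PerfectRing l p]
  {C0 : Type u} [CommRing C0] [IsDomain C0] [IsDiscreteValuationRing C0]

theorem exists_present [Infinite l] (hC : maximalIdeal C0 = Ideal.span {(p : C0)}) {S : Type u}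
    [CommRing S] [IsLocalRing S] [IsNoetherianRing S] [IsAdicComplete (maximalIdeal S) S]
    (ω : WittVector p l →+* S) (hω : Function.Surjective ((residue S).comp ω)) {d D : ℕ}
    (ψ : PS (Fin d) C0 →+* S) (hψ : ∀ j, ψ (MvPowerSeries.X j) ∈ maximalIdeal S)
    (hd : ringKrullDim S = (D + 1 : ℕ)) :
    ∃ (g : ℕ) (π : PS (Fin d ⊕ Fin g) (WittVector p l) →+* S)
      (f : PS (Fin d) C0 →+* PS (Fin d ⊕ Fin g) (WittVector p l)) (y : Fin (D + 1) → Fin g)
      (j1 : Fin g), Function.Surjective π ∧ (∀ a, π (f a) = ψ a) ∧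
      (∀ j, f (MvPowerSeries.X j) = MvPowerSeries.X (Sum.inl j)) ∧ j1 ≠ y 0 ∧
      IsRed fun i => π (MvPowerSeries.X (Sum.inr (y i))) := by
  have hW := isCohen_witt p l
  have := hW.complete
  have := (infinite_residue_of_witt ω hω).1
  obtain ⟨x, n0, hx, hn0⟩ := exists_reduction hd
  obtain ⟨n, z, hz⟩ := Submodule.fg_iff_exists_fin_generating_family.1
    (IsNoetherian.noetherian (maximalIdeal S))
  have hzm : ∀ i, z i ∈ maximalIdeal S := fun i => hz ▸ Submodule.subset_span ⟨i, rfl⟩
  let w : Fin (D + 1 + (n + 1)) → S := Fin.append x (Fin.cons 0 z)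
  have hw : ∀ i, w i ∈ maximalIdeal S := by
    intro i
    refine Fin.addCases (fun i => ?_) (fun i => ?_) i
    · simpa [w] using hx i
    · refine Fin.cases ?_ (fun i => ?_) i
      · simp [w]
      · simpa [w] using hzm i
  obtain ⟨π, hπC, hπX⟩ := exists_psHom (σ := Fin d ⊕ Fin (D + 1 + (n + 1))) (maximalIdeal S) ω
    (Sum.elim (fun j => ψ (MvPowerSeries.X j)) w) (by rintro (j | j); exacts [hψ j, hw j])
  have hsp : Ideal.span (Set.range fun i => π (MvPowerSeries.X i)) = maximalIdeal S := by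
    refine le_antisymm (Ideal.span_le.2 ?_) ?_
    · rintro _ ⟨j | j, rfl⟩
      · simpa [hπX] using hψ j
      · simpa [hπX] using hw j
    · rw [← hz]
      refine Submodule.span_le.2 ?_
      rintro _ ⟨i, rfl⟩
      exact Ideal.subset_span ⟨Sum.inr (Fin.natAdd _ i.succ), by simp [hπX, w]⟩
  have hπ : Function.Surjective π := by
    have : IsHausdorff (Ideal.span (Set.range fun i => π (MvPowerSeries.X i))) S := by
      rw [hsp]
      infer_instance
    refine psHom_surjective π ?_
    intro s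
    obtain ⟨s, rfl⟩ := Ideal.Quotient.mk_surjective s
    obtain ⟨a, ha⟩ := hω (residue S s)
    refine ⟨a, Ideal.Quotient.eq.2 ?_⟩
    rw [hsp, RingHom.comp_apply, hπC]
    exact Ideal.Quotient.eq.1 ha
  have := psl_complete (σ := Fin d ⊕ Fin (D + 1 + (n + 1))) (Λ := WittVector p l)
  have hmA := psl_maximalIdeal_of_span (σ := Fin d ⊕ Fin (D + 1 + (n + 1))) hW.max
  obtain ⟨g0, hg0⟩ := dvr_lift hC
    (A := PS (Fin d ⊕ Fin (D + 1 + (n + 1))) (WittVector p l))
    (by rw [hmA]; exact Ideal.subset_span (Or.inl (map_natCast _ p).symm)) π hπ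
    (ψ.comp MvPowerSeries.C)
  obtain ⟨f, hfC, hfX⟩ := exists_psHom (σ := Fin d)
    (maximalIdeal (PS (Fin d ⊕ Fin (D + 1 + (n + 1))) (WittVector p l))) g0
    (fun j => MvPowerSeries.X (Sum.inl j))
    (fun j => by rw [hmA]; exact Ideal.subset_span (Or.inr ⟨_, rfl⟩))
  have hπf : π.comp f = ψ := by
    refine psHom_ext (maximalIdeal S) _ _ (fun a => ?_) (fun j => ?_) (fun j => ?_)
    · rw [RingHom.comp_apply, hfC, ← RingHom.comp_apply π, hg0, RingHom.comp_apply]
    · simp [hfX, hπX]
    · simpa [hfX, hπX] using hψ j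
  refine ⟨_, π, f, Fin.castAdd _, Fin.natAdd _ 0, hπ, fun a => by rw [← hπf]; rfl, hfX, ?_, ?_⟩
  · intro h
    have := congrArg Fin.val h
    simp at this
  · have : (fun i => π (MvPowerSeries.X (Sum.inr (Fin.castAdd (n + 1) i)))) = x := by
      funext i
      simp [hπX, w]
    rw [this]
    exact ⟨hx, n0, hn0⟩

omit [Fact p.Prime] in
/-- The closed fibre of a map of power series rings. -/
theorem ps_fibre {C2 : Type u} [CommRing C2] [IsDomain C2] [IsDiscreteValuationRing C2]
    (h1 : maximalIdeal C0 = Ideal.span {(p : C0)}) (h2 : maximalIdeal C2 = Ideal.span {(p : C2)})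
    {d g : ℕ} [Algebra (PS (Fin d) C0) (PS (Fin d ⊕ Fin g) C2)]
    (hX : ∀ j, algebraMap (PS (Fin d) C0) (PS (Fin d ⊕ Fin g) C2) (MvPowerSeries.X j) =
      MvPowerSeries.X (Sum.inl j)) :
    maximalIdeal (PS (Fin d ⊕ Fin g) C2) = mS (PS (Fin d) C0) (PS (Fin d ⊕ Fin g) C2) ⊔
        Ideal.span (Set.range fun i => MvPowerSeries.X (Sum.inr i)) ∧
      RegSeq fun i => Ideal.Quotient.mk (mS (PS (Fin d) C0) (PS (Fin d ⊕ Fin g) C2))
        (MvPowerSeries.X (Sum.inr i)) := by
  have hm : mS (PS (Fin d) C0) (PS (Fin d ⊕ Fin g) C2) =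
      Ideal.span {MvPowerSeries.C (p : C2)} ⊔
        Ideal.span (MvPowerSeries.X '' Set.range (Sum.inl : Fin d → Fin d ⊕ Fin g)) := by
    rw [mS, psl_maximalIdeal_of_span h1, Ideal.map_span, Set.image_insert_eq, Ideal.span_insert,
      ← Set.range_comp, ← Set.range_comp, map_natCast, map_natCast, map_natCast]
    congr 3
    funext j
    exact hX j
  constructor
  · rw [hm, psl_maximalIdeal_of_span h2, Ideal.span_insert, sup_assoc,
      ← Ideal.span_union (MvPowerSeries.X '' _), ← Set.range_comp]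
    congr 2
    ext v
    constructor
    · rintro ⟨j | j, rfl⟩
      · exact Or.inl ⟨j, rfl⟩
      · exact Or.inr ⟨j, rfl⟩
    · rintro (⟨j, rfl⟩ | ⟨j, rfl⟩)
      · exact ⟨_, rfl⟩
      · exact ⟨_, rfl⟩
  · intro i z hz
    obtain ⟨z, rfl⟩ := Ideal.Quotient.mk_surjective z
    let r := MvPowerSeries.map (σ := Fin d ⊕ Fin g) (residue C2)
    have hr : Function.Surjective r := by
      intro s
      refine ⟨fun k => (residue_surjective (MvPowerSeries.coeff k s)).choose, ?_⟩
      ext k
      exact (residue_surjective (MvPowerSeries.coeff k s)).choose_spec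
    have hk : RingHom.ker r = Ideal.span {MvPowerSeries.C (p : C2)} :=
      ker_ps_map _ (ker_residue.trans h2)
    have key : ∀ v : PS (Fin d ⊕ Fin g) C2,
        Ideal.Quotient.mk (mS (PS (Fin d) C0) (PS (Fin d ⊕ Fin g) C2)) v ∈
          Ideal.span ((fun i => Ideal.Quotient.mk (mS (PS (Fin d) C0) (PS (Fin d ⊕ Fin g) C2))
            (MvPowerSeries.X (Sum.inr i))) '' Set.Iio i) ↔
        r v ∈ Ideal.span (MvPowerSeries.X '' (Set.range Sum.inl ∪ Sum.inr '' Set.Iio i)) := by
      intro v
      have e1 : Ideal.span ((fun i => Ideal.Quotient.mk (mS (PS (Fin d) C0)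
          (PS (Fin d ⊕ Fin g) C2)) (MvPowerSeries.X (Sum.inr i))) '' Set.Iio i) =
          (Ideal.span (MvPowerSeries.X '' (Sum.inr '' Set.Iio i))).map
            (Ideal.Quotient.mk (mS (PS (Fin d) C0) (PS (Fin d ⊕ Fin g) C2))) := by
        rw [Ideal.map_span, Set.image_image, Set.image_image]
      have e2 : Ideal.span ((MvPowerSeries.X : _ → PS (Fin d ⊕ Fin g) (ResidueField C2)) ''
          (Set.range Sum.inl ∪ Sum.inr '' Set.Iio i)) =
          (Ideal.span (MvPowerSeries.X '' (Set.range Sum.inl ∪ Sum.inr '' Set.Iio i))).map r := by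
        rw [Ideal.map_span, Set.image_image]
        simp [r]
      rw [e1, e2, ← Ideal.mem_comap, ← Ideal.mem_comap,
        Ideal.comap_map_of_surjective _ Ideal.Quotient.mk_surjective,
        Ideal.comap_map_of_surjective _ hr, ← RingHom.ker_eq_comap_bot, ← RingHom.ker_eq_comap_bot,
        Ideal.mk_ker, hk, hm, Set.image_union, Ideal.span_union]
      rw [← sup_assoc, sup_right_comm, sup_comm (Ideal.span (MvPowerSeries.X '' (Sum.inr '' _)))]
    rw [← map_mul, key, map_mul] at hz
    rw [key]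
    refine ps_permReg _ _ (Sum.inr i) (by simp) _ ?_
    simpa [r] using hz

section transfer

variable {A0 A R T : Type u} [CommRing A0] [CommRing A] [CommRing R] [CommRing T] [Algebra A0 A]
  [Algebra A0 R] [Algebra A T] [Algebra R T]

theorem aeval_map_mset {θ : R}
    (hc : ∀ a, algebraMap A T (algebraMap A0 A a) = algebraMap R T (algebraMap A0 R a))
    (H : A0[X]) :
    aeval (algebraMap R T θ) (H.map (algebraMap A0 A)) = algebraMap R T (aeval θ H) := by
  rw [aeval_def, eval₂_map, aeval_def, hom_eval₂]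
  congr 1
  exact RingHom.ext hc

omit [Fact p.Prime] in
/-- The equation of `θ` after base change. -/
theorem Hyp.transfer [Nontrivial A0] [Nontrivial A] {σ τ : Type} {Xv : σ → A0} {Yv : τ → A}
    {θ : R} {F : A0[X]} {a : ℕ} {u : A0} (h : Hyp p Xv θ F a u)
    (hX : ∀ j, algebraMap A0 A (Xv j) ∈ Ideal.span (Set.range Yv))
    (hc : ∀ a, algebraMap A T (algebraMap A0 A a) = algebraMap R T (algebraMap A0 R a))
    (hli : ∀ (n : ℕ) (v : Fin n → R), LinearIndependent A0 v →
      LinearIndependent A fun i => algebraMap R T (v i)) :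
    Hyp p Yv (algebraMap R T θ) (F.map (algebraMap A0 A)) a (algebraMap A0 A u) := by
  have hmon := h.monic.map (algebraMap A0 A)
  have hroot : aeval (algebraMap R T θ) (F.map (algebraMap A0 A)) = 0 := by
    rw [aeval_map_mset hc, h.root, map_zero]
  refine ⟨hmon, hroot, fun H hH => ?_, h.unit.map _, ?_⟩
  · have h1 : LinearIndependent A0 fun i : Fin F.natDegree => θ ^ (i : ℕ) := by
      rw [Fintype.linearIndependent_iff]
      intro c hc0 i
      have h2 : aeval θ (∑ j : Fin F.natDegree, C (c j) * X ^ (j : ℕ)) = 0 := by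
        simpa [map_sum, Algebra.smul_def] using hc0
      have h3 : (∑ j : Fin F.natDegree, C (c j) * X ^ (j : ℕ)) = 0 := by
        by_contra h0
        refine h.monic.not_dvd_of_degree_lt h0 ?_ (h.ker _ h2)
        rw [degree_eq_natDegree h.monic.ne_zero]
        exact degree_sum_fin_lt c
      have h4 := congrArg (fun P => coeff P i) h3
      simpa [coeff_X_pow, Fin.val_inj] using h4
    have h2 := hli _ _ h1
    rw [Fintype.linearIndependent_iff] at h2
    rw [← modByMonic_eq_zero_iff_dvd hmon]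
    have h3 : aeval (algebraMap R T θ) (H %ₘ F.map (algebraMap A0 A)) = 0 := by
      rw [aeval_modByMonic_eq_self_of_root hroot, hH]
    have h4 : (H %ₘ F.map (algebraMap A0 A)).degree < F.natDegree := by
      have := degree_modByMonic_lt H hmon
      rwa [degree_eq_natDegree hmon.ne_zero, h.monic.natDegree_map] at this
    rw [aeval_def, eval₂_eq_sum, ← sum_fin _ (by simp) h4] at h3
    ext i
    by_cases hi : i < F.natDegree
    · exact h2 (fun j => (H %ₘ F.map (algebraMap A0 A)).coeff j)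
        (by simpa [Algebra.smul_def] using h3) ⟨i, hi⟩
    · exact coeff_eq_zero_of_degree_lt (h4.trans_le (by exact_mod_cast not_lt.1 hi))
  · have h1 := Ideal.mem_map_of_mem (algebraMap A0 A) h.ord
    rw [map_sub, map_mul, map_pow, map_natCast] at h1
    rw [coeff_map]
    refine (Ideal.map_le_iff_le_comap.2 (Ideal.span_le.2 ?_)) h1
    rintro _ ⟨j, rfl⟩
    exact hX j

theorem delta_transfer {θ : R} {Δ : A0} (hΔ : ∀ b : R, ∃ H : A0[X], aeval θ H = Δ • b)
    (hc : ∀ a, algebraMap A T (algebraMap A0 A a) = algebraMap R T (algebraMap A0 R a))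
    (hsp : Submodule.span A (Set.range (algebraMap R T)) = ⊤) (b : T) :
    ∃ H : A[X], aeval (algebraMap R T θ) H = algebraMap A0 A Δ • b := by
  have hb : b ∈ Submodule.span A (Set.range (algebraMap R T)) := hsp ▸ trivial
  induction hb using Submodule.span_induction with
  | mem x hx =>
    obtain ⟨r, rfl⟩ := hx
    obtain ⟨H, hH⟩ := hΔ r
    refine ⟨H.map (algebraMap A0 A), ?_⟩
    rw [aeval_map_mset hc, hH, Algebra.smul_def, Algebra.smul_def, map_mul, hc]
  | zero => exact ⟨0, by simp⟩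
  | add x y _ _ hx hy =>
    obtain ⟨H, hH⟩ := hx
    obtain ⟨H', hH'⟩ := hy
    exact ⟨H + H', by rw [map_add, hH, hH', smul_add]⟩
  | smul c x _ hx =>
    obtain ⟨H, hH⟩ := hx
    exact ⟨c • H, by rw [map_smul, hH, smul_comm]⟩

theorem red_transfer [IsLocalRing R] [IsLocalRing T] {σ τ : Type} {Xv : σ → A0}
    {Yv : σ ⊕ τ → A} {θ : R} (hred : IsRed (par Xv θ))
    (hX : ∀ j, algebraMap A0 A (Xv j) = Yv (Sum.inl j))
    (hc : ∀ a, algebraMap A T (algebraMap A0 A a) = algebraMap R T (algebraMap A0 R a))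
    (hm : maximalIdeal T = mS R T ⊔
      Ideal.span (Set.range fun i => algebraMap A T (Yv (Sum.inr i)))) :
    algebraMap R T θ ∈ maximalIdeal T ∧ (∀ j, algebraMap A T (Yv j) ∈ maximalIdeal T) ∧
      ∃ n0 : ℕ, maximalIdeal T ^ (n0 + 1) ≤ Ideal.span (insert (algebraMap R T θ)
        (Set.range fun j => algebraMap A T (Yv j))) * maximalIdeal T ^ n0 := by
  have h1 : mS R T ≤ maximalIdeal T := hm ▸ le_sup_left
  have h2 : Ideal.span (Set.range fun i => algebraMap A T (Yv (Sum.inr i))) ≤ maximalIdeal T :=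
    hm ▸ le_sup_right
  refine ⟨h1 (Ideal.mem_map_of_mem _ (hred.1 none)), ?_, ?_⟩
  · rintro (j | j)
    · rw [← hX, hc]
      exact h1 (Ideal.mem_map_of_mem _ (hred.1 (some j)))
    · exact h2 (Ideal.subset_span ⟨j, rfl⟩)
  · obtain ⟨n0, hn0⟩ := hred.2
    refine ⟨n0, ?_⟩
    have h3 : ∀ n : ℕ, maximalIdeal T ^ (n + 1) ≤ mS R T ^ (n + 1) ⊔
        Ideal.span (Set.range fun i => algebraMap A T (Yv (Sum.inr i))) * maximalIdeal T ^ n := by
      intro n
      induction n with
      | zero => simp [← hm]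
      | succ n ih =>
        rw [pow_succ]
        refine (Ideal.mul_mono_left ih).trans ?_
        rw [Ideal.sup_mul, mul_assoc, ← pow_succ]
        refine sup_le ?_ le_sup_right
        nth_rewrite 1 [hm]
        rw [Ideal.mul_sup, ← pow_succ, mul_comm]
        exact sup_le_sup_left (Ideal.mul_mono_right (Ideal.pow_right_mono h1 _)) _
    refine (h3 n0).trans (sup_le ?_ (Ideal.mul_mono_left (Ideal.span_mono ?_)))
    · rw [mS, ← Ideal.map_pow]
      refine (Ideal.map_mono hn0).trans ?_
      rw [Ideal.map_mul, Ideal.map_pow]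
      refine Ideal.mul_mono ?_ (Ideal.pow_right_mono h1 _)
      rw [Ideal.map_span]
      refine Ideal.span_mono ?_
      rintro _ ⟨_, ⟨_ | j, rfl⟩, rfl⟩
      · exact Or.inl rfl
      · exact Or.inr ⟨Sum.inl j, by simp only [← hX, hc]; rfl⟩
    · rintro _ ⟨j, rfl⟩
      exact Or.inr ⟨Sum.inr j, rfl⟩

/-- Lengths over `A` of quotients of `T` that are quotients of `S`. -/
theorem length_transfer {S : Type u} [CommRing S] (ρ : T →+* S)
    (hρ : Function.Surjective (ρ.comp (algebraMap A T))) (I : Ideal T) :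
    Module.length A (T ⧸ (RingHom.ker ρ ⊔ I)) = Module.length S (S ⧸ I.map ρ) := by
  let : Algebra A S := (ρ.comp (algebraMap A T)).toAlgebra
  have hρ' : Function.Surjective ρ := Function.Surjective.of_comp (f := ρ) hρ
  let ρ' : T →ₐ[A] S ⧸ I.map ρ :=
    (Ideal.Quotient.mkₐ A (I.map ρ)).comp { ρ with commutes' := fun _ => rfl }
  have hs : Function.Surjective ρ' := Ideal.Quotient.mk_surjective.comp hρ'
  have hk : RingHom.ker ρ' = RingHom.ker ρ ⊔ I := by
    ext x
    rw [RingHom.mem_ker, sup_comm, RingHom.ker_eq_comap_bot ρ,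
      ← Ideal.comap_map_of_surjective _ hρ', Ideal.mem_comap, ← Ideal.Quotient.eq_zero_iff_mem]
    rfl
  rw [← hk, (Ideal.quotientKerAlgEquivOfSurjective hs).toLinearEquiv.length_eq]
  exact Module.length_eq_of_surjective hρ

end transfer

end Vale.Agent.P202
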