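import Vale.Agent.P202.MCx
import Vale.Agent.P202.MLen2

/-! Systems of complexes that are almost pro-zero, and their Euler characteristics. -/

namespace Vale.Agent.P202

open scoped ENNReal

universe u

variable {S : Type u} [CommRing S] {E : Type u} [AddCommGroup E] [Module S E]

/-- A decreasing system of complexes with levels in `[0, Lm]`, supported in degrees `[lo, hi]`,
whose transition maps of length `M` are almost zero on homology. -/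
structure Sys (μ : RLen S) (κ : S) (d : E →ₗ[S] E) (X : ℤ → ℤ → Submodule S E)
    (lo hi M Lm : ℤ) : Prop where
  hM : 0 ≤ M
  lohi : lo ≤ hi
  cx : ∀ s, IsCx d (X s)
  anti : ∀ s s', s ≤ s' → X s' ≤ X s
  supp : ∀ s n, n < lo ∨ hi < n → X s n = ⊥
  sq : Sq d (X Lm) (X 0)
  zz : ∃ r : ℕ, ∀ s s' n, 0 ≤ s → s ≤ s' → s' + M ≤ Lm →
    ∀ x ∈ Zc d (X (s' + M)) (X (s + M)) n, κ ^ r • x ∈ Bc d (X s') (X s) n
  fin : ∀ s s' n, 0 ≤ s → s ≤ s' → s' ≤ Lm → hr (μ.nu κ) d (X s') (X s) n = 0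

variable {μ : RLen S} {κ : S} {d : E →ₗ[S] E} {X X' : ℤ → ℤ → Submodule S E} {lo hi M Lm c : ℤ}

section aux

variable {F F' F'' G' G'' : ℤ → Submodule S E} {n : ℤ} {x : E}

theorem mem_Zc_msys : x ∈ Zc d F' F'' n ↔ x ∈ F'' n ∧ d x ∈ F' (n - 1) := Iff.rfl

theorem mem_Bc_msys : x ∈ Bc d F' F'' n ↔ ∃ a ∈ F' n, ∃ b ∈ F'' (n + 1), a + d b = x := by
  simp only [Bc, Submodule.mem_sup, Submodule.mem_map]
  constructor
  · rintro ⟨a, ha, _, ⟨b, hb, rfl⟩, e⟩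
    exact ⟨a, ha, b, hb, e⟩
  · rintro ⟨a, ha, b, hb, e⟩
    exact ⟨a, ha, _, ⟨b, hb, rfl⟩, e⟩

theorem mem_Qb_msys {lam : ℤ → ℤ} :
    x ∈ Qb d X lam n ↔ ∃ a ∈ X (lam n) n, ∃ b ∈ X (lam (n + 1)) (n + 1), a + d b = x :=
  mem_Bc_msys (F' := X (lam n)) (F'' := X (lam (n + 1)))

theorem mem_Qb_pred_msys {lam : ℤ → ℤ} :
    x ∈ Qb d X lam (n - 1) ↔ ∃ a ∈ X (lam (n - 1)) (n - 1), ∃ b ∈ X (lam n) n, a + d b = x := by
  rw [mem_Qb_msys, sub_add_cancel]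

theorem Zc_mono_msys (h1 : F' (n - 1) ≤ G' (n - 1)) (h2 : F'' n ≤ G'' n) :
    Zc d F' F'' n ≤ Zc d G' G'' n := fun _ hx => ⟨h2 hx.1, h1 hx.2⟩

theorem IsCx.d_msys (h : IsCx d F) (hx : x ∈ F (n + 1)) : d x ∈ F n := by
  have := h (n + 1) ⟨x, hx, rfl⟩
  rwa [add_sub_cancel_right] at this

theorem IsCx.sup_msys (h : IsCx d F) (h' : IsCx d F') : IsCx d (F ⊔ F') := fun n => by
  rw [Pi.sup_apply, Pi.sup_apply, Submodule.map_sup]
  exact sup_le_sup (h n) (h' n)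

theorem IsCx.inf_msys (h : IsCx d F) (h' : IsCx d F') : IsCx d (F ⊓ F') := by
  rintro n _ ⟨x, hx, rfl⟩
  exact ⟨h n ⟨x, hx.1, rfl⟩, h' n ⟨x, hx.2, rfl⟩⟩

theorem Sq.dd_msys (h : Sq d F' F'') (hx : x ∈ F'' (n + 1)) : d (d x) ∈ F' (n - 1) := by
  have := h (n + 1) x hx
  rwa [show n + 1 - 2 = n - 1 by ring] at this

theorem hr_bot_msys (μ' : RLen S) (h : F'' n = ⊥) : hr μ' d F' F'' n = 0 :=
  hr_eq_zero_of_le μ' n (h.le.trans bot_le)

theorem lv_pred_msys (M hi c n : ℤ) : lv M hi c (n - 1) = lv M hi c n + 2 * M := by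
  simp only [lv]; ring

theorem lv_succ_msys (M hi c n : ℤ) : lv M hi c (n + 1) = lv M hi c n - 2 * M := by
  simp only [lv]; ring

theorem lv_ge_msys (hM : 0 ≤ M) (c : ℤ) (hn : n ≤ hi + 2) : c ≤ lv M hi c n := by
  simp only [lv]; nlinarith

theorem lv_le_msys (hM : 0 ≤ M) (hL : c + 2 * M * (hi - lo + 4) ≤ Lm) (hn : lo - 2 ≤ n) :
    lv M hi c n ≤ Lm := by
  simp only [lv]; nlinarith

theorem Sys.le_msys (h : Sys μ κ d X lo hi M Lm) {s s' : ℤ} (hs : lo ≤ n → n ≤ hi → s' ≤ s) :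
    X s n ≤ X s' n := by
  by_cases hn : n < lo ∨ hi < n
  · exact (h.supp s n hn).le.trans bot_le
  · exact h.anti _ _ (hs (by omega) (by omega)) n

theorem Sys.xlv_msys (h : Sys μ κ d X lo hi M Lm) (c n : ℤ) : X (lv M hi c n) n ≤ X c n :=
  h.le_msys fun _ _ => lv_ge_msys h.hM c (by omega)

theorem Sys.dd_msys (h : Sys μ κ d X lo hi M Lm) (hc : 0 ≤ c) {c' : ℤ}
    (hL : c' + 2 * M * (hi - lo + 4) ≤ Lm) (hx : x ∈ X (lv M hi c (n + 1)) (n + 1)) :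
    d (d x) ∈ X (lv M hi c' (n - 1)) (n - 1) :=
  h.le_msys (fun _ _ => lv_le_msys h.hM hL (by omega))
    (h.sq.dd_msys (h.anti _ _ hc _ (h.xlv_msys c _ hx)))

theorem Sys.qb_le_lv_msys (h : Sys μ κ d X lo hi M Lm) (c n : ℤ) :
    Qb d X (lv M hi c) n ≤ X (lv M hi c (n + 1)) n := by
  intro x hx
  obtain ⟨a, ha, b, hb, rfl⟩ := mem_Qb_msys.1 hx
  refine add_mem (h.anti _ _ ?_ n ha) ((h.cx _).d_msys hb)
  have := h.hM
  rw [lv_succ_msys]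
  omega

theorem Sys.win_msys (h : Sys μ κ d X lo hi M Lm) {s s' a b : ℤ} (h0 : 0 ≤ s) (h1 : s ≤ s')
    (h2 : s' + M ≤ Lm) (ha : s' + M ≤ a) (hb : s + M ≤ b) (n : ℤ) :
    rr μ (Bc d (X s') (X s) n) (Zc d (X a) (X b) n) = 0 := by
  obtain ⟨r, hr⟩ := h.zz
  have hM := h.hM
  refine rr_eq_zero_of_nu μ κ (le_antisymm ?_ zero_le) r fun x hx => hr s s' n h0 h1 h2 x ?_
  · rw [← h.fin s s' n h0 h1 (by omega)]
    exact rr_mono _ le_rfl (Zc_mono_msys (h.anti _ _ (by omega) _) (h.anti _ _ (by omega) _))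
  · exact Zc_mono_msys (h.anti _ _ ha _) (h.anti _ _ hb _) hx

end aux

theorem Sys.qb_cx (h : Sys μ κ d X lo hi M Lm) (hc : 0 ≤ c)
    (hL : c + 2 * M * (hi - lo + 4) ≤ Lm) : IsCx d (Qb d X (lv M hi c)) := by
  rintro n _ ⟨x, hx, rfl⟩
  obtain ⟨a, ha, b, hb, rfl⟩ := mem_Qb_msys.1 hx
  exact mem_Qb_pred_msys.2 ⟨_, h.dd_msys hc hL hb, a, ha, by rw [map_add, add_comm]⟩

theorem Sys.qb_le (h : Sys μ κ d X lo hi M Lm) : Qb d X (lv M hi c) ≤ X c := by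
  intro n x hx
  obtain ⟨a, ha, b, hb, rfl⟩ := mem_Qb_msys.1 hx
  exact add_mem (h.xlv_msys c n ha) ((h.cx c).d_msys (h.xlv_msys c _ hb))

theorem Sys.le_qb (h : Sys μ κ d X lo hi M Lm) (hc : 0 ≤ c)
    (hL : c + 2 * M * (hi - lo + 4) ≤ Lm) : X Lm ≤ Qb d X (lv M hi c) := fun _ =>
  (h.le_msys fun _ _ => lv_le_msys h.hM hL (by omega)).trans le_sup_left

/-- The homology modulo the bottom complex is an image homology group. -/
theorem Sys.hr_qb (h : Sys μ κ d X lo hi M Lm) (μ' : RLen S) {G : ℤ → Submodule S E}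
    (hG : X c ≤ G) (n : ℤ) :
    hr μ' d (Qb d X (lv M hi c)) G n =
      rr μ' (Bc d (X (lv M hi c n)) G n) (Zc d (X (lv M hi c (n - 1))) G n) := by
  have hB : Bc d (Qb d X (lv M hi c)) G n = Bc d (X (lv M hi c n)) G n := by
    refine le_antisymm (sup_le (sup_le le_sup_left ?_) le_sup_right)
      (sup_le_sup_right le_sup_left _)
    exact (Submodule.map_mono ((h.xlv_msys c _).trans (hG _))).trans le_sup_right
  rw [hr, hB]
  refine le_antisymm (rr_le_of_le_sup _ le_rfl fun x hx => ?_)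
    (rr_mono _ le_rfl (Zc_mono_msys le_sup_left le_rfl))
  obtain ⟨a, ha, b, hb, e⟩ := mem_Qb_pred_msys.1 hx.2
  rw [show x = b + (x - b) by abel]
  refine Submodule.add_mem_sup (Submodule.mem_sup_left hb)
    (mem_Zc_msys.2 ⟨sub_mem hx.1 (hG _ (h.xlv_msys c n hb)), ?_⟩)
  rw [map_sub, ← e, add_sub_cancel_right]
  exact ha

theorem Sys.nu_qb_msys (h : Sys μ κ d X lo hi M Lm) (hc : 0 ≤ c)
    (hL : c + 2 * M * (hi - lo + 4) ≤ Lm) (n : ℤ) :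
    hr (μ.nu κ) d (Qb d X (lv M hi c)) (X 0) n = 0 := by
  by_cases hn : n < lo ∨ hi < n
  · exact hr_bot_msys _ (h.supp 0 n hn)
  have hM := h.hM
  rw [h.hr_qb _ (h.anti _ _ hc)]
  refine le_antisymm ?_ zero_le
  rw [← h.fin 0 (lv M hi c n) n le_rfl (hc.trans (lv_ge_msys hM c (by omega))) (
    lv_le_msys hM hL (by omega))]
  refine rr_mono _ le_rfl (Zc_mono_msys (h.anti _ _ ?_ _) le_rfl)
  rw [lv_pred_msys]
  omega

theorem Sys.qb_good (h : Sys μ κ d X lo hi M Lm) (hc : 0 ≤ c)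
    (hL : c + 2 * M * (hi - lo + 4) ≤ Lm) : GoodR μ d (Qb d X (lv M hi c)) (X 0) :=
  goodR_of_bounded μ (Finset.Icc lo hi)
    (fun n hn => hr_bot_msys _ (h.supp 0 n (by rw [Finset.mem_Icc] at hn; omega)))
    fun n _ => rr_ne_top_of_nu μ κ (h.nu_qb_msys hc hL n)

theorem Sys.hr_qb_qb_msys (h : Sys μ κ d X lo hi M Lm) (hc : 0 ≤ c) {c' : ℤ} (hcc : c ≤ c')
    (hL : c' + 2 * M * (hi - lo + 4) ≤ Lm) (n : ℤ) :
    hr μ d (Qb d X (lv M hi c')) (Qb d X (lv M hi c)) n = 0 := by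
  by_cases hn : n < lo ∨ hi < n
  · exact hr_bot_msys _ (le_bot_iff.1 ((h.qb_le n).trans (h.supp c n hn).le))
  have hM := h.hM
  have e0 : lv M hi c n ≤ lv M hi c' n := by simp only [lv]; omega
  have e1 := lv_succ_msys M hi c n
  have e2 := lv_pred_msys M hi c' n
  have e3 := lv_ge_msys (n := n + 1) (hi := hi) hM c (by omega)
  have e4 := lv_le_msys (n := n - 1) hM hL (by omega)
  refine le_antisymm ?_ zero_le
  rw [← h.win_msys (s := lv M hi c (n + 1)) (s' := lv M hi c' n) (a := lv M hi c' (n - 1))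
    (b := lv M hi c n) (by omega) (by omega) (by omega) (by omega) (by omega) n]
  have hB : Bc d (X (lv M hi c' n)) (X (lv M hi c (n + 1))) n ≤
      Bc d (Qb d X (lv M hi c')) (Qb d X (lv M hi c)) n :=
    sup_le_sup le_sup_left (Submodule.map_mono le_sup_left)
  refine rr_le_of_le_sup _ hB fun x hx => ?_
  obtain ⟨a, ha, b, hb, rfl⟩ := mem_Qb_msys.1 hx.1
  obtain ⟨a', ha', b', hb', e⟩ := mem_Qb_pred_msys.1 hx.2
  rw [show a + d b = (b' + d b) + (a - b') by abel]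
  refine Submodule.add_mem_sup (hB (mem_Bc_msys.2 ⟨b', hb', b, hb, rfl⟩))
    (mem_Zc_msys.2 ⟨sub_mem ha (h.anti _ _ e0 _ hb'), ?_⟩)
  have e5 : d (a - b') = a' - d (d b) := by
    rw [map_add] at e
    rw [map_sub, eq_sub_of_add_eq e.symm]
    abel
  rw [e5]
  exact sub_mem ha' (h.dd_msys hc hL hb)

/-- Independence of the levels. -/
theorem Sys.qb_indep (h : Sys μ κ d X lo hi M Lm) (hc : 0 ≤ c) {c' : ℤ} (hcc : c ≤ c')
    (hL : c' + 2 * M * (hi - lo + 4) ≤ Lm) :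
    chiR μ d (Qb d X (lv M hi c)) (X 0) = chiR μ d (Qb d X (lv M hi c')) (X 0) := by
  have hL' : c + 2 * M * (hi - lo + 4) ≤ Lm := by omega
  have t : Tri d (Qb d X (lv M hi c')) (Qb d X (lv M hi c)) (X 0) := by
    refine ⟨h.sq.mono (h.le_qb (hc.trans hcc) hL) le_rfl, h.qb_cx (hc.trans hcc) hL,
      h.qb_cx hc hL', h.cx 0, fun n => ?_, h.qb_le.trans (h.anti _ _ hc)⟩
    have e : ∀ n, lv M hi c n ≤ lv M hi c' n := fun n => by simp only [lv]; omega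
    exact sup_le_sup (h.anti _ _ (e _) _) (Submodule.map_mono (h.anti _ _ (e _) _))
  obtain ⟨g, e⟩ := good_chi_of_zero μ (h.hr_qb_qb_msys hc hcc hL)
  rw [t.chi_add μ g (h.qb_good hc hL'), e, zero_add]

theorem Sys.hr_ses_msys (h : Sys μ κ d X lo hi M Lm) (h' : Sys μ κ d X' lo hi M Lm) (hle : X' ≤ X)
    (hst : ∀ s n, 0 ≤ s → X s n ⊓ X' 0 n ≤ X' s n) (hc : 0 ≤ c)
    (hL : c + 2 * M * (hi - lo + 4) ≤ Lm) (n : ℤ) :
    hr μ d (Qb d X' (lv M hi c)) (X' 0 ⊓ Qb d X (lv M hi c)) n = 0 := by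
  by_cases hn : n < lo ∨ hi < n
  · exact hr_bot_msys _ (le_bot_iff.1 (inf_le_left.trans (h'.supp 0 n hn).le))
  have hM := h.hM
  have e0 := lv_succ_msys M hi c (n + 1)
  have e1 := lv_succ_msys M hi c n
  have e2 := lv_pred_msys M hi c n
  have e3 := lv_ge_msys (n := n + 1 + 1) (hi := hi) hM c (by omega)
  have e4 := lv_le_msys (n := n - 1) hM hL (by omega)
  have hW : ∀ x ∈ (X' 0 ⊓ Qb d X (lv M hi c)) n, x ∈ X' (lv M hi c (n + 1)) n := fun x hx =>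
    hst _ n (by omega) ⟨h.qb_le_lv_msys c n hx.2, hx.1⟩
  obtain ⟨r, hr⟩ := h.zz
  obtain ⟨r', hr'⟩ := h'.zz
  refine rr_eq_zero_of_nu μ κ (le_antisymm ?_ zero_le) (r + r') fun x hx => ?_
  · rw [← h'.fin (lv M hi c (n + 1)) (lv M hi c n) n (by omega) (by omega) (by omega)]
    refine rr_mono _ le_sup_left fun x hx => mem_Zc_msys.2 ⟨hW x hx.1, ?_⟩
    have := h'.qb_le_lv_msys c (n - 1) hx.2
    rwa [sub_add_cancel] at this
  obtain ⟨a', ha', b', hb', e⟩ := mem_Qb_pred_msys.1 hx.2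
  have hy : x - b' ∈ (X' 0 ⊓ Qb d X (lv M hi c)) n :=
    sub_mem hx.1 ⟨h'.anti _ _ (by omega) _ hb', Submodule.mem_sup_left (hle _ _ hb')⟩
  have hdy : d (x - b') = a' := by rw [map_sub, ← e, add_sub_cancel_right]
  obtain ⟨a, ha, b, hb, e'⟩ := mem_Qb_msys.1 hy.2
  obtain ⟨a2, ha2, b2, hb2, e2'⟩ := mem_Bc_msys.1 (hr' (lv M hi c (n + 1) - M) (lv M hi c n) n
    (by omega) (by omega) (by omega) (x - b') (mem_Zc_msys.2 ⟨by
      rw [sub_add_cancel]; exact hW _ hy, by rw [hdy]; exact h'.anti _ _ (by omega) _ ha'⟩))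
  have h3 : κ ^ r • (κ ^ r' • b - b2) ∈ Qb d X (lv M hi c) (n + 1) := by
    refine hr (lv M hi c (n + 1 + 1)) (lv M hi c (n + 1)) (n + 1) (by omega) (by omega) (by omega)
      _ (mem_Zc_msys.2 ⟨sub_mem (Submodule.smul_mem _ _ (h.anti _ _ (by omega) _ hb))
        (h.anti _ _ (by omega) _ (hle _ _ hb2)), ?_⟩)
    have e6 : d (κ ^ r' • b - b2) = a2 - κ ^ r' • a := by
      rw [map_sub, map_smul, eq_sub_of_add_eq' e', eq_sub_of_add_eq' e2', smul_sub (κ ^ r') (x - b')]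
      abel
    rw [e6, add_sub_cancel_right]
    exact h.anti (lv M hi c (n + 1) + M) (lv M hi c n) (by omega) _
      (sub_mem (hle _ _ ha2) (Submodule.smul_mem _ _ ha))
  have h4 : κ ^ r • b2 ∈ (X' 0 ⊓ Qb d X (lv M hi c)) (n + 1) := by
    refine ⟨Submodule.smul_mem _ _ (h'.anti _ _ (by omega) _ hb2), ?_⟩
    have h5 : κ ^ r • κ ^ r' • b ∈ Qb d X (lv M hi c) (n + 1) :=
      Submodule.smul_mem _ _ (Submodule.smul_mem _ _ (Submodule.mem_sup_left hb))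
    have h6 := sub_mem h5 h3
    rwa [smul_sub, sub_sub_cancel] at h6
  refine mem_Bc_msys.2 ⟨κ ^ r • a2 + κ ^ (r + r') • b', Submodule.mem_sup_left
    (add_mem (Submodule.smul_mem _ _ ha2) (Submodule.smul_mem _ _ hb')), _, h4, ?_⟩
  rw [map_smul, eq_sub_of_add_eq' e2', pow_add]
  module

/-- Additivity in short exact sequences of systems. -/
theorem Sys.ses (h : Sys μ κ d X lo hi M Lm) (h' : Sys μ κ d X' lo hi M Lm) (hle : X' ≤ X)
    (hst : ∀ s n, 0 ≤ s → X s n ⊓ X' 0 n ≤ X' s n) (hc : 0 ≤ c)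
    (hL : c + 2 * M * (hi - lo + 4) ≤ Lm) :
    chiR μ d (Qb d X (lv M hi c)) (X 0) = chiR μ d (Qb d X' (lv M hi c)) (X' 0) +
      chiR μ d (Qb d (fun s => X s ⊔ X' 0) (lv M hi c)) (X 0) := by
  have eY : Qb d (fun s => X s ⊔ X' 0) (lv M hi c) = Qb d X (lv M hi c) ⊔ X' 0 := by
    funext n
    have : (X' 0 (n + 1)).map d ≤ X' 0 n := by
      rintro _ ⟨x, hx, rfl⟩
      exact (h'.cx 0).d_msys hx
    simp only [Qb, Pi.sup_apply, Submodule.map_sup]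
    refine le_antisymm (sup_le (sup_le_sup_right le_sup_left _) (sup_le_sup le_sup_right this))
      (sup_le (sup_le_sup le_sup_left le_sup_left) (le_sup_of_le_left le_sup_right))
  have q := h.qb_cx hc hL
  have q' := h'.qb_cx hc hL
  have t1 : Tri d (Qb d X (lv M hi c)) (Qb d X (lv M hi c) ⊔ X' 0) (X 0) :=
    ⟨h.sq.mono (h.le_qb hc hL) le_rfl, q, q.sup_msys (h'.cx 0), h.cx 0, le_sup_left,
      sup_le (h.qb_le.trans (h.anti _ _ hc)) (hle 0)⟩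
  have t2 : Tri d (Qb d X' (lv M hi c)) (X' 0 ⊓ Qb d X (lv M hi c)) (X' 0) :=
    ⟨h'.sq.mono (h'.le_qb hc hL) le_rfl, q', (h'.cx 0).inf_msys q, h'.cx 0,
      le_inf (h'.qb_le.trans (h'.anti _ _ hc))
        fun n => sup_le_sup (hle _ _) (Submodule.map_mono (hle _ _)), inf_le_left⟩
  obtain ⟨g, e⟩ := good_chi_of_zero μ (h.hr_ses_msys h' hle hst hc hL)
  have g2 := t2.good_right μ g (h'.qb_good hc hL)
  obtain ⟨g3, e3⟩ := good_chi_of_hr_shift μ 0 fun n =>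
    (hr_inf_sup μ (h'.cx 0) q n).trans (congrArg _ (add_zero n).symm)
  rw [eY, t1.chi_add μ (g3.1 g2) (t1.good_right μ (g3.1 g2) (h.qb_good hc hL)), t2.chi_add μ g g2,
    e, e3]
  simp

/-- Elementwise vanishing in positive degrees. -/
theorem van_pos {Xa Xb T0 T1 : ℤ → Submodule S E} {n : ℤ} {r : ℕ} (hT0 : IsCx d T0)
    (hb : Xb n ≤ T0 n) (hsq : Sq d Xb T1)
    (hz : ∀ x ∈ Zc d Xa T0 n, κ ^ r • x ∈ Bc d Xb T1 n)
    (hw : Zc d T0 T1 (n + 1) ≤ Bc d T0 T1 (n + 1)) :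
    ∀ x ∈ Zc d Xa T0 n, κ ^ r • x ∈ Bc d Xb T0 n := by
  intro x hx
  obtain ⟨u, hu, v, hv, e⟩ := mem_Bc_msys.1 (hz x hx)
  have h1 : d v ∈ T0 (n + 1 - 1) := by
    rw [add_sub_cancel_right, eq_sub_of_add_eq' e]
    exact sub_mem (Submodule.smul_mem _ _ hx.1) (hb hu)
  obtain ⟨v0, hv0, w, hw', rfl⟩ := mem_Bc_msys.1 (hw (mem_Zc_msys.2 ⟨hv, h1⟩))
  have h2 := hsq.dd_msys hw'
  rw [add_sub_cancel_right] at h2
  refine mem_Bc_msys.2 ⟨_, add_mem hu h2, v0, hv0, ?_⟩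
  rw [← e, map_add]
  abel

/-- Elementwise vanishing in negative degrees. -/
theorem van_neg {Xa Xb T0 T1 : ℤ → Submodule S E} {n : ℤ} {r : ℕ}
    (ha : Xa (n - 1) ≤ T1 (n - 1)) (hsq : Sq d Xa T0)
    (hz : ∀ x ∈ Zc d Xa T1 n, κ ^ r • x ∈ Bc d Xb T0 n)
    (hw : Zc d T1 T0 n ≤ Bc d T1 T0 n) :
    ∀ x ∈ Zc d Xa T0 n, κ ^ r • x ∈ Bc d Xb T0 n := by
  intro x hx
  obtain ⟨t, ht, v, hv, rfl⟩ := mem_Bc_msys.1 (hw (mem_Zc_msys.2 ⟨hx.1, ha hx.2⟩))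
  have h1 : d t ∈ Xa (n - 1) := by
    have h2 := sub_mem (mem_Zc_msys.1 hx).2 (hsq.dd_msys hv)
    rwa [map_add, add_sub_cancel_right] at h2
  rw [smul_add]
  exact add_mem (hz t (mem_Zc_msys.2 ⟨ht, h1⟩))
    (Submodule.smul_mem _ _ (Submodule.mem_sup_right ⟨v, hv, rfl⟩))

/-- The Euler characteristic is concentrated in degree zero. -/
theorem Sys.chi_eq (h : Sys μ κ d X lo hi M Lm) (hc : 0 ≤ c)
    (hL : c + 2 * M * (hi - lo + 4) ≤ Lm) {G : ℤ → Submodule S E} (hG : IsCx d G) (hXG : X 0 ≤ G)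
    (hsupp : ∀ n, n < lo ∨ hi < n → G n = ⊥) (hsq : Sq d (X Lm) G)
    (hfin : ∀ n, hr (μ.nu κ) d (X 0) G n = 0) (r : ℕ)
    (hv : ∀ n s, n ≠ 0 → c ≤ s → s + M ≤ Lm → ∀ x ∈ Zc d (X (s + M)) G n,
      κ ^ r • x ∈ Bc d (X s) G n) :
    hr μ d (Qb d X (lv M hi c)) G 0 ≠ ⊤ ∧
      chiR μ d (Qb d X (lv M hi c)) (X 0) + chiR μ d (X 0) G =
        (hr μ d (Qb d X (lv M hi c)) G 0).toReal := by
  have t : Tri d (Qb d X (lv M hi c)) (X 0) G :=
    ⟨hsq.mono (h.le_qb hc hL) le_rfl, h.qb_cx hc hL, h.cx 0, hG,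
      h.qb_le.trans (h.anti _ _ hc), hXG⟩
  have g1 := h.qb_good hc hL
  have g2 : GoodR μ d (X 0) G := goodR_of_bounded μ (Finset.Icc lo hi)
    (fun n hn => hr_bot_msys _ (hsupp n (by rw [Finset.mem_Icc] at hn; omega)))
    fun n _ => rr_ne_top_of_nu μ κ (hfin n)
  refine ⟨(t.good μ g1 g2).1 0, ?_⟩
  rw [← t.chi_add μ g1 g2, chiR_eq_single μ 0]
  · simp
  intro n hn0
  by_cases hn : n < lo ∨ hi < n
  · exact hr_bot_msys _ (hsupp n hn)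
  have hM := h.hM
  have h1 := t.le_add (μ.nu κ) n
  rw [h.nu_qb_msys hc hL, hfin, add_zero, h.hr_qb _ ((h.anti _ _ hc).trans hXG)] at h1
  rw [h.hr_qb _ ((h.anti _ _ hc).trans hXG)]
  have e2 := lv_pred_msys M hi c n
  have e4 := lv_le_msys (n := n - 1) hM hL (by omega)
  exact rr_eq_zero_of_nu μ κ (le_antisymm h1 zero_le) r fun x hx =>
    hv n _ hn0 (lv_ge_msys hM c (by omega)) (by omega) x
      (Zc_mono_msys (h.anti _ _ (by omega) _) le_rfl hx)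

end Vale.Agent.P202
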