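import Vale.Agent.P202.MBi
import Vale.Agent.P202.MMC
import Vale.Agent.P202.Cech

/-! The tensor product of a matrix complex with a filtered complex. -/

namespace Vale.Agent.P202.MC

open scoped ENNReal

universe u

variable {B : Type u} [CommRing B] (K : MC B) {E : Type u} [AddCommGroup E] [Module B E]
  {δ : E →ₗ[B] E} {G G' : ℕ → ℤ → Submodule B E} {L : ℕ}

theorem act_apply (A : Matrix K.ι K.ι B) (x : K.ι → E) (a : K.ι) :
    K.act E A x a = ∑ b, A a b • x b := by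
  simp [act, LinearMap.sum_apply]

theorem sg_apply (x : K.ι → E) (a : K.ι) :
    K.sg δ x a = (((-1 : ℤ) ^ K.deg a : ℤ) : B) • δ (x a) := rfl

theorem mem_T {n : ℤ} {x : K.ι → E} :
    x ∈ K.T G n ↔ ∀ a, x a ∈ G (K.deg a) (n - K.deg a) := by
  simp [T, Submodule.mem_pi]

theorem T_mono (h : G' ≤ G) : K.T G' ≤ K.T G := fun _ _ hx =>
  K.mem_T.2 fun a => h _ _ (K.mem_T.1 hx a)

theorem T_sup (G G' : ℕ → ℤ → Submodule B E) : K.T (G ⊔ G') = K.T G ⊔ K.T G' := by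
  refine le_antisymm (fun n x hx => ?_) (sup_le (K.T_mono le_sup_left) (K.T_mono le_sup_right))
  have h1 := fun a => Submodule.mem_sup.1 (K.mem_T.1 hx a)
  choose y hy z hz hyz using h1
  exact Submodule.mem_sup.2 ⟨y, K.mem_T.2 hy, z, K.mem_T.2 hz, funext hyz⟩

theorem T_inf (G G' : ℕ → ℤ → Submodule B E) : K.T (G ⊓ G') = K.T G ⊓ K.T G' := by
  refine le_antisymm (le_inf (K.T_mono inf_le_left) (K.T_mono inf_le_right)) fun n x hx => ?_
  exact K.mem_T.2 fun a => ⟨K.mem_T.1 hx.1 a, K.mem_T.1 hx.2 a⟩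

theorem T_eq_bot (hL : K.Len L) {m : ℕ} (h : ∀ i n, n < -(m : ℤ) ∨ 0 < n → G i n = ⊥) (n : ℤ)
    (hn : n < -(m : ℤ) ∨ (L : ℤ) < n) : K.T G n = ⊥ := by
  refine le_bot_iff.1 fun x hx => funext fun a => ?_
  have h1 := K.mem_T.1 hx a
  have h2 := hL a
  rw [h _ _ (by omega)] at h1
  exact h1

theorem act_mul_mt (A A' : Matrix K.ι K.ι B) (x : K.ι → E) :
    K.act E A (K.act E A' x) = K.act E (A * A') x := by
  funext a
  simp only [act_apply, Matrix.mul_apply, Finset.smul_sum, Finset.sum_smul, smul_smul]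
  exact Finset.sum_comm

theorem sgn_smul_mt (k : ℕ) (v : E) :
    (((-1 : ℤ) ^ k : ℤ) : B) • (((-1 : ℤ) ^ k : ℤ) : B) • v = v := by
  rw [smul_smul, ← Int.cast_mul, ← mul_pow]
  simp

theorem sgn_mem_mt {k : ℕ} {v : E} {N : Submodule B E} :
    (((-1 : ℤ) ^ k : ℤ) : B) • v ∈ N ↔ v ∈ N :=
  ⟨fun h => sgn_smul_mt (B := B) k v ▸ N.smul_mem _ h, fun h => N.smul_mem _ h⟩

theorem dt_dt (hδ : δ ∘ₗ δ = 0) (x : K.ι → E) :
    K.dt δ (K.dt δ x) = K.act E (K.mat * K.mat) x := by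
  have h1 : K.sg δ (K.sg δ x) = 0 := by
    funext a
    rw [sg_apply, sg_apply, map_smul, ← LinearMap.comp_apply, hδ]
    simp
  have h2 : K.sg δ (K.act E K.mat x) + K.act E K.mat (K.sg δ x) = 0 := by
    funext a
    rw [Pi.add_apply, sg_apply, act_apply, act_apply, map_sum, Finset.smul_sum,
      ← Finset.sum_add_distrib]
    refine Finset.sum_eq_zero fun b _ => ?_
    by_cases h : K.mat a b = 0
    · simp [h]
    · rw [sg_apply, K.hom a b h, map_smul, smul_smul, smul_smul, ← add_smul]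
      push_cast
      rw [show (-1 : B) ^ K.deg a * K.mat a b + K.mat a b * (-1) ^ (K.deg a + 1) = 0 by ring,
        zero_smul]
  unfold dt
  simp only [LinearMap.add_apply, map_add]
  rw [h1, act_mul_mt, zero_add, ← add_assoc, add_comm (K.act E K.mat (K.sg δ x)), h2, zero_add]

/-- The family `G` is compatible with the differential of `K`. -/
structure Fit (δ : E →ₗ[B] E) (G : ℕ → ℤ → Submodule B E) : Prop where
  cx : ∀ i, IsCx δ (G i)
  ent : ∃ I : Ideal B, K.Ent I ∧ ∀ i n, I • G (i + 1) n ≤ G i n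

variable {K}

theorem Fit.isCx (h : K.Fit δ G) : IsCx (K.dt δ) (K.T G) := by
  rintro n _ ⟨x, hx, rfl⟩
  obtain ⟨I, hI, hG⟩ := h.ent
  have hx' := K.mem_T.1 hx
  refine K.mem_T.2 fun a => Submodule.add_mem _ ?_ ?_
  · rw [sg_apply, sgn_mem_mt, sub_right_comm]
    exact h.cx _ _ ⟨_, hx' a, rfl⟩
  · rw [act_apply]
    refine Submodule.sum_mem _ fun b _ => ?_
    by_cases h0 : K.mat a b = 0
    · simp [h0]
    · have h1 := hx' b
      rw [K.hom a b h0, show n - ((K.deg a + 1 : ℕ) : ℤ) = n - 1 - K.deg a by push_cast; ring]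
        at h1
      exact hG _ _ (Submodule.smul_mem_smul (hI a b) h1)

theorem fit_const (K : MC B) {G0 : ℤ → Submodule B E} (h : IsCx δ G0) :
    K.Fit δ fun _ => G0 :=
  ⟨fun _ => h, ⊤, fun _ _ => Submodule.mem_top, fun _ _ => Submodule.smul_le_right⟩

theorem T_sq (hδ : δ ∘ₗ δ = 0) (hL : K.Len L) {𝔡 : Ideal B} (hK : K.SqIn 𝔡)
    (h : ∀ i i' n, i ≤ L → i' ≤ L → 𝔡 • G i' n ≤ G' i n) : Sq (K.dt δ) (K.T G') (K.T G) := by
  intro n x hx
  rw [dt_dt K hδ]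
  refine K.mem_T.2 fun a => ?_
  rw [act_apply]
  refine Submodule.sum_mem _ fun b _ => ?_
  by_cases h0 : (K.mat * K.mat) a b = 0
  · simp [h0]
  · rw [Matrix.mul_apply] at h0
    obtain ⟨c, -, hc⟩ := Finset.exists_ne_zero_of_sum_ne_zero h0
    have h1 := K.hom a c (left_ne_zero_of_mul hc)
    have h2 := K.hom c b (right_ne_zero_of_mul hc)
    have h3 := K.mem_T.1 hx b
    rw [show n - (K.deg b : ℤ) = n - 2 - K.deg a by omega] at h3
    exact h _ _ _ (hL a) (hL b) (Submodule.smul_mem_smul (hK a b) h3)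

/-- The part of the total complex in bidegree `(i, j)`. -/
def Rw_mt (K : MC B) (G : ℕ → ℤ → Submodule B E) (i j : ℤ) : Submodule B (K.ι → E) :=
  Submodule.pi Set.univ fun a => if (K.deg a : ℤ) = i then G (K.deg a) j else ⊥

theorem mem_Rw_mt {i j : ℤ} {x : K.ι → E} : x ∈ K.Rw_mt G i j ↔
    (∀ a, (K.deg a : ℤ) = i → x a ∈ G (K.deg a) j) ∧ ∀ a, (K.deg a : ℤ) ≠ i → x a = 0 := by
  unfold Rw_mt
  rw [Submodule.mem_pi]
  constructor
  · intro h
    refine ⟨fun a ha => ?_, fun a ha => ?_⟩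
    · simpa [ha] using h a trivial
    · simpa [ha] using h a trivial
  · rintro ⟨h1, h2⟩ a -
    split_ifs with ha
    · exact h1 a ha
    · exact h2 a ha

theorem Rw_mono_mt (h : G' ≤ G) : K.Rw_mt G' ≤ K.Rw_mt G := fun _ _ _ hx =>
  mem_Rw_mt.2 ⟨fun a ha => h _ _ ((mem_Rw_mt.1 hx).1 a ha), (mem_Rw_mt.1 hx).2⟩

theorem tot_Rw_mt (K : MC B) (G : ℕ → ℤ → Submodule B E) : Tot (K.Rw_mt G) = K.T G := by
  funext n
  refine le_antisymm (iSup_le fun i x hx => K.mem_T.2 fun a => ?_) fun x hx => ?_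
  · obtain ⟨h1, h2⟩ := mem_Rw_mt.1 hx
    by_cases ha : (K.deg a : ℤ) = i
    · exact ha ▸ h1 a ha
    · rw [h2 a ha]
      exact Submodule.zero_mem _
  · rw [← Finset.univ_sum_single x]
    refine Submodule.sum_mem _ fun a _ => Submodule.mem_iSup_of_mem (K.deg a : ℤ) ?_
    refine mem_Rw_mt.2 ⟨fun b _ => ?_, fun b hb => ?_⟩
    · by_cases h : b = a
      · subst h
        simpa using K.mem_T.1 hx b
      · rw [Pi.single_eq_of_ne h]
        exact Submodule.zero_mem _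
    · exact Pi.single_eq_of_ne (fun h => hb (by rw [h])) _

theorem tot_Rw_swap_mt (K : MC B) (G : ℕ → ℤ → Submodule B E) :
    Tot (fun i j => K.Rw_mt G j i) = K.T G := by
  rw [← tot_Rw_mt]
  funext n
  refine le_antisymm (iSup_le fun i => le_iSup_of_le (n - i) ?_)
    (iSup_le fun i => le_iSup_of_le (n - i) ?_) <;> simp

theorem act_mem_mt {A : Matrix K.ι K.ι B} {i i' j : ℤ} {x : K.ι → E} (hx : x ∈ K.Rw_mt G i j)
    (h : ∀ a b, A a b ≠ 0 → (K.deg b : ℤ) = i → (K.deg a : ℤ) = i' ∧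
      ∀ v ∈ G (K.deg b) j, A a b • v ∈ G' (K.deg a) j) : K.act E A x ∈ K.Rw_mt G' i' j := by
  obtain ⟨h1, h2⟩ := mem_Rw_mt.1 hx
  refine mem_Rw_mt.2 ⟨fun a _ => ?_, fun a ha => ?_⟩
  · rw [act_apply]
    refine Submodule.sum_mem _ fun b _ => ?_
    by_cases h0 : A a b = 0
    · simp [h0]
    · by_cases hb : (K.deg b : ℤ) = i
      · exact (h a b h0 hb).2 _ (h1 b hb)
      · simp [h2 b hb]
  · rw [act_apply]
    refine Finset.sum_eq_zero fun b _ => ?_
    by_cases h0 : A a b = 0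
    · simp [h0]
    · by_cases hb : (K.deg b : ℤ) = i
      · exact absurd (h a b h0 hb).1 ha
      · simp [h2 b hb]

theorem Fit.map_sg_mt (h : K.Fit δ G) (i j : ℤ) :
    (K.Rw_mt G i j).map (K.sg δ) ≤ K.Rw_mt G i (j - 1) := by
  rintro _ ⟨x, hx, rfl⟩
  obtain ⟨h1, h2⟩ := mem_Rw_mt.1 hx
  refine mem_Rw_mt.2 ⟨fun a ha => ?_, fun a ha => ?_⟩
  · rw [sg_apply, sgn_mem_mt]
    exact h.cx _ _ ⟨_, h1 a ha, rfl⟩
  · rw [sg_apply, h2 a ha, map_zero, smul_zero]

theorem Fit.map_act_mt (h : K.Fit δ G) (i j : ℤ) :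
    (K.Rw_mt G i j).map (K.act E K.mat) ≤ K.Rw_mt G (i - 1) j := by
  rintro _ ⟨x, hx, rfl⟩
  obtain ⟨I, hI, hG⟩ := h.ent
  refine act_mem_mt hx fun a b h0 hb => ?_
  have h1 := K.hom a b h0
  refine ⟨by omega, fun v hv => hG _ _ (Submodule.smul_mem_smul (hI a b) (h1 ▸ hv))⟩

/-- The projection onto degree `i`. -/
def Pr_mt (K : MC B) (E : Type u) [AddCommGroup E] [Module B E] (i : ℤ) :
    (K.ι → E) →ₗ[B] (K.ι → E) :=
  LinearMap.pi fun a => if (K.deg a : ℤ) = i then (LinearMap.proj a : (K.ι → E) →ₗ[B] E) else 0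

theorem Fit.bi_mt (h : K.Fit δ G) : Bi (K.sg δ) (K.act E K.mat) (K.Pr_mt E) (K.Rw_mt G) := by
  refine ⟨h.map_sg_mt, h.map_act_mt, fun i j x hx => funext fun a => ?_,
    fun i i' j hi x hx => funext fun a => ?_⟩
  · by_cases ha : (K.deg a : ℤ) = i
    · simp [Pr_mt, ha]
    · simp [Pr_mt, ha, (mem_Rw_mt.1 hx).2 a ha]
  · by_cases ha : (K.deg a : ℤ) = i'
    · simp [Pr_mt, ha, (mem_Rw_mt.1 hx).2 a (by omega)]
    · simp [Pr_mt, ha]

theorem hr_pi_mt (μ : RLen B) (A C : K.ι → ℤ → Submodule B E) (n : ℤ) :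
    hr μ (K.sg δ) (fun j => Submodule.pi Set.univ fun a => A a j)
      (fun j => Submodule.pi Set.univ fun a => C a j) n = ∑ a, hr μ δ (A a) (C a) n := by
  have hZ : Zc (K.sg δ) (fun j => Submodule.pi Set.univ fun a => A a j)
      (fun j => Submodule.pi Set.univ fun a => C a j) n =
      Submodule.pi Set.univ fun a => Zc δ (A a) (C a) n := by
    ext x
    constructor
    · rintro ⟨h1, h2⟩ a ha
      exact ⟨h1 a ha, (sgn_mem_mt (k := K.deg a) (v := δ (x a)) (N := A a (n - 1))).1 (h2 a ha)⟩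
    · intro h
      exact ⟨fun a ha => (h a ha).1, fun a ha => sgn_mem_mt.2 (h a ha).2⟩
  have hB : Bc (K.sg δ) (fun j => Submodule.pi Set.univ fun a => A a j)
      (fun j => Submodule.pi Set.univ fun a => C a j) n =
      Submodule.pi Set.univ fun a => Bc δ (A a) (C a) n := by
    refine le_antisymm (sup_le (fun x hx a ha => Submodule.mem_sup_left (hx a ha)) ?_)
      fun x hx => ?_
    · rintro _ ⟨x, hx, rfl⟩ a ha
      exact sgn_mem_mt.2 (Submodule.mem_sup_right ⟨_, hx a ha, rfl⟩)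
    · have h1 : ∀ a, ∃ y ∈ A a n, ∃ w ∈ C a (n + 1), y + δ w = x a := by
        intro a
        obtain ⟨y, hy, _, ⟨w, hw, rfl⟩, h⟩ := Submodule.mem_sup.1 (hx a trivial)
        exact ⟨y, hy, w, hw, h⟩
      choose y hy w hw h using h1
      refine Submodule.mem_sup.2 ⟨y, fun a _ => hy a, _,
        ⟨fun a => (((-1 : ℤ) ^ K.deg a : ℤ) : B) • w a, fun a _ => sgn_mem_mt.2 (hw a), rfl⟩,
        funext fun a => ?_⟩
      rw [Pi.add_apply, sg_apply, map_smul, sgn_smul_mt, h]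
  unfold hr
  rw [hZ, hB, rr_pi]

theorem hr_Rw_mt (μ : RLen B) (i : ℕ) (n : ℤ) :
    hr μ (K.sg δ) (K.Rw_mt G' i) (K.Rw_mt G i) n = (K.rk i : ℝ≥0∞) * hr μ δ (G' i) (G i) n := by
  refine (hr_pi_mt μ (fun a j => if (K.deg a : ℤ) = i then G' (K.deg a) j else ⊥)
    (fun a j => if (K.deg a : ℤ) = i then G (K.deg a) j else ⊥) n).trans ?_
  rw [rk, ← nsmul_eq_mul, ← Finset.sum_const, Finset.sum_filter]
  refine Finset.sum_congr rfl fun a _ => ?_
  by_cases ha : K.deg a = i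
  · simp [ha]
  · have ha' : (K.deg a : ℤ) ≠ i := by omega
    simp only [ha, ha', if_false]
    exact hr_eq_zero_of_le μ n le_rfl

theorem Rw_out_mt (hL : K.Len L) (i : ℤ) (hi : i ∉ Finset.Icc (0 : ℤ) L) (j : ℤ) :
    K.Rw_mt G i j ≤ K.Rw_mt G' i j := by
  intro x hx
  refine mem_Rw_mt.2 ⟨fun a ha => ?_, (mem_Rw_mt.1 hx).2⟩
  have := hL a
  rw [Finset.mem_Icc] at hi
  omega

theorem T_hr_zero (μ : RLen B) (hL : K.Len L) (h' : K.Fit δ G') (h : K.Fit δ G) (hle : G' ≤ G)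
    (hsq : Sq (K.dt δ) (K.T G') (K.T G)) (n : ℤ)
    (h0 : ∀ i ≤ L, hr μ δ (G' i) (G i) (n - i) = 0) : hr μ (K.dt δ) (K.T G') (K.T G) n = 0 := by
  rw [← tot_Rw_mt, ← tot_Rw_mt] at hsq ⊢
  refine le_antisymm ((rowsR_le μ hsq h'.bi_mt h.bi_mt (Rw_mono_mt hle) 0 L (Rw_out_mt hL)
    n).trans (Finset.sum_eq_zero fun i hi => ?_).le) bot_le
  rw [Finset.mem_Icc] at hi
  obtain ⟨i, rfl⟩ := Int.eq_ofNat_of_zero_le hi.1
  rw [hr_Rw_mt, h0 i (by omega), mul_zero]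

theorem T_chi (μ : RLen B) (hL : K.Len L) (h' : K.Fit δ G') (h : K.Fit δ G) (hle : G' ≤ G)
    (hsq : Sq (K.dt δ) (K.T G') (K.T G)) (hg : ∀ i ≤ L, GoodR μ δ (G' i) (G i)) :
    GoodR μ (K.dt δ) (K.T G') (K.T G) ∧ chiR μ (K.dt δ) (K.T G') (K.T G) =
      ∑ i ∈ Finset.range (L + 1), (-1 : ℝ) ^ i * (K.rk i : ℝ) * chiR μ δ (G' i) (G i) := by
  rw [← tot_Rw_mt, ← tot_Rw_mt] at hsq ⊢
  have h1 := fun (i : ℕ) (hi : i ≤ L) => good_chi_of_hr_mul μ (K.rk i)
    (hr_Rw_mt (K := K) (δ := δ) (G := G) (G' := G') μ i) (hg i hi)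
  obtain ⟨h2, h3⟩ := rowsR_chi μ hsq h'.bi_mt h.bi_mt (Rw_mono_mt hle) 0 L (Rw_out_mt hL)
    fun i hi => by
      rw [Finset.mem_Icc] at hi
      obtain ⟨i, rfl⟩ := Int.eq_ofNat_of_zero_le hi.1
      exact (h1 i (by omega)).1
  refine ⟨h2, h3.trans ?_⟩
  symm
  refine Finset.sum_bij (fun i _ => (i : ℤ)) (fun i hi => ?_) (fun i _ j _ h => by omega)
    (fun i hi => ?_) fun i hi => ?_
  · rw [Finset.mem_range] at hi
    rw [Finset.mem_Icc]
    omega
  · rw [Finset.mem_Icc] at hi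
    obtain ⟨i, rfl⟩ := Int.eq_ofNat_of_zero_le hi.1
    exact ⟨i, Finset.mem_range.2 (by omega), rfl⟩
  · rw [Finset.mem_range] at hi
    rw [(h1 i (by omega)).2, Int.coe_negOnePow_natCast]
    push_cast
    ring

theorem fit_cech_mt {m : ℕ} {𝔢 : Ideal B} (he : K.Ent 𝔢) (D : ℕ → (Fin m → Ch) → Submodule B E)
    (h1 : ∀ i, CMono (D i)) (h4 : ∀ i J, 𝔢 • D (i + 1) J ≤ D i J) :
    K.Fit (cd B m E) fun i => Cech (D i) := by
  refine ⟨fun i => cech_isCx (h1 i), 𝔢, he, fun i n => ?_⟩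
  rw [← cech_smul]
  exact cech_mono (h4 i) n

theorem bi_cech_mt {m : ℕ} {D : ℕ → (Fin m → Ch) → Submodule B E}
    (h : K.Fit (cd B m E) fun i => Cech (D i)) :
    Bi (K.act _ K.mat) (K.sg (cd B m E)) (fun i => (cP B m E i).compLeft K.ι)
      fun i j => K.Rw_mt (fun i => Cech (D i)) j i := by
  refine ⟨fun i j => h.map_act_mt j i, fun i j => h.map_sg_mt j i,
    fun i j x hx => funext fun a => ?_, fun i i' j hi x hx => funext fun a => ?_⟩
  · change cP B m E i (x a) = x a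
    by_cases ha : (K.deg a : ℤ) = j
    · exact cP_fix ((mem_Rw_mt.1 hx).1 a ha)
    · rw [(mem_Rw_mt.1 hx).2 a ha, map_zero]
  · change cP B m E i' (x a) = 0
    by_cases ha : (K.deg a : ℤ) = j
    · exact cP_kill hi ((mem_Rw_mt.1 hx).1 a ha)
    · rw [(mem_Rw_mt.1 hx).2 a ha, map_zero]

theorem homotopy_mt (hL : K.Len L) {𝔷 : Ideal B} {w : B} (hw : w ∈ K.nh 𝔷)
    (t3 : ∀ i, G i ≤ G (i + 1)) (b3 : ∀ i, G' i ≤ G' (i + 1))
    (h5 : ∀ i n, i ≤ L → 𝔷 • G i n ≤ G' i n) {i j : ℤ} {y : K.ι → E} (hy : y ∈ K.Rw_mt G j i)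
    (hy' : K.act E K.mat y ∈ K.Rw_mt G' (j - 1) i) :
    w • y ∈ K.Rw_mt G' j i ⊔ (K.Rw_mt G (j + 1) i).map (K.act E K.mat) := by
  obtain ⟨H, hH, hE⟩ := hw
  have h1 : K.act E H y ∈ K.Rw_mt G (j + 1) i := act_mem_mt hy fun a b h0 hb => by
    have h2 := hH a b h0
    exact ⟨by omega, fun v hv => Submodule.smul_mem _ _ (h2 ▸ t3 _ _ hv)⟩
  have h2 : K.act E H (K.act E K.mat y) ∈ K.Rw_mt G' j i := act_mem_mt hy' fun a b h0 hb => by
    have h2 := hH a b h0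
    exact ⟨by omega, fun v hv => Submodule.smul_mem _ _ (h2 ▸ b3 _ _ hv)⟩
  have h3 : K.act E (K.mat * H + H * K.mat - w • (1 : Matrix K.ι K.ι B)) y ∈ K.Rw_mt G' j i := by
    refine act_mem_mt hy fun a b h0 hb => ?_
    have hab : K.deg a = K.deg b := by
      by_contra hne
      apply h0
      have e1 : (K.mat * H) a b = 0 := by
        rw [Matrix.mul_apply]
        refine Finset.sum_eq_zero fun c _ => by_contra fun hc => hne ?_
        have := K.hom a c (left_ne_zero_of_mul hc)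
        have := hH c b (right_ne_zero_of_mul hc)
        omega
      have e2 : (H * K.mat) a b = 0 := by
        rw [Matrix.mul_apply]
        refine Finset.sum_eq_zero fun c _ => by_contra fun hc => hne ?_
        have := hH a c (left_ne_zero_of_mul hc)
        have := K.hom c b (right_ne_zero_of_mul hc)
        omega
      have e3 : a ≠ b := fun h => hne (by rw [h])
      simp [e1, e2, Matrix.one_apply_ne e3]
    refine ⟨by omega, fun v hv => ?_⟩
    rw [hab]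
    exact h5 _ _ (hL b) (Submodule.smul_mem_smul (hE a b) hv)
  have h4 : w • y = (K.act E H (K.act E K.mat y) -
      K.act E (K.mat * H + H * K.mat - w • (1 : Matrix K.ι K.ι B)) y) +
      K.act E K.mat (K.act E H y) := by
    rw [act_mul_mt, act_mul_mt]
    funext a
    simp only [Pi.add_apply, Pi.sub_apply, act_apply, Matrix.sub_apply, Matrix.add_apply,
      sub_smul, add_smul, Finset.sum_sub_distrib, Finset.sum_add_distrib, Matrix.smul_apply,
      Matrix.one_apply, smul_eq_mul, mul_ite, mul_one, mul_zero, ite_smul, zero_smul,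
      Finset.sum_ite_eq, Finset.mem_univ, if_true, Pi.smul_apply]
    abel
  rw [h4]
  exact Submodule.add_mem_sup (Submodule.sub_mem _ h2 h3) ⟨_, h1, rfl⟩

/-- The staircase for Cech coefficients. -/
theorem T_zz {m r : ℕ} (hL : K.Len L) {𝔢 𝔷 : Ideal B} (he : K.Ent 𝔢) (hsq : K.SqIn 𝔷) (c : B)
    (z : Fin r → B) (hz : ∀ j, c * z j ∈ K.nh 𝔷)
    (Dt Db : ℕ → ℕ → (Fin m → Ch) → Submodule B E)
    (t1 : ∀ a i, CMono (Dt a i)) (b1 : ∀ a i, CMono (Db a i))
    (t2 : ∀ a, Dt (a + 1) ≤ Dt a) (b2 : ∀ a, Db (a + 1) ≤ Db a)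
    (t3 : ∀ a i, Dt a i ≤ Dt a (i + 1)) (b3 : ∀ a i, Db a i ≤ Db a (i + 1))
    (t4 : ∀ a i J, 𝔢 • Dt a (i + 1) J ≤ Dt a i J) (b4 : ∀ a i J, 𝔢 • Db a (i + 1) J ≤ Db a i J)
    (h5 : ∀ a i i' J, i ≤ L → i' ≤ L → 𝔷 • Dt a i' J ≤ Db a i J)
    (h6 : ∀ J, ∃ g : Fin r → E →ₗ[B] E, (∀ v, ∑ j, z j • g j v = v) ∧
      ∀ j a i, ∀ v ∈ Dt (a + 1) i J, g j v ∈ Dt a i J ∧ (v ∈ Db (a + 1) i J → g j v ∈ Db a i J))
    (n : ℤ) :
    ∀ x ∈ Zc (K.dt (cd B m E)) (K.T fun i => Cech (Db (m + 1) i))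
        (K.T fun i => Cech (Dt (m + 1) i)) n,
      c ^ (m + 1) • x ∈ Bc (K.dt (cd B m E)) (K.T fun i => Cech (Db 0 i))
        (K.T fun i => Cech (Dt 0 i)) n := by
  have ft := fun a => fit_cech_mt he (Dt a) (t1 a) (t4 a)
  have fb := fun a => fit_cech_mt he (Db a) (b1 a) (b4 a)
  have hd : K.dt (cd B m E) = K.act _ K.mat + K.sg (cd B m E) := add_comm _ _
  have h5' : ∀ a i i' n, i ≤ L → i' ≤ L → 𝔷 • Cech (Dt a i') n ≤ Cech (Db a i) n := by
    intro a i i' n hi hi'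
    rw [← cech_smul]
    exact cech_mono (fun J => h5 a i i' J hi hi') n
  choose g hg1 hg2 using h6
  let Γ : Fin r → ((Fin m → Ch) → E) →ₗ[B] ((Fin m → Ch) → E) := fun l =>
    LinearMap.pi fun J => g J l ∘ₗ LinearMap.proj J
  have hΓ : ∀ l ξ J, Γ l ξ J = g J l (ξ J) := fun _ _ _ => rfl
  have key := stairR (d0 := K.act _ K.mat) (d1 := K.sg (cd B m E))
    (P := fun i => (cP B m E i).compLeft K.ι) c
    (fun a i j => K.Rw_mt (fun i => Cech (Dt a i)) j i)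
    (fun a i j => K.Rw_mt (fun i => Cech (Db a i)) j i)
    (fun a => bi_cech_mt (ft a)) (fun a => bi_cech_mt (fb a))
    (fun a i j => Rw_mono_mt (fun k => cech_mono (t2 a k)) j i)
    (fun a i j => Rw_mono_mt (fun k => cech_mono (b2 a k)) j i)
    (fun a => by
      rw [tot_Rw_swap_mt, tot_Rw_swap_mt, ← hd]
      exact T_sq cd_comp_cd hL hsq (h5' a))
    (-(m : ℤ)) 0
    (fun a i hi j => by
      refine le_bot_iff.1 fun x hx => funext fun b => ?_
      by_cases hb : (K.deg b : ℤ) = j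
      · have h1 := (mem_Rw_mt.1 hx).1 b hb
        rw [Finset.mem_Icc] at hi
        rw [cech_eq_bot _ _ (by omega)] at h1
        exact h1
      · exact (mem_Rw_mt.1 hx).2 b hb)
    (fun a i j x hx hx' => by
      have e1 : c • x = ∑ l, (c * z l) • (Γ l).compLeft K.ι x := by
        funext b J
        simp only [Finset.sum_apply, Pi.smul_apply, mul_smul]
        rw [← Finset.smul_sum]
        exact congrArg _ (hg1 J (x b J)).symm
      rw [e1]
      refine Submodule.sum_mem _ fun l _ => homotopy_mt hL (hz l)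
        (fun k => cech_mono (t3 a k)) (fun k => cech_mono (b3 a k))
        (fun k n hk => h5' a k k n hk hk) ?_ ?_
      · obtain ⟨h1, h2⟩ := mem_Rw_mt.1 hx
        refine mem_Rw_mt.2 ⟨fun b hb => ?_, fun b hb => ?_⟩
        · obtain ⟨h3, h4⟩ := mem_cech.1 (h1 b hb)
          refine mem_cech.2 ⟨fun J hJ => (hg2 J l a _ _ (h3 J hJ)).1, fun J hJ => ?_⟩
          change g J l (x b J) = 0
          rw [h4 J hJ, map_zero]
        · change Γ l (x b) = 0
          rw [h2 b hb, map_zero]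
      · have e2 : K.act _ K.mat ((Γ l).compLeft K.ι x) =
            (Γ l).compLeft K.ι (K.act _ K.mat x) := by
          funext b
          change _ = Γ l (K.act _ K.mat x b)
          rw [act_apply, act_apply, map_sum]
          refine Finset.sum_congr rfl fun b' _ => ?_
          rw [map_smul]
          rfl
        rw [e2]
        obtain ⟨h1, h2⟩ := mem_Rw_mt.1 hx'
        obtain ⟨h1', -⟩ := mem_Rw_mt.1 ((ft (a + 1)).map_act_mt j i ⟨x, hx, rfl⟩)
        refine mem_Rw_mt.2 ⟨fun b hb => ?_, fun b hb => ?_⟩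
        · obtain ⟨h3, h4⟩ := mem_cech.1 (h1 b hb)
          obtain ⟨h3', -⟩ := mem_cech.1 (h1' b hb)
          refine mem_cech.2 ⟨fun J hJ => (hg2 J l a _ _ (h3' J hJ)).2 (h3 J hJ), fun J hJ => ?_⟩
          change g J l (K.act _ K.mat x b J) = 0
          rw [h4 J hJ, map_zero]
        · change Γ l (K.act _ K.mat x b) = 0
          rw [h2 b hb, map_zero])
    (m + 1) (by push_cast; omega) n
  rw [tot_Rw_swap_mt, tot_Rw_swap_mt, tot_Rw_swap_mt, tot_Rw_swap_mt, ← hd] at key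
  exact key

end Vale.Agent.P202.MC
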