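import Vale.Agent.P202.MMC
import Vale.Agent.P202.MQR
import Vale.Agent.P202.MLen2

/-! Consequences of the interface. -/

namespace Vale.Agent.P202

open Polynomial
open scoped ENNReal

universe u

variable {p : ℕ} {A : Type u} [CommRing A] {σ : Type} [Fintype σ] {Xv : σ → A} {F : A[X]} {Δ : A}
  {𝓗 : Finset A[X]} {e q γ : ℕ} {ε : ℝ≥0∞} {B : Type u} [CommRing B] {μ : RLen B} {α : A →+* B}
  {w : Option σ → B} {ζ : Fin F.natDegree → B} {κ : B}

theorem mem_mtau {M : Type u} [AddCommGroup M] [Module B M] {I : Submodule B M} {x y : M}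
    (h : x ∈ I) (e : y = x) : y ∈ I := e ▸ h

theorem Iface.map_mtau (h : Iface p Xv F Δ 𝓗 e q γ ε B μ α w ζ κ) {I : Ideal B}
    (hI : (p : B) ^ γ ∈ I) : (F.map α).map (Ideal.Quotient.mk I) =
      (Lagrange.nodal Finset.univ fun i => ζ i ^ q).map (Ideal.Quotient.mk I) := by
  rw [← sub_eq_zero, ← Polynomial.map_sub]
  ext n
  rw [coeff_map, coeff_zero, Ideal.Quotient.eq_zero_iff_mem]
  exact (Ideal.span_singleton_le_iff_mem I).2 hI (h.split n)

theorem Iface.root_mtau (h : Iface p Xv F Δ 𝓗 e q γ ε B μ α w ζ κ) {I : Ideal B}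
    (hI : (p : B) ^ γ ∈ I) (i : Fin F.natDegree) :
    Ideal.Quotient.mk I (F.eval₂ α (ζ i ^ q)) = 0 := by
  have := congrArg (eval (Ideal.Quotient.mk I (ζ i ^ q))) (h.map_mtau hI)
  rw [eval_map_apply, eval_map_apply, 
    Lagrange.eval_nodal_at_node (v := fun i => ζ i ^ q) (Finset.mem_univ i), map_zero,
    eval_map] at this
  exact this

theorem Iface.der_mtau (h : Iface p Xv F Δ 𝓗 e q γ ε B μ α w ζ κ) {I : Ideal B}
    (hI : (p : B) ^ γ ∈ I) (i : Fin F.natDegree) :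
    Ideal.Quotient.mk I ((derivative F).eval₂ α (ζ i ^ q)) = Ideal.Quotient.mk I
      ((Lagrange.nodal (Finset.univ.erase i) fun i => ζ i ^ q).eval (ζ i ^ q)) := by
  have := congrArg (fun H => eval (Ideal.Quotient.mk I (ζ i ^ q)) (derivative H)) (h.map_mtau hI)
  simp only [derivative_map] at this
  rw [eval_map_apply, eval_map_apply,
    Lagrange.eval_nodal_derivative_eval_node_eq (v := fun i => ζ i ^ q) (Finset.mem_univ i),
    eval_map] at this
  exact this

theorem Iface.const_mtau (h : Iface p Xv F Δ 𝓗 e q γ ε B μ α w ζ κ) {a : ℕ} {u : A}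
    (hu : IsUnit u) (h0 : F.coeff 0 - p ^ a * u ∈ Ideal.span (Set.range Xv)) (ha : a < γ) :
    ∃ v : B, IsUnit v ∧
      (p : B) ^ a * v - ∏ i, ζ i ^ q ∈ Ideal.span (Set.range fun j => α (Xv j)) := by
  obtain ⟨c, hc⟩ := Ideal.mem_span_singleton'.1 (h.split 0)
  obtain ⟨k, rfl⟩ := Nat.exists_eq_add_of_lt ha
  obtain ⟨u', hu'⟩ := (hu.map α).exists_right_inv
  rw [coeff_sub, coeff_map, coeff_zero_eq_eval_zero (∏ i, _), eval_prod] at hc
  simp only [eval_sub, eval_X, eval_C, zero_sub, Finset.prod_neg] at hc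
  have h1 := Ideal.mem_map_of_mem α h0
  rw [Ideal.map_span, ← Set.range_comp, map_sub, map_mul, map_pow, map_natCast] at h1
  have hs : ((-1 : B) ^ (Finset.univ : Finset (Fin F.natDegree)).card) *
      (-1) ^ (Finset.univ : Finset (Fin F.natDegree)).card = 1 := by
    rw [← mul_pow]; simp
  generalize (-1 : B) ^ (Finset.univ : Finset (Fin F.natDegree)).card = s at hs hc
  refine ⟨s * (α u * (1 - p * (p ^ k * c * u'))),
    (IsUnit.of_mul_eq_one _ hs).mul ((hu.map α).mul (h.jac _)), ?_⟩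
  refine mem_mtau (Ideal.mul_mem_left _ (-s) h1) ?_
  linear_combination (-s * p ^ (a + k + 1) * c) * hu' - s * hc + (∏ i, ζ i ^ q) * hs

/-- The almost homomorphisms attached to the approximate roots. -/
theorem Iface.exists_tau (h : Iface p Xv F Δ 𝓗 e q γ ε B μ α w ζ κ) {T : Type u} [CommRing T]
    [Algebra A T] (θ : T) (hθ : aeval θ F = 0) (hker : ∀ H : A[X], aeval θ H = 0 → F ∣ H)
    (hgen : ∀ b : T, ∃ H ∈ Submodule.span A (𝓗 : Set A[X]), aeval θ H = Δ • b) {γ1 : ℕ}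
    (hγ : γ1 + 2 * e ≤ γ) (i : Fin F.natDegree) :
    ∃ τ : T → B, AH α θ (ζ i ^ q) κ (Ideal.span {(p : B) ^ γ1}) τ := by
  classical
  obtain ⟨k, hk⟩ := Nat.exists_eq_add_of_le hγ
  set π := Ideal.Quotient.mk (Ideal.span {(p : B) ^ γ}) with hπ
  let ev : A[X] →+* _ := π.comp (eval₂RingHom α (ζ i ^ q))
  have hF : ∀ H, aeval θ H = 0 → ev H = 0 := fun H hH => by
    obtain ⟨G, rfl⟩ := hker H hH
    rw [map_mul, show ev F = 0 from h.root_mtau (Ideal.mem_span_singleton_self _) i, zero_mul]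
  have hC : ∀ a, ev (C a) = π (α a) := fun a => by simp [ev]
  have hX : ev X = π (ζ i ^ q) := by simp [ev]
  have ex : ∀ b : T, ∃ t : B, (b = 0 → t = 0) ∧
      ∀ H, aeval θ H = Δ • b → π (α Δ) * π t = π κ * ev H := by
    intro b
    by_cases hb : b = 0
    · exact ⟨0, fun _ => rfl, fun H hH => by
        rw [hF H (by rw [hH, hb, smul_zero]), map_zero, mul_zero, mul_zero]⟩
    obtain ⟨H0, h1, h2⟩ := hgen b
    have h3 : ∃ t, π (α Δ) * π t = π κ * ev H0 := by
      clear h2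
      induction h1 using Submodule.span_induction with
      | mem H hH =>
        obtain ⟨x, y, hxy⟩ := Ideal.mem_span_pair.1 (h.div i H hH)
        refine ⟨x, ?_⟩
        have := congrArg π hxy
        rw [map_add, map_mul, map_mul, map_mul,
          Ideal.Quotient.eq_zero_iff_mem.2 (Ideal.mem_span_singleton_self _)] at this
        rw [mul_zero, add_zero, mul_comm] at this
        exact this
      | zero => exact ⟨0, by simp⟩
      | add x y _ _ hx hy =>
        obtain ⟨t, ht⟩ := hx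
        obtain ⟨t', ht'⟩ := hy
        exact ⟨t + t', by rw [map_add, map_add]; linear_combination ht + ht'⟩
      | smul a x _ hx =>
        obtain ⟨t, ht⟩ := hx
        exact ⟨α a * t, by
          rw [smul_eq_C_mul, map_mul, map_mul, hC]; linear_combination π (α a) * ht⟩
    obtain ⟨t, ht⟩ := h3
    refine ⟨t, fun z => absurd z hb, fun H hH => ?_⟩
    have := hF (H - H0) (by rw [map_sub, hH, h2, sub_self])
    rw [map_sub, sub_eq_zero] at this
    rw [this, ht]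
  choose τ τ0 hτ using ex
  choose H _ hH using hgen
  have le : ∀ {m n : ℕ} {z : B}, m ≤ n → z ∈ Ideal.span {(p : B) ^ n} →
      z ∈ Ideal.span {(p : B) ^ m} := fun hmn hz =>
    Ideal.span_singleton_le_span_singleton.2 (pow_dvd_pow _ hmn) hz
  have c1 : ∀ z, π (α Δ) * π z = 0 → z ∈ Ideal.span {(p : B) ^ γ1} := fun z hz => by
    rw [← map_mul, Ideal.Quotient.eq_zero_iff_mem] at hz
    exact h.colon _ _ (le (by omega) hz)
  have c2 : ∀ z, π (α Δ) * (π (α Δ) * π z) = 0 → z ∈ Ideal.span {(p : B) ^ γ1} := fun z hz => by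
    rw [← map_mul, ← map_mul, Ideal.Quotient.eq_zero_iff_mem] at hz
    exact h.colon _ _ (h.colon _ _ (le (by omega) hz))
  refine ⟨τ, τ0 0 rfl, c1 _ ?_, fun b b' => c1 _ ?_, fun a b => c1 _ ?_, fun b => c1 _ ?_,
    fun b b' => c2 _ ?_⟩
  · have := hτ 1 (C Δ) (by rw [aeval_C, Algebra.algebraMap_eq_smul_one])
    rw [hC] at this
    rw [map_sub]
    linear_combination this
  · have := hτ (b + b') (H b + H b') (by rw [map_add, hH, hH, smul_add])
    rw [map_add] at this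
    rw [map_sub, map_add]
    linear_combination this - hτ b _ (hH b) - hτ b' _ (hH b')
  · have := hτ (a • b) (C a * H b) (by rw [map_mul, aeval_C, hH, ← Algebra.smul_def, smul_comm])
    rw [map_mul, hC] at this
    rw [map_sub, map_mul]
    linear_combination this - π (α a) * hτ b _ (hH b)
  · have := hτ (θ * b) (X * H b) (by rw [map_mul, aeval_X, hH, mul_smul_comm])
    rw [map_mul, hX] at this
    rw [map_sub, map_mul]
    linear_combination this - π (ζ i ^ q) * hτ b _ (hH b)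
  · have := hF (H b * H b' - C Δ * H (b * b')) (by
      rw [map_sub, map_mul, map_mul, aeval_C, hH, hH, hH, ← Algebra.smul_def, smul_mul_smul_comm,
        smul_smul, sub_self])
    rw [map_sub, map_mul, map_mul, hC] at this
    rw [map_sub, map_mul, map_mul]
    linear_combination π (α Δ) * π (τ b') * hτ b _ (hH b) + π κ * ev (H b) * hτ b' _ (hH b') -
      π (α Δ) * π κ * hτ (b * b') _ (hH _) + π κ ^ 2 * this

theorem Iface.pow_mem (h : Iface p Xv F Δ 𝓗 e q γ ε B μ α w ζ κ) {a : ℕ} {u : A} (hu : IsUnit u)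
    (h0 : F.coeff 0 - p ^ a * u ∈ Ideal.span (Set.range Xv)) (ha : a < γ) (i : Fin F.natDegree) :
    (p : B) ^ a ∈ Ideal.span (insert (ζ i ^ q) (Set.range fun j => α (Xv j))) := by
  obtain ⟨v, hv, h1⟩ := h.const_mtau hu h0 ha
  rw [← Ideal.mul_unit_mem_iff_mem _ hv, ← sub_add_cancel (_ * v) (∏ i, ζ i ^ q)]
  exact add_mem (Ideal.span_mono (Set.subset_insert _ _) h1) (Ideal.mem_of_dvd _
    (Finset.dvd_prod_of_mem _ (Finset.mem_univ i)) (Ideal.subset_span (Set.mem_insert _ _)))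

theorem permReg_none_mtau {x : Option σ → B} (hx : PermReg x) (z : B)
    (hz : x none * z ∈ Ideal.span (Set.range fun j => x (some j))) :
    z ∈ Ideal.span (Set.range fun j => x (some j)) := by
  have := hx (Set.range some) none (by simp) z
  rw [← Set.range_comp] at this
  exact this hz

theorem Iface.qreg (h : Iface p Xv F Δ 𝓗 e q γ ε B μ α w ζ κ) (hq : 1 ≤ q) {a : ℕ} {u : A}
    (hu : IsUnit u) (h0 : F.coeff 0 - p ^ a * u ∈ Ideal.span (Set.range Xv)) (ha : a < γ)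
    (i : Fin F.natDegree) {n : ℕ} (E : Fin n ≃ Option σ) :
    QReg fun k => (E k).elim (ζ i) fun j => w (some j) := by
  refine qreg_of_permReg (h.reg.comp (Option.some_injective σ)) (fun z hz => ?_) E
  obtain ⟨v, hv, h1⟩ := h.const_mtau hu h0 ha
  have h2 : Ideal.span (Set.range fun j => α (Xv j)) ≤
      Ideal.span (Set.range fun j => w (some j)) := by
    rw [Ideal.span_le]
    rintro _ ⟨j, rfl⟩
    simp only [← h.wX j]
    exact Ideal.pow_mem_of_mem _ (Ideal.subset_span (Set.mem_range_self j)) _ hq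
  have h3 : (∏ i, ζ i ^ q) * z ∈ Ideal.span (Set.range fun j => w (some j)) :=
    Ideal.mem_of_dvd _ (mul_dvd_mul_right ((dvd_pow_self _ (by omega)).trans
      (Finset.dvd_prod_of_mem (fun i => ζ i ^ q) (Finset.mem_univ i))) z) hz
  have h4 : w none ^ (q * a) * (v * z) ∈ Ideal.span (Set.range fun j => w (some j)) := by
    refine mem_mtau (add_mem (Ideal.mul_mem_right z _ (h2 h1)) h3) ?_
    rw [pow_mul, h.w0]; ring
  have h5 : ∀ (k : ℕ) (y : B), w none ^ k * y ∈ Ideal.span (Set.range fun j => w (some j)) →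
      y ∈ Ideal.span (Set.range fun j => w (some j)) := by
    intro k
    induction k with
    | zero => intro y hy; rwa [pow_zero, one_mul] at hy
    | succ k ih =>
      intro y hy
      rw [pow_succ', mul_assoc] at hy
      exact ih y (permReg_none_mtau h.reg _ hy)
  exact (Ideal.unit_mul_mem_iff_mem _ hv).1 (h5 _ _ h4)

theorem q_pows_mtau (μ : RLen B) (I : Ideal B) (y : B) (x : σ → B) (n : ℕ) :
    μ.q (I ⊔ Ideal.span (insert (y ^ n) (Set.range fun j => x j ^ n))) ≤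
      ((n ^ (Fintype.card σ + 1) : ℕ) : ℝ≥0∞) * μ.q (I ⊔ Ideal.span (insert y (Set.range x))) := by
  have := μ.q_pows_le I (fun o : Option σ => o.elim y x) fun _ => n
  rw [Option.range_eq, Option.range_eq, Finset.prod_const, Finset.card_univ,
    Fintype.card_option] at this
  exact this

/-- Ideals containing a power of `p` and powers of the variables are good. -/
theorem Iface.nu_q (h : Iface p Xv F Δ 𝓗 e q γ 0 B μ α w ζ κ) {I : Ideal B} {n : ℕ}
    (h1 : (p : B) ^ n ∈ I) (h2 : ∀ j, α (Xv j) ^ n ∈ I) : (μ.nu κ).q I = 0 := by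
  have h3 : Ideal.span (insert ((p : B) ^ n) (Set.range fun j => α (Xv j) ^ n)) ≤ I := by
    rw [Ideal.span_le]
    rintro _ (rfl | ⟨j, rfl⟩)
    · exact h1
    · exact h2 j
  refine μ.nu_q κ (ne_top_of_le_ne_top ?_ ((μ.q_anti (sup_le bot_le h3)).trans
    (q_pows_mtau μ ⊥ _ _ n))) (le_antisymm ?_ zero_le)
  · rw [bot_sup_eq, h.one, mul_one]
    exact ENNReal.natCast_ne_top _
  · refine (μ.q_anti (sup_le le_sup_right (h3.trans le_sup_left))).trans
      ((q_pows_mtau μ _ _ _ n).trans ?_)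
    rw [← Ideal.span_insert, le_antisymm h.small zero_le, mul_zero]

theorem Iface.lower (h : Iface p Xv F Δ 𝓗 e q γ ε B μ α w ζ κ) (hq : 1 ≤ q) {a : ℕ} {u : A}
    (hu : IsUnit u) (h0 : F.coeff 0 - p ^ a * u ∈ Ideal.span (Set.range Xv)) (ha : a < γ) :
    (a : ℝ≥0∞) ≤ ((q ^ (Fintype.card σ + 1) : ℕ) : ℝ≥0∞) *
      ∑ i, μ.q (Ideal.span (insert (ζ i) (Set.range fun j => w (some j)))) := by
  obtain ⟨v, hv, h1⟩ := h.const_mtau hu h0 ha
  have h2 := μ.q_pow_eq (Ideal.span (Set.range fun j => α (Xv j))) p (fun z hz => by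
    have := permReg_none_mtau (h.reg.pow (fun _ => q) fun _ => hq) z
    simp only [h.w0, h.wX] at this
    exact this hz) a
  rw [sup_comm _ (Ideal.span {(p : B)}), ← Ideal.span_insert, h.one, mul_one] at h2
  rw [← h2, Finset.mul_sum]
  refine (μ.q_anti (I := _ ⊔ Ideal.span {∏ i, ζ i ^ q}) (sup_le le_sup_left ?_)).trans
    ((μ.q_prod_le _ _ _).trans (Finset.sum_le_sum fun i _ => ?_))
  · rw [Ideal.span_singleton_le_iff_mem, ← sub_sub_cancel ((p : B) ^ a * v) (∏ i, ζ i ^ q)]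
    exact sub_mem (Ideal.mem_sup_right (Ideal.mul_mem_right _ _ (Ideal.mem_span_singleton_self _)))
      (Ideal.mem_sup_left h1)
  · have := q_pows_mtau μ ⊥ (ζ i) (fun j => w (some j)) q
    simp only [bot_sup_eq, h.wX] at this
    rwa [sup_comm, ← Ideal.span_insert]

section avg

variable {T : Type u} [CommRing T] [Algebra A T] {θ : T} {r : B} {𝔡 : Ideal B}

theorem len_mtau (J : Ideal T) :
    Module.length A (T ⧸ J.restrictScalars A) = Module.length A (T ⧸ J) :=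
  (Submodule.Quotient.restrictScalarsEquiv A J).length_eq

theorem len_le_mtau {I J : Ideal T} (h : I ≤ J) :
    Module.length A (T ⧸ J) ≤ Module.length A (T ⧸ I) :=
  Module.length_le_of_surjective ((Submodule.factor h).restrictScalars A) fun x => by
    obtain ⟨y, rfl⟩ := Submodule.mkQ_surjective J x
    exact ⟨I.mkQ y, rfl⟩

theorem small_mtau [IsLocalRing A] (one : μ.q ((IsLocalRing.maximalIdeal A).map α) = 1)
    {τ : T → B} (hτ : AH α θ r κ 𝔡 τ) {𝔞 : Ideal T} (hfin : Module.length A (T ⧸ 𝔞) ≠ ⊤)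
    {𝔮 : Ideal B} (hd : 𝔡 ≤ 𝔮) (h2 : ∀ b ∈ 𝔞, κ * τ b ∈ 𝔮) (h3 : (μ.nu κ).q 𝔮 = 0) (Γ : A) :
    μ.q (𝔮 ⊔ Ideal.span {κ ^ 2 * α Γ}) ≤
      ((Module.length A (T ⧸ (𝔞 ⊔ Ideal.span {algebraMap A T Γ})) : ℕ∞) : ℝ≥0∞) := by
  have hfin' : Module.length A (T ⧸ (𝔞 ⊔ Ideal.span {algebraMap A T Γ})) ≠ ⊤ :=
    ne_top_of_le_ne_top hfin (len_le_mtau le_sup_left)
  have i1 : 𝔮 ≤ 𝔮 ⊔ Ideal.span {κ ^ 2 * α Γ} := le_sup_left
  have i2 : κ ^ 2 * α Γ ∈ 𝔮 ⊔ Ideal.span {κ ^ 2 * α Γ} :=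
    Ideal.mem_sup_right (Ideal.mem_span_singleton_self _)
  generalize 𝔮 ⊔ Ideal.span {κ ^ 2 * α Γ} = I at i1 i2 ⊢
  have hd' : ∀ {z}, z ∈ 𝔡 → κ ^ 2 * z ∈ I := fun hz => i1 (Ideal.mul_mem_left _ _ (hd hz))
  have k1 := rr_span_image_le μ α I (fun b => κ ^ 2 * τ b)
    (fun x y => mem_mtau (hd' (hτ.add x y)) (by ring))
    (fun a x => mem_mtau (hd' (hτ.smul a x)) (by rw [smul_eq_mul]; ring))
    ((𝔞 ⊔ Ideal.span {algebraMap A T Γ}).restrictScalars A) (fun x hx => by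
      obtain ⟨y, hy, z, hz, rfl⟩ := Submodule.mem_sup.1 hx
      obtain ⟨c, rfl⟩ := Ideal.mem_span_singleton'.1 hz
      rw [mul_comm c, ← Algebra.smul_def]
      have a1 := I.add_mem (hd' (hτ.add y (Γ • c))) (hd' (hτ.smul Γ c))
      have a2 := I.add_mem (i1 (Ideal.mul_mem_left _ κ (h2 y hy))) (I.mul_mem_right (τ c) i2)
      exact mem_mtau (I.add_mem a1 a2) (by ring)) (by rwa [len_mtau])
  rw [len_mtau, one, mul_one] at k1
  have k2 : μ.q (I ⊔ Ideal.span {κ ^ 3}) = 0 := μ.q_sup_pow_eq_zero κ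
    (le_antisymm (((μ.nu κ).q_anti i1).trans h3.le) zero_le) 3
  have k3 : μ.q (I ⊔ Submodule.span B (Set.range fun b => κ ^ 2 * τ b)) = 0 := by
    refine le_antisymm ((μ.q_anti (sup_le le_sup_left ?_)).trans k2.le) zero_le
    rw [Ideal.span_singleton_le_iff_mem]
    exact mem_mtau (sub_mem (Ideal.mem_sup_right (Submodule.subset_span ⟨1, rfl⟩))
      (Ideal.mem_sup_left (hd' hτ.one))) (by ring)
  rw [RLen.q, ← rr_top] at k3 ⊢
  rw [rr_add μ le_sup_left le_top, k3, add_zero, rr_sup]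
  exact k1

theorem eval_mtau {ι : Type} {r : ι → B} {τ : ι → T → B} (hτ : ∀ i, AH α θ (r i) κ 𝔡 (τ i))
    {𝔮 : ι → Ideal B} (hd : ∀ i, 𝔡 ≤ 𝔮 i) (H : B[X]) :
    (fun i => κ ^ 2 * H.eval (r i)) ∈ Submodule.pi Set.univ 𝔮 ⊔
      Submodule.span B (Set.range fun (b : T) (i : ι) => κ * τ i b) := by
  induction H using Polynomial.induction_on' with
  | add x y hx hy => exact mem_mtau (add_mem hx hy) (by ext i; simp [mul_add])
  | monomial n c =>
    have a2 : (fun i => κ ^ 2 * r i ^ n - κ * τ i (θ ^ n)) ∈ Submodule.pi Set.univ 𝔮 := by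
      intro i _
      have b1 := hd i ((hτ i).aeval (X ^ n) 1)
      rw [map_pow, aeval_X, mul_one, eval₂_X_pow] at b1
      exact mem_mtau (neg_mem (Ideal.mul_mem_left _ κ (add_mem b1
        (Ideal.mul_mem_left _ (r i ^ n) (hd i (hτ i).one))))) (by ring)
    refine mem_mtau (Submodule.smul_mem _ c (Submodule.add_mem_sup a2
      (Submodule.subset_span ⟨θ ^ n, rfl⟩))) ?_
    ext i
    simp only [eval_monomial, Pi.smul_apply, Pi.add_apply, smul_eq_mul]
    ring

end avg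

theorem Iface.pi_mtau (h : Iface p Xv F Δ 𝓗 e q γ ε B μ α w ζ κ) {𝔮 : Fin F.natDegree → Ideal B}
    (hp : ∀ i, (p : B) ^ γ ∈ 𝔮 i) {Γ : A} (hΓ : C Γ ∈ Ideal.span {F, derivative F})
    {V : Submodule B (Fin F.natDegree → B)} (k2 : ∀ H : B[X],
      (fun i => κ ^ 2 * H.eval (ζ i ^ q)) ∈ Submodule.pi Set.univ 𝔮 ⊔ V) :
    Submodule.pi Set.univ (fun i => 𝔮 i ⊔ Ideal.span {κ ^ 2 * α Γ}) ≤
      Submodule.pi Set.univ 𝔮 ⊔ V := by
  intro x hx
  rw [← Finset.univ_sum_single x]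
  refine sum_mem fun j _ => ?_
  obtain ⟨y, hy, z, hz, hx'⟩ := Submodule.mem_sup.1 (hx j trivial)
  obtain ⟨c, rfl⟩ := Ideal.mem_span_singleton'.1 hz
  obtain ⟨G1, G2, hG⟩ := Ideal.mem_span_pair.1 hΓ
  have a1 := k2 (C (c * G2.eval₂ α (ζ j ^ q)) *
    Lagrange.nodal (Finset.univ.erase j) fun i => ζ i ^ q)
  refine mem_mtau (add_mem (Submodule.mem_sup_left fun i _ => ?_) a1) (sub_add_cancel _ _).symm
  rw [Pi.sub_apply, eval_mul, eval_C]
  by_cases hij : i = j
  · subst hij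
    have a2 := congrArg (fun H => Ideal.Quotient.mk (𝔮 i) (eval₂ α (ζ i ^ q) H)) hG
    simp only [eval₂_add, eval₂_mul, eval₂_C, map_add, map_mul, h.root_mtau (hp i) i,
      h.der_mtau (hp i) i] at a2
    rw [Pi.single_eq_same, ← hx']
    refine Ideal.Quotient.eq_zero_iff_mem.1 ?_
    simp only [map_sub, map_add, map_mul, Ideal.Quotient.eq_zero_iff_mem.2 hy, ← a2]
    ring
  · rw [Pi.single_eq_of_ne hij,
      Lagrange.eval_nodal_at_node (v := fun i => ζ i ^ q) (i := i) (by simp [hij])]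
    simp

/-- The averaging inequality. -/
theorem Iface.avg [IsLocalRing A] (h : Iface p Xv F Δ 𝓗 e q γ 0 B μ α w ζ κ)
    (hm : IsLocalRing.maximalIdeal A = Ideal.span (insert (p : A) (Set.range Xv)))
    {T : Type u} [CommRing T] [Algebra A T] (θ : T) {γ1 : ℕ} (hγ : γ1 ≤ γ)
    (τ : Fin F.natDegree → T → B)
    (hτ : ∀ i, AH α θ (ζ i ^ q) κ (Ideal.span {(p : B) ^ γ1}) (τ i)) (𝔞 : Ideal T)
    (hfin : Module.length A (T ⧸ 𝔞) ≠ ⊤) (𝔮 : Fin F.natDegree → Ideal B)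
    (h1 : ∀ i, (p : B) ^ γ1 ∈ 𝔮 i) (h2 : ∀ i, ∀ b ∈ 𝔞, κ * τ i b ∈ 𝔮 i)
    (h3 : ∀ i, (μ.nu κ).q (𝔮 i) = 0) {Γ : A} (hΓ : C Γ ∈ Ideal.span {F, derivative F}) :
    ∑ i, μ.q (𝔮 i) ≤ ((Module.length A (T ⧸ 𝔞) : ℕ∞) : ℝ≥0∞) + F.natDegree *
      ((Module.length A (T ⧸ (𝔞 ⊔ Ideal.span {algebraMap A T Γ})) : ℕ∞) : ℝ≥0∞) := by
  have one : μ.q ((IsLocalRing.maximalIdeal A).map α) = 1 := by
    rw [hm, Ideal.map_span, Set.image_insert_eq, ← Set.range_comp, map_natCast]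
    exact h.one
  have hd : ∀ i, Ideal.span {(p : B) ^ γ1} ≤ 𝔮 i := fun i =>
    (Ideal.span_singleton_le_iff_mem _).2 (h1 i)
  have k3 := h.pi_mtau (fun i => Ideal.mem_of_dvd _ (pow_dvd_pow _ hγ) (h1 i)) hΓ
    (eval_mtau hτ hd)
  have k1 := rr_span_image_le μ α (Submodule.pi Set.univ 𝔮) (fun b i => κ * τ i b)
    (fun x y i _ => mem_mtau (Ideal.mul_mem_left _ κ (hd i ((hτ i).add x y))) (by
      simp only [Pi.sub_apply, Pi.add_apply]; ring))
    (fun a x i _ => mem_mtau (Ideal.mul_mem_left _ κ (hd i ((hτ i).smul a x))) (by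
      simp only [Pi.sub_apply, Pi.smul_apply, smul_eq_mul]; ring))
    (𝔞.restrictScalars A) (fun x hx i _ => h2 i x hx) (by rwa [len_mtau])
  rw [len_mtau, one, mul_one, ← rr_sup] at k1
  have k4 : ∀ J : Fin F.natDegree → Ideal B,
      ∑ i, μ.q (J i) = rr μ (Submodule.pi Set.univ J) ⊤ := fun J => by
    rw [← Submodule.pi_top Set.univ, rr_pi]
    simp only [rr_top]
  rw [k4, rr_add μ le_sup_left le_top]
  refine add_le_add k1 ((rr_anti_left μ k3 ⊤).trans ?_)
  rw [← k4]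
  refine (Finset.sum_le_card_nsmul _ _ _ fun i _ =>
    small_mtau one (hτ i) hfin (hd i) (h2 i) (h3 i) Γ).trans_eq ?_
  rw [Finset.card_univ, Fintype.card_fin, nsmul_eq_mul]

end Vale.Agent.P202
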