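import Vale.Agent.P202.MFinal

/-! Lech's conjecture for rings in two universes. -/

namespace Vale.Agent.P202

open IsLocalRing Filter Topology

universe u v

theorem length_pow_equiv {A : Type u} {B : Type v} [CommRing A] [IsLocalRing A] [CommRing B]
    [IsLocalRing B] (e : A ≃+* B) (n : ℕ) :
    Module.length A (A ⧸ maximalIdeal A ^ n) = Module.length B (B ⧸ maximalIdeal B ^ n) := by
  let : Algebra A B := e.toRingHom.toAlgebra
  have h1 : (maximalIdeal A).map e = maximalIdeal B := map_ringEquiv_maximalIdeal e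
  have h2 : maximalIdeal B ^ n = (maximalIdeal A ^ n).map (e : A →+* B) := by
    rw [Ideal.map_pow, ← h1]
    rfl
  let e' : (A ⧸ maximalIdeal A ^ n) ≃ₐ[A] (B ⧸ maximalIdeal B ^ n) :=
    AlgEquiv.ofRingEquiv (f := Ideal.quotientEquiv _ _ e h2) fun _ => rfl
  rw [e'.toLinearEquiv.length_eq]
  exact Module.length_eq_of_surjective (R := B) (S := A) e.surjective

theorem lech_univ (R : Type u) (S : Type v)
    [CommRing R] [IsLocalRing R] [IsNoetherianRing R]
    [CommRing S] [IsLocalRing S] [IsNoetherianRing S]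
    [Algebra R S] [IsLocalHom (algebraMap R S)] [Module.Flat R S]
    (d D : ℕ) (hd : ringKrullDim R = d) (hD : ringKrullDim S = D) :
    (∀ N : ℕ, Module.length R (R ⧸ maximalIdeal R ^ N) ≠ ⊤) ∧
    (∀ N : ℕ, Module.length S (S ⧸ maximalIdeal S ^ N) ≠ ⊤) ∧
    ∃ eR eS : ℝ,
      Tendsto (fun N : ℕ => (d.factorial : ℝ) *
        ((Module.length R (R ⧸ maximalIdeal R ^ N)).toNat : ℝ) / (N : ℝ) ^ d) atTop (𝓝 eR) ∧
      Tendsto (fun N : ℕ => (D.factorial : ℝ) *
        ((Module.length S (S ⧸ maximalIdeal S ^ N)).toNat : ℝ) / (N : ℝ) ^ D) atTop (𝓝 eS) ∧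
      eR ≤ eS := by
  let eR : ULift.{v} R ≃+* R := ULift.ringEquiv
  let eS : ULift.{u} S ≃+* S := ULift.ringEquiv
  have : IsLocalRing (ULift.{v} R) := eR.symm.isLocalRing
  have : IsLocalRing (ULift.{u} S) := eS.symm.isLocalRing
  have : IsNoetherianRing (ULift.{v} R) := isNoetherianRing_of_ringEquiv R eR.symm
  have : IsNoetherianRing (ULift.{u} S) := isNoetherianRing_of_ringEquiv S eS.symm
  let f : ULift.{v} R →+* ULift.{u} S :=
    (eS.symm : S →+* ULift.{u} S).comp ((algebraMap R S).comp (eR : ULift.{v} R →+* R))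
  have hf : f.Flat := RingHom.Flat.comp (RingHom.Flat.comp (RingHom.Flat.of_bijective eR.bijective)
    (RingHom.flat_algebraMap_iff.2 inferInstance)) (RingHom.Flat.of_bijective eS.symm.bijective)
  have hl : IsLocalHom f := by
    have := IsLocalHom.of_surjective (eR : ULift.{v} R →+* R) eR.surjective
    have := IsLocalHom.of_surjective (eS.symm : S →+* ULift.{u} S) eS.symm.surjective
    infer_instance
  have hd' : ringKrullDim (ULift.{v} R) = d := (ringKrullDim_eq_of_ringEquiv eR).trans hd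
  have hD' : ringKrullDim (ULift.{u} S) = D := (ringKrullDim_eq_of_ringEquiv eS).trans hD
  obtain ⟨e1, he1⟩ := exists_isMult R hd
  obtain ⟨e2, he2⟩ := exists_isMult S hD
  refine ⟨length_quot_pow_ne_top (t := 1) (by simp), length_quot_pow_ne_top (t := 1) (by simp),
    e1, e2, he1, he2, ?_⟩
  refine @lech_all (ULift.{v} R) (ULift.{u} S) _ _ _ _ _ _ f.toAlgebra hl hf d D e1 e2 hd' hD' ?_ ?_
  · refine he1.congr fun n => ?_
    rw [HS, HS, length_pow_equiv eR]
  · refine he2.congr fun n => ?_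
    rw [HS, HS, length_pow_equiv eS]

end Vale.Agent.P202
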