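import Vale.Agent.P202.MQR

/-! Basic properties of the untilt. -/

namespace Vale.Agent.P202

universe u

variable {p : ℕ} [Fact p.Prime] {P : Type u} [CommRing P]

theorem shp_apply_unt (t x : P) :
    shp p t x = Ideal.Quotient.mk _ (WittVector.teichmuller p x) := rfl

theorem shp_self (t : P) : shp p t t = p := by
  rw [shp_apply_unt, ← map_natCast (Ideal.Quotient.mk _) p, eq_comm, Ideal.Quotient.eq]
  exact Ideal.subset_span rfl

theorem shp_zero (t : P) : shp p t 0 = 0 := by
  rw [shp_apply_unt, WittVector.teichmuller_zero, map_zero]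

theorem Unt.map_mk {P' : Type u} [CommRing P'] (f : P →+* P') {t : P} {t' : P'} (h : f t = t')
    (x : WittVector p P) :
    Unt.map p f h (Ideal.Quotient.mk _ x) = Ideal.Quotient.mk _ (WittVector.map f x) :=
  Ideal.quotientMap_mk

theorem Unt.map_shp {P' : Type u} [CommRing P'] (f : P →+* P') {t : P} {t' : P'} (h : f t = t')
    (x : P) : Unt.map p f h (shp p t x) = shp p t' (f x) := by
  rw [shp_apply_unt, Unt.map_mk, WittVector.map_teichmuller, shp_apply_unt]

section complete

variable {A : Type u} [CommRing A]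

/-- Elementwise form of completeness of `A / I`. -/
def CplU (π : A) (I : Ideal A) : Prop :=
  (∀ z, (∀ n : ℕ, z ∈ I ⊔ Ideal.span {π ^ n}) → z ∈ I) ∧
    ∀ f : ℕ → A, (∀ n, f n - f (n + 1) ∈ I ⊔ Ideal.span {π ^ n}) →
      ∃ L, ∀ n, f n - L ∈ I ⊔ Ideal.span {π ^ n}

theorem mem_sup_single_unt {I : Ideal A} {a z : A} :
    z ∈ I ⊔ Ideal.span {a} ↔ ∃ d, z - a * d ∈ I := by
  rw [Submodule.mem_sup]
  constructor
  · rintro ⟨y, hy, w, hw, rfl⟩
    obtain ⟨d, rfl⟩ := Ideal.mem_span_singleton'.1 hw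
    exact ⟨d, by rw [mul_comm a d, add_sub_cancel_right]; exact hy⟩
  · rintro ⟨d, hd⟩
    exact ⟨_, hd, a * d, Ideal.mul_mem_right _ _ (Ideal.subset_span rfl), sub_add_cancel _ _⟩

theorem mk_mem_smul_unt (I J : Ideal A) (z : A) :
    Ideal.Quotient.mk I z ∈ (J • ⊤ : Submodule A (A ⧸ I)) ↔ z ∈ I ⊔ J := by
  have e : (J • ⊤ : Submodule A (A ⧸ I)) = Submodule.map (Submodule.mkQ I) J := by
    rw [← Submodule.range_mkQ I, LinearMap.range_eq_map, ← Submodule.map_smul'', smul_eq_mul,
      Ideal.mul_top]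
  rw [e, ← Submodule.comap_map_mkQ]
  rfl

theorem cauchy_unt {π : A} {I : Ideal A} {f : ℕ → A}
    (h : ∀ n, f n - f (n + 1) ∈ I ⊔ Ideal.span {π ^ n}) {m n : ℕ} (hmn : m ≤ n) :
    f m - f n ∈ I ⊔ Ideal.span {π ^ m} := by
  induction n, hmn using Nat.le_induction with
  | base => rw [sub_self]; exact zero_mem _
  | succ n hmn ih =>
    have e : f m - f (n + 1) = (f m - f n) + (f n - f (n + 1)) := by ring
    rw [e]
    refine add_mem ih (sup_le_sup_left ?_ I (h n))
    exact Ideal.span_singleton_le_span_singleton.2 (pow_dvd_pow π hmn)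

theorem cplU_iff (π : A) (I : Ideal A) :
    IsAdicComplete (Ideal.span {π}) (A ⧸ I) ↔ CplU π I := by
  have key : ∀ (a b : A) (n : ℕ), (Ideal.Quotient.mk I a ≡ Ideal.Quotient.mk I b
      [SMOD (Ideal.span {π} ^ n • ⊤ : Submodule A (A ⧸ I))]) ↔
        a - b ∈ I ⊔ Ideal.span {π ^ n} := by
    intro a b n
    rw [SModEq.sub_mem, ← map_sub, mk_mem_smul_unt, Ideal.span_singleton_pow]
  constructor
  · intro h
    refine ⟨fun z hz => ?_, fun f hf => ?_⟩
    · rw [← Ideal.Quotient.eq_zero_iff_mem]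
      refine h.toIsHausdorff.haus _ fun n => ?_
      rw [← map_zero (Ideal.Quotient.mk I), key, sub_zero]
      exact hz n
    · obtain ⟨L, hL⟩ := h.toIsPrecomplete.prec (f := fun n => Ideal.Quotient.mk I (f n))
        fun {m n} hmn => (key _ _ _).2 (cauchy_unt hf hmn)
      obtain ⟨L, rfl⟩ := Ideal.Quotient.mk_surjective L
      exact ⟨L, fun n => (key _ _ _).1 (hL n)⟩
  · intro h
    refine { haus' := fun z hz => ?_, prec' := fun f hf => ?_ }
    · obtain ⟨z, rfl⟩ := Ideal.Quotient.mk_surjective z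
      rw [Ideal.Quotient.eq_zero_iff_mem]
      refine h.1 z fun n => ?_
      have := hz n
      rwa [← map_zero (Ideal.Quotient.mk I), key, sub_zero] at this
    · choose g hg using fun n => Ideal.Quotient.mk_surjective (f n)
      obtain ⟨L, hL⟩ := h.2 g fun n => (key _ _ _).1 (by
        rw [hg, hg]
        exact hf (Nat.le_succ n))
      exact ⟨Ideal.Quotient.mk I L, fun n => by rw [← hg]; exact (key _ _ _).2 (hL n)⟩

theorem cplU_bot (π : A) (h : IsAdicComplete (Ideal.span {π}) A) : CplU π ⊥ := by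
  have key : ∀ (a b : A) (n : ℕ), (a ≡ b [SMOD (Ideal.span {π} ^ n • ⊤ : Submodule A A)]) ↔
      a - b ∈ ⊥ ⊔ Ideal.span {π ^ n} := by
    intro a b n
    rw [SModEq.sub_mem, smul_eq_mul, Ideal.mul_top, Ideal.span_singleton_pow, bot_sup_eq]
  refine ⟨fun z hz => ?_, fun f hf => ?_⟩
  · rw [Ideal.mem_bot]
    refine h.toIsHausdorff.haus _ fun n => ?_
    rw [key, sub_zero]
    exact hz n
  · obtain ⟨L, hL⟩ := h.toIsPrecomplete.prec (f := f)
      fun {m n} hmn => (key _ _ _).2 (cauchy_unt hf hmn)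
    exact ⟨L, fun n => (key _ _ _).1 (hL n)⟩

theorem pow_reg_unt {π : A} {I : Ideal A} (h1 : ∀ z, π * z ∈ I → z ∈ I) (n : ℕ) :
    ∀ z, π ^ n * z ∈ I → z ∈ I := by
  induction n with
  | zero => intro z hz; simpa using hz
  | succ n ih =>
    intro z hz
    rw [pow_succ, mul_assoc] at hz
    exact h1 z (ih _ hz)

theorem reg_pow_unt {π x : A} {I : Ideal A} (h1 : ∀ z, π * z ∈ I → z ∈ I)
    (h3 : ∀ z, x * z ∈ I ⊔ Ideal.span {π} → z ∈ I ⊔ Ideal.span {π}) (n : ℕ) :
    ∀ z, x * z ∈ I ⊔ Ideal.span {π ^ n} → z ∈ I ⊔ Ideal.span {π ^ n} := by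
  induction n with
  | zero => intro z _; simp
  | succ n ih =>
    intro z hz
    have hle : I ⊔ Ideal.span {π ^ (n + 1)} ≤ I ⊔ Ideal.span {π ^ n} :=
      sup_le_sup_left (Ideal.span_singleton_le_span_singleton.2 (pow_dvd_pow π n.le_succ)) I
    obtain ⟨e, he⟩ := mem_sup_single_unt.1 (ih z (hle hz))
    obtain ⟨d, hd⟩ := mem_sup_single_unt.1 hz
    have h4 : x * e - π * d ∈ I := by
      apply pow_reg_unt h1 n
      have : π ^ n * (x * e - π * d) = (x * z - π ^ (n + 1) * d) - x * (z - π ^ n * e) := by ring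
      rw [this]
      exact sub_mem hd (I.mul_mem_left _ he)
    obtain ⟨e', he'⟩ := mem_sup_single_unt.1 (h3 e (mem_sup_single_unt.2 ⟨d, h4⟩))
    refine mem_sup_single_unt.2 ⟨e', ?_⟩
    have : z - π ^ (n + 1) * e' = (z - π ^ n * e) + π ^ n * (e - π * e') := by ring
    rw [this]
    exact add_mem he (I.mul_mem_left _ he')

theorem lemmaL_unt {π x : A} {I : Ideal A}
    (h1 : ∀ z, π * z ∈ I → z ∈ I) (h2 : CplU π I)
    (h3 : ∀ z, x * z ∈ I ⊔ Ideal.span {π} → z ∈ I ⊔ Ideal.span {π}) :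
    (∀ z, x * z ∈ I → z ∈ I) ∧
      (∀ z, π * z ∈ I ⊔ Ideal.span {x} → z ∈ I ⊔ Ideal.span {x}) ∧
      CplU π (I ⊔ Ideal.span {x}) := by
  refine ⟨fun z hz => h2.1 z fun n => reg_pow_unt h1 h3 n z (Ideal.mem_sup_left hz),
    fun z hz => ?_, fun z hz => ?_, fun f hf => ?_⟩
  · obtain ⟨c, hc⟩ := mem_sup_single_unt.1 hz
    have h4 : x * c - π * z ∈ I := by
      rw [← neg_sub]
      exact neg_mem hc
    obtain ⟨c', hc'⟩ := mem_sup_single_unt.1 (h3 c (mem_sup_single_unt.2 ⟨z, h4⟩))
    refine mem_sup_single_unt.2 ⟨c', h1 _ ?_⟩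
    have : π * (z - x * c') = (π * z - x * c) + x * (c - π * c') := by ring
    rw [this]
    exact add_mem hc (I.mul_mem_left _ hc')
  · have hz' : ∀ n : ℕ, ∃ c, z - x * c ∈ I ⊔ Ideal.span {π ^ n} := by
      intro n
      have := hz n
      rw [sup_right_comm] at this
      exact mem_sup_single_unt.1 this
    choose c hc using hz'
    obtain ⟨L, hL⟩ := h2.2 c fun n => by
      apply reg_pow_unt h1 h3 n
      have e : x * (c n - c (n + 1)) = (z - x * c (n + 1)) - (z - x * c n) := by ring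
      rw [e]
      refine sub_mem (sup_le_sup_left ?_ I (hc (n + 1))) (hc n)
      exact Ideal.span_singleton_le_span_singleton.2 (pow_dvd_pow π n.le_succ)
    refine mem_sup_single_unt.2 ⟨L, h2.1 _ fun n => ?_⟩
    have e : z - x * L = (z - x * c n) + x * (c n - L) := by ring
    rw [e]
    exact add_mem (hc n) (Ideal.mul_mem_left _ _ (hL n))
  · choose d hd using fun n => mem_sup_single_unt.1 (hf n)
    let g : ℕ → A := fun n => f 0 - ∑ k ∈ Finset.range n, π ^ k * d k
    have hg : ∀ n, f n - g n ∈ I ⊔ Ideal.span {x} := by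
      intro n
      induction n with
      | zero => simp [g]
      | succ n ih =>
        have e : f (n + 1) - g (n + 1) = (f n - g n) - (f n - f (n + 1) - π ^ n * d n) := by
          simp only [g, Finset.sum_range_succ]
          ring
        rw [e]
        exact sub_mem ih (hd n)
    obtain ⟨L, hL⟩ := h2.2 g fun n => mem_sup_single_unt.2 ⟨d n, by
      have e : g n - g (n + 1) - π ^ n * d n = 0 := by
        simp only [g, Finset.sum_range_succ]
        ring
      rw [e]
      exact zero_mem _⟩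
    refine ⟨L, fun n => ?_⟩
    have e : f n - L = (f n - g n) + (g n - L) := by ring
    rw [e]
    have hle : I ⊔ Ideal.span {π ^ n} ≤ I ⊔ Ideal.span {x} ⊔ Ideal.span {π ^ n} :=
      sup_le_sup_right le_sup_left _
    exact add_mem (Ideal.mem_sup_left (hg n)) (hle (hL n))

end complete

/-- A quotient by an element that is regular modulo `π` stays torsion free and complete. -/
theorem lemmaL {A : Type u} [CommRing A] {π x : A} {I : Ideal A}
    (h1 : ∀ z, π * z ∈ I → z ∈ I) (h2 : IsAdicComplete (Ideal.span {π}) (A ⧸ I))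
    (h3 : ∀ z, x * z ∈ I ⊔ Ideal.span {π} → z ∈ I ⊔ Ideal.span {π}) :
    (∀ z, x * z ∈ I → z ∈ I) ∧
      (∀ z, π * z ∈ I ⊔ Ideal.span {x} → z ∈ I ⊔ Ideal.span {x}) ∧
      IsAdicComplete (Ideal.span {π}) (A ⧸ (I ⊔ Ideal.span {x})) := by
  obtain ⟨a, b, c⟩ := lemmaL_unt h1 ((cplU_iff π I).1 h2) h3
  exact ⟨a, b, (cplU_iff π _).2 c⟩

variable [CharP P p] [PerfectRing P p]

theorem rt_pow (k : ℕ) (x : P) : rt p P k x ^ p ^ k = x :=
  (iterateFrobeniusEquiv P p k).apply_symm_apply x

theorem pow_inj_unt (k : ℕ) {x y : P} (h : x ^ p ^ k = y ^ p ^ k) : x = y :=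
  (iterateFrobeniusEquiv P p k).injective h

theorem rt_add_pow (k j : ℕ) (x : P) : rt p P (k + j) x ^ p ^ j = rt p P k x := by
  apply pow_inj_unt (p := p) k
  rw [← pow_mul, ← pow_add, add_comm j k, rt_pow, rt_pow]

theorem rt_succ_pow (k : ℕ) (x : P) : rt p P (k + 1) x ^ p = rt p P k x := by
  have := rt_add_pow (p := p) k 1 x
  rwa [pow_one] at this

theorem rt_zero (x : P) : rt p P 0 x = x := by
  have := rt_pow (p := p) 0 x
  rwa [pow_zero, pow_one] at this

theorem map_rt {P' : Type u} [CommRing P'] [CharP P' p] [PerfectRing P' p] (f : P →+* P') (k : ℕ)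
    (x : P) : f (rt p P k x) = rt p P' k (f x) := by
  apply pow_inj_unt (p := p) k
  rw [← map_pow, rt_pow, rt_pow]

/-- Reduction modulo `p`. -/
noncomputable def Unt.red (p : ℕ) [Fact p.Prime] {P : Type u} [CommRing P] [CharP P p] (t : P) :
    Unt p t →+* P ⧸ Ideal.span {t} :=
  Ideal.Quotient.lift _ ((Ideal.Quotient.mk _).comp WittVector.constantCoeff) (by
    intro a ha
    obtain ⟨c, rfl⟩ := Ideal.mem_span_singleton'.1 ha
    rw [RingHom.comp_apply, Ideal.Quotient.eq_zero_iff_mem, map_mul, map_sub, map_natCast,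
      CharP.cast_eq_zero, zero_sub]
    exact Ideal.mul_mem_left _ _ (neg_mem (Ideal.subset_span rfl)))

omit [PerfectRing P p] in
theorem Unt.red_mk (t : P) (x : WittVector p P) :
    Unt.red p t (Ideal.Quotient.mk _ x) = Ideal.Quotient.mk _ (x.coeff 0) := rfl

omit [PerfectRing P p] in
theorem Unt.red_shp (t x : P) : Unt.red p t (shp p t x) = Ideal.Quotient.mk _ x := rfl

omit [PerfectRing P p] in
theorem Unt.red_surjective (t : P) : Function.Surjective (Unt.red p t) := by
  intro y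
  obtain ⟨x, rfl⟩ := Ideal.Quotient.mk_surjective y
  exact ⟨shp p t x, Unt.red_shp t x⟩

omit [PerfectRing P p] in
theorem Unt.red_p_unt (t : P) : Unt.red p t (p : Unt p t) = 0 := by
  rw [map_natCast, ← map_natCast (Ideal.Quotient.mk _) p, CharP.cast_eq_zero, map_zero]

theorem Unt.ker_red (t : P) : RingHom.ker (Unt.red p t) = Ideal.span {(p : Unt p t)} := by
  apply le_antisymm
  · intro b hb
    obtain ⟨x, rfl⟩ := Ideal.Quotient.mk_surjective b
    rw [RingHom.mem_ker, Unt.red_mk, Ideal.Quotient.eq_zero_iff_mem] at hb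
    obtain ⟨c, hc⟩ := Ideal.mem_span_singleton'.1 hb
    have h1 : x - WittVector.teichmuller p (c * t) ∈ Ideal.span {(p : WittVector p P)} := by
      rw [← WittVector.ker_constantCoeff, RingHom.mem_ker, map_sub, sub_eq_zero]
      exact hc.symm
    obtain ⟨w, hw⟩ := Ideal.mem_span_singleton'.1 h1
    have h2 : x = w * p + WittVector.teichmuller p (c * t) := by rw [hw, sub_add_cancel]
    rw [h2, map_add, map_mul, map_natCast, ← shp_apply_unt, map_mul, shp_self, ← add_mul]
    exact Ideal.mul_mem_left _ _ (Ideal.subset_span rfl)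
  · rw [Ideal.span_le, Set.singleton_subset_iff]
    exact Unt.red_p_unt t

theorem exists_shp (t : P) (b : Unt p t) :
    ∃ x, b - shp p t x ∈ Ideal.span {(p : Unt p t)} := by
  obtain ⟨x, hx⟩ := Ideal.Quotient.mk_surjective (Unt.red p t b)
  refine ⟨x, ?_⟩
  rw [← Unt.ker_red, RingHom.mem_ker, map_sub, Unt.red_shp, hx, sub_self]

theorem shp_sub_mem {t x y : P} (h : x - y ∈ Ideal.span {t}) :
    shp p t x - shp p t y ∈ Ideal.span {(p : Unt p t)} := by
  rw [← Unt.ker_red, RingHom.mem_ker, map_sub, Unt.red_shp, Unt.red_shp, sub_eq_zero,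
    Ideal.Quotient.eq]
  exact h

theorem mem_of_shp_sub_mem {t x y : P} (h : shp p t x - shp p t y ∈ Ideal.span {(p : Unt p t)}) :
    x - y ∈ Ideal.span {t} := by
  rwa [← Unt.ker_red, RingHom.mem_ker, map_sub, Unt.red_shp, Unt.red_shp, sub_eq_zero,
    Ideal.Quotient.eq] at h

/-- Ideals generated by sharp elements and `p`. -/
theorem comap_red_span (t : P) (s : Set P) :
    ((Ideal.span s).map (Ideal.Quotient.mk (Ideal.span {t}))).comap (Unt.red p t) =
      Ideal.span (insert (p : Unt p t) (shp p t '' s)) := by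
  have e : (Ideal.span s).map (Ideal.Quotient.mk (Ideal.span {t})) =
      (Ideal.span (shp p t '' s)).map (Unt.red p t) := by
    rw [Ideal.map_span, Ideal.map_span, Set.image_image]
    rfl
  rw [e, Ideal.comap_map_of_surjective _ (Unt.red_surjective t), ← RingHom.ker_eq_comap_bot,
    Unt.ker_red, Ideal.span_insert, sup_comm]

theorem sum_pow_sub_mem_unt {B : Type u} [CommRing B] {ι : Type} (s : Finset ι) (Y : ι → B)
    (n : ℕ) {J : Ideal B} (hJ : ∀ i ∈ s, Y i ∈ J) :
    (∑ i ∈ s, Y i) ^ p ^ n - ∑ i ∈ s, Y i ^ p ^ n ∈ Ideal.span {(p : B)} * J ^ p ^ n := by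
  classical
  induction s using Finset.induction_on with
  | empty =>
    rw [Finset.sum_empty, Finset.sum_empty, zero_pow (pow_pos (Fact.out : p.Prime).pos n).ne',
      sub_zero]
    exact zero_mem _
  | insert a s ha ih =>
    have h1 := ih fun i hi => hJ i (Finset.mem_insert_of_mem hi)
    have h2 : Y a ∈ J := hJ a (Finset.mem_insert_self a s)
    have h3 : ∑ i ∈ s, Y i ∈ J := Ideal.sum_mem _ fun i hi => hJ i (Finset.mem_insert_of_mem hi)
    rw [Finset.sum_insert ha, Finset.sum_insert ha, add_pow_prime_pow_eq' Fact.out]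
    have e : ∀ a b c d : B, a + b + c - (a + d) = (b - d) + c := by intros; ring
    rw [e]
    refine add_mem h1 (Ideal.mul_mem_mul (Ideal.subset_span rfl) (Ideal.sum_mem _ fun k hk => ?_))
    apply Ideal.mul_mem_right
    have := Ideal.mul_mem_mul (Ideal.pow_mem_pow h2 k) (Ideal.pow_mem_pow h3 (p ^ n - k))
    rwa [← pow_add, Nat.add_sub_cancel' (Finset.mem_Ioo.1 hk).2.le] at this

/-- The sharp map is additive up to `p`. -/
theorem shp_sum_sub_mem (t : P) {ι : Type} (s : Finset ι) (x : ι → P) (n : ℕ) :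
    ∑ i ∈ s, shp p t (x i) - shp p t (∑ i ∈ s, x i) ∈
      Ideal.span {(p : Unt p t)} *
          Ideal.span ((fun i => shp p t (rt p P n (x i))) '' (s : Set ι)) ^ p ^ n ⊔
        Ideal.span {(p : Unt p t) ^ (n + 1)} := by
  have h1 := sum_pow_sub_mem_unt (p := p) s (fun i => shp p t (rt p P n (x i))) n
    (J := Ideal.span ((fun i => shp p t (rt p P n (x i))) '' (s : Set ι)))
    fun i hi => Ideal.subset_span ⟨i, hi, rfl⟩
  have h2 : (p : Unt p t) ∣
      ∑ i ∈ s, shp p t (rt p P n (x i)) - shp p t (rt p P n (∑ i ∈ s, x i)) := by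
    rw [← Ideal.mem_span_singleton, ← Unt.ker_red, RingHom.mem_ker, map_sub, map_sum,
      Unt.red_shp, map_sum, map_sum, sub_eq_zero]
    rfl
  have h3 := Ideal.mem_span_singleton.2 (dvd_sub_pow_of_dvd_sub h2 n)
  have h4 : ∀ y, shp p t (rt p P n y) ^ p ^ n = shp p t y := fun y => by rw [← map_pow, rt_pow]
  simp only [h4] at h1 h3
  have e : ∀ a b c : Unt p t, b - c = (a - c) - (a - b) := by intros; ring
  rw [e ((∑ i ∈ s, shp p t (rt p P n (x i))) ^ p ^ n)]
  exact sub_mem (Ideal.mem_sup_right h3) (Ideal.mem_sup_left h1)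

theorem witt_lemmaL_unt {t : P} (ht : t ∈ nonZeroDivisors P) :
    (∀ z : WittVector p P,
      p * z ∈ Ideal.span {(p : WittVector p P) - WittVector.teichmuller p t} →
        z ∈ Ideal.span {(p : WittVector p P) - WittVector.teichmuller p t}) ∧
      CplU (p : WittVector p P)
        (Ideal.span {(p : WittVector p P) - WittVector.teichmuller p t}) := by
  have := (lemmaL_unt (π := (p : WittVector p P)) (I := ⊥)
    (x := (p : WittVector p P) - WittVector.teichmuller p t)
    (fun z hz => by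
      rw [Ideal.mem_bot] at hz ⊢
      exact WittVector.eq_zero_of_p_mul_eq_zero z (by rw [mul_comm, hz]))
    (cplU_bot _ inferInstance) (fun z hz => by
      rw [bot_sup_eq, ← WittVector.ker_constantCoeff, RingHom.mem_ker] at hz ⊢
      rw [map_mul, map_sub, map_natCast, CharP.cast_eq_zero, zero_sub, neg_mul, neg_eq_zero] at hz
      exact (mem_nonZeroDivisors_iff.1 ht).1 _ hz)).2
  rwa [bot_sup_eq] at this

theorem Unt.p_reg {t : P} (ht : t ∈ nonZeroDivisors P) :
    (p : Unt p t) ∈ nonZeroDivisors (Unt p t) := by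
  rw [mem_nonZeroDivisors_iff_left]
  intro b hb
  obtain ⟨z, rfl⟩ := Ideal.Quotient.mk_surjective b
  rw [← map_natCast (Ideal.Quotient.mk _) p, ← map_mul, Ideal.Quotient.eq_zero_iff_mem] at hb
  exact Ideal.Quotient.eq_zero_iff_mem.2 ((witt_lemmaL_unt ht).1 z hb)

theorem Unt.complete {t : P} (ht : t ∈ nonZeroDivisors P) :
    IsAdicComplete (Ideal.span {(p : Unt p t)}) (Unt p t) := by
  have h := (cplU_iff _ _).2 (witt_lemmaL_unt (p := p) ht).2
  rw [← IsAdicComplete.map_algebraMap_iff (S := Unt p t), Ideal.map_span, Set.image_singleton,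
    map_natCast] at h
  exact h

theorem Unt.jac (t : P) (b : Unt p t) : IsUnit (1 - p * b) := by
  obtain ⟨z, rfl⟩ := Ideal.Quotient.mk_surjective b
  have h : (p : WittVector p P) ∈ (⊥ : Ideal (WittVector p P)).jacobson :=
    IsAdicComplete.le_jacobson_bot (Ideal.span {(p : WittVector p P)}) (Ideal.subset_span rfl)
  have h1 := (Ideal.mem_jacobson_bot.1 h (-z)).map
    (Ideal.Quotient.mk (Ideal.span {(p : WittVector p P) - WittVector.teichmuller p t}))
  rw [map_add, map_mul, map_neg, map_natCast, map_one, mul_neg, neg_add_eq_sub] at h1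
  exact h1

theorem reg_red_unt {t a : P} {s : Set P}
    (h : ∀ z, a * z ∈ Ideal.span s ⊔ Ideal.span {t} → z ∈ Ideal.span s ⊔ Ideal.span {t})
    (z : Unt p t) (hz : shp p t a * z ∈ Ideal.span (shp p t '' s) ⊔ Ideal.span {(p : Unt p t)}) :
    z ∈ Ideal.span (shp p t '' s) ⊔ Ideal.span {(p : Unt p t)} := by
  rw [sup_comm, ← Ideal.span_insert, ← comap_red_span, Ideal.mem_comap] at hz ⊢
  obtain ⟨y, hy⟩ := Ideal.Quotient.mk_surjective (Unt.red p t z)
  rw [map_mul, Unt.red_shp, ← hy, ← map_mul, Ideal.mem_quotient_iff_mem_sup] at hz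
  rw [← hy, Ideal.mem_quotient_iff_mem_sup]
  exact h y hz

omit [CharP P p] [PerfectRing P p] in
theorem reg_some_unt {σ : Type} [Finite σ] {t : P} (v : Option σ → P) (hv : PermReg v) {q : ℕ}
    (hq : 1 ≤ q) (h0 : v none ^ q = t) {T : Set (Option σ)} (hT : none ∉ T) {i : Option σ}
    (hi : i ∉ T) (hi0 : i ≠ none) (z : P)
    (hz : v i * z ∈ Ideal.span (v '' T) ⊔ Ideal.span {t}) :
    z ∈ Ideal.span (v '' T) ⊔ Ideal.span {t} := by
  have h := hv.pow (fun o => o.elim q fun _ => 1) (by rintro (_ | j) <;> simp [hq])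
    (insert none T) i (by simp [hi, hi0]) z
  have e : (fun o : Option σ => v o ^ (o.elim q fun _ => 1)) '' T = v '' T := by
    apply Set.image_congr
    rintro (_ | j) hj
    · exact absurd hj hT
    · simp
  rw [Set.image_insert_eq, e, Ideal.span_insert, sup_comm] at h
  obtain _ | j := i
  · exact absurd rfl hi0
  · simp only [Option.elim_none, Option.elim_some, pow_one, h0] at h
    exact h hz

/-- Regular sequences untilt. -/
theorem Unt.permReg {σ : Type} [Finite σ] {t : P} (v : Option σ → P) (hv : PermReg v) {q : ℕ}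
    (hq : 1 ≤ q) (h0 : v none ^ q = t) : PermReg fun o => shp p t (v o) := by
  have ht : t ∈ nonZeroDivisors P := h0 ▸ pow_mem (hv.mem_nonZeroDivisors none) q
  have hp : shp p t (v none) ^ q = p := by rw [← map_pow, h0, shp_self]
  have key : ∀ T : Set (Option σ), none ∉ T →
      (∀ z, (p : Unt p t) * z ∈ Ideal.span (shp p t '' (v '' T)) →
        z ∈ Ideal.span (shp p t '' (v '' T))) ∧
      CplU (p : Unt p t) (Ideal.span (shp p t '' (v '' T))) := by
    intro T
    induction T, T.toFinite using Set.Finite.induction_on with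
    | empty =>
      intro _
      rw [Set.image_empty, Set.image_empty, Ideal.span_empty]
      exact ⟨fun z hz => (mem_nonZeroDivisors_iff.1 (Unt.p_reg ht)).1 z hz,
        cplU_bot _ (Unt.complete ht)⟩
    | @insert a T ha _ ih =>
      intro hT
      have hT' : none ∉ T := fun h => hT (Set.mem_insert_of_mem _ h)
      have ha0 : a ≠ none := fun h => hT (h ▸ Set.mem_insert _ _)
      have := (lemmaL_unt (ih hT').1 (ih hT').2
        (reg_red_unt (reg_some_unt v hv hq h0 hT' ha ha0))).2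
      rwa [Set.image_insert_eq, Set.image_insert_eq, Ideal.span_insert, sup_comm]
  intro T i hi z hz
  rw [← Set.image_image (shp p t) v] at hz ⊢
  by_cases hT : none ∈ T
  · have h1 : Ideal.span {(p : Unt p t)} ≤ Ideal.span (shp p t '' (v '' T)) := by
      rw [Ideal.span_le, Set.singleton_subset_iff, ← hp]
      exact Ideal.pow_mem_of_mem _
        (Ideal.subset_span (Set.mem_image_of_mem _ (Set.mem_image_of_mem v hT))) q hq
    have h2 : Ideal.span {t} ≤ Ideal.span (v '' T) := by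
      rw [Ideal.span_le, Set.singleton_subset_iff, ← h0]
      exact Ideal.pow_mem_of_mem _ (Ideal.subset_span (Set.mem_image_of_mem v hT)) q hq
    have := reg_red_unt (p := p) (t := t) (a := v i) (s := v '' T)
      (by rw [sup_eq_left.2 h2]; exact hv T i hi) z
    rw [sup_eq_left.2 h1] at this
    exact this hz
  · by_cases hi0 : i = none
    · subst hi0
      apply (key T hT).1
      obtain ⟨r, rfl⟩ := Nat.exists_eq_add_of_le' hq
      rw [← hp, pow_succ, mul_assoc]
      exact Ideal.mul_mem_left _ _ hz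
    · exact (lemmaL_unt (key T hT).1 (key T hT).2
        (reg_red_unt (reg_some_unt v hv hq h0 hT hi hi0))).1 z hz

/-- Radical membership tilts. -/
theorem rad_of_pow_mem {t : P} (hJ : t ∈ (⊥ : Ideal P).jacobson) {s : Set P} {a : ℕ}
    (h : (p : Unt p t) ^ a ∈ Ideal.span (shp p t '' s)) : ∃ c : ℕ, t ^ c ∈ Ideal.span s := by
  change t ∈ (Ideal.span s).radical
  rw [Ideal.radical_eq_sInf, Submodule.mem_sInf]
  rintro Q ⟨hs, hQ⟩
  by_contra ht
  have : CharP (P ⧸ Q) p := by
    refine (CharP.charP_iff_prime_eq_zero Fact.out).2 ?_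
    rw [← map_natCast (Ideal.Quotient.mk Q) p, CharP.cast_eq_zero, map_zero]
  have : PerfectRing (P ⧸ Q) p := by
    refine PerfectRing.ofSurjective _ p fun y => ?_
    obtain ⟨x, rfl⟩ := Ideal.Quotient.mk_surjective y
    refine ⟨Ideal.Quotient.mk Q (rt p P 1 x), ?_⟩
    rw [frobenius_def, ← map_pow, rt_succ_pow 0, rt_zero]
  have ht' : Ideal.Quotient.mk Q t ∈ nonZeroDivisors (P ⧸ Q) :=
    mem_nonZeroDivisors_of_ne_zero fun h0 => ht (Ideal.Quotient.eq_zero_iff_mem.1 h0)
  have h1 : Ideal.span (shp p t '' s) ≤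
      RingHom.ker (Unt.map p (Ideal.Quotient.mk Q) (t := t) rfl) := by
    rw [Ideal.span_le]
    rintro _ ⟨x, hx, rfl⟩
    rw [SetLike.mem_coe, RingHom.mem_ker, Unt.map_shp,
      Ideal.Quotient.eq_zero_iff_mem.2 (hs (Ideal.subset_span hx)), shp_zero]
  have h2 := h1 h
  rw [RingHom.mem_ker, map_pow, map_natCast] at h2
  have h3 : (1 : Unt p (Ideal.Quotient.mk Q t)) = 0 :=
    (mem_nonZeroDivisors_iff.1 (pow_mem (Unt.p_reg ht') a)).1 1 (by rw [mul_one, h2])
  have h4 := congrArg (Unt.red p (Ideal.Quotient.mk Q t)) h3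
  rw [map_one, map_zero, ← map_one (Ideal.Quotient.mk _), Ideal.Quotient.eq_zero_iff_mem] at h4
  obtain ⟨c, hc⟩ := Ideal.mem_span_singleton'.1 h4
  obtain ⟨c, rfl⟩ := Ideal.Quotient.mk_surjective c
  have h5 : t * (-c) + 1 ∈ Q := by
    rw [← Ideal.Quotient.eq_zero_iff_mem, map_add, map_mul, map_neg, map_one, ← hc]
    ring
  exact hQ.ne_top (Ideal.eq_top_of_isUnit_mem Q h5 (Ideal.mem_jacobson_bot.1 hJ (-c)))

end Vale.Agent.P202
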