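import Vale.Agent.P202.GR

/-! Combinatorics of the twisting degrees and thick slices of the filtration. -/

namespace Vale.Agent.P202

open IsLocalRing

universe u

/-- The multidegree `(N, 2N, ..., dN)` with the entry `i0` omitted. -/
def bb {m : ℕ} (N : ℕ) (i0 : Fin (m + 1)) (j : Fin m) : ℤ :=
  ((i0.succAbove j : ℕ) + 1 : ℤ) * N - if i0.succAbove j < i0 then 0 else 1

theorem abs_bb_le {m : ℕ} {N : ℕ} (hN : 1 ≤ N) (i0 : Fin (m + 1)) (j : Fin m) :
    |bb N i0 j| ≤ (m + 1) * N := by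
  have h1 : ((i0.succAbove j : ℕ) : ℤ) + 1 ≤ m + 1 := by
    have := (i0.succAbove j).2
    omega
  have h2 : (((i0.succAbove j : ℕ) : ℤ) + 1) * N ≤ (m + 1) * N :=
    mul_le_mul_of_nonneg_right h1 (by positivity)
  have h3 : (1 : ℤ) * N ≤ (((i0.succAbove j : ℕ) : ℤ) + 1) * N :=
    mul_le_mul_of_nonneg_right (by omega) (by positivity)
  unfold bb
  rw [abs_le]
  split_ifs <;> constructor <;> omega

theorem sum_prod_bb {m : ℕ} (N : ℕ) (s : ℤ) :
    ∑ i0 : Fin (m + 1), ∏ j, (bb N i0 j + s + 1) =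
      ∏ t : Fin (m + 1), ((((t : ℕ) : ℤ) + 1) * N + (s + 1)) -
        ∏ t : Fin (m + 1), ((((t : ℕ) : ℤ) + 1) * N + s) := by
  have h := Finset.prod_add_ordered (Finset.univ : Finset (Fin (m + 1)))
    (fun t => (((t : ℕ) : ℤ) + 1) * N + s) (fun _ => 1)
  simp only [← add_assoc] at h ⊢
  rw [h, add_sub_cancel_left]
  refine Finset.sum_congr rfl fun i0 _ => ?_
  rw [one_mul, Finset.prod_filter, Finset.prod_filter, ← Finset.prod_mul_distrib,
    Fin.prod_univ_succAbove _ i0]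
  simp only [lt_irrefl, if_false, mul_one, one_mul]
  refine Finset.prod_congr rfl fun j _ => ?_
  unfold bb
  rcases lt_or_gt_of_ne (Fin.succAbove_ne i0 j) with h1 | h1
  · simp [h1, h1.not_gt]
  · simp only [h1, h1.not_gt, if_true, if_false, one_mul]
    ring

theorem sum_sum_prod_bb {m : ℕ} (N : ℕ) (l : ℤ) (h1 : 1 ≤ l) (h2 : l ≤ m + 1) :
    ∑ i0 : Fin (m + 1), ∑ s ∈ Finset.range N, ∏ j, (bb N i0 j + (-(l * N) + s) + 1) =
      if l = 1 then ((m + 1).factorial : ℤ) * N ^ (m + 1) else 0 := by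
  rw [Finset.sum_comm]
  simp only [sum_prod_bb]
  have h := Finset.sum_range_sub
    (fun s : ℕ => ∏ t : Fin (m + 1), ((((t : ℕ) : ℤ) + 1) * N + (-(l * N) + s))) N
  simp only [Nat.cast_add, Nat.cast_one, ← add_assoc] at h ⊢
  rw [h]
  have hz : ∀ k : ℤ, 1 ≤ k → k ≤ m + 1 →
      ∏ t : Fin (m + 1), ((((t : ℕ) : ℤ) + 1) * N + -(k * N)) = 0 := by
    intro k k1 k2
    refine Finset.prod_eq_zero (Finset.mem_univ ⟨(k - 1).toNat, by omega⟩) ?_
    simp only
    rw [show (((k - 1).toNat : ℕ) : ℤ) + 1 = k by omega]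
    ring
  simp only [Nat.cast_zero, add_zero]
  rw [hz l h1 h2, sub_zero]
  split_ifs with h3
  · subst h3
    simp only [one_mul, neg_add_cancel_right]
    rw [Finset.prod_mul_distrib, Finset.prod_const, Finset.card_univ, Fintype.card_fin,
      Fin.prod_univ_eq_prod_range (fun t => ((t : ℤ) + 1)),
      ← Finset.prod_range_add_one_eq_factorial (m + 1), Nat.cast_prod]
    simp
  · rw [← hz (l - 1) (by omega) (by omega)]
    refine Finset.prod_congr rfl fun t _ => ?_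
    ring

theorem cdeg_window {m : ℕ} {N : ℕ} (i0 : Fin (m + 1)) (l s : ℤ) (h1 : -(l * N) ≤ s)
    (h2 : s < -(l * N) + N) (h3 : ∀ j, bb N i0 j + s ≠ -1) :
    (cdeg (Jstar (sh (bb N i0) s)) : ℤ) ≤ max l 0 ∧
      min (l - 1) (m + 1) - 1 ≤ (cdeg (Jstar (sh (bb N i0) s)) : ℤ) := by
  have hN : (0 : ℤ) < N := by omega
  have key : cdeg (Jstar (sh (bb N i0) s)) =
      (Finset.univ.filter fun j : Fin m => (i0.succAbove j : ℕ) < (l - 1).toNat).card := by
    unfold cdeg
    congr 1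
    refine Finset.filter_congr fun j _ => ?_
    have h4 := h3 j
    have h5 : Jstar (sh (bb N i0) s) j = Ch.W ↔ bb N i0 j + s < 0 := by
      unfold Jstar sh
      split_ifs with h <;> simp <;> omega
    rw [h5]
    unfold bb at h4 ⊢
    set t : ℕ := (i0.succAbove j : ℕ)
    constructor
    · intro h6
      by_contra h7
      have h8 : l * N ≤ ((t : ℤ) + 1) * N := mul_le_mul_of_nonneg_right (by omega) hN.le
      split_ifs at h4 h6 <;> omega
    · intro h6
      have h8 : ((t : ℤ) + 1) * N ≤ (l - 1) * N := mul_le_mul_of_nonneg_right (by omega) hN.le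
      have h9 : (l - 1) * N = l * N - N := by ring
      split_ifs <;> omega
  have h4 := Fin.card_filter_val_lt (n := m + 1) (m := (l - 1).toNat)
  rw [Finset.card_filter, Fin.sum_univ_succAbove _ i0, ← Finset.card_filter] at h4
  rw [key]
  split_ifs at h4 <;> omega

variable {R : Type u} [CommRing R] [IsDomain R] [IsNoetherianRing R] [IsLocalRing R] {m : ℕ}
  {x : Fin (m + 1) → R} (u : (Sig x)ˣ) (hu : (u : Sig x) = algebraMap R (Sig x) (x 0))
  (hx0 : x 0 ≠ 0) (hxl : x (Fin.last m) ≠ 0)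

include hu hx0 hxl

theorem slice {r : ℕ} {a : ℕ → Ideal R} {f : ℕ → R} (h : IsChain x r a f) :
    ∃ C : ℕ, ∀ (b : Fin m → ℤ) (s0 : ℤ) (N L : ℕ), 1 ≤ N → N ≤ L →
      (∀ j, ∀ s, s0 ≤ s → s < s0 + N → |b j + s| < L) →
      Good (cd R m (Sig x)) (Cech (DD x u b (s0 + N))) (Cech (DD x u b s0)) ∧
      (∀ n : ℤ, (∀ s, s0 ≤ s → s < s0 + N →
          n ≠ -(cdeg (Jstar (sh b s)) : ℤ) ∨ ∃ j, b j + s = -1) →
        hh (lenF R) (cd R m (Sig x)) (Cech (DD x u b (s0 + N))) (Cech (DD x u b s0)) n ≤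
          ((C * L ^ m : ℕ) : ℕ∞)) ∧
      |chi (cd R m (Sig x)) (Cech (DD x u b (s0 + N))) (Cech (DD x u b s0)) -
        (eChain x r a f : ℤ) * ∑ s ∈ Finset.range N, ∏ j, (b j + (s0 + s) + 1)| ≤
          C * (L : ℤ) ^ m := by
  obtain ⟨C, hC⟩ := gr_bound u hu hx0 hxl h
  refine ⟨C, fun b s0 N L hN hL hb => ?_⟩
  set F : ℕ → ℤ → Submodule R ((Fin m → Ch) → Sig x) :=
    fun i => Cech (DD x u b (s0 + N - i)) with hF
  have hcx : ∀ i ≤ N, IsCx (cd R m (Sig x)) (F i) := fun i _ => cech_isCx (DD_cmono x u b _)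
  have hmono : ∀ i < N, F i ≤ F (i + 1) := fun i _ =>
    cech_mono (DD_anti x u hu b (by push_cast; omega))
  have e1 : ∀ i : ℕ, F i = Cech (DD x u b (s0 + N - (i + 1 : ℕ) + 1)) := fun i => by
    rw [hF]
    push_cast
    ring_nf
  have hstep := fun i (hi : i < N) => hC b (s0 + N - (i + 1 : ℕ)) L (by omega)
    (fun j => hb j _ (by omega) (by omega))
  simp only [← e1] at hstep
  have e0 : F 0 = Cech (DD x u b (s0 + N)) := by simp [hF]
  have eN : F N = Cech (DD x u b s0) := by simp [hF]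
  have hg := good_chi_chain cd_comp_cd F N hcx hmono fun i hi => (hstep i hi).1
  rw [e0, eN] at hg
  refine ⟨hg.1, fun n hn => ?_, ?_⟩
  · have h1 := hh_chain_le (lenF R) cd_comp_cd F N hcx hmono n
    rw [e0, eN] at h1
    refine h1.trans ?_
    rw [← ENat.mul_le_mul_left_iff (a := (N : ℕ∞)) (by exact_mod_cast (by omega : N ≠ 0))
      (ENat.natCast_ne_top N), Finset.mul_sum]
    refine (Finset.sum_le_card_nsmul _ _ ((C * L ^ m : ℕ) : ℕ∞) fun i hi => ?_).trans (by simp)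
    rw [Finset.mem_range] at hi
    have h2 := (hstep i hi).2.1 n (hn _ (by omega) (by omega))
    rw [mul_comm]
    refine (mul_le_mul_right (by exact_mod_cast hL) _).trans (h2.trans (by simp))
  · rw [hg.2, ← Finset.sum_range_reflect (fun s : ℕ => ∏ j, (b j + (s0 + s) + 1)) N,
      Finset.mul_sum, ← Finset.sum_sub_distrib]
    refine (Finset.abs_sum_le_sum_abs _ _).trans ?_
    refine le_of_mul_le_mul_left (a := (N : ℤ)) ?_ (by omega)
    rw [Finset.mul_sum]
    refine (Finset.sum_le_card_nsmul _ _ (C * (L : ℤ) ^ m) fun i hi => ?_).trans (by simp)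
    rw [Finset.mem_range] at hi
    have h2 := (hstep i hi).2.2
    rw [show s0 + ((N - 1 - i : ℕ) : ℤ) = s0 + N - (i + 1 : ℕ) by omega, mul_comm]
    exact (mul_le_mul_of_nonneg_left (by exact_mod_cast hL) (abs_nonneg _)).trans h2

end Vale.Agent.P202
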