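import Vale.Agent.P202.MT
import Vale.Agent.P202.MSys
import Vale.Agent.P202.MGeo
import Vale.Agent.P202.StepAux

/-! The decalage argument. -/

namespace Vale.Agent.P202

open scoped ENNReal

universe u

variable {B : Type u} [CommRing B] {m : ℕ} {E : Type u} [AddCommGroup E] [Module B E]
  {ξ : Fin (m + 1) → B} {φ : ℤ → Lau B m →ₗ[B] E} {K : MC B} {κ : B} {N t M' : ℕ} {μ : RLen B}

/-- Admissible level functions. -/
def Adm (N : ℕ) (lam : ℕ → ℤ) : Prop := ∀ i, lam (i + 1) ≤ lam i ∧ lam i ≤ lam (i + 1) + N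

theorem adm_const_mvan (N : ℕ) (s : ℤ) : Adm N fun _ => s := fun _ =>
  ⟨le_rfl, le_add_of_nonneg_right (by positivity)⟩

theorem adm_lin_mvan {N N' : ℕ} (hN : N' ≤ N) (c : ℤ) : Adm N fun i => -((i : ℤ) * N') + c := by
  intro i
  have e : ((i + 1 : ℕ) : ℤ) * N' = i * N' + N' := by
    push_cast
    ring
  simp only [e]
  omega

theorem Geo.fit (h : Geo ξ φ) (hK : K.Ent (Ideal.span (Set.range ξ) ^ N)) (a : Fin m → ℤ)
    {lam : ℕ → ℤ} (hl : Adm N lam) : K.Fit (cd B m E) fun i => Cech (DG φ a (lam i)) :=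
  ⟨fun _ => cech_isCx (DG_cmono φ a _), _, hK, fun i n => by
    rw [← cech_smul]
    exact cech_mono (fun J => h.smul_le a (hl i).2 J) n⟩

theorem Geo.XG_le (h : Geo ξ φ) (K : MC B) (hL : K.Len (m + 1)) (a : Fin m → ℤ)
    {lam lam' : ℕ → ℤ} (hl : ∀ i ≤ m + 1, lam i ≤ lam' i) : XG K φ a lam' ≤ XG K φ a lam := by
  intro n x hx
  exact K.mem_T.2 fun b => cech_mono (h.anti a (hl _ (hL b))) _ (K.mem_T.1 hx b)

theorem Geo.XG_sq (h : Geo ξ φ) (hK : HK K ξ κ N t (Ideal.span (Set.range ξ) ^ M'))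
    (a : Fin m → ℤ) {lt lb : ℕ → ℤ} (hl : ∀ i i', i ≤ m + 1 → i' ≤ m + 1 → lb i ≤ lt i' + M') :
    Sq (K.dt (cd B m E)) (XG K φ a lb) (XG K φ a lt) :=
  MC.T_sq cd_comp_cd hK.len hK.sq fun i i' n hi hi' => by
    rw [← cech_smul]
    exact cech_mono (fun J => h.smul_le a (hl i i' hi hi') J) n

theorem Geo.XG_zz (h : Geo ξ φ) (hK : HK K ξ κ N t (Ideal.span (Set.range ξ) ^ M')) :
    ∃ r : ℕ, ∀ (a : Fin m → ℤ) (lt lb : ℕ → ℤ), Adm N lt → Adm N lb →
      (∀ i i', i ≤ m + 1 → i' ≤ m + 1 → lb i ≤ lt i' + M') → ∀ n,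
      ∀ x ∈ Zc (K.dt (cd B m E)) (XG K φ a fun i => lb i + ((m + 1) * t : ℕ))
          (XG K φ a fun i => lt i + ((m + 1) * t : ℕ)) n,
        κ ^ r • x ∈ Bc (K.dt (cd B m E)) (XG K φ a lb) (XG K φ a lt) n := by
  obtain ⟨c, hc⟩ := hK.nh
  refine ⟨c * (m + 1), fun a lt lb ht hb hl n x hx => ?_⟩
  have e : ∀ k : ℕ, (((k + 1) * t : ℕ) : ℤ) = ((k * t : ℕ) : ℤ) + t := fun k => by
    push_cast
    ring
  have := MC.T_zz hK.len hK.ent hK.sq (κ ^ c) (fun j => ξ j ^ t) hc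
    (fun k i => DG φ a (lt i + (k * t : ℕ))) (fun k i => DG φ a (lb i + (k * t : ℕ)))
    (fun _ _ => DG_cmono φ a _) (fun _ _ => DG_cmono φ a _)
    (fun k i => h.anti a (by rw [e]; omega)) (fun k i => h.anti a (by rw [e]; omega))
    (fun k i => h.anti a (by have := (ht i).1; omega))
    (fun k i => h.anti a (by have := (hb i).1; omega))
    (fun k i J => h.smul_le a (by have := (ht i).2; omega) J)
    (fun k i J => h.smul_le a (by have := (hb i).2; omega) J)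
    (fun k i i' J hi hi' => h.smul_le a (by have := hl i i' hi hi'; omega) J)
    (fun J => by
      obtain ⟨g, g1, g2⟩ := h.unit J t
      refine ⟨g, g1, fun j k i v hv => ⟨g2 j a _ v ?_, fun hv' => g2 j a _ v ?_⟩⟩
      · rwa [add_assoc, ← e]
      · rwa [add_assoc, ← e]) n x hx
  rw [pow_mul]
  simpa using this

theorem Geo.sys (h : Geo ξ φ) (hK : HK K ξ κ N t (Ideal.span (Set.range ξ) ^ M'))
    (hM : Mb m N t ≤ M') (hν : (μ.nu κ).q (Ideal.span (Set.range ξ)) = 0) (a : Fin m → ℤ) :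
    Sys μ κ (K.dt (cd B m E)) (fun s => XG K φ a fun _ => s) (-(m : ℤ)) (m + 1 : ℕ)
      ((m + 1) * t : ℕ) (Lmax m t) := by
  have hM' : Lmax m t ≤ M' := le_trans (by unfold Mb; omega) hM
  refine ⟨by positivity, by omega, fun s => (h.fit hK.ent a (adm_const_mvan N s)).isCx,
    fun s s' hs => h.XG_le K hK.len a fun _ _ => hs, fun s n hn => ?_,
    h.XG_sq hK a fun _ _ _ _ => by omega, ?_, fun s s' n h0 hs hs' => ?_⟩
  · exact K.T_eq_bot hK.len (fun i n hn => cech_eq_bot _ n hn) n hn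
  · obtain ⟨r, hr⟩ := h.XG_zz hK
    refine ⟨r, fun s s' n h0 hs hs' => ?_⟩
    exact hr a (fun _ => s) (fun _ => s') (adm_const_mvan N s) (adm_const_mvan N s')
      (fun _ _ _ _ => by omega) n
  · exact MC.T_hr_zero _ hK.len (h.fit hK.ent a (adm_const_mvan N s'))
      (h.fit hK.ent a (adm_const_mvan N s)) (fun _ => cech_mono (h.anti a hs))
      (h.XG_sq hK a fun _ _ _ _ => by omega) n
      fun i _ => h.window_zero _ a hs _ fun _ _ _ => Or.inl hν

/-- Almost vanishing of the homology of the decalage complex outside degree zero. -/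
theorem Geo.van (h : Geo ξ φ) (hK : HK K ξ κ N t (Ideal.span (Set.range ξ) ^ M'))
    (hM : Mb m N t ≤ M') (a : Fin m → ℤ) {N' : ℕ} (hN : N' ≤ N)
    (hlow : ∀ (i : ℕ) (s : ℤ), i ≤ m + 1 → -((i : ℤ) * N') ≤ s → (∀ j, a j + s ≠ -1) →
      (cdeg (Jstar (sh a s)) : ℤ) ≤ i)
    (hhigh : ∀ (i : ℕ) (s : ℤ), i ≤ m + 1 → s < -((i : ℤ) * N') → (∀ j, a j + s ≠ -1) →
      (i : ℤ) - 1 ≤ cdeg (Jstar (sh a s))) :
    ∃ r : ℕ, ∀ n s : ℤ, n ≠ 0 → 0 ≤ s → s + ((m + 1) * t : ℕ) ≤ Lmax m t →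
      ∀ x ∈ Zc (K.dt (cd B m E)) (XG K φ a fun _ => s + ((m + 1) * t : ℕ))
          (XG K φ a fun i => -((i : ℤ) * N')) n,
        κ ^ r • x ∈ Bc (K.dt (cd B m E)) (XG K φ a fun _ => s)
          (XG K φ a fun i => -((i : ℤ) * N')) n := by
  obtain ⟨r, hr⟩ := h.XG_zz hK
  refine ⟨r, fun n s hn h0 hs => ?_⟩
  have hb : ∀ i : ℕ, i ≤ m + 1 → 0 ≤ (i : ℤ) * N' ∧ (i : ℤ) * N' ≤ ((m + 1) * N : ℕ) :=
    fun i hi => ⟨by positivity, by exact_mod_cast Nat.mul_le_mul hi hN⟩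
  have hM' : (((m + 1) * N : ℕ) : ℤ) + ((m + 1) * t : ℕ) + Lmax m t ≤ M' := by
    exact_mod_cast hM
  have hA0 : Adm N fun i => -((i : ℤ) * N') := by simpa using adm_lin_mvan hN 0
  rcases lt_or_gt_of_ne hn with hn | hn
  · have hA1 := adm_lin_mvan hN (((m + 1) * t : ℕ) : ℤ)
    refine van_neg (T1 := XG K φ a fun i => -((i : ℤ) * N') + ((m + 1) * t : ℕ))
      (h.XG_le K hK.len a (fun i hi => by have := hb i hi; omega) _)
      (h.XG_sq hK a fun i i' _ hi' => by have := hb i' hi'; omega)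
      (hr a _ (fun _ => s) hA0 (adm_const_mvan N s)
        (fun i i' _ hi' => by have := hb i' hi'; omega) n) ?_
    refine hr_triv_eq_zero_iff.1 (MC.T_hr_zero _ hK.len (h.fit hK.ent a hA1) (h.fit hK.ent a hA0)
      (fun _ => cech_mono (h.anti a (by omega)))
      (h.XG_sq hK a fun i i' hi hi' => by have := hb i' hi'; have := hb i hi; omega) n
      fun i hi => h.window_zero _ a (by omega) _ fun k k1 k2 => Or.inr ?_)
    by_contra hc
    push Not at hc
    have := hlow i k hi k1 hc.2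
    omega
  · have hA1 := adm_lin_mvan hN (-(((m + 1) * t : ℕ) : ℤ))
    have hz := hr a _ (fun _ => s) hA1 (adm_const_mvan N s)
      (fun i i' _ hi' => by have := hb i' hi'; omega) n
    simp only [neg_add_cancel_right] at hz
    refine van_pos (T1 := XG K φ a fun i => -((i : ℤ) * N') + -(((m + 1) * t : ℕ) : ℤ))
      (h.fit hK.ent a hA0).isCx
      (h.XG_le K hK.len a (fun i hi => by have := hb i hi; omega) _)
      (h.XG_sq hK a fun i i' _ hi' => by have := hb i' hi'; omega) hz ?_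
    refine hr_triv_eq_zero_iff.1 (MC.T_hr_zero _ hK.len (h.fit hK.ent a hA0) (h.fit hK.ent a hA1)
      (fun _ => cech_mono (h.anti a (by omega)))
      (h.XG_sq hK a fun i i' hi hi' => by have := hb i' hi'; have := hb i hi; omega) (n + 1)
      fun i hi => h.window_zero _ a (by omega) _ fun k k1 k2 => Or.inr ?_)
    by_contra hc
    push Not at hc
    have := hhigh i k hi k2 hc.2
    omega

theorem bb_low (hN : 1 ≤ N) (i0 : Fin (m + 1)) (i : ℕ) (s : ℤ) (hs : -((i : ℤ) * N) ≤ s)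
    (h : ∀ j, bb N i0 j + s ≠ -1) : (cdeg (Jstar (sh (bb N i0) s)) : ℤ) ≤ i := by
  have hN' : (0 : ℤ) < N := by exact_mod_cast hN
  have h1 : s / N * N ≤ s := Int.ediv_mul_le s hN'.ne'
  have h2 : s < (s / N + 1) * N := Int.lt_ediv_add_one_mul_self s hN'
  have h3 := (cdeg_window i0 (-(s / N)) s (by linarith) (by linarith) h).1
  have h4 : -(i : ℤ) < s / N + 1 := lt_of_mul_lt_mul_right (a := (N : ℤ)) (by linarith) hN'.le
  omega

theorem bb_high (hN : 1 ≤ N) (i0 : Fin (m + 1)) (i : ℕ) (s : ℤ) (hi : i ≤ m + 1)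
    (hs : s < -((i : ℤ) * N)) (h : ∀ j, bb N i0 j + s ≠ -1) :
    (i : ℤ) - 1 ≤ cdeg (Jstar (sh (bb N i0) s)) := by
  have hN' : (0 : ℤ) < N := by exact_mod_cast hN
  have h1 : s / N * N ≤ s := Int.ediv_mul_le s hN'.ne'
  have h2 : s < (s / N + 1) * N := Int.lt_ediv_add_one_mul_self s hN'
  have h3 := (cdeg_window i0 (-(s / N)) s (by linarith) (by linarith) h).2
  have h4 : s / N < -(i : ℤ) := lt_of_mul_lt_mul_right (a := (N : ℤ)) (by linarith) hN'.le
  omega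

theorem a0_low (s : ℤ) (hs : 0 ≤ s) : cdeg (Jstar (sh (a0 m) s)) = 0 := by
  unfold cdeg
  rw [Finset.card_eq_zero, Finset.filter_eq_empty_iff]
  intro j _
  have : 0 ≤ sh (a0 m) s j := by
    unfold sh a0
    omega
  simp [Jstar, this]

theorem a0_high (s : ℤ) (hs : s < 0) (h : ∀ j, a0 m j + s ≠ -1) :
    cdeg (Jstar (sh (a0 m) s)) = m := by
  unfold cdeg
  rw [Finset.filter_true_of_mem, Finset.card_univ, Fintype.card_fin]
  intro j _
  have : ¬ 0 ≤ sh (a0 m) s j := by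
    unfold sh a0
    intro h1
    have h2 := j.2
    refine h ⟨(-s - 1).toNat, by omega⟩ ?_
    unfold a0
    simp only
    omega
  simp [Jstar, this]

theorem a0_le_bb (hN : 1 ≤ N) (i0 : Fin (m + 1)) : a0 m ≤ bb N i0 := by
  intro j
  have h1 : (j : ℕ) ≤ (i0.succAbove j : ℕ) := by
    unfold Fin.succAbove
    split_ifs <;> simp
  have h2 : (((i0.succAbove j : ℕ) : ℤ) + 1) * 1 ≤ (((i0.succAbove j : ℕ) : ℤ) + 1) * N :=
    mul_le_mul_of_nonneg_left (by exact_mod_cast hN) (by positivity)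
  change ((j : ℕ) : ℤ) ≤ bb N i0 j
  unfold bb
  split_ifs <;> omega

/-- The truncated Euler characteristic of `K ⊗ O(a)`. -/
noncomputable def chat (μ : RLen B) (K : MC B) (φ : ℤ → Lau B m →ₗ[B] E) (t : ℕ)
    (a : Fin m → ℤ) : ℝ :=
  chiR μ (K.dt (cd B m E))
    (Qb (K.dt (cd B m E)) (fun s => XG K φ a fun _ => s)
      (lv ((m + 1) * t : ℕ) (m + 1 : ℕ) (2 * ((m + 1) * t : ℕ)))) (XG K φ a fun _ => 0)

theorem neg_le_of_add_nonneg_mvan {x y : ℝ} (h : 0 ≤ x + y) : -y ≤ x := by linarith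

theorem blk_mvan (N i : ℕ) (hi : i ≤ m + 1) :
    ∑ i0 : Fin (m + 1), ∑ r ∈ Finset.range (i * N), ∏ j, (bb N i0 j + (-((i : ℤ) * N) + r) + 1) =
      if i = 0 then 0 else ((m + 1).factorial : ℤ) * N ^ (m + 1) := by
  induction i with
  | zero => simp
  | succ i ih =>
    have e : (i + 1) * N = N + i * N := by ring
    have e' : ∀ r : ℕ, -(((i + 1 : ℕ) : ℤ) * N) + ((N + r : ℕ) : ℤ) = -((i : ℤ) * N) + r :=
      fun r => by
        push_cast
        ring
    simp only [e, Finset.sum_range_add, e', Finset.sum_add_distrib]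
    rw [ih (by omega), sum_sum_prod_bb N _ (by omega) (by omega)]
    rcases Nat.eq_zero_or_pos i with rfl | h0
    · simp
    · rw [if_neg (by omega), if_neg (by omega), if_neg (by omega), zero_add]

/-- The lower bound. -/
theorem Geo.dec (h : Geo ξ φ) (hK : HK K ξ κ N t (Ideal.span (Set.range ξ) ^ M'))
    (hM : Mb m N t ≤ M') (hν : (μ.nu κ).q (Ideal.span (Set.range ξ)) = 0) (hN : 1 ≤ N)
    (hrk : ∑ i ∈ Finset.range (m + 2), (-1 : ℤ) ^ i * (K.rk i : ℤ) = 0) :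
    ((m + 1).factorial : ℝ) * (N : ℝ) ^ (m + 1) * (μ.q (Ideal.span (Set.range ξ))).toReal ≤
      ∑ i0 : Fin (m + 1), chat μ K φ t (bb N i0) := by
  have hq : μ.q (Ideal.span (Set.range ξ)) ≠ ⊤ := by
    have := rr_ne_top_of_nu μ κ (A := Ideal.span (Set.range ξ)) (B := ⊤)
      (by rw [rr_top]; exact hν)
    rwa [rr_top] at this
  have hb : ∀ i : ℕ, i ≤ m + 1 → (i : ℤ) * N ≤ ((m + 1) * N : ℕ) :=
    fun i hi => by exact_mod_cast Nat.mul_le_mul hi le_rfl
  have hb0 : ∀ i : ℕ, 0 ≤ (i : ℤ) * N := fun i => by positivity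
  have hM' : (((m + 1) * N : ℕ) : ℤ) + ((m + 1) * t : ℕ) + Lmax m t ≤ M' := by
    exact_mod_cast hM
  have hA0 : Adm N fun i => -((i : ℤ) * N) := by simpa using adm_lin_mvan (le_refl N) 0
  have key : ∀ i0 : Fin (m + 1), -(∑ i ∈ Finset.range (m + 2), (-1 : ℝ) ^ i * (K.rk i : ℝ) *
      ((μ.q (Ideal.span (Set.range ξ))).toReal *
        ((∑ r ∈ Finset.range (i * N), ∏ j, (bb N i0 j + (-((i : ℤ) * N) + r) + 1) : ℤ) : ℝ))) ≤
      chat μ K φ t (bb N i0) := by
    intro i0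
    have hle : (fun _ : ℕ => Cech (DG φ (bb N i0) 0)) ≤
        fun i : ℕ => Cech (DG φ (bb N i0) (-((i : ℤ) * N))) :=
      fun i => cech_mono (h.anti _ (by have := hb0 i; omega))
    have hsq : Sq (K.dt (cd B m E)) (XG K φ (bb N i0) fun _ => 0)
        (XG K φ (bb N i0) fun i => -((i : ℤ) * N)) :=
      h.XG_sq hK _ fun i i' _ hi' => by have := hb i' hi'; omega
    obtain ⟨r, hr⟩ := h.van hK hM (bb N i0) (le_refl N)
      (fun i s _ hs hj => bb_low hN i0 i s hs hj) (fun i s hi hs hj => bb_high hN i0 i s hi hs hj)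
    have h1 := ((h.sys hK hM hν (bb N i0)).chi_eq (c := 2 * ((m + 1) * t : ℕ)) (by positivity)
      (by
        unfold Lmax
        have : (0 : ℤ) ≤ ((m : ℤ) + 1) * t := by positivity
        push_cast
        linarith)
      (G := XG K φ (bb N i0) fun i => -((i : ℤ) * N)) (h.fit hK.ent _ hA0).isCx
      (K.T_mono hle) (fun n hn => K.T_eq_bot hK.len (fun i n hn => cech_eq_bot _ n hn) n hn)
      (h.XG_sq hK _ fun i i' _ hi' => by have := hb i' hi'; omega)
      (fun n => MC.T_hr_zero _ hK.len (h.fit hK.ent _ (adm_const_mvan N 0)) (h.fit hK.ent _ hA0)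
        hle hsq n fun i _ => h.window_zero _ _ (by have := hb0 i; omega) _ fun _ _ _ => Or.inl hν)
      r fun n s hn hs hs' => hr n s hn (by omega) hs').2
    have hw : ∀ i : ℕ, _ := fun i => h.window_chi μ hq (bb N i0) (-((i : ℤ) * N)) (i * N)
    simp only [Nat.cast_mul, neg_add_cancel] at hw
    have h2 := (MC.T_chi μ hK.len (h.fit hK.ent _ (adm_const_mvan N 0)) (h.fit hK.ent _ hA0)
      hle hsq fun i _ => (hw i).1).2
    simp only [fun i => (hw i).2] at h2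
    rw [← h2]
    unfold chat
    exact neg_le_of_add_nonneg_mvan (h1 ▸ ENNReal.toReal_nonneg)
  refine le_trans (le_of_eq ?_) (Finset.sum_le_sum fun i0 _ => key i0)
  rw [Finset.sum_neg_distrib, Finset.sum_comm]
  have e : ∀ i ∈ Finset.range (m + 2), ∑ i0 : Fin (m + 1), (-1 : ℝ) ^ i * (K.rk i : ℝ) *
      ((μ.q (Ideal.span (Set.range ξ))).toReal *
        ((∑ r ∈ Finset.range (i * N), ∏ j, (bb N i0 j + (-((i : ℤ) * N) + r) + 1) : ℤ) : ℝ)) =
      (-1 : ℝ) ^ i * (K.rk i : ℝ) * ((μ.q (Ideal.span (Set.range ξ))).toReal *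
        (if i = 0 then 0 else ((m + 1).factorial : ℝ) * (N : ℝ) ^ (m + 1))) := by
    intro i hi
    rw [← Finset.mul_sum, ← Finset.mul_sum, ← Int.cast_sum,
      blk_mvan N i (by have := Finset.mem_range.1 hi; omega)]
    split_ifs <;> simp
  rw [Finset.sum_congr rfl e]
  have hrk' : ∑ i ∈ Finset.range (m + 2), (-1 : ℝ) ^ i * (K.rk i : ℝ) = 0 := by
    exact_mod_cast hrk
  rw [Finset.sum_range_succ'] at hrk' ⊢
  simp only [Nat.add_eq_zero_iff, one_ne_zero, and_false, if_false, if_true, mul_zero, add_zero]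
  rw [← Finset.sum_mul]
  rw [K.rk_zero] at hrk'
  have : ∑ i ∈ Finset.range (m + 1), (-1 : ℝ) ^ (i + 1) * (K.rk (i + 1) : ℝ) = -1 := by
    simp only [pow_zero, Nat.cast_one, mul_one] at hrk'
    linarith
  rw [this]
  ring

end Vale.Agent.P202
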