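import Vale.Agent.P202.Cech

/-! Cohomology of line bundles on `(P^1)^m` via monomials. -/

namespace Vale.Agent.P202

universe u

variable {A : Type u} [CommRing A] {m : ℕ}

theorem mem_Cm {b : Fin m → ℤ} {J : Fin m → Ch} {v : Lau A m} :
    v ∈ Cm A b J ↔ ∀ β ∉ Om b J, v.coeff β = 0 := by
  exact AddMonoidAlgebra.mem_supported'

theorem Om_update {b : Fin m → ℤ} {J : Fin m → Ch} {j : Fin m} (hj : J j = Ch.W) (L : Ch) :
    Om b (Function.update J j L) ⊆ Om b J := by
  intro β hβ l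
  by_cases hl : l = j
  · subst hl
    simp [hj]
  · simpa [hl] using hβ l

theorem mem_Box {b β : Fin m → ℤ} :
    β ∈ Box b ↔ ∀ j, (0 ≤ b j → 0 ≤ β j ∧ β j ≤ b j) ∧ (b j < 0 → b j < β j ∧ β j < 0) := by
  unfold Box
  rw [Fintype.mem_piFinset]
  refine forall_congr' fun j => ?_
  by_cases h : 0 ≤ b j
  · simp [h, not_lt.2 h]
  · simp [h, not_le.1 h]

theorem Jstar_eq_W {b : Fin m → ℤ} {j : Fin m} : Jstar b j = Ch.W ↔ b j < 0 := by
  unfold Jstar
  by_cases h : 0 ≤ b j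
  · simp [h]
  · simp [h, not_le.1 h]

theorem eq_W_of_box {b β : Fin m → ℤ} {J : Fin m → Ch} (h : β ∈ Box b) (hJ : β ∈ Om b J)
    {j : Fin m} (hj : b j < 0) : J j = Ch.W := by
  have h1 := (mem_Box.1 h j).2 hj
  have h2 := hJ j
  rcases e : J j with _ | _ | _
  · have := h2.1 e
    omega
  · have := h2.2 e
    omega
  · rfl

theorem mem_Om_of_box {b β : Fin m → ℤ} {J : Fin m → Ch} (h : β ∈ Box b)
    (hJ : ∀ j, b j < 0 → J j = Ch.W) : β ∈ Om b J := by
  intro j
  by_cases hj : b j < 0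
  · simp [hJ j hj]
  · have := (mem_Box.1 h j).1 (not_lt.1 hj)
    exact ⟨fun _ => this.1, fun _ => this.2⟩

theorem not_mem_Om_update {b β : Fin m → ℤ} (h : β ∈ Box b) {j : Fin m}
    (hj : Jstar b j = Ch.W) {J : Fin m → Ch} {L : Ch} (hL : L ≠ Ch.W) :
    β ∉ Om b (Function.update J j L) := fun hc =>
  hL (by simpa using eq_W_of_box h hc (Jstar_eq_W.1 hj))

theorem Cm_cmono (b : Fin m → ℤ) : CMono (Cm A b) := by
  intro J j hj
  exact ⟨AddMonoidAlgebra.supported_mono (Om_update hj _),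
    AddMonoidAlgebra.supported_mono (Om_update hj _)⟩

/-- The acyclic part of the monomial complex. -/
noncomputable def Cm' (A : Type u) [CommRing A] (b : Fin m → ℤ) (J : Fin m → Ch) :
    Submodule A (Lau A m) :=
  AddMonoidAlgebra.supported A A {β | β ∈ Om b J ∧ ¬ (J = Jstar b ∧ β ∈ Box b)}

theorem mem_Cm' {b : Fin m → ℤ} {J : Fin m → Ch} {v : Lau A m} :
    v ∈ Cm' A b J ↔ ∀ β, v.coeff β ≠ 0 → β ∈ Om b J ∧ ¬ (J = Jstar b ∧ β ∈ Box b) := by
  unfold Cm'
  rw [AddMonoidAlgebra.mem_supported']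
  exact forall_congr' fun β => not_imp_comm

theorem Cm'_cmono (b : Fin m → ℤ) : CMono (Cm' A b) := by
  intro J j hj
  have : ∀ L, L ≠ Ch.W → Cm' A b (Function.update J j L) ≤ Cm' A b J := by
    intro L hL
    refine AddMonoidAlgebra.supported_mono fun β hβ => ⟨Om_update hj _ hβ.1, ?_⟩
    rintro ⟨rfl, h⟩
    exact not_mem_Om_update h hj hL hβ.1
  exact ⟨this _ (by decide), this _ (by decide)⟩

theorem Cm'_le (b : Fin m → ℤ) : Cm' A b ≤ Cm A b := by
  intro J
  exact AddMonoidAlgebra.supported_mono fun β hβ => hβ.1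

theorem scalar_exa (b β : Fin m → ℤ) (n : ℤ) (ζ : (Fin m → Ch) → A) (h0 : cd A m A ζ = 0)
    (h : ∀ J, ζ J ≠ 0 → (cdeg J : ℤ) = -n ∧ β ∈ Om b J ∧ ¬ (J = Jstar b ∧ β ∈ Box b)) :
    ∃ η : (Fin m → Ch) → A, cd A m A η = ζ ∧
      ∀ J, η J ≠ 0 → (cdeg J : ℤ) = -(n + 1) ∧ β ∈ Om b J ∧ ¬ (J = Jstar b ∧ β ∈ Box b) := by
  by_cases hβ : β ∈ Box b
  · obtain ⟨η, h1, h2⟩ := exists_homotopy (R := A) (Finset.univ.filter fun j => 0 ≤ b j) ζ h0
    refine ⟨η, funext fun J => (sub_eq_zero.1 ?_).symm, fun J hJ => ?_⟩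
    · rw [h1 J]
      split_ifs with hc
      · by_contra hz
        obtain ⟨-, a, c⟩ := h _ hz
        refine c ⟨funext fun l => ?_, hβ⟩
        by_cases hl : 0 ≤ b l
        · simp [Jstar, hl]
        · rw [eq_W_of_box hβ a (not_le.1 hl), Jstar_eq_W.2 (not_le.1 hl)]
      · rfl
    · obtain ⟨j, hj, hU, J', a, e, c⟩ := h2 J hJ
      obtain ⟨a1, a2, -⟩ := h _ a
      refine ⟨by omega, mem_Om_of_box hβ fun l hl => ?_, ?_⟩
      · rw [← c l (by simpa using hl)]
        exact eq_W_of_box hβ a2 hl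
      · rintro ⟨rfl, -⟩
        revert hU
        unfold Jstar
        split_ifs <;> simp
  · have key : ∀ (j : Fin m) (L : Ch), L ≠ Ch.W → (L = Ch.U → 0 ≤ β j) → (L = Ch.V → β j ≤ b j) →
        ∀ J, chm A A j L ζ J ≠ 0 →
          (cdeg J : ℤ) = -(n + 1) ∧ β ∈ Om b J ∧ ¬ (J = Jstar b ∧ β ∈ Box b) := by
      intro j L hL c1 c2 J hJ
      rw [chm_apply] at hJ
      have hU : J j = L := by
        by_contra hc
        exact hJ (if_neg hc)
      rw [if_pos hU] at hJ
      obtain ⟨a1, a2, -⟩ := h (Function.update J j Ch.W) fun hc => hJ (by rw [hc, smul_zero])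
      rw [cdeg_update_W J (hU ▸ hL)] at a1
      refine ⟨by push_cast at a1; omega, fun l => ?_, fun hc => hβ hc.2⟩
      by_cases hl : l = j
      · subst hl
        rw [hU]
        exact ⟨c1, c2⟩
      · simpa [hl] using a2 l
    have : ∃ j, (0 ≤ β j ∧ b j < β j) ∨ (β j < 0 ∧ β j ≤ b j) := by
      by_contra hc
      refine hβ (mem_Box.2 fun j => ?_)
      have : ¬ ((0 ≤ β j ∧ b j < β j) ∨ (β j < 0 ∧ β j ≤ b j)) := fun hj => hc ⟨j, hj⟩
      omega
    obtain ⟨j, hj | hj⟩ := this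
    · refine ⟨chm A A j Ch.U ζ, funext fun J => ?_,
        key j Ch.U (by decide) (fun _ => hj.1) (fun e => by cases e)⟩
      have e := cd_chm_U (R := A) j ζ J
      rw [h0, map_zero, add_zero] at e
      have z : ζ (Function.update J j Ch.V) = 0 := by
        by_contra hc
        have := ((h _ hc).2.1 j).2 (by simp)
        omega
      rw [e, z, ite_self, sub_zero]
    · refine ⟨-chm A A j Ch.V ζ, funext fun J => ?_, fun J hJ =>
        key j Ch.V (by decide) (fun e => by cases e) (fun _ => hj.2) J (by simpa using hJ)⟩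
      have e := cd_chm_V (R := A) j ζ J
      rw [h0, map_zero, add_zero] at e
      have z : ζ (Function.update J j Ch.U) = 0 := by
        by_contra hc
        have := ((h _ hc).2.1 j).1 (by simp)
        omega
      rw [map_neg, Pi.neg_apply, e, z, ite_self, sub_zero, neg_neg]

/-- The coefficient of a monomial. -/
noncomputable def cf (A : Type u) [CommRing A] (β : Fin m → ℤ) : Lau A m →ₗ[A] A :=
  Finsupp.lapply β ∘ₗ (AddMonoidAlgebra.coeffLinearEquiv A).toLinearMap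

theorem cf_apply (β : Fin m → ℤ) (v : Lau A m) : cf A β v = v.coeff β := rfl

theorem Cm'_exa (b : Fin m → ℤ) : Exa (cd A m (Lau A m)) ⊥ (Cech (Cm' A b)) := by
  classical
  rintro n ξ ⟨hξ, h0⟩
  have h0 : cd A m (Lau A m) ξ = 0 := h0
  obtain ⟨h1, h2⟩ := mem_cech.1 hξ
  have key : ∀ β, ∃ η : (Fin m → Ch) → A, cd A m A η = (fun J => (ξ J).coeff β) ∧
      ∀ J, η J ≠ 0 → (cdeg J : ℤ) = -(n + 1) ∧ β ∈ Om b J ∧ ¬ (J = Jstar b ∧ β ∈ Box b) := by
    intro β
    refine scalar_exa b β n _ (funext fun J => ?_) fun J hJ => ?_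
    · have := cd_comp (cf A β) ξ J
      rw [h0] at this
      exact this.trans (map_zero _)
    · have hd : (cdeg J : ℤ) = -n := by
        by_contra hc
        exact hJ (by rw [h2 J hc]; rfl)
      exact ⟨hd, mem_Cm'.1 (h1 J hd) β hJ⟩
  choose η e1 e2 using key
  let T : Finset (Fin m → ℤ) := Finset.univ.biUnion fun J => (ξ J).coeff.support
  refine Submodule.mem_sup_right ⟨∑ β ∈ T, fun J => AddMonoidAlgebra.lsingle (R := A) β (η β J),
    Submodule.sum_mem _ fun β _ => mem_cech.2 ⟨fun J hJ => mem_Cm'.2 fun γ hγ => ?_,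
      fun J hJ => ?_⟩, funext fun J => ?_⟩
  · rw [AddMonoidAlgebra.lsingle_apply, AddMonoidAlgebra.coeff_single, Finsupp.single_apply] at hγ
    split_ifs at hγ with hc
    · subst hc
      exact (e2 β J hγ).2
    · exact (hγ rfl).elim
  · have : η β J = 0 := by
      by_contra hc
      exact hJ (e2 β J hc).1
    rw [this, map_zero]
  · rw [map_sum, Finset.sum_apply]
    simp only [cd_comp, e1]
    refine AddMonoidAlgebra.coeff_injective (Finsupp.ext fun γ => ?_)
    rw [AddMonoidAlgebra.coeff_sum, Finsupp.finset_sum_apply]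
    simp only [AddMonoidAlgebra.lsingle_apply, AddMonoidAlgebra.coeff_single, Finsupp.single_apply]
    rw [Finset.sum_ite_eq']
    split_ifs with hc
    · rfl
    · by_contra hz
      exact hc (Finset.mem_biUnion.2 ⟨J, Finset.mem_univ _, Finsupp.mem_support_iff.2 (Ne.symm hz)⟩)

/-- Coboundaries have no coefficients in the box. -/
theorem cd_mem_Cm' (b : Fin m → ℤ) (n : ℤ) :
    (Cech (Cm A b) n).map (cd A m (Lau A m)) ≤ Cech (Cm' A b) (n - 1) := by
  rintro _ ⟨ξ, hξ, rfl⟩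
  obtain ⟨a1, a2⟩ := mem_cech.1 (cech_isCx (Cm_cmono b) n ⟨ξ, hξ, rfl⟩)
  obtain ⟨h1, h2⟩ := mem_cech.1 hξ
  have h3 : ∀ J, ξ J ∈ Cm A b J := fun J => by
    by_cases hJ : (cdeg J : ℤ) = -n
    · exact h1 J hJ
    · rw [h2 J hJ]
      exact zero_mem _
  refine mem_cech.2 ⟨fun J hJ => mem_Cm'.2 fun β hβ => ⟨?_, ?_⟩, a2⟩
  · by_contra hc
    exact hβ (mem_Cm.1 (a1 J hJ) β hc)
  · rintro ⟨rfl, hb⟩
    apply hβ
    rw [← cf_apply, ← cd_comp, cd_apply]
    refine Finset.sum_eq_zero fun j hj => ?_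
    have hj := (Finset.mem_filter.1 hj).2
    rw [cf_apply, cf_apply, mem_Cm.1 (h3 _) β (not_mem_Om_update hb hj (by decide)),
      mem_Cm.1 (h3 _) β (not_mem_Om_update hb hj (by decide)), sub_zero, smul_zero]

theorem rl_Jstar (μ : LenFun A) (b : Fin m → ℤ) :
    rl μ (Cm' A b (Jstar b)) (Cm A b (Jstar b)) = ((Box b).card : ℕ∞) * μ.len A := by
  classical
  let φ : Lau A m →ₗ[A] (Box b → A) := LinearMap.pi fun β => cf A β.1
  have h1 : Cm' A b (Jstar b) = LinearMap.ker φ ⊓ Cm A b (Jstar b) := by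
    ext v
    rw [mem_Cm', Submodule.mem_inf, mem_Cm, LinearMap.mem_ker, funext_iff (f := φ v)]
    constructor
    · intro h
      refine ⟨fun β => ?_, fun β hβ => ?_⟩
      · by_contra hc
        exact (h β.1 hc).2 ⟨rfl, β.2⟩
      · by_contra hc
        exact hβ (h β hc).1
    · rintro ⟨h1, h2⟩ β hβ
      refine ⟨?_, fun hc => hβ (h1 ⟨β, hc.2⟩)⟩
      by_contra hc
      exact hβ (h2 β hc)
  have h2 : (Cm A b (Jstar b)).map φ = ⊤ := by
    refine top_le_iff.1 fun w _ => ?_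
    rw [← Finset.univ_sum_single w]
    refine Submodule.sum_mem _ fun β _ => ⟨AddMonoidAlgebra.single β.1 (w β),
      mem_Cm.2 fun γ hγ => ?_, funext fun γ => ?_⟩
    · rw [AddMonoidAlgebra.coeff_single, Finsupp.single_apply, if_neg]
      rintro rfl
      exact hγ (mem_Om_of_box β.2 fun j hj => Jstar_eq_W.2 hj)
    · change (AddMonoidAlgebra.single β.1 (w β) : Lau A m).coeff γ.1 = _
      rw [AddMonoidAlgebra.coeff_single, Finsupp.single_apply, Pi.single_apply]
      exact if_congr (Subtype.ext_iff.symm.trans eq_comm) rfl rfl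
  rw [h1, rl_inf, rl_eq_len_map μ φ _ _ rfl, h2, μ.equiv Submodule.topEquiv,
    μ.len_pi fun _ : Box b => A]
  simp

theorem mono_hh (μ : LenFun A) (b : Fin m → ℤ) (n : ℤ) :
    hh μ (cd A m (Lau A m)) ⊥ (Cech (Cm A b)) n =
      if n = -(cdeg (Jstar b) : ℤ) then ((Box b).card : ℕ∞) * μ.len A else 0 := by
  rw [hh_eq_of_exa_left μ cd_comp_cd isCx_bot (cech_isCx (Cm'_cmono b)) (cech_isCx (Cm_cmono b))
    bot_le (cech_mono (Cm'_le b)) (Cm'_exa b), hh_of_zero_diff μ (cd_mem_Cm' b)]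
  unfold Cech
  rw [rl_pi, Finset.sum_eq_single (Jstar b)]
  · by_cases h : n = -(cdeg (Jstar b) : ℤ)
    · rw [if_pos h, if_pos (by omega), if_pos (by omega), rl_Jstar]
    · rw [if_neg h, if_neg (by omega), if_neg (by omega), rl_eq_zero_of_le μ le_rfl]
  · intro J _ hJ
    refine rl_eq_zero_of_le μ ?_
    split_ifs
    · exact AddMonoidAlgebra.supported_mono fun β hβ => ⟨hβ, fun hc => hJ hc.1⟩
    · exact le_rfl
  · simp

theorem box_card (b : Fin m → ℤ) : ((Box b).card : ℤ) = ∏ j, |b j + 1| := by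
  unfold Box
  rw [Fintype.card_piFinset]
  push_cast
  refine Finset.prod_congr rfl fun j _ => ?_
  by_cases h : 0 ≤ b j
  · rw [if_pos h, Int.card_Icc, abs_of_nonneg (by omega)]
    omega
  · rw [if_neg h, Int.card_Ioo, abs_of_nonpos (by omega)]
    omega

theorem sign_mul_box_card (b : Fin m → ℤ) :
    (((-(cdeg (Jstar b) : ℤ)).negOnePow : ℤˣ) : ℤ) * ((Box b).card : ℤ) = ∏ j, (b j + 1) := by
  rw [box_card, Int.negOnePow_neg, Int.coe_negOnePow_natCast]
  unfold cdeg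
  rw [← Finset.prod_const, Finset.prod_filter, ← Finset.prod_mul_distrib]
  refine Finset.prod_congr rfl fun j _ => ?_
  by_cases h : b j < 0
  · rw [if_pos (Jstar_eq_W.2 h), abs_of_nonpos (by omega)]
    ring
  · rw [if_neg (fun hc => h (Jstar_eq_W.1 hc)), abs_of_nonneg (by omega), one_mul]

theorem mono_good_chi (k : Type u) [Field k] (b : Fin m → ℤ) :
    Good (cd k m (Lau k m)) ⊥ (Cech (Cm k b)) ∧
      chi (cd k m (Lau k m)) ⊥ (Cech (Cm k b)) = ∏ j, (b j + 1) ∧
      tot (cd k m (Lau k m)) ⊥ (Cech (Cm k b)) = (Box b).card := by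
  have h1 : (lenF k).len k = 1 := Module.length_eq_one k k
  have h := mono_hh (lenF k) b
  rw [h1, mul_one] at h
  have h0 : ∀ n ∉ ({-(cdeg (Jstar b) : ℤ)} : Finset ℤ),
      hh (lenF k) (cd k m (Lau k m)) ⊥ (Cech (Cm k b)) n = 0 := fun n hn => by
    rw [h, if_neg (by simpa using hn)]
  refine ⟨good_of_bounded _ h0 fun n _ => ?_, ?_, ?_⟩
  · rw [h]
    split_ifs <;> simp
  · rw [chi_eq_sum _ h0, Finset.sum_singleton, h, if_pos rfl, ← sign_mul_box_card]
    simp
  · rw [tot_eq_sum _ h0, Finset.sum_singleton, h, if_pos rfl]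
    simp

/-- The standard cocycle: `v` placed on all charts of the same type as `Jstar b`. -/
noncomputable def cocyc (b : Fin m → ℤ) (v : Lau A m) : (Fin m → Ch) → Lau A m :=
  fun J => if ∀ j, (J j = Ch.W ↔ Jstar b j = Ch.W) then v else 0

theorem cocyc_mem (b : Fin m → ℤ) (v : Lau A m) (hv : ∀ β ∉ Box b, v.coeff β = 0) :
    cocyc b v ∈ Zc (cd A m (Lau A m)) ⊥ (Cech (Cm A b)) (-(cdeg (Jstar b) : ℤ)) := by
  refine ⟨mem_cech.2 ⟨fun J _ => ?_, fun J hJ => ?_⟩, funext fun J => ?_⟩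
  · unfold cocyc
    split_ifs with hc
    · refine mem_Cm.2 fun β hβ => hv β fun hb => hβ (mem_Om_of_box hb fun j hj => ?_)
      exact (hc j).2 (Jstar_eq_W.2 hj)
    · exact zero_mem _
  · unfold cocyc
    rw [if_neg]
    intro hc
    exact hJ (by rw [cdeg_congr hc, neg_neg])
  · rw [cd_apply]
    refine Finset.sum_eq_zero fun j _ => ?_
    have : cocyc b v (Function.update J j Ch.U) = cocyc b v (Function.update J j Ch.V) := by
      refine if_congr (forall_congr' fun l => ?_) rfl rfl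
      by_cases hl : l = j
      · subst hl
        simp
      · simp [hl]
    rw [this, sub_self, smul_zero]

end Vale.Agent.P202
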