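import Vale.Agent.P202.HS
import Vale.Agent.P202.RankA

/-! The rank of a module along a Frobenius-like map. -/

namespace Vale.Agent.P202

open IsLocalRing Filter Topology

universe u

theorem rank_pigeon_step {R : Type u} [CommRing R] {d : ℕ} (x : Fin d → R) {q N : ℕ} (hq : 0 < q)
    (hN : d * q ≤ N) :
    Ideal.span (Set.range x) ^ (N + q) ≤
      Ideal.span (Set.range fun i => x i ^ q) * Ideal.span (Set.range x) ^ N := by
  classical
  intro z hz
  obtain ⟨g, hg, rfl⟩ := (mem_pow_iff x _ z).1 hz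
  rw [MvPolynomial.eval_eq']
  refine Ideal.sum_mem _ fun β hβ => Ideal.mul_mem_left _ _ ?_
  have hdeg : ∑ i, β i = N + q := by
    have h := hg (MvPolynomial.mem_support_iff.1 hβ)
    rw [← h, Finsupp.weight_apply, Finsupp.sum_fintype _ _ (by simp)]
    simp
  have hex : ∃ i, q ≤ β i := by
    by_contra hcon
    push Not at hcon
    have h1 : ∑ i, β i ≤ ∑ _i : Fin d, q := Finset.sum_le_sum fun i _ => (hcon i).le
    rw [Finset.sum_const, Finset.card_univ, Fintype.card_fin, smul_eq_mul] at h1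
    omega
  obtain ⟨i, hi⟩ := hex
  rw [← Finset.add_sum_erase _ _ (Finset.mem_univ i)] at hdeg
  rw [← Finset.mul_prod_erase _ _ (Finset.mem_univ i), show β i = q + (β i - q) by omega, pow_add,
    mul_assoc]
  refine Ideal.mul_mem_mul (Ideal.subset_span ⟨i, rfl⟩) ?_
  rw [show N = (β i - q) + ∑ j ∈ Finset.univ.erase i, β j by omega, pow_add,
    ← Finset.prod_pow_eq_pow_sum]
  exact Ideal.mul_mem_mul (Ideal.pow_mem_pow (Ideal.subset_span (Set.mem_range_self i)) _)
    (Ideal.prod_mem_prod fun j _ => Ideal.pow_mem_pow (Ideal.subset_span (Set.mem_range_self j)) _)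

theorem rank_pigeon {R : Type u} [CommRing R] {d : ℕ} (x : Fin d → R) {q : ℕ} (hq : 0 < q)
    (n : ℕ) :
    Ideal.span (Set.range x) ^ (q * (n + d)) ≤ Ideal.span (Set.range fun i => x i ^ q) ^ n := by
  have key : Ideal.span (Set.range x) ^ (q * (n + d)) ≤
      Ideal.span (Set.range fun i => x i ^ q) ^ n * Ideal.span (Set.range x) ^ (q * d) := by
    induction n with
    | zero => simp
    | succ n ih =>
      rw [show q * (n + 1 + d) = q * (n + d) + q by ring, pow_succ', mul_assoc]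
      exact (rank_pigeon_step x hq (by nlinarith)).trans (Ideal.mul_mono_right ih)
  exact key.trans Ideal.mul_le_left

theorem rank_tendsto {d q : ℕ} (hq : 0 < q) {f : ℕ → ℝ} {e : ℝ}
    (h : Tendsto (fun n : ℕ => (d.factorial : ℝ) * f n / (n : ℝ) ^ d) atTop (𝓝 e)) :
    Tendsto (fun n : ℕ => (d.factorial : ℝ) * f (q * (n + d)) / (n : ℝ) ^ d) atTop
      (𝓝 ((q : ℝ) ^ d * e)) := by
  have h1 : Tendsto (fun n : ℕ => q * (n + d)) atTop atTop :=
    tendsto_atTop_mono (fun n => by simp only [id]; nlinarith) tendsto_id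
  have h2 : Tendsto (fun n : ℕ => ((q : ℝ) * (1 + (d : ℝ) / n)) ^ d) atTop (𝓝 ((q : ℝ) ^ d)) := by
    have h3 := (((tendsto_const_div_atTop_nhds_zero_nat (d : ℝ)).const_add 1).const_mul
      (q : ℝ)).pow d
    simpa using h3
  refine (h2.mul (h.comp h1)).congr' ?_
  filter_upwards [eventually_gt_atTop 0] with n hn
  have hn' : (0 : ℝ) < n := by exact_mod_cast hn
  have hq' : (0 : ℝ) < q := by exact_mod_cast hq
  have e1 : (q : ℝ) * (1 + (d : ℝ) / n) = ((q * (n + d) : ℕ) : ℝ) / n := by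
    push_cast
    field_simp
  have hp : (0 : ℝ) < ((q * (n + d) : ℕ) : ℝ) := by
    push_cast
    positivity
  rw [e1, div_pow, Function.comp_apply]
  field_simp

theorem rank_bound {R0 : Type u} [CommRing R0] [IsLocalRing R0] [IsNoetherianRing R0]
    [IsDomain R0] {R : Type u} [CommRing R] [IsLocalRing R] [IsNoetherianRing R] [IsDomain R]
    [Algebra R0 R] [IsLocalHom (algebraMap R0 R)]
    {E : Type u} [AddCommGroup E] [Module R E] [Module R0 E] [IsScalarTower R0 R E]
    {d : ℕ} (x0 : Fin d → R0) (x : Fin d → R) (q : ℕ) (hq : ∀ i, algebraMap R0 R (x0 i) = x i ^ q)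
    (hx0 : ∀ i, x0 i ∈ maximalIdeal R0) (hx : ∀ i, x i ∈ maximalIdeal R) {t0 t : ℕ}
    (ht0 : maximalIdeal R0 ^ t0 ≤ Ideal.span (Set.range x0))
    (ht : maximalIdeal R ^ t ≤ Ideal.span (Set.range x)) (hg0 : Grow R0 d) (hg : Grow R d)
    (κ : ℕ) (hκ : Module.length (ResidueField R0) (ResidueField R) = κ) {e0 e : ℝ}
    (he0 : Tendsto (HS R0 (Ideal.span (Set.range x0)) d) atTop (𝓝 e0))
    (he : Tendsto (HS R (Ideal.span (Set.range x)) d) atTop (𝓝 e))
    {W : Submodule R E} (hW : W.FG) (T : Finset E) (hT : (T : Set E) ⊆ W) {c : R} (hc : c ≠ 0)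
    (hcT : ∀ w ∈ W, c • w ∈ Submodule.span R (T : Set E))
    {r : ℕ} (v : Fin r → E) (hv : ∀ i, v i ∈ W) (hli : LinearIndependent R0 v) {c0 : R0}
    (hc0 : c0 ≠ 0) (hcv : ∀ w ∈ W, c0 • w ∈ Submodule.span R0 (Set.range v)) :
    (r : ℝ) * e0 ≤ T.card * κ * (q : ℝ) ^ d * e := by
  obtain ⟨q', hq'pos, hq', hqd⟩ : ∃ q' : ℕ, 0 < q' ∧ (∀ i, algebraMap R0 R (x0 i) = x i ^ q') ∧
      (q' : ℝ) ^ d = (q : ℝ) ^ d := by
    rcases Nat.eq_zero_or_pos q with rfl | hpos
    · cases d with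
      | zero => exact ⟨1, one_pos, fun i => i.elim0, by simp⟩
      | succ d =>
        exfalso
        have h1 : IsUnit (algebraMap R0 R (x0 0)) := by rw [hq 0, pow_zero]; exact isUnit_one
        exact hx0 0 (isUnit_of_map_unit _ _ h1)
    · exact ⟨q, hpos, hq, rfl⟩
  obtain ⟨ν, hν⟩ := rank_up hW T hT hcT
  set I := Ideal.span (Set.range x) with hI
  let L1 : ℕ → ℕ := fun n => (Module.length R (R ⧸ I ^ n)).toNat
  let L2 : ℕ → ℕ := fun n => (Module.length R (R ⧸ (Ideal.span {c} ⊔ I ^ n))).toNat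
  have hL1 : ∀ n, (L1 n : ℕ∞) = Module.length R (R ⧸ I ^ n) := fun n =>
    ENat.natCast_toNat (ra_ne_top (ra_pow_le ht n))
  have hL2 : ∀ n, (L2 n : ℕ∞) = Module.length R (R ⧸ (Ideal.span {c} ⊔ I ^ n)) := fun n =>
    ENat.natCast_toNat (ra_ne_top (le_sup_of_le_right (ra_pow_le ht n)))
  have hmap : (Ideal.span (Set.range x0)).map (algebraMap R0 R) =
      Ideal.span (Set.range fun i => x i ^ q') := by
    rw [Ideal.map_span, ← Set.range_comp]
    congr 2
    funext i
    exact hq' i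
  have hlim := ((rank_tendsto hq'pos (f := fun n => (L1 n : ℝ)) he).const_mul
    ((T.card : ℝ) * κ)).add
    ((rank_tendsto hq'pos (f := fun n => (L2 n : ℝ)) (tendsto_err hg ht hc)).const_mul
      ((ν : ℝ) * κ))
  have key := le_of_rank_low hg0 ht0 he0 (W := W.restrictScalars R0) v hv hli hc0 hcv
    (fun n => (((T.card * L1 (q' * (n + d)) + ν * L2 (q' * (n + d))) * κ : ℕ) : ℕ∞))
    (fun n => ENat.natCast_ne_top _) (fun n => ?_) (hlim.congr fun n => ?_)
  · refine key.trans (le_of_eq ?_)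
    rw [hqd]
    ring
  · rw [← Ideal.smul_restrictScalars, rl_restrictScalars, hκ, Ideal.map_pow, hmap]
    push_cast
    rw [hL1, hL2]
    gcongr
    refine le_trans (rl_mono _ (Submodule.smul_mono_left (rank_pigeon x hq'pos n)) le_rfl) (hν _)
  · rw [ENat.toNat_natCast]
    push_cast
    ring

end Vale.Agent.P202
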