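import Vale.Agent.P202.HS

/-! Existence of minimal reductions. -/

namespace Vale.Agent.P202

open MvPolynomial IsLocalRing

universe u

variable {R : Type u} [CommRing R] [IsNoetherianRing R] [IsLocalRing R]

theorem red_exists_sop {d : ℕ} (hd : ringKrullDim R = d) :
    ∃ (x : Fin d → R) (t : ℕ), (∀ i, x i ∈ maximalIdeal R) ∧
      maximalIdeal R ^ t ≤ Ideal.span (Set.range x) := by
  classical
  obtain ⟨s, hs, hc⟩ := Ideal.exists_finset_card_eq_height_of_isNoetherianRing (maximalIdeal R)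
  have h1 : ((maximalIdeal R).height : WithBot ℕ∞) = d := by
    rw [IsLocalRing.maximalIdeal_height_eq_ringKrullDim, hd]
  have h2 : s.card = d := by
    rw [← hc] at h1
    exact_mod_cast h1
  let e : Fin d ≃ s := (s.equivFinOfCardEq h2).symm
  have hr : Set.range (fun i => (e i : R)) = (s : Set R) := by
    ext z
    constructor
    · rintro ⟨i, rfl⟩
      exact (e i).2
    · intro hz
      exact ⟨e.symm ⟨z, hz⟩, by simp⟩
  have hrad : maximalIdeal R ≤ (Ideal.span (s : Set R)).radical := by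
    rw [← Ideal.sInf_minimalPrimes]
    refine le_sInf fun p hp => ?_
    have hp1 : p.IsPrime := hp.1.1
    exact hs.2 hp.1 (IsLocalRing.le_maximalIdeal hp1.ne_top)
  obtain ⟨t, ht⟩ := Ideal.exists_pow_le_of_le_radical_of_fg hrad (IsNoetherian.noetherian _)
  refine ⟨fun i => (e i : R), t, fun i => hs.1.2 (Ideal.subset_span (e i).2), ?_⟩
  rw [hr]
  exact ht

omit [IsNoetherianRing R] [IsLocalRing R] in
theorem red_length_eq_sum (I : Ideal R) (n : ℕ) :
    Module.length R (R ⧸ I ^ n) =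
      ∑ s ∈ Finset.range n, rl (lenF R) (I ^ (s + 1) : Ideal R) (I ^ s : Ideal R) := by
  have h0 : ∀ n : ℕ, Module.length R (R ⧸ I ^ n) = rl (lenF R) (I ^ n : Ideal R) ⊤ := fun n =>
    (rl_top (lenF R) (I ^ n : Ideal R)).symm
  rw [h0]
  induction n with
  | zero => simpa using rl_eq_zero_of_le (lenF R) (le_rfl (a := (⊤ : Ideal R)))
  | succ n ih =>
    rw [Finset.sum_range_succ, ← ih,
      rl_add (lenF R) (Ideal.pow_le_pow_right (Nat.le_succ n)) le_top, add_comm]

theorem red_choose_le (s d : ℕ) : (s + d).choose d ≤ (s + 1) ^ d := by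
  induction d with
  | zero => simp
  | succ d ih =>
    have h := Nat.add_one_mul_choose_eq (s + d) d
    have h2 : (s + (d + 1)).choose (d + 1) * (d + 1) ≤ (s + 1) ^ (d + 1) * (d + 1) := by
      rw [show s + (d + 1) = s + d + 1 by ring, ← h, pow_succ]
      calc (s + d + 1) * (s + d).choose d ≤ ((s + 1) * (d + 1)) * (s + 1) ^ d :=
            Nat.mul_le_mul (by nlinarith) ih
        _ = (s + 1) ^ d * (s + 1) * (d + 1) := by ring
    exact Nat.le_of_mul_le_mul_right h2 (Nat.succ_pos d)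

theorem length_pow_le_of_dim {d : ℕ} (hd : ringKrullDim R = d) :
    ∃ C : ℕ, ∀ n : ℕ, Module.length R (R ⧸ maximalIdeal R ^ n) ≤ C * (n : ℕ∞) ^ d := by
  obtain ⟨x, t, hx, ht⟩ := red_exists_sop hd
  have hI : Ideal.span (Set.range x) ≤ maximalIdeal R := by
    rw [Ideal.span_le]
    rintro _ ⟨i, rfl⟩
    exact hx i
  have hfin := length_quot_pow_ne_top ht 1
  obtain ⟨C, hC⟩ := ENat.ne_top_iff_exists.1 hfin
  have hle : ∀ n : ℕ, ∀ J : Ideal R, J ≤ maximalIdeal R ^ n →
      Module.length R (R ⧸ maximalIdeal R ^ n) ≤ Module.length R (R ⧸ J) := by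
    intro n J hJ
    have := rl_mono (lenF R) (A := (maximalIdeal R ^ n : Ideal R)) (A' := J) hJ (le_rfl (a := ⊤))
    rwa [rl_top, rl_top] at this
  refine ⟨C, fun n => ?_⟩
  cases d with
  | zero =>
    have h0 : Ideal.span (Set.range x) = ⊥ := by simp
    rw [pow_zero, mul_one, hC]
    apply hle
    rw [h0, pow_one]
    exact bot_le
  | succ d =>
    refine (hle n _ (Ideal.pow_right_mono hI n)).trans ?_
    rw [red_length_eq_sum]
    have hb : ∀ s ∈ Finset.range n, rl (lenF R) (Ideal.span (Set.range x) ^ (s + 1) : Ideal R)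
        (Ideal.span (Set.range x) ^ s : Ideal R) ≤ C * (n : ℕ∞) ^ d := by
      intro s hs
      refine (length_pow_succ_le x s).trans ?_
      rw [pow_one] at hC
      rw [← hC]
      gcongr
      have h1 : (s + d).choose d ≤ n ^ d :=
        (red_choose_le s d).trans (Nat.pow_le_pow_left (Finset.mem_range.1 hs) d)
      exact_mod_cast h1
    refine (Finset.sum_le_card_nsmul _ _ _ hb).trans ?_
    rw [Finset.card_range, nsmul_eq_mul, pow_succ]
    exact le_of_eq (by ring)

/-- Congruence of elements of degree `n` modulo `J m^(n-1)`. -/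
def RedRel (J m : Ideal R) (n : ℕ) (a b : R) : Prop :=
  a ∈ m ^ n ∧ b ∈ m ^ n ∧ ∀ z ∈ m, z * (a - b) ∈ J * m ^ n

omit [IsNoetherianRing R] [IsLocalRing R] in
theorem RedRel.const (J m : Ideal R) (c : R) : RedRel J m 0 c c := by
  refine ⟨by simp, by simp, fun z _ => by simp⟩

omit [IsNoetherianRing R] [IsLocalRing R] in
theorem RedRel.mul {J m : Ideal R} {n n' : ℕ} {a b a' b' : R} (h : RedRel J m n a b)
    (h' : RedRel J m n' a' b') : RedRel J m (n + n') (a * a') (b * b') := by
  refine ⟨by rw [pow_add]; exact Ideal.mul_mem_mul h.1 h'.1,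
    by rw [pow_add]; exact Ideal.mul_mem_mul h.2.1 h'.2.1, fun z hz => ?_⟩
  have e : z * (a * a' - b * b') = z * (a' - b') * a + z * (a - b) * b' := by ring
  rw [e]
  refine Ideal.add_mem _ ?_ ?_
  · rw [add_comm n n', pow_add, ← mul_assoc]
    exact Ideal.mul_mem_mul (h'.2.2 z hz) h.1
  · rw [pow_add, ← mul_assoc]
    exact Ideal.mul_mem_mul (h.2.2 z hz) h'.2.1

omit [IsNoetherianRing R] [IsLocalRing R] in
theorem RedRel.pow {J m : Ideal R} {a b : R} (h : RedRel J m 1 a b) (k : ℕ) :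
    RedRel J m k (a ^ k) (b ^ k) := by
  induction k with
  | zero => simpa using RedRel.const J m 1
  | succ k ih => rw [pow_succ, pow_succ]; exact ih.mul h

omit [IsNoetherianRing R] [IsLocalRing R] in
theorem RedRel.prod {J m : Ideal R} {ι : Type} (s : Finset ι) (n : ι → ℕ) (a b : ι → R)
    (h : ∀ i ∈ s, RedRel J m (n i) (a i) (b i)) :
    RedRel J m (∑ i ∈ s, n i) (∏ i ∈ s, a i) (∏ i ∈ s, b i) := by
  classical
  induction s using Finset.induction_on with
  | empty => simpa using RedRel.const J m 1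
  | insert i s hi ih =>
    rw [Finset.sum_insert hi, Finset.prod_insert hi, Finset.prod_insert hi]
    exact (h i (Finset.mem_insert_self _ _)).mul
      (ih fun j hj => h j (Finset.mem_insert_of_mem hj))

omit [IsNoetherianRing R] [IsLocalRing R] in
theorem RedRel.sum {J m : Ideal R} {ι : Type} (s : Finset ι) (n : ℕ) (a b : ι → R)
    (h : ∀ i ∈ s, RedRel J m n (a i) (b i)) :
    RedRel J m n (∑ i ∈ s, a i) (∑ i ∈ s, b i) := by
  refine ⟨Ideal.sum_mem _ fun i hi => (h i hi).1, Ideal.sum_mem _ fun i hi => (h i hi).2.1,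
    fun z hz => ?_⟩
  rw [← Finset.sum_sub_distrib, Finset.mul_sum]
  exact Ideal.sum_mem _ fun i hi => (h i hi).2.2 z hz

/-- There is a reduction of the maximal ideal generated by `r` elements. -/
def HasRed (R : Type u) [CommRing R] [IsLocalRing R] (r : ℕ) : Prop :=
  ∃ (x : Fin r → R) (n0 : ℕ), (∀ i, x i ∈ maximalIdeal R) ∧
    maximalIdeal R ^ (n0 + 1) ≤ Ideal.span (Set.range x) * maximalIdeal R ^ n0

omit [IsNoetherianRing R] in
theorem HasRed.succ {r : ℕ} (h : HasRed R r) : HasRed R (r + 1) := by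
  obtain ⟨x, n0, hx, hn⟩ := h
  refine ⟨Fin.cons 0 x, n0, fun i => ?_, hn.trans (Ideal.mul_mono_left (Ideal.span_mono ?_))⟩
  · refine Fin.cases ?_ (fun j => ?_) i
    · simp
    · simpa using hx j
  · rintro _ ⟨i, rfl⟩
    exact ⟨i.succ, by simp⟩

theorem exists_hasRed : ∃ r, HasRed R r := by
  obtain ⟨r, x, hx⟩ := Submodule.fg_iff_exists_fin_generating_family.1
    (IsNoetherian.noetherian (maximalIdeal R))
  refine ⟨r, x, 0, fun i => ?_, ?_⟩
  · rw [← hx]
    exact Submodule.subset_span ⟨i, rfl⟩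
  · have hx' : Ideal.span (Set.range x) = maximalIdeal R := hx
    rw [hx']
    simp

omit [IsNoetherianRing R] in
/-- Lower bound for the Hilbert function when the initial forms are algebraically independent. -/
theorem red_lower {r : ℕ} (x : Fin r → R) (hx : ∀ i, x i ∈ maximalIdeal R) (γ : ℕ)
    (B : Finset (Fin r → ℕ)) (hB : ∀ e ∈ B, ∑ i, e i = γ)
    (hind : ∀ c : B → R, ∑ e : B, c e * ∏ i, x i ^ (e.1 i) ∈ maximalIdeal R ^ (γ + 1) →
      ∀ e, c e ∈ maximalIdeal R) :
    (B.card : ℕ∞) ≤ rl (lenF R) (maximalIdeal R ^ (γ + 1) : Ideal R)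
      (maximalIdeal R ^ γ : Ideal R) := by
  classical
  let φ : (B → R) →ₗ[R] R := Fintype.linearCombination R fun e : B => ∏ i, x i ^ (e.1 i)
  have hφ : ∀ c, φ c = ∑ e : B, c e * ∏ i, x i ^ (e.1 i) := fun c => by
    simp [φ, Fintype.linearCombination_apply]
  have h1 : (⊤ : Submodule R (B → R)).map φ ≤ (maximalIdeal R ^ γ : Ideal R) := by
    rintro _ ⟨c, -, rfl⟩
    rw [hφ]
    refine Ideal.sum_mem _ fun e _ => Ideal.mul_mem_left _ _ ?_
    rw [← hB e.1 e.2, ← Finset.prod_pow_eq_pow_sum]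
    exact Ideal.prod_mem_prod fun i _ => Ideal.pow_mem_pow (hx i) _
  have h2 : Submodule.comap φ (maximalIdeal R ^ (γ + 1) : Ideal R) ≤
      Submodule.pi Set.univ fun _ : B => (maximalIdeal R : Submodule R R) := by
    intro c hc e _
    refine hind c ?_ e
    rw [← hφ]
    exact hc
  have h3 : rl (lenF R) (maximalIdeal R : Submodule R R) ⊤ = 1 := by
    rw [rl_top]
    change Module.length R (R ⧸ maximalIdeal R) = 1
    have : IsSimpleModule R (R ⧸ maximalIdeal R) :=
      isSimpleModule_iff_isCoatom.2 (Ideal.isMaximal_def.1 inferInstance)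
    exact Module.length_eq_one _ _
  calc (B.card : ℕ∞) = ∑ _e : B, rl (lenF R) (maximalIdeal R : Submodule R R) ⊤ := by
        simp [h3]
    _ = rl (lenF R) (Submodule.pi Set.univ fun _ : B => (maximalIdeal R : Submodule R R))
          (Submodule.pi Set.univ fun _ : B => (⊤ : Submodule R R)) := (rl_pi _ _ _).symm
    _ ≤ rl (lenF R) (Submodule.comap φ (maximalIdeal R ^ (γ + 1) : Ideal R)) ⊤ :=
        rl_mono _ h2 le_top
    _ = rl (lenF R) (maximalIdeal R ^ (γ + 1) : Ideal R) ((⊤ : Submodule R (B → R)).map φ) :=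
        rl_map _ _ _ _
    _ ≤ _ := rl_mono _ le_rfl h1

/-- More than `dim R` elements satisfy a relation in the associated graded ring. -/
theorem red_exists_rel {d r : ℕ} (hd : ringKrullDim R = d) (hr : d < r) (x : Fin r → R)
    (hx : ∀ i, x i ∈ maximalIdeal R) :
    ∃ (γ : ℕ) (B : Finset (Fin r → ℕ)) (c : B → R), (∀ e ∈ B, ∑ i, e i = γ) ∧
      ∑ e : B, c e * ∏ i, x i ^ (e.1 i) ∈ maximalIdeal R ^ (γ + 1) ∧
      ∃ e, c e ∉ maximalIdeal R := by
  classical
  by_contra hcon
  push Not at hcon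
  obtain ⟨C, hC⟩ := length_pow_le_of_dim hd
  set n : ℕ := C * r ^ d + 1 with hn
  let box : Finset (Fin r → ℕ) := Fintype.piFinset fun _ => Finset.range n
  have hbox : box.card = n ^ r := by simp [box]
  have hmaps : ∀ e ∈ box, ∑ i, e i ∈ Finset.range (r * n) := by
    intro e he
    rw [Finset.mem_range]
    have h1 : ∀ i, e i < n := fun i => Finset.mem_range.1 (Fintype.mem_piFinset.1 he i)
    have hne : (Finset.univ : Finset (Fin r)).Nonempty := ⟨⟨0, by omega⟩, Finset.mem_univ _⟩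
    calc ∑ i, e i < ∑ _i : Fin r, n := Finset.sum_lt_sum_of_nonempty hne fun i _ => h1 i
      _ = r * n := by simp
  have h1 := Finset.card_eq_sum_card_fiberwise (f := fun e : Fin r → ℕ => ∑ i, e i) hmaps
  have h2 : ((n ^ r : ℕ) : ℕ∞) ≤ Module.length R (R ⧸ maximalIdeal R ^ (r * n)) := by
    rw [red_length_eq_sum, ← hbox, h1, Nat.cast_sum]
    refine Finset.sum_le_sum fun γ _ => ?_
    refine red_lower x hx γ _ (fun e he => (Finset.mem_filter.1 he).2) fun c hc => ?_
    exact hcon γ _ c (fun e he => (Finset.mem_filter.1 he).2) hc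
  have h3 := h2.trans (hC (r * n))
  have h4 : n ^ r ≤ C * (r * n) ^ d := by exact_mod_cast h3
  have hpos : 0 < n := by omega
  have h5 : n ^ d * n ≤ n ^ r := by
    rw [← pow_succ]
    exact Nat.pow_le_pow_right hpos hr
  have h6 : n ^ d * n ≤ n ^ d * (C * r ^ d) := by
    calc n ^ d * n ≤ C * (r * n) ^ d := h5.trans h4
      _ = n ^ d * (C * r ^ d) := by rw [mul_pow]; ring
  have h7 := Nat.le_of_mul_le_mul_left h6 (pow_pos hpos d)
  omega

omit [IsNoetherianRing R] in
theorem red_exists_point [Infinite (ResidueField R)] {r : ℕ} (B : Finset (Fin (r + 1) → ℕ))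
    (c : B → R) (hc : ∃ e, c e ∉ maximalIdeal R) :
    ∃ a : Fin (r + 1) → R, IsUnit (a 0) ∧ IsUnit (∑ e : B, c e * ∏ i, a i ^ (e.1 i)) := by
  classical
  obtain ⟨e0, he0⟩ := hc
  let P : MvPolynomial (Fin (r + 1)) (ResidueField R) :=
    ∑ e : B, monomial (Finsupp.equivFunOnFinite.symm e.1) (residue R (c e))
  have hP : P ≠ 0 := by
    intro h
    have h1 : coeff (Finsupp.equivFunOnFinite.symm e0.1) P = residue R (c e0) := by
      simp only [P, coeff_sum, coeff_monomial]
      rw [Finset.sum_eq_single e0]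
      · simp
      · intro e _ hne
        rw [if_neg]
        intro h2
        exact hne (Subtype.ext (Finsupp.equivFunOnFinite.symm.injective h2))
      · simp
    rw [h, coeff_zero] at h1
    exact he0 ((residue_eq_zero_iff _).1 h1.symm)
  have hQ : X 0 * P ≠ 0 := mul_ne_zero (X_ne_zero _) hP
  have hex : ∃ b : Fin (r + 1) → ResidueField R, eval b (X 0 * P) ≠ 0 := by
    by_contra h
    push Not at h
    exact hQ (MvPolynomial.funext fun b => by rw [h b, map_zero])
  obtain ⟨b, hb⟩ := hex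
  choose a ha using fun i => residue_surjective (R := R) (b i)
  rw [map_mul, eval_X] at hb
  refine ⟨a, ?_, ?_⟩
  · rw [← residue_ne_zero_iff_isUnit, ha]
    exact left_ne_zero_of_mul hb
  · rw [← residue_ne_zero_iff_isUnit]
    have h2 : eval b P = residue R (∑ e : B, c e * ∏ i, a i ^ (e.1 i)) := by
      simp only [P, map_sum, map_mul, map_prod, map_pow, ha, eval_monomial]
      refine Finset.sum_congr rfl fun e _ => ?_
      rw [Finsupp.prod_fintype _ _ (by simp)]
      simp
    rw [← h2]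
    exact right_ne_zero_of_mul hb

omit [IsNoetherianRing R] [IsLocalRing R] in
theorem red_sup_pow {J m : Ideal R} (hJ : J ≤ m) {w : R} (hw : w ∈ m) (k : ℕ) :
    (J ⊔ Ideal.span {w}) ^ k * m ≤ J * m ^ k ⊔ Ideal.span {w ^ k} * m := by
  induction k with
  | zero => simp
  | succ k ih =>
    have hw' : Ideal.span {w} ≤ m := by rwa [Ideal.span_singleton_le_iff_mem]
    have hwk : Ideal.span {w ^ k} ≤ m ^ k := by
      rw [Ideal.span_singleton_le_iff_mem]
      exact Ideal.pow_mem_pow hw k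
    calc (J ⊔ Ideal.span {w}) ^ (k + 1) * m
        = (J ⊔ Ideal.span {w}) * ((J ⊔ Ideal.span {w}) ^ k * m) := by ring
      _ ≤ (J ⊔ Ideal.span {w}) * (J * m ^ k ⊔ Ideal.span {w ^ k} * m) := Ideal.mul_mono_right ih
      _ ≤ _ := by
        rw [Ideal.mul_sup]
        refine sup_le (le_sup_of_le_left ?_) ?_
        · calc (J ⊔ Ideal.span {w}) * (J * m ^ k) ≤ m * (J * m ^ k) :=
              Ideal.mul_mono_left (sup_le hJ hw')
            _ = J * m ^ (k + 1) := by ring
        · rw [Ideal.sup_mul]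
          refine sup_le (le_sup_of_le_left ?_) (le_sup_of_le_right ?_)
          · refine Ideal.mul_mono_right ?_
            rw [pow_succ]
            exact Ideal.mul_mono_left hwk
          · rw [← mul_assoc, Ideal.span_singleton_mul_span_singleton, ← pow_succ']

theorem HasRed.pred [Infinite (ResidueField R)] {d r : ℕ} (hd : ringKrullDim R = d)
    (hr : d ≤ r) (h : HasRed R (r + 1)) : HasRed R r := by
  classical
  obtain ⟨x, n0, hx, hn⟩ := h
  obtain ⟨γ, B, c, hB, hrel, hc⟩ := red_exists_rel hd (Nat.lt_succ_of_le hr) x hx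
  obtain ⟨a, ha0, hg⟩ := red_exists_point B c hc
  set m := maximalIdeal R with hm
  let x' : Fin r → R := fun i => a 0 * x i.succ - a i.succ * x 0
  have hx' : ∀ i, x' i ∈ m := fun i =>
    Ideal.sub_mem _ (Ideal.mul_mem_left _ _ (hx _)) (Ideal.mul_mem_left _ _ (hx _))
  set J := Ideal.span (Set.range x') with hJ
  have hJm : J ≤ m := by
    rw [hJ, Ideal.span_le]
    rintro _ ⟨i, rfl⟩
    exact hx' i
  have hdiff : ∀ i, a 0 * x i - a i * x 0 ∈ J := by
    intro i
    refine Fin.cases ?_ (fun j => ?_) i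
    · simp
    · exact Ideal.subset_span ⟨j, rfl⟩
  have hI : Ideal.span (Set.range x) ≤ J ⊔ Ideal.span {x 0} := by
    rw [Ideal.span_le]
    rintro _ ⟨i, rfl⟩
    have h1 : a 0 * x i ∈ J ⊔ Ideal.span {x 0} := by
      have e : a 0 * x i = (a 0 * x i - a i * x 0) + a i * x 0 := by ring
      rw [e]
      exact Ideal.add_mem _ (Ideal.mem_sup_left (hdiff i))
        (Ideal.mem_sup_right (Ideal.mul_mem_left _ _ (Ideal.mem_span_singleton_self _)))
    exact (Ideal.unit_mul_mem_iff_mem _ ha0).1 h1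
  have hR : RedRel J m γ (∑ e : B, c e * ∏ i, (a 0 * x i) ^ (e.1 i))
      (∑ e : B, c e * ∏ i, (a i * x 0) ^ (e.1 i)) := by
    refine RedRel.sum _ _ _ _ fun e _ => ?_
    have h1 := RedRel.prod (J := J) (m := m) Finset.univ (fun i => e.1 i)
      (fun i => (a 0 * x i) ^ (e.1 i)) (fun i => (a i * x 0) ^ (e.1 i)) fun i _ => by
        refine RedRel.pow ⟨?_, ?_, fun z hz => ?_⟩ _
        · rw [pow_one]; exact Ideal.mul_mem_left _ _ (hx _)
        · rw [pow_one]; exact Ideal.mul_mem_left _ _ (hx _)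
        · rw [pow_one, mul_comm z]; exact Ideal.mul_mem_mul (hdiff i) hz
    rw [hB e.1 e.2] at h1
    simpa using (RedRel.const J m (c e)).mul h1
  have e1 : ∑ e : B, c e * ∏ i, (a 0 * x i) ^ (e.1 i) =
      a 0 ^ γ * ∑ e : B, c e * ∏ i, x i ^ (e.1 i) := by
    rw [Finset.mul_sum]
    refine Finset.sum_congr rfl fun e _ => ?_
    simp only [mul_pow, Finset.prod_mul_distrib, Finset.prod_pow_eq_pow_sum, hB e.1 e.2]
    ring
  have e2 : ∑ e : B, c e * ∏ i, (a i * x 0) ^ (e.1 i) =
      (∑ e : B, c e * ∏ i, a i ^ (e.1 i)) * x 0 ^ γ := by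
    rw [Finset.sum_mul]
    refine Finset.sum_congr rfl fun e _ => ?_
    simp only [mul_pow, Finset.prod_mul_distrib, Finset.prod_pow_eq_pow_sum, hB e.1 e.2]
    ring
  rw [e1, e2] at hR
  have hw : Ideal.span {x 0 ^ γ} * m ≤ J * m ^ γ ⊔ m ^ (γ + 2) := by
    rw [Ideal.span_singleton_mul_le_iff]
    intro z hz
    refine (Ideal.unit_mul_mem_iff_mem _ hg).1 ?_
    have h1 := hR.2.2 z hz
    have h2 : z * (a 0 ^ γ * ∑ e : B, c e * ∏ i, x i ^ (e.1 i)) ∈ m ^ (γ + 2) := by
      rw [pow_succ' m (γ + 1)]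
      exact Ideal.mul_mem_mul hz (Ideal.mul_mem_left _ _ hrel)
    have e3 : (∑ e : B, c e * ∏ i, a i ^ (e.1 i)) * (x 0 ^ γ * z) =
        z * (a 0 ^ γ * ∑ e : B, c e * ∏ i, x i ^ (e.1 i)) -
          z * (a 0 ^ γ * ∑ e : B, c e * ∏ i, x i ^ (e.1 i) -
            (∑ e : B, c e * ∏ i, a i ^ (e.1 i)) * x 0 ^ γ) := by ring
    rw [e3]
    exact Ideal.sub_mem _ (Ideal.mem_sup_right h2) (Ideal.mem_sup_left h1)
  have hpow : ∀ k : ℕ, m ^ (n0 + k) ≤ Ideal.span (Set.range x) ^ k * m ^ n0 := by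
    intro k
    induction k with
    | zero => simp
    | succ k ih =>
      calc m ^ (n0 + (k + 1)) = m ^ (n0 + k) * m := by ring
        _ ≤ Ideal.span (Set.range x) ^ k * m ^ n0 * m := Ideal.mul_mono_left ih
        _ = Ideal.span (Set.range x) ^ k * m ^ (n0 + 1) := by ring
        _ ≤ Ideal.span (Set.range x) ^ k * (Ideal.span (Set.range x) * m ^ n0) :=
            Ideal.mul_mono_right hn
        _ = _ := by ring
  have hkey : m ^ (n0 + γ + 1) ≤ J * m ^ (n0 + γ) ⊔ m • m ^ (n0 + γ + 1) := by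
    calc m ^ (n0 + γ + 1) = m ^ (n0 + γ) * m := by ring
      _ ≤ Ideal.span (Set.range x) ^ γ * m ^ n0 * m := Ideal.mul_mono_left (hpow γ)
      _ = (Ideal.span (Set.range x) ^ γ * m) * m ^ n0 := by ring
      _ ≤ ((J ⊔ Ideal.span {x 0}) ^ γ * m) * m ^ n0 :=
          Ideal.mul_mono_left (Ideal.mul_mono_left (Ideal.pow_right_mono hI γ))
      _ ≤ (J * m ^ γ ⊔ m ^ (γ + 2)) * m ^ n0 :=
          Ideal.mul_mono_left ((red_sup_pow hJm (hx 0) γ).trans (sup_le le_sup_left hw))
      _ = _ := by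
          rw [Ideal.sup_mul, smul_eq_mul]
          congr 1 <;> ring
  refine ⟨x', n0 + γ, hx', ?_⟩
  exact Submodule.le_of_le_smul_of_le_jacobson_bot (IsNoetherian.noetherian _)
    (maximalIdeal_le_jacobson _) hkey

theorem exists_reduction [Infinite (ResidueField R)] {d : ℕ} (hd : ringKrullDim R = d) :
    ∃ (x : Fin d → R) (n0 : ℕ), (∀ i, x i ∈ maximalIdeal R) ∧
      maximalIdeal R ^ (n0 + 1) ≤ Ideal.span (Set.range x) * maximalIdeal R ^ n0 := by
  obtain ⟨r, hr⟩ := exists_hasRed (R := R)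
  change HasRed R d
  rcases le_total r d with h | h
  · induction d, h using Nat.le_induction with
    | base => exact hr
    | succ d _ _ =>
      have key : ∀ k, HasRed R (r + k) := fun k => by
        induction k with
        | zero => exact hr
        | succ k ih => exact ih.succ
      have := key (d + 1 - r)
      rwa [show r + (d + 1 - r) = d + 1 by omega] at this
  · obtain ⟨k, rfl⟩ := Nat.exists_eq_add_of_le h
    clear h
    induction k with
    | zero => exact hr
    | succ k ih => exact ih (HasRed.pred hd (Nat.le_add_right d k) hr)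

end Vale.Agent.P202
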