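import Vale.Agent.P202.Defs2
import Vale.Agent.P202.Main2
import Vale.Agent.P202.StepAux
import Vale.Agent.P202.Rank

/-! The main inequality at a fixed level `q`. -/

namespace Vale.Agent.P202

open IsLocalRing Filter Topology

universe u

section restrict

variable {R0 R : Type u} [CommRing R0] [CommRing R] [Algebra R0 R] {E : Type u} [AddCommGroup E]
  [Module R E] [Module R0 E] [IsScalarTower R0 R E]

theorem Zc_restrict (d : E →ₗ[R] E) (F : ℤ → Submodule R E) (n : ℤ) :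
    Zc (d.restrictScalars R0) ⊥ (fun n => (F n).restrictScalars R0) n =
      (Zc d ⊥ F n).restrictScalars R0 := rfl

theorem Bc_restrict (d : E →ₗ[R] E) (F : ℤ → Submodule R E) (n : ℤ) :
    Bc (d.restrictScalars R0) ⊥ (fun n => (F n).restrictScalars R0) n =
      (Bc d ⊥ F n).restrictScalars R0 := by
  unfold Bc
  rw [Submodule.restrictScalars_sup]
  rfl

theorem length_res_eq_one [IsLocalRing R0] [IsLocalRing R] [IsLocalHom (algebraMap R0 R)]
    (h : Function.Surjective ((residue R).comp (algebraMap R0 R))) :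
    Module.length (ResidueField R0) (ResidueField R) = 1 := by
  have h1 : Function.Surjective (algebraMap (ResidueField R0) (ResidueField R)) := by
    intro z
    obtain ⟨a, rfl⟩ := h z
    exact ⟨residue R0 a, rfl⟩
  rw [Module.length_eq_of_surjective (R := ResidueField R) h1]
  simp

theorem exists_dvd_of_finite [IsDomain R] [Nontrivial R0] [Module.Finite R0 R] {c : R}
    (hc : c ≠ 0) : ∃ c0 : R0, c0 ≠ 0 ∧ c ∣ algebraMap R0 R c0 := by
  have h := Ideal.comap_ne_bot_of_integral_mem (R := R0) (I := Ideal.span {c}) hc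
    (Ideal.mem_span_singleton_self c) (Algebra.IsIntegral.isIntegral c)
  obtain ⟨c0, h1, h2⟩ := Submodule.exists_mem_ne_zero_of_ne_bot h
  exact ⟨c0, h2, Ideal.mem_span_singleton.1 h1⟩

end restrict

theorem DD_unit' {R : Type u} [CommRing R] [IsDomain R] {m : ℕ} (x : Fin (m + 1) → R)
    (u : (Sig x)ˣ) (hu : (u : Sig x) = algebraMap R (Sig x) (x 0)) (b : Fin m → ℤ)
    (J : Fin m → Ch) (N : ℕ) :
    ∃ g : Fin (m + 1) → Sig x →ₗ[R] Sig x, (∀ v, ∑ i, x i ^ N • g i v = v) ∧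
      ∀ i s, ∀ v ∈ DD x u b (s + N) J, g i v ∈ DD x u b s J := by
  obtain ⟨g, h1, h2⟩ := DD_unit x u hu J N
  refine ⟨fun i => LinearMap.mulLeft R (g i), fun v => ?_, fun i s v hv => h2 i b s v hv⟩
  conv_rhs => rw [← one_mul v, ← h1, Finset.sum_mul]
  refine Finset.sum_congr rfl fun i _ => ?_
  rw [smul_mul_assoc, LinearMap.mulLeft_apply]

set_option maxHeartbeats 800000 in
theorem step_one {R : Type u} [CommRing R] [IsDomain R] [IsNoetherianRing R] [IsLocalRing R]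
    {m : ℕ} {x : Fin (m + 1) → R} (hx : IsSop x) {M : Type u} [AddCommGroup M] [Module R M]
    (Dd : ℤ → (Fin m → Ch) → Submodule R M) (Dcm : ∀ s, CMono (Dd s))
    (Dadd : ∀ s (N : ℕ) J, Dd (s + N) J = Ideal.span (Set.range x) ^ N • Dd s J)
    (Danti : ∀ {s s' : ℤ}, s ≤ s' → Dd s' ≤ Dd s)
    (Dunit : ∀ J (N : ℕ), ∃ g : Fin (m + 1) → M →ₗ[R] M, (∀ v, ∑ i, x i ^ N • g i v = v) ∧
      ∀ i s, ∀ v ∈ Dd (s + N) J, g i v ∈ Dd s J)
    (Dfg : ∀ s n, ((Zc (cd R m M) ⊥ (Cech (Dd s)) n).map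
      (Bc (cd R m M) ⊥ (Cech (Dd s)) n).mkQ).FG)
    (Dtors : ∀ s n, n < 0 → ∃ c : R, c ≠ 0 ∧ ∀ v ∈ Zc (cd R m M) ⊥ (Cech (Dd s)) n,
      c • v ∈ Bc (cd R m M) ⊥ (Cech (Dd s)) n)
    (Drank : ∀ s, ∃ (T : Finset ((Fin m → Ch) → M)) (c : R), T.card ≤ m.factorial ∧ c ≠ 0 ∧
      (T : Set ((Fin m → Ch) → M)) ⊆ Zc (cd R m M) ⊥ (Cech (Dd s)) 0 ∧
      ∀ v ∈ Zc (cd R m M) ⊥ (Cech (Dd s)) 0, c • v ∈ Submodule.span R (T : Set ((Fin m → Ch) → M)))
    {e : ℝ} (he : IsMult R (Ideal.span (Set.range x)) (m + 1) e) (eC C t' : ℕ) (N : ℕ)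
    (i0 : Fin (m + 1))
    (hC : ∀ (s0 : ℤ) (L : ℕ), 1 ≤ N → N ≤ L →
      (∀ j, ∀ s, s0 ≤ s → s < s0 + N → |bb N i0 j + s| < L) →
      Good (cd R m M) (Cech (Dd (s0 + N))) (Cech (Dd s0)) ∧
      (∀ n : ℤ, (∀ s, s0 ≤ s → s < s0 + N →
          n ≠ -(cdeg (Jstar (sh (bb N i0) s)) : ℤ) ∨ ∃ j, bb N i0 j + s = -1) →
        hh (lenF R) (cd R m M) (Cech (Dd (s0 + N))) (Cech (Dd s0)) n ≤
          ((C * L ^ m : ℕ) : ℕ∞)) ∧
      |chi (cd R m M) (Cech (Dd (s0 + N))) (Cech (Dd s0)) -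
        (eC : ℤ) * ∑ s ∈ Finset.range N, ∏ j, (bb N i0 j + (s0 + s) + 1)| ≤ C * (L : ℤ) ^ m)
    {R0 S0 : Type u} [CommRing R0] [IsDomain R0] [IsNoetherianRing R0]
    [IsLocalRing R0] [CommRing S0] [IsNoetherianRing S0] [IsLocalRing S0] [Algebra R0 S0]
    [IsLocalHom (algebraMap R0 S0)] [Module.Flat R0 S0] [Algebra R0 R]
    [IsLocalHom (algebraMap R0 R)] [Module.Finite R0 R] (q : ℕ) (x0 : Fin (m + 1) → R0)
    (y : Fin (m + 1) → S0) (lam : ℕ) (e0 : ℝ)
    (hres : Function.Surjective ((residue R).comp (algebraMap R0 R))) (hN : 1 ≤ N)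
    (hq : q ≤ 2 * N) (hx0q : ∀ i, algebraMap R0 R (x0 i) = x i ^ q) (hs0 : IsSop x0)
    (hmN : (maximalIdeal R0).map (algebraMap R0 R) ≤ Ideal.span (Set.range x) ^ N) (hy : IsSop y)
    (hl : Module.length S0 (S0 ⧸ mS R0 S0) = lam)
    (hz : ∀ i, algebraMap R0 S0 (x0 i ^ t') ∈ Ideal.span (Set.range y))
    (he0 : IsMult R0 (Ideal.span (Set.range x0)) (m + 1) e0) :
    ∃ (r : ℕ) (χ : ℤ → ℤ), (r : ℝ) * e0 ≤ m.factorial * (q : ℝ) ^ (m + 1) * e ∧
      (∀ l : ℤ, 1 ≤ l → l ≤ m + 1 →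
        |χ l - (eC : ℤ) * ∑ s ∈ Finset.range N, ∏ j, (bb N i0 j + (-(l * N) + s) + 1)| ≤
          C * (((2 * m + 4 + (m + 1) * (2 * t')) * N : ℕ) : ℤ) ^ m) ∧
      -(((2 * m + 3) * (m + 2) * (2 ^ (m + 1) * lam) * ((m + 1) * (2 * t' + 1) + 1) *
          (C * ((2 * m + 4 + (m + 1) * (2 * t')) * N) ^ m) : ℕ) : ℤ) ≤
        r * epsR y + ∑ l ∈ Finset.Icc (1 : ℤ) (m + 1 : ℕ), cc R0 y l * χ l := by
  let _ : Module R0 M := Module.compHom _ (algebraMap R0 R)
  have _ : IsScalarTower R0 R M := IsScalarTower.of_algebraMap_smul fun _ _ => rfl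
  obtain ⟨hxm, t, ht⟩ := hx
  obtain ⟨hx0m, t0, ht0⟩ := hs0
  obtain ⟨hym, ty, hty⟩ := hy
  have hκ := length_res_eq_one hres
  have hg0 := grow_of_isDomain x0 hx0m ht0
  have hg := grow_of_isDomain x hxm ht
  have hl' : Module.length S0 (S0 ⧸ mS R0 S0) ≠ ⊤ := by rw [hl]; exact ENat.natCast_ne_top _
  set b := bb N i0 with hb
  set G : ℤ → ℤ → Submodule R ((Fin m → Ch) → M) := fun l => Cech (Dd (-(l * N)))
    with hG
  set δ := (cd R m M).restrictScalars R0 with hδ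
  set D : ℤ → ℤ → Submodule R0 ((Fin m → Ch) → M) :=
    fun l n => (G l n).restrictScalars R0 with hD
  have eG : ∀ l, G (l - 1) = Cech (Dd (-(l * N) + N)) := fun l => by
    rw [hG]
    ring_nf
  have hhh : ∀ l n, hh (lenF R0) δ (D (l - 1)) (D l) n =
      hh (lenF R) (cd R m M) (G (l - 1)) (G l) n * ((1 : ℕ) : ℕ∞) := fun l n => by
    rw [hh_restrictScalars, hκ, Nat.cast_one]
  have hwin : ∀ (l : ℤ) (k : ℕ), |l| ≤ k → ∀ j s, -(l * N) ≤ s → s < -(l * N) + N →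
      |b j + s| < (((m + 3 + k) * N : ℕ) : ℤ) := by
    intro l k hk j s h1 h2
    have h3 : |b j| ≤ (m + 1) * N := abs_bb_le hN i0 j
    have h4 : |l * N| ≤ k * N := by
      rw [abs_mul, Nat.abs_cast]
      exact mul_le_mul_of_nonneg_right hk (by positivity)
    have h5 : (((m + 3 + k) * N : ℕ) : ℤ) = (m + 1) * N + k * N + 2 * N := by push_cast; ring
    rw [abs_le] at h3 h4
    rw [abs_lt, h5]
    constructor <;> omega
  have hsl := fun (l : ℤ) (k : ℕ) (hk : |l| ≤ k) => hC (-(l * N)) ((m + 3 + k) * N) hN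
    (Nat.le_mul_of_pos_left _ (by omega)) (hwin l k hk)
  simp only [← eG] at hsl
  have hgood : ∀ l, Good δ (D (l - 1)) (D l) ∧
      chi δ (D (l - 1)) (D l) = chi (cd R m M) (G (l - 1)) (G l) := fun l => by
    have := good_chi_of_hh_mul 1 (hhh l) (hsl l l.natAbs (by simp)).1
    simpa using this
  have hsq : δ ∘ₗ δ = 0 := by
    refine LinearMap.ext fun v => ?_
    exact LinearMap.congr_fun (cd_comp_cd (R := R) (m := m) (M := M)) v
  have hcx : ∀ l, IsCx δ (D l) := fun l n => by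
    rintro _ ⟨v, hv, rfl⟩
    exact cech_isCx (Dcm _) n ⟨v, hv, rfl⟩
  have hfix : ∀ l n, ∀ v ∈ D l n, ((cP R m M n).restrictScalars R0) v = v :=
    fun l n v hv => cP_fix hv
  have hkill : ∀ l n n', n' ≠ n → ∀ v ∈ D l n, ((cP R m M n').restrictScalars R0) v = 0 :=
    fun l n n' hn v hv => cP_kill hn hv
  have hsupp : ∀ l n, n < -(m : ℤ) ∨ 0 < n → D l n = ⊥ := fun l n hn => by
    simp only [hD, hG, cech_eq_bot _ n hn, Submodule.restrictScalars_bot]
  choose g hg1 hg2 using fun J => Dunit J (q * t')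
  set k0 : ℕ := m + 1 + (m + 1) * (2 * t') with hk0
  have eL : m + 3 + k0 = 2 * m + 4 + (m + 1) * (2 * t') := by omega
  have hη : ∀ l n : ℤ, |l| ≤ k0 → (max l 0 < -n ∨ -n ≤ min (l - 1) (m + 1) - 2) →
      hh (lenF R0) δ (D (l - 1)) (D l) n ≤ ((C * ((m + 3 + k0) * N) ^ m : ℕ) : ℕ∞) := by
    intro l n h1 h2
    rw [hhh, Nat.cast_one, mul_one]
    refine (hsl l k0 h1).2.1 n fun s s1 s2 => ?_
    by_cases h3 : ∃ j, b j + s = -1
    · exact Or.inr h3
    · push Not at h3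
      have := cdeg_window i0 l s s1 s2 h3
      left
      rw [← hb] at this
      omega
  have main := hom_main y lam hl δ hsq (fun n => (cP R m M n).restrictScalars R0) D hcx
    (fun l l' h n => cech_mono (Danti
      (neg_le_neg (mul_le_mul_of_nonneg_right h (by positivity)))) n)
    (fun l n => by
      rw [Submodule.smul_le]
      intro a ha v hv
      change a • v ∈ G (l - 1) n
      rw [eG, show Dd (-(l * N) + N) = fun J => Ideal.span (Set.range x) ^ N •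
        Dd (-(l * N)) J from funext (Dadd _ N), cech_smul, ← algebraMap_smul R a v]
      exact Submodule.smul_mem_smul (hmN (Ideal.mem_map_of_mem _ ha)) hv)
    hfix hkill hsupp (2 * t') (fun i => x0 i ^ t')
    (fun i => (LinearMap.pi fun J => g J i ∘ₗ
      (LinearMap.proj J : ((Fin m → Ch) → M) →ₗ[R] M)).restrictScalars R0) hz
    (fun v => by
      funext J
      rw [Finset.sum_apply]
      conv_rhs => rw [← hg1 J (v J)]
      refine Finset.sum_congr rfl fun i _ => ?_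
      rw [← algebraMap_smul R, map_pow, hx0q, ← pow_mul]
      rfl)
    (fun i l n => by
      rintro _ ⟨v, hv, rfl⟩
      have hv' := mem_cech.1 hv
      refine mem_cech.2 ⟨fun J hJ => hg2 J i _ _ (Danti ?_ J (hv'.1 J hJ)),
        fun J hJ => ?_⟩
      · have h1 : (q : ℤ) * t' ≤ 2 * N * t' :=
          mul_le_mul_of_nonneg_right (by exact_mod_cast hq) (by positivity)
        push_cast
        linarith
      · change g J i (v J) = 0
        rw [hv'.2 J hJ, map_zero])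
    (fun l => (hgood l).1) (C * ((m + 3 + k0) * N) ^ m)
    (fun l n h1 h2 h3 => hη l n (by rw [abs_le]; omega) (Or.inl h3))
    (fun l n h1 h2 h3 => hη l n (by rw [abs_le]; omega)
      (Or.inr (by push_cast at h3; exact h3)))
  have hfgR := Dfg (-(0 * N))
  have hce := chi_tot_eq_eps hym hty hl' hg0 δ hsq
    (fun n => (cP R m M n).restrictScalars R0) (D 0) (hcx 0) (hfix 0) (hkill 0) m (hsupp 0)
    (fun n => by
      rw [Zc_restrict, Bc_restrict]
      exact fg_restrictScalars_of_finite _ _ (hfgR n))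
    (fun n hn => by
      obtain ⟨c, hc, h1⟩ := Dtors (-(0 * N)) n hn
      obtain ⟨c0, hc0, c1, h2⟩ := exists_dvd_of_finite (R0 := R0) hc
      refine ⟨c0, hc0, fun v hv => ?_⟩
      rw [Bc_restrict, Submodule.restrictScalars_mem, ← algebraMap_smul R, h2, mul_comm, mul_smul]
      exact Submodule.smul_mem _ _ (h1 v hv))
  have hB0 : Bc (cd R m M) ⊥ (G 0) 0 = ⊥ := by
    rw [Bc, hG]
    simp only
    rw [cech_eq_bot _ (0 + 1) (Or.inr (by norm_num))]
    simp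
  have hfg0 := hfgR 0
  have hfg1 := fg_restrictScalars_of_finite (R0 := R0) _ _ hfg0
  change ((Zc (cd R m M) ⊥ (G 0) 0).map (Bc (cd R m M) ⊥ (G 0) 0).mkQ).FG at hfg0
  change (((Zc (cd R m M) ⊥ (G 0) 0).restrictScalars R0).map
    ((Bc (cd R m M) ⊥ (G 0) 0).restrictScalars R0).mkQ).FG at hfg1
  rw [hB0] at hfg0 hfg1
  rw [Submodule.restrictScalars_bot] at hfg1
  have hW := Submodule.fg_of_fg_map_injective _
    (by rw [← LinearMap.ker_eq_bot, Submodule.ker_mkQ]) hfg0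
  have hW0 := Submodule.fg_of_fg_map_injective _
    (by rw [← LinearMap.ker_eq_bot, Submodule.ker_mkQ]) hfg1
  obtain ⟨r, v, c0, hv, hli, hc0, hcv⟩ := exists_generic_basis hW0
  obtain ⟨T, c, hT, hc, hTW, hcT⟩ := Drank (-(0 * N))
  have hrk := rank_bound x0 x q hx0q hx0m hxm ht0 ht hg0 hg 1 (by rw [hκ, Nat.cast_one]) he0 he
    hW T hTW hc hcT v hv hli hc0 hcv
  have her := eps_rank hym hty hl' hg0 hW0 v hv hli hc0 hcv
  have hepos : 0 ≤ e := ge_of_tendsto' he fun n => by unfold HS; positivity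
  refine ⟨r, fun l => chi δ (D (l - 1)) (D l), hrk.trans ?_, fun l h1 h2 => ?_, ?_⟩
  · rw [Nat.cast_one, mul_one]
    gcongr
  · have := (hsl l k0 (by rw [abs_le]; omega)).2.2
    rw [eL] at this
    simp only [(hgood l).2]
    exact this
  · have := main.2
    rw [hce, Zc_restrict, her, eL] at this
    exact this

theorem core_step {R : Type u} [CommRing R] [IsDomain R] [IsNoetherianRing R] [IsLocalRing R]
    {m : ℕ} {x : Fin (m + 1) → R} (hx : IsSop x) {e : ℝ} (he0 : 0 < e)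
    (he : IsMult R (Ideal.span (Set.range x)) (m + 1) e) (t' : ℕ) :
    ∃ C : ℕ, ∀ (R0 S0 : Type u) [CommRing R0] [IsDomain R0] [IsNoetherianRing R0]
      [IsLocalRing R0] [CommRing S0] [IsNoetherianRing S0] [IsLocalRing S0] [Algebra R0 S0]
      [IsLocalHom (algebraMap R0 S0)] [Module.Flat R0 S0] [Algebra R0 R]
      [IsLocalHom (algebraMap R0 R)] [Module.Finite R0 R] (N q : ℕ) (x0 : Fin (m + 1) → R0)
      (y : Fin (m + 1) → S0) (lam lam' : ℕ) (e0 : ℝ),
      Function.Surjective ((residue R).comp (algebraMap R0 R)) → 1 ≤ N → q ≤ 2 * N →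
      (∀ i, algebraMap R0 R (x0 i) = x i ^ q) → IsSop x0 →
      (maximalIdeal R0).map (algebraMap R0 R) ≤ Ideal.span (Set.range x) ^ N → IsSop y →
      Module.length S0 (S0 ⧸ mS R0 S0) = lam →
      (lam' : ℕ∞) ≤ Module.length S0 (S0 ⧸ (mS R0 S0 ⊔ Ideal.span (Set.range y))) →
      (∀ i, algebraMap R0 S0 (x0 i ^ t') ∈ Ideal.span (Set.range y)) →
      IsMult R0 (Ideal.span (Set.range x0)) (m + 1) e0 →
      (lam' * (N : ℝ) ^ (m + 1) - lam * C * (N : ℝ) ^ m) * e0 ≤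
        (q : ℝ) ^ (m + 1) * (epsR y : ℤ) := by
  obtain ⟨t, ht⟩ := hx.2
  obtain ⟨r, a, f, hch⟩ := exists_chain x ht
  have heC : e = eChain x r a f := tendsto_nhds_unique he (tendsto_HS hch)
  have hpos : 0 < eChain x r a f := by rw [heC] at he0; exact_mod_cast he0
  have hx0 := x_ne_zero_of_eChain_pos hch hpos
  obtain ⟨u, hu⟩ := sig_isUnit x (x 0) (hx0 0)
  obtain ⟨C, hC⟩ := slice u hu (hx0 _) (hx0 _) hch
  set eC := eChain x r a f
  set c : ℕ := 2 * m + 4 + (m + 1) * (2 * t') with hc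
  set K : ℕ := (2 * m + 3) * (m + 2) * 2 ^ (m + 1) * ((m + 1) * (2 * t' + 1) + 1) with hK
  set K' : ℕ := (m + 1) * ((m + 1 + 2) * 2 ^ (m + 1)) with hK'
  refine ⟨(m + 1) * (K + K') * (C * c ^ m), ?_⟩
  intro R0 S0 _ _ _ _ _ _ _ _ _ _ _ _ _ N q x0 y lam lam' e0 hres hN hq hx0q hs0 hmN hy hl hl' hz
    he0'
  choose rk χ h1 h2 h3 using fun i0 => step_one hx (DD x u (bb N i0)) (DD_cmono x u _)
    (DD_add x u hu _) (DD_anti x u hu _)
    (DD_unit' x u hu _)
    (DD_fg u hu (hx0 _) (hx0 _) _) (DD_torsion u hu (hx0 _) (hx0 _) _)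
    (DD_rank u hu (hx0 _) (hx0 _) _) he eC C t' N i0 (fun s0 => hC _ s0 N) q x0 y lam e0 hres
    hN hq hx0q hs0 hmN hy hl hz he0'
  have hlt : Module.length S0 (S0 ⧸ mS R0 S0) ≠ ⊤ := by rw [hl]; exact ENat.natCast_ne_top _
  have hcc1 : cc R0 y 1 ≤ -(lam' : ℤ) := by
    rw [cc_one_eq y hlt, neg_le_neg_iff, Nat.cast_le]
    have hfin : Module.length S0 (S0 ⧸ (mS R0 S0 ⊔ Ideal.span (Set.range y))) ≠ ⊤ :=
      ne_top_of_le_ne_top hlt (Module.length_le_of_surjective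
        (Submodule.factor (le_sup_left : mS R0 S0 ≤ _)) (Submodule.factor_surjective _))
    have := ENat.toNat_le_toNat hl' hfin
    simpa using this
  set η : ℤ := C * ((c * N : ℕ) : ℤ) ^ m with hη
  have hη0 : 0 ≤ η := by positivity
  set P : Fin (m + 1) → ℤ → ℤ :=
    fun i0 l => ∑ s ∈ Finset.range N, ∏ j, (bb N i0 j + (-(l * N) + s) + 1) with hP
  have h4 : ∀ i0, ∑ l ∈ Finset.Icc (1 : ℤ) (m + 1 : ℕ), cc R0 y l * χ i0 l ≤
      ∑ l ∈ Finset.Icc (1 : ℤ) (m + 1 : ℕ), cc R0 y l * (eC * P i0 l) + K' * lam * η := by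
    intro i0
    rw [← sub_le_iff_le_add', ← Finset.sum_sub_distrib]
    refine (Finset.sum_le_card_nsmul _ _ ((((m + 1 : ℕ) : ℤ) + 2) * 2 ^ (m + 1) * lam * η)
      fun l hl1 => ?_).trans (le_of_eq ?_)
    · rw [Finset.mem_Icc] at hl1
      rw [← mul_sub]
      refine (le_abs_self _).trans ?_
      rw [abs_mul]
      exact mul_le_mul (abs_cc_le y lam hl l (by omega))
        (h2 i0 l hl1.1 (by push_cast at hl1; exact hl1.2)) (abs_nonneg _) (by positivity)
    · rw [Int.card_Icc, show (((m + 1 : ℕ) : ℤ) + 1 - 1).toNat = m + 1 by omega, hK']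
      push_cast
      ring
  have h5 : ∑ i0, ∑ l ∈ Finset.Icc (1 : ℤ) (m + 1 : ℕ), cc R0 y l * (eC * P i0 l) =
      cc R0 y 1 * (eC * (((m + 1).factorial : ℤ) * N ^ (m + 1))) := by
    rw [Finset.sum_comm, Finset.sum_eq_single_of_mem 1 (by rw [Finset.mem_Icc]; omega)]
    · rw [← Finset.mul_sum, ← Finset.mul_sum, sum_sum_prod_bb N 1 le_rfl (by omega), if_pos rfl]
    · intro l hl1 hl2
      rw [Finset.mem_Icc] at hl1
      rw [← Finset.mul_sum, ← Finset.mul_sum,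
        sum_sum_prod_bb N l hl1.1 (by push_cast at hl1; exact hl1.2), if_neg hl2]
      simp
  have h6 : ∀ i0, -(K * lam * η) ≤ rk i0 * epsR y +
      (∑ l ∈ Finset.Icc (1 : ℤ) (m + 1 : ℕ), cc R0 y l * (eC * P i0 l) + K' * lam * η) := by
    intro i0
    refine le_trans (le_of_eq ?_) ((h3 i0).trans (add_le_add le_rfl (h4 i0)))
    rw [hK, hη, hc]
    push_cast
    ring
  have h7 := Finset.sum_le_sum fun i0 (_ : i0 ∈ Finset.univ) => h6 i0
  rw [Finset.sum_add_distrib, Finset.sum_add_distrib, h5, ← Finset.sum_mul] at h7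
  simp only [Finset.sum_const, Finset.card_univ, Fintype.card_fin, nsmul_eq_mul] at h7
  have h8 : cc R0 y 1 * (eC * (((m + 1).factorial : ℤ) * N ^ (m + 1))) ≤
      -(lam' : ℤ) * (eC * (((m + 1).factorial : ℤ) * N ^ (m + 1))) :=
    mul_le_mul_of_nonneg_right hcc1 (by positivity)
  have h9 : (lam' : ℤ) * (eC * (((m + 1).factorial : ℤ) * N ^ (m + 1))) ≤
      (∑ i0, (rk i0 : ℤ)) * epsR y +
        lam * (((m + 1) * (K + K') * (C * c ^ m) : ℕ) : ℤ) * N ^ m := by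
    have : (lam : ℤ) * (((m + 1) * (K + K') * (C * c ^ m) : ℕ) : ℤ) * N ^ m =
        ((m + 1 : ℕ) : ℤ) * (K * lam * η) + ((m + 1 : ℕ) : ℤ) * (K' * lam * η) := by
      rw [hη]
      push_cast
      ring
    rw [this]
    linarith
  generalize (m + 1) * (K + K') * (C * c ^ m) = C1 at h9 ⊢
  have h10 : (lam' : ℝ) * (e * (((m + 1).factorial : ℝ) * N ^ (m + 1))) ≤
      (∑ i0, (rk i0 : ℝ)) * (epsR y : ℤ) + lam * (C1 : ℝ) * N ^ m := by
    rw [heC]
    exact_mod_cast h9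
  have h11 : (∑ i0, (rk i0 : ℝ)) * e0 ≤ ((m + 1).factorial : ℝ) * (q : ℝ) ^ (m + 1) * e := by
    rw [Finset.sum_mul]
    refine (Finset.sum_le_card_nsmul _ _ _ fun i0 _ => h1 i0).trans (le_of_eq ?_)
    rw [Finset.card_univ, Fintype.card_fin, Nat.factorial_succ]
    push_cast
    ring
  have hepos : 0 ≤ e0 := ge_of_tendsto' he0' fun n => by unfold HS; positivity
  have heps : (0 : ℝ) ≤ (epsR y : ℤ) := by
    obtain ⟨ty, hty⟩ := hy.2
    have : KHyp y Finset.univ (⊥ : Submodule S0 S0) ⊤ :=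
      ⟨bot_le, Submodule.FG.map _ (IsNoetherian.noetherian _), ty,
        hty.trans (le_sup_of_le_left (by simp))⟩
    exact_mod_cast eps_nonneg this
  have hF : (1 : ℝ) ≤ e * ((m + 1).factorial : ℝ) := by
    rw [heC]
    have := Nat.factorial_pos (m + 1)
    exact_mod_cast Nat.mul_pos hpos this
  set F : ℝ := e * ((m + 1).factorial : ℝ) with hFdef
  refine le_of_mul_le_mul_left (a := F) ?_ (by linarith)
  have h12 := mul_le_mul_of_nonneg_right h10 hepos
  have h13 := mul_le_mul_of_nonneg_right h11 heps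
  have h14 : lam * (C1 : ℝ) * N ^ m * e0 ≤ F * (lam * (C1 : ℝ) * N ^ m * e0) :=
    le_mul_of_one_le_left (by positivity) hF
  rw [hFdef] at h14 ⊢
  nlinarith

end Vale.Agent.P202
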